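import Vale.Agent.P019.FieldA

open scoped IntermediateField

namespace Vale.Agent.P019

variable {k K : Type*} [Field k] [Field K] [Algebra k K]

theorem fieldb_pf {S : Set K} (hS : S.Finite) (h : pc k S = ⊤) : PF k K :=
  ⟨hS.toFinset, by rwa [hS.coe_toFinset]⟩

theorem fieldb_pi {S : Set K} (h : pc k S = ⊤) :
    IsPurelyInseparable (IntermediateField.adjoin k S) K :=
  (isPurelyInseparable_iff_pow_mem _ (ringExpChar K)).2 fun x =>
    (mem_pc.1 (h ▸ trivial : x ∈ pc k S)).imp fun _ hx => ⟨⟨_, hx⟩, rfl⟩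

theorem fieldb_over (A : Type*) [Field A] [Algebra k A] [Algebra A K] [IsScalarTower k A K]
    {S : Set K} {x : K} (hx : x ∈ pc k S) : x ∈ pc A S := by
  simpa using map_mem_pc (k' := A) (RingHom.id K)
    (fun c => ⟨algebraMap k A c, (IsScalarTower.algebraMap_apply k A K c).symm⟩) hx

theorem fieldb_tower {S T : Set K} (h : pc (IntermediateField.adjoin k S) T = ⊤) :
    pc k (S ∪ T) = ⊤ := eq_top_iff.2 fun x _ => mem_pc.2 <|
  (mem_pc.1 (h ▸ trivial : x ∈ pc (IntermediateField.adjoin k S) T)).imp fun _ hx => by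
    rw [← IntermediateField.adjoin_adjoin_left]
    exact hx

theorem fieldb_emb (h : PF k K) (A : Type*) [Field A] [Algebra k A] [Algebra A K]
    [IsScalarTower k A K] [Algebra.IsAlgebraic A K] : Finite (Field.Emb A K) := by
  obtain ⟨S, hS⟩ := h
  have := fieldb_pi (k := A) (S := (S : Set K))
    (eq_top_iff.2 fun x _ => fieldb_over A (hS.ge trivial))
  have : FiniteDimensional A (IntermediateField.adjoin A (S : Set K)) :=
    IntermediateField.finiteDimensional_adjoin fun x _ => Algebra.IsIntegral.isIntegral x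
  exact .of_equiv _ (Field.embProdEmbOfIsAlgebraic A (IntermediateField.adjoin A (S : Set K)) K)

theorem fieldb_sc (A N : Type*) [Field A] [Field N] [Algebra A N] [Algebra.IsAlgebraic A N] :
    Module.finrank A (separableClosure A N) = Field.finSepDegree A N := by
  rw [← Field.finSepDegree_mul_finSepDegree_of_isAlgebraic A (separableClosure A N) N,
    IsPurelyInseparable.finSepDegree_eq_one (separableClosure A N) N, mul_one,
    Field.finSepDegree_eq_finrank_of_isSeparable]

theorem fieldb_fd (A N : Type*) [Field A] [Field N] [Algebra A N] [Algebra.IsAlgebraic A N]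
    [Finite (Field.Emb A N)] : FiniteDimensional A (separableClosure A N) :=
  Module.finite_of_finrank_pos (fieldb_sc A N ▸ Nat.card_pos)

theorem fieldb_prim (A N : Type*) [Field A] [Field N] [Algebra A N] [Algebra.IsAlgebraic A N]
    [Finite (Field.Emb A N)] : ∃ z : N, IsSeparable A z ∧ pc A {z} = ⊤ := by
  have := fieldb_fd A N
  obtain ⟨z, hz⟩ := Field.exists_primitive_element A (separableClosure A N)
  have e := congrArg IntermediateField.lift hz
  rw [IntermediateField.lift_adjoin_simple, IntermediateField.lift_top] at e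
  refine ⟨z, z.2, eq_top_iff.2 fun x _ => ?_⟩
  obtain ⟨n, y, hy⟩ := IsPurelyInseparable.pow_mem (separableClosure A N) (ringExpChar N) x
  exact mem_pc.2 ⟨n, by rw [e, ← hy]; exact y.2⟩

/-- `K = pc k T` with `T` finite; `pc k S` is perfect and `(pc k S)(T)` is finite over it, hence
perfect, hence everything. -/
theorem PF.finite_pc [PerfectField K] (h : PF k K) {S : Set K} (hS : ac k S = ⊤) :
    FiniteDimensional (pc k S) K := by
  have := perfect_pc (k := k) S
  have : Algebra.IsAlgebraic (pc k S) K := ⟨fun x => isAlgebraic_pc_iff.2 (hS ▸ trivial)⟩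
  have := fieldb_emb h (pc k S)
  refine Module.finite_of_finrank_pos ?_
  rw [← Field.finSepDegree_eq_finrank_of_isSeparable]
  exact Nat.card_pos

/-- primitive element of the separable closure of `k(S)` in `k(S, T)` -/
theorem PF.exists_prim (h : PF k K) {S : Set K} (hS : ac k S = ⊤) :
    ∃ z : K, IsSeparable (IntermediateField.adjoin k S) z ∧ pc k (insert z S) = ⊤ := by
  have : Algebra.IsAlgebraic (IntermediateField.adjoin k S) K := ⟨fun x => mem_ac.1 (hS ▸ trivial)⟩
  have := fieldb_emb h (IntermediateField.adjoin k S)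
  obtain ⟨z, h1, h2⟩ := fieldb_prim (IntermediateField.adjoin k S) K
  exact ⟨z, h1, by simpa using fieldb_tower h2⟩

theorem PF.finite_emb (h : PF k K) (A : Type*) [Field A] [Algebra k A] [Algebra A K]
    [IsScalarTower k A K] [Algebra.IsAlgebraic A K] : Finite (Field.Emb A K) := fieldb_emb h A

/-- bounded degrees of separable elements give finitely many embeddings -/
theorem finite_emb_of_bound (A N : Type*) [Field A] [Field N] [Algebra A N]
    [Algebra.IsAlgebraic A N] (B : ℕ)
    (h : ∀ z : N, IsSeparable A z → (minpoly A z).natDegree ≤ B) : Finite (Field.Emb A N) := by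
  have : FiniteDimensional A (separableClosure A N) := by
    by_contra h0
    obtain ⟨L, _, hL⟩ := IntermediateField.exists_lt_finrank_of_infinite_dimensional h0 B
    obtain ⟨z, hz⟩ := Field.exists_primitive_element A L
    have := h z.1.1 z.1.2
    rw [← IntermediateField.minpoly_eq, ← IntermediateField.minpoly_eq,
      ← IntermediateField.adjoin.finrank (Algebra.IsIntegral.isIntegral z), hz,
      IntermediateField.finrank_top'] at this
    omega
  exact .of_equiv _ (Field.embProdEmbOfIsAlgebraic A (separableClosure A N) N)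

theorem natDegree_le_finSepDegree (A N : Type*) [Field A] [Field N] [Algebra A N]
    [Algebra.IsAlgebraic A N] [Finite (Field.Emb A N)] {z : N} (hz : IsSeparable A z) :
    (minpoly A z).natDegree ≤ Field.finSepDegree A N := by
  have := fieldb_fd A N
  rw [← fieldb_sc, ← IntermediateField.adjoin.finrank hz.isIntegral]
  exact IntermediateField.finrank_le_of_le_right (IntermediateField.adjoin_simple_le_iff.2 hz)

open scoped IntermediateField.algebraAdjoinAdjoin in
theorem fieldb_deg {ι : Type*} {B : ι → K} (hB : AlgebraicIndependent k B) {z : K}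
    (hz : IsIntegral k z) : (minpoly k z).natDegree ≤
      (minpoly (IntermediateField.adjoin k (Set.range B)) z).natDegree := by
  have : IsIntegrallyClosed (Algebra.adjoin k (Set.range B)) :=
    IsIntegrallyClosed.of_equiv hB.aevalEquiv.toRingEquiv
  have hz' : IsIntegral (Algebra.adjoin k (Set.range B)) z := hz.tower_top
  have hm := minpoly.monic hz'
  rw [minpoly.isIntegrallyClosed_eq_field_fractions' (IntermediateField.adjoin k (Set.range B)) hz',
    hm.natDegree_map]
  have := IntermediateField.adjoin.finiteDimensional hz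
  have hB' : AlgebraicIndependent k⟮z⟯ B := hB.extendScalars _
  let ψ : Algebra.adjoin k (Set.range B) →+* MvPolynomial ι k⟮z⟯ :=
    (MvPolynomial.map (algebraMap k k⟮z⟯)).comp hB.repr.toRingHom
  let φ : Algebra.adjoin k (Set.range B) →+* k := MvPolynomial.constantCoeff.comp hB.repr.toRingHom
  have h1 : Polynomial.eval₂ ψ (MvPolynomial.C (IntermediateField.AdjoinSimple.gen k z))
      (minpoly _ z) = 0 := by
    refine hB' ?_
    have e : (MvPolynomial.aeval B : MvPolynomial ι k⟮z⟯ →ₐ[k⟮z⟯] K).toRingHom.comp ψ =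
        algebraMap _ K := RingHom.ext fun a =>
      (MvPolynomial.aeval_map_algebraMap _ _ _).trans (hB.aeval_repr a)
    refine (Polynomial.hom_eval₂ _ ψ
      (MvPolynomial.aeval B : MvPolynomial ι k⟮z⟯ →ₐ[k⟮z⟯] K).toRingHom _).trans ?_
    rw [e, map_zero]
    simp [← Polynomial.aeval_def]
  have h2 := congrArg ((algebraMap k⟮z⟯ K).comp MvPolynomial.constantCoeff) h1
  rw [Polynomial.hom_eval₂, map_zero] at h2
  rw [← hm.natDegree_map φ]
  refine Polynomial.natDegree_le_natDegree (minpoly.min k z (hm.map φ) ?_)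
  have e : (algebraMap k K).comp φ =
      ((algebraMap k⟮z⟯ K).comp MvPolynomial.constantCoeff).comp ψ := RingHom.ext fun a => by
    simp [φ, ψ]
  rw [Polynomial.aeval_def, Polynomial.eval₂_map, e, ← h2]
  simp

theorem fieldb_sub (F A : Type*) [Field F] [Field A] [Algebra F A] [Algebra A K] [Algebra F K]
    [IsScalarTower F A K] [Algebra.IsAlgebraic F A] (h : PF F K) : Finite (Field.Emb F A) := by
  obtain ⟨B, hB⟩ := exists_isTranscendenceBasis F K
  have := hB.isAlgebraic_field
  have := fieldb_emb h (IntermediateField.adjoin F (Set.range ((↑) : B → K)))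
  refine finite_emb_of_bound F A (Field.finSepDegree
    (IntermediateField.adjoin F (Set.range ((↑) : B → K))) K) fun z hz => ?_
  have hz' : IsSeparable F (algebraMap A K z) :=
    hz.map (IsScalarTower.toAlgHom F A K) (algebraMap A K).injective
  rw [← minpoly.algebraMap_eq (algebraMap A K).injective]
  exact (fieldb_deg hB.1 hz'.isIntegral).trans (natDegree_le_finSepDegree _ K (hz'.tower_top _))

/-- Take a transcendence basis `B₀` of `A`, extend it to a basis `B` of `K`. An element of `A`
separable over `k(B₀)` keeps its minimal polynomial over `k(B)`, so the degrees are bounded; take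
one of maximal degree. -/
theorem PF.intermediate (h : PF k K) (A : IntermediateField k K) : PF k A := by
  obtain ⟨s, hs⟩ := exists_isTranscendenceBasis k A
  obtain ⟨d, hd⟩ := h.trdeg_nat
  have hf : s.Finite := by
    rw [← Cardinal.lt_aleph0_iff_set_finite, hs.cardinalMk_eq_trdeg]
    exact ((trdeg_le_of_injective A.val A.val.injective).trans hd.le).trans_lt
      Cardinal.natCast_lt_aleph0
  have := hs.isAlgebraic_field
  rw [Subtype.range_coe] at this
  have := fieldb_sub (IntermediateField.adjoin k s) A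
    (h.imp fun S hS => eq_top_iff.2 fun x _ => fieldb_over _ (hS.ge trivial))
  obtain ⟨z, -, hz⟩ := fieldb_prim (IntermediateField.adjoin k s) A
  exact fieldb_pf (hf.union (Set.finite_singleton z)) (fieldb_tower hz)

theorem PF.of_finite (h : PF k K) (K' : Type*) [Field K'] [Algebra k K'] [Algebra K K']
    [IsScalarTower k K K'] [FiniteDimensional K K'] : PF k K' := by
  obtain ⟨S, hS⟩ := h
  obtain ⟨T, hT⟩ := IntermediateField.fg_top K K'
  refine fieldb_pf ((S.finite_toSet.image (algebraMap K K')).union T.finite_toSet)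
    (eq_top_iff.2 fun x _ => ?_)
  refine (Subfield.closure_le (t := (pc k _).toSubfield)).2 ?_
    (hT ▸ trivial : x ∈ IntermediateField.adjoin K (T : Set K'))
  rintro _ (⟨c, rfl⟩ | h)
  · exact pc_le_pc (Set.subset_union_left.trans (subset_pc _))
      ((algHom_mem_pc_iff (IsScalarTower.toAlgHom k K K')).2 (hS ▸ trivial))
  · exact subset_pc _ (.inr h)

theorem PF.of_pi (h : PF k K) {K' : Type*} [Field K'] [Algebra k K'] (φ : K →ₐ[k] K')
    (hφ : ∀ y : K', ∃ n : ℕ, y ^ ringExpChar K' ^ n ∈ φ.range) : PF k K' := by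
  obtain ⟨S, hS⟩ := h
  refine fieldb_pf (S.finite_toSet.image φ) (eq_top_iff.2 fun y _ => ?_)
  obtain ⟨n, x, hx⟩ := hφ y
  exact mem_pc_of_pow n (hx ▸ (algHom_mem_pc_iff φ).2 (hS ▸ trivial))

theorem PF.over (h : PF k K) (A : Type*) [Field A] [Algebra k A] [Algebra A K]
    [IsScalarTower k A K] : PF A K :=
  h.imp fun _ hS => eq_top_iff.2 fun _ _ => fieldb_over A (hS.ge trivial)

theorem PF.pc_finset (S : Finset K) : PF k (pc k (S : Set K)) := by
  refine fieldb_pf (S.finite_toSet.preimage (f := (pc k (S : Set K)).val)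
    Subtype.val_injective.injOn) (eq_top_iff.2 fun x _ => ?_)
  rw [← algHom_mem_pc_iff (pc k (S : Set K)).val, Set.image_preimage_eq_of_subset
    fun y hy => ⟨⟨y, subset_pc _ hy⟩, rfl⟩]
  exact x.2

theorem PFC_ac (h : PF k K) {t : K} (ht : Transcendental k t) : PFC k (ac k {t}) :=
  ⟨h.intermediate _, trdeg_ac_single ht⟩

theorem Std.ac {ℓ d : ℕ} (h : Std ℓ k K d) {t : K} (ht : Transcendental k t) :
    Std ℓ k (ac k {t}) 1 :=
  have := h.perf
  ⟨perfect_ac _, h.pf.intermediate _, h.char, by simpa using trdeg_ac_single ht⟩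

theorem Std.of_finite {ℓ d : ℕ} (h : Std ℓ k K d) (K' : Type*) [Field K'] [Algebra k K']
    [Algebra K K'] [IsScalarTower k K K'] [FiniteDimensional K K'] : Std ℓ k K' d :=
  have := h.perf
  ⟨Algebra.IsAlgebraic.perfectField K, h.pf.of_finite K', h.char, trdeg_eq_of_isAlgebraic.2 h.dim⟩

theorem Std.pfc {ℓ : ℕ} (h : Std ℓ k K 1) : PFC k K := ⟨h.pf, by simpa using h.dim⟩

theorem fieldb_perf (y : perfectClosure K (AlgebraicClosure K)) :
    ∃ n : ℕ, y ^ ringExpChar (perfectClosure K (AlgebraicClosure K)) ^ n ∈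
      (algebraMap K (perfectClosure K (AlgebraicClosure K))).range := by
  rw [fielda_exp (algebraMap K _)]
  exact IsPurelyInseparable.pow_mem K (ringExpChar K) y

/-- the perfect closure -/
theorem PF.std_perf {ℓ d : ℕ} (h : PF k K) (hl : (ℓ : k) ≠ 0)
    (hd : Algebra.trdeg k K = (d : Cardinal)) :
    Std ℓ k (perfectClosure K (AlgebraicClosure K)) d :=
  ⟨inferInstance, h.of_pi (IsScalarTower.toAlgHom k K _) fieldb_perf, hl,
    trdeg_eq_of_isAlgebraic.2 hd⟩

theorem perf_pi (y : perfectClosure K (AlgebraicClosure K)) :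
    ∃ n : ℕ, y ^ ringExpChar (perfectClosure K (AlgebraicClosure K)) ^ n ∈
      (algebraMap K (perfectClosure K (AlgebraicClosure K))).range := fieldb_perf y

theorem fieldb_eq (F E N : Type*) [Field F] [Field E] [Field N] [Algebra F E] [Algebra E N]
    [Algebra F N] [IsScalarTower F E N] [Algebra.IsAlgebraic E N]
    (h : ∀ y : E, ∃ n : ℕ, y ^ ringExpChar E ^ n ∈ (algebraMap F E).range) :
    Field.finSepDegree F N = Field.finSepDegree E N := by
  rw [fielda_exp (algebraMap F E)] at h
  have := (isPurelyInseparable_iff_pow_mem F (ringExpChar F)).2 h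
  rw [← Field.finSepDegree_mul_finSepDegree_of_isAlgebraic F E N,
    IsPurelyInseparable.finSepDegree_eq_one, one_mul]

/-- a finite Galois hull -/
theorem exists_galois_hull (E : Type*) {K : Type*} [Field E] [Field K] [Algebra E K]
    [FiniteDimensional E K] [Algebra.IsSeparable E K] :
    ∃ M : IntermediateField K (AlgebraicClosure K), FiniteDimensional E M ∧ IsGalois E M := by
  let N := IntermediateField.normalClosure E K (AlgebraicClosure K)
  have : ∀ f : K →ₐ[E] AlgebraicClosure K, Algebra.IsSeparable E f.fieldRange := fun f =>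
    AlgEquiv.Algebra.isSeparable (AlgEquiv.ofInjectiveField f)
  have h1 : Algebra.IsSeparable E N := IntermediateField.isSeparable_iSup E _
  have h2 : IsGalois E N := ⟨⟩
  have h3 : FiniteDimensional E N := inferInstance
  exact ⟨N.toSubfield.toIntermediateField fun x => AlgHom.fieldRange_le_normalClosure
    (IsScalarTower.toAlgHom E K _) ⟨x, rfl⟩, h3, h2⟩

/-! separable degree over `k(x)` -/

theorem fieldb_le {A B : IntermediateField k K} (h : A ≤ B) [Algebra.IsAlgebraic B K]
    (h' : ∀ y ∈ B, ∃ n : ℕ, y ^ ringExpChar K ^ n ∈ A) :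
    Field.finSepDegree A K = Field.finSepDegree B K := by
  let _ : Algebra A B := (IntermediateField.inclusion h).toAlgebra
  have : IsScalarTower A B K := .of_algebraMap_eq fun _ => rfl
  refine fieldb_eq A B K fun y => ?_
  rw [← fielda_exp (algebraMap B K)]
  exact (h' y y.2).imp fun m hm => ⟨⟨_, hm⟩, rfl⟩

theorem sdeg_pow (hd : Algebra.trdeg k K ≤ 1) {x : K} (hx : Transcendental k x) (n : ℕ) :
    sdeg k (x ^ ringExpChar K ^ n) = sdeg k x := by
  have := isAlgebraic_of_trdeg_one hd hx
  exact fieldb_le (IntermediateField.adjoin_simple_le_iff.2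
    (pow_mem (IntermediateField.mem_adjoin_simple_self k x) _)) fun y hy =>
    mem_pc.1 (IntermediateField.adjoin_simple_le_iff.2 (mem_pc_of_pow n (self_mem_pc _)) hy)

theorem sdeg_pi {K' : Type*} [Field K'] [Algebra k K'] (φ : K →ₐ[k] K')
    (hφ : ∀ y : K', ∃ n : ℕ, y ^ ringExpChar K' ^ n ∈ φ.range) (hd : Algebra.trdeg k K ≤ 1)
    {x : K} (hx : Transcendental k x) : sdeg k (φ x) = sdeg k x := by
  have := isAlgebraic_of_trdeg_one hd hx
  let _ : Algebra K K' := φ.toAlgebra
  rw [fielda_exp φ.toRingHom] at hφ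
  have := (isPurelyInseparable_iff_pow_mem K (ringExpChar K)).2 hφ
  have e : k⟮x⟯.map φ = k⟮φ x⟯ := by rw [IntermediateField.adjoin_map, Set.image_singleton]
  let ψ : k⟮x⟯ →+* k⟮φ x⟯ := (algebraMap k⟮x⟯ K').codRestrict _ fun y => e ▸ ⟨y, y.2, rfl⟩
  let _ : Algebra k⟮x⟯ k⟮φ x⟯ := ψ.toAlgebra
  have : IsScalarTower k⟮x⟯ k⟮φ x⟯ K' := .of_algebraMap_eq fun _ => rfl
  have : Algebra.IsAlgebraic k⟮x⟯ K' := .trans _ K _
  have : Algebra.IsAlgebraic k⟮φ x⟯ K' := .tower_top (K := k⟮x⟯) _
  rw [sdeg, sdeg, ← fieldb_eq k⟮x⟯ k⟮φ x⟯ K' fun y => ⟨0, by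
      obtain ⟨a, ha, h⟩ : y.1 ∈ k⟮x⟯.map φ := e.ge y.2
      exact ⟨⟨a, ha⟩, (Subtype.ext h).trans (pow_one y).symm⟩⟩,
    ← Field.finSepDegree_mul_finSepDegree_of_isAlgebraic k⟮x⟯ K K',
    IsPurelyInseparable.finSepDegree_eq_one K K', mul_one]

theorem sdeg_eq_finrank {x : K} [FiniteDimensional k⟮x⟯ K] [Algebra.IsSeparable k⟮x⟯ K] :
    sdeg k x = Module.finrank k⟮x⟯ K := Field.finSepDegree_eq_finrank_of_isSeparable _ _

theorem sdeg_le_finrank {x : K} [FiniteDimensional k⟮x⟯ K] :
    sdeg k x ≤ Module.finrank k⟮x⟯ K := Field.finSepDegree_le_finrank _ _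

theorem PFC.sdeg_pos (h : PFC k K) {x : K} (hx : Transcendental k x) : 0 < sdeg k x :=
  have := isAlgebraic_of_trdeg_one h.2.le hx
  have := h.1.finite_emb k⟮x⟯
  Nat.card_pos

theorem PFC.finite_emb (h : PFC k K) {x : K} (hx : Transcendental k x) :
    Finite (Field.Emb k⟮x⟯ K) :=
  have := isAlgebraic_of_trdeg_one h.2.le hx
  h.1.finite_emb k⟮x⟯

theorem fieldb_key {ι : Type*} (y : ι → K) (g : K) (P : MvPolynomial (Option ι) k) :
    MvPolynomial.aeval (fun o : Option ι => o.elim g y) P = Polynomial.eval₂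
      (MvPolynomial.aeval y : _ →ₐ[k] K).toRingHom g (MvPolynomial.optionEquivLeft k ι P) := by
  induction P using MvPolynomial.induction_on with
  | C c => simp [MvPolynomial.optionEquivLeft_C]
  | add P Q h1 h2 => rw [map_add, map_add, Polynomial.eval₂_add, h1, h2]
  | mul_X P o h =>
    rw [map_mul, map_mul, Polynomial.eval₂_mul, h]
    cases o <;> simp [MvPolynomial.optionEquivLeft_X_some, MvPolynomial.optionEquivLeft_X_none]

theorem fieldb_small (C : Type*) [Field C] [Algebra k C] [Algebra C K] [IsScalarTower k C K]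
    {ι : Type*} {y : ι → K} (hy : AlgebraicIndependent k y) (y' : ι → C)
    (hy' : ∀ i, algebraMap C K (y' i) = y i) {D : ℕ} {g : K} (h : Small k y D g) :
    IsAlgebraic C g ∧ (minpoly C g).natDegree ≤ D := by
  obtain ⟨P, h0, hD, hP⟩ := h
  let ψ := (MvPolynomial.aeval y' : _ →ₐ[k] C).toRingHom
  have e : (algebraMap C K).comp ψ = (MvPolynomial.aeval y : _ →ₐ[k] K).toRingHom :=
    MvPolynomial.ringHom_ext (fun c => by simp [ψ, ← IsScalarTower.algebraMap_apply])
      fun i => by simp [ψ, hy']
  have hψ : Function.Injective ψ := .of_comp (f := algebraMap C K) (by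
    rw [← RingHom.coe_comp, e]
    exact hy)
  have h1 : (MvPolynomial.optionEquivLeft k ι P).map ψ ≠ 0 :=
    (Polynomial.map_ne_zero_iff hψ).2 ((map_ne_zero_iff _ (AlgEquiv.injective _)).2 h0)
  have h2 : Polynomial.aeval g ((MvPolynomial.optionEquivLeft k ι P).map ψ) = 0 := by
    rw [Polynomial.aeval_def, Polynomial.eval₂_map, e, ← fieldb_key, hP]
  refine ⟨⟨_, h1, h2⟩, (Polynomial.natDegree_le_of_dvd (minpoly.dvd C g h2) h1).trans
    (Polynomial.natDegree_map_le.trans ?_)⟩
  rw [MvPolynomial.natDegree_optionEquivLeft]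
  exact (MvPolynomial.degreeOf_le_totalDegree _ _).trans hD

/-- a small element generates an extension of small degree -/
theorem Small.natDegree_le {ι : Type*} {y : ι → K} (hy : AlgebraicIndependent k y) {D : ℕ} {g : K}
    (h : Small k y D g) :
    IsAlgebraic (IntermediateField.adjoin k (Set.range y)) g ∧
      (minpoly (IntermediateField.adjoin k (Set.range y)) g).natDegree ≤ D :=
  fieldb_small _ hy (fun i => ⟨y i, IntermediateField.subset_adjoin k _ ⟨i, rfl⟩⟩) (fun _ => rfl) h

theorem Small.mono {ι : Type*} {y : ι → K} {D D' : ℕ} {g : K} (h : Small k y D g) (hD : D ≤ D') :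
    Small k y D' g := h.imp fun _ h => ⟨h.1, h.2.1.trans hD, h.2.2⟩

theorem small_of_mem_ac {ι : Type*} {y : ι → K} {g : K} (h : g ∈ ac k (Set.range y)) :
    ∃ D, Small k y D g := by
  obtain ⟨q, h0, hq⟩ := fielda_mem.1 h
  let ψ : MvPolynomial ι k →+* Algebra.adjoin k (Set.range y) :=
    (MvPolynomial.aeval y : _ →ₐ[k] K).toRingHom.codRestrict _ fun P => by
      rw [Algebra.adjoin_range_eq_range_aeval]
      exact ⟨P, rfl⟩
  have hψ : Function.Surjective ψ := fun a => by
    obtain ⟨P, hP⟩ : a.1 ∈ (MvPolynomial.aeval y : _ →ₐ[k] K).range :=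
      Algebra.adjoin_range_eq_range_aeval k y ▸ a.2
    exact ⟨P, Subtype.ext hP⟩
  obtain ⟨Q, rfl⟩ := Polynomial.map_surjective ψ hψ q
  refine ⟨_, (MvPolynomial.optionEquivLeft k ι).symm Q, (map_ne_zero_iff _
    (AlgEquiv.injective _)).2 fun h => h0 (by rw [h, Polynomial.map_zero]), le_rfl, ?_⟩
  rw [fieldb_key, AlgEquiv.apply_symm_apply, ← hq, Polynomial.aeval_def, Polynomial.eval₂_map]
  rfl

theorem Small.mem_ac {ι : Type*} {y : ι → K} (hy : AlgebraicIndependent k y) {D : ℕ} {g : K}
    (h : Small k y D g) : g ∈ ac k (Set.range y) := P019.mem_ac.2 (h.natDegree_le hy).1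

theorem small_const {ι : Type*} (y : ι → K) (c : k) : Small k y 1 (algebraMap k K c) := by
  refine ⟨MvPolynomial.X none - MvPolynomial.C c, fun h => ?_,
    (MvPolynomial.totalDegree_sub _ _).trans (by simp), by simp⟩
  simpa using congrArg (MvPolynomial.eval fun _ => c + 1) h

theorem fieldb_simple {z : K} (h : pc k {z} = ⊤) (hz : IsAlgebraic k z) :
    Algebra.IsAlgebraic k K ∧ Field.finSepDegree k K ≤ (minpoly k z).natDegree := by
  have := fieldb_pi h
  have := IntermediateField.adjoin.finiteDimensional hz.isIntegral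
  refine ⟨.trans _ k⟮z⟯ _, ?_⟩
  rw [← Field.finSepDegree_mul_finSepDegree_of_isAlgebraic k k⟮z⟯ K,
    IsPurelyInseparable.finSepDegree_eq_one _ K, mul_one,
    ← IntermediateField.adjoin.finrank hz.isIntegral]
  exact Field.finSepDegree_le_finrank _ _

/-- `[K : k(u)]_s ≤ [K : k(y, u)]_s [k(y, u) : k(u)] ≤ sdeg y * D` and `sdeg y ≤ D`. -/
theorem sdeg_le_of_small [IsAlgClosed k] {y z u : K} (hy : Transcendental k y)
    (htop : pc k {y, z} = ⊤) {D D' : ℕ} (hz : Small k (fun _ : Unit => y) D z)
    (hu : Small k (fun _ : Unit => y) D' u) (hu' : Transcendental k u) : sdeg k u ≤ D * D' := by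
  have i1 : AlgebraicIndependent k fun _ : Unit => y := algebraicIndependent_unique_type_iff.2 hy
  have i2 : AlgebraicIndependent k fun _ : Unit => u := algebraicIndependent_unique_type_iff.2 hu'
  have hy' : Small k (fun _ : Unit => u) D' y := by
    obtain ⟨P, h0, hD, hP⟩ := hu
    refine ⟨MvPolynomial.rename (Equiv.swap none (some ())) P,
      (map_ne_zero_iff _ (MvPolynomial.rename_injective _ (Equiv.injective _))).2 h0,
      (MvPolynomial.totalDegree_rename_le _ _).trans hD, ?_⟩
    rw [MvPolynomial.aeval_rename, ← hP]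
    congr 2
    funext o
    rcases o with _ | ⟨⟨⟩⟩ <;> simp
  obtain ⟨a1, a2⟩ := fieldb_small k⟮u⟯ i2 (fun _ => IntermediateField.AdjoinSimple.gen k u)
    (fun _ => rfl) hy'
  have : IsScalarTower k k⟮u⟯⟮y⟯ K := .of_algebraMap_eq fun _ => rfl
  obtain ⟨b1, b2⟩ := fieldb_small k⟮u⟯⟮y⟯ i1 (fun _ => IntermediateField.AdjoinSimple.gen k⟮u⟯ y)
    (fun _ => rfl) hz
  have c : pc k⟮u⟯⟮y⟯ {z} = ⊤ := eq_top_iff.2 fun x _ => pc_le_pc (S := {y, z}) (by
    rintro _ (rfl | rfl)
    · exact (pc _ _).algebraMap_mem (IntermediateField.AdjoinSimple.gen k⟮u⟯ _)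
    · exact self_mem_pc _) (fieldb_over _ (htop.ge trivial))
  obtain ⟨c1, c2⟩ := fieldb_simple c b1
  rw [sdeg, ← Field.finSepDegree_mul_finSepDegree_of_isAlgebraic k⟮u⟯ k⟮u⟯⟮y⟯ K, mul_comm]
  refine Nat.mul_le_mul (c2.trans b2)
    ((IntermediateField.finSepDegree_adjoin_simple_le_finrank _ _ _ a1).trans ?_)
  rwa [IntermediateField.adjoin.finrank a1.isIntegral]

end Vale.Agent.P019
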