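import Vale.Agent.P019.ValC
import Vale.Agent.P019.FieldB

open scoped IntermediateField

namespace Vale.Agent.P019

variable {ℓ : ℕ} [Fact ℓ.Prime] {k K : Type*} [Field k] [Field K] [Algebra k K]
  {O : ValuationSubring K}

theorem ab_mono_ne {J : Type*} [Fintype J] {x : J → K} (hx : VInd k O x) {c : k} (hc : c ≠ 0)
    (a : J → ℕ) : algebraMap k K c * ∏ j, x j ^ a j ≠ 0 :=
  mul_ne_zero ((map_ne_zero _).2 hc) (Finset.prod_ne_zero_iff.2 fun j _ => pow_ne_zero _ (hx.1 j))

theorem ab_prod_sub {J : Type*} [Fintype J] {x : J → K} (hx : ∀ j, x j ≠ 0) (a b : J → ℕ) :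
    ∏ j, x j ^ ((a j : ℤ) - (b j : ℤ)) = (∏ j, x j ^ a j) / ∏ j, x j ^ b j := by
  rw [← Finset.prod_div_distrib]
  exact Finset.prod_congr rfl fun j _ => by rw [zpow_sub₀ (hx j), zpow_natCast, zpow_natCast]

theorem ab_exp_eq {J : Type*} [Fintype J] {x : J → K} (hx : VInd k O x) {c d : k} (hc : c ≠ 0)
    {a b : J → ℕ} (h : O.valuation (algebraMap k K c * ∏ j, x j ^ a j) =
      O.valuation (algebraMap k K d * ∏ j, x j ^ b j)) : a = b := by
  have hb : O.valuation (∏ j, x j ^ b j) ≠ 0 :=
    (map_ne_zero _).2 (Finset.prod_ne_zero_iff.2 fun j _ => pow_ne_zero _ (hx.1 j))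
  have hc' : O.valuation (algebraMap k K c) ≠ 0 := (map_ne_zero _).2 ((map_ne_zero _).2 hc)
  have h1 := hx.2 (fun j => (a j : ℤ) - (b j : ℤ)) (d / c) (by
    rw [ab_prod_sub hx.1, map_div₀, map_div₀, map_div₀, div_eq_div_iff hb hc', mul_comm,
      ← map_mul, h, map_mul])
  funext j
  have h2 : (a j : ℤ) - (b j : ℤ) = 0 := congrFun h1 j
  omega

theorem ab_aeval_mem {ι : Type*} (z : ι → Res O) (Q : MvPolynomial ι (kap k O)) :
    MvPolynomial.aeval z Q ∈ IntermediateField.adjoin (kap k O) (Set.range z) :=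
  (IntermediateField.mem_adjoin_range_iff _ z _).2 ⟨Q, 1, by rw [map_one, div_one]⟩

theorem ab_key {ι J : Type*} [Fintype J] {y : ι → K} {x : J → K} (hy : RInd k O y)
    (hx : VInd k O x) (P : MvPolynomial (ι ⊕ J) k) (hP : P ≠ 0) :
    ∃ m ∈ P.support, (∀ m' ∈ P.support,
      O.valuation (algebraMap k K (P.coeff m') * ∏ j, x j ^ m' (Sum.inr j)) ≤
        O.valuation (algebraMap k K (P.coeff m) * ∏ j, x j ^ m (Sum.inr j))) ∧
      ∃ u : K, O.valuation u = 1 ∧
        res O u ∈ IntermediateField.adjoin (kap k O) (Set.range fun i => res O (y i)) ∧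
        MvPolynomial.aeval (Sum.elim y x) P =
          algebraMap k K (P.coeff m) * (∏ j, x j ^ m (Sum.inr j)) * u := by
  classical
  obtain ⟨m, hm, hmax⟩ := Finset.exists_max_image P.support
    (fun m => O.valuation (algebraMap k K (P.coeff m) * ∏ j, x j ^ m (Sum.inr j)))
    (MvPolynomial.support_nonempty.2 hP)
  refine ⟨m, hm, hmax, ?_⟩
  have hc : P.coeff m ≠ 0 := MvPolynomial.mem_support_iff.1 hm
  set t : K := algebraMap k K (P.coeff m) * ∏ j, x j ^ m (Sum.inr j) with ht
  have ht0 : t ≠ 0 := ab_mono_ne hx hc _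
  have hvt : O.valuation t ≠ 0 := (map_ne_zero _).2 ht0
  let I : ((ι ⊕ J) →₀ ℕ) → (ι →₀ ℕ) := fun n => n.comapDomain Sum.inl Sum.inl_injective.injOn
  let Y : ((ι ⊕ J) →₀ ℕ) → K := fun n => (I n).prod fun i e => y i ^ e
  have hY : ∀ n, Y n ∈ O := fun n => prod_mem fun i _ => pow_mem (hy.1 i) _
  have hsplit : ∀ n : (ι ⊕ J) →₀ ℕ, (n.prod fun i e => Sum.elim y x i ^ e) =
      Y n * ∏ j, x j ^ n (Sum.inr j) := by
    intro n
    conv_lhs => rw [← Finsupp.comapDomain_sumElim_comapDomain n, Finsupp.prod_sumElim]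
    congr 1
    exact Finsupp.prod_fintype _ _ fun j => pow_zero _
  let S : Finset ((ι ⊕ J) →₀ ℕ) := P.support.filter fun n => ∀ j, n (Sum.inr j) = m (Sum.inr j)
  let S' : Finset ((ι ⊕ J) →₀ ℕ) :=
    P.support.filter fun n => ¬ ∀ j, n (Sum.inr j) = m (Sum.inr j)
  let P' : MvPolynomial ι k := ∑ n ∈ S, MvPolynomial.monomial (I n) (P.coeff n / P.coeff m)
  have hmS : m ∈ S := Finset.mem_filter.2 ⟨hm, fun _ => rfl⟩
  have hinj : ∀ n ∈ S, ∀ n' ∈ S, I n = I n' → n = n' := by
    intro n hn n' hn' h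
    ext (i | j)
    · exact DFunLike.congr_fun h i
    · rw [(Finset.mem_filter.1 hn).2, (Finset.mem_filter.1 hn').2]
  have hq : ∀ n ∈ S, algebraMap k K (P.coeff n / P.coeff m) ∈ O := by
    intro n hn
    obtain ⟨h1, h2⟩ := Finset.mem_filter.1 hn
    have h3 := hmax n h1
    simp only [h2] at h3
    rw [ht, map_mul, map_mul] at h3
    have hb : O.valuation (∏ j, x j ^ m (Sum.inr j)) ≠ 0 :=
      (map_ne_zero _).2 (Finset.prod_ne_zero_iff.2 fun j _ => pow_ne_zero _ (hx.1 j))
    have h4 := le_of_mul_le_mul_right h3 (zero_lt_iff.2 hb)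
    rw [← O.valuation_le_one_iff, map_div₀, map_div₀]
    exact div_le_one_of_le₀ h4 zero_le
  have hP' : ∀ a, algebraMap k K (P'.coeff a) ∈ O := by
    intro a
    simp only [P', MvPolynomial.coeff_sum, MvPolynomial.coeff_monomial, map_sum]
    refine sum_mem fun n hn => ?_
    split_ifs
    · exact hq n hn
    · rw [map_zero]; exact O.zero_mem
  have hP1 : P'.coeff (I m) = 1 := by
    simp only [P', MvPolynomial.coeff_sum, MvPolynomial.coeff_monomial]
    rw [Finset.sum_eq_single m, if_pos rfl, div_self hc]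
    · intro n hn hne
      exact if_neg fun h => hne (hinj n hn m hmS h)
    · exact fun h => absurd hmS h
  have hv1 : O.valuation (MvPolynomial.aeval y P') = 1 :=
    ((RInd_iff O k y).1 hy).2 P' hP' ⟨I m, by rw [hP1, map_one, map_one]⟩
  obtain ⟨Q, -, hmem, hres⟩ := res_aeval O k y hy.1 P' hP'
  let r : K := ∑ n ∈ S', algebraMap k K (P.coeff n) * (Y n * ∏ j, x j ^ n (Sum.inr j))
  have hr : O.valuation r < O.valuation t := by
    refine O.valuation.map_sum_lt hvt fun n hn => ?_
    obtain ⟨h1, h2⟩ := Finset.mem_filter.1 hn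
    have h3 : O.valuation (algebraMap k K (P.coeff n) * ∏ j, x j ^ n (Sum.inr j)) <
        O.valuation t := lt_of_le_of_ne (hmax n h1) fun h =>
      h2 (congrFun (ab_exp_eq hx (MvPolynomial.mem_support_iff.1 h1) h))
    refine lt_of_le_of_lt ?_ h3
    rw [mul_left_comm, map_mul]
    exact mul_le_of_le_one_left' ((O.valuation_le_one_iff _).2 (hY n))
  have hr' : O.valuation (r / t) < 1 := by
    rw [map_div₀]
    exact (div_lt_one₀ (zero_lt_iff.2 hvt)).2 hr
  have hr'' : r / t ∈ O := (O.valuation_le_one_iff _).1 hr'.le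
  refine ⟨MvPolynomial.aeval y P' + r / t, ?_, ?_, ?_⟩
  · rw [O.valuation.map_add_eq_of_lt_left (by rw [hv1]; exact hr'), hv1]
  · rw [res_add O hmem hr'', (res_eq_zero_iff O hr'').2 hr', add_zero, hres]
    exact ab_aeval_mem _ Q
  · rw [mul_add, mul_div_cancel₀ _ ht0]
    conv_lhs => rw [P.as_sum, map_sum, ← Finset.sum_filter_add_sum_filter_not P.support
      fun n => ∀ j, n (Sum.inr j) = m (Sum.inr j)]
    congr 1
    · simp only [P', map_sum, Finset.mul_sum]
      refine Finset.sum_congr rfl fun n hn => ?_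
      have h2 := (Finset.mem_filter.1 hn).2
      have hc' : algebraMap k K (P.coeff m) ≠ 0 := (map_ne_zero _).2 hc
      rw [MvPolynomial.aeval_monomial, MvPolynomial.aeval_monomial, hsplit, map_div₀, ht]
      simp only [h2, Y]
      field_simp
    · refine Finset.sum_congr rfl fun n _ => ?_
      rw [MvPolynomial.aeval_monomial, hsplit]

/-- The value of a polynomial in `y` (residually independent) and `x` (value independent) is the
largest value of a term: group the terms by the exponent of `x`; each group has the value of its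
largest coefficient (`RInd_iff`), and different groups have different values. -/
theorem val_aeval_sum {ι J : Type*} [Fintype J] {y : ι → K} {x : J → K} (hy : RInd k O y)
    (hx : VInd k O x) (P : MvPolynomial (ι ⊕ J) k) (hP : P ≠ 0) :
    ∃ m ∈ P.support, O.valuation (MvPolynomial.aeval (Sum.elim y x) P) =
        O.valuation (algebraMap k K (P.coeff m) * ∏ j, x j ^ m (Sum.inr j)) ∧
      ∀ m' ∈ P.support, O.valuation (algebraMap k K (P.coeff m') * ∏ j, x j ^ m' (Sum.inr j)) ≤
        O.valuation (algebraMap k K (P.coeff m) * ∏ j, x j ^ m (Sum.inr j)) := by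
  obtain ⟨m, hm, hmax, u, hu, -, h⟩ := ab_key hy hx P hP
  exact ⟨m, hm, by rw [h, map_mul, hu, mul_one], hmax⟩

theorem indep_of_RInd_VInd {ι J : Type*} [Fintype J] {y : ι → K} {x : J → K} (hy : RInd k O y)
    (hx : VInd k O x) : AlgebraicIndependent k (Sum.elim y x) := by
  refine algebraicIndependent_iff.2 fun P h0 => ?_
  by_contra hP
  obtain ⟨m, hm, -, u, hu, -, h⟩ := ab_key hy hx P hP
  rw [h0] at h
  exact mul_ne_zero (ab_mono_ne hx (MvPolynomial.mem_support_iff.1 hm) _)
    (val_eq_one_iff.1 hu).1 h.symm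

theorem VInd.indep {J : Type*} [Fintype J] {x : J → K} (hx : VInd k O x) :
    AlgebraicIndependent k x := by
  have hy : RInd k O (fun i : Empty => (i.elim : K)) :=
    ⟨fun i => i.elim, algebraicIndependent_empty_type⟩
  exact (indep_of_RInd_VInd hy hx).comp Sum.inr Sum.inr_injective

theorem ab_adj {ι J : Type*} [Fintype J] {y : ι → K} {x : J → K} (hy : RInd k O y)
    (hx : VInd k O x) {z : K} (hz : z ∈ IntermediateField.adjoin k (Set.range y ∪ Set.range x))
    (h0 : z ≠ 0) : ∃ (c : k) (m : J → ℤ) (u : K), c ≠ 0 ∧ O.valuation u = 1 ∧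
      res O u ∈ IntermediateField.adjoin (kap k O) (Set.range fun i => res O (y i)) ∧
      z = algebraMap k K c * (∏ j, x j ^ m j) * u := by
  rw [← Set.Sum.elim_range, IntermediateField.mem_adjoin_range_iff] at hz
  obtain ⟨r, s, rfl⟩ := hz
  have hr : r ≠ 0 := by
    rintro rfl
    exact h0 (by rw [map_zero, zero_div])
  have hs : s ≠ 0 := by
    rintro rfl
    exact h0 (by rw [map_zero, div_zero])
  obtain ⟨a, ha, -, u, hu, hu', h⟩ := ab_key hy hx r hr
  obtain ⟨b, hb, -, w, hw, hw', h'⟩ := ab_key hy hx s hs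
  refine ⟨r.coeff a / s.coeff b, fun j => (a (Sum.inr j) : ℤ) - (b (Sum.inr j) : ℤ), u / w,
    div_ne_zero (MvPolynomial.mem_support_iff.1 ha) (MvPolynomial.mem_support_iff.1 hb),
    valb_val_div O hu hw, ?_, ?_⟩
  · rw [valb_res_div O hu hw]
    exact div_mem hu' hw'
  · rw [h, h', ab_prod_sub hx.1, map_div₀, div_mul_div_comm, div_mul_div_comm]

theorem val_adjoin {ι J : Type*} [Fintype J] {y : ι → K} {x : J → K} (hy : RInd k O y)
    (hx : VInd k O x) {z : K} (hz : z ∈ IntermediateField.adjoin k (Set.range y ∪ Set.range x))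
    (h0 : z ≠ 0) : ∃ (c : k) (m : J → ℤ), c ≠ 0 ∧
      O.valuation z = O.valuation (algebraMap k K c * ∏ j, x j ^ m j) := by
  obtain ⟨c, m, u, hc, hu, -, h⟩ := ab_adj hy hx hz h0
  exact ⟨c, m, hc, by rw [h, map_mul, hu, mul_one]⟩

theorem res_adjoin {ι J : Type*} [Fintype J] {y : ι → K} {x : J → K} (hy : RInd k O y)
    (hx : VInd k O x) {z : K} (hz : z ∈ IntermediateField.adjoin k (Set.range y ∪ Set.range x)) :
    res O z ∈ IntermediateField.adjoin (kap k O) (Set.range fun i => res O (y i)) := by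
  by_cases h1 : O.valuation z = 1
  · obtain ⟨c, m, u, hc, hu, hu', h⟩ := ab_adj hy hx hz (val_eq_one_iff.1 h1).1
    have h2 := h1
    rw [h, map_mul, hu, mul_one, map_mul] at h2
    have h3 := hx.2 m c⁻¹ (by rw [map_inv₀, map_inv₀]; exact eq_inv_of_mul_eq_one_right h2)
    subst h3
    simp only [Pi.zero_apply, zpow_zero, Finset.prod_const_one, mul_one, map_one] at h h2
    rw [h, res_mul O (valb_mem O h2) (valb_mem O hu)]
    exact mul_mem (IntermediateField.algebraMap_mem _ (⟨_, res_const_mem O k c⟩ : kap k O)) hu'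
  · rw [← res_ne_zero_iff, not_not] at h1
    rw [h1]
    exact zero_mem _

/-- two terms of the minimal polynomial have the same value -/
theorem val_pow_of_isAlgebraic {z : K} (hz : IsAlgebraic k z) (h0 : z ≠ 0) :
    ∃ (N : ℕ) (c : k), 0 < N ∧ N ≤ (minpoly k z).natDegree ∧
      O.valuation (z ^ N) = O.valuation (algebraMap k K c) := by
  classical
  have hi := hz.isIntegral
  set p := minpoly k z with hp
  have hp0 : p ≠ 0 := minpoly.ne_zero hi
  obtain ⟨i, hi0, hmax⟩ := Finset.exists_max_image p.support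
    (fun i => O.valuation (algebraMap k K (p.coeff i) * z ^ i)) (Polynomial.support_nonempty.2 hp0)
  have hne : ∀ j ∈ p.support, algebraMap k K (p.coeff j) ≠ 0 := fun j hj =>
    (map_ne_zero _).2 (Polynomial.mem_support_iff.1 hj)
  have hsum : ∑ j ∈ p.support, algebraMap k K (p.coeff j) * z ^ j = 0 := by
    have h := minpoly.aeval k z
    rwa [Polynomial.aeval_def, Polynomial.eval₂_eq_sum, Polynomial.sum_def] at h
  have hex : ∃ j ∈ p.support, j ≠ i ∧ O.valuation (algebraMap k K (p.coeff j) * z ^ j) =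
      O.valuation (algebraMap k K (p.coeff i) * z ^ i) := by
    by_contra hcon
    have h1 := O.valuation.map_sum_eq_of_lt
      (f := fun j => algebraMap k K (p.coeff j) * z ^ j) hi0 fun j hj => by
        obtain ⟨h2, h3⟩ := Finset.mem_sdiff.1 hj
        exact lt_of_le_of_ne (hmax j h2) fun h => hcon ⟨j, h2, by simpa using h3, h⟩
    rw [hsum, map_zero] at h1
    exact (map_ne_zero O.valuation).2 (mul_ne_zero (hne i hi0) (pow_ne_zero _ h0)) h1.symm
  have main : ∀ a ∈ p.support, ∀ b ∈ p.support, a < b →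
      O.valuation (algebraMap k K (p.coeff a) * z ^ a) =
        O.valuation (algebraMap k K (p.coeff b) * z ^ b) →
      ∃ (N : ℕ) (c : k), 0 < N ∧ N ≤ p.natDegree ∧
        O.valuation (z ^ N) = O.valuation (algebraMap k K c) := by
    intro a ha b hb hab h
    obtain ⟨N, rfl⟩ := Nat.exists_eq_add_of_le hab.le
    have hb' := Polynomial.le_natDegree_of_mem_supp _ hb
    refine ⟨N, p.coeff a / p.coeff (a + N), by omega, by omega, ?_⟩
    have h1 : O.valuation (z ^ a) ≠ 0 := (map_ne_zero _).2 (pow_ne_zero _ h0)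
    have h2 : O.valuation (algebraMap k K (p.coeff (a + N))) ≠ 0 := (map_ne_zero _).2 (hne _ hb)
    rw [pow_add, map_mul, map_mul, map_mul, ← mul_assoc, mul_right_comm] at h
    rw [map_div₀, map_div₀, eq_div_iff h2, mul_comm]
    exact (mul_right_cancel₀ h1 h).symm
  obtain ⟨j, hj, hji, h⟩ := hex
  rcases lt_or_gt_of_ne hji with h1 | h1
  · exact main j hj i hi0 h1 h
  · exact main i hi0 j hj h1 h.symm

theorem res_isAlgebraic {z : K} (hz : IsAlgebraic k z) : IsAlgebraic (kap k O) (res O z) := by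
  by_cases h : z ∈ O
  · by_contra hcon
    have h1 : RInd k O (fun _ : Unit => z) :=
      ⟨fun _ => h, algebraicIndependent_unique_type_iff.2 hcon⟩
    exact algebraicIndependent_unique_type_iff.1 h1.indep hz
  · rw [res_of_not_mem O h]
    exact isAlgebraic_zero

/-- lifts of linearly independent residues are linearly independent -/
theorem res_finite [FiniteDimensional k K] :
    FiniteDimensional (kap k O) (Res O) ∧ Module.finrank (kap k O) (Res O) ≤ Module.finrank k K := by
  have h : Module.rank (kap k O) (Res O) ≤ (Module.finrank k K : ℕ) := by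
    refine rank_le fun s hs => ?_
    choose t ht ht' using fun i : s => res_surj O (i : Res O)
    have hli : LinearIndependent k t := by
      rw [Fintype.linearIndependent_iff]
      intro g hg
      by_contra hcon
      push Not at hcon
      obtain ⟨i1, hi1⟩ := hcon
      obtain ⟨i, -, hmax⟩ := Finset.exists_max_image Finset.univ
        (fun i => O.valuation (algebraMap k K (g i))) ⟨i1, Finset.mem_univ _⟩
      have hv : O.valuation (algebraMap k K (g i)) ≠ 0 := fun h0 => by
        have h1 := hmax i1 (Finset.mem_univ _)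
        rw [h0, le_zero_iff, map_eq_zero, map_eq_zero] at h1
        exact hi1 h1
      have hgi : g i ≠ 0 := fun h0 => hv (by rw [h0, map_zero, map_zero])
      have hm : ∀ j, algebraMap k K (g j / g i) ∈ O := fun j => by
        rw [← O.valuation_le_one_iff, map_div₀, map_div₀]
        exact div_le_one_of_le₀ (hmax j (Finset.mem_univ _)) zero_le
      have h2 : ∑ j, algebraMap k K (g j / g i) * t j = 0 := by
        have h3 := congrArg (fun w => (g i)⁻¹ • w) hg
        simp only [Finset.smul_sum, smul_smul, smul_zero] at h3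
        rw [← h3]
        exact Finset.sum_congr rfl fun j _ => by rw [Algebra.smul_def, div_eq_inv_mul]
      have h4 := congrArg (res O) h2
      rw [res_zero, res_sum O _ _ fun j _ => mul_mem (hm j) (ht j)] at h4
      have h5 := Fintype.linearIndependent_iff.1 hs
        (fun j => (⟨res O (algebraMap k K (g j / g i)), res_const_mem O k _⟩ : kap k O)) (by
          rw [← h4]
          exact Finset.sum_congr rfl fun j _ => by rw [res_mul O (hm j) (ht j), ht']; rfl) i
      have h6 := congrArg Subtype.val h5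
      simp only [div_self hgi, map_one, res_one] at h6
      exact one_ne_zero h6
    have h7 := hli.fintype_card_le_finrank
    rwa [Fintype.card_coe] at h7
  exact ⟨Module.rank_lt_aleph0_iff.1 (h.trans_lt (Cardinal.natCast_lt_aleph0)),
    Module.finrank_le_of_rank_le h⟩

theorem val_ac {ι J : Type*} [Fintype J] {y : ι → K} {x : J → K} (hy : RInd k O y)
    (hx : VInd k O x) {z : K} (hz : z ∈ ac k (Set.range y ∪ Set.range x)) (h0 : z ≠ 0) :
    ∃ (N : ℕ) (c : k) (m : J → ℤ), 0 < N ∧ c ≠ 0 ∧
      O.valuation (z ^ N) = O.valuation (algebraMap k K c * ∏ j, x j ^ m j) := by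
  obtain ⟨N, c, hN, -, h⟩ := val_pow_of_isAlgebraic (O := O) (mem_ac.1 hz) h0
  have hc : (c : K) ≠ 0 := fun h1 => by
    have h2 : algebraMap _ K c = 0 := h1
    rw [h2, map_zero, map_eq_zero] at h
    exact pow_ne_zero _ h0 h
  obtain ⟨d, m, hd, h'⟩ := val_adjoin hy hx c.2 hc
  exact ⟨N, d, m, hN, hd, h.trans h'⟩

theorem ab_alg_of_hom {A B R : Type*} [Field A] [Field B] [Field R] [Algebra A R] [Algebra B R]
    (φ : A →+* B) (h : ∀ a, algebraMap B R (φ a) = algebraMap A R a) {x : R}
    (hx : IsAlgebraic A x) : IsAlgebraic B x := by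
  obtain ⟨p, hp, h0⟩ := hx
  refine ⟨p.map φ, Polynomial.map_ne_zero hp, ?_⟩
  rw [Polynomial.aeval_def, Polynomial.eval₂_map, RingHom.ext (f := (algebraMap B R).comp φ) h]
  exact h0

theorem res_ac {ι J : Type*} [Fintype J] {y : ι → K} {x : J → K} (hy : RInd k O y)
    (hx : VInd k O x) {z : K} (hz : z ∈ ac k (Set.range y ∪ Set.range x)) :
    res O z ∈ ac (kap k O) (Set.range fun i => res O (y i)) := by
  have h1 := res_isAlgebraic (O := O) (mem_ac.1 hz)
  have hle : kap (IntermediateField.adjoin k (Set.range y ∪ Set.range x)) O ≤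
      (IntermediateField.adjoin (kap k O) (Set.range fun i => res O (y i))).toSubfield := by
    intro a ha
    obtain ⟨c, -, rfl⟩ := (mem_kap O _).1 ha
    exact res_adjoin hy hx c.2
  exact mem_ac.2 (ab_alg_of_hom (B := IntermediateField.adjoin (kap k O)
    (Set.range fun i => res O (y i))) (Subfield.inclusion hle) (fun _ => rfl) h1)

/-- reduce a relation mod `ℓ`, divide by `ℓ` (values of `k` are divisible, the value group is
torsion free) and descend -/
theorem VInd_of_dual [IsAlgClosed k] {J : Type*} [Fintype J] [DecidableEq J] {σ : J → DV ℓ K}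
    {x : J → K} (hσ : ∀ j, σ j ∈ II ℓ O) (hx0 : ∀ j, x j ≠ 0)
    (hx : ∀ i j, σ i (cl ℓ (x j)) = if i = j then 1 else 0) : VInd k O x := by
  have hl : ℓ.Prime := Fact.out
  refine ⟨hx0, ?_⟩
  have step : ∀ (m : J → ℤ) (c : k),
      O.valuation (∏ j, x j ^ m j) = O.valuation (algebraMap k K c) →
      ∃ (m' : J → ℤ) (c' : k), (∀ j, m j = ℓ * m' j) ∧
        O.valuation (∏ j, x j ^ m' j) = O.valuation (algebraMap k K c') := by
    intro m c h
    have hd : ∀ i, (ℓ : ℤ) ∣ m i := by
      intro i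
      have h1 := II_apply_eq (hσ i) h
      rw [cl_const, map_zero, cl_prod _ _ fun j _ => zpow_ne_zero _ (hx0 j), map_sum] at h1
      simp only [cl_zpow, map_smul, hx, smul_eq_mul, mul_ite, mul_one, mul_zero,
        Finset.sum_ite_eq, Finset.mem_univ, if_true] at h1
      exact (ZMod.intCast_zmod_eq_zero_iff_dvd _ _).1 h1
    choose m' hm' using hd
    obtain ⟨c', rfl⟩ := IsAlgClosed.exists_pow_nat_eq c hl.pos
    refine ⟨m', c', hm', ?_⟩
    have h2 : ∏ j, x j ^ m j = (∏ j, x j ^ m' j) ^ ℓ := by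
      rw [← Finset.prod_pow]
      exact Finset.prod_congr rfl fun j _ => by rw [hm', mul_comm, zpow_mul, zpow_natCast]
    rw [h2, map_pow, map_pow, map_pow] at h
    exact (pow_left_inj₀ zero_le zero_le hl.ne_zero).1 h
  have all : ∀ (n : ℕ) (m : J → ℤ) (c : k),
      O.valuation (∏ j, x j ^ m j) = O.valuation (algebraMap k K c) → ∀ j, (ℓ : ℤ) ^ n ∣ m j := by
    intro n
    induction n with
    | zero => intro m c _ j; rw [pow_zero]; exact one_dvd _
    | succ n ih =>
      intro m c h j
      obtain ⟨m', c', h1, h2⟩ := step m c h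
      rw [h1, pow_succ']
      exact mul_dvd_mul_left _ (ih m' c' h2 j)
  intro m c h
  funext j
  refine Int.eq_zero_of_abs_lt_dvd (all (m j).natAbs m c h j) ?_
  rw [Int.abs_eq_natAbs]
  exact_mod_cast Nat.lt_pow_self hl.one_lt

theorem VInd_of_not_mem_U [IsAlgClosed k] {π : K} (h : cl ℓ π ∉ U ℓ O) :
    VInd k O (fun _ : Unit => π) := by
  have h0 : π ≠ 0 := by
    rintro rfl
    exact h (by rw [cl_zero]; exact zero_mem _)
  rw [mem_U_iff_II] at h
  push Not at h
  obtain ⟨f, hf, hf0⟩ := h
  refine VInd_of_dual (σ := fun _ : Unit => (f (cl ℓ π))⁻¹ • f)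
    (fun _ => Submodule.smul_mem _ _ hf) (fun _ => h0) fun i j => ?_
  rw [if_pos (Subsingleton.elim i j), LinearMap.smul_apply, smul_eq_mul, inv_mul_cancel₀ hf0]

theorem trdeg_res_le [IsAlgClosed k] {e : ℕ} (hd : Algebra.trdeg k K ≤ ((e + 1 : ℕ) : Cardinal))
    (h : II ℓ O ≠ ⊥) : Algebra.trdeg (kap k O) (Res O) ≤ (e : Cardinal) := by
  obtain ⟨f, hf, hf0⟩ := Submodule.exists_mem_ne_zero_of_ne_bot h
  have h1 : ∃ π : K, f (cl ℓ π) ≠ 0 := by
    by_contra hcon
    push Not at hcon
    exact hf0 (V_ext fun x _ => hcon x)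
  obtain ⟨π, hπ⟩ := h1
  have h2 : VInd k O (fun _ : Unit => π) :=
    VInd_of_not_mem_U (ℓ := ℓ) fun h3 => hπ (mem_U_iff_II.1 h3 f hf)
  refine trdeg_le_of_forall fun n z hz => ?_
  obtain ⟨y, hy, -⟩ := exists_RInd O k z hz
  have h4 := card_le_of_indep (indep_of_RInd_VInd hy h2) hd
  simpa using h4

theorem kap_eq_top [IsAlgClosed k] {J : Type*} [Fintype J] {x : J → K} (hx : VInd k O x)
    (hd : Algebra.trdeg k K ≤ (Fintype.card J : Cardinal)) : kap k O = ⊤ := by
  rw [eq_top_iff]
  intro a _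
  by_contra ha
  have h1 : Transcendental (kap k O) a := transcendental_iff.2 fun ⟨b, hb⟩ => ha (hb ▸ b.2)
  obtain ⟨y, hy, -⟩ := exists_RInd O k (fun _ : Unit => a)
    (algebraicIndependent_unique_type_iff.2 h1)
  have h4 := card_le_of_indep (indep_of_RInd_VInd hy hx) hd
  simp at h4

theorem card_le_of_II [IsAlgClosed k] {J : Type*} [Fintype J] {σ : J → DV ℓ K}
    (hσ : ∀ j, σ j ∈ II ℓ O) (h : LinearIndependent (ZMod ℓ) σ) {d : ℕ}
    (hd : Algebra.trdeg k K ≤ (d : Cardinal)) : Fintype.card J ≤ d := by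
  classical
  obtain ⟨x, hx0, hx⟩ := exists_dual σ h
  exact card_le_of_indep (VInd_of_dual (k := k) hσ hx0 hx).indep hd

theorem U1_eq_U_of_kap [IsAlgClosed k] (h : kap k O = ⊤) : U1 ℓ O = U ℓ O := by
  ext z
  constructor
  · intro hz
    obtain ⟨x, hx, rfl⟩ := mem_U1.1 hz
    exact mem_U.2 ⟨x, valb_pu_unit O hx, rfl⟩
  · intro hz
    obtain ⟨x, hx, rfl⟩ := mem_U.1 hz
    rw [cl_mem_U1_iff O hx]
    exact cl_const (F := Res O) (⟨res O x, h ▸ Subfield.mem_top _⟩ : kap k O)

/-- `K = pc k T`; `K₀ = k(T, y, π)` is finite over `k(y, π)`; use `res_finite`, `res_adjoin` for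
`O.comap` and `exists_resMap`. If `K` has characteristic `p` so has the residue field. -/
theorem IsAbh.res_pf (hK : PF k K) (h : IsAbh k O) {e : ℕ}
    (hd : Algebra.trdeg k K = ((e + 1 : ℕ) : Cardinal)) :
    PF (kap k O) (Res O) ∧ Algebra.trdeg (kap k O) (Res O) = (e : Cardinal) := by
  classical
  obtain ⟨e', y, π, hd', hy, hπ⟩ := h
  have he : e' = e := by
    rw [hd] at hd'
    have := Nat.cast_injective (R := Cardinal) hd'
    omega
  subst he
  have htop : ac k (Set.range y ∪ Set.range fun _ : Unit => π) = ⊤ := by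
    rw [← Set.Sum.elim_range]
    exact ac_eq_top_of_indep (indep_of_RInd_VInd hy hπ) (by rw [hd]; simp)
  constructor
  · obtain ⟨T, hT⟩ := hK
    set F := IntermediateField.adjoin k (Set.range y ∪ Set.range fun _ : Unit => π) with hF
    let K₀ : IntermediateField F K := IntermediateField.adjoin F (T : Set K)
    have : FiniteDimensional F K₀ := IntermediateField.finiteDimensional_adjoin fun x _ =>
      (mem_ac.1 (htop ▸ IntermediateField.mem_top : x ∈ ac k _)).isIntegral
    obtain ⟨ψ, hψ⟩ := exists_resMap O (algebraMap K₀ K)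
    obtain ⟨B, hB⟩ := (res_finite (k := F) (O := O.comap (algebraMap K₀ K))).1.fg_top
    let S : Finset (Res O) := B.image ψ ∪ Finset.univ.image fun i => res O (y i)
    have hle : IntermediateField.adjoin (kap k O) (Set.range fun i => res O (y i)) ≤
        IntermediateField.adjoin (kap k O) (S : Set (Res O)) := by
      refine IntermediateField.adjoin.mono _ _ _ ?_
      rintro _ ⟨i, rfl⟩
      simp [S]
    have hall : ∀ b, ψ b ∈ IntermediateField.adjoin (kap k O) (S : Set (Res O)) := by
      intro b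
      have hb : b ∈ Submodule.span (kap F (O.comap (algebraMap K₀ K))) (B : Set _) :=
        hB ▸ Submodule.mem_top
      induction hb using Submodule.span_induction with
      | mem b hb =>
        refine IntermediateField.subset_adjoin _ _ ?_
        simp only [S, Finset.coe_union, Finset.coe_image]
        exact Or.inl ⟨b, hb, rfl⟩
      | zero => rw [map_zero]; exact zero_mem _
      | add a b _ _ ha hb => rw [map_add]; exact add_mem ha hb
      | smul c b _ hb =>
        have h1 : c • b = (c : Res _) * b := rfl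
        rw [h1, map_mul]
        refine mul_mem ?_ hb
        obtain ⟨d, -, hd2⟩ := (mem_kap _ F).1 c.2
        rw [← hd2, hψ]
        exact hle (res_adjoin hy hπ d.2)
    refine ⟨S, eq_top_iff.2 fun a _ => mem_pc.2 ?_⟩
    obtain ⟨z, hz, rfl⟩ := res_surj O a
    obtain ⟨n, hn⟩ := mem_pc.1 (hT ▸ IntermediateField.mem_top : z ∈ pc k (T : Set K))
    have hsub : IntermediateField.adjoin k (T : Set K) ≤ K₀.restrictScalars k :=
      IntermediateField.adjoin_le_iff.2 (IntermediateField.subset_adjoin F _)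
    have h2 := hall (res _ (⟨z ^ ringExpChar K ^ n, hsub hn⟩ : K₀))
    rw [hψ] at h2
    have h3 : res O z ^ ringExpChar K ^ n ∈
        IntermediateField.adjoin (kap k O) (S : Set (Res O)) := by
      rw [← res_pow O z hz]
      exact h2
    have hq : ExpChar K (ringExpChar K) := inferInstance
    generalize ringExpChar K = q at hq h3
    cases hq with
    | zero => exact ⟨0, by simpa using h3⟩
    | prime hp =>
      have h4 : (q : Res O) = 0 := by rw [← res_natCast, CharP.cast_eq_zero, res_zero]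
      have : CharP (Res O) q := (CharP.charP_iff_prime_eq_zero hp).2 h4
      have : ExpChar (Res O) q := ExpChar.prime hp
      exact ⟨n, by rw [ringExpChar.eq (Res O) q]; exact h3⟩
  · have h1 : ac (kap k O) (Set.range fun i => res O (y i)) = ⊤ := by
      refine eq_top_iff.2 fun a _ => ?_
      obtain ⟨z, -, rfl⟩ := res_surj O a
      exact res_ac hy hπ (htop ▸ IntermediateField.mem_top)
    rw [trdeg_eq_of_indep hy.2 h1, Fintype.card_fin]

theorem ab_pt_kap [IsAlgClosed k] (hd : Algebra.trdeg k K ≤ 1) (P : Pt k K) :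
    kap k P.1 = ⊤ := by
  have h1 : ∃ π : K, π ∉ P.1 := by
    by_contra hcon
    push Not at hcon
    exact P.2.1 (eq_top_iff.2 fun x _ => hcon x)
  obtain ⟨π, hπ⟩ := h1
  have h0 : π ≠ 0 := by
    rintro rfl
    exact hπ P.1.zero_mem
  have h2 : VInd k P.1 (fun _ : Unit => π) := by
    refine ⟨fun _ => h0, fun m c h => ?_⟩
    rw [Fintype.prod_unique] at h
    have hc : c ≠ 0 := by
      rintro rfl
      rw [map_zero, map_zero, map_eq_zero] at h
      exact zpow_ne_zero _ h0 h
    rw [val_const_eq_one P.2.2 hc, map_zpow₀,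
      zpow_eq_one_iff_right₀ zero_le fun h3 => hπ (valb_mem _ h3)] at h
    funext j
    exact h
  exact kap_eq_top h2 (by simpa using hd)

/-- points on a field of transcendence degree one have constant residues -/
theorem Pt.exists_At [IsAlgClosed k] (hd : Algebra.trdeg k K ≤ 1) (P : Pt k K) {f : K}
    (hf : f ∈ P.1) : ∃ c : k, At k P.1 f c := by
  obtain ⟨c, hc, h⟩ := (mem_kap P.1 k).1 (ab_pt_kap hd P ▸ Subfield.mem_top (res P.1 f))
  exact ⟨c, (res_eq_iff P.1 hf hc).1 h.symm⟩

theorem Pt.kap_eq_top [IsAlgClosed k] (hd : Algebra.trdeg k K ≤ 1) (P : Pt k K) :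
    kap k P.1 = ⊤ := ab_pt_kap hd P

end Vale.Agent.P019
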