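import Vale.Agent.P019.LTb

open Filter

namespace Vale.Agent.P019

variable {ℓ : ℕ} [Fact ℓ.Prime] {F E : Type*} [Field F] [Field E]

theorem val_lt_one_of_le {O O' : ValuationSubring F} (h : O ≤ O') {x : F}
    (hx : O'.valuation x < 1) : O.valuation x < 1 := O.mem_nonunits_iff.1
  (ValuationSubring.nonunits_le_nonunits.2 h (O'.mem_nonunits_iff.2 hx))

theorem val_eq_one_of_le {O O' : ValuationSubring F} (h : O ≤ O') {x : F}
    (hx : O.valuation x = 1) : O'.valuation x = 1 := by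
  rw [val_eq_one_iff] at hx ⊢
  exact ⟨hx.1, h hx.2.1, h hx.2.2⟩

theorem vala_one {O : ValuationSubring F} {x : F} (hx : O.valuation (x - 1) < 1) :
    O.valuation x = 1 := by
  simpa using O.valuation.map_one_add_of_lt hx

theorem U1_le_U (O : ValuationSubring F) : U1 ℓ O ≤ U ℓ O := Submodule.span_mono fun _ ⟨x, hx, e⟩ => ⟨x, vala_one hx, e⟩

theorem II_le_DD (O : ValuationSubring F) : II ℓ O ≤ DD ℓ O := Submodule.dualAnnihilator_anti (U1_le_U O)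

theorem U_mono {O O' : ValuationSubring F} (h : O ≤ O') : U ℓ O ≤ U ℓ O' := Submodule.span_mono fun _ ⟨x, hx, e⟩ => ⟨x, val_eq_one_of_le h hx, e⟩

theorem U1_anti {O O' : ValuationSubring F} (h : O ≤ O') : U1 ℓ O' ≤ U1 ℓ O := Submodule.span_mono fun _ ⟨x, hx, e⟩ => ⟨x, val_lt_one_of_le h hx, e⟩

theorem II_anti {O O' : ValuationSubring F} (h : O ≤ O') : II ℓ O' ≤ II ℓ O := Submodule.dualAnnihilator_anti (U_mono h)

theorem DD_mono {O O' : ValuationSubring F} (h : O ≤ O') : DD ℓ O ≤ DD ℓ O' := Submodule.dualAnnihilator_anti (U1_anti h)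

theorem U_top : U ℓ (⊤ : ValuationSubring F) = ⊤ := by
  refine eq_top_iff.2 fun z _ => ?_
  obtain ⟨x, hx, e⟩ := cl_surj z
  exact mem_U.2 ⟨x, val_eq_one_iff.2 ⟨hx, trivial, trivial⟩, e⟩

theorem II_top : II ℓ (⊤ : ValuationSubring F) = ⊥ := by
  rw [II, U_top, Submodule.dualAnnihilator_top]

theorem II_eq_bot_iff {O : ValuationSubring F} : II ℓ O = ⊥ ↔ U ℓ O = ⊤ := Submodule.dualAnnihilator_eq_bot_iff

theorem le_total_of_le {O O₁ O₂ : ValuationSubring F} (h₁ : O ≤ O₁) (h₂ : O ≤ O₂) :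
    O₁ ≤ O₂ ∨ O₂ ≤ O₁ := O.le_total_ideal.total ⟨O₁, h₁⟩ ⟨O₂, h₂⟩

/-- cases `v x < 1`, `v x > 1` (then `1 - x = -x (1 - x⁻¹)`), `v x = 1` -/
theorem CP_of_II_DD (k : Type*) [Field k] [Algebra k F] [IsAlgClosed k] {O : ValuationSubring F}
    {f g : DV ℓ F} (hf : f ∈ II ℓ O) (hg : g ∈ DD ℓ O) : CP f g := by
  intro x hx _
  have hf' := II_le_DD O hf
  rcases lt_trichotomy (O.valuation x) 1 with h | h | h
  · have h1 : O.valuation (1 - x - 1) < 1 := by rwa [sub_sub_cancel_left, Valuation.map_neg]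
    rw [mem_DD.1 hf' _ h1, mem_DD.1 hg _ h1, mul_zero, zero_mul]
  · rcases lt_or_eq_of_le (O.valuation.map_sub_le (x := 1) (y := x) (g := 1) (by simp) h.le) with
      h1 | h1
    · rw [← Valuation.map_neg, neg_sub] at h1
      rw [mem_DD.1 hf' _ h1, mem_DD.1 hg _ h1, mul_zero, zero_mul]
    · rw [mem_II.1 hf _ h, mem_II.1 hf _ h1, zero_mul, zero_mul]
  · have h1 : O.valuation (1 - x - -x) < O.valuation (-x) := by simpa using h
    rw [DD_apply_eq hf' h1, DD_apply_eq hg h1, cl_neg k]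

theorem vala_bound {O₁ O₂ : ValuationSubring F} {x : F} (hx : x ∈ O₁ ⊔ O₂) :
    ∃ b ∈ O₂, 1 ≤ O₁.valuation b ∧ O₁.valuation x ≤ O₁.valuation b := by
  let S : Subring F :=
    { carrier := {x | ∃ b ∈ O₂, 1 ≤ O₁.valuation b ∧ O₁.valuation x ≤ O₁.valuation b}
      mul_mem' := fun ⟨b, h1, h2, h3⟩ ⟨c, k1, k2, k3⟩ => ⟨b * c, mul_mem h1 k1, by
        rw [map_mul]; exact one_le_mul h2 k2, by rw [map_mul, map_mul]; exact mul_le_mul' h3 k3⟩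
      one_mem' := ⟨1, one_mem _, by simp, le_rfl⟩
      add_mem' := fun ⟨b, h1, h2, h3⟩ ⟨c, k1, k2, k3⟩ => ⟨b * c, mul_mem h1 k1, by
        rw [map_mul]; exact one_le_mul h2 k2, by
          rw [map_mul]
          exact O₁.valuation.map_add_le (h3.trans (le_mul_of_one_le_right' k2))
            (k3.trans (le_mul_of_one_le_left' h2))⟩
      zero_mem' := ⟨1, one_mem _, by simp, by simp⟩
      neg_mem' := fun ⟨b, h1, h2, h3⟩ => ⟨b, h1, h2, by rwa [Valuation.map_neg]⟩ }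
  have h1 : O₁.toSubring ≤ S := fun y hy =>
    ⟨1, one_mem _, by simp, by simpa using (O₁.valuation_le_one_iff y).2 hy⟩
  refine (sup_le (c := O₁.ofLE S h1) h1 fun y hy => ?_) hx
  rcases le_total 1 (O₁.valuation y) with h | h
  · exact ⟨y, hy, h, le_rfl⟩
  · exact ⟨1, one_mem _, by simp, by simpa using h⟩

/-- Units of the join of incomparable valuation rings. The set of `x` with `v₁ x ≤ v₁ b` for some
`b ∈ O₂` is a subring containing `O₁` and `O₂`, so it contains the join; symmetric. For a unit `x`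
of the join get `b, b' ∈ O₂`, `a, a' ∈ O₁` bounding `x^{±1}` (replace by `1` if smaller), and
`z₀` with `v₂ z₀ < 1 < v₁ z₀`. Put `z = z₀ b b'/(a a')`, `e = 1/(1 + z)`, `c = (1 - e) + e x`.
Then `v₁ (c - 1) < 1` and `v₂ (c/x - 1) < 1`. -/
theorem exists_split_unit {O₁ O₂ : ValuationSubring F} (h₁ : ¬ O₁ ≤ O₂) (h₂ : ¬ O₂ ≤ O₁) {x : F}
    (hx : (O₁ ⊔ O₂).valuation x = 1) :
    ∃ c : F, O₁.valuation (c - 1) < 1 ∧ O₂.valuation (c / x - 1) < 1 := by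
  obtain ⟨x0, hx1, hx2⟩ := val_eq_one_iff.1 hx
  obtain ⟨b, hb, hb1, hb2⟩ := vala_bound hx1
  rw [sup_comm] at hx2
  obtain ⟨a, ha, ha1, ha2⟩ := vala_bound hx2
  obtain ⟨s, hs, hs'⟩ := SetLike.not_le_iff_exists.1 h₁
  obtain ⟨t, ht, ht'⟩ := SetLike.not_le_iff_exists.1 h₂
  rw [← ValuationSubring.valuation_le_one_iff] at ha hb hs ht hs' ht'
  rw [not_le] at hs' ht'
  have s0 : s ≠ 0 := by
    rintro rfl
    simp at hs'
  have a0 : a ≠ 0 := by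
    rintro rfl
    simp at ha1
  have p1 : ∀ (O : ValuationSubring F) {y : F}, y ≠ 0 → 0 < O.valuation y := fun O y hy =>
    zero_lt_iff.2 ((Valuation.ne_zero_iff _).2 hy)
  have h1 : O₁.valuation b < O₁.valuation (t * b / (s * a)) := by
    rw [map_div₀, lt_div_iff₀ (p1 _ (mul_ne_zero s0 a0)), map_mul, map_mul, mul_comm]
    exact mul_lt_mul_of_pos_right ((mul_le_one' hs ha).trans_lt ht') (zero_lt_one.trans_le hb1)
  have h2 : O₂.valuation (t * b / (s * a)) * O₂.valuation a < 1 := by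
    rw [← map_mul, show t * b / (s * a) * a = t * b / s by field_simp, map_div₀,
      div_lt_one₀ (p1 _ s0), map_mul]
    exact (mul_le_one' ht hb).trans_lt hs'
  generalize t * b / (s * a) = z at h1 h2
  have h3 : O₁.valuation (1 + z) = O₁.valuation z :=
    O₁.valuation.map_add_eq_of_lt_right (by simpa using hb1.trans_lt h1)
  have h4 : O₂.valuation (1 + z) = 1 :=
    O₂.valuation.map_one_add_of_lt ((le_mul_of_one_le_right' ha1).trans_lt h2)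
  have z1 : 1 + z ≠ 0 := fun e => by simp [e] at h4
  refine ⟨(z + x) / (1 + z), ?_, ?_⟩
  · rw [show (z + x) / (1 + z) - 1 = (x - 1) / (1 + z) by field_simp; ring, map_div₀,
      div_lt_one₀ (p1 _ z1), h3]
    exact (O₁.valuation.map_sub_le hb2 (by simpa using hb1)).trans_lt h1
  · rw [show (z + x) / (1 + z) / x - 1 = z * (x⁻¹ - 1) / (1 + z) by field_simp; ring, map_div₀,
      h4, div_one, map_mul]
    exact (mul_le_mul_right (O₂.valuation.map_sub_le ha2 (by simpa using ha1)) _).trans_lt h2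

theorem U_sup_le {O₁ O₂ : ValuationSubring F} (h₁ : ¬ O₁ ≤ O₂) (h₂ : ¬ O₂ ≤ O₁) :
    U ℓ (O₁ ⊔ O₂) ≤ U1 ℓ O₁ ⊔ U1 ℓ O₂ := by
  intro z hz
  obtain ⟨x, hx, rfl⟩ := mem_U.1 hz
  obtain ⟨c, h1, h2⟩ := exists_split_unit h₁ h₂ hx
  have e : cl ℓ x = cl ℓ c - cl ℓ (c / x) := by
    rw [cl_div (val_eq_one_iff.1 (vala_one h1)).1 (val_eq_one_iff.1 hx).1, sub_sub_cancel]
  rw [e]
  exact sub_mem (Submodule.mem_sup_left (mem_U1.2 ⟨c, h1, rfl⟩))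
    (Submodule.mem_sup_right (mem_U1.2 ⟨_, h2, rfl⟩))

theorem mem_II_sup {O₁ O₂ : ValuationSubring F} (h₁ : ¬ O₁ ≤ O₂) (h₂ : ¬ O₂ ≤ O₁) {f : DV ℓ F}
    (hf₁ : f ∈ DD ℓ O₁) (hf₂ : f ∈ DD ℓ O₂) : f ∈ II ℓ (O₁ ⊔ O₂) := by
  refine Submodule.dualAnnihilator_anti (U_sup_le h₁ h₂) ?_
  rw [Submodule.dualAnnihilator_sup_eq]
  exact ⟨hf₁, hf₂⟩

theorem eq_zero_of_indep {O₁ O₂ : ValuationSubring F} (h₁ : O₁ ≠ ⊤) (h₂ : O₂ ≠ ⊤)
    (h : O₁ ⊔ O₂ = ⊤) {f : DV ℓ F} (hf₁ : f ∈ DD ℓ O₁) (hf₂ : f ∈ DD ℓ O₂) : f = 0 := by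
  have := mem_II_sup (fun e => h₂ ((sup_eq_right.2 e).symm.trans h))
    (fun e => h₁ ((sup_eq_left.2 e).symm.trans h)) hf₁ hf₂
  rwa [h, II_top, Submodule.mem_bot] at this

/-- the union of the chain of overrings with `σ` in their inertia -/
theorem exists_Max {O : ValuationSubring F} {σ : DV ℓ F} (h : σ ∈ II ℓ O) :
    ∃ O', O ≤ O' ∧ Max σ O' := by
  have two : ∀ {x y : F}, (∃ P, O ≤ P ∧ σ ∈ II ℓ P ∧ x ∈ P) → (∃ P, O ≤ P ∧ σ ∈ II ℓ P ∧ y ∈ P) →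
      ∃ P, O ≤ P ∧ σ ∈ II ℓ P ∧ x ∈ P ∧ y ∈ P := by
    rintro x y ⟨P, h1, h2, h3⟩ ⟨Q, k1, k2, k3⟩
    rcases le_total_of_le h1 k1 with e | e
    · exact ⟨Q, k1, k2, e h3, k3⟩
    · exact ⟨P, h1, h2, h3, e k3⟩
  let S : Subring F :=
    { carrier := {x | ∃ P, O ≤ P ∧ σ ∈ II ℓ P ∧ x ∈ P}
      mul_mem' := fun hx hy => (two hx hy).imp fun P hP =>
        ⟨hP.1, hP.2.1, mul_mem hP.2.2.1 hP.2.2.2⟩
      one_mem' := ⟨O, le_rfl, h, one_mem _⟩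
      add_mem' := fun hx hy => (two hx hy).imp fun P hP =>
        ⟨hP.1, hP.2.1, add_mem hP.2.2.1 hP.2.2.2⟩
      zero_mem' := ⟨O, le_rfl, h, zero_mem _⟩
      neg_mem' := fun hx => hx.imp fun P hP => ⟨hP.1, hP.2.1, neg_mem hP.2.2⟩ }
  have h1 : O.toSubring ≤ S := fun x hx => ⟨O, le_rfl, h, hx⟩
  refine ⟨O.ofLE S h1, h1, mem_II.2 fun x hx => ?_, fun O' h2 h3 =>
    le_antisymm (fun x hx => ⟨O', le_trans h1 h2, h3, hx⟩) h2⟩
  obtain ⟨x0, h2, h3⟩ := val_eq_one_iff.1 hx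
  obtain ⟨P, -, k1, k2⟩ := two h2 h3
  exact mem_II.1 k1 x (val_eq_one_iff.2 ⟨x0, k2⟩)

theorem Max.le {O₁ O₂ : ValuationSubring F} {σ : DV ℓ F} (h₂ : Max σ O₂) (h₁ : σ ∈ II ℓ O₁) :
    O₁ ≤ O₂ := by
  by_contra hn
  by_cases h : O₂ ≤ O₁
  · exact hn (h₂.2 _ h h₁).le
  · exact hn (sup_eq_right.1 (h₂.2 _ le_sup_right
      (mem_II_sup hn h (II_le_DD _ h₁) (II_le_DD _ h₂.1))))

theorem Max.smul {O : ValuationSubring F} {σ : DV ℓ F} (h : Max σ O) {c : ZMod ℓ} (hc : c ≠ 0) :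
    Max (c • σ) O := ⟨Submodule.smul_mem _ _ h.1,
  fun O' h1 h2 => h.2 O' h1 ((Submodule.smul_mem_iff _ hc).1 h2)⟩

/-- `→`: take `u, a, b` from `LT`. If `u ≤ O` use `DD_mono`. If `O ≤ u`: for `b ≠ 0`, `f` is a
combination of `σ` and `a σ + b f ∈ II u ≤ II O`; for `b = 0`, `u = O`. If incomparable,
`σ ∈ II (O ⊔ u)`. -/
theorem Max.CP_iff (k : Type*) [Field k] [Algebra k F] [IsAlgClosed k] {O : ValuationSubring F}
    {σ : DV ℓ F} (h : Max σ O) (f : DV ℓ F) : CP σ f ↔ f ∈ DD ℓ O := by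
  refine ⟨fun hc => ?_, CP_of_II_DD k h.1⟩
  obtain ⟨u, h1, h2, a, b, hab, h3⟩ := LT k σ f hc
  by_cases hu : u ≤ O
  · exact DD_mono hu h2
  by_cases hu' : O ≤ u
  · rcases eq_or_ne b 0 with rfl | hb
    · rw [zero_smul, add_zero, Submodule.smul_mem_iff _ (by simpa using hab)] at h3
      exact absurd (h.2 u hu' h3).le hu
    · have h4 := II_anti hu' h3
      rw [Submodule.add_mem_iff_right _ (Submodule.smul_mem _ _ h.1),
        Submodule.smul_mem_iff _ hb] at h4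
      exact II_le_DD _ h4
  · exact absurd (sup_eq_right.1 (h.2 _ le_sup_right (mem_II_sup hu hu' h1 (II_le_DD _ h.1)))) hu

theorem vala_mem {Θ : V ℓ F ≃ₗ[ZMod ℓ] V ℓ E} {A : Submodule (ZMod ℓ) (V ℓ F)}
    {B : Submodule (ZMod ℓ) (V ℓ E)} (h : A.map Θ.toLinearMap = B) (z : V ℓ F) :
    Θ z ∈ B ↔ z ∈ A := by
  rw [← h]
  exact ⟨fun ⟨y, hy, e⟩ => Θ.injective e ▸ hy, fun hz => ⟨z, hz, rfl⟩⟩

theorem vala_map {Θ : V ℓ F ≃ₗ[ZMod ℓ] V ℓ E} {A : Submodule (ZMod ℓ) (V ℓ F)}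
    {B : Submodule (ZMod ℓ) (V ℓ E)} (h : ∀ z, Θ z ∈ B ↔ z ∈ A) : A.map Θ.toLinearMap = B := by
  ext w
  obtain ⟨z, rfl⟩ := Θ.surjective w
  rw [vala_mem rfl, h]

theorem vala_symm {Θ : V ℓ F ≃ₗ[ZMod ℓ] V ℓ E} {A : Submodule (ZMod ℓ) (V ℓ F)}
    {B : Submodule (ZMod ℓ) (V ℓ E)} (h : A.map Θ.toLinearMap = B) :
    B.map Θ.symm.toLinearMap = A :=
  vala_map fun z => by rw [← vala_mem h, Θ.apply_symm_apply]

theorem vala_ann {Θ : V ℓ F ≃ₗ[ZMod ℓ] V ℓ E} {A : Submodule (ZMod ℓ) (V ℓ F)}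
    {B : Submodule (ZMod ℓ) (V ℓ E)} (h : A.map Θ.toLinearMap = B) (f : DV ℓ E) :
    f ∈ B.dualAnnihilator ↔ f ∘ₗ Θ.toLinearMap ∈ A.dualAnnihilator := by
  rw [Submodule.mem_dualAnnihilator, Submodule.mem_dualAnnihilator, ← h]
  exact ⟨fun H z hz => H _ ⟨z, hz, rfl⟩, fun H _ ⟨z, hz, e⟩ => e ▸ H z hz⟩

theorem Partner.symm {Θ : V ℓ F ≃ₗ[ZMod ℓ] V ℓ E} {O : ValuationSubring F}
    {O' : ValuationSubring E} (h : Partner Θ O O') : Partner Θ.symm O' O := ⟨vala_symm h.1, vala_symm h.2⟩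

theorem Partner.II_iff {Θ : V ℓ F ≃ₗ[ZMod ℓ] V ℓ E} {O : ValuationSubring F}
    {O' : ValuationSubring E} (h : Partner Θ O O') (f : DV ℓ E) :
    f ∈ II ℓ O' ↔ f ∘ₗ Θ.toLinearMap ∈ II ℓ O := vala_ann h.1 f

theorem Partner.DD_iff {Θ : V ℓ F ≃ₗ[ZMod ℓ] V ℓ E} {O : ValuationSubring F}
    {O' : ValuationSubring E} (h : Partner Θ O O') (f : DV ℓ E) :
    f ∈ DD ℓ O' ↔ f ∘ₗ Θ.toLinearMap ∈ DD ℓ O := vala_ann h.2 f

theorem Partner.mem_U_iff {Θ : V ℓ F ≃ₗ[ZMod ℓ] V ℓ E} {O : ValuationSubring F}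
    {O' : ValuationSubring E} (h : Partner Θ O O') (z : V ℓ F) : Θ z ∈ U ℓ O' ↔ z ∈ U ℓ O := vala_mem h.1 z

theorem Partner.mem_U1_iff {Θ : V ℓ F ≃ₗ[ZMod ℓ] V ℓ E} {O : ValuationSubring F}
    {O' : ValuationSubring E} (h : Partner Θ O O') (z : V ℓ F) : Θ z ∈ U1 ℓ O' ↔ z ∈ U1 ℓ O := vala_mem h.2 z

theorem Partner.II_ne_bot {Θ : V ℓ F ≃ₗ[ZMod ℓ] V ℓ E} {O : ValuationSubring F}
    {O' : ValuationSubring E} (h : Partner Θ O O') (h0 : II ℓ O ≠ ⊥) : II ℓ O' ≠ ⊥ := by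
  rw [Ne, II_eq_bot_iff] at h0 ⊢
  exact fun e => h0 (eq_top_iff.2 fun z _ => (h.mem_U_iff z).1 (e ▸ trivial))

theorem vala_comb {σ f g : DV ℓ F} {a b : ZMod ℓ} (hb : b ≠ 0) (h1 : CP σ g)
    (h2 : CP (a • σ + b • f) g) : CP f g := by
  have := (h2.add_left (h1.smul_left (-a))).smul_left b⁻¹
  have e : b⁻¹ • (a • σ + b • f + -a • σ) = f := by
    have e1 : a • σ + b • f + -a • σ = b • f := by module
    rw [e1, smul_smul, inv_mul_cancel₀ hb, one_smul]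
  rwa [e] at this

/-- Partner lemma. Let `σ' = σ ∘ Θ⁻¹` and `f', g'` the transports of the non commuting pair; they
commute with `σ'`. Apply `LT` to `(σ', f')` and `(σ', g')`, getting `u₁, u₂`. If the coefficient of
`f'` (or `g'`) vanishes, `σ' ∈ II u₁`. If `u₁, u₂` are incomparable, `σ' ∈ II (u₁ ⊔ u₂)`. If
`u₁ ≤ u₂`, both combinations are in `II u₁`, `σ' ∈ DD u₁`, and bilinearity gives `CP f' g'`, absurd.
Take `O'` from `exists_Max`; `Max.CP_iff` on both sides identifies `DD`; `II O'` is central in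
`DD O'`, so it is the span of `σ'`. Use `mem_U_iff_II`, `mem_U1_iff_DD`. -/
theorem exists_partner (k l : Type*) [Field k] [Algebra k F] [IsAlgClosed k] [Field l]
    [Algebra l E] [IsAlgClosed l] {Θ : V ℓ F ≃ₗ[ZMod ℓ] V ℓ E} (hΘ : Iso Θ)
    {O : ValuationSubring F} (h : QP ℓ O) : ∃ O', Partner Θ O O' ∧ QP ℓ O' := by
  obtain ⟨σ, hσ, hM, hI⟩ := h.ex
  obtain ⟨f, hf, g, hg, hfg⟩ := h.nonc
  have BT : ∀ f : DV ℓ F, (f ∘ₗ Θ.symm.toLinearMap) ∘ₗ Θ.toLinearMap = f := fun f => by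
    ext z
    simp
  have TB : ∀ f : DV ℓ E, (f ∘ₗ Θ.toLinearMap) ∘ₗ Θ.symm.toLinearMap = f := fun f => by
    ext z
    simp
  have hT : ∀ f g : DV ℓ F, CP (f ∘ₗ Θ.symm.toLinearMap) (g ∘ₗ Θ.symm.toLinearMap) ↔ CP f g :=
    fun f g => by rw [hΘ, BT, BT]
  have c1 := (hT _ _).2 (CP_of_II_DD k hM.1 hf)
  have c2 := (hT _ _).2 (CP_of_II_DD k hM.1 hg)
  obtain ⟨u, hu⟩ : ∃ u, σ ∘ₗ Θ.symm.toLinearMap ∈ II ℓ u := by
    obtain ⟨u₁, d1, d2, a₁, b₁, hab₁, d3⟩ := LT l _ _ c1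
    obtain ⟨u₂, e1, e2, a₂, b₂, hab₂, e3⟩ := LT l _ _ c2
    rcases eq_or_ne b₁ 0 with rfl | hb₁
    · rw [zero_smul, add_zero, Submodule.smul_mem_iff _ (by simpa using hab₁)] at d3
      exact ⟨u₁, d3⟩
    rcases eq_or_ne b₂ 0 with rfl | hb₂
    · rw [zero_smul, add_zero, Submodule.smul_mem_iff _ (by simpa using hab₂)] at e3
      exact ⟨u₂, e3⟩
    by_cases h1 : u₁ ≤ u₂
    · exact absurd ((hT _ _).1 (vala_comb hb₂ c1 (CP_of_II_DD l (II_anti h1 e3) d2))).symm hfg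
    by_cases h2 : u₂ ≤ u₁
    · exact absurd ((hT _ _).1 (vala_comb hb₁ c2 (CP_of_II_DD l (II_anti h2 d3) e2))) hfg
    exact ⟨_, mem_II_sup h1 h2 d1 e1⟩
  obtain ⟨O', -, hM'⟩ := exists_Max hu
  have hD : ∀ f' : DV ℓ E, f' ∈ DD ℓ O' ↔ f' ∘ₗ Θ.toLinearMap ∈ DD ℓ O := fun f' => by
    rw [← hM'.CP_iff l, ← hM.CP_iff k, hΘ, BT]
  have hD' : ∀ f : DV ℓ F, f ∘ₗ Θ.symm.toLinearMap ∈ DD ℓ O' ↔ f ∈ DD ℓ O := fun f => by
    rw [hD, BT]
  have hc : ∀ f' ∈ DD ℓ O', (∀ g' ∈ DD ℓ O', CP f' g') → f' ∘ₗ Θ.toLinearMap ∈ II ℓ O :=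
    fun f' h1 h2 => h.centre _ ((hD _).1 h1) fun g hg => by
      rw [← hT, TB]
      exact h2 _ ((hD' _).2 hg)
  have hs : ∀ f' : DV ℓ E, f' ∘ₗ Θ.toLinearMap ∈ II ℓ O →
      f' ∈ Submodule.span (ZMod ℓ) {σ ∘ₗ Θ.symm.toLinearMap} := fun f' h1 => by
    rw [hI, Submodule.mem_span_singleton] at h1
    obtain ⟨c, hc⟩ := h1
    exact Submodule.mem_span_singleton.2 ⟨c, by rw [← LinearMap.smul_comp, hc, TB]⟩
  have hs' : Submodule.span (ZMod ℓ) {σ ∘ₗ Θ.symm.toLinearMap} ≤ II ℓ O' :=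
    (Submodule.span_singleton_le_iff_mem _ _).2 hM'.1
  have hII : ∀ f' : DV ℓ E, f' ∈ II ℓ O' ↔ f' ∘ₗ Θ.toLinearMap ∈ II ℓ O := fun f' =>
    ⟨fun h1 => hc _ (II_le_DD _ h1) fun _ => CP_of_II_DD l h1, fun h1 => hs' (hs _ h1)⟩
  refine ⟨O', ⟨vala_map fun z => ?_, vala_map fun z => ?_⟩,
    ⟨_, fun e => hσ ?_, hM', le_antisymm (fun f' h1 => hs _ ((hII _).1 h1)) hs'⟩,
    fun f' h1 h2 => (hII _).2 (hc _ h1 h2),
    _, (hD' _).2 hf, _, (hD' _).2 hg, fun e => hfg ((hT _ _).1 e)⟩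
  · rw [mem_U_iff_II, mem_U_iff_II]
    refine ⟨fun H f hf => ?_, fun H f hf => H _ ((hII f).1 hf)⟩
    simpa using H (f ∘ₗ Θ.symm.toLinearMap) ((hII _).2 (by rwa [BT]))
  · rw [mem_U1_iff_DD, mem_U1_iff_DD]
    refine ⟨fun H f hf => ?_, fun H f hf => H _ ((hD f).1 hf)⟩
    simpa using H (f ∘ₗ Θ.symm.toLinearMap) ((hD' _).2 hf)
  · rw [← BT σ, e, LinearMap.zero_comp]

theorem mem_ulim {ι : Type*} (𝒰 : Ultrafilter ι) (O : ι → ValuationSubring F) (x : F) :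
    x ∈ ulim 𝒰 O ↔ ∀ᶠ i in (𝒰 : Filter ι), x ∈ O i := Iff.rfl

theorem ulim_val_eq_one {ι : Type*} (𝒰 : Ultrafilter ι) (O : ι → ValuationSubring F) (x : F) :
    (ulim 𝒰 O).valuation x = 1 ↔ ∀ᶠ i in (𝒰 : Filter ι), (O i).valuation x = 1 := by
  simp only [val_eq_one_iff, mem_ulim, eventually_and, eventually_const]

theorem ulim_val_lt_one {ι : Type*} (𝒰 : Ultrafilter ι) (O : ι → ValuationSubring F) (x : F) :
    (ulim 𝒰 O).valuation x < 1 ↔ ∀ᶠ i in (𝒰 : Filter ι), (O i).valuation x < 1 := by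
  simp only [← ValuationSubring.mem_nonunits_iff, ValuationSubring.mem_nonunits_iff_or, mem_ulim,
    Ultrafilter.eventually_or, eventually_const, Ultrafilter.eventually_not]

end Vale.Agent.P019
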