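import Vale.Agent.P019.AB
import Vale.Agent.P019.ValA

open scoped IntermediateField

namespace Vale.Agent.P019

variable {ℓ : ℕ} [Fact ℓ.Prime] {k K : Type*} [Field k] [Field K] [Algebra k K] [IsAlgClosed k]
  {O : ValuationSubring K}

theorem gv_ne_top {π : K} (h0 : π ≠ 0) (h : O.valuation π < 1) : O ≠ ⊤ := by
  rintro rfl
  exact h.ne (val_eq_one_iff.2 ⟨h0, trivial, trivial⟩)

theorem gv_exists_lt (h : O ≠ ⊤) : ∃ π : K, π ≠ 0 ∧ O.valuation π < 1 := by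
  obtain ⟨x, -, hx⟩ := SetLike.exists_of_lt (lt_top_iff_ne_top.2 h)
  refine ⟨x⁻¹, inv_ne_zero fun h0 => hx (h0 ▸ O.zero_mem), ?_⟩
  exact O.mem_nonunits_iff.1 (O.inv_mem_nonunits_iff.2 (Or.inr hx))

theorem gv_ac_top {e : ℕ} {y : Fin e → K} {π : K}
    (hd : Algebra.trdeg k K = ((e + 1 : ℕ) : Cardinal)) (hy : RInd k O y)
    (hπ : VInd k O (fun _ : Unit => π)) :
    ac k (Set.range y ∪ Set.range (fun _ : Unit => π)) = ⊤ := by
  rw [← Set.Sum.elim_range]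
  exact ac_eq_top_of_indep (indep_of_RInd_VInd hy hπ) (by rw [hd]; simp)

theorem gv_val {e : ℕ} {y : Fin e → K} {π : K}
    (hd : Algebra.trdeg k K = ((e + 1 : ℕ) : Cardinal)) (hy : RInd k O y)
    (hπ : VInd k O (fun _ : Unit => π)) {z : K} (hz : z ≠ 0) :
    ∃ (d : k) (N : ℕ) (m : ℤ), d ≠ 0 ∧ 0 < N ∧
      O.valuation (z / algebraMap k K d) ^ N = O.valuation π ^ m := by
  obtain ⟨N, c, m, hN, hc, e1⟩ := val_ac hy hπ (z := z)
    (by rw [gv_ac_top hd hy hπ]; trivial) hz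
  obtain ⟨d, rfl⟩ := IsAlgClosed.exists_pow_nat_eq c hN
  have hd0 : d ≠ 0 := fun h0 => hc (by rw [h0, zero_pow hN.ne'])
  refine ⟨d, N, m (), hd0, hN, ?_⟩
  have h1 : O.valuation (algebraMap k K d) ≠ 0 := (map_ne_zero _).2 ((map_ne_zero _).2 hd0)
  rw [Finset.univ_unique, Finset.prod_singleton, map_pow, map_mul, map_pow, map_pow,
    map_zpow₀] at e1
  rw [map_div₀, div_pow, e1, mul_div_cancel_left₀ _ (pow_ne_zero _ h1)]

theorem IsGV.isAbh (h : IsGV k O) : IsAbh k O := by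
  obtain ⟨e, y, π, hd, hy, hπ⟩ := h
  exact ⟨e, y, π, hd, hy, hπ.vind⟩

theorem IsPrime.isGV (h : IsPrime k O) : IsGV k O := by
  obtain ⟨hk, hO, e, y, hd, hy⟩ := h
  obtain ⟨π, h0, hπ⟩ := gv_exists_lt hO
  refine ⟨e, y, π, hd, hy, h0, hπ, fun c hc n => ?_⟩
  have hc0 : c = 0 := by
    by_contra hc0
    exact hc.ne (val_const_eq_one hk hc0)
  rw [hc0, map_zero, map_zero]
  exact zero_lt_iff.2 (pow_ne_zero _ ((map_ne_zero _).2 h0))

theorem IsPrime.isAbh (h : IsPrime k O) : IsAbh k O := h.isGV.isAbh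

theorem isPrime_of_isAbh (h : IsAbh k O) (hk : ∀ c : k, algebraMap k K c ∈ O) : IsPrime k O := by
  obtain ⟨e, y, π, hd, hy, hπ⟩ := h
  refine ⟨hk, ?_, e, y, hd, hy⟩
  rintro rfl
  have h1 := hπ.2 (fun _ => 1) 1 (by
    rw [Finset.univ_unique, Finset.prod_singleton, zpow_one, map_one, map_one]
    exact val_eq_one_iff.2 ⟨hπ.1 (), trivial, trivial⟩)
  exact one_ne_zero (congrFun h1 ())

theorem isPrime_of_RInd {e : ℕ} (hd : Algebra.trdeg k K = ((e + 1 : ℕ) : Cardinal)) {ι : Type*}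
    [Fintype ι] (hι : Fintype.card ι = e) {y : ι → K} (hy : RInd k O y)
    (hk : ∀ c : k, algebraMap k K c ∈ O) (h : O ≠ ⊤) : IsPrime k O :=
  ⟨hk, h, e, y ∘ (Fintype.equivFinOfCardEq hι).symm, hd,
    hy.comp _ (Fintype.equivFinOfCardEq hι).symm.injective⟩

theorem Pt.isPrime (hd : Algebra.trdeg k K = 1) (P : Pt k K) : IsPrime k P.1 :=
  ⟨P.2.2, P.2.1, 0, Fin.elim0, by rw [hd]; simp,
    fun i => i.elim0, algebraicIndependent_empty_type⟩

/-- By `val_ac` every `z ≠ 0` has `v (z ^ N) = v (c π ^ m)`; `z ↦ m / N` is a homomorphism to `ℚ`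
whose kernel is the set of elements with the value of a constant. A subgroup of `ℚ` mod `ℓ` has
dimension at most one. -/
theorem IsAbh.II_le_span (h : IsAbh k O) {σ : DV ℓ K} (hσ : σ ∈ II ℓ O) (h0 : σ ≠ 0) :
    II ℓ O = Submodule.span (ZMod ℓ) {σ} := by
  classical
  obtain ⟨e, y, π, hd, hy, -⟩ := h
  refine le_antisymm (fun τ hτ => ?_) ((Submodule.span_singleton_le_iff_mem _ _).2 hσ)
  by_contra hn
  have h1 : LinearIndependent (ZMod ℓ) ![τ, σ] :=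
    linearIndependent_fin2.2 ⟨h0, fun a ha => hn (Submodule.mem_span_singleton.2 ⟨a, ha⟩)⟩
  obtain ⟨x, hx0, hx⟩ := exists_dual _ h1
  have h2 : VInd k O x := VInd_of_dual (σ := ![τ, σ]) (fun j => by
    fin_cases j
    · exact hτ
    · exact hσ) hx0 hx
  have h3 := card_le_of_indep (indep_of_RInd_VInd hy h2) hd.le
  simp at h3

theorem gv_deg {F : Type*} [Field F] [Algebra F K] {z : K} (hz : IsIntegral F z) :
    ∃ D : ℕ, ∀ w ∈ F⟮z⟯, IsAlgebraic F w ∧ (minpoly F w).natDegree ≤ D := by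
  have : FiniteDimensional F F⟮z⟯ := IntermediateField.adjoin.finiteDimensional hz
  refine ⟨Module.finrank F F⟮z⟯, fun w hw => ⟨?_, ?_⟩⟩
  · exact (IntermediateField.isAlgebraic_iff (x := ⟨w, hw⟩)).1 (Algebra.IsAlgebraic.isAlgebraic _)
  · have h1 := minpoly.natDegree_le (A := F) (⟨w, hw⟩ : F⟮z⟯)
    rwa [IntermediateField.minpoly_eq] at h1

/-- With `K = pc k T` and `n = [k(T, y, π) : k(y, π)]` the image in `ℚ` lies in
`(1 / n!) ℤ[1/q]`, `q` the exponential characteristic, so the `ℓ`-adic valuation is bounded below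
on it; an element of minimal valuation is not in `U`. -/
theorem IsAbh.II_ne_bot (hK : PF k K) (hl : (ℓ : k) ≠ 0) (h : IsAbh k O) : II ℓ O ≠ ⊥ := by
  obtain ⟨e, y, π, hd, hy, hπ⟩ := h
  have hp : ℓ.Prime := Fact.out
  rw [Ne, II_eq_bot_iff]
  intro hU
  have hroot : ∀ n : ℕ, ∃ w : K, w ≠ 0 ∧ O.valuation π = O.valuation w ^ ℓ ^ n := by
    intro n
    induction n with
    | zero => exact ⟨π, hπ.1 (), by rw [pow_zero, pow_one]⟩
    | succ n ih =>
      obtain ⟨w, hw, e1⟩ := ih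
      obtain ⟨z, hz, e2⟩ := (cl_mem_U_iff (ℓ := ℓ) (O := O) hw).1 (by rw [hU]; trivial)
      exact ⟨z, hz, by rw [e1, e2, ← pow_mul, pow_succ']⟩
  obtain ⟨z, hz, htop⟩ := hK.exists_prim (gv_ac_top hd hy hπ)
  generalize hS : Set.range y ∪ Set.range (fun _ : Unit => π) = S at hz htop
  obtain ⟨D, hD⟩ := gv_deg hz.isIntegral
  obtain ⟨w, hw, ew⟩ := hroot D
  obtain ⟨j, hj⟩ := mem_pc.1 (show w ∈ pc k (insert z S) by rw [htop]; trivial)
  have hj' : w ^ ringExpChar K ^ j ∈ (IntermediateField.adjoin k S)⟮z⟯ := by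
    rw [← Set.union_singleton, ← IntermediateField.adjoin_adjoin_left] at hj
    exact hj
  obtain ⟨N, c, hN, hND, e1⟩ := val_pow_of_isAlgebraic (O := O) (hD _ hj').1 (pow_ne_zero _ hw)
  have hND' : N ≤ D := hND.trans (hD _ hj').2
  have hc0 : (c : K) ≠ 0 := by
    intro h0
    have h1 : algebraMap (IntermediateField.adjoin k S) K c = 0 := h0
    rw [h1, map_zero, map_eq_zero] at e1
    exact pow_ne_zero _ (pow_ne_zero _ hw) e1
  obtain ⟨c', m, -, e2⟩ := val_adjoin hy hπ (z := (c : K)) (by rw [hS]; exact c.2) hc0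
  rw [Finset.univ_unique, Finset.prod_singleton, map_mul, map_zpow₀] at e2
  have e3 : O.valuation w ^ (ringExpChar K ^ j * N) =
      O.valuation (algebraMap k K c') * O.valuation π ^ m default := by
    rw [← e2, pow_mul, ← map_pow, ← map_pow]
    exact e1
  have hπ0 : O.valuation π ≠ 0 := (map_ne_zero _).2 (hπ.1 ())
  have h4 := hπ.2 (fun _ => ((ringExpChar K ^ j * N : ℕ) : ℤ) - m default * ((ℓ ^ D : ℕ) : ℤ))
    (c' ^ ℓ ^ D) (by
      rw [Finset.univ_unique, Finset.prod_singleton, map_zpow₀, zpow_sub₀ hπ0, zpow_natCast,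
        zpow_mul, zpow_natCast, map_pow, map_pow,
        div_eq_iff (pow_ne_zero _ (zpow_ne_zero _ hπ0)), ← mul_pow, ← e3, ← pow_mul,
        mul_comm _ (ℓ ^ D), pow_mul (O.valuation w), ← ew])
  have h5 : ((ℓ ^ D : ℕ) : ℤ) ∣ ((ringExpChar K ^ j * N : ℕ) : ℤ) :=
    Dvd.intro_left _ (sub_eq_zero.1 (congrFun h4 ())).symm
  have hlK : (ℓ : K) ≠ 0 := by
    rw [← map_natCast (algebraMap k K)]
    exact (map_ne_zero _).2 hl
  have hq : ¬ ℓ ∣ ringExpChar K := fun h6 =>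
    expChar_cast_ne_zero (ℓ := ℓ) hlK ((ZMod.natCast_eq_zero_iff _ _).2 h6)
  have h6 : ℓ ^ D ∣ N :=
    (Nat.Coprime.pow D j ((Nat.Prime.coprime_iff_not_dvd hp).2 hq)).dvd_of_dvd_mul_left
      (Int.natCast_dvd_natCast.1 h5)
  exact absurd ((Nat.le_of_dvd hN h6).trans hND') (not_le.2 (Nat.lt_pow_self hp.one_lt))

theorem gv_key (h : IsGV k O) {O' : ValuationSubring K} (hle : O ≤ O') (hne : O' ≠ O) {w : K}
    (hw : w ≠ 0) : ∃ d : k, d ≠ 0 ∧ O'.valuation (w / algebraMap k K d) = 1 := by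
  obtain ⟨e, y, π, hd, hy, hπ⟩ := h
  have hπ0 : 0 < O.valuation π := zero_lt_iff.2 ((map_ne_zero _).2 hπ.1)
  have hπ' : O'.valuation π = 1 := by
    obtain ⟨x, hx', hx⟩ := SetLike.exists_of_lt (lt_of_le_of_ne hle hne.symm)
    have hx0 : x ≠ 0 := fun h0 => hx (h0 ▸ O.zero_mem)
    have hz : O.valuation x⁻¹ < 1 :=
      O.mem_nonunits_iff.1 (O.inv_mem_nonunits_iff.2 (Or.inr hx))
    obtain ⟨d, N, m, hd0, hN, e1⟩ := gv_val hd hy hπ.vind (inv_ne_zero hx0)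
    have hd1 : 0 < O.valuation (algebraMap k K d) :=
      zero_lt_iff.2 ((map_ne_zero _).2 ((map_ne_zero _).2 hd0))
    have hzN : O.valuation x⁻¹ ^ N < 1 := pow_lt_one₀ zero_le hz hN.ne'
    rw [map_div₀, div_pow, div_eq_iff (pow_pos hd1 N).ne'] at e1
    have anti : ∀ a b : ℤ, a ≤ b → O.valuation π ^ b ≤ O.valuation π ^ a := fun a b hab =>
      zpow_le_zpow_right_of_le_one₀ hπ0 hπ.2.1.le hab
    have key : O.valuation x⁻¹ ^ N ≤ O.valuation π := by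
      rcases lt_trichotomy (O.valuation (algebraMap k K d)) 1 with h1 | h1 | h1
      · have h2 := (hπ.2.2 d h1 (1 + m.natAbs)).le
        have h3 : O.valuation (algebraMap k K d) ^ N ≤ O.valuation (algebraMap k K d) :=
          pow_le_of_le_one zero_le h1.le hN.ne'
        rw [e1]
        calc O.valuation π ^ m * O.valuation (algebraMap k K d) ^ N
            ≤ O.valuation π ^ m * O.valuation π ^ (1 + m.natAbs) :=
              mul_le_mul_right (h3.trans h2) _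
          _ = O.valuation π ^ (m + ((1 + m.natAbs : ℕ) : ℤ)) := by
              rw [zpow_add₀ hπ0.ne', zpow_natCast]
          _ ≤ O.valuation π ^ (1 : ℤ) := anti _ _ (by omega)
          _ = O.valuation π := zpow_one _
      · rw [h1, one_pow, mul_one] at e1
        rw [e1] at hzN ⊢
        have h2 : 1 ≤ m := by
          by_contra h2
          have h3 := anti m 0 (by omega)
          rw [zpow_zero] at h3
          exact absurd hzN (not_lt.2 h3)
        have h3 := anti 1 m h2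
        rwa [zpow_one] at h3
      · exfalso
        have h2 : O.valuation (algebraMap k K d⁻¹) < 1 := by
          rw [map_inv₀, map_inv₀]
          exact inv_lt_one_of_one_lt₀ h1
        have h3 := hπ.2.2 d⁻¹ h2 m.natAbs
        rw [map_inv₀, map_inv₀, ← zpow_natCast] at h3
        have h4 := h3.trans_le (anti m _ (by omega))
        have h5 : O.valuation (algebraMap k K d) ≤ O.valuation (algebraMap k K d) ^ N :=
          le_self_pow₀ h1.le hN.ne'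
        have h6 : 1 < O.valuation π ^ m * O.valuation (algebraMap k K d) := by
          rwa [← one_mul (O.valuation (algebraMap k K d))⁻¹, mul_inv_lt_iff₀ hd1] at h4
        rw [e1] at hzN
        exact absurd (h6.trans_le (mul_le_mul_right h5 _)) (not_lt.2 hzN.le)
    rw [← map_pow] at key
    have h7 := mul_mem (hle ((basic_val_le hπ.1).1 key)) (pow_mem hx' N)
    rw [inv_pow, div_mul_eq_mul_div, inv_mul_cancel₀ (pow_ne_zero _ hx0), one_div] at h7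
    exact val_eq_one_iff.2 ⟨hπ.1, hle ((O.valuation_le_one_iff π).1 hπ.2.1.le), h7⟩
  obtain ⟨d, N, m, hd0, hN, e1⟩ := gv_val hd hy hπ.vind hw
  refine ⟨d, hd0, ?_⟩
  have h1 : O.valuation ((w / algebraMap k K d) ^ N / π ^ m) = 1 := by
    rw [map_div₀, map_pow, map_zpow₀, e1, div_self (zpow_ne_zero _ hπ0.ne')]
  have h2 := val_eq_one_of_le hle h1
  rw [map_div₀, map_pow, map_zpow₀, hπ', one_zpow, div_one] at h2
  exact (pow_eq_one_iff_of_nonneg zero_le hN.ne').1 h2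

/-- A proper overring makes `π` a unit (for `z ∈ O` nonunit `v (z ^ N) ≤ v π` for some `N`), and
every class is the class of an element with `v (z ^ N) = v (π ^ m)`. -/
theorem IsGV.U_eq_top (h : IsGV k O) {O' : ValuationSubring K} (hle : O ≤ O') (hne : O' ≠ O) :
    U ℓ O' = ⊤ := by
  refine eq_top_iff.2 fun v _ => ?_
  obtain ⟨w, hw, rfl⟩ := cl_surj v
  obtain ⟨d, hd, h1⟩ := gv_key h hle hne hw
  refine mem_U.2 ⟨_, h1, ?_⟩
  rw [cl_div hw ((map_ne_zero _).2 hd), cl_const, sub_zero]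

theorem IsGV.max (h : IsGV k O) {σ : DV ℓ K} (hσ : σ ∈ II ℓ O) (h0 : σ ≠ 0) : Max σ O := by
  refine ⟨hσ, fun O' hle h1 => ?_⟩
  by_contra hne
  rw [II_eq_bot_iff.2 (h.U_eq_top hle hne)] at h1
  exact h0 h1

theorem IsPrime.eq_or_top (h : IsPrime k O) {O' : ValuationSubring K} (hle : O ≤ O') :
    O' = O ∨ O' = ⊤ := by
  refine or_iff_not_imp_left.2 fun hne => eq_top_iff.2 fun w _ => ?_
  rcases eq_or_ne w 0 with rfl | hw
  · exact O'.zero_mem
  obtain ⟨d, hd, h1⟩ := gv_key h.isGV hle hne hw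
  have h2 := mul_mem (val_eq_one_iff.1 h1).2.1 (hle (h.1 d))
  rwa [div_mul_cancel₀ _ ((map_ne_zero _).2 hd)] at h2

theorem gv_eq_of_le {O' : ValuationSubring K} (h : IsPrime k O) (h' : IsPrime k O')
    (hle : O ≤ O') : O = O' :=
  ((h.eq_or_top hle).resolve_right h'.2.1).symm

theorem IsPrime.sup_eq_top {O' : ValuationSubring K} (h : IsPrime k O) (h' : IsPrime k O')
    (hne : O ≠ O') : O ⊔ O' = ⊤ := by
  refine (h.eq_or_top le_sup_left).resolve_left fun h1 => ?_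
  exact hne (gv_eq_of_le h' h (h1 ▸ le_sup_right)).symm

theorem IsPrime.U_inj (hK : PF k K) (hl : (ℓ : k) ≠ 0) {O' : ValuationSubring K} (h : IsPrime k O)
    (h' : IsPrime k O') (hU : U ℓ O = U ℓ O') : O = O' := by
  by_contra hne
  obtain ⟨f, hf, h0⟩ := (Submodule.ne_bot_iff _).1 (h.isAbh.II_ne_bot (ℓ := ℓ) hK hl)
  have hf' : f ∈ II ℓ O' := by
    unfold II at hf ⊢
    rwa [← hU]
  exact h0 (eq_zero_of_indep h.2.1 h'.2.1 (h.sup_eq_top h' hne) (II_le_DD _ hf) (II_le_DD _ hf'))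

theorem exists_prime {e : ℕ} (hd : Algebra.trdeg k K = ((e + 1 : ℕ) : Cardinal)) {π : K}
    {y : Fin e → K} (h : AlgebraicIndependent k (Fin.cons π y : Fin (e + 1) → K)) :
    ∃ O : ValuationSubring K, IsPrime k O ∧ RInd k O y ∧ O.valuation π < 1 := by
  obtain ⟨O, h1, h2, h3⟩ := exists_GV ⊤ h
  refine ⟨O, ⟨fun c => ?_, gv_ne_top h3.1 h3.2.1, e, y, hd, h2⟩, h2, h3.2.1⟩
  rw [← ValuationSubring.mem_comap, h1]
  trivial

theorem exists_two_primes {e : ℕ} (hd : Algebra.trdeg k K = ((e + 1 : ℕ) : Cardinal)) :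
    ∃ O₁ O₂ : ValuationSubring K, IsPrime k O₁ ∧ IsPrime k O₂ ∧ O₁ ≠ O₂ := by
  obtain ⟨Y, hY⟩ := exists_indep hd.ge
  rw [← Fin.cons_self_tail Y] at hY
  obtain ⟨h1, h2⟩ := indep_cons_iff.1 hY
  obtain ⟨O₁, a1, -, a2⟩ := exists_prime hd hY
  obtain ⟨O₂, b1, -, b2⟩ := exists_prime hd (π := (Y 0)⁻¹)
    (indep_cons_iff.2 ⟨h1, fun h3 => h2 (by simpa using inv_mem h3)⟩)
  refine ⟨O₁, O₂, a1, b1, ?_⟩
  rintro rfl
  have h0 : Y 0 ≠ 0 := fun h3 => h2 (h3 ▸ zero_mem _)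
  have h4 := mul_lt_one_of_nonneg_of_lt_one_left zero_le a2 b2.le
  rw [← map_mul, mul_inv_cancel₀ h0, map_one] at h4
  exact lt_irrefl _ h4

theorem exists_DV_ne_zero (hK : PF k K) (hl : (ℓ : k) ≠ 0) {e : ℕ}
    (hd : Algebra.trdeg k K = ((e + 1 : ℕ) : Cardinal)) : ∃ f : DV ℓ K, f ≠ 0 := by
  obtain ⟨O, -, h, -, -⟩ := exists_two_primes hd
  obtain ⟨f, -, h0⟩ := (Submodule.ne_bot_iff _).1 (h.isAbh.II_ne_bot (ℓ := ℓ) hK hl)
  exact ⟨f, h0⟩

/-- use two primes, `Max.CP_iff` and `eq_zero_of_indep` -/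
theorem eq_zero_of_central (hK : PF k K) (hl : (ℓ : k) ≠ 0) {e : ℕ}
    (hd : Algebra.trdeg k K = ((e + 1 : ℕ) : Cardinal)) {f : DV ℓ K} (h : ∀ g, CP f g) : f = 0 := by
  obtain ⟨O₁, O₂, h1, h2, hne⟩ := exists_two_primes hd
  have key : ∀ O : ValuationSubring K, IsPrime k O → f ∈ DD ℓ O := by
    intro O hO
    obtain ⟨σ, hσ, h0⟩ := (Submodule.ne_bot_iff _).1 (hO.isAbh.II_ne_bot (ℓ := ℓ) hK hl)
    exact ((hO.isGV.max hσ h0).CP_iff k f).1 (h σ).symm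
  exact eq_zero_of_indep h1.2.1 h2.2.1 (h1.sup_eq_top h2 hne) (key _ h1) (key _ h2)

/-- the residue field is `PF` of dimension `e + 1`; transport with `ResFun` -/
theorem IsGV.qp (hK : PF k K) {e : ℕ} (hd : Algebra.trdeg k K = ((e + 2 : ℕ) : Cardinal))
    (h : IsGV k O) (hl : O.valuation (ℓ : K) = 1) : QP ℓ O := by
  obtain ⟨hP, hD⟩ := h.isAbh.res_pf hK (e := e + 1) hd
  have hl1 : (ℓ : kap k O) ≠ 0 := kap_cast_ne_zero O k hl
  have hl2 : (ℓ : k) ≠ 0 := fun h0 => (val_eq_one_iff.1 hl).1 (by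
    rw [← map_natCast (algebraMap k K), h0, map_zero])
  refine ⟨?_, fun f hf hc => ?_, ?_⟩
  · obtain ⟨σ, hσ, h0⟩ := (Submodule.ne_bot_iff _).1 (h.isAbh.II_ne_bot (ℓ := ℓ) hK hl2)
    exact ⟨σ, h0, h.max hσ h0, h.isAbh.II_le_span hσ h0⟩
  · obtain ⟨fb, hfb⟩ := exists_resFun_down O hf
    refine hfb.eq_zero_iff.1 (eq_zero_of_central hP hl1 hD fun gb => ?_)
    obtain ⟨g, hg⟩ := exists_resFun_up O gb
    exact (hfb.CP_iff k hg).1 (hc g hg.1)
  · obtain ⟨fb, h0⟩ := exists_DV_ne_zero (ℓ := ℓ) hP hl1 hD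
    obtain ⟨gb, hgb⟩ := not_forall.1 fun hc => h0 (eq_zero_of_central hP hl1 hD hc)
    obtain ⟨f, hf⟩ := exists_resFun_up O fb
    obtain ⟨g, hg⟩ := exists_resFun_up O gb
    exact ⟨f, hf.1, g, hg.1, fun hc => hgb ((hf.CP_iff k hg).1 hc)⟩

/-- refine two different primes by primes of their residue fields (`vcomp`) -/
theorem exists_two_flags (hK : PF k K) (hl : (ℓ : k) ≠ 0) {e : ℕ}
    (hd : Algebra.trdeg k K = ((e + 2 : ℕ) : Cardinal)) :
    ∃ ν₁ ν₂ : ValuationSubring K, (∀ O : ValuationSubring K, ν₁ ≤ O → ν₂ ≤ O → O = ⊤) ∧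
      (∃ σ τ : DV ℓ K, σ ∈ II ℓ ν₁ ∧ τ ∈ II ℓ ν₁ ∧ LinearIndependent (ZMod ℓ) ![σ, τ]) ∧
      (∃ σ τ : DV ℓ K, σ ∈ II ℓ ν₂ ∧ τ ∈ II ℓ ν₂ ∧ LinearIndependent (ZMod ℓ) ![σ, τ]) := by
  have key : ∀ O : ValuationSubring K, IsPrime k O → ∃ ν, ν ≤ O ∧
      ∃ σ τ : DV ℓ K, σ ∈ II ℓ ν ∧ τ ∈ II ℓ ν ∧ LinearIndependent (ZMod ℓ) ![σ, τ] := by
    intro O hO
    obtain ⟨hP, hD⟩ := hO.isAbh.res_pf hK (e := e + 1) hd
    have hl1 : (ℓ : kap k O) ≠ 0 := kap_cast_ne_zero O k (by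
      rw [← map_natCast (algebraMap k K)]
      exact val_const_eq_one hO.1 hl)
    obtain ⟨u, -, hu, -, -⟩ := exists_two_primes hD
    obtain ⟨σb, hσb, hσ0⟩ := (Submodule.ne_bot_iff _).1 (hu.isAbh.II_ne_bot (ℓ := ℓ) hP hl1)
    obtain ⟨τ, hτ, hτ0⟩ := (Submodule.ne_bot_iff _).1 (hO.isAbh.II_ne_bot (ℓ := ℓ) hK hl)
    obtain ⟨σ, hσ⟩ := exists_resFun_up O σb
    refine ⟨vcomp O u, vcomp_le O u, σ, τ, (hσ.II_iff u).2 hσb, II_anti (vcomp_le O u) hτ,
      linearIndependent_fin2.2 ⟨hτ0, fun a ha => hσ0 (hσ.eq_zero_iff.2 ?_)⟩⟩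
    have ha' : a • τ = σ := ha
    rw [← ha']
    exact Submodule.smul_mem _ a hτ
  obtain ⟨O₁, O₂, h1, h2, hne⟩ := exists_two_primes (e := e + 1) hd
  obtain ⟨ν₁, a1, a2⟩ := key O₁ h1
  obtain ⟨ν₂, b1, b2⟩ := key O₂ h2
  refine ⟨ν₁, ν₂, fun O c1 c2 => ?_, a2, b2⟩
  have hc : ¬ (O₁ ≤ O₂ ∨ O₂ ≤ O₁) := fun h3 =>
    h3.elim (fun h4 => hne (gv_eq_of_le h1 h2 h4)) fun h4 => hne (gv_eq_of_le h2 h1 h4).symm
  rcases le_total_of_le a1 c1 with d1 | d1
  · refine (h1.eq_or_top d1).resolve_left fun h3 => hc ?_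
    exact le_total_of_le (h3 ▸ c2) b1
  · rcases le_total_of_le b1 c2 with d2 | d2
    · exact absurd (Or.inr (d2.trans d1)) hc
    · exact absurd (le_total_of_le d1 d2) hc

/-! points -/

theorem Pt.eq_of_le (hd : Algebra.trdeg k K = 1) {P Q : Pt k K} (h : P.1 ≤ Q.1) : P = Q := Subtype.ext (gv_eq_of_le (P.isPrime hd) (Q.isPrime hd) h)

theorem Pt.II_ne_bot (hK : PFC k K) (hl : (ℓ : k) ≠ 0) (P : Pt k K) : II ℓ P.1 ≠ ⊥ := (P.isPrime hK.2).isAbh.II_ne_bot hK.1 hl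

theorem Pt.II_eq_span (hd : Algebra.trdeg k K = 1) (P : Pt k K) {σ : DV ℓ K} (hσ : σ ∈ II ℓ P.1)
    (h0 : σ ≠ 0) : II ℓ P.1 = Submodule.span (ZMod ℓ) {σ} := (P.isPrime hd).isAbh.II_le_span hσ h0

theorem Pt.U_eq_ker (hd : Algebra.trdeg k K = 1) (P : Pt k K) {σ : DV ℓ K} (hσ : σ ∈ II ℓ P.1)
    (h0 : σ ≠ 0) : U ℓ P.1 = LinearMap.ker σ := by
  ext z
  rw [mem_U_iff_II, P.II_eq_span hd hσ h0, LinearMap.mem_ker]
  refine ⟨fun h => h σ (Submodule.mem_span_singleton_self σ), fun h f hf => ?_⟩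
  obtain ⟨a, rfl⟩ := Submodule.mem_span_singleton.1 hf
  rw [LinearMap.smul_apply, h, smul_zero]

theorem Pt.eq_of_II (hd : Algebra.trdeg k K = 1) {P Q : Pt k K} {σ : DV ℓ K} (hP : σ ∈ II ℓ P.1)
    (hQ : σ ∈ II ℓ Q.1) (h0 : σ ≠ 0) : P = Q := by
  by_contra hne
  exact h0 (eq_zero_of_indep P.2.1 Q.2.1
    ((P.isPrime hd).sup_eq_top (Q.isPrime hd) fun h => hne (Subtype.ext h))
    (II_le_DD _ hP) (II_le_DD _ hQ))

theorem Pt.le_of_II (hd : Algebra.trdeg k K = 1) (P : Pt k K) {σ : DV ℓ K} (hP : σ ∈ II ℓ P.1)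
    (h0 : σ ≠ 0) {u : ValuationSubring K} (hu : σ ∈ II ℓ u) : u ≤ P.1 := ((P.isPrime hd).isGV.max hP h0).le hu

theorem exists_Pt_At {f : K} (hf : Transcendental k f) (c : k) : ∃ P : Pt k K, At k P.1 f c := by
  have h1 : Transcendental k (f - algebraMap k K c) := transcendental_iff.2 fun ⟨d, hd⟩ =>
    transcendental_iff.1 hf ⟨d + c, by rw [map_add, hd, sub_add_cancel]⟩
  obtain ⟨O, hk, h2⟩ := exists_zero h1
  exact ⟨⟨O, gv_ne_top (fun h0 => h1 (by rw [h0]; exact isAlgebraic_zero)) h2, hk⟩, h2⟩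

theorem exists_Pt_pole {f : K} (hf : Transcendental k f) : ∃ P : Pt k K, f ∉ P.1 := by
  have h1 : Transcendental k f⁻¹ := transcendental_iff.2 fun ⟨d, hd⟩ =>
    transcendental_iff.1 hf ⟨d⁻¹, by rw [map_inv₀, hd, inv_inv]⟩
  obtain ⟨O, hk, h2⟩ := exists_zero h1
  have h0 : f ≠ 0 := fun h0 => hf (h0 ▸ isAlgebraic_zero)
  exact ⟨⟨O, gv_ne_top (inv_ne_zero h0) h2, hk⟩,
    (O.inv_mem_nonunits_iff.1 (O.mem_nonunits_iff.2 h2)).resolve_left h0⟩

/-- the multiplicative group of `k(t)` is generated by the constants and the `t - a` -/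
theorem gv_ind (t : K) (G : K → Prop) (hc : ∀ c : k, c ≠ 0 → G (algebraMap k K c))
    (ht : ∀ a : k, t - algebraMap k K a ≠ 0 → G (t - algebraMap k K a))
    (hmul : ∀ x y, x ≠ 0 → y ≠ 0 → G x → G y → G (x * y)) (hinv : ∀ x, G x → G x⁻¹) :
    ∀ x ∈ k⟮t⟯, x ≠ 0 → G x := by
  have h1 : ∀ s : Multiset k, ∀ c : k,
      Polynomial.aeval t (Polynomial.C c * (s.map (Polynomial.X - Polynomial.C ·)).prod) ≠ 0 →
      G (Polynomial.aeval t (Polynomial.C c * (s.map (Polynomial.X - Polynomial.C ·)).prod)) := by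
    intro s c
    induction s using Multiset.induction_on with
    | empty =>
      rw [Multiset.map_zero, Multiset.prod_zero, mul_one, Polynomial.aeval_C]
      exact fun h => hc c ((map_ne_zero _).1 h)
    | cons a s ih =>
      rw [Multiset.map_cons, Multiset.prod_cons, mul_left_comm, map_mul, map_sub,
        Polynomial.aeval_X, Polynomial.aeval_C]
      intro h
      obtain ⟨h2, h3⟩ := mul_ne_zero_iff.1 h
      exact hmul _ _ h2 h3 (ht a h2) (ih h3)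
  have h2 : ∀ p : Polynomial k, Polynomial.aeval t p ≠ 0 → G (Polynomial.aeval t p) := by
    intro p
    rw [(IsAlgClosed.splits p).eq_prod_roots]
    exact h1 _ _
  intro x hx h0
  obtain ⟨p, q, rfl⟩ := (IntermediateField.mem_adjoin_simple_iff k x).1 hx
  obtain ⟨h3, h4⟩ := div_ne_zero_iff.1 h0
  rw [div_eq_mul_inv]
  exact hmul _ _ h3 (inv_ne_zero h4) (h2 p h3) (hinv _ (h2 q h4))

/-- points of `pc k {t}` are determined by the value of `t` -/
theorem Pt.eq_of_At {t : K} (ht : pc k {t} = ⊤) {P Q : Pt k K} {a : k} (hP : At k P.1 t a)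
    (hQ : At k Q.1 t a) : P = Q := by
  have hpi : ∀ y : K, ∃ n : ℕ, y ^ ringExpChar K ^ n ∈ (algebraMap k⟮t⟯ K).range := fun y => by
    obtain ⟨n, hn⟩ := mem_pc.1 (show y ∈ pc k {t} by rw [ht]; trivial)
    exact ⟨n, ⟨_, hn⟩, rfl⟩
  have hs : t - algebraMap k K a ≠ 0 := by
    intro h0
    refine P.2.1 (eq_top_iff.2 fun x _ => mem_of_mem_ac (k := k) (S := {t}) (fun z hz => ?_)
      (pc_le_ac _ (by rw [ht]; trivial)))
    rw [sub_eq_zero.1 h0, IntermediateField.adjoin_simple_eq_bot_iff.2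
      (IntermediateField.algebraMap_mem _ a), IntermediateField.mem_bot] at hz
    obtain ⟨c, rfl⟩ := hz
    exact P.2.2 c
  have hv : ∀ R : Pt k K, R.1.valuation (t - algebraMap k K a) ≠ 0 := fun R =>
    (map_ne_zero _).2 hs
  have hb : ∀ R : Pt k K, At k R.1 t a → ∀ b : k, b ≠ a →
      R.1.valuation (t - algebraMap k K b) = 1 := by
    intro R hR b hb
    have e1 : t - algebraMap k K b = algebraMap k K (a - b) + (t - algebraMap k K a) := by
      rw [map_sub]; ring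
    have e2 := val_const_eq_one R.2.2 (sub_ne_zero.2 hb.symm)
    rw [e1, R.1.valuation.map_add_eq_of_lt_left (e2 ▸ hR), e2]
  have key := gv_ind (k := k) t (fun x => ∃ m : ℤ,
      P.1.valuation x = P.1.valuation (t - algebraMap k K a) ^ m ∧
      Q.1.valuation x = Q.1.valuation (t - algebraMap k K a) ^ m)
    (fun c hc => ⟨0, by rw [zpow_zero, val_const_eq_one P.2.2 hc],
      by rw [zpow_zero, val_const_eq_one Q.2.2 hc]⟩)
    (fun b _ => by
      rcases eq_or_ne b a with rfl | h1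
      · exact ⟨1, (zpow_one _).symm, (zpow_one _).symm⟩
      · exact ⟨0, by rw [zpow_zero, hb P hP b h1], by rw [zpow_zero, hb Q hQ b h1]⟩)
    (fun x y _ _ ⟨m, h1, h2⟩ ⟨n, h3, h4⟩ => ⟨m + n, by rw [map_mul, h1, h3, zpow_add₀ (hv P)],
      by rw [map_mul, h2, h4, zpow_add₀ (hv Q)]⟩)
    (fun x ⟨m, h1, h2⟩ => ⟨-m, by rw [map_inv₀, h1, zpow_neg], by rw [map_inv₀, h2, zpow_neg]⟩)
  refine Subtype.ext (eq_of_comap_eq_of_pi _ hpi ?_)
  ext x
  rw [ValuationSubring.mem_comap, ValuationSubring.mem_comap]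
  rcases eq_or_ne (algebraMap k⟮t⟯ K x) 0 with h0 | h0
  · rw [h0]
    exact iff_of_true (zero_mem _) (zero_mem _)
  obtain ⟨m, h1, h2⟩ := key _ x.2 h0
  have h1' : P.1.valuation (algebraMap k⟮t⟯ K x) = _ := h1
  have h2' : Q.1.valuation (algebraMap k⟮t⟯ K x) = _ := h2
  rw [← ValuationSubring.valuation_le_one_iff, ← ValuationSubring.valuation_le_one_iff, h1', h2',
    zpow_le_one_iff_right_of_lt_one₀ (zero_lt_iff.2 (hv P)) hP,
    zpow_le_one_iff_right_of_lt_one₀ (zero_lt_iff.2 (hv Q)) hQ]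

theorem Pt.eq_of_pole {t : K} (ht : pc k {t} = ⊤) {P Q : Pt k K} (hP : t ∉ P.1) (hQ : t ∉ Q.1) :
    P = Q := by
  have h1 : ∀ R : Pt k K, t ∉ R.1 → At k R.1 t⁻¹ 0 := fun R hR => by
    unfold At
    rw [map_zero, sub_zero]
    exact R.1.mem_nonunits_iff.1 (R.1.inv_mem_nonunits_iff.2 (Or.inr hR))
  refine Pt.eq_of_At (eq_top_iff.2 (ht ▸ pc_le_pc (Set.singleton_subset_iff.2 ?_))) (h1 P hP)
    (h1 Q hQ)
  simpa using inv_mem (self_mem_pc (k := k) t⁻¹)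

theorem V_span_of_pc {t : K} (ht : pc k {t} = ⊤) (hl : (ℓ : k) ≠ 0) :
    Submodule.span (ZMod ℓ) (Set.range fun a : k => cl ℓ (t - algebraMap k K a)) = ⊤ := by
  have key := gv_ind (k := k) t (fun x => cl ℓ x ∈
      Submodule.span (ZMod ℓ) (Set.range fun a : k => cl ℓ (t - algebraMap k K a)))
    (fun c _ => by rw [cl_const]; exact zero_mem _)
    (fun a _ => Submodule.subset_span ⟨a, rfl⟩)
    (fun x y hx hy h1 h2 => by rw [cl_mul hx hy]; exact add_mem h1 h2)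
    (fun x h1 => by rw [cl_inv]; exact neg_mem h1)
  refine eq_top_iff.2 fun v _ => ?_
  obtain ⟨y, hy, rfl⟩ := cl_surj v
  obtain ⟨n, hn⟩ := mem_pc.1 (show y ∈ pc k {t} by rw [ht]; trivial)
  have h1 := key _ hn (pow_ne_zero _ hy)
  rw [cl_pow] at h1
  exact (Submodule.smul_mem_iff _ (basic_expChar_pow (algebraMap k K) hl n)).1 h1

end Vale.Agent.P019
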