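import Vale.Agent.P019.Gal1

open scoped IntermediateField
open Polynomial

namespace Vale.Agent.P019

variable {ℓ : ℕ} [Fact ℓ.Prime]

section aux
variable {E M : Type*} [Field E] [Field M] [Algebra E M]

/-- the stabilizer of a valuation ring -/
def gal2_Z (E : Type*) [Field E] [Algebra E M] (O : ValuationSubring M) :
    Subgroup (M ≃ₐ[E] M) where
  carrier := {g | O.comap (g : M →+* M) = O}
  mul_mem' := fun {a b} ha hb => ValuationSubring.ext _ _ fun x =>
    (SetLike.ext_iff.1 ha (b x)).trans (SetLike.ext_iff.1 hb x)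
  one_mem' := ValuationSubring.ext _ _ fun _ => Iff.rfl
  inv_mem' := fun {a} ha => ValuationSubring.ext _ _ fun x => by
    have := SetLike.ext_iff.1 ha (a⁻¹ x)
    rw [ValuationSubring.mem_comap] at this ⊢
    exact this.symm.trans (by simp)

theorem gal2_val [FiniteDimensional E M] {O : ValuationSubring M} (g : gal2_Z E O) (x : M) :
    O.valuation (g.1 x) = O.valuation x := by
  have key : ∀ (g : gal2_Z E O) (x : M), ¬ O.valuation (g.1 x) < O.valuation x := by
    intro g x h
    have h1 : ∀ a b, O.valuation a < O.valuation b → O.valuation (g.1 a) < O.valuation (g.1 b) :=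
      fun a b hab => (comap_val_lt (g.1 : M →+* M) O a b).1 (by rw [g.2]; exact hab)
    have h2 : ∀ n, O.valuation ((g.1 ^ (n + 1)) x) < O.valuation x := fun n => by
      induction n with
      | zero => simpa using h
      | succ n ih => rw [pow_succ']; exact (h1 _ _ ih).trans h
    have := h2 (orderOf g.1 - 1)
    rw [Nat.sub_add_cancel (orderOf_pos g.1), pow_orderOf_eq_one] at this
    exact lt_irrefl _ this
  refine le_antisymm (not_lt.1 fun h => key g⁻¹ (g.1 x) ?_) (not_lt.1 (key g x))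
  simpa using h

theorem gal2_norm {Γ : Type*} [Group Γ] [Finite Γ] (ρ : Γ →* (M ≃ₐ[E] M)) (O : ValuationSubring M)
    (hρ : ∀ γ x, O.valuation (ρ γ x) = O.valuation x) (P : Subgroup Γ) {w : M}
    (hw : ∀ γ ∈ P, ρ γ w = w) :
    ∃ u, (∀ γ, ρ γ u = u) ∧ O.valuation u = O.valuation w ^ P.index := by
  have := Fintype.ofFinite (Γ ⧸ P)
  let φ : Γ ⧸ P → M := Quotient.lift (fun γ => ρ γ w) fun a b h => by
    have := congrArg (ρ a) (hw _ (QuotientGroup.leftRel_apply.1 h))
    rw [← AlgEquiv.mul_apply, ← map_mul, mul_inv_cancel_left] at this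
    exact this.symm
  refine ⟨∏ q, φ q, fun γ => ?_, ?_⟩
  · rw [map_prod, ← Equiv.prod_comp (MulAction.toPerm γ) φ]
    refine Finset.prod_congr rfl fun q _ => ?_
    induction q using Quotient.inductionOn with
    | h a => exact (by rw [map_mul]; rfl : ρ γ (ρ a w) = ρ (γ * a) w)
  · rw [map_prod, Subgroup.index_eq_card, Nat.card_eq_fintype_card, ← Finset.card_univ,
      ← Finset.prod_const]
    refine Finset.prod_congr rfl fun q _ => ?_
    induction q using Quotient.inductionOn with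
    | h a => exact hρ a w

theorem gal2_resolvent {Γ : Type*} [Group Γ] [Finite Γ] (ρ : Γ →* (M ≃ₐ[E] M))
    (hρ : Function.Injective ρ) (χ : Γ →* M) (hχ : ∀ γ δ, ρ γ (χ δ) = χ δ) :
    ∃ r, r ≠ 0 ∧ ∀ γ, ρ γ r = χ γ * r := by
  have := Fintype.ofFinite Γ
  have h1 : LinearIndependent M fun δ : Γ => (ρ δ : M → M) :=
    (linearIndependent_monoidHom M M).comp (fun δ : Γ => (ρ δ : M →* M))
      fun a b h => hρ (AlgEquiv.ext fun x => DFunLike.congr_fun h x)
  obtain ⟨a, ha⟩ : ∃ a, ∑ δ, χ δ⁻¹ * ρ δ a ≠ 0 := by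
    by_contra h
    push Not at h
    have := Fintype.linearIndependent_iff.1 h1 (fun δ => χ δ⁻¹) (funext fun a => by
      simpa using h a) 1
    simp at this
  refine ⟨_, ha, fun γ => ?_⟩
  rw [map_sum, Finset.mul_sum, ← Equiv.sum_comp (Equiv.mulLeft γ)
    fun δ => χ γ * (χ δ⁻¹ * ρ δ a)]
  refine Finset.sum_congr rfl fun δ _ => ?_
  rw [map_mul, hχ, Equiv.coe_mulLeft, mul_inv_rev, map_mul χ, map_mul ρ, AlgEquiv.mul_apply,
    ← mul_assoc, mul_left_comm, ← map_mul χ, mul_inv_cancel, map_one, mul_one]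

/-- the action on embeddings -/
@[reducible] def gal2_act (E K M : Type*) [Field E] [Field K] [Field M] [Algebra E K]
    [Algebra E M] : MulAction (M ≃ₐ[E] M) (K →ₐ[E] M) where
  smul g τ := (g : M →ₐ[E] M).comp τ
  one_smul _ := rfl
  mul_smul _ _ _ := rfl

theorem gal2_root {O : ValuationSubring M} {ζ : M} (hl : O.valuation (ℓ : M) = 1) (h1 : ζ ^ ℓ = 1)
    (h2 : O.valuation (ζ - 1) < 1) : ζ = 1 := by
  by_contra h
  have h3 : ∑ i ∈ Finset.range ℓ, ζ ^ i = 0 :=
    (mul_eq_zero.1 ((mul_geom_sum ζ ℓ).trans (sub_eq_zero.2 h1))).resolve_left (sub_ne_zero.2 h)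
  have h4 := O.valuation.map_sum_lt one_ne_zero (s := Finset.range ℓ) (f := fun i => ζ ^ i - 1)
    fun i _ => basic_pu_pow h2 i
  rw [Finset.sum_sub_distrib, h3, zero_sub, Valuation.map_neg] at h4
  simp [hl] at h4

theorem gal2_hensel (O : ValuationSubring M) {f b : M[X]} (hf : ∀ n, f.coeff n ∈ O)
    (hb : ∀ n, b.coeff n ∈ O) {z w : M} (hz : z ∈ O) (hw : O.valuation (w - z) < 1)
    (h1 : f.eval z = 0) (h2 : f.eval w = 0) (h3 : b.eval z * f.derivative.eval z = 1) : w = z := by
  obtain ⟨f, rfl⟩ := (mem_lifts (f := O.subtype) f).1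
    ((lifts_iff_coeff_lifts f).2 fun n => ⟨⟨_, hf n⟩, rfl⟩)
  obtain ⟨b, rfl⟩ := (mem_lifts (f := O.subtype) b).1
    ((lifts_iff_coeff_lifts b).2 fun n => ⟨⟨_, hb n⟩, rfl⟩)
  lift z to O using hz
  obtain ⟨d, hd⟩ : ∃ d : O, (d : M) = w - z := ⟨⟨_, (O.valuation_le_one_iff _).1 hw.le⟩, rfl⟩
  obtain rfl : w = O.subtype (z + d) := by simp [hd]
  obtain ⟨κ, hκ⟩ := f.binomExpansion z d
  change (f.map O.subtype).eval (O.subtype z) = 0 at h1
  change (b.map O.subtype).eval (O.subtype z) *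
    (f.map O.subtype).derivative.eval (O.subtype z) = 1 at h3
  rw [derivative_map, eval_map_apply, eval_map_apply] at h3
  rw [eval_map_apply] at h1 h2
  have h4 := congrArg O.subtype hκ
  rw [map_add, map_add, map_mul, map_mul, map_pow, h1, h2] at h4
  by_contra hne
  have hd0 : O.subtype d ≠ 0 := fun e => hne (by rw [map_add, e, add_zero]; rfl)
  have h5 : O.subtype (b.eval z * κ) * O.subtype d = -1 := by
    refine mul_right_cancel₀ hd0 ?_
    rw [map_mul]
    linear_combination (-O.subtype (b.eval z)) * h4 - O.subtype d * h3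
  have h6 := congrArg O.valuation h5
  rw [map_mul, Valuation.map_neg, map_one] at h6
  refine absurd h6 (ne_of_lt ?_)
  exact mul_lt_one_of_nonneg_of_lt_one_right (O.valuation_le_one (b.eval z * κ)) zero_le
    ((congrArg O.valuation hd).trans_lt hw)

theorem gal2_hull.{u} (k E : Type*) (K : Type u) [Field k] [Field E] [Field K] [Algebra k E]
    [Algebra E K] [FiniteDimensional E K] [Algebra.IsSeparable E K] :
    ∃ (M : Type u) (_ : Field M) (_ : Algebra E M) (_ : Algebra K M) (_ : Algebra k M),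
      IsScalarTower E K M ∧ IsScalarTower k E M ∧ FiniteDimensional E M ∧ IsGalois E M := by
  obtain ⟨M, h1, h2⟩ := exists_galois_hull E (K := K)
  letI : Algebra k M := ((algebraMap E M).comp (algebraMap k E)).toAlgebra
  exact ⟨M, _, _, _, _, inferInstance, .of_algebraMap_eq fun _ => rfl, h1, h2⟩

end aux

section gal
variable {E M : Type*} [Field E] [Field M] [Algebra E M] [FiniteDimensional E M] [IsGalois E M]
  (k : Type*) [Field k] [Algebra k E] [Algebra k M] [IsScalarTower k E M] [IsAlgClosed k]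
include k

/-- A Sylow `ℓ`-subgroup `P` of the stabilizer `Z` of `O` fixes some `τ ∈ 𝒯`
(`IsPGroup.nonempty_fixed_point_of_prime_not_dvd_card`). For `w` fixed by `P`, the product of
`g w` over `Z / P` is fixed by `Z` and has the value of `w ^ [Z : P]`; use `val_of_fixed`. -/
theorem exists_emb_prime_to {K : Type*} [Field K] [Algebra E K] (O : ValuationSubring M)
    (𝒯 : Finset (K →ₐ[E] M))
    (hst : ∀ g : M ≃ₐ[E] M, O.comap (g : M →+* M) = O → ∀ τ ∈ 𝒯, (g : M →ₐ[E] M).comp τ ∈ 𝒯)
    (hc : ¬ ℓ ∣ 𝒯.card) :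
    ∃ τ ∈ 𝒯, ∀ z : K, z ≠ 0 → ∃ (N : ℕ) (e : E), ¬ ℓ ∣ N ∧
      O.valuation (τ z ^ N) = O.valuation (algebraMap E M e) := by
  letI := gal2_act E K M
  obtain ⟨P⟩ : Nonempty (Sylow ℓ (gal2_Z E O)) := inferInstance
  let T : SubMulAction (gal2_Z E O) (K →ₐ[E] M) := ⟨𝒯, fun g τ h => hst g.1 g.2 τ h⟩
  obtain ⟨τ, hτ⟩ := P.isPGroup'.nonempty_fixed_point_of_prime_not_dvd_card T
    (by rwa [show Nat.card T = 𝒯.card from Nat.card_eq_finsetCard 𝒯])
  refine ⟨τ.1, τ.2, fun z hz => ?_⟩
  obtain ⟨u, h1, h2⟩ := gal2_norm (gal2_Z E O).subtype O gal2_val P (w := τ.1 z) fun γ hγ =>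
    DFunLike.congr_fun (congrArg Subtype.val (hτ ⟨γ, hγ⟩)) z
  have hu : u ≠ 0 := (_root_.map_ne_zero O.valuation).1
    (h2 ▸ pow_ne_zero _ ((_root_.map_ne_zero _).2 ((_root_.map_ne_zero _).2 hz)))
  obtain ⟨e, he⟩ := val_of_fixed (E := E) k O hu fun g hg => h1 ⟨g, hg⟩
  exact ⟨_, e, P.not_dvd_index, by rw [map_pow, ← h2, he]⟩

theorem gal2_orbit {K : Type*} [Field K] [Algebra E K] [Algebra K M] [IsScalarTower E K M]
    (O : ValuationSubring M) (τ : K →ₐ[E] M)
    (h : O.comap (τ : K →+* M) = O.comap (algebraMap K M)) :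
    ∃ g : gal2_Z E O, ∀ x, g.1 (algebraMap K M x) = τ x := by
  letI : Algebra k K := ((algebraMap E K).comp (algebraMap k E)).toAlgebra
  have : IsScalarTower k K M := .of_algebraMap_eq fun c => by
    rw [IsScalarTower.algebraMap_apply k E M, IsScalarTower.algebraMap_apply E K M]; rfl
  have := IsGalois.tower_top_of_isGalois E K M
  have := Module.Finite.of_restrictScalars_finite E K M
  let g : M ≃ₐ[E] M := AlgEquiv.ofBijective (τ.liftNormal M) (Algebra.IsAlgebraic.algHom_bijective _)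
  have hg : ∀ x, g (algebraMap K M x) = τ x := fun x => τ.liftNormal_commutes M x
  obtain ⟨h, hh⟩ := exists_conj (E := K) k (O₁ := O.comap (g : M →+* M)) (O₂ := O) (by
    rw [← h, ValuationSubring.comap_comap]
    exact congrArg _ (RingHom.ext hg))
  refine ⟨⟨g * h.restrictScalars E, hh.symm⟩, fun x => ?_⟩
  rw [← hg]
  exact congrArg g (h.commutes x)

/-- The set is the orbit of the inclusion under `Z` (`exists_conj` over `K`), with stabilizer
`Z ⊓ Gal(M/K)`. If `ℓ` divides the index, a Sylow subgroup `Q` of the stabilizer is normal of index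
`ℓ` in an `ℓ`-subgroup `Q'` of `Z`. There are `r ≠ 0` fixed by `Q` and `g ∈ Q'` with `g r = ζ r`
(Lagrange resolvent), `r ^ ℓ` is fixed by `Q'`. The value of `r` has order prime to `ℓ` modulo the
values of `E` (norm down, `val_of_fixed` over `K`, `hval`), so it is the value of an element fixed
by `Q'`; so we may take `r` a unit, `r ≡ c` constant, and `g r ≡ c` gives `ζ ≡ 1`, contradicting
`hl`. -/
theorem not_dvd_card_emb {K : Type*} [Field K] [Algebra E K] [Algebra K M] [IsScalarTower E K M]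
    (O : ValuationSubring M) (hres : kap k O = ⊤) (hl : O.valuation (ℓ : M) = 1)
    (hval : ∀ z : K, z ≠ 0 → ∃ (N : ℕ) (e : E), ¬ ℓ ∣ N ∧
      O.valuation (algebraMap K M z ^ N) = O.valuation (algebraMap E M e)) :
    ¬ ℓ ∣ Nat.card {τ : K →ₐ[E] M // O.comap (τ : K →+* M) = O.comap (algebraMap K M)} := by
  letI := gal2_act E K M
  have hp : ℓ.Prime := Fact.out
  intro hd
  let S := MulAction.stabilizer (gal2_Z E O) (IsScalarTower.toAlgHom E K M)
  have hS : ℓ ∣ S.index := by
    rw [MulAction.index_stabilizer, ← Nat.card_coe_set_eq]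
    refine hd.trans (Nat.card_congr (Equiv.subtypeEquivRight fun τ => ⟨fun h => ?_, ?_⟩)).dvd
    · obtain ⟨g, hg⟩ := gal2_orbit k O τ h
      exact ⟨g, AlgHom.ext hg⟩
    · rintro ⟨g, rfl⟩
      exact ValuationSubring.ext _ _ fun x => SetLike.ext_iff.1 g.2 (algebraMap K M x)
  obtain ⟨Q⟩ : Nonempty (Sylow ℓ S) := inferInstance
  obtain ⟨a, ha⟩ := Q.isPGroup'.exists_card_eq
  obtain ⟨Q', q1, q2⟩ := Sylow.exists_subgroup_card_pow_succ (G := gal2_Z E O) (p := ℓ) (n := a)
    (by
      rw [← S.card_mul_index, pow_succ, ← ha]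
      exact mul_dvd_mul (Subgroup.card_subgroup_dvd_card _) hS)
    (H := (Q : Subgroup S).map S.subtype)
    (by rw [Subgroup.card_map_of_injective S.subtype_injective, ha])
  set R := ((Q : Subgroup S).map S.subtype).subgroupOf Q' with hR
  have hi : R.index = ℓ := by
    have h1 := R.card_mul_index
    rw [q1, Nat.card_congr (Subgroup.subgroupOfEquivOfLe q2).toEquiv,
      Subgroup.card_map_of_injective S.subtype_injective, ha, pow_succ] at h1
    exact mul_left_cancel₀ (pow_ne_zero a hp.ne_zero) h1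
  have hn : R.Normal := Subgroup.normal_of_index_eq_minFac_card
    (by rw [hi, q1, hp.pow_minFac (Nat.succ_ne_zero a)])
  have hlk : (ℓ : k) ≠ 0 := fun e => by
    rw [← map_natCast (algebraMap k M), e, map_zero, map_zero] at hl
    exact zero_ne_one hl
  obtain ⟨ζ, hζ⟩ := exists_primitiveRoot k hlk
  have : NeZero ℓ := ⟨hp.ne_zero⟩
  let e : Q' ⧸ R ≃* rootsOfUnity ℓ k := mulEquivOfPrimeCardEq (p := ℓ) hi hζ.card_rootsOfUnity
  let χ : Q' →* M := (algebraMap k M : k →* M).comp ((Units.coeHom k).comp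
    ((rootsOfUnity ℓ k).subtype.comp (e.toMonoidHom.comp (QuotientGroup.mk' R))))
  have hχ : ∀ γ, χ γ = algebraMap k M (e (γ : Q' ⧸ R)).1 := fun _ => rfl
  have hc : ∀ (g : M ≃ₐ[E] M) (c : k), g (algebraMap k M c) = algebraMap k M c := fun g c => by
    rw [IsScalarTower.algebraMap_apply k E M, g.commutes]
  have hχ1 : ∀ γ, χ γ ^ ℓ = 1 := fun γ => by
    rw [hχ, ← map_pow, ← Units.val_pow_eq_pow_val, (mem_rootsOfUnity _ _).1 (e _).2, Units.val_one,
      map_one]
  have hχ2 : ∀ γ, χ γ = 1 ↔ γ ∈ R := fun γ => by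
    rw [hχ, map_eq_one_iff _ (algebraMap k M).injective, Units.val_eq_one, OneMemClass.coe_eq_one,
      e.map_eq_one_iff, QuotientGroup.eq_one_iff]
  let ρ : Q' →* (M ≃ₐ[E] M) := (gal2_Z E O).subtype.comp Q'.subtype
  obtain ⟨r, r0, hr⟩ := gal2_resolvent ρ
    ((gal2_Z E O).subtype_injective.comp Q'.subtype_injective) χ fun γ δ => hc _ _
  obtain ⟨u, u1, u2⟩ := gal2_norm ((gal2_Z E O).subtype.comp S.subtype) O (fun γ => gal2_val γ.1) Q
    (w := r) fun γ hγ => by
      have := hr ⟨γ.1, q2 ⟨γ, hγ, rfl⟩⟩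
      rwa [(hχ2 _).2 ⟨γ, hγ, rfl⟩, one_mul] at this
  have hv0 : O.valuation r ≠ 0 := (_root_.map_ne_zero _).2 r0
  have hu : u ≠ 0 := (_root_.map_ne_zero O.valuation).1 (u2 ▸ pow_ne_zero _ hv0)
  obtain ⟨z, hz⟩ : ∃ z : K, O.valuation u = O.valuation (algebraMap K M z) := by
    letI : Algebra k K := ((algebraMap E K).comp (algebraMap k E)).toAlgebra
    have : IsScalarTower k K M := .of_algebraMap_eq fun c => by
      rw [IsScalarTower.algebraMap_apply k E M, IsScalarTower.algebraMap_apply E K M]; rfl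
    have := IsGalois.tower_top_of_isGalois E K M
    have := Module.Finite.of_restrictScalars_finite E K M
    exact val_of_fixed k O hu fun g hg =>
      u1 ⟨⟨g.restrictScalars E, hg⟩, AlgHom.ext fun x => g.commutes x⟩
  obtain ⟨N, c, hN, hNc⟩ := hval z (by
    rintro rfl
    rw [map_zero, map_zero, map_eq_zero] at hz
    exact hu hz)
  rw [map_pow, ← hz, u2, ← pow_mul] at hNc
  obtain ⟨i, j, hij⟩ := Nat.isCoprime_iff_coprime.2 ((hp.coprime_iff_not_dvd).2
    (hp.not_dvd_mul Q.not_dvd_index hN))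
  obtain ⟨s, s1, s2⟩ : ∃ s : M, O.valuation s = O.valuation r ∧ ∀ γ, ρ γ s = s := by
    refine ⟨(r ^ ℓ) ^ i * algebraMap E M c ^ j, ?_, fun γ => ?_⟩
    · rw [map_mul, map_zpow₀, map_zpow₀, map_pow, ← hNc, ← zpow_natCast, ← zpow_natCast,
        ← zpow_mul, ← zpow_mul, ← zpow_add₀ hv0, mul_comm _ i, mul_comm _ j, hij, zpow_one]
    · rw [map_mul, map_zpow₀, map_zpow₀, map_pow, hr, mul_pow, hχ1, one_mul, AlgEquiv.commutes]
  have h1 : O.valuation (r / s) = 1 := by rw [map_div₀, s1, div_self hv0]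
  obtain ⟨d, d1, d2⟩ := (mem_kap O k).1 (hres ▸ trivial : res O (r / s) ∈ kap k O)
  have h2 := (res_eq_iff O (valb_mem O h1) d1).1 d2.symm
  obtain ⟨γ, hγ⟩ : ∃ γ, γ ∉ R := by
    by_contra h
    push Not at h
    rw [(Subgroup.eq_top_iff' R).2 h, Subgroup.index_top] at hi
    exact hp.one_lt.ne hi
  refine hγ ((hχ2 γ).1 (gal2_root hl (hχ1 γ) ?_))
  have h3 : O.valuation (ρ γ (r / s - algebraMap k M d)) < 1 := (gal2_val γ.1 _).trans_lt h2
  rw [map_sub, hc, map_div₀, hr, s2] at h3
  have h4 := O.valuation.map_sub_lt h3 h2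
  rwa [sub_sub_sub_cancel_right, mul_div_assoc, ← sub_one_mul, map_mul, h1, mul_one] at h4

end gal

variable {k K : Type*} [Field k] [Field K] [Algebra k K] [IsAlgClosed k]

omit [IsAlgClosed k] in
theorem gal2_den {ι : Type*} (x : ι → K) (T : Finset (IntermediateField.adjoin k (Set.range x))) :
    ∃ Δ : MvPolynomial ι k, Δ ≠ 0 ∧ ∀ ν : ValuationSubring K, (∀ c : k, algebraMap k K c ∈ ν) →
      (∀ i, x i ∈ ν) → ν.valuation (MvPolynomial.aeval x Δ) = 1 → ∀ y ∈ T, (y : K) ∈ ν := by
  classical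
  have h0 : ∀ ν : ValuationSubring K, (∀ c : k, algebraMap k K c ∈ ν) → (∀ i, x i ∈ ν) →
      ∀ p : MvPolynomial ι k, MvPolynomial.aeval x p ∈ ν := fun ν h1 h2 p =>
    MvPolynomial.eval₂_mem (fun _ _ => h1 _) h2
  induction T using Finset.induction_on with
  | empty => exact ⟨1, one_ne_zero, fun _ _ _ _ _ h => absurd h (Finset.notMem_empty _)⟩
  | insert y T _ ih =>
    obtain ⟨Δ, h1, h2⟩ := ih
    obtain ⟨r, s, hs, e⟩ : ∃ r s : MvPolynomial ι k, s ≠ 0 ∧
        (y : K) = MvPolynomial.aeval x r / MvPolynomial.aeval x s := by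
      obtain ⟨r, s, e⟩ := (IntermediateField.mem_adjoin_range_iff k x y).1 y.2
      rcases eq_or_ne s 0 with rfl | hs
      · exact ⟨0, 1, one_ne_zero, by simpa using e⟩
      · exact ⟨r, s, hs, e⟩
    refine ⟨Δ * s, mul_ne_zero h1 hs, fun ν c1 c2 c3 y' hy => ?_⟩
    rw [map_mul, map_mul] at c3
    have a1 := (ν.valuation_le_one_iff _).2 (h0 ν c1 c2 Δ)
    have a2 := (ν.valuation_le_one_iff _).2 (h0 ν c1 c2 s)
    rcases Finset.mem_insert.1 hy with rfl | hy
    · rw [e, div_eq_mul_inv]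
      refine mul_mem (h0 ν c1 c2 r) (val_eq_one_iff.1 (a2.eq_of_not_lt fun h => ?_)).2.2
      exact (mul_lt_one_of_nonneg_of_lt_one_right a1 zero_le h).ne c3
    · exact h2 ν c1 c2 (a1.eq_of_not_lt fun h =>
        (mul_lt_one_of_nonneg_of_lt_one_left zero_le h a2).ne c3) y' hy

/-- Etale locus. `E = pc k x`, `K = E(z)` with `z` integral over `k[x]` and separable over `k(x)`,
minimal polynomial `f`; Bezout `A f + B f' = Δ`. In a Galois hull `M` with `O` over `ν` the roots
of `f` have different residues, all residues are constants, so the stabilizer of `O` fixes `z`;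
apply `val_of_fixed`. -/
theorem exists_etale [PerfectField K] (hK : PF k K) {ι : Type*} {x : ι → K}
    (hx : AlgebraicIndependent k x) (htop : ac k (Set.range x) = ⊤) :
    ∃ Δ : MvPolynomial ι k, Δ ≠ 0 ∧ ∀ ν : ValuationSubring K, (∀ c : k, algebraMap k K c ∈ ν) →
      kap k ν = ⊤ → (∀ i, x i ∈ ν) → ν.valuation (MvPolynomial.aeval x Δ) = 1 →
      ∀ z : K, z ≠ 0 → ∃ e ∈ pc k (Set.range x), ν.valuation z = ν.valuation e := by
  classical
  obtain ⟨z, hz, hzt⟩ := hK.exists_prim htop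
  obtain ⟨a, b, hab⟩ := id hz
  set f := minpoly (IntermediateField.adjoin k (Set.range x)) z with hf
  obtain ⟨Δ, h1, h2⟩ := gal2_den x (insert 0 (f.coeffs ∪ b.coeffs))
  refine ⟨Δ, h1, fun ν c1 c2 c3 c4 y hy => ?_⟩
  have h3 : ∀ p ∈ [f, b], ∀ n, algebraMap _ K (p.coeff n) ∈ ν := fun p hp n => by
    refine h2 ν c1 c3 c4 _ ?_
    rcases eq_or_ne (p.coeff n) 0 with h | h
    · exact h ▸ Finset.mem_insert_self _ _
    · have := coeff_mem_coeffs h
      simp only [List.mem_cons, List.not_mem_nil, or_false] at hp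
      rcases hp with rfl | rfl <;> simp [this]
  have hzν : z ∈ ν := by
    obtain ⟨q, q1, -, q2⟩ := lifts_and_degree_eq_and_monic (f := algebraMap ν K)
      ((lifts_iff_coeff_lifts (f.map (algebraMap _ K))).2 fun n =>
        ⟨⟨_, h3 f (by simp) n⟩, by rw [coeff_map]; rfl⟩) ((minpoly.monic hz.isIntegral).map _)
    obtain ⟨w, rfl⟩ := IsIntegrallyClosed.isIntegral_iff.1 (⟨q, q2, by
      rw [← eval_map, q1, eval_map_algebraMap, minpoly.aeval]⟩ : IsIntegral ν z)
    exact w.2
  obtain ⟨d, d1, d2⟩ := (mem_kap ν k).1 (c2 ▸ trivial : res ν z ∈ kap k ν)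
  have h4 := (res_eq_iff ν hzν d1).1 d2.symm
  have := hK.finite_pc htop
  have := perfect_pc (k := k) (Set.range x)
  obtain ⟨M, _, _, _, _, _, _, _, _⟩ := gal2_hull k (pc k (Set.range x)) K
  obtain ⟨O, rfl⟩ := exists_ext (algebraMap K M) ν
  obtain ⟨e, he⟩ := val_of_fixed (E := pc k (Set.range x)) k O
    ((_root_.map_ne_zero (algebraMap K M)).2 hy) fun g hg => by
      have g1 : ∀ w ∈ pc k (Set.range x), g (algebraMap K M w) = algebraMap K M w :=
        fun w hw => by
          have := g.commutes ⟨w, hw⟩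
          rwa [IsScalarTower.algebraMap_apply _ K M] at this
      let φ := (algebraMap K M).comp (algebraMap (IntermediateField.adjoin k (Set.range x)) K)
      have g2 : ∀ p, (map φ p).eval (algebraMap K M z) = algebraMap K M (aeval z p) := fun p => by
        rw [eval_map, aeval_def, hom_eval₂]
      have g3 : g (algebraMap K M z) = algebraMap K M z := by
        refine gal2_hensel O (f := f.map φ) (b := b.map φ)
          (fun n => by rw [coeff_map]; exact h3 f (by simp) n)
          (fun n => by rw [coeff_map]; exact h3 b (by simp) n) hzν ?_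
          (by rw [g2, minpoly.aeval, map_zero]) ?_ ?_
        · rw [comap_val_lt_one] at h4
          have h5 := (gal2_val ⟨g, hg⟩ _).trans_lt h4
          rw [map_sub, map_sub, g1 _ (algebraMap_mem _ d)] at h5
          have h6 := O.valuation.map_sub_lt h5 (map_sub (algebraMap K M) _ _ ▸ h4)
          rwa [sub_sub_sub_cancel_right] at h6
        · have h5 := hom_eval₂ f φ (g : M →+* M) (algebraMap K M z)
          rw [show (g : M →+* M).comp φ = φ from
            RingHom.ext fun w => g1 _ (adjoin_le_pc _ w.2), ← eval_map, g2, minpoly.aeval, map_zero,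
            map_zero] at h5
          rw [eval_map]
          exact h5.symm
        · have h5 := congrArg (aeval z) hab
          rw [map_add, map_mul, map_mul, minpoly.aeval, mul_zero, zero_add, map_one] at h5
          rw [derivative_map, g2, g2, ← map_mul, h5, map_one]
      obtain ⟨n, hn⟩ := mem_pc.1 (hzt ▸ trivial : y ∈ pc k (insert z (Set.range x)))
      have g4 : ∀ w ∈ IntermediateField.adjoin k (insert z (Set.range x)),
          g (algebraMap K M w) = algebraMap K M w := fun w hw => by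
        induction hw using IntermediateField.adjoin_induction with
        | mem w hw => exact hw.elim (fun e => e ▸ g3) fun h => g1 _ (subset_pc _ h)
        | algebraMap c => exact g1 _ (algebraMap_mem _ c)
        | add _ _ _ _ a1 a2 => rw [map_add, map_add, a1, a2]
        | inv _ _ a1 => rw [map_inv₀, map_inv₀, a1]
        | mul _ _ _ _ a1 a2 => rw [map_mul, map_mul, a1, a2]
      have g5 := g4 _ hn
      rw [map_pow, map_pow, ← fielda_exp (algebraMap K M)] at g5
      exact iterateFrobenius_inj M (ringExpChar M) n g5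
  rw [IsScalarTower.algebraMap_apply _ K M e] at he
  exact ⟨e, e.2, (comap_val_eq _ O _ _).2 he⟩

/-- An extension with ramification prime to `ℓ`. Apply `exists_emb_prime_to` to all embeddings of
the separable closure of `k(t)` in `K` (degree `sdeg k t`), then extend to the purely inseparable
extension `K`. -/
theorem exists_ext_prime_to (hK : PFC k K) (hl : (ℓ : k) ≠ 0) {t : K} (ht : Transcendental k t)
    (hd : ¬ ℓ ∣ sdeg k t) (u : ValuationSubring k⟮t⟯) :
    ∃ O : ValuationSubring K, O.comap (algebraMap k⟮t⟯ K) = u ∧ ∀ z : K, z ≠ 0 →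
      ∃ (N : ℕ) (e : k⟮t⟯), ¬ ℓ ∣ N ∧ O.valuation (z ^ N) = O.valuation (e : K) := by
  classical
  have := isAlgebraic_of_trdeg_one hK.2.le ht
  have := hK.finite_emb ht
  have := fieldb_fd k⟮t⟯ K
  obtain ⟨M, _, _, _, _, _, _, _, _⟩ := gal2_hull k k⟮t⟯ (separableClosure k⟮t⟯ K)
  obtain ⟨OM, rfl⟩ := exists_ext (algebraMap k⟮t⟯ M) u
  obtain ⟨τ, -, hτ⟩ := exists_emb_prime_to (ℓ := ℓ) (E := k⟮t⟯) k OM
    (Finset.univ : Finset (separableClosure k⟮t⟯ K →ₐ[k⟮t⟯] M)) (fun _ _ _ _ => Finset.mem_univ _)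
    (by
      rwa [Finset.card_univ, AlgHom.card_of_splits _ _ M fun x => by
        rw [← minpoly.algebraMap_eq (algebraMap (separableClosure k⟮t⟯ K) M).injective x]
        exact Normal.splits inferInstance _, fieldb_sc])
  obtain ⟨O, hO⟩ := exists_ext (algebraMap (separableClosure k⟮t⟯ K) K) (OM.comap (τ : _ →+* M))
  refine ⟨O, ?_, fun z hz => ?_⟩
  · rw [IsScalarTower.algebraMap_eq k⟮t⟯ (separableClosure k⟮t⟯ K) K,
      ← ValuationSubring.comap_comap, hO, ValuationSubring.comap_comap, τ.comp_algebraMap]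
  · obtain ⟨n, w, hw⟩ := IsPurelyInseparable.pow_mem (separableClosure k⟮t⟯ K)
      (ringExpChar (separableClosure k⟮t⟯ K)) z
    obtain ⟨N, e, h1, h2⟩ := hτ w (by
      rintro rfl
      exact pow_ne_zero _ hz (hw.symm.trans (map_zero _)))
    refine ⟨ringExpChar (separableClosure k⟮t⟯ K) ^ n * N, e, (Fact.out : ℓ.Prime).not_dvd_mul
      (fun h => basic_expChar_pow (algebraMap k (separableClosure k⟮t⟯ K)) hl n
        ((ZMod.natCast_eq_zero_iff _ _).2 h)) h1, ?_⟩
    rw [← map_pow, ← τ.commutes] at h2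
    have h3 := (comap_val_eq (τ : separableClosure k⟮t⟯ K →+* M) OM _ _).2 h2
    rw [← hO, comap_val_eq, map_pow, hw, ← pow_mul] at h3
    exact h3

end Vale.Agent.P019
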