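import Vale.Agent.P019.Near
import Vale.Agent.P019.Gal2
import Vale.Agent.P019.GV

open scoped IntermediateField

namespace Vale.Agent.P019

variable {ℓ : ℕ} [Fact ℓ.Prime] {k K : Type*} [Field k] [Field K] [Algebra k K] [IsAlgClosed k]

theorem ap_cl_mon {x y : K} (hx : x ≠ 0) (hy : y ≠ 0) {c : k} (hc : c ≠ 0) (i j : ℤ)
    (f : DV ℓ K) : f (cl ℓ (algebraMap k K c * x ^ i * y ^ j)) =
      (i : ZMod ℓ) * f (cl ℓ x) + (j : ZMod ℓ) * f (cl ℓ y) := by
  rw [mul_assoc, cl_const_mul hc, cl_mul (zpow_ne_zero _ hx) (zpow_ne_zero _ hy), cl_zpow, cl_zpow,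
    map_add, map_smul, map_smul, smul_eq_mul, smul_eq_mul]

/-- values of `K` have order prime to `ℓ` modulo the monomials -/
theorem ap_prime_to {ν : ValuationSubring K} {x y : K} (hxy : VInd k ν ![x, y])
    (htop : ac k {x, y} = ⊤) {σ μ : DV ℓ K} (hσ : σ ∈ II ℓ ν) (hμ : μ ∈ II ℓ ν)
    (h1 : σ (cl ℓ x) = 1) (h2 : σ (cl ℓ y) = 0) (h3 : μ (cl ℓ x) = 0) (h4 : μ (cl ℓ y) = 1)
    {φ : K} (hφ : φ ≠ 0) : ∃ (N : ℕ) (c : k) (i j : ℤ), ¬ ℓ ∣ N ∧ c ≠ 0 ∧
      ν.valuation (φ ^ N) = ν.valuation (algebraMap k K c * x ^ i * y ^ j) := by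
  have hx : x ≠ 0 := hxy.1 0
  have hy : y ≠ 0 := hxy.1 1
  have hp : ℓ.Prime := Fact.out
  have key : ∀ N : ℕ, 0 < N → ∀ (c : k) (i j : ℤ), c ≠ 0 →
      ν.valuation (φ ^ N) = ν.valuation (algebraMap k K c * x ^ i * y ^ j) →
      ∃ (N : ℕ) (c : k) (i j : ℤ), ¬ ℓ ∣ N ∧ c ≠ 0 ∧
        ν.valuation (φ ^ N) = ν.valuation (algebraMap k K c * x ^ i * y ^ j) := by
    intro N
    induction N using Nat.strong_induction_on with
    | _ N ih =>
      intro hN c i j hc e
      by_cases hl : ℓ ∣ N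
      · obtain ⟨N', rfl⟩ := hl
        have a1 := II_apply_eq hσ e
        have a2 := II_apply_eq hμ e
        rw [ap_cl_mon hx hy hc, cl_pow, Nat.cast_mul, ZMod.natCast_self, zero_mul, zero_smul,
          map_zero] at a1 a2
        rw [h1, h2, mul_one, mul_zero, add_zero, eq_comm, ZMod.intCast_zmod_eq_zero_iff_dvd] at a1
        rw [h3, h4, mul_one, mul_zero, zero_add, eq_comm, ZMod.intCast_zmod_eq_zero_iff_dvd] at a2
        obtain ⟨i', rfl⟩ := a1
        obtain ⟨j', rfl⟩ := a2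
        obtain ⟨c', rfl⟩ := IsAlgClosed.exists_pow_nat_eq c hp.pos
        have hN' : 0 < N' := Nat.pos_of_mul_pos_left hN
        refine ih N' (lt_mul_of_one_lt_left hN' hp.one_lt) hN' c' i' j'
          (fun h0 => hc (by rw [h0, zero_pow hp.ne_zero])) ?_
        rw [← pow_left_inj₀ zero_le zero_le hp.ne_zero, ← map_pow, ← map_pow, ← pow_mul,
          mul_comm N', e, mul_pow, mul_pow, map_pow, mul_comm (ℓ : ℤ), mul_comm (ℓ : ℤ), zpow_mul,
          zpow_mul, zpow_natCast, zpow_natCast]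
      · exact ⟨N, c, i, j, hl, hc, e⟩
  have hR : RInd k ν (Fin.elim0 : Fin 0 → K) := ⟨fun i => i.elim0, algebraicIndependent_empty_type⟩
  obtain ⟨N, c, m, hN, hc, e⟩ := val_ac hR hxy (z := φ) (by
    rw [Set.range_eq_empty, Set.empty_union, Matrix.range_cons, Matrix.range_cons_empty,
      Set.singleton_union, htop]
    trivial) hφ
  rw [Fin.prod_univ_two, ← mul_assoc] at e
  exact key N hN c (m 0) (m 1) hc e

theorem ap_mon {X Y : K} (hX : X ≠ 0) (hY : Y ≠ 0) (a b c d s t : ℤ) :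
    (X ^ a * Y ^ b) ^ s * (X ^ c * Y ^ d) ^ t = X ^ (a * s + c * t) * Y ^ (b * s + d * t) := by
  rw [mul_zpow, mul_zpow, ← zpow_mul, ← zpow_mul, ← zpow_mul, ← zpow_mul, zpow_add₀ hX,
    zpow_add₀ hY]
  ring

/-- unimodular change of value independent monomials -/
theorem ap_vind {O : ValuationSubring K} {x y : K} (hxy : VInd k O ![x, y]) {d₁ d₂ : k}
    (h1 : d₁ ≠ 0) (h2 : d₂ ≠ 0) {m n a b : ℤ} (h : a * m + b * n = 1) :
    VInd k O ![(x / algebraMap k K d₁) ^ a * (y / algebraMap k K d₂) ^ b,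
      (x / algebraMap k K d₁) ^ n * (y / algebraMap k K d₂) ^ (-m)] := by
  have e1 : algebraMap k K d₁ ≠ 0 := (map_ne_zero _).2 h1
  have e2 : algebraMap k K d₂ ≠ 0 := (map_ne_zero _).2 h2
  have hX : x / algebraMap k K d₁ ≠ 0 := div_ne_zero (hxy.1 0) e1
  have hY : y / algebraMap k K d₂ ≠ 0 := div_ne_zero (hxy.1 1) e2
  refine ⟨fun j => ?_, fun s c e => ?_⟩
  · fin_cases j
    · exact mul_ne_zero (zpow_ne_zero _ hX) (zpow_ne_zero _ hY)
    · exact mul_ne_zero (zpow_ne_zero _ hX) (zpow_ne_zero _ hY)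
  · rw [Fin.prod_univ_two] at e
    simp only [Matrix.cons_val_zero, Matrix.cons_val_one] at e
    rw [ap_mon hX hY] at e
    have h3 := hxy.2 ![a * s 0 + n * s 1, b * s 0 + -m * s 1]
      (c * d₁ ^ (a * s 0 + n * s 1) * d₂ ^ (b * s 0 + -m * s 1)) (by
        rw [Fin.prod_univ_two]
        simp only [Matrix.cons_val_zero, Matrix.cons_val_one]
        rw [map_mul (algebraMap k K), map_mul (algebraMap k K), map_zpow₀ (algebraMap k K),
          map_zpow₀ (algebraMap k K), mul_assoc, map_mul O.valuation (algebraMap k K c), ← e,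
          ← map_mul]
        congr 1
        rw [div_zpow, div_zpow]
        have e3 := zpow_ne_zero (a * s 0 + n * s 1) e1
        have e4 := zpow_ne_zero (b * s 0 + -m * s 1) e2
        field_simp)
    have h4 : a * s 0 + n * s 1 = 0 := congrFun h3 0
    have h5 : b * s 0 + -m * s 1 = 0 := congrFun h3 1
    funext j
    fin_cases j
    · show s 0 = 0
      linear_combination m * h4 + n * h5 - s 0 * h
    · show s 1 = 0
      linear_combination b * h4 - a * h5 - s 1 * h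

/-- the functional dual to `y` for the new valuation -/
theorem ap_final (hl : (ℓ : k) ≠ 0) {O : ValuationSubring K} {x y : K} (hx : x ≠ 0) (hy : y ≠ 0)
    {d₁ d₂ : k} (h1 : d₁ ≠ 0) (h2 : d₂ ≠ 0) {m n a b : ℤ} (hm : (ℓ : ℤ) ∣ m) (hn : ¬ (ℓ : ℤ) ∣ n)
    (h : a * m + b * n = 1)
    (hR : RInd k O ![(x / algebraMap k K d₁) ^ n * (y / algebraMap k K d₂) ^ (-m)])
    (hI : Inf k O ((x / algebraMap k K d₁) ^ a * (y / algebraMap k K d₂) ^ b))
    (hval : ∀ w : K, w ≠ 0 → ∃ (N : ℕ) (e : K), ¬ ℓ ∣ N ∧ e ∈ pc k {x, y} ∧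
      O.valuation (w ^ N) = O.valuation e) :
    ∃ μ ∈ II ℓ O, μ (cl ℓ x) = 0 ∧ μ (cl ℓ y) = 1 := by
  have hp : ℓ.Prime := Fact.out
  have e1 : algebraMap k K d₁ ≠ 0 := (map_ne_zero _).2 h1
  have e2 : algebraMap k K d₂ ≠ 0 := (map_ne_zero _).2 h2
  have hX : x / algebraMap k K d₁ ≠ 0 := div_ne_zero hx e1
  have hY : y / algebraMap k K d₂ ≠ 0 := div_ne_zero hy e2
  have ex : x = algebraMap k K d₁ *
      ((x / algebraMap k K d₁) ^ a * (y / algebraMap k K d₂) ^ b) ^ m *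
      ((x / algebraMap k K d₁) ^ n * (y / algebraMap k K d₂) ^ (-m)) ^ b := by
    rw [mul_assoc, ap_mon hX hY, show a * m + n * b = 1 by linear_combination h,
      show b * m + -m * b = 0 by ring, zpow_one, zpow_zero, mul_one, mul_div_cancel₀ _ e1]
  have ey : y = algebraMap k K d₂ *
      ((x / algebraMap k K d₁) ^ a * (y / algebraMap k K d₂) ^ b) ^ n *
      ((x / algebraMap k K d₁) ^ n * (y / algebraMap k K d₂) ^ (-m)) ^ (-a) := by
    rw [mul_assoc, ap_mon hX hY, show b * n + -m * -a = 1 by linear_combination h,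
      show a * n + n * -a = 0 by ring, zpow_one, zpow_zero, one_mul, mul_div_cancel₀ _ e2]
  generalize (x / algebraMap k K d₁) ^ n * (y / algebraMap k K d₂) ^ (-m) = z at hR ex ey
  generalize (x / algebraMap k K d₁) ^ a * (y / algebraMap k K d₂) ^ b = π at hI ex ey
  have hz : O.valuation z = 1 := (res_ne_zero_iff O z).1 (hR.2.ne_zero 0)
  have hz0 := (val_eq_one_iff.1 hz).1
  have hπ0 : O.valuation π ≠ 0 := (map_ne_zero _).2 hI.1
  have hπ : cl ℓ π ∉ U ℓ O := by
    intro hU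
    obtain ⟨w, hw, ew⟩ := (cl_mem_U_iff hI.1).1 hU
    obtain ⟨N, e, hN, he, e3⟩ := hval w hw
    obtain ⟨r, hr⟩ := mem_pc.1 he
    have hle : IntermediateField.adjoin k {x, y} ≤
        IntermediateField.adjoin k (Set.range ![z] ∪ Set.range fun _ : Unit => π) := by
      have a1 : z ∈ IntermediateField.adjoin k (Set.range ![z] ∪ Set.range fun _ : Unit => π) :=
        IntermediateField.subset_adjoin _ _ (Or.inl ⟨0, rfl⟩)
      have a2 : π ∈ IntermediateField.adjoin k (Set.range ![z] ∪ Set.range fun _ : Unit => π) :=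
        IntermediateField.subset_adjoin _ _ (Or.inr ⟨(), rfl⟩)
      refine IntermediateField.adjoin_le_iff.2 ?_
      rintro u (rfl | rfl)
      · rw [ex]
        exact mul_mem (mul_mem (IntermediateField.algebraMap_mem _ _) (zpow_mem a2 _))
          (zpow_mem a1 _)
      · rw [ey]
        exact mul_mem (mul_mem (IntermediateField.algebraMap_mem _ _) (zpow_mem a2 _))
          (zpow_mem a1 _)
    have he0 : e ≠ 0 := by
      rintro rfl
      rw [map_zero, map_eq_zero] at e3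
      exact pow_ne_zero _ hw e3
    obtain ⟨c, s, -, e4⟩ := val_adjoin hR hI.vind (hle hr) (pow_ne_zero _ he0)
    rw [Finset.univ_unique, Finset.prod_singleton, map_mul, map_zpow₀, map_pow, ← e3, map_pow,
      ← pow_mul] at e4
    have h4 := hI.vind.2
      (fun _ => ((N * ringExpChar K ^ r : ℕ) : ℤ) - s default * (ℓ : ℤ)) (c ^ ℓ) (by
        rw [Finset.univ_unique, Finset.prod_singleton, map_zpow₀, zpow_sub₀ hπ0, zpow_natCast,
          zpow_mul, zpow_natCast, map_pow, map_pow,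
          div_eq_iff (pow_ne_zero _ (zpow_ne_zero _ hπ0)), ← mul_pow, ← e4, ← pow_mul,
          mul_comm _ ℓ, pow_mul (O.valuation w), ← ew])
    have h5 : (ℓ : ℤ) ∣ ((N * ringExpChar K ^ r : ℕ) : ℤ) :=
      Dvd.intro_left _ (sub_eq_zero.1 (congrFun h4 ())).symm
    rcases (Nat.Prime.dvd_mul hp).1 (Int.natCast_dvd_natCast.1 h5) with h6 | h6
    · exact hN h6
    · exact basic_expChar_pow (algebraMap k K) hl r ((ZMod.natCast_eq_zero_iff _ _).2 h6)
  rw [mem_U_iff_II] at hπ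
  push Not at hπ
  obtain ⟨f, hf, hf0⟩ := hπ
  have hn0 : (n : ZMod ℓ) ≠ 0 := fun h0 => hn ((ZMod.intCast_zmod_eq_zero_iff_dvd n ℓ).1 h0)
  have hm0 : (m : ZMod ℓ) = 0 := (ZMod.intCast_zmod_eq_zero_iff_dvd m ℓ).2 hm
  have hfz : f (cl ℓ z) = 0 := mem_II.1 hf z hz
  refine ⟨((n : ZMod ℓ) * f (cl ℓ π))⁻¹ • f, Submodule.smul_mem _ _ hf, ?_, ?_⟩
  · rw [LinearMap.smul_apply, ex, ap_cl_mon hI.1 hz0 h1, hm0, hfz, zero_mul, mul_zero, add_zero,
      smul_zero]
  · rw [LinearMap.smul_apply, ey, ap_cl_mon hI.1 hz0 h2, hfz, mul_zero, add_zero, smul_eq_mul,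
      inv_mul_cancel₀ (mul_ne_zero hn0 hf0)]

section eta
variable {M : Type*} [Field M] {O : ValuationSubring M}

theorem ap_unit_left {a b : M} (ha : a ∈ O) (hb : b ∈ O) (h : O.valuation (a * b) = 1) :
    O.valuation a = 1 := by
  refine le_antisymm ((O.valuation_le_one_iff a).2 ha) ?_
  rw [← h, map_mul]
  exact mul_le_of_le_one_right zero_le ((O.valuation_le_one_iff b).2 hb)

theorem ap_eta_big {ψ c : M} (hc : O.valuation c = 1) (h : 1 < O.valuation ψ) :
    O.valuation (ψ / (ψ - c) ^ 2) < 1 := by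
  have h0 : O.valuation ψ ≠ 0 := (zero_lt_one.trans h).ne'
  rw [map_div₀, map_pow, O.valuation.map_sub_eq_of_lt_left (hc ▸ h), pow_two,
    div_mul_cancel_left₀ h0]
  exact inv_lt_one_of_one_lt₀ h

theorem ap_eta_unit {ψ c : M} (hc : O.valuation c = 1)
    (h : O.valuation (ψ / (ψ - c) ^ 2) = 1) : O.valuation ψ = 1 := by
  rcases lt_trichotomy (O.valuation ψ) 1 with h1 | h1 | h1
  · rw [map_div₀, map_pow, O.valuation.map_sub_eq_of_lt_right (hc ▸ h1), hc, one_pow,
      div_one] at h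
    exact h
  · exact h1
  · exact absurd h (ap_eta_big hc h1).ne

theorem ap_eta_ex (k : Type*) [Field k] [Algebra k M] [IsAlgClosed k] (O : ValuationSubring M)
    {S : Type*} [Fintype S] (ψ : S → M) :
    ∃ c : k, O.valuation (algebraMap k M c) = 1 ∧ ∀ s,
      ψ s / (ψ s - algebraMap k M c) ^ 2 ∈ O ∧ (O.valuation (ψ s) = 1 →
        O.valuation (ψ s / (ψ s - algebraMap k M c) ^ 2) = 1) := by
  classical
  obtain ⟨a, ha⟩ := Infinite.exists_notMem_finset
    ((insert 0 (Finset.univ.image fun s => res O (ψ s))).preimage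
      (fun a : kap k O => (a : Res O)) Subtype.val_injective.injOn)
  rw [Finset.mem_preimage, Finset.mem_insert, not_or] at ha
  obtain ⟨c, hc, hca⟩ := (mem_kap O k).1 a.2
  have h1 : O.valuation (algebraMap k M c) = 1 := (res_ne_zero_iff O _).1 (hca ▸ ha.1)
  have h2 : ∀ s, ψ s ∈ O →
      O.valuation (ψ s / (ψ s - algebraMap k M c) ^ 2) = O.valuation (ψ s) := by
    intro s hs
    have h3 : O.valuation (ψ s - algebraMap k M c) = 1 := by
      rw [← res_ne_zero_iff, res_sub O hs hc, hca, sub_ne_zero]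
      exact fun h4 => ha.2 (Finset.mem_image.2 ⟨s, Finset.mem_univ s, h4⟩)
    rw [map_div₀, map_pow, h3, one_pow, div_one]
  refine ⟨c, h1, fun s => ⟨?_, fun h3 => ?_⟩⟩
  · by_cases hs : ψ s ∈ O
    · rw [← O.valuation_le_one_iff, h2 s hs, O.valuation_le_one_iff]
      exact hs
    · rw [← O.valuation_le_one_iff, not_le] at hs
      exact (O.valuation_le_one_iff _).1 (ap_eta_big h1 hs).le
  · rw [h2 s (val_eq_one_iff.1 h3).2.1, h3]

end eta

section core
variable {E M : Type*} [Field E] [Field M] [Algebra k E] [Algebra E K] [Algebra K M] [Algebra k M]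
  [Algebra E M] [IsScalarTower k E K] [IsScalarTower E K M] [IsScalarTower k E M]
  [IsScalarTower k K M] [FiniteDimensional E K] [FiniteDimensional E M] [IsGalois E M]

open Classical in
/-- transfer of the Newton patterns of finitely many integral elements -/
theorem ap_near (O : ValuationSubring M) {x y : E} (hE : pc k {x, y} = ⊤)
    (hxy : VInd k O ![algebraMap E M x, algebraMap E M y]) (W : Finset K)
    (hW : ∀ w ∈ W, ∀ τ : K →ₐ[E] M, τ w ∈ O) :
    ∃ (d₁ d₂ : k) (m n a b : ℤ), d₁ ≠ 0 ∧ d₂ ≠ 0 ∧ (ℓ : ℤ) ∣ m ∧ ¬ (ℓ : ℤ) ∣ n ∧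
      a * m + b * n = 1 ∧ ∀ O' : ValuationSubring M,
        O'.comap (algebraMap k M) = O.comap (algebraMap k M) →
        RInd k O' ![(algebraMap E M x / algebraMap k M d₁) ^ n *
          (algebraMap E M y / algebraMap k M d₂) ^ (-m)] →
        Inf k O' ((algebraMap E M x / algebraMap k M d₁) ^ a *
          (algebraMap E M y / algebraMap k M d₂) ^ b) →
        ∀ w ∈ W, (∀ τ : K →ₐ[E] M, τ w ∈ O') ∧
          (Finset.univ.filter fun τ : K →ₐ[E] M => O'.valuation (τ w) < 1).card =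
          (Finset.univ.filter fun τ : K →ₐ[E] M => O.valuation (τ w) < 1).card := by
  choose p hp using fun w : K => exists_poly_emb (E := E) (M := M) w
  obtain ⟨d₁, d₂, m, n, a, b, h1, h2, h3, h4, h5, h6⟩ := near_transfer (ℓ := ℓ) O hxy
    ((insert 0 (W.biUnion fun w => (p w).coeffs)).image (algebraMap E M)) fun φ hφ => by
      obtain ⟨e, -, rfl⟩ := Finset.mem_image.1 hφ
      have h0 := (algHom_mem_pc_iff (IsScalarTower.toAlgHom k E M) (S := {x, y}) (x := e)).2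
        (by rw [hE]; trivial)
      rwa [Set.image_pair] at h0
  refine ⟨d₁, d₂, m, n, a, b, h1, h2, h3, h4, h5, fun O' a1 a2 a3 w hw => ?_⟩
  have hT := fun j : ℕ => h6 O' a1 a2 a3
    ((∏ τ : K →ₐ[E] M, (Polynomial.X - Polynomial.C (τ w))).coeff j) (by
      rw [← hp, Polynomial.coeff_map]
      refine Finset.mem_image_of_mem _ (Finset.mem_insert.2 ?_)
      rcases eq_or_ne ((p w).coeff j) 0 with h0 | h0
      · exact Or.inl h0
      · exact Or.inr (Finset.mem_biUnion.2 ⟨w, hw, Polynomial.coeff_mem_coeffs h0⟩))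
  have hint : ∀ τ : K →ₐ[E] M, τ w ∈ O' := (pattern_int O' fun τ : K →ₐ[E] M => τ w).2 fun j =>
    (O'.valuation_le_one_iff _).1 ((hT j).1 ((O.valuation_le_one_iff _).2
      ((pattern_int O fun τ : K →ₐ[E] M => τ w).1 (hW w hw) j)))
  obtain ⟨b1, b2⟩ := (pattern_card O (fun τ : K →ₐ[E] M => τ w) (hW w hw) _).1 rfl
  exact ⟨hint, (pattern_card O' (fun τ : K →ₐ[E] M => τ w) hint _).2
    ⟨(hT _).2.2 b1, fun j hj => (hT j).2.1 (b2 j hj)⟩⟩

/-- a good valuation for which finitely many given units stay units -/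
theorem ap_core (hd : Algebra.trdeg k K = ((1 + 1 : ℕ) : Cardinal)) {ν : ValuationSubring K}
    (hl : ν.valuation (ℓ : K) = 1) {x y : E} (hE : pc k {x, y} = ⊤)
    (hxy : VInd k ν ![algebraMap E K x, algebraMap E K y])
    (hval : ∀ z : K, z ≠ 0 → ∃ (N : ℕ) (e : E), ¬ ℓ ∣ N ∧
      ν.valuation (z ^ N) = ν.valuation (algebraMap E K e))
    (Ψ : Finset K) (hΨ : ∀ ψ ∈ Ψ, ν.valuation ψ = 1) (M : Type*) [Field M] [Algebra K M]
    [Algebra k M] [Algebra E M] [IsScalarTower E K M] [IsScalarTower k E M]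
    [IsScalarTower k K M] [FiniteDimensional E M] [IsGalois E M] :
    ∃ O' : ValuationSubring K, IsGV k O' ∧ O'.valuation (ℓ : K) = 1 ∧
      (∀ ψ ∈ Ψ, O'.valuation ψ = 1) ∧ ∃ μ ∈ II ℓ O',
        μ (cl ℓ (algebraMap E K x)) = 0 ∧ μ (cl ℓ (algebraMap E K y)) = 1 := by
  classical
  have hlk : (ℓ : k) ≠ 0 := fun h0 => (val_eq_one_iff.1 hl).1 (by
    rw [← map_natCast (algebraMap k K), h0, map_zero])
  obtain ⟨O, rfl⟩ := exists_ext (algebraMap K M) ν
  have hEM : ∀ e : E, algebraMap K M (algebraMap E K e) = algebraMap E M e := fun e =>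
    (IsScalarTower.algebraMap_apply E K M e).symm
  have hxy' : VInd k O ![algebraMap E M x, algebraMap E M y] := by
    have h1 := (VInd.map (IsScalarTower.toAlgHom k K M) (O := O)).1 hxy
    have e1 : IsScalarTower.toAlgHom k K M ∘ ![algebraMap E K x, algebraMap E K y] =
        ![algebraMap E M x, algebraMap E M y] := by
      funext j
      fin_cases j
      · exact hEM x
      · exact hEM y
    rwa [e1] at h1
  have : FiniteDimensional K M := Module.Finite.right E K M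
  have hres : kap k O = ⊤ := kap_eq_top hxy' (by
    rw [(trdeg_eq_of_isAlgebraic (K := K) (K' := M)).2 hd]
    simp)
  have hlM : O.valuation (ℓ : M) = 1 := by
    rwa [comap_val_eq_one, map_natCast] at hl
  have hcard := not_dvd_card_emb (ℓ := ℓ) (E := E) k (K := K) O hres hlM fun z hz => by
    obtain ⟨N, e, h1, h2⟩ := hval z hz
    rw [comap_val_eq, map_pow, hEM] at h2
    exact ⟨N, e, h1, h2⟩
  have hcomp : ∀ (τ : K →ₐ[E] M) (O₁ : ValuationSubring M),
      (O₁.comap (τ : K →+* M)).comap (algebraMap E K) = O₁.comap (algebraMap E M) := by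
    intro τ O₁
    rw [ValuationSubring.comap_comap, τ.comp_algebraMap]
  obtain ⟨b, hb1, hb2⟩ := exists_approx k
    (Finset.univ.image fun τ : K →ₐ[E] M => O.comap (τ : K →+* M))
    (fun O₁ h1 O₂ h2 h3 => by
      obtain ⟨τ₁, -, rfl⟩ := Finset.mem_image.1 h1
      obtain ⟨τ₂, -, rfl⟩ := Finset.mem_image.1 h2
      exact eq_of_le_of_comap_eq (F := E) h3 (by rw [hcomp, hcomp]))
    (O := O.comap (algebraMap K M))
    (Finset.mem_image.2 ⟨IsScalarTower.toAlgHom E K M, Finset.mem_univ _, rfl⟩)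
  have hb3 : ∀ τ : K →ₐ[E] M, O.comap (τ : K →+* M) ≠ O.comap (algebraMap K M) →
      O.valuation (τ b) < 1 := fun τ h =>
    (comap_val_lt_one (τ : K →+* M) O b).1
      (hb2 _ (Finset.mem_image_of_mem _ (Finset.mem_univ τ)) h)
  have hu : ∀ τ : K →ₐ[E] M, O.comap (τ : K →+* M) = O.comap (algebraMap K M) → ∀ w : K,
      (O.comap (algebraMap K M)).valuation w = 1 → O.valuation (τ w) = 1 := fun τ h w hw =>
    (comap_val_eq_one (τ : K →+* M) O w).1 (by rw [h]; exact hw)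
  have hb4 : ∀ τ : K →ₐ[E] M, τ b ∈ O := fun τ => by
    by_cases h : O.comap (τ : K →+* M) = O.comap (algebraMap K M)
    · exact (O.valuation_le_one_iff _).1 (hu τ h b hb1).le
    · exact (O.valuation_le_one_iff _).1 (hb3 τ h).le
  choose c hc1 hc2 using fun ψ : K => ap_eta_ex k O fun τ : K →ₐ[E] M => τ ψ
  obtain ⟨η, hη⟩ : ∃ η : K → K, ∀ (τ : K →ₐ[E] M) (ψ : K),
      τ (η ψ) = τ ψ / (τ ψ - algebraMap k M (c ψ)) ^ 2 :=
    ⟨fun ψ => ψ / (ψ - algebraMap k K (c ψ)) ^ 2, fun τ ψ => by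
      rw [map_div₀, map_pow, map_sub, IsScalarTower.algebraMap_apply k E K, τ.commutes,
        ← IsScalarTower.algebraMap_apply]⟩
  have hη1 : ∀ (τ : K →ₐ[E] M) (ψ : K), τ (η ψ) ∈ O := fun τ ψ => hη τ ψ ▸ (hc2 ψ τ).1
  have hθ : ∀ τ : K →ₐ[E] M, τ (b * ∏ ψ ∈ Ψ, η ψ) = τ b * ∏ ψ ∈ Ψ, τ (η ψ) := fun τ => by
    rw [map_mul, map_prod]
  obtain ⟨d₁, d₂, m, n, a, a', h1, h2, h3, h4, h5, h6⟩ := ap_near (ℓ := ℓ) O hE hxy'
    (insert (b * ∏ ψ ∈ Ψ, η ψ) (insert b (Ψ.image η))) fun w hw τ => by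
      rcases Finset.mem_insert.1 hw with rfl | hw
      · rw [hθ]
        exact mul_mem (hb4 τ) (prod_mem fun ψ _ => hη1 τ ψ)
      rcases Finset.mem_insert.1 hw with rfl | hw
      · exact hb4 τ
      · obtain ⟨ψ, -, rfl⟩ := Finset.mem_image.1 hw
        exact hη1 τ ψ
  obtain ⟨O', a1, a2, a3⟩ := exists_GV (O.comap (algebraMap k M)) (ap_vind hxy' h1 h2 h5).indep
  have h7 := h6 O' a1 a2 a3
  obtain ⟨h8, h9⟩ := h7 _ (Finset.mem_insert_self _ _)
  have hb5 := (h7 b (Finset.mem_insert_of_mem (Finset.mem_insert_self _ _))).1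
  have hη2 := fun ψ (hψ : ψ ∈ Ψ) => (h7 (η ψ)
    (Finset.mem_insert_of_mem (Finset.mem_insert_of_mem (Finset.mem_image_of_mem η hψ)))).1
  obtain ⟨τ, hτ, hτv⟩ := exists_emb_prime_to (ℓ := ℓ) (E := E) k O'
    (Finset.univ.filter fun τ : K →ₐ[E] M => ¬ O'.valuation (τ (b * ∏ ψ ∈ Ψ, η ψ)) < 1)
    (fun g hg τ hτ => by
      rw [Finset.mem_filter] at hτ ⊢
      refine ⟨Finset.mem_univ _, fun h0 => hτ.2 ?_⟩
      rw [← hg]
      exact (comap_val_lt_one (g : M →+* M) O' _).2 h0)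
    (by
      have e1 := Finset.card_filter_add_card_filter_not (s := Finset.univ)
        fun τ : K →ₐ[E] M => O'.valuation (τ (b * ∏ ψ ∈ Ψ, η ψ)) < 1
      have e2 := Finset.card_filter_add_card_filter_not (s := Finset.univ)
        fun τ : K →ₐ[E] M => O.valuation (τ (b * ∏ ψ ∈ Ψ, η ψ)) < 1
      have e3 : (Finset.univ.filter fun τ : K →ₐ[E] M =>
          ¬ O.valuation (τ (b * ∏ ψ ∈ Ψ, η ψ)) < 1) = Finset.univ.filter fun τ : K →ₐ[E] M =>
          O.comap (τ : K →+* M) = O.comap (algebraMap K M) := by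
        refine Finset.filter_congr fun τ _ => ⟨fun h0 => ?_, fun h0 => ?_⟩
        · by_contra h10
          apply h0
          rw [hθ, map_mul]
          exact mul_lt_one_of_nonneg_of_lt_one_left zero_le (hb3 τ h10)
            ((O.valuation_le_one_iff _).2 (prod_mem fun ψ _ => hη1 τ ψ))
        · rw [hθ, map_mul, map_prod, hu τ h0 b hb1, one_mul, Finset.prod_eq_one fun ψ hψ => by
            rw [hη]
            exact (hc2 ψ τ).2 (hu τ h0 ψ (hΨ ψ hψ))]
          exact lt_irrefl _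
      rw [Nat.card_eq_fintype_card, Fintype.card_subtype, ← e3] at hcard
      rw [h9, ← e2, add_right_inj] at e1
      rwa [e1])
  have hτ1 : O'.valuation (τ b * ∏ ψ ∈ Ψ, τ (η ψ)) = 1 := by
    rw [← hθ]
    exact le_antisymm ((O'.valuation_le_one_iff _).2 (h8 τ))
      (not_lt.1 (Finset.mem_filter.1 hτ).2)
  have hconst : ∀ c : k, O.valuation (algebraMap k M c) = 1 →
      O'.valuation (algebraMap k M c) = 1 := fun c hc => by
    rw [← comap_val_eq_one] at hc ⊢
    rwa [a1]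
  have hmon : ∀ i j : ℤ, τ.restrictScalars k ((algebraMap E K x / algebraMap k K d₁) ^ i *
      (algebraMap E K y / algebraMap k K d₂) ^ j) = (algebraMap E M x / algebraMap k M d₁) ^ i *
      (algebraMap E M y / algebraMap k M d₂) ^ j := fun i j => by
    rw [map_mul, map_zpow₀, map_zpow₀, map_div₀, map_div₀, AlgHom.commutes, AlgHom.commutes,
      AlgHom.restrictScalars_apply, AlgHom.restrictScalars_apply, τ.commutes, τ.commutes]
  have b2 : RInd k (O'.comap (τ.restrictScalars k).toRingHom)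
      ![(algebraMap E K x / algebraMap k K d₁) ^ n * (algebraMap E K y / algebraMap k K d₂) ^ (-m)] := by
    refine RInd.comap (τ.restrictScalars k) ?_
    rw [← hmon] at a2
    have e1 : ∀ w : K, τ.restrictScalars k ∘ ![w] = ![τ.restrictScalars k w] := fun w => by
      funext j
      fin_cases j
      rfl
    rwa [e1]
  have b3 : Inf k (O'.comap (τ.restrictScalars k).toRingHom)
      ((algebraMap E K x / algebraMap k K d₁) ^ a * (algebraMap E K y / algebraMap k K d₂) ^ a') := by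
    refine Inf.comap (τ.restrictScalars k) ?_
    rwa [hmon]
  refine ⟨O'.comap (τ.restrictScalars k).toRingHom, ⟨1, _, _, hd, b2, b3⟩, ?_, fun ψ hψ => ?_,
    ap_final hlk (hxy.1 0) (hxy.1 1) h1 h2 h3 h4 h5 b2 b3 fun w hw => ?_⟩
  · rw [comap_val_eq_one, map_natCast, ← map_natCast (algebraMap k M)]
    exact hconst _ (by rwa [map_natCast])
  · rw [comap_val_eq_one]
    refine ap_eta_unit (hconst _ (hc1 ψ)) ?_
    rw [← Finset.mul_prod_erase Ψ _ hψ, mul_left_comm] at hτ1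
    have h10 := ap_unit_left (hη2 ψ hψ τ) (mul_mem (hb5 τ)
      (prod_mem fun ψ' hψ' => hη2 ψ' (Finset.mem_of_mem_erase hψ') τ)) hτ1
    rwa [hη] at h10
  · obtain ⟨N, e, c1, c2⟩ := hτv w hw
    refine ⟨N, algebraMap E K e, c1, ?_, ?_⟩
    · have h0 := (algHom_mem_pc_iff (IsScalarTower.toAlgHom k E K) (S := {x, y}) (x := e)).2
        (by rw [hE]; trivial)
      rwa [Set.image_pair] at h0
    · rw [comap_val_eq, map_pow]
      exact c2.trans (congrArg _ (τ.commutes e).symm)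

end core

/-- Approximation of inertia by good valuations.
Take `x, y` dual to `σ, μ` (`exists_dual`, `VInd_of_dual`), `E = pc k {x, y}`, `M` a Galois hull of
`K / E`, `O` on `M` over `ν`; `kap k O = ⊤` (`kap_eq_top`). Every `φ ≠ 0` in `K` has
`v (φ ^ N) = v (c x ^ i y ^ j)` with `ℓ ∤ N` (take `N` minimal in `val_ac`; if `ℓ ∣ N`, applying
`σ, μ` shows `ℓ ∣ i, j`); put `ψ = φ ^ N / (c x ^ i y ^ j)`, so `N μ [φ] = j`. `S` = embeddings
`K → M` over `E`, `S₁` = those inducing `ν`, of cardinality prime to `ℓ` (`not_dvd_card_emb`).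
Take `b ∈ K` from `exists_approx` for the rings `O.comap τ` (unit at `ν` only), for each `ψ` a
constant unit `c'` with residue different from the residues of all integral `τ ψ`,
`η = ψ / (ψ - c') ^ 2` (integral at every `τ`; if `η` is a unit for any valuation for which `c'` is
a unit, so is `ψ`), `θ = b ∏ η`. Apply `near_transfer` (in `M`) to the coefficients of the
polynomials `exists_poly_emb` of `b`, the `η`, and `θ`; take `O'` on `M` from `exists_GV`. By
`pattern_int`, `pattern_card` exactly `|S₁|` embeddings make `θ` a unit for `O'`;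
`exists_emb_prime_to` gives `τ`. For `O'.comap τ`: all `ψ` are units and `[π] ∉ U` (values of `E`
are described by `val_adjoin` for `z, π`), so there is `μ' ∈ II` with `μ' [π] = n⁻¹`; then
`μ' [x] = 0`, `μ' [y] = 1`. -/
theorem exists_GV_approx (hK : Std ℓ k K 2) {ν : ValuationSubring K}
    (hl : ν.valuation (ℓ : K) = 1) {σ μ : DV ℓ K} (hσ : σ ∈ II ℓ ν) (hμ : μ ∈ II ℓ ν)
    (hi : LinearIndependent (ZMod ℓ) ![σ, μ]) (Φ : Finset K) :
    ∃ O' : ValuationSubring K, IsGV k O' ∧ O'.valuation (ℓ : K) = 1 ∧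
      ∃ μ' ∈ II ℓ O', ∀ φ ∈ Φ, μ' (cl ℓ φ) = μ (cl ℓ φ) := by
  classical
  obtain ⟨X, hX0, hX⟩ := exists_dual _ hi
  have hV : VInd k ν X := VInd_of_dual (σ := ![σ, μ]) (fun j => by
    fin_cases j
    · exact hσ
    · exact hμ) hX0 hX
  obtain ⟨x, y, rfl⟩ : ∃ x y, X = ![x, y] := ⟨X 0, X 1, by
    funext j
    fin_cases j <;> rfl⟩
  have hx : x ≠ 0 := hX0 0
  have hy : y ≠ 0 := hX0 1
  have h1 : σ (cl ℓ x) = 1 := hX 0 0
  have h2 : σ (cl ℓ y) = 0 := hX 0 1
  have h3 : μ (cl ℓ x) = 0 := hX 1 0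
  have h4 : μ (cl ℓ y) = 1 := hX 1 1
  have htop : ac k {x, y} = ⊤ := by
    have h5 := ac_eq_top_of_indep hV.indep (by rw [hK.dim]; simp)
    rwa [Matrix.range_cons, Matrix.range_cons_empty, Set.singleton_union] at h5
  choose! N c i j hN hc hv using fun (φ : K) (hφ : φ ≠ 0) =>
    ap_prime_to hV htop hσ hμ h1 h2 h3 h4 hφ
  have hm0 : ∀ φ : K, φ ≠ 0 → algebraMap k K (c φ) * x ^ i φ * y ^ j φ ≠ 0 := fun φ hφ =>
    mul_ne_zero (mul_ne_zero ((map_ne_zero _).2 (hc φ hφ)) (zpow_ne_zero _ hx)) (zpow_ne_zero _ hy)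
  have := hK.perf
  have := hK.pf.finite_pc htop
  have := perfect_pc (k := k) ({x, y} : Set K)
  obtain ⟨M, hM1, hM2⟩ := exists_galois_hull (pc k {x, y}) (K := K)
  have hxE : x ∈ pc k {x, y} := subset_pc _ (Or.inl rfl)
  have hyE : y ∈ pc k {x, y} := subset_pc _ (Or.inr rfl)
  have : IsScalarTower k (pc k ({x, y} : Set K)) M := IsScalarTower.of_algebraMap_eq fun _ => rfl
  have : @FiniteDimensional (pc k ({x, y} : Set K)) M _ _ Algebra.toModule := hM1
  have : IsGalois (pc k ({x, y} : Set K)) M := hM2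
  obtain ⟨O', a1, a2, a3, μ', a4, a5, a6⟩ := ap_core (ℓ := ℓ) (E := pc k {x, y}) hK.dim hl
    (x := ⟨x, hxE⟩) (y := ⟨y, hyE⟩)
    (eq_top_iff.2 fun e _ => (algHom_mem_pc_iff (pc k {x, y}).val).1 (by
      rw [Set.image_pair]
      exact e.2)) hV
    (fun z hz => ⟨N z, ⟨_, mul_mem (mul_mem (IntermediateField.algebraMap_mem _ (c z))
      (zpow_mem hxE (i z))) (zpow_mem hyE (j z))⟩, hN z hz, hv z hz⟩)
    ((Φ.erase 0).image fun φ => φ ^ N φ / (algebraMap k K (c φ) * x ^ i φ * y ^ j φ))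
    (fun ψ hψ => by
      obtain ⟨φ, hφ, rfl⟩ := Finset.mem_image.1 hψ
      have h0 := Finset.ne_of_mem_erase hφ
      rw [map_div₀, hv φ h0, div_self ((map_ne_zero _).2 (hm0 φ h0))]) M
  refine ⟨O', a1, a2, μ', a4, fun φ hφ => ?_⟩
  rcases eq_or_ne φ 0 with rfl | h0
  · rw [cl_zero, map_zero, map_zero]
  have a5' : μ' (cl ℓ x) = 0 := a5
  have a6' : μ' (cl ℓ y) = 1 := a6
  have b1 := mem_II.1 a4 _ (a3 _ (Finset.mem_image_of_mem _ (Finset.mem_erase.2 ⟨h0, hφ⟩)))
  rw [cl_div (pow_ne_zero _ h0) (hm0 φ h0), map_sub, sub_eq_zero, ap_cl_mon hx hy (hc φ h0), a5',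
    a6', cl_pow, map_smul] at b1
  have b2 := II_apply_eq hμ (hv φ h0)
  rw [ap_cl_mon hx hy (hc φ h0), h3, h4, cl_pow, map_smul, ← b1] at b2
  have hN0 : ((N φ : ℕ) : ZMod ℓ) ≠ 0 := fun h5 => hN φ h0 ((ZMod.natCast_eq_zero_iff _ _).1 h5)
  exact (mul_left_cancel₀ hN0 b2).symm

end Vale.Agent.P019
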