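import Vale.Agent.P019.CurveF

open scoped IntermediateField

namespace Vale.Agent.P019

variable {k l F : Type*} [Field k] [IsAlgClosed k] [Field l] [IsAlgClosed l] [Field F] [Algebra l F]

theorem affa_curve {κ G G' : Type*} [Field κ] [Field G] [Field G'] [Algebra κ G] [Algebra κ G']
    (e : G ≃ₐ[κ] G') [IsCurve κ G] : IsCurve κ G' := by
  obtain ⟨t, ht, hfin⟩ := IsCurve.ex (κ := κ) (G := G)
  refine ⟨e t, fun h => ht ((isAlgebraic_algHom_iff (e : G →ₐ[κ] G') e.injective).1 h), ?_⟩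
  have : FiniteDimensional (κ⟮t⟯.map (e : G →ₐ[κ] G')) G' :=
    Module.Finite.of_equiv_equiv (κ⟮t⟯.equivMap (e : G →ₐ[κ] G')).toRingEquiv e.toRingEquiv rfl
  rwa [IntermediateField.adjoin_map, Set.image_singleton] at this

/-- `g` moves the model `A` by `n` steps -/
def affaR (A : IntermediateField l F) (g : F ≃ₐ[l] F) (n : ℤ) : Prop :=
  ∃ i j : ℕ, n = i - j ∧ ∀ x : F, x ^ ringExpChar F ^ i ∈ A ↔ g x ^ ringExpChar F ^ j ∈ A

theorem affa_ex [PerfectField F] {A : IntermediateField l F} [IsCurve l A]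
    (hA : pc l (A : Set F) = ⊤) (g : F ≃ₐ[l] F) : ∃ n, affaR A g n := by
  have := affa_curve (A.equivMap (g.symm : F →ₐ[l] F))
  have h1 : ∀ x, x ∈ A.map (g.symm : F →ₐ[l] F) ↔ g x ∈ A := fun x =>
    ⟨fun ⟨y, hy, e⟩ => by rw [← e]; simpa using hy, fun h => ⟨_, h, g.symm_apply_apply x⟩⟩
  obtain ⟨i, j, h⟩ := models_eq hA (B := A.map (g.symm : F →ₐ[l] F)) (eq_top_iff.2 fun x _ => by
    simpa only [mem_pc, IntermediateField.adjoin_self, h1, map_pow] using
      (hA.ge trivial : g x ∈ _))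
  exact ⟨_, i, j, rfl, fun x => by rw [h, h1, map_pow]⟩

omit [IsAlgClosed l] in
theorem affa_mul {A : IntermediateField l F} {g h : F ≃ₐ[l] F} {n m : ℤ} (hg : affaR A g n)
    (hh : affaR A h m) : affaR A (g * h) (n + m) := by
  obtain ⟨i, j, rfl, h1⟩ := hg
  obtain ⟨i', j', rfl, h2⟩ := hh
  refine ⟨i + i', j' + j, by push_cast; ring, fun x => ?_⟩
  rw [pow_add, pow_mul, h2, map_pow, pow_right_comm, h1, map_pow, pow_add, pow_mul]
  rfl

theorem affa_uniq [PerfectField F] {A : IntermediateField l F} [IsCurve l A]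
    (hq : ringExpChar F ≠ 1) {g : F ≃ₐ[l] F} {n m : ℤ} (hn : affaR A g n) (hm : affaR A g m) :
    n = m := by
  obtain ⟨i, j, rfl, h1⟩ := hn
  obtain ⟨i', j', rfl, h2⟩ := hm
  have := (model_exp_unique (A := A) (i := j' + i) (j := j + i') fun x => by
    rw [pow_add, pow_mul, h1, map_pow, pow_right_comm, ← map_pow, ← h2, pow_add,
      pow_mul]).resolve_left hq
  omega

omit [IsAlgClosed k] [IsAlgClosed l] in
theorem affa_rules {Γ : Type*} [Group Γ] {γ : kˣ → k → Γ}
    (hmul : ∀ c m c' m', γ c m * γ c' m' = γ (c * c') (c' * m + m')) :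
    γ 1 0 = 1 ∧ (∀ m m', γ 1 m * γ 1 m' = γ 1 (m + m')) ∧ (∀ c m, γ c 0 * γ 1 m = γ c m) ∧
      (∀ c c', γ c 0 * γ c' 0 = γ (c * c') 0) ∧
      ∀ (c : kˣ) m, γ 1 m * γ c 0 = γ c 0 * γ 1 (c * m) :=
  ⟨by simpa using hmul 1 0 1 0, fun _ _ => by simp [hmul], fun _ _ => by simp [hmul],
    fun _ _ => by simp [hmul], fun _ _ => by simp [hmul]⟩

theorem affa_two : ∃ m : k, m ≠ 0 ∧ 1 + m ≠ 0 := by
  obtain ⟨m, hm⟩ := (Set.toFinite ({0, -1} : Set k)).exists_notMem
  exact ⟨m, fun h => hm (Or.inl h), fun h => hm (Or.inr (eq_neg_of_add_eq_zero_right h))⟩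

theorem affa_pres [PerfectField F] {A : IntermediateField l F} [IsCurve l A]
    (hA : pc l (A : Set F) = ⊤) (γ : kˣ → k → F ≃ₐ[l] F)
    (hmul : ∀ c m c' m', γ c m * γ c' m' = γ (c * c') (c' * m + m')) (c : kˣ) (m : k) (x : F) :
    x ∈ A ↔ γ c m x ∈ A := by
  by_cases hq : ringExpChar F = 1
  · have : ∀ y, y ∈ A := fun y => by simpa [mem_pc, hq] using (hA.ge trivial : y ∈ _)
    exact iff_of_true (this _) (this _)
  choose n hn using affa_ex hA
  have h1 : ∀ g h, n (g * h) = n g + n h := fun g h => affa_uniq hq (hn _) (affa_mul (hn g) (hn h))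
  obtain ⟨r0, r1, r2, r3, r4⟩ := affa_rules hmul
  have h2 : ∀ m, m ≠ 0 → n (γ 1 m) = n (γ 1 1) := fun m hm => by
    have := congrArg n (r4 (Units.mk0 m hm) 1)
    rw [h1, h1, Units.val_mk0, mul_one] at this
    omega
  have h3 : n (γ 1 m) = 0 := by
    obtain ⟨a, a0, a1⟩ := affa_two (k := k)
    have b1 := congrArg n (r1 1 a)
    have b2 := congrArg n (r1 0 0)
    rw [h1, h2 _ a0, h2 _ a1] at b1
    rw [h1, add_zero] at b2
    rcases eq_or_ne m 0 with rfl | hm
    · omega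
    · rw [h2 m hm]; omega
  have h4 : n (γ c 0) = 0 := by
    let ψ : kˣ →* Multiplicative ℤ := MonoidHom.mk' (fun c => Multiplicative.ofAdd (n (γ c 0)))
      fun a b => by rw [← r3, h1, ofAdd_add]
    obtain ⟨d, hd⟩ := IsAlgClosed.exists_pow_nat_eq (c : k) (Nat.succ_pos (n (γ c 0)).natAbs)
    have d0 : d ≠ 0 := fun h => c.ne_zero (by rw [← hd, h, zero_pow (Nat.succ_ne_zero _)])
    have := congrArg Multiplicative.toAdd (map_pow ψ (Units.mk0 d d0) (n (γ c 0)).natAbs.succ)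
    rw [show Units.mk0 d d0 ^ _ = c from Units.ext hd, toAdd_pow, nsmul_eq_mul] at this
    exact Int.eq_zero_of_dvd_of_natAbs_lt_natAbs ⟨_, this⟩ (by omega)
  obtain ⟨i, j, e, h5⟩ := hn (γ c m)
  rw [← r2, h1, h3, h4] at e
  obtain rfl : i = j := by omega
  obtain ⟨y, rfl⟩ := (iterateFrobeniusEquiv F (ringExpChar F) i).surjective x
  rw [iterateFrobeniusEquiv_def, map_pow, h5]

/-- For a model `A` and an automorphism `γ`, `A.map γ` is a model; `models_eq` and
`model_exp_unique` define a homomorphism `n` from the automorphism group to `ℤ` whose kernel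
preserves `A`. `n (γ 1 m)` is the same for all `m ≠ 0` (conjugate by `γ c 0`), so it is `0`;
`c ↦ n (γ c 0)` vanishes since `kˣ` is divisible. Then take `exists_single_pole` at the restriction
of `Q₀`; `γ` preserves that `LL` (`ord_comap`). -/
theorem exists_affine_fun [PerfectField F] (hF : PFC l F) (Q₀ : Pt l F) (γ : kˣ → k → F ≃ₐ[l] F)
    (hmul : ∀ c m c' m', γ c m * γ c' m' = γ (c * c') (c' * m + m'))
    (h0 : ∀ c m, Q₀.1.comap (γ c m : F →+* F) = Q₀.1) :
    ∃ f : F, Transcendental l f ∧ (∀ P : Pt l F, f ∉ P.1 → P = Q₀) ∧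
      ∀ c m, ∃ α β : l, γ c m f = algebraMap l F α * f + algebraMap l F β := by
  obtain ⟨A, hA, h1, -⟩ := hF.exists_model ∅
  obtain ⟨e, he⟩ := curvee_equiv h1
  obtain ⟨n, f, f1, -, f3⟩ := exists_single_pole (e Q₀)
  have f0 : f ≠ 0 := fun h => f1 (h ▸ isAlgebraic_zero)
  have f4 := (f3.ge (Submodule.subset_span (by simp)) : f ∈ _).resolve_left f0
  refine ⟨f, (curvee_tr f).1 f1, fun P hP => e.injective (by_contra fun h => hP ?_), fun c m => ?_⟩
  · have := ((e P).mem_iff f).2 (by simpa [Finsupp.single_eq_of_ne h] using f4 (e P))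
    rwa [he] at this
  let φ : A ≃+* A := (γ c m).toRingEquiv.restrict A A (affa_pres h1 γ hmul c m)
  have h2 : (e Q₀).1.comap (φ : A →+* A) = (e Q₀).1 := by
    rw [he]
    exact SetLike.ext fun x : A => SetLike.ext_iff.1 (h0 c m) x.1
  have h3 : φ f ∈ LL (Finsupp.single (e Q₀) (n : ℤ)) := Or.inr fun P => by
    let P' : Pt l A := ⟨P.1.comap (φ : A →+* A), fun h => P.2.1 (eq_top_iff.2 fun x _ => by
      simpa [ValuationSubring.mem_comap] using (h.ge trivial : φ.symm x ∈ _)), fun a => by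
        rw [ValuationSubring.mem_comap, RingHom.coe_coe,
          show φ (algebraMap l A a) = algebraMap l A a from Subtype.ext ((γ c m).commutes a)]
        exact P.2.2 a⟩
    rw [← ord_comap]
    rcases eq_or_ne P (e Q₀) with rfl | h
    · exact h2.symm ▸ f4 _
    · have : P' ≠ e Q₀ := fun h' => h (Subtype.ext (SetLike.ext fun x => by
        simpa [P', ValuationSubring.mem_comap] using
          SetLike.ext_iff.1 ((congrArg Subtype.val h').trans h2.symm) (φ.symm x)))
      simpa [Finsupp.single_eq_of_ne h, Finsupp.single_eq_of_ne this] using f4 P'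
  obtain ⟨β, α, h4⟩ := Submodule.mem_span_pair.1 (f3.le h3)
  refine ⟨α, β, (congrArg Subtype.val h4).symm.trans ?_⟩
  simp [Algebra.smul_def, add_comm]

/-- Automorphisms fixing `f` form a finite group (`PF.finite_emb` over `l(f)`). If `γ 1 m` fixes `f`
for one `m ≠ 0`, by conjugation all do, absurd. `α (γ 1 m)` is constant for `m ≠ 0` and
multiplicative, so `1`. So `γ 1 m f = f + β m`, `β` additive and injective, and conjugation by
`γ c 0` gives `β (m / c) = β m / α c`. Put `σ m = β m / β 1`. -/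
theorem exists_affine_hom (hF : PFC l F) (γ : kˣ → k → F ≃ₐ[l] F)
    (hmul : ∀ c m c' m', γ c m * γ c' m' = γ (c * c') (c' * m + m'))
    (hinj : ∀ m, γ 1 m = 1 → m = 0) {f : F} (hf : Transcendental l f)
    (h : ∀ c m, ∃ α β : l, γ c m f = algebraMap l F α * f + algebraMap l F β) :
    ∃ (σ : k →+* l) (B : l), B ≠ 0 ∧ ∀ m, γ 1 m f = f + algebraMap l F (B * σ m) := by
  choose α β h using h
  obtain ⟨r0, r1, -, -, r4⟩ := affa_rules hmul
  have u : ∀ a b a' b' : l, algebraMap l F a * f + algebraMap l F b =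
      algebraMap l F a' * f + algebraMap l F b' → a = a' ∧ b = b' := fun a b a' b' e => by
    rcases eq_or_ne a a' with rfl | h
    · exact ⟨rfl, (algebraMap l F).injective (add_left_cancel e)⟩
    · refine absurd ⟨(b' - b) / (a - a'), ?_⟩ (transcendental_iff.1 hf)
      rw [map_div₀, div_eq_iff ((map_ne_zero _).2 (sub_ne_zero.2 h)), map_sub, map_sub]
      linear_combination -e
  have cm : ∀ c m c' m', (γ c m * γ c' m') f = algebraMap l F (α c m * α c' m') * f +
      algebraMap l F (α c' m' * β c m + β c' m') := fun c m c' m' => by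
    rw [AlgEquiv.mul_apply, h c', map_add, map_mul, h c, AlgEquiv.commutes, AlgEquiv.commutes,
      map_add, map_mul, map_mul]
    ring
  have a0 : ∀ c m, α c m ≠ 0 := fun c m e => transcendental_iff.1 hf ⟨β c m, (γ c m).injective
    (by rw [h, e, map_zero, zero_mul, zero_add, AlgEquiv.commutes])⟩
  have k1 := fun m m' => u _ _ _ _ ((cm 1 m 1 m').symm.trans (by rw [r1, h]))
  have k2 := fun c m => u _ _ _ _ ((cm 1 m c 0).symm.trans (by rw [r4, cm]))
  have k3 : ∀ m, m ≠ 0 → α 1 m = α 1 1 := fun m hm => by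
    have := (k2 (Units.mk0 m hm) 1).1
    rw [Units.val_mk0, mul_one, mul_comm] at this
    exact (mul_left_cancel₀ (a0 _ _) this).symm
  have k4 : ∀ m, α 1 m = 1 := fun m => by
    obtain ⟨a, b0, b1⟩ := affa_two (k := k)
    have b2 := (k1 1 a).1
    rw [k3 _ b0, k3 _ b1, mul_eq_left₀ (a0 _ _)] at b2
    rcases eq_or_ne m 0 with rfl | hm
    · simpa [mul_eq_left₀ (a0 1 0)] using (k1 0 0).1
    · rw [k3 m hm, b2]
  have k5 : ∀ m m', β 1 (m + m') = β 1 m + β 1 m' := fun m m' => by rw [← (k1 m m').2, k4, one_mul]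
  have k6 : β 1 0 = 0 := by simpa using k5 0 0
  have k7 : ∀ c m, β 1 (c * m) * β 1 1 = β 1 c * β 1 m ∧ (β 1 1 = 0 → β 1 c = 0) := fun c m => by
    rcases eq_or_ne c 0 with rfl | hc
    · simp [k6]
    have b1 := (k2 (Units.mk0 c hc) m).2
    have b2 := (k2 (Units.mk0 c hc) 1).2
    rw [k4, Units.val_mk0] at b1 b2
    rw [mul_one] at b2
    exact ⟨by linear_combination β 1 m * b2 - β 1 1 * b1,
      fun e => by linear_combination α (Units.mk0 c hc) 0 * e - b2⟩
  have hB : β 1 1 ≠ 0 := fun e => by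
    have := hF.finite_emb hf
    have b1 : ∀ m (r : l⟮f⟯), γ 1 m r = r := fun m r =>
      (Subfield.closure_le (t := RingHom.eqLocusField (γ 1 m : F →+* F) (RingHom.id F))).2 (by
        rintro _ (⟨a, rfl⟩ | rfl)
        · exact (γ 1 m).commutes a
        · exact (h 1 m).trans (by simp [k4, (k7 m 1).2 e])) r.2
    refine not_injective_infinite_finite (β := Field.Emb l⟮f⟯ F) (fun m : k =>
      (IsScalarTower.toAlgHom l⟮f⟯ F _).comp ⟨(γ 1 m : F →+* F), b1 m⟩) fun m m' H => ?_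
    have b2 : γ 1 m = γ 1 m' := AlgEquiv.ext fun x =>
      (algebraMap F (AlgebraicClosure F)).injective (DFunLike.congr_fun H x)
    exact sub_eq_zero.1 (hinj _ (mul_eq_right.1 (by rw [r1, sub_add_cancel, b2])))
  refine ⟨⟨⟨⟨fun m => β 1 m / β 1 1, div_self hB⟩, fun c m => ?_⟩, by simp [k6],
    fun m m' => by simp [k5, add_div]⟩, β 1 1, hB, fun m => ?_⟩
  · rw [div_mul_div_comm, ← (k7 c m).1, mul_div_mul_right _ _ hB]
  · rw [h, k4, map_one, one_mul]
    exact congrArg _ (congrArg _ (mul_div_cancel₀ _ hB).symm)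

end Vale.Agent.P019
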