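import Vale.Agent.P019.AffA

open scoped IntermediateField

namespace Vale.Agent.P019

variable {k l F : Type*} [Field k] [IsAlgClosed k] [Field l] [IsAlgClosed l] [Field F] [Algebra l F]

/-- The multiplication rule of `exists_affine_fun` follows from `h2`, `h3` and `PFC.aut_eq_one`.
With `φ a` the value of `f` at `Q a`, `h5` gives that `φ a - B σ a` is constant off a finite set;
normalize `f`. Then `pc_eq_top_of_inj`; `σ` has cofinite image (`exists_Pt_At`, `h4`), so it is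
onto. -/
theorem exists_coordinate [PerfectField F] (hF : PFC l F) (Q : k → Pt l F) (Q₀ : Pt l F)
    (γ : kˣ → k → F ≃ₐ[l] F) (h1 : ∀ c m, Q₀.1.comap (γ c m : F →+* F) = Q₀.1)
    (h2 : ∀ (c : kˣ) (m : k), {a : k | (Q a).1.comap (γ c m : F →+* F) ≠ (Q (c * a + m)).1}.Finite)
    (S : Set k) (hS : S.Finite) (h3 : Set.InjOn Q Sᶜ) (h4 : (Set.range Q)ᶜ.Finite)
    (h5 : ∀ a ∉ S, ∀ a' ∉ S, ∃ b ∉ S, (Q a).1.comap (γ 1 (b - a) : F →+* F) = (Q b).1 ∧
      (Q a').1.comap (γ 1 (b - a') : F →+* F) = (Q b).1) :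
    ∃ (σ : k ≃+* l) (f : F), Transcendental l f ∧ pc l {f} = ⊤ ∧
      {a : k | ¬ At l (Q a).1 f (σ a)}.Finite := by
  have inf : ∀ T : Set k, T.Finite → (Q '' (S ∪ T)ᶜ).Infinite := fun T hT =>
    (hS.union hT).infinite_compl.image (h3.mono fun a ha h => ha (Or.inl h))
  have eq : ∀ (g g' : F ≃ₐ[l] F), {a | (Q a).1.comap (g : F →+* F) ≠
      (Q a).1.comap (g' : F →+* F)}.Finite → g = g' := fun g g' hT =>
    mul_inv_eq_one.1 (hF.aut_eq_one _ ((inf _ hT).mono (by
      rintro _ ⟨a, ha, rfl⟩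
      refine SetLike.ext fun x => ?_
      simpa [ValuationSubring.mem_comap] using
        SetLike.ext_iff.1 (not_not.1 fun h => ha (Or.inr h)) (g'.symm x))))
  have hmul : ∀ c m c' m', γ c m * γ c' m' = γ (c * c') (c' * m + m') := fun c m c' m' => by
    refine eq _ _ ((((h2 c m).union (h2 (c * c') (c' * m + m'))).union ((h2 c' m').preimage
      (f := fun a => c * a + m) fun a _ b _ e =>
        mul_left_cancel₀ c.ne_zero (add_right_cancel e))).subset fun a ha => by_contra fun H => ha ?_)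
    simp only [Set.mem_union, Set.mem_ofPred_eq, Set.mem_preimage, not_or, not_not] at H
    rw [H.1.2, show ((c * c' : kˣ) : k) * a + (c' * m + m') = c' * (c * a + m) + m' by
      push_cast; ring, ← H.2, ← H.1.1]
    rfl
  have hinj : ∀ m, γ 1 m = 1 → m = 0 := fun m hm => by
    obtain ⟨a, ha⟩ := (((h2 1 m).union hS).union (hS.preimage (f := fun a => a + m)
      (add_left_injective m).injOn)).exists_notMem
    simp only [Set.mem_union, Set.mem_ofPred_eq, Set.mem_preimage, not_or, not_not, hm,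
      Units.val_one, one_mul] at ha
    exact left_eq_add.1 (h3 ha.1.2 ha.2 (Subtype.ext ha.1.1))
  obtain ⟨f, f1, f2, f3⟩ := exists_affine_fun hF Q₀ γ hmul h1
  obtain ⟨σ, B, B0, f4⟩ := exists_affine_hom hF γ hmul hinj f1 f3
  have hT : (S ∪ {a | a ∉ S ∧ Q a = Q₀}).Finite := hS.union (Set.Subsingleton.finite
    fun a ha b hb => h3 ha.1 hb.1 (ha.2.trans hb.2.symm))
  have a1 : ∀ a ∉ S ∪ {a | a ∉ S ∧ Q a = Q₀}, ∃ c, At l (Q a).1 f c := fun a ha =>
    Pt.exists_At hF.2.le _ (by_contra fun h => ha (or_iff_not_imp_left.2 fun h' => ⟨h', f2 _ h⟩))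
  choose! φ hφ using a1
  have a2 : ∀ a ∉ S ∪ {a | a ∉ S ∧ Q a = Q₀}, ∀ b, (Q a).1.comap (γ 1 (b - a) : F →+* F) = (Q b).1 →
      At l (Q b).1 f (φ a + B * σ (b - a)) := fun a ha b e => by
    rw [At, ← e, comap_val_lt_one, map_sub, RingHom.coe_coe, f4, AlgEquiv.commutes, map_add,
      add_sub_add_right_eq_sub]
    exact hφ a ha
  obtain ⟨a₀, ha₀⟩ := hT.exists_notMem
  have B1 : algebraMap l F B ≠ 0 := (map_ne_zero _).2 B0
  obtain ⟨g, hg⟩ : ∃ g, f = algebraMap l F B * g + algebraMap l F (φ a₀ - B * σ a₀) :=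
    ⟨(f - algebraMap l F (φ a₀ - B * σ a₀)) / algebraMap l F B, by
      rw [mul_div_cancel₀ _ B1, sub_add_cancel]⟩
  have g1 : Transcendental l g := fun h =>
    f1 (hg ▸ ((isAlgebraic_algebraMap B).mul h).add (isAlgebraic_algebraMap _))
  have g2 : ∀ a ∉ S ∪ {a | a ∉ S ∧ Q a = Q₀}, At l (Q a).1 g (σ a) := fun a ha => by
    obtain ⟨b, -, e1, e2⟩ := h5 a (fun h => ha (Or.inl h)) a₀ fun h => ha₀ (Or.inl h)
    have e3 := (a2 a ha b e1).unique (Q b).2.2 (a2 a₀ ha₀ b e2)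
    have e4 := hφ a ha
    rw [map_sub, map_sub] at e3
    rw [At, show φ a = B * σ a + (φ a₀ - B * σ a₀) by linear_combination e3, hg, map_add,
      add_sub_add_right_eq_sub, map_mul, ← mul_sub, map_mul, val_const_eq_one (Q a).2.2 B0,
      one_mul] at e4
    exact e4
  have hS' := h4.union (hT.image Q)
  have g3 : ∀ P ∉ (Set.range Q)ᶜ ∪ Q '' (S ∪ {a | a ∉ S ∧ Q a = Q₀}), ∀ c, At l P.1 g c →
      ∃ a, σ a = c ∧ Q a = P := fun P hP c hc => by
    obtain ⟨a, rfl⟩ := not_not.1 fun h => hP (Or.inl h)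
    exact ⟨a, (g2 a fun h => hP (Or.inr ⟨a, h, rfl⟩)).unique (Q a).2.2 hc, rfl⟩
  have hσ : Function.Surjective σ := fun c => by_contra fun H => by
    choose P hP using exists_Pt_At g1
    have hi : Function.Injective fun m => P (c + σ m) := fun m m' e => by
      have e1 := hP (c + σ m')
      rw [← show P (c + σ m) = P (c + σ m') from e] at e1
      exact σ.injective (add_left_cancel ((hP _).unique (P _).2.2 e1))
    refine Set.infinite_range_of_injective hi (hS'.subset ?_)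
    rintro _ ⟨m, rfl⟩
    by_contra h
    obtain ⟨a, ha, -⟩ := g3 _ h _ (hP _)
    exact H ⟨a - m, by rw [map_sub, ha, add_sub_cancel_right]⟩
  refine ⟨RingEquiv.ofBijective σ ⟨σ.injective, hσ⟩, g, g1,
    pc_eq_top_of_inj hF g1 hS' fun P hP P' hP' c h h' => ?_,
    hT.subset fun a ha => by_contra fun h => ha (g2 a h)⟩
  obtain ⟨a, e1, rfl⟩ := g3 P hP c h
  obtain ⟨a', e2, rfl⟩ := g3 P' hP' c h'
  rw [σ.injective (e1.trans e2.symm)]

end Vale.Agent.P019
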