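import Vale.Agent.P019.Rel

open scoped IntermediateField

namespace Vale.Agent.P019

universe u

variable {ℓ : ℕ} [Fact ℓ.Prime] {k K l L : Type u} [Field k] [Field K] [Algebra k K] [IsAlgClosed k]
  [Field l] [Field L] [Algebra l L] [IsAlgClosed l] {Θ : V ℓ K ≃ₗ[ZMod ℓ] V ℓ L}

omit [Fact ℓ.Prime] [IsAlgClosed k] in
theorem alpha_dim (hK : Std ℓ k K 2) : Algebra.trdeg k K = 2 := by
  rw [hK.dim]; exact Nat.cast_ofNat

omit [IsAlgClosed k] in
theorem alpha_unit {v : ValuationSubring K} {t : K} (h : Hor k v t) {x : K} (hx : x ∈ ac k {t})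
    (h0 : x ≠ 0) : v.valuation x = 1 :=
  val_eq_one_iff.2 ⟨h0, h x hx, h _ (inv_mem hx)⟩

omit [IsAlgClosed k] in
theorem alpha_ne_zero {t : K} (ht : Transcendental k t) : t ≠ 0 := by
  rintro rfl
  exact ht isAlgebraic_zero

omit [Fact ℓ.Prime] in
theorem alpha_split (hK : Std ℓ k K 2) {z : K} (hz : Transcendental k z) :
    ∃ (y : K) (c : k), GEN k y ∧ GEN k (z + algebraMap k K c * y) := by
  have := hK.perf
  obtain ⟨y, hy, hi⟩ := exists_GEN_indep hK.pf (alpha_dim hK).ge hz
  obtain ⟨c, hc⟩ := (finite_not_GEN hK.pf hi).exists_notMem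
  exact ⟨y, c, hy, not_not.1 hc⟩

theorem alpha_ker (h : Set2 k l Θ) {σ : k ≃+* l} {ι : Type*} [Finite ι] {t : ι → K} {s : ι → L}
    (ht : ∀ i, GEN k (t i)) (hs : ∀ i, Coord Θ σ (t i) (s i)) (f : MvPolynomial ι k)
    (hf : MvPolynomial.aeval t f = 0) :
    MvPolynomial.aeval s (MvPolynomial.map (σ : k →+* l) f) = 0 := by
  classical
  have := Fintype.ofFinite ι
  by_contra h0
  generalize hz : MvPolynomial.aeval s (MvPolynomial.map (σ : k →+* l) f) = z at h0
  obtain ⟨w, hw, hh⟩ := exists_hor (alpha_dim h.hL)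
    ((insert z (Finset.univ.image s)).filter fun x => Transcendental l x)
    (fun x hx => (Finset.mem_filter.1 hx).2)
  obtain ⟨v, hv, hP⟩ := h.symm.partner_prime hw
  have hP' : Partner Θ v w := hP.symm
  have hh' : ∀ i, Hor k v (t i) := fun i =>
    (h.hor_iff hv hw hP' (ht i).1 (hs i).1.1 (hs i).2.1).2
      (hh _ (Finset.mem_filter.2 ⟨Finset.mem_insert_of_mem
        (Finset.mem_image_of_mem s (Finset.mem_univ i)), (hs i).1.1⟩))
  have h1 := h.rel hv hw hP' ht hs hh' f (by rw [hf, map_zero]; exact zero_lt_one)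
  rw [hz] at h1
  refine h1.ne ?_
  by_cases htr : Transcendental l z
  · exact alpha_unit (hh z (Finset.mem_filter.2 ⟨Finset.mem_insert_self _ _, htr⟩))
      (self_mem_ac z) h0
  · obtain ⟨c, rfl⟩ := not_not.1 (mt transcendental_iff.2 htr)
    exact val_const_eq_one hw.1 (fun hc => h0 (by rw [hc, map_zero]))

/-- Index set `I = {(t, s) | GEN t, Coord σ t s}`. `aeval fst : k[I] → K` is onto
(`z = (z + c y) - c y`, `exists_GEN_indep`, `finite_not_GEN`). If `f(t) = 0` and
`z' = f^σ(s) ≠ 0`, take a prime `w` horizontal for the finitely many `s i` (and `z'` if it is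
transcendental) by `exists_hor`, its partner `v`; `Set2.rel` contradicts that `z'` is a unit.
Use `RingHom.liftOfSurjective`. -/
theorem Set2.exists_alpha (h : Set2 k l Θ) {σ : k ≃+* l}
    (hσ : ∀ t : K, GEN k t → ∃ s : L, Coord Θ σ t s) :
    ∃ α : K →+* L, (∀ c : k, α (algebraMap k K c) = algebraMap l L (σ c)) ∧
      ∀ t s, GEN k t → Coord Θ σ t s → α t = s := by
  let I := {p : K × L // GEN k p.1 ∧ Coord Θ σ p.1 p.2}
  let t : I → K := fun p => p.1.1
  let s : I → L := fun p => p.1.2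
  let φ : MvPolynomial I k →+* K := (MvPolynomial.aeval t : MvPolynomial I k →ₐ[k] K).toRingHom
  let ψ : MvPolynomial I k →+* L :=
    (MvPolynomial.aeval s : MvPolynomial I l →ₐ[l] L).toRingHom.comp
      (MvPolynomial.map (σ : k →+* l))
  have hφ : ∀ f, φ f = MvPolynomial.aeval t f := fun _ => rfl
  have hψ : ∀ f, ψ f = MvPolynomial.aeval s (MvPolynomial.map (σ : k →+* l) f) := fun _ => rfl
  have hsurj : Function.Surjective φ := by
    intro z
    by_cases htr : Transcendental k z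
    · obtain ⟨y, c, hy, hc⟩ := alpha_split h.hK htr
      obtain ⟨s₁, hs₁⟩ := hσ _ hy
      obtain ⟨s₀, hs₀⟩ := hσ _ hc
      refine ⟨MvPolynomial.X ⟨(_, s₀), hc, hs₀⟩ -
        MvPolynomial.C c * MvPolynomial.X ⟨(_, s₁), hy, hs₁⟩, ?_⟩
      rw [hφ, map_sub, map_mul, MvPolynomial.aeval_X, MvPolynomial.aeval_X, MvPolynomial.aeval_C]
      exact add_sub_cancel_right _ _
    · obtain ⟨c, rfl⟩ := not_not.1 (mt transcendental_iff.2 htr)
      exact ⟨MvPolynomial.C c, by rw [hφ, MvPolynomial.aeval_C]⟩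
  have hker : RingHom.ker φ ≤ RingHom.ker ψ := by
    intro f hf
    rw [RingHom.mem_ker] at hf ⊢
    obtain ⟨S, q, rfl⟩ := MvPolynomial.exists_finset_rename f
    rw [hφ, MvPolynomial.aeval_rename] at hf
    rw [hψ, MvPolynomial.map_rename, MvPolynomial.aeval_rename]
    exact alpha_ker h (fun i : S => i.1.2.1) (fun i : S => i.1.2.2) q hf
  have key : ∀ f, φ.liftOfSurjective hsurj ⟨ψ, hker⟩ (φ f) = ψ f := fun f =>
    φ.liftOfRightInverse_comp_apply _ _ ⟨ψ, hker⟩ f
  refine ⟨φ.liftOfSurjective hsurj ⟨ψ, hker⟩, fun c => ?_, fun a b ha hb => ?_⟩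
  · have := key (MvPolynomial.C c)
    rwa [hφ, hψ, MvPolynomial.map_C, MvPolynomial.aeval_C, MvPolynomial.aeval_C] at this
  · have := key (MvPolynomial.X ⟨(a, b), ha, hb⟩)
    rwa [hφ, hψ, MvPolynomial.map_X, MvPolynomial.aeval_X, MvPolynomial.aeval_X] at this

omit [Fact ℓ.Prime] in
theorem alpha_hor (hK : Std ℓ k K 2) {v : ValuationSubring K} (hv : IsPrime k v) :
    ∃ y : K, y ∈ v ∧ Transcendental k y ∧ Transcendental (kap k v) (res v y) := by
  obtain ⟨-, -, e, y, hd, hy⟩ := hv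
  have he : 2 = e + 1 := by
    have := hK.dim.symm.trans hd
    exact_mod_cast this
  have i : Fin e := ⟨0, by omega⟩
  exact ⟨y i, hy.1 i, hy.indep.transcendental i, hy.2.transcendental i⟩

omit [IsAlgClosed k] in
theorem alpha_res {v : ValuationSubring K} (hk : ∀ c : k, algebraMap k K c ∈ v) {z y : K}
    (hz : z ∈ v) (hy : y ∈ v) (c : k) :
    res v (z + algebraMap k K c * y) = res v z + res v (algebraMap k K c) * res v y := by
  rw [res_add v hz (mul_mem (hk c) hy), res_mul v (hk c) hy]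

theorem alpha_tr {v : ValuationSubring K} {x : Res v} :
    Transcendental (kap k v) x ↔ x ∉ kap k v := by
  rw [transcendental_iff]
  exact not_congr ⟨fun ⟨a, ha⟩ => ha ▸ a.2, fun hx => ⟨⟨x, hx⟩, rfl⟩⟩

theorem alpha_sub {v : ValuationSubring K} (hk : ∀ c : k, algebraMap k K c ∈ v) {z y : K}
    (hz : z ∈ v) (hy : y ∈ v) (hy' : Transcendental (kap k v) (res v y)) :
    {c : k | ¬ Transcendental (kap k v) (res v (z + algebraMap k K c * y))}.Subsingleton := by
  intro a ha b hb
  by_contra hab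
  rw [Set.mem_ofPred_eq, alpha_tr, not_not, alpha_res hk hz hy] at ha hb
  have h1 : res v (algebraMap k K (a - b)) ≠ 0 :=
    (res_ne_zero_iff v _).2 (val_const_eq_one hk (sub_ne_zero.2 hab))
  refine alpha_tr.1 hy' ?_
  have h2 := mul_mem (inv_mem (res_const_mem v k (a - b))) (sub_mem ha hb)
  rwa [add_sub_add_left_eq_sub, ← sub_mul, ← res_sub v (hk a) (hk b), ← map_sub,
    inv_mul_cancel_left₀ h1] at h2

/-- every element of `v` is a constant or `(z + c y) - c y` with `y`, `z + c y` general and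
horizontal for `v` (`y = y₀ + a π`, `subsingleton_dep`) -/
theorem exists_hor_gen (hK : Std ℓ k K 2) {v : ValuationSubring K} (hv : IsPrime k v) {z : K}
    (hz : z ∈ v) (hz' : Transcendental k z) :
    ∃ (y : K) (c : k), GEN k y ∧ Hor k v y ∧ GEN k (z + algebraMap k K c * y) ∧
      Hor k v (z + algebraMap k K c * y) := by
  have := hK.perf
  obtain ⟨y₀, hy₀, htr, hres⟩ := alpha_hor hK hv
  obtain ⟨π, hπ0, hπ⟩ := gv_exists_lt hv.2.1
  have hπv : π ∈ v := (v.valuation_le_one_iff π).1 hπ.le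
  have hi : AlgebraicIndependent k ![y₀, π] :=
    indep_pair_iff.2 ⟨htr, fun hm => hπ.ne (alpha_unit (Hor_of_res hv.1 hres) hm hπ0)⟩
  obtain ⟨a, ha⟩ := ((finite_not_GEN hK.pf hi).union
    (subsingleton_dep hi hz').finite).exists_notMem
  rw [Set.mem_union, not_or, Set.mem_ofPred_eq, Set.mem_ofPred_eq, not_not] at ha
  have hyv : y₀ + algebraMap k K a * π ∈ v := add_mem hy₀ (mul_mem (hv.1 a) hπv)
  have hy : Transcendental (kap k v) (res v (y₀ + algebraMap k K a * π)) := by
    rwa [alpha_res hv.1 hy₀ hπv, (res_eq_zero_iff v hπv).2 hπ, mul_zero, add_zero]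
  have hi' : AlgebraicIndependent k ![z, y₀ + algebraMap k K a * π] :=
    indep_pair_symm (indep_pair_iff.2 ⟨ha.1.1, ha.2⟩)
  obtain ⟨c, hc⟩ := ((finite_not_GEN hK.pf hi').union
    (alpha_sub hv.1 hz hyv hy).finite).exists_notMem
  rw [Set.mem_union, not_or, Set.mem_ofPred_eq, Set.mem_ofPred_eq, not_not, not_not] at hc
  exact ⟨_, c, ha.1, Hor_of_res hv.1 hy, hc.1, Hor_of_res hv.1 hc.2⟩

/-- `α` maps `v` into `w` and the maximal ideal into the maximal ideal (`Set2.rel`) -/
theorem Set2.comap_alpha (h : Set2 k l Θ) {σ : k ≃+* l}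
    (hσ : ∀ t : K, GEN k t → ∃ s : L, Coord Θ σ t s) {α : K →+* L}
    (hα : ∀ c : k, α (algebraMap k K c) = algebraMap l L (σ c))
    (hα' : ∀ t s, GEN k t → Coord Θ σ t s → α t = s) {v : ValuationSubring K}
    {w : ValuationSubring L} (hv : IsPrime k v) (hw : IsPrime l w) (hP : Partner Θ v w) :
    w.comap α = v := by
  have hco : ∀ t, GEN k t → Coord Θ σ t (α t) := fun t ht => by
    obtain ⟨s, hs⟩ := hσ t ht
    rwa [hα' t s ht hs]
  have hmem : ∀ t, GEN k t → Hor k v t → α t ∈ w := fun t ht hh =>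
    (h.hor_iff hv hw hP ht.1 (hco t ht).1.1 (hco t ht).2.1).1 hh _ (self_mem_ac _)
  refine valc_comap_eq α (fun a => ?_) (fun a ha => ?_)
  · by_cases htr : Transcendental k (a : K)
    · obtain ⟨y, c, hy, hy', hc, hc'⟩ := exists_hor_gen h.hK hv a.2 htr
      have h1 := sub_mem (hmem _ hc hc') (mul_mem (hw.1 (σ c)) (hmem _ hy hy'))
      rwa [← hα, ← map_mul, ← map_sub, add_sub_cancel_right] at h1
    · obtain ⟨c, hc⟩ := not_not.1 (mt transcendental_iff.2 htr)
      rw [← hc, hα]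
      exact hw.1 _
  · by_cases htr : Transcendental k (a : K)
    · obtain ⟨y, c, hy, hy', hc, hc'⟩ := exists_hor_gen h.hK hv a.2 htr
      have h1 := h.rel (σ := σ) hv hw hP (t := ![(a : K) + algebraMap k K c * y, y])
        (s := ![α ((a : K) + algebraMap k K c * y), α y])
        (Fin.forall_fin_two.2 ⟨hc, hy⟩) (Fin.forall_fin_two.2 ⟨hco _ hc, hco _ hy⟩)
        (Fin.forall_fin_two.2 ⟨hc', hy'⟩) (MvPolynomial.X 0 - MvPolynomial.C c * MvPolynomial.X 1)
        (by
          rw [map_sub, map_mul, MvPolynomial.aeval_X, MvPolynomial.aeval_X, MvPolynomial.aeval_C]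
          exact (congrArg v.valuation (add_sub_cancel_right _ _)).trans_lt ha)
      rw [map_sub, map_mul, MvPolynomial.map_X, MvPolynomial.map_X, MvPolynomial.map_C, map_sub,
        map_mul, MvPolynomial.aeval_X, MvPolynomial.aeval_X, MvPolynomial.aeval_C] at h1
      have h2 : α (a : K) = α ((a : K) + algebraMap k K c * y) - algebraMap l L (σ c) * α y := by
        rw [← hα, ← map_mul, ← map_sub, add_sub_cancel_right]
      rw [h2]
      exact h1
    · obtain ⟨c, hc⟩ := not_not.1 (mt transcendental_iff.2 htr)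
      have hc0 : c = 0 := by
        by_contra h0
        exact ha.ne (hc ▸ val_const_eq_one hv.1 h0)
      rw [← hc, hc0, map_zero, map_zero, map_zero]
      exact zero_lt_one

end Vale.Agent.P019
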