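import Vale.Agent.P019.FieldB

open scoped IntermediateField

namespace Vale.Agent.P019

section gen
variable {k F K : Type*} [Field k] [Field F] [Field K] [Algebra k F] [Algebra F K] [Algebra k K]
  [IsScalarTower k F K]

theorem fieldc_up {S : Set K} {x : K} (hx : x ∈ IntermediateField.adjoin k S) :
    x ∈ IntermediateField.adjoin F S := by
  simpa using map_mem_adjoin (k' := F) (RingHom.id K)
    (fun c => ⟨algebraMap k F c, (IsScalarTower.algebraMap_apply k F K c).symm⟩) hx

attribute [local instance] MvPolynomial.algebraMvPolynomial in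
open scoped IntermediateField.algebraAdjoinAdjoin in
theorem fieldc_closed (hcl : ∀ x : F, IsIntegral k x → x ∈ (algebraMap k F).range) {ι : Type*}
    {y : ι → K} (hy : AlgebraicIndependent F y) {z : K}
    (hz : z ∈ IntermediateField.adjoin F (Set.range y)) (ha : z ∈ ac k (Set.range y)) :
    z ∈ IntermediateField.adjoin k (Set.range y) := by
  have hyk : AlgebraicIndependent k y := hy.restrictScalars (algebraMap k F).injective
  obtain ⟨c, hc, hi⟩ := (fielda_mem.1 ha).exists_integral_multiple
  have hck : (c : K) ∈ IntermediateField.adjoin k (Set.range y) :=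
    IntermediateField.algebra_adjoin_le_adjoin k _ c.2
  have : IsIntegrallyClosed (Algebra.adjoin F (Set.range y)) :=
    IsIntegrallyClosed.of_equiv hy.aevalEquiv.toRingEquiv
  let g := (MvPolynomial.aeval y : MvPolynomial ι F →ₐ[F] K).toRingHom
  have h1 : (g.comp (algebraMap (MvPolynomial ι k) (MvPolynomial ι F))).IsIntegralElem (c • z) := by
    refine .of_comp (f := hyk.repr.toRingHom) ?_
    rw [show (g.comp (algebraMap _ _)).comp hyk.repr.toRingHom = algebraMap _ K from
      RingHom.ext fun a => (MvPolynomial.aeval_map_algebraMap _ _ _).trans (hyk.aeval_repr a)]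
    exact hi
  have h2 : IsIntegral (Algebra.adjoin F (Set.range y))
      (⟨c • z, mul_mem (fieldc_up hck) hz⟩ : IntermediateField.adjoin F (Set.range y)) := by
    refine .of_map (g := algebraMap _ K) Subtype.val_injective
      (.of_comp (f := hy.aevalEquiv.toRingHom.comp (algebraMap (MvPolynomial ι k) _)) ?_)
    convert h1 using 1
    exacts [RingHom.ext fun a => hy.algebraMap_aevalEquiv _, rfl]
  obtain ⟨r, hr⟩ := IsIntegrallyClosed.isIntegral_iff.1 h2
  have h3 : g (hy.repr r) = c • z := (hy.aeval_repr r).trans (congrArg Subtype.val hr)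
  rw [← h3] at h1
  have h4 := MvPolynomial.isIntegral_iff_isIntegral_coeff.1 (RingHom.IsIntegralElem.of_map hy h1)
  obtain ⟨Q, hQ⟩ := (MvPolynomial.mem_range_map_iff_coeffs_subset (f := algebraMap k F)
    (x := hy.repr r)).2 fun a ha => by
      obtain ⟨n, -, rfl⟩ := MvPolynomial.mem_coeffs_iff.1 ha
      exact hcl _ (h4 n)
  have h5 : c.1 * z ∈ IntermediateField.adjoin k (Set.range y) := by
    rw [show c.1 * z = c • z from rfl, ← h3, ← hQ]
    refine IntermediateField.algebra_adjoin_le_adjoin k _ ?_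
    rw [Algebra.adjoin_range_eq_range_aeval]
    exact ⟨Q, (MvPolynomial.aeval_map_algebraMap _ _ _).symm⟩
  have := mul_mem (inv_mem hck) h5
  rwa [inv_mul_cancel_left₀ fun h => hc (Subtype.ext h)] at this

theorem fieldc_deg_le {z : K} (hz : IsIntegral k z) :
    (minpoly F z).natDegree ≤ (minpoly k z).natDegree :=
  (Polynomial.natDegree_le_of_dvd (minpoly.dvd_map_of_isScalarTower k F z)
    ((minpoly.monic hz).map _).ne_zero).trans Polynomial.natDegree_map_le

theorem fieldc_coeff {z : K} (hz : IsIntegral k z) (n : ℕ) :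
    IsIntegral k ((minpoly F z).coeff n) :=
  Polynomial.isIntegral_coeff_of_dvd _ _ (minpoly.monic hz) (minpoly.monic hz.tower_top)
    (minpoly.dvd_map_of_isScalarTower k F z) n

theorem fieldc_lift {E K : Type*} [Field E] [Field K] [Algebra E K] {z : K} {g : Polynomial K}
    (hg : g.Monic) (h : ∀ n, g.coeff n ∈ (algebraMap E K).range) (hz : g.eval z = 0) :
    (minpoly E z).natDegree ≤ g.natDegree := by
  obtain ⟨q, rfl, h1, h2⟩ := Polynomial.lifts_and_natDegree_eq_and_monic
    ((Polynomial.lifts_iff_coeff_lifts g).2 h) hg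
  rw [← h1]
  exact Polynomial.natDegree_le_natDegree (minpoly.min E z h2 (by rwa [Polynomial.eval_map_algebraMap] at hz))

theorem fieldc_lift' {E : Type*} [Field E] [Algebra E K] {z : K} (hz : IsIntegral F z)
    (h : ∀ n, algebraMap F K ((minpoly F z).coeff n) ∈ (algebraMap E K).range) :
    (minpoly E z).natDegree ≤ (minpoly F z).natDegree := by
  rw [← (minpoly.monic hz).natDegree_map (algebraMap F K)]
  exact fieldc_lift ((minpoly.monic hz).map _) (by simpa using h)
    (by rw [Polynomial.eval_map_algebraMap, minpoly.aeval])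

theorem fieldc_deg (hcl : ∀ x : F, IsIntegral k x → x ∈ (algebraMap k F).range) {z : K}
    (hz : IsIntegral k z) : (minpoly F z).natDegree = (minpoly k z).natDegree :=
  (fieldc_deg_le hz).antisymm (fieldc_lift' hz.tower_top fun n => by
    obtain ⟨c, hc⟩ := hcl _ (fieldc_coeff hz n)
    exact ⟨c, by rw [← hc, ← IsScalarTower.algebraMap_apply]⟩)

theorem fieldc_alg [IsAlgClosed k] (x : F) (h : IsIntegral k x) : x ∈ (algebraMap k F).range :=
  not_not.1 (mt transcendental_iff.2 (not_not.2 h.isAlgebraic))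

theorem fieldc_deg' (hcl : ∀ x : F, IsIntegral k x → x ∈ (algebraMap k F).range) {ι : Type*}
    {y : ι → K} (hy : AlgebraicIndependent F y) {z : K} (ha : z ∈ ac k (Set.range y)) :
    (minpoly (IntermediateField.adjoin F (Set.range y)) z).natDegree =
      (minpoly (IntermediateField.adjoin k (Set.range y)) z).natDegree := by
  let ψ : IntermediateField.adjoin k (Set.range y) →+* IntermediateField.adjoin F (Set.range y) :=
    (algebraMap _ K).codRestrict _ fun x => fieldc_up x.2
  let _ := ψ.toAlgebra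
  have : IsScalarTower (IntermediateField.adjoin k (Set.range y))
    (IntermediateField.adjoin F (Set.range y)) K := .of_algebraMap_eq fun _ => rfl
  exact fieldc_deg (fun x hx => ⟨⟨x, fieldc_closed hcl hy x.2
    (mem_ac.2 hx.algebraMap.isAlgebraic)⟩, rfl⟩) (mem_ac.1 ha).isIntegral

theorem fieldc_simple {z a : K} (hz : IsIntegral F z) (ha : IsIntegral k a)
    (hcl : ∀ x ∈ F⟮z⟯, IsIntegral k x → x ∈ (algebraMap k K).range) :
    (minpoly F z).natDegree ≤ (minpoly F⟮a⟯ z).natDegree := by
  have : IsScalarTower k F⟮z⟯ K := .of_algebraMap_eq fun _ => rfl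
  have h1 : (minpoly F⟮z⟯ a).natDegree = (minpoly k a).natDegree := fieldc_deg (fun x hx => by
    obtain ⟨c, hc⟩ := hcl x x.2 hx.algebraMap
    exact ⟨c, Subtype.ext hc⟩) ha
  have h2 := Module.finrank_mul_finrank F F⟮z⟯ F⟮z⟯⟮a⟯
  have h3 := Module.finrank_mul_finrank F F⟮a⟯ F⟮a⟯⟮z⟯
  have h4 : Module.finrank F F⟮z⟯⟮a⟯ = Module.finrank F F⟮a⟯⟮z⟯ :=
    congrArg (fun N : IntermediateField F K => Module.finrank F N)
      (IntermediateField.adjoin_simple_comm F z a)
  have haF : IsIntegral F a := ha.tower_top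
  rw [IntermediateField.adjoin.finrank hz, IntermediateField.adjoin.finrank haF.tower_top, h1, h4,
    ← h3, IntermediateField.adjoin.finrank haF, IntermediateField.adjoin.finrank hz.tower_top,
    mul_comm] at h2
  exact Nat.le_of_mul_le_mul_left (h2.le.trans (Nat.mul_le_mul_right _ (fieldc_deg_le ha)))
    (minpoly.natDegree_pos ha)

theorem fieldc_prim [PerfectField k] (T : Finset K) (hT : ∀ a ∈ T, IsIntegral k a) :
    ∃ a : K, IsIntegral k a ∧ (T : Set K) ⊆ F⟮a⟯ := by
  have := IntermediateField.finiteDimensional_adjoin (S := (T : Set K)) hT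
  obtain ⟨a, ha⟩ := Field.exists_primitive_element k (IntermediateField.adjoin k (T : Set K))
  have e := congrArg IntermediateField.lift ha
  rw [IntermediateField.lift_adjoin_simple, IntermediateField.lift_top] at e
  exact ⟨a, (Algebra.IsIntegral.isIntegral a).algebraMap, fun t ht =>
    fieldc_up (e.ge (IntermediateField.subset_adjoin k _ ht))⟩

theorem fieldc_reg0 [PerfectField k] {z : K} (hz : IsIntegral F z)
    (hcl : ∀ x ∈ F⟮z⟯, IsIntegral k x → x ∈ (algebraMap k K).range) {g : Polynomial K}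
    (hg : g.Monic) (h : ∀ n, g.coeff n ∈ IntermediateField.adjoin F {a | IsIntegral k a})
    (h0 : g.eval z = 0) : (minpoly F z).natDegree ≤ g.natDegree := by
  classical
  choose T h1 h2 using fun n => IntermediateField.exists_finset_of_mem_adjoin (h n)
  obtain ⟨a, ha, hT⟩ := fieldc_prim (k := k) (F := F) (g.support.biUnion T) fun a ha => by
    obtain ⟨n, -, hn⟩ := Finset.mem_biUnion.1 ha
    exact h1 n hn
  refine (fieldc_simple hz ha hcl).trans (fieldc_lift hg (fun n => ?_) h0)
  by_cases hn : n ∈ g.support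
  · exact ⟨⟨_, IntermediateField.adjoin_le_iff.2
      (fun t ht => hT (Finset.mem_biUnion.2 ⟨n, hn, ht⟩)) (h2 n)⟩, rfl⟩
  · rw [Polynomial.notMem_support_iff.1 hn]
    exact zero_mem _

theorem fieldc_reg (C : Type*) [Field C] [Algebra k C] [Algebra C K] [IsScalarTower k C K]
    [PerfectField k] {ι : Type*} {y : ι → K} (hy : AlgebraicIndependent C y)
    (h1 : ∀ e : F, algebraMap F K e ∈ IntermediateField.adjoin k (Set.range y))
    (h2 : ∀ i, y i ∈ (algebraMap F K).range) {z : K} (hz : IsIntegral F z)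
    (hcl : ∀ x ∈ F⟮z⟯, IsIntegral k x → x ∈ (algebraMap k K).range) :
    (minpoly (IntermediateField.adjoin C (Set.range y)) z).natDegree = (minpoly F z).natDegree := by
  let E := IntermediateField.adjoin (algebraicClosure k C) (Set.range y)
  let ψ : F →+* E := (algebraMap F K).codRestrict _ fun x => fieldc_up (h1 x)
  let _ := ψ.toAlgebra
  have : IsScalarTower F E K := .of_algebraMap_eq fun _ => rfl
  have hE : IsIntegral E z := hz.tower_top
  rw [fieldc_deg' (k := algebraicClosure k C) (fun x hx => ⟨⟨x, mem_algebraicClosure_iff'.2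
    (isIntegral_trans x hx)⟩, rfl⟩) hy (mem_ac.2 hE.isAlgebraic)]
  refine (fieldc_deg_le hz).antisymm ?_
  rw [← (minpoly.monic hE).natDegree_map (algebraMap E K)]
  refine fieldc_reg0 hz hcl ((minpoly.monic hE).map _) (fun n => ?_)
    (by rw [Polynomial.eval_map_algebraMap, minpoly.aeval])
  rw [Polynomial.coeff_map]
  refine (Subfield.closure_le (t := (IntermediateField.adjoin F _).toSubfield)).2 ?_
    ((minpoly E z).coeff n).2
  rintro _ (⟨c, rfl⟩ | ⟨i, rfl⟩)
  · exact IntermediateField.subset_adjoin F _ (Algebra.IsIntegral.isIntegral c).algebraMap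
  · obtain ⟨e, he⟩ := h2 i
    exact he ▸ IntermediateField.algebraMap_mem _ e

theorem fieldc_res {n : ℕ} {ζ : k} (hζ : IsPrimitiveRoot ζ n) {u : F} {ω : K}
    (hω : minpoly F ω = Polynomial.X ^ n - Polynomial.C u) {f : Polynomial F} (hf : f.degree < n)
    (ha : IsAlgebraic k (Polynomial.aeval ω f)) (m : ℕ) :
    IsAlgebraic k (algebraMap F K (f.coeff m) * ω ^ m) := by
  classical
  obtain ⟨q, hq, h0⟩ := ha
  have h1 : ω ^ n = algebraMap F K u := by simpa [hω, sub_eq_zero] using minpoly.aeval F ω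
  have h2 : ∀ i : ℕ, Polynomial.aeval (ω * algebraMap k K (ζ ^ i)) f ∈ algebraicClosure k K :=
    fun i => mem_algebraicClosure_iff.2 ⟨q, hq, by
      have := minpoly.dvd F ω (p := (q.map (algebraMap k F)).comp f) (by simp [Polynomial.aeval_comp, h0])
      have := Polynomial.aeval_eq_zero_of_dvd_aeval_eq_zero this (x := ω * algebraMap k K (ζ ^ i)) (by
        rw [hω, map_sub, map_pow, Polynomial.aeval_X, Polynomial.aeval_C, mul_pow, h1, ← map_pow,
          ← pow_mul, mul_comm i, pow_mul, hζ.pow_eq_one, one_pow, map_one, mul_one, sub_self])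
      simpa [Polynomial.aeval_comp] using this⟩
  let v : ℕ → algebraicClosure k K := fun i => algebraMap k _ (ζ ^ i)
  have hv : Set.InjOn v (Finset.range n) := fun i hi j hj e =>
    hζ.pow_inj (by simpa using hi) (by simpa using hj) ((algebraMap k _).injective e)
  let G := Lagrange.interpolate (Finset.range n) v fun i => ⟨_, h2 i⟩
  have h3 : (f.map (algebraMap F K)).comp (Polynomial.C ω * Polynomial.X) =
      G.map (algebraMap _ K) := by
    refine Polynomial.eq_of_degrees_lt_of_eval_index_eq (Finset.range n)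
      (v := fun i => algebraMap _ K (v i)) (fun i hi j hj e => hv hi hj (Subtype.ext e)) ?_
      (Polynomial.degree_map_le.trans_lt (Lagrange.degree_interpolate_lt _ hv)) fun i hi => ?_
    · rw [Polynomial.degree_lt_iff_coeff_zero]
      intro j hj
      rw [Polynomial.comp_C_mul_X_coeff, Polynomial.coeff_map,
        (Polynomial.degree_lt_iff_coeff_zero _ _).1 hf j (by simpa using hj), map_zero, zero_mul]
    · rw [Polynomial.eval_map_algebraMap, Polynomial.aeval_algebraMap_apply,
        Polynomial.coe_aeval_eq_eval, Lagrange.eval_interpolate_at_node _ hv hi]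
      simp [Polynomial.eval_comp, Polynomial.eval_map_algebraMap, v]
  have h4 := congrArg (Polynomial.coeff · m) h3
  simp only [Polynomial.comp_C_mul_X_coeff, Polynomial.coeff_map] at h4
  rw [h4]
  exact mem_algebraicClosure_iff.1 (G.coeff m).2

theorem fieldc_hom {k F K : Type*} [Field k] [Field F] [Field K] (φ : k →+* K) (ψ : F →+* K)
    (h : ∀ a, φ a ∈ ψ.range) : ∃ f : k →+* F, ∀ a, φ a = ψ (f a) := by
  choose f hf using h
  exact ⟨⟨⟨⟨f, ψ.injective (by simp [hf])⟩, fun a b => ψ.injective (by simp [hf])⟩,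
    ψ.injective (by simp [hf]), fun a b => ψ.injective (by simp [hf])⟩, fun a => (hf a).symm⟩

theorem fieldc_perf [PerfectField F] (hcl : ∀ x : F, IsAlgebraic k x → x ∈ (algebraMap k F).range) :
    PerfectField k := by
  have := expChar_of_injective_algebraMap (algebraMap k F).injective (ringExpChar k)
  have : PerfectRing k (ringExpChar k) := PerfectRing.ofSurjective _ _ fun x => by
    obtain ⟨y, hy⟩ := surjective_frobenius F (ringExpChar k) (algebraMap k F x)
    rw [frobenius_def] at hy
    obtain ⟨c, rfl⟩ := hcl y (.of_pow (expChar_pos k (ringExpChar k)) (hy ▸ isAlgebraic_algebraMap x))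
    exact ⟨c, (algebraMap k F).injective (by rw [frobenius_def, map_pow, hy])⟩
  exact PerfectRing.toPerfectField _ (ringExpChar k)

theorem fieldc_ker (C E : Type*) [Field C] [Algebra k C] [Algebra C K] [IsScalarTower k C K]
    [Field E] [Algebra k E] [Algebra E F] [Algebra E K] [IsScalarTower k E K] [IsScalarTower E F K]
    [PerfectField k] [PerfectField F] [Algebra.IsAlgebraic E F] [Finite (Field.Emb E F)]
    {ι : Type*} {y : ι → K} (hy : AlgebraicIndependent C y)
    (h1 : ∀ e : E, algebraMap E K e ∈ IntermediateField.adjoin k (Set.range y))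
    (h2 : ∀ i, y i ∈ (algebraMap E K).range) {ω : K} (hω : IsIntegral F ω)
    (hω' : ω ∈ pc C (Set.range (algebraMap F K)))
    (hcl : ∀ x ∈ F⟮ω⟯, IsIntegral k x → x ∈ (algebraMap k K).range) :
    (minpoly F ω).natDegree ≤ 1 := by
  have := IntermediateField.adjoin.finiteDimensional hω
  have : IsScalarTower E F⟮ω⟯ K := .of_algebraMap_eq fun _ => rfl
  have : Algebra.IsAlgebraic E F⟮ω⟯ := .trans E F _
  have : Finite (Field.Emb E F⟮ω⟯) := .of_equiv _ (Field.embProdEmbOfIsAlgebraic E F F⟮ω⟯)
  obtain ⟨w, hw, hw'⟩ := fieldb_prim E F⟮ω⟯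
  obtain ⟨z, hz, hz'⟩ := fieldb_prim E F
  have a1 := (fieldb_simple hw' hw.isIntegral.isAlgebraic).2
  have a2 := natDegree_le_finSepDegree E F hz
  rw [← Field.finSepDegree_mul_finSepDegree_of_isAlgebraic E F F⟮ω⟯,
    Field.finSepDegree_eq_finrank_of_isSeparable F, IntermediateField.adjoin.finrank hω,
    ← minpoly.algebraMap_eq (algebraMap F⟮ω⟯ K).injective] at a1
  rw [← minpoly.algebraMap_eq (algebraMap F K).injective] at a2
  let N := IntermediateField.adjoin C (Set.range y)
  let ψ : E →+* N := (algebraMap E K).codRestrict _ fun x => fieldc_up (h1 x)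
  let _ := ψ.toAlgebra
  have : IsScalarTower E N K := .of_algebraMap_eq fun _ => rfl
  have b1 : IsSeparable E (algebraMap F⟮ω⟯ K w) :=
    hw.map (IsScalarTower.toAlgHom E F⟮ω⟯ K) (algebraMap F⟮ω⟯ K).injective
  have b2 : IsIntegral E (algebraMap F K z) := hz.isIntegral.algebraMap
  rw [← fieldc_reg C hy h1 h2 b1.isIntegral fun x hx => hcl x
    ((IntermediateField.adjoin_simple_le_iff (K := F⟮ω⟯.restrictScalars E)).2 w.2 hx)] at a1
  have hL : ∀ x : F, algebraMap F K x ∈ pc N {algebraMap F K z} := fun x => by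
    simpa using map_mem_pc (k' := N) (algebraMap F K)
      (fun c => ⟨ψ c, IsScalarTower.algebraMap_apply E F K c⟩) (hz'.ge trivial : x ∈ _)
  have b3 : algebraMap F⟮ω⟯ K w ∈ N⟮algebraMap F K z⟯ := by
    refine mem_of_sep_of_pc ?_ ((b1.tower_top N).tower_top _)
    refine (Subfield.closure_le (t := (pc N _).toSubfield)).2 ?_ w.2
    rintro _ (⟨c, rfl⟩ | rfl)
    exacts [hL c, pc_le_pc (Set.range_subset_iff.2 hL) (fieldb_over N hω')]
  have := IntermediateField.adjoin.finiteDimensional (b2.tower_top (A := N))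
  have b4 := IntermediateField.finrank_le_of_le_right (IntermediateField.adjoin_simple_le_iff.2 b3)
  rw [IntermediateField.adjoin.finrank b1.isIntegral.tower_top,
    IntermediateField.adjoin.finrank b2.tower_top] at b4
  exact Nat.le_of_mul_le_mul_left
    ((a1.trans (b4.trans ((fieldc_deg_le b2).trans a2))).trans_eq (mul_one _).symm) Nat.card_pos

end gen

section acl
variable {k F K : Type*} [Field k] [Field F] [Field K] [Algebra k F] [Algebra F K] [Algebra k K]
  [IsScalarTower k F K] [IsAlgClosed k]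

/-- `k(y)` is algebraically closed in `F(y)`. Write `z = A(y)/B(y)` over `F` and a relation
`∑ c j (y) z ^ j = 0` over `k[y]` (only finitely many variables occur). For `a ∈ k^ι` with
`B(a) ≠ 0` and top coefficient `≠ 0` at `a`, `A(a)/B(a) ∈ F` is algebraic over `k`, so it is in `k`.
Take a `k`-linear `φ : F → k` not killing all coefficients of `B`, apply it coefficientwise:
`A φ(B) - B φ(A)` vanishes at all such `a`, hence is zero (`MvPolynomial.funext` type argument:
a polynomial over `F` vanishing on `k^ι` is zero). -/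
theorem mem_adjoin_of_algClosed {ι : Type*} {y : ι → K} (hy : AlgebraicIndependent F y) {z : K}
    (hz : z ∈ IntermediateField.adjoin F (Set.range y)) (ha : z ∈ ac k (Set.range y)) :
    z ∈ IntermediateField.adjoin k (Set.range y) := fieldc_closed fieldc_alg hy hz ha

theorem mem_pc_of_algClosed {ι : Type*} {y : ι → K} (hy : AlgebraicIndependent F y) {z : K}
    (hz : z ∈ pc F (Set.range y)) (ha : z ∈ ac k (Set.range y)) : z ∈ pc k (Set.range y) :=
  mem_pc.2 ((mem_pc.1 hz).imp fun _ h => mem_adjoin_of_algClosed hy h (pow_mem ha _))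

/-- the coefficients of the minimal polynomial over `F(y)` are algebraic over `k(y)` -/
theorem natDegree_minpoly_of_algClosed {ι : Type*} {y : ι → K} (hy : AlgebraicIndependent F y)
    {z : K} (ha : z ∈ ac k (Set.range y)) :
    (minpoly (IntermediateField.adjoin F (Set.range y)) z).natDegree =
      (minpoly (IntermediateField.adjoin k (Set.range y)) z).natDegree := fieldc_deg' fieldc_alg hy ha

end acl

section reg0
variable {A L C Ω : Type*} [Field A] [Field L] [Algebra A L] [Field C] [Field Ω] [Algebra C Ω]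
  [Algebra L Ω] [Algebra A Ω] [Algebra A C] [IsScalarTower A L Ω] [IsScalarTower A C Ω]

omit [Algebra C Ω] [Algebra A C] [IsScalarTower A C Ω] in
theorem fieldc_h1 {ι : Type*} (y : ι → L) (e : IntermediateField.adjoin A (Set.range y)) :
    algebraMap _ Ω e ∈ IntermediateField.adjoin A (Set.range (algebraMap L Ω ∘ y)) := by
  rw [Set.range_comp]
  exact map_mem_adjoin (algebraMap L Ω) (fun c => ⟨c, IsScalarTower.algebraMap_apply A L Ω c⟩) e.2

theorem fieldc_reg1 [PerfectField A]
    (hcl : ∀ x : L, IsAlgebraic A x → x ∈ (algebraMap A L).range) {ι : Type*} {y : ι → L}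
    (hy : AlgebraicIndependent C (algebraMap L Ω ∘ y)) {z : L} (hz : z ∈ ac A (Set.range y)) :
    (minpoly (IntermediateField.adjoin C (Set.range (algebraMap L Ω ∘ y)))
      (algebraMap L Ω z)).natDegree =
      (minpoly (IntermediateField.adjoin A (Set.range y)) z).natDegree := by
  rw [← minpoly.algebraMap_eq (B' := Ω) (algebraMap L Ω).injective]
  refine fieldc_reg (k := A) C hy (fieldc_h1 y)
    (fun i => ⟨⟨y i, IntermediateField.subset_adjoin A _ ⟨i, rfl⟩⟩, rfl⟩)
    (mem_ac.1 hz).isIntegral.algebraMap fun x hx h => ?_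
  obtain ⟨x, rfl⟩ := (IntermediateField.adjoin_simple_le_iff
      (K := (IsScalarTower.toAlgHom _ L Ω).fieldRange)).2 ⟨z, rfl⟩ hx
  obtain ⟨c, rfl⟩ := hcl x ((isIntegral_algebraMap_iff (algebraMap L Ω).injective).1 h).isAlgebraic
  exact ⟨c, IsScalarTower.algebraMap_apply A L Ω c⟩

theorem fieldc_reg2 {ι : Type*} {y : ι → L} (hy : AlgebraicIndependent C (algebraMap L Ω ∘ y))
    (htop : ac A (Set.range y) = ⊤) {x : L} (hx : algebraMap L Ω x ∈ (algebraMap C Ω).range) :
    IsAlgebraic A x := by
  by_contra h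
  have h1 : AlgebraicIndependent A fun _ : Unit => algebraMap L Ω x := algebraicIndependent_unique_type_iff.2
    fun h' => h ((isAlgebraic_algebraMap_iff (algebraMap L Ω).injective).1 h')
  have h2 := (h1.sumElim_of_tower (Set.range_subset_iff.2 fun _ => hx) hy).transcendental_adjoin
    (s := Set.range Sum.inl) (i := Sum.inr ()) (by simp)
  rw [← Set.range_comp, Sum.elim_comp_inl, Set.range_comp] at h2
  exact h2 (fielda_mem.1 (map_mem_ac (algebraMap L Ω)
    (fun c => ⟨c, IsScalarTower.algebraMap_apply A L Ω c⟩) (htop.ge trivial)))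

theorem fieldc_reg3 {ℓ : ℕ} [Fact ℓ.Prime] [PerfectField L]
    (hcl : ∀ x : L, IsAlgebraic A x → x ∈ (algebraMap A L).range) {ι : Type*} {y : ι → L}
    (hy : AlgebraicIndependent C (algebraMap L Ω ∘ y)) (hPF : PF A L)
    (htop : ac A (Set.range y) = ⊤) {ζ : A} (hζ : IsPrimitiveRoot ζ ℓ) {u : L} (hu : u ≠ 0) {ω : Ω}
    (hω : ω ∈ pc C (Set.range (algebraMap L Ω))) (h : ω ^ ℓ = algebraMap L Ω u) :
    ∃ (a : A) (b : L), a ≠ 0 ∧ u = algebraMap A L a * b ^ ℓ := by
  have hp := (Fact.out : ℓ.Prime)
  by_cases hb : ∃ b : L, b ^ ℓ = u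
  · obtain ⟨b, rfl⟩ := hb
    exact ⟨1, b, one_ne_zero, by simp⟩
  have := fieldc_perf hcl
  have hm := Polynomial.monic_X_pow_sub_C u hp.ne_zero
  have h0 : Polynomial.aeval ω (Polynomial.X ^ ℓ - Polynomial.C u) = 0 := by
    rw [map_sub, map_pow, Polynomial.aeval_X, Polynomial.aeval_C, h]
    exact sub_self _
  have hi : IsIntegral L ω := ⟨_, hm, h0⟩
  have h1 := (minpoly.eq_of_irreducible_of_monic
    (X_pow_sub_C_irreducible_of_prime hp (not_exists.1 hb)) h0 hm).symm
  have : Algebra.IsAlgebraic (IntermediateField.adjoin A (Set.range y)) L :=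
    ⟨fun x => mem_ac.1 (htop.ge trivial)⟩
  have := fieldb_emb hPF (IntermediateField.adjoin A (Set.range y))
  have h2 := mt (fieldc_ker (k := A) C (IntermediateField.adjoin A (Set.range y)) hy (fieldc_h1 y)
    (fun i => ⟨⟨y i, IntermediateField.subset_adjoin A _ ⟨i, rfl⟩⟩, rfl⟩) hi hω) (by
      rw [h1, Polynomial.natDegree_X_pow_sub_C]
      exact hp.one_lt.not_ge)
  push Not at h2
  obtain ⟨x, hx, h3, h4⟩ := h2
  obtain ⟨g, hg, h5⟩ := (IntermediateField.adjoin.powerBasis hi).exists_eq_aeval ⟨x, hx⟩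
  rw [IntermediateField.adjoin.powerBasis_dim, h1, Polynomial.natDegree_X_pow_sub_C] at hg
  obtain rfl : x = Polynomial.aeval ω g :=
    (congrArg Subtype.val h5).trans
    (Polynomial.aeval_algebraMap_apply Ω (IntermediateField.AdjoinSimple.gen L ω) g).symm
  have h6 : g.natDegree ≠ 0 := fun h6 => by
    rw [Polynomial.eq_C_of_natDegree_eq_zero h6, Polynomial.aeval_C] at h3 h4
    obtain ⟨c, hc⟩ := hcl _ ((isIntegral_algebraMap_iff (algebraMap L Ω).injective).1 h3).isAlgebraic
    exact h4 ⟨c, hc ▸ IsScalarTower.algebraMap_apply A L Ω c⟩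
  have h7 : g.coeff g.natDegree ≠ 0 :=
    Polynomial.leadingCoeff_ne_zero.2 fun h => h6 (by rw [h, Polynomial.natDegree_zero])
  have h8 := (fieldc_res hζ h1 (Polynomial.degree_le_natDegree.trans_lt (by exact_mod_cast hg))
    h3.isAlgebraic g.natDegree).pow ℓ
  rw [mul_pow, ← pow_mul, mul_comm _ ℓ, pow_mul, h, ← map_pow, ← map_pow,
    ← map_mul, isAlgebraic_algebraMap_iff (algebraMap L Ω).injective] at h8
  obtain ⟨a, ha⟩ := hcl _ h8
  obtain ⟨m, -, h9⟩ := Nat.exists_mul_mod_eq_one_of_coprime
    (Nat.coprime_of_lt_prime h6 hg hp).symm hp.one_lt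
  have h10 := Nat.div_add_mod (g.natDegree * m) ℓ
  rw [h9] at h10
  generalize g.natDegree * m / ℓ = t at h10
  refine ⟨a ^ m, (g.coeff g.natDegree ^ m * u ^ t)⁻¹,
    pow_ne_zero _ fun e => ?_, ?_⟩
  · rw [e, map_zero] at ha
    exact mul_ne_zero (pow_ne_zero _ h7) (pow_ne_zero _ hu) ha.symm
  · rw [map_pow, ha, mul_pow, ← pow_mul u, ← h10, inv_pow, eq_mul_inv_iff_mul_eq₀
      (pow_ne_zero _ (mul_ne_zero (pow_ne_zero _ h7) (pow_ne_zero _ hu)))]
    ring

end reg0

section reg
variable {A L C Ω : Type*} [Field A] [Field L] [Algebra A L] [Field C] [Field Ω] [Algebra C Ω]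
  [IsAlgClosed C]

/-- Regularity. Let `A'` be the algebraic closure of `A` in `C`. The coefficients of the minimal
polynomial of `j z` over `C(y)` lie in `A'(y)` (`mem_adjoin_of_algClosed`), so in `A(a)(y)` for one
`a` (`A` is perfect). The minimal polynomial of `a` over `j L` has coefficients algebraic over `A`,
so in `A`; hence `[A(y,z,a) : A(y,z)] = [A(a) : A] = [A(y,a) : A(y)]`; compare the two towers. -/
theorem natDegree_minpoly_reg [PerfectField A] (j : L →+* Ω)
    (hA : ∀ a : A, j (algebraMap A L a) ∈ (algebraMap C Ω).range)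
    (hcl : ∀ x : L, IsAlgebraic A x → x ∈ (algebraMap A L).range) {ι : Type*} {y : ι → L}
    (hy : AlgebraicIndependent C (j ∘ y)) {z : L} (hz : z ∈ ac A (Set.range y)) :
    (minpoly (IntermediateField.adjoin C (Set.range (j ∘ y))) (j z)).natDegree =
      (minpoly (IntermediateField.adjoin A (Set.range y)) z).natDegree := by
  let _ : Algebra L Ω := j.toAlgebra
  let _ : Algebra A Ω := (j.comp (algebraMap A L)).toAlgebra
  have : IsScalarTower A L Ω := .of_algebraMap_eq fun _ => rfl
  obtain ⟨f, hf⟩ := fieldc_hom (algebraMap A Ω) (algebraMap C Ω) hA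
  let _ := f.toAlgebra
  have : IsScalarTower A C Ω := .of_algebraMap_eq hf
  exact fieldc_reg1 hcl hy hz

theorem mem_range_of_mem_C (j : L →+* Ω)
    (hA : ∀ a : A, j (algebraMap A L a) ∈ (algebraMap C Ω).range) {ι : Type*} {y : ι → L}
    (hy : AlgebraicIndependent C (j ∘ y)) (htop : ac A (Set.range y) = ⊤) {x : L}
    (hx : j x ∈ (algebraMap C Ω).range) : IsAlgebraic A x := by
  let _ : Algebra L Ω := j.toAlgebra
  let _ : Algebra A Ω := (j.comp (algebraMap A L)).toAlgebra
  have : IsScalarTower A L Ω := .of_algebraMap_eq fun _ => rfl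
  obtain ⟨f, hf⟩ := fieldc_hom (algebraMap A Ω) (algebraMap C Ω) hA
  let _ := f.toAlgebra
  have : IsScalarTower A C Ω := .of_algebraMap_eq hf
  exact fieldc_reg2 hy htop hx

/-- Kernel lemma. Suppose `u` is not an `ℓ`-th power, `M = L(ω)` is cyclic of degree `ℓ`,
`τ ω = ζ ω`. If `A` is algebraically closed in `M`, a primitive element of `M` over `pc A y`, made
separable over `A(y)`, has degree `n ℓ` over `C(y)` (`natDegree_minpoly_reg`) but lies in
`C(y, z)`, of degree `n`. So some `a ∈ M \ L` is algebraic over `A`; a Lagrange resolvent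
`∑ ζ^(-i m) τ^i a` with `m ≠ 0` is nonzero, equals `b ω ^ m`, and its `ℓ`-th power is in `A`. -/
theorem ker_lemma {ℓ : ℕ} [Fact ℓ.Prime] [PerfectField L] (j : L →+* Ω)
    (hA : ∀ a : A, j (algebraMap A L a) ∈ (algebraMap C Ω).range)
    (hcl : ∀ x : L, IsAlgebraic A x → x ∈ (algebraMap A L).range) {ι : Type*} {y : ι → L}
    (hy : AlgebraicIndependent C (j ∘ y)) (hPF : PF A L) (htop : ac A (Set.range y) = ⊤)
    {ζ : A} (hζ : IsPrimitiveRoot ζ ℓ) {u : L} (hu : u ≠ 0) {ω : Ω}
    (hω : ω ∈ pc C (Set.range j)) (h : ω ^ ℓ = j u) :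
    ∃ (a : A) (b : L), a ≠ 0 ∧ u = algebraMap A L a * b ^ ℓ := by
  let _ : Algebra L Ω := j.toAlgebra
  let _ : Algebra A Ω := (j.comp (algebraMap A L)).toAlgebra
  have : IsScalarTower A L Ω := .of_algebraMap_eq fun _ => rfl
  obtain ⟨f, hf⟩ := fieldc_hom (algebraMap A Ω) (algebraMap C Ω) hA
  let _ := f.toAlgebra
  have : IsScalarTower A C Ω := .of_algebraMap_eq hf
  exact fieldc_reg3 hcl hy hPF htop hζ hu hω h

end reg

end Vale.Agent.P019
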