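import Vale.Agent.P019.BDaA
import Vale.Agent.P019.FieldC

open scoped IntermediateField

namespace Vale.Agent.P019

variable {κ G : Type*} [Field κ] [Field G] [Algebra κ G]

theorem bda_curve (h : PFC κ G) {g x : G} (hg : Transcendental κ g) (hx : IsSeparable κ⟮g⟯ x) :
    (minpoly κ⟮g⟯ x).natDegree ≤ sdeg κ g := by
  have := isAlgebraic_of_trdeg_one h.2.le hg
  have := h.finite_emb hg
  exact natDegree_le_finSepDegree _ _ hx

theorem bda_prim0 (M : Type*) [Field M] [Algebra κ M] [Algebra M G] [IsScalarTower κ M G]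
    (hG : PF κ G) {ι : Type*} {y : ι → G} (hy : AlgebraicIndependent κ y) {z : G}
    (htop : pc κ (insert z (Set.range y)) = ⊤) {D : ℕ} (hz : Small κ y D z)
    (hm : ∀ m, y m ∈ (algebraMap M G).range) {a : G} (ha : IsSeparable M a) :
    (minpoly M a).natDegree ≤ D := by
  choose y' hy' using hm
  obtain ⟨h4, h5⟩ := fieldb_small M hy y' hy' hz
  have h8 : pc M {z} = ⊤ := by
    refine top_le_iff.1 fun x _ => pc_le_pc (S := insert z (Set.range y)) ?_
      (fieldb_over M (k := κ) (by rw [htop]; trivial))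
    rintro _ (rfl | ⟨m, rfl⟩)
    · exact self_mem_pc _
    · exact hy' m ▸ (pc M {z}).algebraMap_mem _
  obtain ⟨h6, h7⟩ := fieldb_simple h8 h4
  have := hG.finite_emb M
  exact (natDegree_le_finSepDegree M G ha).trans (h7.trans h5)

theorem bda_prim1 (F : Type*) [Field F] [Algebra F G] (hG : PF F G) :
    ∃ a : G, IsSeparable F a ∧ ∀ x, IsAlgebraic F x → x ∈ pc F {a} := by
  have := fieldb_sub F (algebraicClosure F G) hG
  obtain ⟨a, h1, h2⟩ := fieldb_prim F (algebraicClosure F G)
  refine ⟨a, h1.map (algebraicClosure F G).val Subtype.val_injective, fun x hx => ?_⟩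
  have h3 : (⟨x, mem_algebraicClosure_iff.2 hx⟩ : algebraicClosure F G) ∈ pc F {a} := by
    rw [h2]; trivial
  have h4 := map_mem_pc (k' := F) (algebraMap (algebraicClosure F G) G) (fun c => ⟨c, rfl⟩) h3
  rwa [Set.image_singleton] at h4

theorem bda_prim (F : Type*) [Field F] [Algebra κ F] [Algebra F G] [IsScalarTower κ F G]
    (hG : PF κ G) {ι : Type*} {y : ι → G} (hy : AlgebraicIndependent κ y) {z : G}
    (htop : pc κ (insert z (Set.range y)) = ⊤) {D : ℕ} (hz : Small κ y D z) (i : ι)
    (hF : ∀ m, m ≠ i → y m ∈ (algebraMap F G).range) (ht : Transcendental F (y i)) :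
    ∃ a : G, IsSeparable F a ∧ (minpoly F a).natDegree ≤ D ∧
      ∀ x, IsAlgebraic F x → x ∈ pc F {a} := by
  obtain ⟨a, h3, h4⟩ := bda_prim1 F (hG.over F)
  refine ⟨a, h3, ?_, h4⟩
  have hm : ∀ m, y m ∈ IntermediateField.adjoin F (Set.range fun _ : Unit => y i) := fun m => by
    by_cases hm : m = i
    · exact IntermediateField.subset_adjoin _ _ ⟨(), by rw [hm]⟩
    · obtain ⟨c, hc⟩ := hF m hm
      exact hc ▸ IntermediateField.algebraMap_mem _ c
  refine (fieldb_deg (B := fun _ : Unit => y i) (algebraicIndependent_unique_type_iff.2 ht)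
    h3.isIntegral).trans ?_
  generalize IntermediateField.adjoin F (Set.range fun _ : Unit => y i) = M at hm
  have : IsScalarTower κ M G := .of_algebraMap_eq fun _ => rfl
  exact bda_prim0 M hG hy htop hz (fun m => ⟨⟨y m, hm m⟩, rfl⟩) (h3.tower_top M)

theorem bda_fin {F E A : Type*} [Field F] [Field E] [Field A] [Algebra F G] [Algebra E G]
    [Algebra A G] {a g x : G} (ha : IsSeparable F a)
    (hF : ∀ c : F, algebraMap F G c ∈ (algebraMap E G).range)
    (hA : ∀ c : A, algebraMap A G c ∈ pc F {a}) (hg : g ∈ (algebraMap E G).range)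
    (hs : IsSeparable E x)
    (hx : IsIntegral (IntermediateField.adjoin A (Set.range fun _ : Unit => g)) x) :
    (minpoly E x).natDegree ≤ (minpoly F a).natDegree *
      (minpoly (IntermediateField.adjoin A (Set.range fun _ : Unit => g)) x).natDegree := by
  have hE : ∀ t ∈ (algebraMap E G).range, t ∈ (algebraMap E⟮a⟯ G).range := by
    rintro _ ⟨c, rfl⟩
    exact ⟨algebraMap E _ c, rfl⟩
  refine (bda_tower (bda_sep (RingHom.id G) hF ha).isIntegral hs.isIntegral).trans
    (Nat.mul_le_mul (bda_lift ha.isIntegral hF) (bda_pi hx (hs.tower_top _) fun c => ?_))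
  obtain ⟨t, ht⟩ := bda_range (k' := perfectClosure E⟮a⟯ G) (fun c => by
    obtain ⟨n, hn⟩ := mem_pc.1 (hA c)
    refine ⟨⟨_, mem_perfectClosure_iff.2 ⟨n, ?_⟩⟩, rfl⟩
    rw [← fielda_exp (algebraMap E⟮a⟯ G)]
    refine bda_range (fun c => hE _ (hF c)) ?_ hn
    rintro _ rfl
    exact ⟨IntermediateField.AdjoinSimple.gen E _, rfl⟩) (by
    rintro _ ⟨_, rfl⟩
    obtain ⟨t, ht⟩ := hE g hg
    exact ⟨algebraMap _ _ t, ht⟩) c.2
  exact (show (t : G) = algebraMap _ G c from ht) ▸ t.2

theorem bda_core {A C N : Type*} [Field A] [Algebra A G] [Field C] [Field N] [Algebra C N]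
    [IsAlgClosed C] [PerfectField A] (φ : G →+* N) (h : PFC C N)
    (hA : ∀ a : A, φ (algebraMap A G a) ∈ (algebraMap C N).range)
    (hcl : ∀ x : G, IsAlgebraic A x → x ∈ (algebraMap A G).range) {g x : G}
    (hg : Transcendental C (φ g))
    (hs : IsSeparable (IntermediateField.adjoin A (Set.range fun _ : Unit => g)) x) :
    (minpoly (IntermediateField.adjoin A (Set.range fun _ : Unit => g)) x).natDegree ≤
      sdeg C (φ g) := by
  have hreg := natDegree_minpoly_reg φ hA hcl (y := fun _ : Unit => g)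
    (algebraicIndependent_unique_type_iff.2 hg) (mem_ac.2 hs.isIntegral.isAlgebraic)
  rw [show Set.range (φ ∘ fun _ : Unit => g) = {φ g} from Set.range_const] at hreg
  refine hreg.ge.trans (bda_curve h hg (bda_sep φ (fun c => ?_) hs))
  have h1 := map_mem_adjoin φ hA c.2
  rw [show φ '' (Set.range fun _ : Unit => g) = {φ g} by simp] at h1
  exact ⟨⟨_, h1⟩, rfl⟩

theorem bda_small {C N : Type*} [Field C] [Field N] [Algebra κ C] [Algebra C N] (φ : G →+* N)
    (hφ : ∀ c, φ (algebraMap κ G c) = algebraMap C N (algebraMap κ C c)) {ι : Type*} {y : ι → G}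
    (hy : AlgebraicIndependent κ y) (i : ι)
    (hc : ∀ m : {m // m ≠ i}, φ (y m) ∈ (algebraMap C N).range) {D : ℕ} {u : G}
    (h : Small κ y D u) : Small C (fun _ : Unit => φ (y i)) D (φ u) := by
  classical
  obtain ⟨P, h0, hD, hP⟩ := h
  choose c hc using hc
  have hi : AlgebraicIndependent κ c := by
    have e : (algebraMap C N).comp (MvPolynomial.aeval c : _ →ₐ[κ] C).toRingHom =
        φ.comp (MvPolynomial.aeval (y ∘ Subtype.val) : _ →ₐ[κ] G).toRingHom :=
      MvPolynomial.ringHom_ext (fun a => by simp [hφ]) fun m => by simp [hc]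
    refine Function.Injective.of_comp (f := algebraMap C N) ?_
    have := φ.injective.comp (hy.comp (Subtype.val : {m // m ≠ i} → ι) Subtype.val_injective)
    exact (congrArg (fun f : _ →+* N => Function.Injective f) e).mpr this
  let f : Option ι → Option Unit ⊕ {m // m ≠ i} := fun o =>
    o.elim (Sum.inl none) fun m => if h : m = i then Sum.inl (some ()) else Sum.inr ⟨m, h⟩
  have hf : Function.Injective f := by
    rintro (_ | a) (_ | b) h
    · rfl
    · by_cases hb : b = i <;> simp [f, hb] at h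
    · by_cases ha : a = i <;> simp [f, ha] at h
    · by_cases ha : a = i <;> by_cases hb : b = i <;> simp_all [f]
  have hF := (hi.sumElim_comp (MvPolynomial.algebraicIndependent_X (Option Unit) C)).comp f hf
  refine ⟨_, fun h1 => h0 (hF (h1.trans (map_zero _).symm)), (bda_total (fun o => ?_) P).trans hD,
    ?_⟩
  · rw [Function.comp]
    rcases f o with a | a
    · exact (MvPolynomial.totalDegree_X a).le
    · exact (MvPolynomial.totalDegree_C _).le.trans zero_le_one
  · have e1 := congrArg φ hP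
    rw [map_zero] at e1
    rw [← e1]
    refine RingHom.congr_fun (MvPolynomial.ringHom_ext (fun a => ?_) fun o => ?_ :
      (MvPolynomial.aeval _ : _ →ₐ[C] N).toRingHom.comp
        (MvPolynomial.aeval _ : _ →ₐ[κ] MvPolynomial (Option Unit) C).toRingHom =
      φ.comp (MvPolynomial.aeval _ : _ →ₐ[κ] G).toRingHom) P
    · simp [hφ]
    · rcases o with _ | m
      · simp [f]
      · by_cases hm : m = i <;> simp [f, hm, hc]

theorem bda_nice {ℓ : ℕ} [Fact ℓ.Prime] {C N : Type*} [Field C] [Field N] [Algebra κ C]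
    [Algebra C N] (φ : G →+* N)
    (hφ : ∀ c, φ (algebraMap κ G c) = algebraMap C N (algebraMap κ C c)) {ι : Type*} {y : ι → G}
    (hy : AlgebraicIndependent κ y) (i : ι)
    (hc : ∀ m : {m // m ≠ i}, φ (y m) ∈ (algebraMap C N).range) {D : ℕ} {g : G}
    (h : Nice ℓ κ y D g) : Nice ℓ C (fun _ : Unit => φ (y i)) D (φ g) := by
  obtain ⟨a, ha, hn⟩ := h
  refine ⟨fun j => algebraMap κ C (a j), (algebraMap κ C).injective.comp ha, fun j => ?_⟩
  obtain ⟨u, c, hu, h1, h2⟩ := hn j
  refine ⟨_, c, (map_ne_zero φ).2 hu, bda_small φ hφ hy i hc h1, ?_⟩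
  rw [← hφ, ← map_sub, ← Vmap_cl, h2, map_smul, Vmap_cl]

end Vale.Agent.P019
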