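import Vale.Agent.P019.CurveB

open scoped IntermediateField

namespace Vale.Agent.P019

variable {κ G : Type*} [Field κ] [Field G] [Algebra κ G] [IsAlgClosed κ]

omit [IsAlgClosed κ] in
theorem curvep_prime (G : Type*) [Field G] : ringExpChar G = 1 ∨ (ringExpChar G).Prime :=
  (expChar_is_prime_or_one G (ringExpChar G)).symm

theorem curvep_root (c : κ) (n : ℕ) :
    ∃ x : G, x ^ ringExpChar G ^ n = algebraMap κ G c := by
  obtain ⟨y, hy⟩ := IsAlgClosed.exists_pow_nat_eq c (fielda_pos (K := G) n)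
  exact ⟨algebraMap κ G y, by rw [← map_pow, hy]⟩

theorem curvep_deg [IsCurve κ G] :
    Module.finrank (frobenius G (ringExpChar G)).fieldRange G = ringExpChar G := by
  obtain ⟨t, ht, hfin⟩ := IsCurve.ex (κ := κ) (G := G)
  have hq := expChar_pos G (ringExpChar G)
  have e : κ⟮t⟯.toSubfield.map (frobenius G (ringExpChar G)) = κ⟮t ^ ringExpChar G⟯.toSubfield := by
    refine le_antisymm ?_ (Subfield.closure_le.2 ?_)
    · rintro _ ⟨x, hx, rfl⟩
      have := map_mem_adjoin (k' := κ) (frobenius G (ringExpChar G))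
        (fun c => ⟨c ^ ringExpChar G, map_pow _ _ _⟩) hx
      rwa [Set.image_singleton] at this
    · rintro _ (⟨c, rfl⟩ | rfl)
      · obtain ⟨y, hy⟩ := IsAlgClosed.exists_pow_nat_eq c hq
        exact ⟨_, κ⟮t⟯.algebraMap_mem y, by rw [frobenius_def, ← map_pow, hy]⟩
      · exact ⟨t, IntermediateField.mem_adjoin_simple_self κ t, rfl⟩
  have h1 := Subfield.relfinrank_map_map κ⟮t⟯.toSubfield ⊤ (frobenius G (ringExpChar G))
  have h2 := Subfield.relfinrank_mul_finrank_top ((Subfield.gc_map_comap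
    (frobenius G (ringExpChar G))).monotone_l (le_top (a := κ⟮t⟯.toSubfield)))
  rw [h1, Subfield.relfinrank_top_right, e, ← RingHom.fieldRange_eq_map] at h2
  exact Nat.eq_of_mul_eq_mul_left (Module.finrank_pos (R := κ⟮t⟯) (M := G))
    (h2.trans ((finrank_pow ht hq).trans (mul_comm _ _)))

variable (κ) in
theorem curvep_max [IsCurve κ G] (T : Subfield G) (h : ∀ x : G, x ^ ringExpChar G ∈ T) :
    (∀ y ∈ T, ∃ x : G, x ^ ringExpChar G = y) ∨ ∀ x, x ∈ T := by
  rcases curvep_prime G with h1 | h1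
  · exact Or.inr fun x => by simpa [h1] using h x
  have h2 := Subfield.relfinrank_mul_finrank_top (A := (frobenius G (ringExpChar G)).fieldRange)
    (B := T) (by rintro _ ⟨x, rfl⟩; exact h x)
  rw [curvep_deg (κ := κ)] at h2
  rcases h1.eq_one_or_self_of_dvd _ (Dvd.intro _ h2) with h3 | h3
  · exact Or.inl (Subfield.relfinrank_eq_one_iff.1 h3)
  · rw [h3, mul_eq_left₀ h1.ne_zero, ← Subfield.relfinrank_top_right] at h2
    exact Or.inr fun x => Subfield.relfinrank_eq_one_iff.1 h2 trivial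

variable (κ) in
theorem curvep_down [IsCurve κ G] (T : Subfield G) {f : G} (hf : f ∈ T)
    (hf' : ∀ x : G, x ^ ringExpChar G ≠ f) (n : ℕ) (h : ∀ x : G, x ^ ringExpChar G ^ n ∈ T) :
    ∀ x, x ∈ T := by
  induction n with
  | zero => simpa using h
  | succ n ih =>
    refine ih ((curvep_max κ (T.comap (iterateFrobenius G (ringExpChar G) n)) fun x => ?_).resolve_left
      fun H => (H f (pow_mem hf _)).elim hf')
    rw [Subfield.mem_comap, iterateFrobenius_def, ← pow_mul, ← pow_succ']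
    exact h x

variable (κ) in
theorem curvep_chain [IsCurve κ G] (n : ℕ) : ∀ T : Subfield G,
    (∀ x : G, x ^ ringExpChar G ^ n ∈ T) → ∃ j, ∀ y, y ∈ T ↔ ∃ x : G, x ^ ringExpChar G ^ j = y := by
  induction n with
  | zero => exact fun T h => ⟨0, by simpa using h⟩
  | succ n ih =>
    intro T h
    by_cases H : ∀ y ∈ T, ∃ x : G, x ^ ringExpChar G = y
    · obtain ⟨j, hj⟩ := ih (T.comap (frobenius G (ringExpChar G))) fun x => by
        rw [Subfield.mem_comap, frobenius_def, ← pow_mul, ← pow_succ]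
        exact h x
      refine ⟨j + 1, fun y => ⟨fun hy => ?_, ?_⟩⟩
      · obtain ⟨x, rfl⟩ := H y hy
        obtain ⟨z, rfl⟩ := (hj x).1 hy
        exact ⟨z, by rw [pow_succ, pow_mul]⟩
      · rintro ⟨x, rfl⟩
        rw [pow_succ, pow_mul]
        exact (hj _).2 ⟨x, rfl⟩
    · push Not at H
      obtain ⟨f, hf, hf'⟩ := H
      exact ⟨0, by simpa using curvep_down κ T hf hf' _ h⟩

omit [IsAlgClosed κ] in
theorem curvep_bdd [IsCurve κ G] {K : Type*} [Field K] (φ : G →+* K) (T : Subfield K)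
    (hκ : ∀ c : κ, φ (algebraMap κ G c) ∈ T) (h : ∀ x : G, ∃ n, φ x ^ ringExpChar K ^ n ∈ T) :
    ∃ n, ∀ x : G, φ x ^ ringExpChar K ^ n ∈ T := by
  classical
  obtain ⟨t, -, hfin⟩ := IsCurve.ex (κ := κ) (G := G)
  obtain ⟨S, hS⟩ := IntermediateField.fg_top κ⟮t⟯ G
  choose n hn using h
  refine ⟨(insert t S).sup n, fun x => ?_⟩
  have hx : x ∈ IntermediateField.adjoin κ ({t} ∪ (S : Set G)) := by
    rw [← IntermediateField.adjoin_adjoin_left, hS]
    trivial
  refine (Subfield.closure_le (t := (T.comap (iterateFrobenius K (ringExpChar K) _)).comap φ)).2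
    ?_ hx
  rintro y (⟨c, rfl⟩ | hy)
  · exact pow_mem (hκ c) _
  · obtain ⟨m, hm⟩ := Nat.exists_eq_add_of_le (Finset.le_sup (f := n) (s := insert t S) (b := y)
      (by simpa using hy))
    show φ y ^ _ ^ _ ∈ T
    rw [hm, pow_add, pow_mul]
    exact pow_mem (hn y) _

/-- Take a separating `t` (`exists_isTranscendenceBasis_and_isSeparable_of_perfectField`). In
characteristic `p`, `[G : G^p] = p` (`[G : κ(t)] = [G^p : κ(t^p)]`, `[κ(t) : κ(t^p)] = p`). If
`f ∉ G^p` then `G = G^p(f)`, hence `G = G^{p^n}(f)` for all `n`, which forces `G / κ(f)` to be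
separable. -/
theorem sep_of_Nrm [IsCurve κ G] {f : G} (hf : Transcendental κ f) (h : Nrm (⊤ : IntermediateField κ G) f) :
    Algebra.IsSeparable κ⟮f⟯ G := by
  have := IsCurve.finite hf
  rcases curvep_prime G with h1 | h1
  · have : ExpChar G 1 := h1 ▸ inferInstance
    have : CharZero G := charZero_of_expChar_one' G
    infer_instance
  refine (separableClosure.eq_top_iff _ _).1 (eq_top_iff.2 fun x _ => ?_)
  obtain ⟨n, hn⟩ := curvep_bdd (κ := κ) (RingHom.id G) (separableClosure κ⟮f⟯ G).toSubfield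
    (fun c => (separableClosure κ⟮f⟯ G).algebraMap_mem (algebraMap κ _ c)) fun x =>
      (IsPurelyInseparable.pow_mem (separableClosure κ⟮f⟯ G) (ringExpChar G) x).imp
        fun _ ⟨y, hy⟩ => hy ▸ y.2
  exact curvep_down κ _ ((separableClosure κ⟮f⟯ G).algebraMap_mem
    (IntermediateField.AdjoinSimple.gen κ f)) (fun x => h.2.resolve_left h1.one_lt.ne' x trivial) n hn x

/-- `finrank_pow` bounds the exponent -/
theorem exists_Nrm_root [IsCurve κ G] {f : G} (hf : Transcendental κ f) :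
    ∃ (n : ℕ) (f₀ : G), f = f₀ ^ ringExpChar G ^ n ∧ Transcendental κ f₀ ∧
      Nrm (⊤ : IntermediateField κ G) f₀ := by
  induction hn : Module.finrank κ⟮f⟯ G using Nat.strong_induction_on generalizing f with
  | _ N ih =>
    by_cases h : Nrm (⊤ : IntermediateField κ G) f
    · exact ⟨0, f, by simp, hf, h⟩
    simp only [Nrm, IntermediateField.mem_top, true_and, not_or, not_forall, not_not] at h
    obtain ⟨h1, g, -, rfl⟩ := h
    have hq := expChar_pos G (ringExpChar G)
    have hg : Transcendental κ g := fun h => hf (h.pow _)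
    have := IsCurve.finite hg
    have h2 : 0 < Module.finrank κ⟮g⟯ G := Module.finrank_pos
    obtain ⟨n, f₀, rfl, h3⟩ := ih _ (by
      rw [← hn, finrank_pow hg hq]
      exact lt_mul_left h2 (by omega)) hg rfl
    exact ⟨n + 1, f₀, by rw [pow_succ, pow_mul], h3⟩

theorem PFC.exists_model (h : PFC κ G) (S : Finset G) :
    ∃ A : IntermediateField κ G, IsCurve κ A ∧ pc κ (A : Set G) = ⊤ ∧ (S : Set G) ⊆ A := by
  classical
  obtain ⟨T, hT⟩ := h.1
  obtain ⟨y, hy⟩ := exists_indep (k := κ) (K := G) (d := 1) (by simp [h.2])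
  refine ⟨_, isCurve_adjoin (insert (y 0) (T ∪ S)) h.2.le (Finset.mem_insert_self _ _)
    (hy.transcendental 0), eq_top_iff.2 (hT ▸ pc_le_pc fun x hx => subset_pc _ ?_), fun x hx => ?_⟩ <;>
  exact IntermediateField.subset_adjoin _ _ (by simp [Finset.mem_coe.1 hx])

/-- Both models lie in a model `A₁`; the fields between `A₁` and `A₁^{p^N}` are the `A₁^{p^j}`. -/
theorem models_eq {A B : IntermediateField κ G} [IsCurve κ A] [IsCurve κ B]
    (hA : pc κ (A : Set G) = ⊤) (hB : pc κ (B : Set G) = ⊤) [PerfectField G] :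
    ∃ i j : ℕ, ∀ x : G, x ^ ringExpChar G ^ i ∈ A ↔ x ^ ringExpChar G ^ j ∈ B := by
  have key : ∀ (A B : IntermediateField κ G) [IsCurve κ B], pc κ (A : Set G) = ⊤ →
      ∃ n, ∀ x ∈ B, x ^ ringExpChar G ^ n ∈ A := fun A B _ hA =>
    (curvep_bdd (κ := κ) (algebraMap B G) A.toSubfield (fun c => A.algebraMap_mem c) fun x => by
      simpa using mem_pc.1 (hA.ge trivial : (x : G) ∈ _)).imp fun _ h x hx => h ⟨x, hx⟩
  obtain ⟨N, hN⟩ := key A B hA
  obtain ⟨M, hM⟩ := key B A hB
  have e := fielda_exp (algebraMap A G)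
  obtain ⟨j, hj⟩ := curvep_chain κ (M + N) ((B.toSubfield.map
    (iterateFrobenius G (ringExpChar G) N)).comap (algebraMap A G)) fun x =>
      ⟨_, hM x x.2, by rw [iterateFrobenius_def, map_pow, ← e, pow_add, pow_mul]; rfl⟩
  have inj := fun n => (iterateFrobenius G (ringExpChar G) n).injective
  rw [← e] at hj
  refine ⟨N, j, fun x => ⟨fun hx => ?_, fun hx => ?_⟩⟩
  · obtain ⟨b, hb, h⟩ := (hj _).2 ⟨⟨_, hx⟩, rfl⟩
    rwa [← inj N (h.trans (pow_right_comm x _ _))]
  · obtain ⟨a, ha⟩ := (hj ⟨_, hN _ hx⟩).1 ⟨_, hx, rfl⟩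
    rw [← inj j ((congrArg Subtype.val ha).trans (pow_right_comm x _ _))]
    exact a.2

theorem model_exp_unique {A : IntermediateField κ G} [IsCurve κ A] [PerfectField G] {i j : ℕ}
    (h : ∀ x : G, x ^ ringExpChar G ^ i ∈ A ↔ x ^ ringExpChar G ^ j ∈ A) :
    ringExpChar G = 1 ∨ i = j := by
  refine or_iff_not_imp_left.2 fun h1 => ?_
  obtain ⟨t, ht, -⟩ := IsCurve.ex (κ := κ) (G := A)
  obtain ⟨-, f, -, -, -, hf⟩ := exists_Nrm_root ht
  rw [← fielda_exp (algebraMap A G)] at hf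
  have key : ∀ i j : ℕ, (∀ x : G, x ^ ringExpChar G ^ j ∈ A → x ^ ringExpChar G ^ i ∈ A) →
      j ≤ i := fun i j h => not_lt.1 fun hij => by
    obtain ⟨m, rfl⟩ := Nat.exists_eq_add_of_lt hij
    obtain ⟨x, hx⟩ := (iterateFrobeniusEquiv G (ringExpChar G) (i + m + 1)).surjective f
    rw [iterateFrobeniusEquiv_def] at hx
    refine hf.resolve_left h1 (⟨_, h x (hx ▸ f.2)⟩ ^ ringExpChar G ^ m) trivial 
      (Subtype.ext (Eq.trans ?_ hx))
    show ((x ^ _) ^ _) ^ _ = _
    rw [pow_succ _ (i + m), pow_add, pow_mul, pow_mul]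
  exact le_antisymm (key j i fun x => (h x).1) (key i j fun x => (h x).2)

omit [IsAlgClosed κ] in
theorem curvep_small {K : Type*} [Field K] [Algebra κ K] (φ : G →+* K) (σ : κ →+* κ)
    (h : φ.comp (algebraMap κ G) = (algebraMap κ K).comp σ) {x y : G} {D : ℕ}
    (hs : Small κ (fun _ : Unit => x) D y) : Small κ (fun _ : Unit => φ x) D (φ y) := by
  obtain ⟨P, P0, P1, P2⟩ := hs
  refine ⟨MvPolynomial.map σ P, fun h => P0 (MvPolynomial.map_injective σ σ.injective
    (h.trans (map_zero _).symm)), (Finset.sup_mono (MvPolynomial.support_map_subset _ _)).trans P1, ?_⟩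
  rw [MvPolynomial.aeval_def, MvPolynomial.eval₂_map, ← h, ← map_zero φ, ← P2,
    MvPolynomial.aeval_def, MvPolynomial.eval₂_comp_left]
  congr
  funext o
  cases o <;> rfl

theorem curvep_sdeg [IsCurve κ G] {f : G} (hf : Transcendental κ f)
    (h : Nrm (⊤ : IntermediateField κ G) f) (n : ℕ) :
    sdeg κ (f ^ ringExpChar G ^ n) = Module.finrank κ⟮f⟯ G := by
  have := IsCurve.finite hf
  have := sep_of_Nrm hf h
  rw [sdeg_pow (IsCurve.trdeg (κ := κ)).le hf, sdeg_eq_finrank]

theorem curvep_key [IsCurve κ G] {x y : G} {B c m : ℕ} (hx : Transcendental κ x)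
    (hy : Transcendental κ y) (hy' : Nrm (⊤ : IntermediateField κ G) y)
    (hxB : Module.finrank κ⟮x⟯ G ≤ B) (hyB : Module.finrank κ⟮y⟯ G ≤ B)
    (h : Transcendental κ ((x ^ ringExpChar G ^ c + y) ^ ringExpChar G ^ m) →
      sdeg κ ((x ^ ringExpChar G ^ c + y) ^ ringExpChar G ^ m) ≤ B) :
    Module.finrank κ⟮x ^ ringExpChar G ^ c⟯ G ≤ 2 * B := by
  rcases c with _ | c
  · rw [pow_zero, pow_one]; omega
  rcases hy'.2 with h1 | h1
  · rw [h1, one_pow, pow_one]; omega
  have h2 : ∀ z : G, z ^ ringExpChar G ≠ x ^ ringExpChar G ^ (c + 1) + y := fun z hz =>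
    h1 (z - x ^ ringExpChar G ^ c) trivial (by
      rw [sub_pow_expChar, hz, ← pow_mul, ← pow_succ, add_sub_cancel_left])
  have h3 : Transcendental κ (x ^ ringExpChar G ^ (c + 1) + y) := transcendental_iff.2
    fun ⟨a, ha⟩ => (curvep_root (G := G) a 1).elim fun z hz => h2 z (by rw [← ha, ← hz, pow_one])
  have h4 := h (h3.pow (fielda_pos m))
  rw [curvep_sdeg h3 ⟨trivial, Or.inr fun z _ => h2 z⟩] at h4
  have h5 := finrank_add_le h3 (g := -y) (fun h => hy (by simpa using h.neg))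
    (by simpa using hx.pow (fielda_pos (c + 1)))
  rw [add_neg_cancel_right, show κ⟮-y⟯ = κ⟮y⟯ from le_antisymm
    (IntermediateField.adjoin_simple_le_iff.2 (neg_mem (IntermediateField.mem_adjoin_simple_self κ y)))
    (IntermediateField.adjoin_simple_le_iff.2 (by
      simpa using neg_mem (IntermediateField.mem_adjoin_simple_self κ (-y))))] at h5
  omega

theorem curvep_three [IsCurve κ G] {x y : G} {B : ℕ} (hx : Transcendental κ x)
    (hy : Transcendental κ y) (hxB : sdeg κ x ≤ B) (hyB : sdeg κ y ≤ B)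
    (h : Transcendental κ (x + y) → sdeg κ (x + y) ≤ B) :
    Small κ (fun _ : Unit => x) (8 * B) y := by
  obtain ⟨a, x, rfl, x1, x2⟩ := exists_Nrm_root hx
  obtain ⟨b, y, rfl, y1, y2⟩ := exists_Nrm_root hy
  rw [curvep_sdeg x1 x2] at hxB
  rw [curvep_sdeg y1 y2] at hyB
  have : ExpChar κ (ringExpChar G) := fielda_exp (algebraMap κ G) ▸ inferInstance
  have key : ∀ (m : ℕ) (u v : G), Transcendental κ u → Transcendental κ v →
      Module.finrank κ⟮u⟯ G ≤ 2 * B → Module.finrank κ⟮v⟯ G ≤ 2 * B →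
      Small κ (fun _ : Unit => u ^ ringExpChar G ^ m) (8 * B) (v ^ ringExpChar G ^ m) :=
    fun m u v hu hv h1 h2 => curvep_small (iterateFrobenius G _ m) (iterateFrobenius κ _ m)
      (RingHom.ext fun c => (map_pow _ _ _).symm) ((small_of_finrank hu hv h1 h2).mono (by omega))
  rcases le_total a b with hab | hab <;> obtain ⟨c, rfl⟩ := Nat.exists_eq_add_of_le' hab <;>
    rw [pow_add, pow_mul] at h ⊢ <;> rw [← add_pow_expChar_pow] at h
  · exact key _ _ _ x1 (y1.pow (fielda_pos c)) (by omega)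
      (curvep_key y1 x1 x2 hyB hxB (by rwa [add_comm]))
  · exact key _ _ _ (x1.pow (fielda_pos c)) y1 (curvep_key x1 y1 y2 hxB hyB h) (by omega)

omit [IsAlgClosed κ] in
theorem curvep_pi {A : IntermediateField κ G} (hA : pc κ (A : Set G) = ⊤) (y : G) :
    ∃ n : ℕ, y ^ ringExpChar G ^ n ∈ A.val.range := by
  simpa using mem_pc.1 (hA.ge trivial : y ∈ _)

/-- Three element lemma. In a model containing `x, y` write `x = x₀ ^ q ^ a`, `y = y₀ ^ q ^ b`
(`exists_Nrm_root`), `[G : κ(x₀)] = sdeg x`. If `a > b`, `z₀ = x₀ ^ q ^ (a - b) + y₀` is not a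
`q`-th power and `z₀ ^ q ^ b = x + y`, so `x₀ ^ q ^ (a - b) = z₀ - y₀` has degree `≤ 2 B`
(`finrank_add_le`). Use `small_of_finrank` and raise the relation to the power `q ^ b`. -/
theorem small_of_three (h : PFC κ G) {x y : G} {B : ℕ} (hB : 0 < B)
    (hx : Transcendental κ x → sdeg κ x ≤ B) (hy : Transcendental κ y → sdeg κ y ≤ B)
    (hxy : Transcendental κ (x + y) → sdeg κ (x + y) ≤ B) :
    Small κ (fun _ : Unit => x) (8 * B) y := by
  classical
  by_cases x1 : Transcendental κ x; swap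
  · obtain ⟨c, rfl⟩ := not_not.1 (mt transcendental_iff.2 x1)
    refine ⟨MvPolynomial.X (some ()) - MvPolynomial.C c, fun h => by
      simpa using congrArg (MvPolynomial.eval fun _ => c + 1) h,
      (MvPolynomial.totalDegree_sub _ _).trans ?_, by simp⟩
    rw [MvPolynomial.totalDegree_X, MvPolynomial.totalDegree_C]
    omega
  by_cases y1 : Transcendental κ y; swap
  · obtain ⟨c, rfl⟩ := not_not.1 (mt transcendental_iff.2 y1)
    exact (small_const _ c).mono (by omega)
  obtain ⟨A, hA, h1, h2⟩ := h.exists_model {x, y}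
  lift x to A using h2 (by simp)
  lift y to A using h2 (by simp)
  have e := fun z hz => sdeg_pi A.val (curvep_pi h1) (IsCurve.trdeg (κ := κ)).le (x := z) hz
  have t : ∀ z : A, Transcendental κ z ↔ Transcendental κ (z : G) := fun z =>
    (transcendental_algebraMap_iff (algebraMap A G).injective).symm
  exact curvep_small (algebraMap A G) (RingHom.id κ) rfl (curvep_three ((t x).2 x1) ((t y).2 y1)
    (e x ((t x).2 x1) ▸ hx x1) (e y ((t y).2 y1) ▸ hy y1) fun h => e _ h ▸ hxy ((t _).1 h))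

/-- a function of large prime degree (`exists_finrank_eq`) is separating -/
theorem exists_sdeg_not_dvd (h : PFC κ G) {ℓ : ℕ} [Fact ℓ.Prime] :
    ∃ t : G, Transcendental κ t ∧ ¬ ℓ ∣ sdeg κ t := by
  obtain ⟨A, hA, h1, -⟩ := h.exists_model ∅
  obtain ⟨c, hc⟩ := exists_finrank_eq (κ := κ) (G := A)
  have hl := (Fact.out : ℓ.Prime).one_lt
  obtain ⟨f, hf, h2⟩ := hc (ℓ * c + 1) (by nlinarith)
  obtain ⟨n, f, rfl, f1, f2⟩ := exists_Nrm_root hf
  refine ⟨A.val _, (transcendental_algebraMap_iff (algebraMap A G).injective).2 hf, fun h => ?_⟩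
  rw [sdeg_pi A.val (curvep_pi h1) (IsCurve.trdeg (κ := κ)).le hf, curvep_sdeg f1 f2] at h
  rw [finrank_pow f1 (fielda_pos n)] at h2
  exact hl.ne' (Nat.dvd_one.1 ((Nat.dvd_add_right (dvd_mul_right ℓ c)).1 (h2 ▸ h.mul_left _)))

end Vale.Agent.P019
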