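import Vale.Agent.P019.CurveD
import Vale.Agent.P019.CurveP

open scoped IntermediateField

namespace Vale.Agent.P019

variable {ℓ : ℕ} [Fact ℓ.Prime] {κ G : Type*} [Field κ] [Field G] [Algebra κ G] [IsAlgClosed κ]

variable (κ G) in
/-- some finitely generated model has genus at most `B` -/
def GenusLE (B : ℕ) : Prop :=
  ∃ (A : IntermediateField κ G) (_ : IsCurve κ A), pc κ (A : Set G) = ⊤ ∧ genus κ A ≤ B

/-- restriction of points along an algebraic extension -/
theorem exists_Pt_comap {G' : Type*} [Field G'] [Algebra κ G'] (φ : G →ₐ[κ] G')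
    (hd : Algebra.trdeg κ G' ≤ 1) (hG : ∃ t : G, Transcendental κ t) (P : Pt κ G') :
    ∃ Q : Pt κ G, Q.1 = P.1.comap (φ : G →+* G') := by
  obtain ⟨t, ht⟩ := hG
  refine ⟨⟨P.1.comap (φ : G →+* G'), fun h => P.2.1 ?_, fun c => by
    simpa [ValuationSubring.mem_comap] using P.2.2 c⟩, rfl⟩
  have := isAlgebraic_of_trdeg_one hd (t := φ t) fun h => ht ((isAlgebraic_algHom_iff φ φ.injective).1 h)
  refine eq_top_iff.2 fun x _ => mem_of_isAlgebraic (F := κ⟮φ t⟯) (fun c => ?_)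
    (Algebra.IsAlgebraic.isAlgebraic x)
  obtain ⟨y, hy⟩ : (c : G') ∈ φ.fieldRange := IntermediateField.adjoin_simple_le_iff.2
    (by exact ⟨t, rfl⟩) c.2
  show (c : G') ∈ P.1
  exact hy ▸ ValuationSubring.mem_comap.1 (h.ge trivial : y ∈ _)

theorem exists_Pt_over {G' : Type*} [Field G'] [Algebra κ G'] (φ : G →ₐ[κ] G') (Q : Pt κ G) :
    ∃ P : Pt κ G', Q.1 = P.1.comap (φ : G →+* G') := by
  obtain ⟨O, hO⟩ := exists_ext (φ : G →+* G') Q.1
  refine ⟨⟨O, fun h => Q.2.1 (by rw [← hO, h]; rfl), fun c => ?_⟩, hO.symm⟩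
  have := Q.2.2 c
  rw [← hO] at this
  simpa [ValuationSubring.mem_comap] using this

omit [IsAlgClosed κ] in
theorem curvee_pi {A : IntermediateField κ G} (hA : pc κ (A : Set G) = ⊤) (y : G) :
    ∃ (n : ℕ) (x : A), algebraMap A G x = y ^ ringExpChar G ^ n := curvep_pi hA y

theorem curvee_equiv {A : IntermediateField κ G} (hA : pc κ (A : Set G) = ⊤) :
    ∃ e : Pt κ G ≃ Pt κ A, ∀ P, (e P).1 = P.1.comap (algebraMap A G) := by
  refine ⟨Equiv.ofBijective (fun P => ⟨P.1.comap (algebraMap A G), fun h => P.2.1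
    (eq_top_iff.2 fun y _ => ?_), fun c => P.2.2 c⟩) ⟨fun P Q h => Subtype.ext
      (eq_of_comap_eq_of_pi _ (curvee_pi hA) (congrArg Subtype.val h)), fun Q => ?_⟩, fun _ => rfl⟩
  · obtain ⟨n, x, hx⟩ := curvee_pi hA y
    exact (valc_pow_mem (fielda_pos n)).1 (hx ▸ ValuationSubring.mem_comap.1 (h.ge trivial : x ∈ _))
  · obtain ⟨P, hP⟩ := exists_Pt_over A.val Q
    exact ⟨P, Subtype.ext hP.symm⟩

theorem exists_Pt_equiv (A : IntermediateField κ G) (hA : pc κ (A : Set G) = ⊤)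
    (hl : (ℓ : κ) ≠ 0) : ∃ e : Pt κ G ≃ Pt κ A, ∀ P, (e P).1 = P.1.comap (algebraMap A G) ∧
      ∀ z : V ℓ A, Vmap ℓ (algebraMap A G) z ∈ U ℓ P.1 ↔ z ∈ U ℓ (e P).1 := by
  obtain ⟨e, he⟩ := curvee_equiv hA
  refine ⟨e, fun P => ⟨he P, fun z => ?_⟩⟩
  obtain ⟨x, x0, rfl⟩ := cl_surj z
  rw [Vmap_cl, cl_mem_U_iff ((map_ne_zero _).2 x0), he]
  refine ⟨fun ⟨w, w0, hw⟩ => ?_, fun h => ?_⟩
  · obtain ⟨n, a, ha⟩ := curvee_pi hA w
    rw [← Submodule.smul_mem_iff _ (basic_expChar_pow (algebraMap κ G) hl n), ← cl_pow,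
      cl_mem_U_iff (pow_ne_zero _ x0)]
    refine ⟨a, fun h => pow_ne_zero _ w0 (by rw [← ha, h, map_zero]), ?_⟩
    rw [← map_pow, comap_val_eq]
    simp only [map_pow, ha, hw]
    exact pow_right_comm _ _ _
  · obtain ⟨w, w0, hw⟩ := (cl_mem_U_iff x0).1 h
    rw [← map_pow, comap_val_eq, map_pow, map_pow] at hw
    exact ⟨_, (map_ne_zero _).2 w0, hw⟩

theorem PFC.finite_val_ne_one (h : PFC κ G) {f : G} (hf : f ≠ 0) :
    {P : Pt κ G | P.1.valuation f ≠ 1}.Finite := by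
  obtain ⟨A, hA, h1, h2⟩ := h.exists_model {f}
  lift f to A using h2 (by simp)
  obtain ⟨e, he⟩ := curvee_equiv h1
  refine ((finite_ord_ne_zero (κ := κ) f).preimage e.injective.injOn).subset fun P hP h => hP ?_
  rw [← (e P).val_eq_one_iff fun h => hf (congrArg Subtype.val h), he, comap_val_eq_one] at h
  exact h

theorem PFC.finite_At (h : PFC κ G) {f : G} (hf : Transcendental κ f) (c : κ) :
    {P : Pt κ G | At κ P.1 f c}.Finite := (h.finite_val_ne_one (f := f - algebraMap κ G c) fun e =>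
    hf (sub_eq_zero.1 e ▸ isAlgebraic_algebraMap c)).subset fun _ hP => ne_of_lt hP

theorem PFC.finite_pole (h : PFC κ G) (f : G) : {P : Pt κ G | f ∉ P.1}.Finite := by
  rcases eq_or_ne f 0 with rfl | f0
  · simp
  · exact (h.finite_val_ne_one f0).subset fun P hP e => hP (val_eq_one_iff.1 e).2.1

theorem PFC.finite_At_mem (h : PFC κ G) {f : G} (hf : Transcendental κ f) {S : Set κ}
    (hS : S.Finite) : {P : Pt κ G | f ∉ P.1 ∨ ∃ c ∈ S, At κ P.1 f c}.Finite := ((h.finite_pole f).union (hS.biUnion fun c _ => h.finite_At hf c)).subset fun P hP => by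
    simpa using hP

theorem PFC.infinite_Pt (h : PFC κ G) : Infinite (Pt κ G) := by
  obtain ⟨A, hA, h1, -⟩ := h.exists_model ∅
  obtain ⟨e, -⟩ := curvee_equiv h1
  exact e.infinite_iff.2 Vale.Agent.P019.infinite_Pt

omit [IsAlgClosed κ] in
theorem curvee_supp (c : ZMod ℓ) (f : G) :
    supp κ (c • cl ℓ f) ⊆ {P : Pt κ G | P.1.valuation f ≠ 1} :=
  fun _ hP e => hP (Submodule.smul_mem _ _ (mem_U.2 ⟨f, e, rfl⟩))

theorem PFC.finite_supp (h : PFC κ G) (z : V ℓ G) : (supp κ z).Finite := by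
  obtain ⟨f, f0, rfl⟩ := cl_surj z
  simpa using (h.finite_val_ne_one f0).subset (curvee_supp (1 : ZMod ℓ) f)

theorem PFC.eq_zero_of_infinite (h : PFC κ G) {f : G}
    (hf : {P : Pt κ G | P.1.valuation f < 1}.Infinite) : f = 0 := by_contra fun f0 => hf ((h.finite_val_ne_one f0).subset fun _ hP => ne_of_lt hP)

theorem curvee_card [IsCurve κ G] {f : G} (hf : Transcendental κ f) :
    (pole κ f).support.card ≤ Module.finrank κ⟮f⟯ G := by
  have h1 := Finset.card_nsmul_le_sum (pole κ f).support (pole κ f) 1 fun P hP =>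
    lt_of_le_of_ne (curveb_pole_nonneg f P) (Finsupp.mem_support_iff.1 hP).symm
  rw [← Finsupp.degree_apply, degree_pole hf] at h1
  simpa using h1

omit [IsAlgClosed κ] in
theorem curvee_tr {A : IntermediateField κ G} (z : A) :
    Transcendental κ z ↔ Transcendental κ (z : G) :=
  (transcendental_algebraMap_iff (algebraMap A G).injective).symm

/-- zeros and poles of `f₀` in a model, `f ^ q ^ a = f₀ ^ q ^ b` with `f₀` separating -/
theorem PFC.ncard_val_ne_one (h : PFC κ G) {f : G} (hf : Transcendental κ f) :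
    {P : Pt κ G | P.1.valuation f ≠ 1}.ncard ≤ 2 * sdeg κ f := by
  classical
  obtain ⟨A, hA, h1, h2⟩ := h.exists_model {f}
  lift f to A using h2 (by simp)
  obtain ⟨e, he⟩ := curvee_equiv h1
  have h3 := (curvee_tr f).2 hf
  obtain ⟨n, g, rfl, g1, g2⟩ := exists_Nrm_root h3
  have h4 := (sdeg_pi A.val (curvep_pi h1) (IsCurve.trdeg (κ := κ)).le h3).trans
    (curvep_sdeg g1 g2 n)
  have h5 := curvee_card (f := g⁻¹) fun h => g1 (IsAlgebraic.inv_iff.1 h)
  have h6 := curvee_card g1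
  have h7 := Finset.card_union_le (pole κ g).support (pole κ g⁻¹).support
  rw [curveb_adj_inv] at h5
  refine (Set.ncard_le_ncard_of_injOn e (t := ↑((pole κ g).support ∪ (pole κ g⁻¹).support))
    (fun P hP => ?_) e.injective.injOn).trans ?_
  · have h8 : ord (e P).1 g ≠ 0 := fun h => hP ((comap_val_eq_one (algebraMap A G) P.1
      (g ^ ringExpChar A ^ n)).1 (by
      rw [← he, (e P).val_eq_one_iff (f := g ^ ringExpChar A ^ n) fun h => h3 (h ▸ isAlgebraic_zero),
        (e P).ord_pow, h, mul_zero]))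
    simp only [Finset.coe_union, Set.mem_union, Finset.mem_coe, Finsupp.mem_support_iff, pole_apply,
      Pt.ord_inv]
    omega
  · rw [Set.ncard_coe_finset]
    exact h7.trans (le_trans (by omega) (Nat.mul_le_mul_left 2 h4.ge))

theorem ncard_supp_le (h : PFC κ G) {y z u : G} (hy : Transcendental κ y) (htop : pc κ {y, z} = ⊤)
    {D D' : ℕ} (hz : Small κ (fun _ : Unit => y) D z) (hu : Small κ (fun _ : Unit => y) D' u)
    (c : ZMod ℓ) : (supp κ (c • cl ℓ u)).ncard ≤ 2 * (D * D') := by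
  by_cases hu' : Transcendental κ u
  · exact (Set.ncard_le_ncard (curvee_supp c u) (h.finite_val_ne_one fun e =>
      hu' (e ▸ isAlgebraic_zero))).trans ((h.ncard_val_ne_one hu').trans
        (Nat.mul_le_mul_left 2 (sdeg_le_of_small hy htop hz hu hu')))
  · obtain ⟨a, rfl⟩ := not_not.1 (mt transcendental_iff.2 hu')
    simp [cl_const, supp]

theorem genusLE_of_small {y z : G} (hy : Transcendental κ y) (htop : pc κ {y, z} = ⊤) {D : ℕ}
    (hz : Small κ (fun _ : Unit => y) D z) : GenusLE κ G (D ^ 4 + 1) := by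
  classical
  have h1 := hz.mem_ac (algebraicIndependent_unique_type_iff.2 hy)
  have h2 := trdeg_le_of_ac (k := κ) (y := fun _ : Unit => y) (eq_top_iff.2 (htop.ge.trans
    ((pc_le_ac _).trans (ac_le_ac (Set.pair_subset (subset_ac _ ⟨(), rfl⟩) h1)))))
  have h3 := isCurve_adjoin {y, z} (by simpa using h2) (Finset.mem_insert_self _ _) hy
  rw [Finset.coe_pair] at h3
  let y' : κ⟮y, z⟯ := ⟨y, IntermediateField.subset_adjoin _ _ (by simp)⟩
  let z' : κ⟮y, z⟯ := ⟨z, IntermediateField.subset_adjoin _ _ (by simp)⟩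
  refine ⟨_, h3, eq_top_iff.2 (htop.ge.trans (pc_le_pc ((IntermediateField.subset_adjoin _ _).trans
    (subset_pc _)))), genus_le (y := y') (z := z') ((curvee_tr y').2 hy)
      (IntermediateField.map_injective κ⟮y, z⟯.val ?_) ?_⟩
  · rw [IntermediateField.adjoin_map, Set.image_pair, ← AlgHom.fieldRange_eq_map,
      IntermediateField.fieldRange_val]
    rfl
  · obtain ⟨P, P0, P1, P2⟩ := hz
    refine ⟨P, P0, P1, κ⟮y, z⟯.val.injective ?_⟩
    rw [AlgHom.toRingHom_eq_coe, RingHom.coe_coe, map_zero, ← P2, ← AlgHom.comp_apply,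
      MvPolynomial.comp_aeval]
    congr
    funext o
    cases o <;> rfl

/-- In the model `A`: `g ^ q ^ m = g₀ ^ q ^ n` with `g₀` separating; replace `a j` by the
`q ^ n`-th root of `a j ^ q ^ m`; apply `finrank_le_of_five`. -/
theorem sdeg_le_of_five (h : PFC κ G) (hl : (ℓ : κ) ≠ 0) {B : ℕ} (hB : GenusLE κ G B) {g : G}
    (hg : Transcendental κ g) (a : Fin 5 → κ) (ha : Function.Injective a) {n : ℕ}
    (hn : ∀ j, (supp κ (cl ℓ (g - algebraMap κ G (a j)))).ncard ≤ n) :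
    sdeg κ g ≤ 4 * B + 10 * n := by
  obtain ⟨A, hA, h1, h2⟩ := hB
  obtain ⟨e, he⟩ := exists_Pt_equiv A h1 hl
  obtain ⟨m, f, hf⟩ := curvee_pi h1 g
  have h3 : Transcendental κ f := (curvee_tr f).2 (hf.symm ▸ hg.pow (fielda_pos m) :
    Transcendental κ (algebraMap A G f))
  obtain ⟨k, f, rfl, f1, f2⟩ := exists_Nrm_root h3
  have h4 := (sdeg_pi A.val (curvep_pi h1) (IsCurve.trdeg (κ := κ)).le h3).trans
    (curvep_sdeg f1 f2 k)
  rw [show A.val _ = _ from hf, sdeg_pow h.2.le hg] at h4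
  rw [map_pow, ← fielda_exp (algebraMap A G)] at hf
  choose b hb using fun j =>
    IsAlgClosed.exists_pow_nat_eq (a j ^ ringExpChar G ^ m) (fielda_pos (K := G) k)
  have : ExpChar κ (ringExpChar G) := fielda_exp (algebraMap κ G) ▸ inferInstance
  have := sep_of_Nrm f1 f2
  have h5 := finrank_le_of_five (ℓ := ℓ) f1 b (n := n) (fun i j hij => ha
    ((iterateFrobenius κ (ringExpChar G) m).injective ((hb i).symm.trans (hij ▸ hb j)))) fun j => by
    refine le_trans (Set.ncard_le_ncard_of_injOn e.symm (fun Q hQ => ?_) e.symm.injective.injOn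
      (h.finite_supp _)) (hn j)
    refine fun h => hQ ?_
    rw [← Q.cl_mem_U_iff, ← e.apply_symm_apply Q, ← (he _).2, Vmap_cl,
      ← Submodule.smul_mem_iff _ (basic_expChar_pow (algebraMap κ G) hl k), ← cl_pow, map_sub,
      sub_pow_expChar_pow, hf, ← IsScalarTower.algebraMap_apply, ← map_pow, hb, map_pow,
      ← sub_pow_expChar_pow, cl_pow]
    exact Submodule.smul_mem _ _ h
  omega

theorem sdeg_le_of_nice (h : PFC κ G) (hl : (ℓ : κ) ≠ 0) {y z g : G} (hy : Transcendental κ y)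
    (htop : pc κ {y, z} = ⊤) {D : ℕ} (hz : Small κ (fun _ : Unit => y) D z)
    (hg : Transcendental κ g) (hn : Nice ℓ κ (fun _ : Unit => y) D g) :
    sdeg κ g ≤ 4 * (D ^ 4 + 1) + 20 * D ^ 2 := by
  obtain ⟨a, ha, h1⟩ := hn
  have := sdeg_le_of_five h hl (genusLE_of_small hy htop hz) hg a ha (n := 2 * (D * D)) fun j => by
    obtain ⟨u, c, -, h2, h3⟩ := h1 j
    exact h3 ▸ ncard_supp_le h hy htop hz h2 c
  rw [sq]
  omega

/-- an automorphism fixing infinitely many points is trivial -/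
theorem PFC.aut_eq_one (h : PFC κ G) (γ : G ≃ₐ[κ] G)
    (hγ : {P : Pt κ G | P.1.comap (γ : G →+* G) = P.1}.Infinite) : γ = 1 := by
  ext f
  refine sub_eq_zero.1 (h.eq_zero_of_infinite ((hγ.sdiff (h.finite_pole f)).mono fun P hP => ?_))
  obtain ⟨c, hc⟩ := Pt.exists_At h.2.le P (not_not.1 hP.2)
  have h1 := (comap_val_lt_one (γ : G →+* G) P.1 _).1 (hP.1.symm ▸ hc)
  rw [map_sub, RingHom.coe_coe, γ.commutes] at h1
  simpa using P.1.valuation.map_sub_lt h1 hc

end Vale.Agent.P019
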