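import Vale.Agent.P019.AB
import Vale.Agent.P019.ValA

open scoped IntermediateField

namespace Vale.Agent.P019

universe u

section bc
variable {k K : Type*} [Field k] [Field K] [Algebra k K]

instance bcC_isAlgClosed (S : Set K) : IsAlgClosed (bcC k S) := isAlgClosed_ac _

theorem coe_bcHom (S : Set K) (x : K) :
    ((bcHom k S x : bcN k S) : AlgebraicClosure K) = algebraMap K (AlgebraicClosure K) x := rfl

theorem bcHom_const (S : Set K) (c : k) :
    bcHom k S (algebraMap k K c) = algebraMap (bcC k S) (bcN k S) (algebraMap k (bcC k S) c) :=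
  Subtype.ext (IsScalarTower.algebraMap_apply k K _ c).symm

theorem fielde_range (C : IntermediateField k K) (N : IntermediateField C K) (z : N) :
    z ∈ (algebraMap C N).range ↔ z.1 ∈ C :=
  ⟨fun ⟨c, hc⟩ => hc ▸ c.2, fun h => ⟨⟨_, h⟩, rfl⟩⟩

theorem fielde_tr {ι : Type*} [Fintype ι] {y : ι → K} (hy : AlgebraicIndependent k y) :
    Algebra.trdeg k (ac k (Set.range y)) = Fintype.card ι := by
  let y' : ι → ac k (Set.range y) := fun i => ⟨y i, subset_ac _ ⟨i, rfl⟩⟩
  refine trdeg_eq_of_indep (y := y') (.of_comp (ac k (Set.range y)).val hy)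
    (eq_top_iff.2 fun x _ => (algHom_mem_ac_iff (ac k _).val).1 ?_)
  rw [← Set.range_comp]
  exact x.2

theorem bcHom_mem_range_iff (S : Set K) (x : K) :
    bcHom k S x ∈ (algebraMap (bcC k S) (bcN k S)).range ↔ x ∈ ac k S := by
  rw [fielde_range, coe_bcHom]
  exact algHom_mem_ac_iff (IsScalarTower.toAlgHom k K (AlgebraicClosure K))

theorem bc_transcendental (S : Set K) {x : K} (hx : x ∉ ac k S) :
    Transcendental (bcC k S) (bcHom k S x) :=
  transcendental_iff.2 (mt (bcHom_mem_range_iff S x).1 hx)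

theorem bc_pc_top (S : Set K) {T : Set K} (hT : pc k (S ∪ T) = ⊤) :
    pc (bcC k S) (bcHom k S '' T) = ⊤ := by
  refine eq_top_iff.2 fun z _ => (algHom_mem_pc_iff (bcN k S).val).1 (pc_le_pc ?_ z.2)
  rintro _ ⟨x, rfl⟩
  refine pc_le_pc ?_ (map_mem_pc (k' := bcC k S) (algebraMap K (AlgebraicClosure K))
    (fun c => ⟨algebraMap k _ c, IsScalarTower.algebraMap_apply k K _ c⟩) (hT.ge trivial : x ∈ _))
  rintro _ ⟨a, ha | ha, rfl⟩
  · exact IntermediateField.algebraMap_mem _ (⟨_, subset_ac _ ⟨a, ha, rfl⟩⟩ : bcC k S)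
  · exact subset_pc _ ⟨_, ⟨a, ha, rfl⟩, rfl⟩

theorem fielde_dim {C Ω : Type u} [Field C] [Field Ω] [Algebra k C] [Algebra C Ω] [Algebra k Ω]
    [Algebra K Ω] [IsScalarTower k C Ω] [IsScalarTower k K Ω] [Algebra.IsAlgebraic K Ω] {e d : ℕ}
    (h : Algebra.trdeg k K = ((e + d : ℕ) : Cardinal)) {N : IntermediateField C Ω} (φ : K →+* N)
    (hφ : ∀ x, (φ x).1 = algebraMap K Ω x) (hC : Algebra.trdeg k C = e) :
    Algebra.trdeg C N = d := by
  let _ := φ.toAlgebra
  have : IsScalarTower K N Ω := .of_algebraMap_eq fun x => (hφ x).symm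
  have : Algebra.IsAlgebraic N Ω := .tower_top (K := K) _
  have h1 := trdeg_add_eq k C (A := Ω)
  rw [(trdeg_eq_of_isAlgebraic (K' := Ω)).2 h, hC, Nat.cast_add, add_comm, add_comm (e : Cardinal),
    Cardinal.add_nat_inj] at h1
  exact trdeg_eq_of_isAlgebraic.1 h1

theorem bc_std {ℓ e d : ℕ} (h : Std ℓ k K (e + d)) {ι : Type*} [Fintype ι]
    (hι : Fintype.card ι = e) {y : ι → K} (hy : AlgebraicIndependent k y) :
    Std ℓ (bcC k (Set.range y)) (bcN k (Set.range y)) d := by
  obtain ⟨T, hT⟩ := h.pf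
  refine ⟨perfect_pc _, fieldb_pf (T.finite_toSet.image _) (bc_pc_top _ (eq_top_iff.2
    (hT.ge.trans (pc_le_pc (Set.subset_union_right.trans (subset_pc _)))))), ?_, ?_⟩
  · rw [← map_natCast (algebraMap k _)]
    exact (map_ne_zero _).2 h.char
  refine fielde_dim h.dim (bcHom k _) (coe_bcHom _) (e := e) ?_
  rw [← hι, bcC, ← Set.range_comp]
  exact fielde_tr (hy.map' (f := IsScalarTower.toAlgHom k K (AlgebraicClosure K))
    (RingHom.injective _))

end bc

theorem fielde_res {R : Type*} [CommRing R] [Algebra.FiniteType ℤ R] (m : Ideal R) [m.IsMaximal] :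
    ∃ p : ℕ, p.Prime ∧ (p : R) ∈ m ∧ ∀ r, IsIntegral ℤ (Ideal.Quotient.mk m r) := by
  have : IsJacobsonRing ℤ := isJacobsonRing_iff_prime_eq.2 fun P hP => by
    rcases eq_or_ne P ⊥ with rfl | h
    · refine eq_bot_iff.2 fun x hx => ?_
      have := Int.isUnit_iff.1 (Ideal.mem_jacobson_bot.1 hx x)
      have h0 := mul_self_nonneg x
      exact mul_self_eq_zero.1 (by omega)
    · have := hP.isMaximal h
      exact Ideal.jacobson_eq_self_of_isMaximal
  let _ := Ideal.Quotient.field m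
  have := finite_of_finite_type_of_isJacobsonRing ℤ (R ⧸ m)
  refine ⟨ringChar (R ⧸ m), (CharP.char_is_prime_or_zero (R ⧸ m) _).resolve_right fun h => ?_,
    Ideal.Quotient.eq_zero_iff_mem.1 (by simp), fun r => Algebra.IsIntegral.isIntegral _⟩
  have := (CharP.ringChar_zero_iff_CharZero _).1 h
  exact Int.not_isField (isField_of_isIntegral_of_isField (S := R ⧸ m)
    (algebraMap ℤ (R ⧸ m)).injective_int (Field.toIsField _))

theorem fielde_min {l : Type*} [Field l] (S : Set l) (u₀ : ValuationSubring l) (h : S ⊆ u₀) :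
    ∃ u ≤ u₀, S ⊆ u ∧ ∀ u' ≤ u, S ⊆ u' → u ≤ u' := by
  obtain ⟨u, h1, h2⟩ := zorn_le_nonempty₀ (α := (ValuationSubring l)ᵒᵈ)
    {u | S ⊆ (OrderDual.ofDual u : ValuationSubring l)} (fun c hc hc' v hv => ⟨ValuationSubring.ofSubring
      (⨅ u ∈ c, (OrderDual.ofDual u).toSubring) fun x => by
        simp only [Subring.mem_iInf]
        refine or_iff_not_imp_left.2 fun hx u hu => ?_
        push Not at hx
        obtain ⟨w, hw, hx⟩ := hx
        rcases hc'.total hu hw with e | e
        · exact e (((OrderDual.ofDual w).mem_or_inv_mem x).resolve_left hx)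
        · exact ((OrderDual.ofDual u).mem_or_inv_mem x).resolve_left fun h => hx (e h),
      fun x hx => Subring.mem_iInf.2 fun u => Subring.mem_iInf.2 fun hu => hc hu hx,
      fun u hu => show ValuationSubring.ofSubring _ _ ≤ OrderDual.ofDual u from
        fun x hx => Subring.mem_iInf.1 (Subring.mem_iInf.1 hx u) hu⟩) u₀ h
  exact ⟨u, h1, h2.1, fun u' h3 h4 => h2.2 h4 h3⟩

theorem fielde_ft {κ : Type*} [Field κ] {p : ℕ} [Fact p.Prime] [Algebra (ZMod p) κ] {a : κ}
    (h : IsAlgebraic (ZMod p) a) : ∃ n : ℕ, 0 < n ∧ a ^ p ^ n = a := by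
  have := IntermediateField.adjoin.finiteDimensional h.isIntegral
  have : Finite (ZMod p)⟮a⟯ := Module.finite_of_finite (ZMod p)
  have := Fintype.ofFinite (ZMod p)⟮a⟯
  refine ⟨Module.finrank (ZMod p) (ZMod p)⟮a⟯, Module.finrank_pos, ?_⟩
  have h1 := FiniteField.pow_card (IntermediateField.AdjoinSimple.gen (ZMod p) a)
  rw [Module.card_eq_pow_finrank (K := ZMod p), ZMod.card] at h1
  exact congrArg Subtype.val h1

theorem fielde_ne_top {κ : Type*} [Field κ] {u : ValuationSubring κ} {a : κ}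
    (h : u.valuation a < 1) (h0 : a ≠ 0) : u ≠ ⊤ := fun e =>
  h.ne (val_eq_one_iff.2 ⟨h0, e.ge trivial, e.ge trivial⟩)

/-- A valuation of finite type. Take a maximal ideal of the finitely generated ring
`ℤ[Ψ, Ψ⁻¹] ⊆ l`; its residue field is finite (`finite_of_finite_type_of_isJacobsonRing`, or the
statement that a finitely generated `ℤ`-algebra which is a field is finite). Take a valuation ring
`u₀` over it (`Ideal.image_subset_nonunits_valuationSubring`). Its residue field `R` has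
characteristic `p`; let `R₀` be the algebraic closure of the prime field in `R` (it contains the
residues of `Ψ`). By Zorn choose a minimal valuation ring `u₁` of `R` containing `R₀`
(intersections of chains of valuation rings are valuation rings); its residue field is algebraic
over the image of `R₀` (else refine by `exists_zero`, `vcomp`). Take `vcomp u₀ u₁`. -/
theorem exists_ft_val {l : Type*} [Field l] (Ψ : Finset l) (h0 : (0 : l) ∉ Ψ) :
    ∃ u : ValuationSubring l, (∀ a ∈ Ψ, u.valuation a = 1) ∧ ∃ p : ℕ, p.Prime ∧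
      u.valuation (p : l) < 1 ∧ ∀ a ∈ u, ∃ n : ℕ, 0 < n ∧ u.valuation (a ^ p ^ n - a) < 1 := by
  let R := Algebra.adjoin ℤ ((Ψ : Set l) ∪ (·⁻¹) '' Ψ)
  have : Algebra.FiniteType ℤ R :=
    .adjoin_of_finite (Ψ.finite_toSet.union (Ψ.finite_toSet.image _))
  obtain ⟨m, hm⟩ := Ideal.exists_maximal R
  obtain ⟨p, hp, hpm, hi⟩ := fielde_res m
  obtain ⟨u₀, h1, h2⟩ := valc_place R.val.toRingHom m fun r hr => by
    rw [show r = 0 from Subtype.ext hr]
    exact m.zero_mem
  obtain ⟨u, hu, h3, h4⟩ := fielde_min (R : Set l) u₀ fun r hr => h1 ⟨r, hr⟩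
  obtain ⟨ψ, hψ⟩ := exists_resHom u R.val.toRingHom fun r => h3 r.2
  have h5 : ∀ r ∈ m, ψ r = 0 := fun r hr =>
    (hψ r).trans ((res_eq_zero_iff u (h3 r.2)).2 (val_lt_one_of_le hu ((h2 r).2 hr)))
  have : CharP (Res u) p :=
    (CharP.charP_iff_prime_eq_zero hp).2 (by rw [← map_natCast ψ, h5 _ hpm])
  have := Fact.mk hp
  let _ := ZMod.algebra (Res u) p
  refine ⟨u, fun a ha => val_eq_one_iff.2 ⟨fun h => h0 (h ▸ ha), h3 (Algebra.subset_adjoin
    (.inl ha)), h3 (Algebra.subset_adjoin (.inr ⟨a, ha, rfl⟩))⟩, p, hp,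
    val_lt_one_of_le hu (by simpa using (h2 _).2 hpm), fun a ha => ?_⟩
  have h6 : IsAlgebraic (ZMod p) (res u a) := by
    by_contra h
    obtain ⟨O, h6, h7⟩ := exists_zero h
    refine fielde_ne_top h7 (fun e => h (e ▸ isAlgebraic_zero)) (eq_top_iff.2 fun z _ => ?_)
    obtain ⟨z, hz, rfl⟩ := res_surj u z
    refine ((mem_vcomp u O z).1 (h4 _ (vcomp_le u O) (fun r hr => ?_) hz)).2
    refine (mem_vcomp u O r).2 ⟨h3 hr, mem_of_isAlgebraic h6 ?_⟩
    have h8 := map_isIntegral_int (Ideal.Quotient.lift m ψ h5) (hi ⟨r, hr⟩)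
    rw [Ideal.Quotient.lift_mk, hψ] at h8
    exact (h8.tower_top (A := ZMod p)).isAlgebraic
  obtain ⟨n, hn, h7⟩ := fielde_ft h6
  exact ⟨n, hn, (res_eq_iff u (pow_mem ha _) ha).1 (by rw [res_pow u a ha, h7])⟩

/-- characteristic zero: extend a `p`-adic valuation, `p ≠ ℓ`; characteristic `p`: `exists_zero`
over the prime field -/
theorem exists_val_of_not_FT {ℓ : ℕ} [Fact ℓ.Prime] {κ : Type*} [Field κ] (h : ¬ FT κ)
    (hl : (ℓ : κ) ≠ 0) : ∃ u : ValuationSubring κ, u ≠ ⊤ ∧ u.valuation (ℓ : κ) = 1 := by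
  rcases CharP.char_is_prime_or_zero κ (ringChar κ) with hp | hp
  · have := Fact.mk hp
    let _ := ZMod.algebra κ (ringChar κ)
    obtain ⟨a, ha⟩ : ∃ a : κ, Transcendental (ZMod (ringChar κ)) a := by
      by_contra h0
      exact h ⟨_, hp, inferInstance, fun a => fielde_ft (not_not.1 (not_exists.1 h0 a))⟩
    obtain ⟨u, h1, h2⟩ := exists_zero ha
    refine ⟨u, fielde_ne_top h2 fun e => ha (e ▸ isAlgebraic_zero), ?_⟩
    rw [← map_natCast (algebraMap (ZMod (ringChar κ)) κ)] at hl ⊢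
    exact val_const_eq_one h1 ((map_ne_zero _).1 hl)
  · have := (CharP.ringChar_zero_iff_CharZero _).1 hp
    obtain ⟨p, h1, h2⟩ := Nat.exists_infinite_primes (ℓ + 1)
    have := (Ideal.span_singleton_prime (Int.natCast_ne_zero.2 h2.ne_zero)).2
      (Nat.prime_iff_prime_int.1 h2)
    obtain ⟨u, h3, h4⟩ := valc_place (Int.castRingHom κ) (Ideal.span {(p : ℤ)}) fun r hr => by
      rw [(map_eq_zero_iff _ (RingHom.injective_int _)).1 hr]
      exact zero_mem _
    refine ⟨u, fielde_ne_top ((h4 p).2 (Ideal.mem_span_singleton_self _))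
      (by simpa using h2.ne_zero), ?_⟩
    have h5 := mt (h4 ℓ).1 fun h => by
      have := Nat.le_of_dvd (Fact.out : ℓ.Prime).pos
        (Int.natCast_dvd_natCast.1 (Ideal.mem_span_singleton.1 h))
      omega
    simpa using ((u.valuation_le_one_iff _).2 (h3 ℓ)).antisymm (not_lt.1 h5)

theorem FT.mem {κ G : Type*} [Field κ] [Field G] [Algebra κ G] (h : FT κ)
    (u : ValuationSubring G) (c : κ) : algebraMap κ G c ∈ u := by
  obtain ⟨p, hp, -, h⟩ := h
  obtain ⟨n, hn, h⟩ := h c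
  by_contra h0
  have := pow_lt_pow_right₀ (not_le.1 (mt (u.valuation_le_one_iff _).1 h0))
    (Nat.one_lt_pow hn.ne' hp.one_lt)
  rw [← map_pow, ← map_pow, ← map_pow, ← map_pow, h, pow_one] at this
  exact this.false

end Vale.Agent.P019
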