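import Vale.Agent.P019.PolyRel
import Vale.Agent.P019.CurveE
import Vale.Agent.P019.FieldE
import Vale.Agent.P019.FieldC
import Vale.Agent.P019.BDaB

open scoped IntermediateField

namespace Vale.Agent.P019

variable {ℓ : ℕ} [Fact ℓ.Prime] {κ G : Type*} [Field κ] [Field G] [Algebra κ G] [IsAlgClosed κ]

/-- substitute the other variables -/
theorem Small.bc {e : ℕ} {y : Fin e → G} (hy : AlgebraicIndependent κ y) (i : Fin e) {D : ℕ}
    {u : G} (h : Small κ y D u) :
    Small (bcC κ (Set.range fun m : {m // m ≠ i} => y m))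
      (fun _ : Unit => bcHom κ (Set.range fun m : {m // m ≠ i} => y m) (y i)) D
      (bcHom κ (Set.range fun m : {m // m ≠ i} => y m) u) := by
  exact bda_small _ (bcHom_const _) hy i
    (fun m => (bcHom_mem_range_iff _ _).2 (subset_ac _ (Set.mem_range_self m))) h

omit [IsAlgClosed κ] in
theorem bda_yi {ι : Type*} {y : ι → G} (hy : AlgebraicIndependent κ y) (i : ι) :
    y i ∉ ac κ (Set.range fun m : {m // m ≠ i} => y m) := fun h0 => by
  have h1 := ((AlgebraicIndependent.iff_transcendental_adjoin_image i).1 hy).2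
  rw [Set.image_eq_range] at h1
  exact h1 (fielda_mem.1 h0)

omit [Fact ℓ.Prime] [IsAlgClosed κ] in
theorem bda_std {e : ℕ} (hG : Std ℓ κ G e) {y : Fin e → G} (hy : AlgebraicIndependent κ y)
    (i : Fin e) : Std ℓ (bcC κ (Set.range fun m : {m // m ≠ i} => y m))
      (bcN κ (Set.range fun m : {m // m ≠ i} => y m)) 1 := by
  refine bc_std (e := Fintype.card {m // m ≠ i}) ?_ rfl (hy.comp _ Subtype.val_injective)
  have : Fintype.card {m // m ≠ i} + 1 = e := by
    have := i.pos
    simp only [ne_eq, Fintype.card_subtype_compl, Fintype.card_fin, Fintype.card_unique]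
    omega
  rwa [this]

omit [IsAlgClosed κ] in
theorem bda_top {ι : Type*} {y : ι → G} {z : G} (htop : pc κ (insert z (Set.range y)) = ⊤) (i : ι) :
    pc (bcC κ (Set.range fun m : {m // m ≠ i} => y m))
      {bcHom κ (Set.range fun m : {m // m ≠ i} => y m) (y i),
        bcHom κ (Set.range fun m : {m // m ≠ i} => y m) z} = ⊤ := by
  rw [← Set.image_pair]
  refine bc_pc_top _ (top_le_iff.1 (htop.ge.trans (pc_le_pc ?_)))
  rintro _ (rfl | ⟨m, rfl⟩)
  · exact subset_pc _ (by simp)
  · by_cases hm : m = i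
    · exact subset_pc _ (by simp [hm])
    · exact subset_pc _ (Or.inl ⟨⟨m, hm⟩, rfl⟩)

theorem bda_bound {e : ℕ} (hG : Std ℓ κ G e) {y : Fin e → G}
    (hy : AlgebraicIndependent κ y) {z g x : G} (htop : pc κ (insert z (Set.range y)) = ⊤) {D : ℕ}
    (hz : Small κ y D z) (hn : Nice ℓ κ y D g) (i : Fin e)
    (hg : g ∉ ac κ (Set.range fun m : {m // m ≠ i} => y m))
    (hs : IsSeparable (IntermediateField.adjoin (ac κ (Set.range fun m : {m // m ≠ i} => y m))
      (Set.range fun _ : Unit => g)) x) :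
    (minpoly (IntermediateField.adjoin (ac κ (Set.range fun m : {m // m ≠ i} => y m))
      (Set.range fun _ : Unit => g)) x).natDegree ≤ 4 * (D ^ 4 + 1) + 20 * D ^ 2 := by
  have hstd := bda_std hG hy i
  have hgt := bc_transcendental _ hg
  have hB := sdeg_le_of_nice hstd.pfc hstd.char (bc_transcendental _ (bda_yi hy i))
    (bda_top htop i) (hz.bc hy i) hgt (bda_nice _ (bcHom_const _) hy i
      (fun m => (bcHom_mem_range_iff _ _).2 (subset_ac _ (Set.mem_range_self m))) hn)
  have := hG.perf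
  have := perfect_ac (k := κ) (Set.range fun m : {m // m ≠ i} => y m)
  exact (bda_core _ hstd.pfc (fun a => (bcHom_mem_range_iff _ _).2 a.2)
    (fun x hx => ⟨⟨x, mem_ac_of_isAlgebraic hx⟩, rfl⟩) hgt hs).trans hB

theorem bda_mem {A : Type*} [Field A] [Algebra A G] (T : Set G) (x : G)
    (h : x ∈ (algebraMap A G).range) :
    x ∈ (algebraMap (IntermediateField.adjoin A T) G).range := by
  obtain ⟨c, rfl⟩ := h
  exact ⟨algebraMap A _ c, rfl⟩

omit [IsAlgClosed κ] in
theorem bda_up0 (A : Type*) [Field A] [Algebra A G] {ι : Type*} {y : ι → G} {g x : G}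
    (h1 : ∀ c : κ, algebraMap κ G c ∈ (algebraMap A G).range)
    (h2 : ∀ m, y m ∈ (algebraMap A G).range) (hs : IsSeparable (IntermediateField.adjoin κ
      (Set.range fun o : Option ι => o.elim g y)) x) :
    IsSeparable (IntermediateField.adjoin A (Set.range fun _ : Unit => g)) x := by
  refine bda_sep (RingHom.id G) (fun c => ?_) hs
  refine bda_range (k := κ) (fun c => bda_mem _ _ (h1 c)) ?_ c.2
  rintro _ ⟨_ | m, rfl⟩
  · exact ⟨⟨g, IntermediateField.subset_adjoin _ _ ⟨(), rfl⟩⟩, rfl⟩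
  · exact bda_mem _ _ (h2 m)

omit [IsAlgClosed κ] in
theorem bda_up {ι : Type*} (y : ι → G) {g x : G} (hs : IsSeparable (IntermediateField.adjoin κ
      (Set.range fun o : Option ι => o.elim g y)) x) :
    IsSeparable (IntermediateField.adjoin (ac κ (Set.range y)) (Set.range fun _ : Unit => g)) x :=
  bda_up0 _ (fun c => ⟨algebraMap κ _ c, rfl⟩)
    (fun m => ⟨⟨y m, subset_ac _ (Set.mem_range_self m)⟩, rfl⟩) hs

omit [IsAlgClosed κ] in
theorem bda_fin' {ι : Type*} (y : ι → G) {g x a : G}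
    (a1 : IsSeparable (IntermediateField.adjoin κ (Set.range y)) a)
    (a3 : ∀ x, IsAlgebraic (IntermediateField.adjoin κ (Set.range y)) x →
      x ∈ pc (IntermediateField.adjoin κ (Set.range y)) {a})
    (hs : IsSeparable (IntermediateField.adjoin κ (Set.range fun o : Option ι => o.elim g y)) x) :
    (minpoly (IntermediateField.adjoin κ (Set.range fun o : Option ι => o.elim g y)) x).natDegree ≤
      (minpoly (IntermediateField.adjoin κ (Set.range y)) a).natDegree * (minpoly
      (IntermediateField.adjoin (ac κ (Set.range y)) (Set.range fun _ : Unit => g)) x).natDegree := by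
  refine bda_fin a1 (fun c => ?_) (fun c => a3 _ (mem_ac.1 c.2))
    ⟨⟨g, IntermediateField.subset_adjoin _ _ ⟨none, rfl⟩⟩, rfl⟩ hs (bda_up y hs).isIntegral
  refine ⟨⟨c, IntermediateField.adjoin.mono _ _ _ ?_ c.2⟩, rfl⟩
  rintro _ ⟨m, rfl⟩
  exact ⟨some m, rfl⟩

/-- Let `S = {y m | m ≠ i}`, `C = bcC κ S`, `N = bcN κ S` (a curve, `bc_std`), `A = ac κ S`,
`E = κ(S, g)`. Since `R` involves `Y i`, `g ∉ A` (`dvd_of_rel`), and `y i` is separable over `E` of
degree `degreeOf (some i) R`. `sdeg_le_of_nice` bounds `sdeg C g` by `B`, so `y i` has degree `≤ B`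
over `C(g)`, so over `A(g)` (`natDegree_minpoly_reg` with the family `g`). Elements of `A` separable
over `κ(S)` keep their degree over `κ(y)`, which is `≤ D`; so `[A : κ(S)]_s ≤ D`, and
`[E(y i) : E] ≤ [A(g, y i) : E]_s ≤ B D`. -/
theorem degreeOf_le_of_nice {e : ℕ} (hG : Std ℓ κ G e) {y : Fin e → G}
    (hy : AlgebraicIndependent κ y) {z g : G} (htop : pc κ (insert z (Set.range y)) = ⊤) {D : ℕ}
    (hz : Small κ y D z) (hn : Nice ℓ κ y D g) {R : MvPolynomial (Option (Fin e)) κ}
    (hR : Irreducible R) (h : MvPolynomial.aeval (fun o : Option (Fin e) => o.elim g y) R = 0)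
    (i : Fin e) (hi : MvPolynomial.pderiv (some i) R ≠ 0) :
    R.degreeOf (some i) ≤ D * (4 * (D ^ 4 + 1) + 20 * D ^ 2) := by
  obtain ⟨hs, hdeg⟩ := bda_swap hy hR h i hi
  have hg := bda_notMem hy hR h i hi
  have hs2 := bda_up (fun m : {m // m ≠ i} => y m) hs
  obtain ⟨a, a1, a2, a3⟩ := bda_prim (IntermediateField.adjoin κ
    (Set.range fun m : {m // m ≠ i} => y m)) hG.pf hy htop hz i
    (fun m hm => ⟨⟨y m, IntermediateField.subset_adjoin _ _ ⟨⟨m, hm⟩, rfl⟩⟩, rfl⟩)
    fun h0 => bda_yi hy i (mem_ac.2 h0)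
  exact hdeg.trans ((bda_fin' _ a1 a3 hs).trans
    (Nat.mul_le_mul a2 (bda_bound hG hy htop hz hn i hg hs2)))

end Vale.Agent.P019
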