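import Vale.Agent.P019.PolyRel

open scoped IntermediateField

namespace Vale.Agent.P019

section gen
variable {K : Type*} [Field K]

theorem bda_range {k k' : Type*} [Field k] [Field k'] [Algebra k K] [Algebra k' K]
    (h : ∀ c : k, algebraMap k K c ∈ (algebraMap k' K).range) {S : Set K}
    (hS : ∀ s ∈ S, s ∈ (algebraMap k' K).range) {x : K} (hx : x ∈ IntermediateField.adjoin k S) :
    x ∈ (algebraMap k' K).range := by
  have h1 : (IntermediateField.adjoin k S).toSubfield ≤ (algebraMap k' K).fieldRange := by
    rw [IntermediateField.adjoin_toSubfield, Subfield.closure_le]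
    rintro _ (⟨c, rfl⟩ | hs)
    · exact h c
    · exact hS _ hs
  exact h1 hx

theorem bda_sep {E M N : Type*} [Field E] [Field M] [Field N] [Algebra E K] [Algebra M N]
    (φ : K →+* N) (h : ∀ c : E, φ (algebraMap E K c) ∈ (algebraMap M N).range) {x : K}
    (hs : IsSeparable E x) : IsSeparable M (φ x) := by
  have hi : Function.Injective (algebraMap M N) := (algebraMap M N).injective
  choose f hf using h
  let ψ : E →+* M :=
    { toFun := f
      map_one' := hi (by simp [hf])
      map_mul' := fun a b => hi (by simp [hf])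
      map_zero' := hi (by simp [hf])
      map_add' := fun a b => hi (by simp [hf]) }
  have e : (algebraMap M N).comp ψ = φ.comp (algebraMap E K) := RingHom.ext hf
  refine Polynomial.Separable.of_dvd (Polynomial.Separable.map (f := ψ) hs) (minpoly.dvd _ _ ?_)
  rw [Polynomial.aeval_def, Polynomial.eval₂_map, e, ← Polynomial.hom_eval₂,
    ← Polynomial.aeval_def, minpoly.aeval, map_zero]

theorem bda_lift {F E : Type*} [Field F] [Field E] [Algebra F K] [Algebra E K] {z : K}
    (hz : IsIntegral F z) (h : ∀ c : F, algebraMap F K c ∈ (algebraMap E K).range) :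
    (minpoly E z).natDegree ≤ (minpoly F z).natDegree := by
  have hm := (minpoly.monic hz).map (algebraMap F K)
  obtain ⟨p, h1, h2, h3⟩ := Polynomial.lifts_and_natDegree_eq_and_monic
    (f := algebraMap E K) (p := (minpoly F z).map (algebraMap F K))
    ((Polynomial.lifts_iff_coeff_lifts _).2 fun n => by
      rw [Polynomial.coeff_map]; exact h _) hm
  rw [← (minpoly.monic hz).natDegree_map (algebraMap F K), ← h2]
  refine Polynomial.natDegree_le_of_dvd (minpoly.dvd _ _ ?_) h3.ne_zero
  rw [← Polynomial.eval_map_algebraMap, h1, Polynomial.eval_map_algebraMap, minpoly.aeval]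

theorem bda_pi {F M : Type*} [Field F] [Field M] [Algebra F K] [Algebra M K] {x : K}
    (hx : IsIntegral F x) (hs : IsSeparable M x)
    (h : ∀ c : F, algebraMap F K c ∈ perfectClosure M K) :
    (minpoly M x).natDegree ≤ (minpoly F x).natDegree := by
  have h1 := minpoly.map_eq_of_isSeparable_of_isPurelyInseparable (perfectClosure M K) x hs
  rw [← (minpoly.monic hs.isIntegral).natDegree_map (algebraMap M (perfectClosure M K)), h1]
  exact bda_lift hx fun c => ⟨⟨_, h c⟩, rfl⟩

theorem bda_tower0 {E : Type*} (F : Type*) [Field E] [Field F] [Algebra E F] [Algebra E K]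
    [Algebra F K] [IsScalarTower E F K] [FiniteDimensional E F] {x : K} (hx : IsIntegral F x) :
    (minpoly E x).natDegree ≤ Module.finrank E F * (minpoly F x).natDegree := by
  have := IntermediateField.adjoin.finiteDimensional hx
  have : FiniteDimensional E F⟮x⟯ := .trans _ F _
  rw [← IntermediateField.adjoin.finrank hx, Module.finrank_mul_finrank]
  have : IsScalarTower E F⟮x⟯ K := .of_algebraMap_eq fun _ => rfl
  have h1 := minpoly.natDegree_le (A := E) (IntermediateField.AdjoinSimple.gen F x)
  rwa [← minpoly.algebraMap_eq (algebraMap F⟮x⟯ K).injective] at h1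

theorem bda_tower {E : Type*} [Field E] [Algebra E K] {a x : K} (ha : IsIntegral E a)
    (hx : IsIntegral E x) :
    (minpoly E x).natDegree ≤ (minpoly E a).natDegree * (minpoly E⟮a⟯ x).natDegree := by
  have := IntermediateField.adjoin.finiteDimensional ha
  rw [← IntermediateField.adjoin.finrank ha]
  exact bda_tower0 E⟮a⟯ hx.tower_top

theorem bda_sep_der {E : Type*} [Field E] [Algebra E K] {x : K} {p : Polynomial E}
    (h : Polynomial.aeval x p = 0) (h' : Polynomial.aeval x (Polynomial.derivative p) ≠ 0) :
    IsSeparable E x := by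
  have hp : p ≠ 0 := by rintro rfl; simp at h'
  have hx : IsIntegral E x := IsAlgebraic.isIntegral ⟨p, hp, h⟩
  refine (Polynomial.separable_iff_derivative_ne_zero (minpoly.irreducible hx)).2 fun h0 => h' ?_
  obtain ⟨q, rfl⟩ := minpoly.dvd E x h
  simp [h0]

end gen

section poly
variable {κ G : Type*} [Field κ] [Field G] [Algebra κ G] [IsAlgClosed κ]

open MvPolynomial

omit [IsAlgClosed κ] in
theorem bda_der {ι : Type*} (P : MvPolynomial (Option ι) κ) :
    optionEquivLeft κ ι (pderiv none P) = Polynomial.derivative (optionEquivLeft κ ι P) := by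
  induction P using MvPolynomial.induction_on with
  | C a => simp
  | add p q hp hq => simp [hp, hq]
  | mul_X p o hp => cases o <;> simp [hp, mul_comm]

omit [IsAlgClosed κ] in
theorem bda_deg_dvd {ι : Type*} {P Q : MvPolynomial ι κ} (h : P ∣ Q) (hQ : Q ≠ 0) (i : ι) :
    P.degreeOf i ≤ Q.degreeOf i := by
  obtain ⟨T, rfl⟩ := h
  rw [degreeOf_mul_eq (left_ne_zero_of_mul hQ) (right_ne_zero_of_mul hQ)]
  exact Nat.le_add_right _ _

theorem bda_rel {ι : Type*} {w : ι → G} (hw : AlgebraicIndependent κ w) {x : G}
    {R : MvPolynomial (Option ι) κ} (hR : Irreducible R)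
    (h : aeval (fun o : Option ι => o.elim x w) R = 0) (hd : pderiv none R ≠ 0) :
    IsSeparable (IntermediateField.adjoin κ (Set.range w)) x ∧
      R.degreeOf none ≤ (minpoly (IntermediateField.adjoin κ (Set.range w)) x).natDegree := by
  have hd' : Polynomial.derivative (optionEquivLeft κ ι R) ≠ 0 := by
    rw [← bda_der]; simpa using hd
  have h1 : aeval (fun o : Option ι => o.elim x w) (pderiv none R) ≠ 0 := fun h0 => by
    have h2 := map_dvd (optionEquivLeft κ ι) (dvd_of_rel hw hR h h0)
    rw [bda_der] at h2
    exact absurd (Polynomial.natDegree_le_of_dvd h2 hd') (not_le.2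
      (Polynomial.natDegree_derivative_lt fun h3 =>
        hd' (Polynomial.derivative_of_natDegree_zero h3)))
  let ψ := (aeval (fun j => (⟨w j, IntermediateField.subset_adjoin _ _ ⟨j, rfl⟩⟩ :
    IntermediateField.adjoin κ (Set.range w))) : _ →ₐ[κ] _).toRingHom
  have e : (algebraMap _ G).comp ψ = (aeval w : _ →ₐ[κ] G).toRingHom :=
    ringHom_ext (fun c => by simp [ψ]) fun i => by simp [ψ]
  have hs : IsSeparable (IntermediateField.adjoin κ (Set.range w)) x := by
    refine bda_sep_der (p := (optionEquivLeft κ ι R).map ψ) ?_ ?_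
    · rw [Polynomial.aeval_def, Polynomial.eval₂_map, e, ← fieldb_key, h]
    · rwa [Polynomial.derivative_map, Polynomial.aeval_def, Polynomial.eval₂_map, e, ← bda_der,
        ← fieldb_key]
  obtain ⟨R0, k1, k2, k3⟩ := exists_irred_rel hw (mem_ac.2 hs.isIntegral.isAlgebraic)
  exact ⟨hs, k3 ▸ bda_deg_dvd (dvd_of_rel hw hR h k2) k1.ne_zero _⟩

theorem bda_notMem {ι : Type*} {y : ι → G} (hy : AlgebraicIndependent κ y) {g : G}
    {R : MvPolynomial (Option ι) κ} (hR : Irreducible R)
    (h : aeval (fun o : Option ι => o.elim g y) R = 0) (i : ι) (hi : pderiv (some i) R ≠ 0) :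
    g ∉ ac κ (Set.range fun m : {m // m ≠ i} => y m) := fun hg => by
  classical
  obtain ⟨R0, k1, k2, -⟩ := exists_irred_rel (hy.comp _ Subtype.val_injective) hg
  have hinj : Function.Injective (Option.map (Subtype.val : {m // m ≠ i} → ι)) :=
    Option.map_injective Subtype.val_injective
  have h0 : rename (Option.map (Subtype.val : {m // m ≠ i} → ι)) R0 ≠ 0 := fun h0 =>
    k1.ne_zero (rename_injective _ hinj (by rw [h0, map_zero]))
  have h1 := bda_deg_dvd (dvd_of_rel hy hR h (by
    rw [aeval_rename, ← k2]
    congr 2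
    funext o
    cases o <;> rfl)) h0 (some i)
  refine hi (pderiv_eq_zero_of_notMem_vars fun h2 => ?_)
  have h3 : some i ∈ (rename (Option.map (Subtype.val : {m // m ≠ i} → ι)) R0).vars := by
    rw [mem_vars_iff_degreeOf_ne_zero] at h2 ⊢
    omega
  obtain ⟨o, -, ho⟩ := mem_vars_rename _ _ h3
  cases o with
  | none => simp at ho
  | some m => exact m.2 (by simpa using ho)

theorem bda_swap {ι : Type*} {y : ι → G} (hy : AlgebraicIndependent κ y) {g : G}
    {R : MvPolynomial (Option ι) κ} (hR : Irreducible R)
    (h : aeval (fun o : Option ι => o.elim g y) R = 0) (i : ι) (hi : pderiv (some i) R ≠ 0) :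
    IsSeparable (IntermediateField.adjoin κ
      (Set.range fun o : Option {m // m ≠ i} => o.elim g fun m => y m)) (y i) ∧
    R.degreeOf (some i) ≤ (minpoly (IntermediateField.adjoin κ
      (Set.range fun o : Option {m // m ≠ i} => o.elim g fun m => y m)) (y i)).natDegree := by
  classical
  have hw : AlgebraicIndependent κ fun o : Option {m // m ≠ i} => o.elim g fun m => y m :=
    AlgebraicIndependent.option_iff.2 ⟨hy.comp _ Subtype.val_injective, fun h0 =>
      bda_notMem hy hR h i hi (fielda_mem.2 h0)⟩
  let τ : Option (Option {m // m ≠ i}) ≃ Option ι := Equiv.ofBijective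
    (fun o => o.elim (some i) (Option.map Subtype.val)) ⟨by
      rintro (_ | _ | ⟨a, ha⟩) (_ | _ | ⟨b, hb⟩) h
      all_goals first | rfl | (exact absurd (Option.some.inj h).symm hb) | simp_all, by
      rintro (_ | m)
      · exact ⟨some none, rfl⟩
      · by_cases hm : m = i
        · exact ⟨none, by simp [hm]⟩
        · exact ⟨some (some ⟨m, hm⟩), rfl⟩⟩
  have e : τ.symm (some i) = none := τ.symm_apply_eq.2 rfl
  have h1 := bda_rel hw (x := y i) (R := rename τ.symm R)
    ((MulEquiv.irreducible_iff (renameEquiv κ τ.symm)).2 hR) (by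
      rw [aeval_rename, ← h]
      congr 2
      funext o
      obtain ⟨o, rfl⟩ := τ.surjective o
      rw [Function.comp, τ.symm_apply_apply]
      rcases o with _ | _ | _ <;> rfl) (by
      rw [← e, pderiv_rename τ.symm.injective]
      exact fun h0 => hi (rename_injective _ τ.symm.injective (by rw [h0, map_zero])))
  rwa [← e, degreeOf_rename_of_injective τ.symm.injective] at h1

omit [IsAlgClosed κ] in
theorem bda_total {ι σ C : Type*} [CommRing C] [Algebra κ C] {f : ι → MvPolynomial σ C}
    (hf : ∀ i, (f i).totalDegree ≤ 1) (P : MvPolynomial ι κ) :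
    (aeval f P).totalDegree ≤ P.totalDegree := by
  rw [aeval_def, eval₂_eq]
  refine totalDegree_finsetSum_le fun d hd => (totalDegree_mul _ _).trans ?_
  rw [MvPolynomial.algebraMap_apply, totalDegree_C, zero_add]
  refine (totalDegree_finsetProd _ _).trans (le_trans (Finset.sum_le_sum fun i _ => ?_)
    (le_totalDegree hd))
  exact (totalDegree_pow _ _).trans (mul_le_of_le_one_right (Nat.zero_le _) (hf i))

end poly

end Vale.Agent.P019
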