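import Vale.Agent.P019.BDa

open scoped IntermediateField

namespace Vale.Agent.P019

variable {ℓ : ℕ} [Fact ℓ.Prime] {κ G : Type*} [Field κ] [Field G] [Algebra κ G] [IsAlgClosed κ]

section shear
open MvPolynomial
variable {σ : Type*} [Fintype σ] [DecidableEq σ] {k : Type*} [Field k]

/-- the shear `X i ↦ X i + ∑ ε m X m` -/
noncomputable def bdbS (i : σ) (ε : σ → k) : MvPolynomial σ k →ₐ[k] MvPolynomial σ k :=
  aeval (Function.update X i (X i + ∑ m, C (ε m) * X m))

theorem bdb_X (i : σ) (ε : σ → k) (o : σ) :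
    bdbS i ε (X o) = X o + if o = i then ∑ m, C (ε m) * X m else 0 := by
  rw [bdbS, aeval_X]
  split_ifs with h
  · rw [h, Function.update_self]
  · rw [Function.update_of_ne h, add_zero]

theorem bdb_aeval {A : Type*} [CommRing A] [Algebra k A] (x : σ → A) {i : σ} {ε : σ → k}
    (hε : ε i = 0) (P : MvPolynomial σ k) :
    aeval (Function.update x i (x i - ∑ m, algebraMap k A (ε m) * x m)) (bdbS i ε P) =
      aeval x P := by
  have h : ∀ v m, algebraMap k A (ε m) * Function.update x i v m = algebraMap k A (ε m) * x m := by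
    intro v m
    rcases eq_or_ne m i with rfl | h
    · rw [hε, map_zero, zero_mul, zero_mul]
    · rw [Function.update_of_ne h]
  rw [← AlgHom.comp_apply]
  congr 1
  ext o : 1
  rw [AlgHom.comp_apply, bdb_X, aeval_X, map_add, aeval_X]
  split_ifs with h'
  · simp only [map_sum, map_mul, aeval_C, aeval_X, h, h', Function.update_self, sub_add_cancel]
  · rw [Function.update_of_ne h', map_zero, add_zero]

theorem bdb_inv {i : σ} {ε : σ → k} (hε : ε i = 0) (P : MvPolynomial σ k) :
    bdbS i (-ε) (bdbS i ε P) = P := by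
  have h := bdb_aeval (A := MvPolynomial σ k) X hε P
  rw [aeval_X_left_apply] at h
  refine Eq.trans ?_ h
  simp only [bdbS, Pi.neg_apply, map_neg, neg_mul, Finset.sum_neg_distrib, algebraMap_eq,
    sub_eq_add_neg]

theorem bdb_inv' {i : σ} {ε : σ → k} (hε : ε i = 0) (P : MvPolynomial σ k) :
    bdbS i ε (bdbS i (-ε) P) = P := by
  simpa using bdb_inv (ε := -ε) (by simp [hε]) P

theorem bdb_ne {i : σ} {ε : σ → k} (hε : ε i = 0) {P : MvPolynomial σ k} (h : P ≠ 0) :
    bdbS i ε P ≠ 0 := fun h' => h (by rw [← bdb_inv hε P, h', map_zero])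

theorem bdb_irr {i : σ} {ε : σ → k} (hε : ε i = 0) {P : MvPolynomial σ k} (h : Irreducible P) :
    Irreducible (bdbS i ε P) := by
  have := h.map (AlgEquiv.ofBijective (bdbS i ε) ⟨Function.LeftInverse.injective (bdb_inv hε),
    Function.RightInverse.surjective (bdb_inv' hε)⟩)
  exact this

theorem bdb_deg (i : σ) (ε : σ → k) (P : MvPolynomial σ k) :
    (bdbS i ε P).totalDegree ≤ P.totalDegree := by
  have h : ∀ o, (bdbS i ε (X o)).totalDegree ≤ 1 := fun o => by
    rw [bdb_X]
    refine (totalDegree_add _ _).trans (max_le (totalDegree_X o).le ?_)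
    split_ifs
    · exact totalDegree_finsetSum_le fun m _ => (totalDegree_mul _ _).trans (by simp)
    · simp
  conv_lhs => rw [P.as_sum, map_sum]
  refine totalDegree_finsetSum_le fun m hm => le_trans ?_ (le_totalDegree hm)
  rw [monomial_eq, map_mul, algHom_C, algebraMap_eq, Finsupp.prod, map_prod]
  refine (totalDegree_mul _ _).trans ?_
  rw [totalDegree_C, zero_add]
  refine (totalDegree_finsetProd _ _).trans (Finset.sum_le_sum fun o _ => ?_)
  rw [map_pow]
  exact (totalDegree_pow _ _).trans (by simpa using Nat.mul_le_mul_left (m o) (h o))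

theorem bdb_pderiv (i : σ) (ε : σ → k) (m : σ) (P : MvPolynomial σ k) :
    pderiv m (bdbS i ε P) = bdbS i ε (pderiv m P) + C (ε m) * bdbS i ε (pderiv i P) := by
  induction P using MvPolynomial.induction_on with
  | C a => simp [algHom_C]
  | add p q hp hq => simp only [map_add, hp, hq]; ring
  | mul_X p o hp =>
    have h : pderiv m (bdbS i ε (X o)) =
        bdbS i ε (pderiv m (X o)) + C (ε m) * bdbS i ε (pderiv i (X o)) := by
      rw [bdb_X, map_add, pderiv_X, pderiv_X]
      congr 1
      · simp only [Pi.single_apply, apply_ite (bdbS i ε), map_one, map_zero]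
      · split_ifs with h
        · simp [h, pderiv_X, Pi.single_apply]
        · simp [h]
    simp only [map_mul, pderiv_mul, map_add, hp, h]
    ring

omit [DecidableEq σ] in
theorem bdb_total (P : MvPolynomial σ k) : P.totalDegree ≤ ∑ o, P.degreeOf o :=
  Finset.sup_le fun m hm => by
    rw [Finsupp.sum_fintype _ _ fun _ => rfl]
    exact Finset.sum_le_sum fun o _ => monomial_le_degreeOf o hm

end shear

omit [IsAlgClosed κ] in
theorem bdb_elim {e : ℕ} (y : Fin e → G) (i₀ : Fin e) {ε : Fin e → κ} (hε : ε i₀ = 0) (g : G)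
    (P : MvPolynomial (Option (Fin e)) κ) :
    MvPolynomial.aeval (fun o : Option (Fin e) => o.elim g
      (Function.update y i₀ (y i₀ - ∑ m, algebraMap κ G (ε m) * y m)))
      (bdbS (some i₀) (fun o => o.elim 0 ε) P) =
      MvPolynomial.aeval (fun o : Option (Fin e) => o.elim g y) P := by
  rw [← bdb_aeval (fun o : Option (Fin e) => o.elim g y) (i := some i₀)
    (ε := fun o => o.elim 0 ε) hε]
  congr 2
  ext (_ | o)
  · simp
  · rcases eq_or_ne o i₀ with rfl | h
    · simp
    · simp [h]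

/-- an invertible linear change of the variables `y` -/
theorem Small.shear {e : ℕ} (y : Fin e → G) (i₀ : Fin e) (ε : Fin e → κ) (hε : ε i₀ = 0) {D : ℕ}
    {g : G} : Small κ (Function.update y i₀ (y i₀ - ∑ m, algebraMap κ G (ε m) * y m)) D g ↔
      Small κ y D g := by
  constructor
  · rintro ⟨P, h0, h1, h2⟩
    refine ⟨bdbS (some i₀) (-fun o => o.elim 0 ε) P, bdb_ne (by simp [hε]) h0,
      (bdb_deg _ _ _).trans h1, ?_⟩
    rw [← bdb_elim y i₀ hε, bdb_inv' (by simp [hε]), h2]
  · rintro ⟨P, h0, h1, h2⟩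
    exact ⟨bdbS (some i₀) (fun o => o.elim 0 ε) P, bdb_ne (by simp [hε]) h0,
      (bdb_deg _ _ _).trans h1, by rw [bdb_elim y i₀ hε, h2]⟩

omit [IsAlgClosed κ] in
theorem bdb_indep {e : ℕ} {y : Fin e → G} (hy : AlgebraicIndependent κ y) {i₀ : Fin e}
    {ε : Fin e → κ} (hε : ε i₀ = 0) : AlgebraicIndependent κ
      (Function.update y i₀ (y i₀ - ∑ m, algebraMap κ G (ε m) * y m)) :=
  algebraicIndependent_iff.2 fun P hP => by
    by_contra h
    rw [← bdb_inv' hε P, bdb_aeval y hε] at hP
    exact bdb_ne (by simp [hε]) h (algebraicIndependent_iff.1 hy _ hP)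

omit [IsAlgClosed κ] in
theorem bdb_adjoin {e : ℕ} (y : Fin e → G) {i₀ : Fin e} {ε : Fin e → κ} (hε : ε i₀ = 0) :
    IntermediateField.adjoin κ (Set.range
      (Function.update y i₀ (y i₀ - ∑ m, algebraMap κ G (ε m) * y m))) =
      IntermediateField.adjoin κ (Set.range y) := by
  have key : ∀ (x : Fin e → G) (P : MvPolynomial (Fin e) κ),
      MvPolynomial.aeval x P ∈ IntermediateField.adjoin κ (Set.range x) := fun x P =>
    IntermediateField.algebra_adjoin_le_adjoin _ _ (by
      rw [Algebra.adjoin_range_eq_range_aeval]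
      exact ⟨P, rfl⟩)
  refine le_antisymm (IntermediateField.adjoin_le_iff.2 ?_) (IntermediateField.adjoin_le_iff.2 ?_)
  · rintro _ ⟨m, rfl⟩
    rw [← MvPolynomial.aeval_X (R := κ) (Function.update y i₀ _) m,
      ← bdb_inv' hε (MvPolynomial.X m), bdb_aeval y hε]
    exact key _ _
  · rintro _ ⟨m, rfl⟩
    rw [← MvPolynomial.aeval_X (R := κ) y m, ← bdb_aeval y hε]
    exact key _ _

/-- `R` from `exists_irred_rel`, `i₀` from `exists_pderiv_ne_zero`. Put `ε m = 1` if
`pderiv (some m) R = 0` and `0` otherwise; in the new variables `y'` (as in `Small.shear`) the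
relation `R' = R(Y i₀ + ∑ ε m Y m, …)` has all derivatives in the `Y m` nonzero. Apply
`degreeOf_le_of_nice` for every `m`; the total degree is at most the sum of the `degreeOf`. -/
theorem small_of_nice {e : ℕ} (hG : Std ℓ κ G e) {y : Fin e → G} (hy : AlgebraicIndependent κ y)
    {z g : G} (hs : IsSeparable (IntermediateField.adjoin κ (Set.range y)) z)
    (htop : pc κ (insert z (Set.range y)) = ⊤) {D : ℕ} (hz : Small κ y D z)
    (hN : Nrm (IntermediateField.adjoin κ (insert z (Set.range y))) g) (hn : Nice ℓ κ y D g) :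
    Small κ y (e * (D * (4 * (D ^ 4 + 1) + 20 * D ^ 2)) + D + 1) g := by
  classical
  by_cases hg : Transcendental κ g
  swap
  · obtain ⟨c, rfl⟩ := not_not.1 (mt transcendental_iff.2 hg)
    exact (small_const y c).mono (by omega)
  obtain ⟨h1, h2⟩ := isSeparable_of_mem hs hN.1
  have h3 := h2.trans (hz.natDegree_le hy).2
  obtain ⟨R, hR, hR0, -⟩ := exists_irred_rel hy (mem_ac.2 h1.isIntegral.isAlgebraic)
  obtain ⟨i₀, hi⟩ := exists_pderiv_ne_zero hy hs hg hN hR hR0
  obtain ⟨ε, hε, hε'⟩ : ∃ ε : Fin e → κ, ε i₀ = 0 ∧ ∀ m, MvPolynomial.pderiv (some m)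
      (bdbS (some i₀) (fun o => o.elim 0 ε) R) ≠ 0 := by
    refine ⟨fun m => if MvPolynomial.pderiv (some m) R = 0 then 1 else 0, if_neg hi, fun m => ?_⟩
    rw [bdb_pderiv]
    by_cases h : MvPolynomial.pderiv (some m) R = 0
    · simpa [h] using bdb_ne (by simp [hi]) hi
    · simpa [h] using bdb_ne (by simp [hi]) h
  have hR1 := (bdb_elim y i₀ hε g R).trans hR0
  have hsh := fun D u => Small.shear y i₀ ε hε (D := D) (g := u)
  have hy' := bdb_indep hy hε
  have hA := bdb_adjoin y hε
  rw [← hsh]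
  generalize Function.update y i₀ (y i₀ - ∑ m, algebraMap κ G (ε m) * y m) = y' at *
  have hR' := bdb_irr (i := some i₀) (ε := fun o => o.elim 0 ε) hε hR
  have htop' : pc κ (insert z (Set.range y')) = ⊤ := by
    refine top_le_iff.1 (htop.ge.trans (pc_le_pc (Set.insert_subset
      (subset_pc _ (Set.mem_insert _ _)) fun x hx => adjoin_le_pc _ ?_)))
    exact IntermediateField.adjoin.mono _ _ _ (Set.subset_insert _ _)
      (hA.ge (IntermediateField.subset_adjoin _ _ hx))
  have hn' : Nice ℓ κ y' D g := by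
    obtain ⟨a, ha, h⟩ := hn
    exact ⟨a, ha, fun j => by simpa only [hsh] using h j⟩
  rw [← hA] at h1 h3
  obtain ⟨S, hS, hS0, hS1⟩ := exists_irred_rel hy' (mem_ac.2 h1.isIntegral.isAlgebraic)
  obtain ⟨T, rfl⟩ := dvd_of_rel hy' hR' hR1 hS0
  rw [MvPolynomial.degreeOf_mul_eq hR'.ne_zero (right_ne_zero_of_mul hS.ne_zero)] at hS1
  refine ⟨_, hR'.ne_zero, (bdb_total _).trans ?_, hR1⟩
  have h4 := Finset.sum_le_card_nsmul Finset.univ _ _ fun m _ =>
    degreeOf_le_of_nice hG hy' htop' ((hsh _ _).2 hz) hn' hR' hR1 m (hε' m)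
  rw [Finset.card_univ, Fintype.card_fin, smul_eq_mul] at h4
  rw [Fintype.sum_option]
  omega

end Vale.Agent.P019
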