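import Vale.Agent.P019.Defs

open scoped IntermediateField TensorProduct

namespace Vale.Agent.P019

variable {ℓ : ℕ} [Fact ℓ.Prime] {F E G : Type*} [Field F] [Field E] [Field G]

theorem basic_clu_mul (x y : Fˣ) : clu ℓ (x * y) = clu ℓ x + clu ℓ y := by
  unfold clu
  rw [ofMul_mul, map_add]
  rfl

theorem basic_clu_one : clu ℓ (1 : Fˣ) = 0 := by
  unfold clu
  rw [ofMul_one, map_zero]
  rfl

theorem basic_clu_surj (v : V ℓ F) : ∃ x : Fˣ, clu ℓ x = v := by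
  obtain ⟨a, ha⟩ := Submodule.mkQ_surjective
    (LinearMap.range (LinearMap.lsmul ℤ (Additive Fˣ) (ℓ : ℤ))) v
  exact ⟨Additive.toMul a, ha⟩

theorem basic_clu_eq_zero (x : Fˣ) : clu ℓ x = 0 ↔ ∃ y : Fˣ, y ^ ℓ = x := by
  have h : clu ℓ x = 0 ↔ Additive.ofMul x ∈
      LinearMap.range (LinearMap.lsmul ℤ (Additive Fˣ) (ℓ : ℤ)) :=
    Submodule.Quotient.mk_eq_zero _
  rw [h]
  constructor
  · rintro ⟨a, ha⟩
    refine ⟨Additive.toMul a, ?_⟩
    have h2 : (ℓ : ℤ) • a = Additive.ofMul x := ha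
    rw [natCast_zsmul] at h2
    rw [← toMul_nsmul, h2, toMul_ofMul]
  · rintro ⟨y, rfl⟩
    refine ⟨Additive.ofMul y, ?_⟩
    show (ℓ : ℤ) • Additive.ofMul y = Additive.ofMul (y ^ ℓ)
    rw [natCast_zsmul, ofMul_pow]

theorem basic_cl_of_ne {x : F} (hx : x ≠ 0) : cl ℓ x = clu ℓ (Units.mk0 x hx) := by
  unfold cl
  rw [dif_neg hx]

theorem cl_zero : cl ℓ (0 : F) = 0 := by
  unfold cl
  rw [dif_pos rfl]

theorem cl_unit (x : Fˣ) : cl ℓ (x : F) = clu ℓ x := by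
  rw [basic_cl_of_ne x.ne_zero]
  congr 1
  exact Units.mk0_val x _

theorem cl_one : cl ℓ (1 : F) = 0 := by
  have h := cl_unit (ℓ := ℓ) (1 : Fˣ)
  rw [basic_clu_one] at h
  exact h

theorem cl_mul {x y : F} (hx : x ≠ 0) (hy : y ≠ 0) : cl ℓ (x * y) = cl ℓ x + cl ℓ y := by
  rw [basic_cl_of_ne hx, basic_cl_of_ne hy, basic_cl_of_ne (mul_ne_zero hx hy), ← basic_clu_mul]
  congr 1
  exact Units.ext rfl

theorem cl_inv (x : F) : cl ℓ x⁻¹ = - cl ℓ x := by
  rcases eq_or_ne x 0 with rfl | hx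
  · rw [inv_zero, cl_zero, neg_zero]
  · have h := cl_mul (ℓ := ℓ) (inv_ne_zero hx) hx
    rw [inv_mul_cancel₀ hx, cl_one] at h
    exact eq_neg_of_add_eq_zero_left h.symm

theorem cl_div {x y : F} (hx : x ≠ 0) (hy : y ≠ 0) : cl ℓ (x / y) = cl ℓ x - cl ℓ y := by
  rw [div_eq_mul_inv, cl_mul hx (inv_ne_zero hy), cl_inv, sub_eq_add_neg]

theorem cl_pow (x : F) (n : ℕ) : cl ℓ (x ^ n) = (n : ZMod ℓ) • cl ℓ x := by
  rcases eq_or_ne x 0 with rfl | hx
  · rcases Nat.eq_zero_or_pos n with rfl | hn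
    · rw [pow_zero, cl_one, cl_zero, smul_zero]
    · rw [zero_pow hn.ne', cl_zero, smul_zero]
  · induction n with
    | zero => rw [pow_zero, cl_one, Nat.cast_zero, zero_smul]
    | succ n ih =>
      rw [pow_succ, cl_mul (pow_ne_zero _ hx) hx, ih, Nat.cast_succ, add_smul, one_smul]

theorem cl_zpow (x : F) (n : ℤ) : cl ℓ (x ^ n) = (n : ZMod ℓ) • cl ℓ x := by
  cases n with
  | ofNat n =>
    rw [Int.ofNat_eq_natCast, zpow_natCast, cl_pow, Int.cast_natCast]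
  | negSucc n =>
    rw [zpow_negSucc, cl_inv, cl_pow, Int.cast_negSucc, neg_smul]

theorem cl_prod {J : Type*} (s : Finset J) (x : J → F) (hx : ∀ j ∈ s, x j ≠ 0) :
    cl ℓ (∏ j ∈ s, x j) = ∑ j ∈ s, cl ℓ (x j) := by
  classical
  induction s using Finset.induction_on with
  | empty => rw [Finset.prod_empty, Finset.sum_empty, cl_one]
  | insert a s ha ih =>
    have h1 : ∀ j ∈ s, x j ≠ 0 := fun j hj => hx j (Finset.mem_insert_of_mem hj)
    rw [Finset.prod_insert ha, Finset.sum_insert ha,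
      cl_mul (hx a (Finset.mem_insert_self _ _)) (Finset.prod_ne_zero_iff.2 h1), ih h1]

theorem cl_surj (v : V ℓ F) : ∃ x : F, x ≠ 0 ∧ cl ℓ x = v := by
  obtain ⟨x, hx⟩ := basic_clu_surj v
  exact ⟨x, x.ne_zero, by rw [cl_unit, hx]⟩

theorem cl_eq_zero_iff {x : F} (hx : x ≠ 0) : cl ℓ x = 0 ↔ ∃ y : F, y ^ ℓ = x := by
  rw [basic_cl_of_ne hx, basic_clu_eq_zero]
  constructor
  · rintro ⟨y, hy⟩
    exact ⟨y, by simpa using congrArg Units.val hy⟩
  · rintro ⟨y, hy⟩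
    have hy0 : y ≠ 0 := by
      rintro rfl
      exact hx (by rw [← hy, zero_pow (Fact.out : ℓ.Prime).ne_zero])
    exact ⟨Units.mk0 y hy0, Units.ext (by simpa using hy)⟩

theorem cl_eq_iff {x y : F} (hx : x ≠ 0) (hy : y ≠ 0) :
    cl ℓ x = cl ℓ y ↔ ∃ z : F, z ≠ 0 ∧ x = y * z ^ ℓ := by
  rw [← sub_eq_zero, ← cl_div hx hy, cl_eq_zero_iff (div_ne_zero hx hy)]
  constructor
  · rintro ⟨z, hz⟩
    refine ⟨z, ?_, ?_⟩
    · rintro rfl
      exact div_ne_zero hx hy (by rw [← hz, zero_pow (Fact.out : ℓ.Prime).ne_zero])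
    · rw [hz, mul_div_cancel₀ _ hy]
  · rintro ⟨z, -, rfl⟩
    exact ⟨z, by rw [mul_div_cancel_left₀ _ hy]⟩

theorem cl_const {k : Type*} [Field k] [Algebra k F] [IsAlgClosed k] (c : k) :
    cl ℓ (algebraMap k F c) = 0 := by
  rcases eq_or_ne c 0 with rfl | hc
  · rw [map_zero, cl_zero]
  · obtain ⟨y, hy⟩ := IsAlgClosed.exists_pow_nat_eq c (Fact.out : ℓ.Prime).pos
    rw [cl_eq_zero_iff ((map_ne_zero _).2 hc)]
    exact ⟨algebraMap k F y, by rw [← map_pow, hy]⟩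

theorem cl_neg (k : Type*) [Field k] [Algebra k F] [IsAlgClosed k] (x : F) :
    cl ℓ (-x) = cl ℓ x := by
  rcases eq_or_ne x 0 with rfl | hx
  · rw [neg_zero]
  · have h := cl_const (ℓ := ℓ) (F := F) (-1 : k)
    rw [map_neg, map_one] at h
    rw [← neg_one_mul, cl_mul (neg_ne_zero.2 one_ne_zero) hx, h, zero_add]

theorem cl_const_mul {k : Type*} [Field k] [Algebra k F] [IsAlgClosed k] {c : k} (hc : c ≠ 0)
    (x : F) : cl ℓ (algebraMap k F c * x) = cl ℓ x := by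
  rcases eq_or_ne x 0 with rfl | hx
  · rw [mul_zero]
  · rw [cl_mul ((map_ne_zero _).2 hc) hx, cl_const, zero_add]

theorem V_ext {W : Type*} [AddCommGroup W] [Module (ZMod ℓ) W] {f g : V ℓ F →ₗ[ZMod ℓ] W}
    (h : ∀ x : F, x ≠ 0 → f (cl ℓ x) = g (cl ℓ x)) : f = g := by
  ext v
  obtain ⟨x, hx, rfl⟩ := cl_surj v
  exact h x hx

/-- universal property of `V` -/
theorem exists_lin {W : Type*} [AddCommGroup W] [Module (ZMod ℓ) W] (w : F → W)
    (hw : ∀ x y, x ≠ 0 → y ≠ 0 → w (x * y) = w x + w y) :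
    ∃ f : V ℓ F →ₗ[ZMod ℓ] W, ∀ x, x ≠ 0 → f (cl ℓ x) = w x := by
  have h1 : w 1 = 0 := by
    have := hw 1 1 one_ne_zero one_ne_zero
    rw [mul_one] at this
    exact left_eq_add.1 this
  let φ : Additive Fˣ →+ W :=
    { toFun := fun a => w ((Additive.toMul a : Fˣ) : F)
      map_zero' := h1
      map_add' := fun a b => hw _ _ (Units.ne_zero _) (Units.ne_zero _) }
  refine ⟨(ModN.liftEquiv' (G := Additive Fˣ) (n := ℓ) (H := W)).symm ⟨φ, fun g => by
    rw [← Nat.cast_smul_eq_nsmul (ZMod ℓ), ZMod.natCast_self, zero_smul]⟩, fun x hx => ?_⟩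
  rw [basic_cl_of_ne hx]
  rfl

theorem Vmap_cl (φ : F →+* E) (x : F) : Vmap ℓ φ (cl ℓ x) = cl ℓ (φ x) := by
  rcases eq_or_ne x 0 with rfl | hx
  · rw [map_zero φ, cl_zero, cl_zero, map_zero]
  · rw [basic_cl_of_ne hx, basic_cl_of_ne ((map_ne_zero φ).2 hx)]
    have h : Units.mk0 (φ x) ((map_ne_zero φ).2 hx) =
        Units.map φ.toMonoidHom (Units.mk0 x hx) := Units.ext rfl
    rw [h]
    rfl

theorem Vmap_comp (φ : F →+* E) (ψ : E →+* G) :
    Vmap ℓ (ψ.comp φ) = Vmap ℓ ψ ∘ₗ Vmap ℓ φ := V_ext fun x _ => by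
  rw [LinearMap.comp_apply, Vmap_cl, Vmap_cl, Vmap_cl, RingHom.comp_apply]

theorem Vmap_id : Vmap ℓ (RingHom.id F) = LinearMap.id := V_ext fun x _ => by
  rw [Vmap_cl, RingHom.id_apply, LinearMap.id_apply]

theorem mem_range_Vmap (φ : F →+* E) (z : V ℓ E) :
    z ∈ LinearMap.range (Vmap ℓ φ) ↔ ∃ x : F, x ≠ 0 ∧ cl ℓ (φ x) = z := by
  constructor
  · rintro ⟨v, rfl⟩
    obtain ⟨x, hx, rfl⟩ := cl_surj v
    exact ⟨x, hx, (Vmap_cl φ x).symm⟩
  · rintro ⟨x, -, rfl⟩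
    exact ⟨cl ℓ x, Vmap_cl φ x⟩

theorem Vmap_injective (φ : F →+* E) (h : ∀ (y : E) (x : F), y ^ ℓ = φ x → y ∈ φ.range) :
    Function.Injective (Vmap ℓ φ) := by
  rw [injective_iff_map_eq_zero]
  intro v hv
  obtain ⟨x, hx, rfl⟩ := cl_surj v
  rw [Vmap_cl, cl_eq_zero_iff ((map_ne_zero φ).2 hx)] at hv
  obtain ⟨y, hy⟩ := hv
  obtain ⟨z, rfl⟩ := h y x hy
  rw [cl_eq_zero_iff hx]
  exact ⟨z, φ.injective (by rw [map_pow, hy])⟩

theorem basic_expChar (hl : (ℓ : F) ≠ 0) : ((ringExpChar F : ℕ) : ZMod ℓ) ≠ 0 := by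
  have hq : ExpChar F (ringExpChar F) := inferInstance
  generalize ringExpChar F = q at hq ⊢
  cases hq with
  | zero => rw [Nat.cast_one]; exact one_ne_zero
  | prime hp =>
    intro h
    rw [ZMod.natCast_eq_zero_iff] at h
    have h2 : ℓ = q := (Nat.prime_dvd_prime_iff_eq (Fact.out : ℓ.Prime) hp).1 h
    exact hl (by rw [h2]; exact CharP.cast_eq_zero F q)

theorem basic_expChar_pow (φ : F →+* E) (hl : (ℓ : F) ≠ 0) (n : ℕ) :
    ((ringExpChar E ^ n : ℕ) : ZMod ℓ) ≠ 0 := by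
  have hE : (ℓ : E) ≠ 0 := by
    rw [← map_natCast φ]
    exact (map_ne_zero φ).2 hl
  rw [Nat.cast_pow]
  exact pow_ne_zero _ (basic_expChar hE)

/-- a purely inseparable extension does not change `V` (`ℓ` is prime to the exponential
characteristic) -/
theorem Vmap_bijective_of_pi (φ : F →+* E) (hl : (ℓ : F) ≠ 0)
    (h : ∀ y : E, ∃ n : ℕ, y ^ ringExpChar E ^ n ∈ φ.range) : Function.Bijective (Vmap ℓ φ) := by
  constructor
  · rw [injective_iff_map_eq_zero]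
    intro v hv
    obtain ⟨x, hx, rfl⟩ := cl_surj v
    rw [Vmap_cl, cl_eq_zero_iff ((map_ne_zero φ).2 hx)] at hv
    obtain ⟨y, hy⟩ := hv
    obtain ⟨n, z, hz⟩ := h y
    have h1 : z ^ ℓ = x ^ ringExpChar E ^ n := φ.injective (by
      rw [map_pow, map_pow, hz, ← hy, ← pow_mul, ← pow_mul, mul_comm])
    have h2 : cl ℓ (x ^ ringExpChar E ^ n) = 0 :=
      (cl_eq_zero_iff (pow_ne_zero _ hx)).2 ⟨z, h1⟩
    rw [cl_pow] at h2
    exact (smul_eq_zero.1 h2).resolve_left (basic_expChar_pow φ hl n)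
  · intro v
    obtain ⟨y, -, rfl⟩ := cl_surj v
    obtain ⟨n, z, hz⟩ := h y
    refine ⟨((ringExpChar E ^ n : ℕ) : ZMod ℓ)⁻¹ • cl ℓ z, ?_⟩
    rw [map_smul, Vmap_cl, hz, cl_pow, smul_smul,
      inv_mul_cancel₀ (basic_expChar_pow φ hl n), one_smul]

theorem expChar_cast_ne_zero (hl : (ℓ : F) ≠ 0) : ((ringExpChar F : ℕ) : ZMod ℓ) ≠ 0 := basic_expChar hl

theorem exists_primitiveRoot (k : Type*) [Field k] [IsAlgClosed k] (hl : (ℓ : k) ≠ 0) :
    ∃ ζ : k, IsPrimitiveRoot ζ ℓ := by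
  have : NeZero (ℓ : k) := ⟨hl⟩
  exact HasEnoughRootsOfUnity.exists_primitiveRoot k ℓ

/-! commuting pairs -/

theorem CP.refl (f : DV ℓ F) : CP f f := fun _ _ _ => mul_comm _ _

theorem CP.symm {f g : DV ℓ F} (h : CP f g) : CP g f := fun x h0 h1 => by
  rw [mul_comm, ← h x h0 h1, mul_comm]

theorem CP.zero_left (g : DV ℓ F) : CP 0 g := fun x _ _ => by
  simp

theorem CP.add_left {f f' g : DV ℓ F} (h : CP f g) (h' : CP f' g) : CP (f + f') g := fun x h0 h1 => by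
  rw [LinearMap.add_apply, LinearMap.add_apply, add_mul, add_mul, h x h0 h1, h' x h0 h1]

theorem CP.smul_left {f g : DV ℓ F} (c : ZMod ℓ) (h : CP f g) : CP (c • f) g := fun x h0 h1 => by
  rw [LinearMap.smul_apply, LinearMap.smul_apply, smul_mul_assoc, smul_mul_assoc, h x h0 h1]

theorem CP.add_right {f g g' : DV ℓ F} (h : CP f g) (h' : CP f g') : CP f (g + g') := (h.symm.add_left h'.symm).symm

theorem CP.smul_right {f g : DV ℓ F} (c : ZMod ℓ) (h : CP f g) : CP f (c • g) := (h.symm.smul_left c).symm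

theorem CP.comap (φ : F →+* E) {f g : DV ℓ E} (h : CP f g) :
    CP (f ∘ₗ Vmap ℓ φ) (g ∘ₗ Vmap ℓ φ) := fun x h0 h1 => by
  simp only [LinearMap.comp_apply, Vmap_cl, map_sub φ, map_one φ]
  exact h (φ x) ((map_ne_zero φ).2 h0) (fun h2 => h1 (φ.injective (by rw [h2, map_one])))

/-- hint: `(1 - y) ^ q ^ n = 1 - y ^ q ^ n`, and `q` is invertible mod `ℓ` -/
theorem CP.of_comap_pi (φ : F →+* E) (hl : (ℓ : F) ≠ 0)
    (h : ∀ y : E, ∃ n : ℕ, y ^ ringExpChar E ^ n ∈ φ.range) {f g : DV ℓ E}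
    (hc : CP (f ∘ₗ Vmap ℓ φ) (g ∘ₗ Vmap ℓ φ)) : CP f g := by
  intro y h0 h1
  obtain ⟨n, z, hz⟩ := h y
  have hs : φ (1 - z) = (1 - y) ^ ringExpChar E ^ n := by
    rw [sub_pow_expChar_pow, one_pow, map_sub, map_one, hz]
  have hz0 : z ≠ 0 := by
    rintro rfl
    exact pow_ne_zero _ h0 (by rw [← hz, map_zero])
  have hz1 : z ≠ 1 := by
    rintro rfl
    rw [sub_self, map_zero] at hs
    exact pow_ne_zero _ (sub_ne_zero.2 h1.symm) hs.symm
  have h2 := hc z hz0 hz1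
  simp only [LinearMap.comp_apply, Vmap_cl] at h2
  rw [hs, hz, cl_pow, cl_pow] at h2
  simp only [map_smul, smul_eq_mul] at h2
  have hq := basic_expChar_pow φ hl n
  apply mul_left_cancel₀ (mul_ne_zero hq hq)
  linear_combination h2

theorem Iso.symm {Θ : V ℓ F ≃ₗ[ZMod ℓ] V ℓ E} (h : Iso Θ) : Iso Θ.symm := fun f g => by
  rw [h]
  have e : ∀ u : DV ℓ F, (u ∘ₗ Θ.symm.toLinearMap) ∘ₗ Θ.toLinearMap = u := fun u => by
    ext v
    simp
  rw [e, e]

theorem Iso.trans {Θ : V ℓ F ≃ₗ[ZMod ℓ] V ℓ E} {Θ' : V ℓ E ≃ₗ[ZMod ℓ] V ℓ G} (h : Iso Θ)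
    (h' : Iso Θ') : Iso (Θ.trans Θ') := fun f g => by
  rw [h', h]
  rfl

theorem exists_iso_of_pi (φ : F →+* E) (hl : (ℓ : F) ≠ 0)
    (h : ∀ y : E, ∃ n : ℕ, y ^ ringExpChar E ^ n ∈ φ.range) :
    ∃ Θ : V ℓ F ≃ₗ[ZMod ℓ] V ℓ E, Iso Θ ∧ Θ.toLinearMap = Vmap ℓ φ := by
  refine ⟨LinearEquiv.ofBijective (Vmap ℓ φ) (Vmap_bijective_of_pi φ hl h), fun f g => ?_, rfl⟩
  exact ⟨fun hc => hc.comap φ, fun hc => CP.of_comap_pi φ hl h hc⟩

/-- the alternating functional attached to a pair -/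
noncomputable def basic_alt (f g : DV ℓ F) : V ℓ F ⊗[ZMod ℓ] V ℓ F →ₗ[ZMod ℓ] ZMod ℓ :=
  LinearMap.mul' (ZMod ℓ) (ZMod ℓ) ∘ₗ TensorProduct.map f g -
    LinearMap.mul' (ZMod ℓ) (ZMod ℓ) ∘ₗ TensorProduct.map g f

theorem basic_alt_tmul (f g : DV ℓ F) (a b : V ℓ F) :
    basic_alt f g (a ⊗ₜ[ZMod ℓ] b) = f a * g b - g a * f b := by
  simp [basic_alt]

theorem basic_CP_iff (f g : DV ℓ F) : CP f g ↔ Rsub ℓ F ≤ LinearMap.ker (basic_alt f g) := by
  unfold Rsub
  rw [Submodule.span_le]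
  constructor
  · rintro h t ⟨x, y, hxy, rfl⟩
    have hy : (y : F) = 1 - x := by rw [← hxy]; ring
    have hx1 : (x : F) ≠ 1 := fun h1 => y.ne_zero (by rw [hy, h1, sub_self])
    have h2 := h x x.ne_zero hx1
    rw [← hy, cl_unit, cl_unit] at h2
    rw [SetLike.mem_coe, LinearMap.mem_ker, basic_alt_tmul, h2]
    ring
  · intro h x h0 h1
    have h1' : (1 - x : F) ≠ 0 := sub_ne_zero.2 h1.symm
    have h2 := h (a := clu ℓ (Units.mk0 x h0) ⊗ₜ[ZMod ℓ] clu ℓ (Units.mk0 (1 - x) h1'))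
      ⟨_, _, by simp, rfl⟩
    rw [SetLike.mem_coe, LinearMap.mem_ker, basic_alt_tmul, ← basic_cl_of_ne h0,
      ← basic_cl_of_ne h1'] at h2
    linear_combination h2

/-- hint: `CP f g` says that the functional `a ⊗ b ↦ f a * g b - f b * g a` kills `Rsub` -/
theorem iso_of_Rsub (Θ : V ℓ F ≃ₗ[ZMod ℓ] V ℓ E)
    (h : (Rsub ℓ F).map (TensorProduct.map Θ.toLinearMap Θ.toLinearMap) = Rsub ℓ E) : Iso Θ := by
  intro f g
  rw [basic_CP_iff, basic_CP_iff, ← h, Submodule.map_le_iff_le_comap, ← LinearMap.ker_comp]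
  have e : basic_alt f g ∘ₗ TensorProduct.map Θ.toLinearMap Θ.toLinearMap =
      basic_alt (f ∘ₗ Θ.toLinearMap) (g ∘ₗ Θ.toLinearMap) := by
    apply TensorProduct.ext'
    intro a b
    simp [basic_alt_tmul]
  rw [e]

/-! membership in `U`, `U1`, `II`, `DD`, `H`, `HF` -/

theorem mem_U {O : ValuationSubring F} {z : V ℓ F} :
    z ∈ U ℓ O ↔ ∃ x : F, O.valuation x = 1 ∧ cl ℓ x = z := by
  constructor
  · intro hz
    induction hz using Submodule.span_induction with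
    | mem v hv => exact hv
    | zero => exact ⟨1, map_one _, cl_one⟩
    | add a b _ _ ha hb =>
      obtain ⟨x, hx, rfl⟩ := ha
      obtain ⟨y, hy, rfl⟩ := hb
      refine ⟨x * y, by rw [map_mul, hx, hy, mul_one], cl_mul ?_ ?_⟩
      · rintro rfl; simp at hx
      · rintro rfl; simp at hy
    | smul c a _ ha =>
      obtain ⟨x, hx, rfl⟩ := ha
      exact ⟨x ^ c.val, by rw [map_pow, hx, one_pow], by rw [cl_pow, ZMod.natCast_zmod_val]⟩
  · intro hz
    exact Submodule.subset_span hz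

theorem basic_val_of_pu {O : ValuationSubring F} {x : F} (hx : O.valuation (x - 1) < 1) :
    O.valuation x = 1 := by
  have h := O.valuation.map_one_add_of_lt hx
  rwa [add_sub_cancel] at h

theorem basic_ne_zero {O : ValuationSubring F} {x : F} (hx : O.valuation x = 1) : x ≠ 0 := by
  rintro rfl
  simp at hx

theorem basic_pu_mul {O : ValuationSubring F} {x y : F} (hx : O.valuation (x - 1) < 1)
    (hy : O.valuation (y - 1) < 1) : O.valuation (x * y - 1) < 1 := by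
  have e : x * y - 1 = (x - 1) * y + (y - 1) := by ring
  rw [e]
  refine O.valuation.map_add_lt ?_ hy
  rw [map_mul, basic_val_of_pu hy, mul_one]
  exact hx

theorem basic_pu_pow {O : ValuationSubring F} {x : F} (hx : O.valuation (x - 1) < 1) (n : ℕ) :
    O.valuation (x ^ n - 1) < 1 := by
  induction n with
  | zero => simp
  | succ n ih => rw [pow_succ]; exact basic_pu_mul ih hx

theorem mem_U1 {O : ValuationSubring F} {z : V ℓ F} :
    z ∈ U1 ℓ O ↔ ∃ x : F, O.valuation (x - 1) < 1 ∧ cl ℓ x = z := by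
  constructor
  · intro hz
    induction hz using Submodule.span_induction with
    | mem v hv => exact hv
    | zero => exact ⟨1, by simp, cl_one⟩
    | add a b _ _ ha hb =>
      obtain ⟨x, hx, rfl⟩ := ha
      obtain ⟨y, hy, rfl⟩ := hb
      exact ⟨x * y, basic_pu_mul hx hy,
        cl_mul (basic_ne_zero (basic_val_of_pu hx)) (basic_ne_zero (basic_val_of_pu hy))⟩
    | smul c a _ ha =>
      obtain ⟨x, hx, rfl⟩ := ha
      exact ⟨x ^ c.val, basic_pu_pow hx _, by rw [cl_pow, ZMod.natCast_zmod_val]⟩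
  · intro hz
    exact Submodule.subset_span hz

theorem cl_mem_U_iff {O : ValuationSubring F} {x : F} (hx : x ≠ 0) :
    cl ℓ x ∈ U ℓ O ↔ ∃ z : F, z ≠ 0 ∧ O.valuation x = O.valuation z ^ ℓ := by
  rw [mem_U]
  constructor
  · rintro ⟨y, hy, h⟩
    obtain ⟨z, hz, rfl⟩ := (cl_eq_iff hx (basic_ne_zero hy)).1 h.symm
    exact ⟨z, hz, by rw [map_mul, hy, one_mul, map_pow]⟩
  · rintro ⟨z, hz, h⟩
    have hv : O.valuation z ^ ℓ ≠ 0 := pow_ne_zero _ ((map_ne_zero _).2 hz)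
    refine ⟨x / z ^ ℓ, by rw [map_div₀, map_pow, h, div_self hv], ?_⟩
    rw [cl_div hx (pow_ne_zero _ hz), cl_pow, ZMod.natCast_self, zero_smul, sub_zero]

theorem mem_II {O : ValuationSubring F} {f : DV ℓ F} :
    f ∈ II ℓ O ↔ ∀ x : F, O.valuation x = 1 → f (cl ℓ x) = 0 := by
  unfold II
  rw [Submodule.mem_dualAnnihilator]
  constructor
  · intro h x hx
    exact h _ (mem_U.2 ⟨x, hx, rfl⟩)
  · intro h w hw
    obtain ⟨x, hx, rfl⟩ := mem_U.1 hw
    exact h x hx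

theorem mem_DD {O : ValuationSubring F} {f : DV ℓ F} :
    f ∈ DD ℓ O ↔ ∀ x : F, O.valuation (x - 1) < 1 → f (cl ℓ x) = 0 := by
  unfold DD
  rw [Submodule.mem_dualAnnihilator]
  constructor
  · intro h x hx
    exact h _ (mem_U1.2 ⟨x, hx, rfl⟩)
  · intro h w hw
    obtain ⟨x, hx, rfl⟩ := mem_U1.1 hw
    exact h x hx

theorem mem_U_iff_II {O : ValuationSubring F} {z : V ℓ F} :
    z ∈ U ℓ O ↔ ∀ f ∈ II ℓ O, f z = 0 := (Subspace.forall_mem_dualAnnihilator_apply_eq_zero_iff (U ℓ O) z).symm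

theorem mem_U1_iff_DD {O : ValuationSubring F} {z : V ℓ F} :
    z ∈ U1 ℓ O ↔ ∀ f ∈ DD ℓ O, f z = 0 := (Subspace.forall_mem_dualAnnihilator_apply_eq_zero_iff (U1 ℓ O) z).symm

theorem II_apply_eq {O : ValuationSubring F} {f : DV ℓ F} (hf : f ∈ II ℓ O) {x y : F}
    (h : O.valuation x = O.valuation y) : f (cl ℓ x) = f (cl ℓ y) := by
  rcases eq_or_ne y 0 with rfl | hy
  · rw [map_zero, map_eq_zero] at h
    rw [h]
  · have hvy : O.valuation y ≠ 0 := (map_ne_zero _).2 hy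
    have hx : x ≠ 0 := by
      rintro rfl
      exact hvy (by rw [← h, map_zero])
    have h1 := mem_II.1 hf (x / y) (by rw [map_div₀, h, div_self hvy])
    rwa [cl_div hx hy, map_sub, sub_eq_zero] at h1

theorem DD_apply_eq {O : ValuationSubring F} {f : DV ℓ F} (hf : f ∈ DD ℓ O) {x y : F}
    (h : O.valuation (x - y) < O.valuation y) : f (cl ℓ x) = f (cl ℓ y) := by
  have hvy : O.valuation y ≠ 0 := (lt_of_le_of_lt zero_le h).ne'
  have hy : y ≠ 0 := (map_ne_zero _).1 hvy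
  have hx : x ≠ 0 := by
    rintro rfl
    rw [zero_sub, Valuation.map_neg] at h
    exact lt_irrefl _ h
  have h0 : O.valuation (x / y - 1) < 1 := by
    rw [div_sub_one hy, map_div₀]
    exact (div_lt_one₀ (zero_lt_iff.2 hvy)).2 h
  have h1 := mem_DD.1 hf (x / y) h0
  rwa [cl_div hx hy, map_sub, sub_eq_zero] at h1

theorem basic_val_le {O : ValuationSubring F} {x y : F} (hy : y ≠ 0) :
    O.valuation x ≤ O.valuation y ↔ x / y ∈ O := by
  rw [← O.valuation_le_one_iff, map_div₀,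
    div_le_one₀ (zero_lt_iff.2 ((map_ne_zero O.valuation).2 hy))]

theorem basic_comap_le (φ : F →+* E) (O : ValuationSubring E) (x y : F) :
    (O.comap φ).valuation x ≤ (O.comap φ).valuation y ↔
      O.valuation (φ x) ≤ O.valuation (φ y) := by
  rcases eq_or_ne y 0 with rfl | hy
  · simp
  · rw [basic_val_le hy, basic_val_le ((map_ne_zero φ).2 hy), ValuationSubring.mem_comap, map_div₀]

theorem basic_comap_lt (φ : F →+* E) (O : ValuationSubring E) (x y : F) :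
    (O.comap φ).valuation x < (O.comap φ).valuation y ↔
      O.valuation (φ x) < O.valuation (φ y) := by
  rw [← not_le, ← not_le, basic_comap_le]

theorem basic_comap_eq (φ : F →+* E) (O : ValuationSubring E) (x y : F) :
    (O.comap φ).valuation x = (O.comap φ).valuation y ↔
      O.valuation (φ x) = O.valuation (φ y) := by
  rw [le_antisymm_iff, le_antisymm_iff, basic_comap_le, basic_comap_le]

theorem basic_comap_lt_one (φ : F →+* E) (O : ValuationSubring E) (x : F) :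
    (O.comap φ).valuation x < 1 ↔ O.valuation (φ x) < 1 := by
  have h := basic_comap_lt φ O x 1
  rwa [map_one, map_one φ, map_one] at h

theorem basic_comap_eq_one (φ : F →+* E) (O : ValuationSubring E) (x : F) :
    (O.comap φ).valuation x = 1 ↔ O.valuation (φ x) = 1 := by
  have h := basic_comap_eq φ O x 1
  rwa [map_one, map_one φ, map_one] at h

theorem II_comap (φ : F →+* E) {O : ValuationSubring E} {f : DV ℓ E} (hf : f ∈ II ℓ O) :
    f ∘ₗ Vmap ℓ φ ∈ II ℓ (O.comap φ) := mem_II.2 fun x hx => by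
  rw [LinearMap.comp_apply, Vmap_cl]
  exact mem_II.1 hf _ ((basic_comap_eq_one φ O x).1 hx)

theorem DD_comap (φ : F →+* E) {O : ValuationSubring E} {f : DV ℓ E} (hf : f ∈ DD ℓ O) :
    f ∘ₗ Vmap ℓ φ ∈ DD ℓ (O.comap φ) := mem_DD.2 fun x hx => by
  rw [LinearMap.comp_apply, Vmap_cl]
  rw [basic_comap_lt_one, map_sub, map_one] at hx
  exact mem_DD.1 hf _ hx

theorem comap_val_le (φ : F →+* E) (O : ValuationSubring E) (x y : F) :
    (O.comap φ).valuation x ≤ (O.comap φ).valuation y ↔ O.valuation (φ x) ≤ O.valuation (φ y) := basic_comap_le φ O x y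

theorem comap_val_lt (φ : F →+* E) (O : ValuationSubring E) (x y : F) :
    (O.comap φ).valuation x < (O.comap φ).valuation y ↔ O.valuation (φ x) < O.valuation (φ y) := basic_comap_lt φ O x y

theorem comap_val_eq (φ : F →+* E) (O : ValuationSubring E) (x y : F) :
    (O.comap φ).valuation x = (O.comap φ).valuation y ↔ O.valuation (φ x) = O.valuation (φ y) := basic_comap_eq φ O x y

theorem comap_val_lt_one (φ : F →+* E) (O : ValuationSubring E) (x : F) :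
    (O.comap φ).valuation x < 1 ↔ O.valuation (φ x) < 1 := basic_comap_lt_one φ O x

theorem comap_val_eq_one (φ : F →+* E) (O : ValuationSubring E) (x : F) :
    (O.comap φ).valuation x = 1 ↔ O.valuation (φ x) = 1 := basic_comap_eq_one φ O x

theorem val_eq_one_iff {O : ValuationSubring F} {x : F} :
    O.valuation x = 1 ↔ x ≠ 0 ∧ x ∈ O ∧ x⁻¹ ∈ O := by
  constructor
  · intro h
    refine ⟨basic_ne_zero h, (O.valuation_le_one_iff x).1 h.le, (O.valuation_le_one_iff _).1 ?_⟩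
    rw [map_inv₀, h, inv_one]
  · rintro ⟨h0, h1, h2⟩
    refine le_antisymm ((O.valuation_le_one_iff x).2 h1) ?_
    have h3 := (O.valuation_le_one_iff _).2 h2
    rw [map_inv₀] at h3
    exact (inv_le_one₀ (zero_lt_iff.2 ((map_ne_zero O.valuation).2 h0))).1 h3

theorem val_const_eq_one {k : Type*} [Field k] [Algebra k F] {O : ValuationSubring F}
    (h : ∀ c : k, algebraMap k F c ∈ O) {c : k} (hc : c ≠ 0) :
    O.valuation (algebraMap k F c) = 1 := val_eq_one_iff.2 ⟨(map_ne_zero _).2 hc, h c, by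
  rw [← map_inv₀]; exact h _⟩

theorem mem_HF {k : Type*} [Field k] [Algebra k F] {A : IntermediateField k F} {z : V ℓ F} :
    z ∈ HF ℓ A ↔ ∃ x ∈ A, x ≠ 0 ∧ cl ℓ x = z := by
  unfold HF
  rw [mem_range_Vmap]
  constructor
  · rintro ⟨x, hx, h⟩
    exact ⟨x, x.2, fun h0 => hx (Subtype.ext h0), h⟩
  · rintro ⟨x, hA, hx, h⟩
    exact ⟨⟨x, hA⟩, fun h0 => hx (congrArg Subtype.val h0), h⟩

theorem H_eq_HF {k : Type*} [Field k] [Algebra k F] (t : F) : H k ℓ t = HF ℓ (ac k {t}) := rfl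

theorem rst_cl {k : Type*} [Field k] [Algebra k F] (A : IntermediateField k F) (ρ : DV ℓ F)
    (x : A) : rst A ρ (cl ℓ x) = ρ (cl ℓ (x : F)) := by
  unfold rst
  rw [LinearMap.comp_apply, Vmap_cl]
  rfl

theorem rst_eq_zero_iff {k : Type*} [Field k] [Algebra k F] (A : IntermediateField k F)
    (ρ : DV ℓ F) : rst A ρ = 0 ↔ ∀ z ∈ HF ℓ A, ρ z = 0 := by
  constructor
  · rintro h z ⟨v, rfl⟩
    exact LinearMap.congr_fun h v
  · intro h
    ext v
    exact h _ ⟨v, rfl⟩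

/-- dual vectors: independent functionals have a dual family of classes -/
theorem exists_dual {J : Type*} [Fintype J] [DecidableEq J] (σ : J → DV ℓ F)
    (h : LinearIndependent (ZMod ℓ) σ) :
    ∃ x : J → F, (∀ j, x j ≠ 0) ∧ ∀ i j, σ i (cl ℓ (x j)) = if i = j then 1 else 0 := by
  have key : ∀ j : J, ∃ x : F, x ≠ 0 ∧ ∀ i, σ i (cl ℓ x) = if i = j then 1 else 0 := by
    intro j
    have h1 : σ j ∉ Submodule.span (ZMod ℓ) (σ '' {i | i ≠ j}) :=
      h.notMem_span_image (by simp)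
    have h2 : ¬ (⨅ i : {i // i ≠ j}, LinearMap.ker (σ i.1) ≤ LinearMap.ker (σ j)) := by
      intro h3
      apply h1
      have h4 := mem_span_of_iInf_ker_le_ker h3
      refine Submodule.span_mono ?_ h4
      rintro _ ⟨i, rfl⟩
      exact ⟨i.1, i.2, rfl⟩
    obtain ⟨v, hv, hvj⟩ := SetLike.not_le_iff_exists.1 h2
    rw [LinearMap.mem_ker] at hvj
    obtain ⟨x, hx, hxv⟩ := cl_surj ((σ j v)⁻¹ • v)
    refine ⟨x, hx, fun i => ?_⟩
    rw [hxv, map_smul, smul_eq_mul]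
    split_ifs with hij
    · rw [hij, inv_mul_cancel₀ hvj]
    · have h5 : σ i v = 0 := (Submodule.mem_iInf _).1 hv ⟨i, hij⟩
      rw [h5, mul_zero]
  choose x hx hx' using key
  exact ⟨x, hx, fun i j => hx' j i⟩

/-- pointwise proportional linear maps are proportional -/
theorem exists_scalar {W W' : Type*} [AddCommGroup W] [Module (ZMod ℓ) W] [AddCommGroup W']
    [Module (ZMod ℓ) W'] (A B : W →ₗ[ZMod ℓ] W') (hA : Function.Injective A)
    (h : ∀ v, ∃ c : ZMod ℓ, A v = c • B v) : ∃ c : ZMod ℓ, c ≠ 0 ∧ ∀ v, A v = c • B v := by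
  by_cases hW : ∀ v : W, v = 0
  · exact ⟨1, one_ne_zero, fun v => by rw [hW v, map_zero, map_zero, smul_zero]⟩
  push Not at hW
  obtain ⟨v0, hv0⟩ := hW
  have hne : ∀ v : W, v ≠ 0 → ∀ c : ZMod ℓ, A v = c • B v → c ≠ 0 := by
    intro v hv c hc h0
    rw [h0, zero_smul] at hc
    exact hv (hA (by rw [hc, map_zero]))
  obtain ⟨c0, hc0⟩ := h v0
  have h0 := hne v0 hv0 c0 hc0
  refine ⟨c0, h0, fun v => ?_⟩
  rcases eq_or_ne v 0 with rfl | hv
  · rw [map_zero, map_zero, smul_zero]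
  obtain ⟨c1, hc1⟩ := h v
  have h1 := hne v hv c1 hc1
  obtain ⟨c, hc⟩ := h (v + v0)
  have hB0 : B v0 = c0⁻¹ • A v0 := by rw [hc0, smul_smul, inv_mul_cancel₀ h0, one_smul]
  have hB1 : B v = c1⁻¹ • A v := by rw [hc1, smul_smul, inv_mul_cancel₀ h1, one_smul]
  have h2 : (1 - c * c1⁻¹) • v = (c * c0⁻¹ - 1) • v0 := by
    apply hA
    rw [map_add, map_add, hB0, hB1, smul_add, smul_smul, smul_smul] at hc
    rw [map_smul, map_smul, sub_smul, sub_smul, one_smul, one_smul, sub_eq_sub_iff_add_eq_add, hc,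
      add_comm]
  by_cases h3 : 1 - c * c1⁻¹ = 0
  · rw [h3, zero_smul] at h2
    have h4 : c * c0⁻¹ - 1 = 0 := (smul_eq_zero.1 h2.symm).resolve_right hv0
    have h5 : c = c1 := by
      have := sub_eq_zero.1 h3
      field_simp at this
      exact this.symm
    have h6 : c = c0 := by
      have := sub_eq_zero.1 h4
      field_simp at this
      exact this
    rw [hc1, ← h5, h6]
  · have h4 : v = ((1 - c * c1⁻¹)⁻¹ * (c * c0⁻¹ - 1)) • v0 := by
      rw [← smul_smul, ← h2, smul_smul, inv_mul_cancel₀ h3, one_smul]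
    rw [h4, map_smul, map_smul, hc0, smul_comm]

end Vale.Agent.P019
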