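import Vale.Agent.P019.GV

open scoped IntermediateField
open Filter

namespace Vale.Agent.P019

universe u

variable {ℓ : ℕ} [Fact ℓ.Prime]

theorem dim_vind (k : Type*) {F : Type*} [Field k] [Field F] [Algebra k F] [IsAlgClosed k]
    {u : ValuationSubring F} (hu : II ℓ u ≠ ⊥) : ∃ π : F, VInd k u (fun _ : Unit => π) := by
  rw [Ne, II_eq_bot_iff] at hu
  obtain ⟨v, -, hv⟩ := SetLike.exists_of_lt (lt_top_iff_ne_top.2 hu)
  obtain ⟨π, -, rfl⟩ := cl_surj v
  exact ⟨π, VInd_of_not_mem_U hv⟩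

/-- Take `u, a, b` from `LT`. If `II u = ⊥` we are done. Otherwise `kap k u = ⊤`
(`VInd_of_not_mem_U`, `kap_eq_top`), so `DD u = II u`, of dimension at most one
(`card_le_of_II`). -/
theorem dep_of_CP {k F : Type*} [Field k] [Field F] [Algebra k F] [IsAlgClosed k]
    (hd : Algebra.trdeg k F ≤ 1) {f g : DV ℓ F} (h : CP f g) :
    ∃ a b : ZMod ℓ, (a ≠ 0 ∨ b ≠ 0) ∧ a • f + b • g = 0 := by
  obtain ⟨u, hf, hg, a, b, hab, h1⟩ := LT k f g h
  by_cases hu : II ℓ u = ⊥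
  · rw [hu] at h1
    exact ⟨a, b, hab, h1⟩
  obtain ⟨π, hπ⟩ := dim_vind k hu
  have h2 : DD ℓ u = II ℓ u := by
    unfold DD II
    rw [U1_eq_U_of_kap (kap_eq_top hπ (by simpa using hd))]
  rw [h2] at hf hg
  by_contra hn
  have h3 : LinearIndependent (ZMod ℓ) ![f, g] := LinearIndependent.pair_iff.2 fun s t hst => by
    by_contra h4
    exact hn ⟨s, t, not_and_or.1 h4, hst⟩
  have h4 := card_le_of_II (k := k) (O := u) (σ := ![f, g]) (fun j => by
    fin_cases j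
    · exact hf
    · exact hg) h3 (d := 1) (by simpa using hd)
  simp at h4

/-- Induction on `d`. For `d = 1`: `V K ≠ 0`, while `trdeg = 0` forces `V L = 0`. For `d ≥ 2`: a
prime of `K`, its partner, the residue isomorphism, `IsAbh.res_pf` and `trdeg_res_le`. -/
theorem dim_le (d : ℕ) : ∀ {k K l L : Type u} [Field k] [Field K] [Algebra k K] [IsAlgClosed k]
    [Field l] [Field L] [Algebra l L] [IsAlgClosed l] (_ : PF k K) (_ : (ℓ : k) ≠ 0)
    (_ : Algebra.trdeg k K = (d : Cardinal)) (e : ℕ) (_ : Algebra.trdeg l L ≤ (e : Cardinal))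
    (Θ : V ℓ K ≃ₗ[ZMod ℓ] V ℓ L) (_ : Iso Θ), d ≤ e := by
  induction d with
  | zero => intros; exact Nat.zero_le _
  | succ d ih =>
    intro k K l L _ _ _ _ _ _ _ _ hK hl hd e he Θ hΘ
    rcases d with _ | d
    · by_contra hn
      obtain rfl : e = 0 := by omega
      obtain ⟨f, hf⟩ := exists_DV_ne_zero (ℓ := ℓ) hK hl hd
      apply hf
      ext v
      obtain ⟨y, -, hy⟩ := cl_surj (Θ v)
      have h1 : y ∈ (algebraMap l L).range := by
        by_contra h1
        have h2 := card_le_of_indep (y := fun _ : Unit => y)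
          (algebraicIndependent_unique_type_iff.2 (transcendental_iff.2 h1)) he
        simp at h2
      obtain ⟨c, rfl⟩ := h1
      rw [cl_const, eq_comm, map_eq_zero_iff _ Θ.injective] at hy
      rw [hy, map_zero, LinearMap.zero_apply]
    · obtain ⟨O, -, hO, -, -⟩ := exists_two_primes hd
      have hl1 : O.valuation (ℓ : K) = 1 := by
        rw [← map_natCast (algebraMap k K)]
        exact val_const_eq_one hO.1 hl
      obtain ⟨O', hP, -⟩ := exists_partner k l hΘ (hO.isGV.qp hK hd hl1)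
      obtain ⟨Θb, -, hb⟩ := exists_resIso k l hΘ hP
      obtain ⟨h1, h2⟩ := hO.isAbh.res_pf hK hd
      have h3 := trdeg_res_le (k := l) (e := e - 1)
        (he.trans (Nat.cast_le.2 (by omega))) (hP.II_ne_bot (hO.isAbh.II_ne_bot hK hl))
      have h4 := ih h1 (kap_cast_ne_zero O k hl1) h2 (e - 1) h3 Θb hb
      omega

variable {k K l L : Type u} [Field k] [Field K] [Algebra k K] [IsAlgClosed k]
  [Field l] [Field L] [Algebra l L] [IsAlgClosed l] {Θ : V ℓ K ≃ₗ[ZMod ℓ] V ℓ L}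

theorem dim_eq {d d' : ℕ} (hK : Std ℓ k K d) (hL : Std ℓ l L d') (hΘ : Iso Θ) : d = d' :=
  le_antisymm (dim_le d hK.pf hK.char hK.dim d' hL.dim.le Θ hΘ)
    (dim_le d' hL.pf hL.char hL.dim d hK.dim.le Θ.symm hΘ.symm)

/-- The residue field of `O` is `PF` of dimension `e + 1`; by `dim_le` and `trdeg_res_le` the
residue field of `O'` has transcendence degree `e + 1`; lift a basis (`exists_RInd`). -/
theorem Partner.isAbh (hK : PF k K) {e : ℕ} (hd : Algebra.trdeg k K = ((e + 2 : ℕ) : Cardinal))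
    (hd' : Algebra.trdeg l L = ((e + 2 : ℕ) : Cardinal)) (hΘ : Iso Θ) {O : ValuationSubring K}
    {O' : ValuationSubring L} (hP : Partner Θ O O') (h : IsAbh k O)
    (hl : O.valuation (ℓ : K) = 1) : IsAbh l O' := by
  have hl2 : (ℓ : k) ≠ 0 := fun h0 => (val_eq_one_iff.1 hl).1 (by
    rw [← map_natCast (algebraMap k K), h0, map_zero])
  obtain ⟨Θb, -, hb⟩ := exists_resIso k l hΘ hP
  obtain ⟨h1, h2⟩ := h.res_pf hK (e := e + 1) hd
  have h3 : ((e + 1 : ℕ) : Cardinal) ≤ Algebra.trdeg (kap l O') (Res O') := by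
    by_contra hn
    rw [not_le, Cardinal.nat_succ, Order.lt_succ_iff] at hn
    have h4 := dim_le (e + 1) h1 (kap_cast_ne_zero O k hl) h2 e hn Θb hb
    omega
  obtain ⟨z, hz⟩ := exists_indep h3
  obtain ⟨y, hy, -⟩ := exists_RInd O' l z hz
  obtain ⟨π, hπ⟩ := dim_vind l (hP.II_ne_bot (h.II_ne_bot hK hl2))
  exact ⟨e + 1, y, π, hd', hy, hπ⟩

/-- The limit valuation is trivial. Let `W = ulim 𝒰 O`; `Θ` maps `U1 W` into `H s`. If `W ≠ ⊤`,
one of the two flags `ν` has `ν ⊔ W = ⊤`. The transports of the two functionals in `II ν` commute;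
restricted to `ac l {s}` they are dependent (`dep_of_CP`); the combination lies in
`DD W ⊓ DD ν = 0`. -/
theorem lim_trivial (hK : PF k K) (hl : (ℓ : k) ≠ 0) {e : ℕ}
    (hd : Algebra.trdeg k K = ((e + 2 : ℕ) : Cardinal)) (hΘ : Iso Θ) {s : L}
    (hs : Transcendental l s) {ι : Type*} (𝒰 : Ultrafilter ι) (O : ι → ValuationSubring K)
    (O' : ι → ValuationSubring L) (hP : ∀ i, Partner Θ (O i) (O' i))
    (hker : ∀ z : V ℓ L, (∀ᶠ i in (𝒰 : Filter ι), z ∈ U1 ℓ (O' i)) → z ∈ H l ℓ s) :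
    ∀ x : K, x ≠ 0 → ∀ᶠ i in (𝒰 : Filter ι), (O i).valuation x = 1 := by
  have hW : ulim 𝒰 O = ⊤ := by
    by_contra hW
    have key : ∀ ν : ValuationSubring K, (∃ σ τ : DV ℓ K, σ ∈ II ℓ ν ∧ τ ∈ II ℓ ν ∧
        LinearIndependent (ZMod ℓ) ![σ, τ]) → ν ⊔ ulim 𝒰 O ≠ ⊤ := by
      rintro ν ⟨σ, τ, hσ, hτ, hi⟩ htop
      have hν : ν ≠ ⊤ := by
        rintro rfl
        rw [II_top] at hσ
        exact hi.ne_zero 0 hσ
      have h1 := ((hΘ.symm σ τ).1 (CP_of_II_DD k hσ (II_le_DD _ hτ))).comap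
        (algebraMap (ac l {s}) L)
      obtain ⟨a, b, hab, h2⟩ := dep_of_CP (trdeg_ac_single hs).le h1
      have h3 : a • σ + b • τ ∈ DD ℓ (ulim 𝒰 O) := mem_DD.2 fun x hx => by
        obtain ⟨v, hv⟩ := hker (Θ (cl ℓ x)) (((ulim_val_lt_one 𝒰 O _).1 hx).mono fun i hi =>
          ((hP i).mem_U1_iff _).2 (mem_U1.2 ⟨x, hi, rfl⟩))
        have h4 := LinearMap.congr_fun h2 v
        simp only [LinearMap.add_apply, LinearMap.smul_apply, LinearMap.comp_apply, hv,
          LinearEquiv.coe_coe, LinearEquiv.symm_apply_apply, LinearMap.zero_apply] at h4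
        exact h4
      have h5 := eq_zero_of_indep hν hW htop
        (II_le_DD _ (add_mem (Submodule.smul_mem _ a hσ) (Submodule.smul_mem _ b hτ))) h3
      obtain ⟨h6, h7⟩ := LinearIndependent.pair_iff.1 hi a b h5
      exact hab.elim (fun h8 => h8 h6) fun h8 => h8 h7
    obtain ⟨ν₁, ν₂, h0, h1, h2⟩ := exists_two_flags (ℓ := ℓ) hK hl hd
    rcases le_total_of_le (le_sup_right : ulim 𝒰 O ≤ ν₁ ⊔ ulim 𝒰 O)
      (le_sup_right : ulim 𝒰 O ≤ ν₂ ⊔ ulim 𝒰 O) with h3 | h3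
    · exact key ν₂ h2 (h0 _ (le_sup_left.trans h3) le_sup_left)
    · exact key ν₁ h1 (h0 _ le_sup_left (le_sup_left.trans h3))
  intro x hx
  rw [← ulim_val_eq_one, hW]
  exact val_eq_one_iff.2 ⟨hx, trivial, trivial⟩

end Vale.Agent.P019
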