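import Vale.Agent.P019.FieldC
import Vale.Agent.P019.AB

open scoped IntermediateField

namespace Vale.Agent.P019

variable {k K : Type*} [Field k] [Field K] [Algebra k K]

theorem ex_small {ι : Type*} {y : ι → K} {x : K} (h : x ∈ ac k (Set.range y)) :
    ∃ D, Small k y D x := by
  have h1 : ¬ AlgebraicIndependent k (fun o : Option ι => o.elim x y) := fun h2 =>
    (AlgebraicIndependent.option_iff.1 h2).2 (fielda_mem.1 h)
  rw [algebraicIndependent_iff] at h1
  push Not at h1
  obtain ⟨P, h2, h3⟩ := h1
  exact ⟨_, P, h3, le_rfl, h2⟩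

theorem ex_sep {k' K' : Type*} [Field k'] [Field K'] [Algebra k' K'] (φ : K →+* K')
    (h : ∀ a : k, φ (algebraMap k K a) ∈ (algebraMap k' K').range) {z : K}
    (hz : IsSeparable k z) : IsSeparable k' (φ z) := by
  obtain ⟨f, hf⟩ := fieldc_hom (φ.comp (algebraMap k K)) (algebraMap k' K') h
  have e : (algebraMap k' K').comp f = φ.comp (algebraMap k K) := RingHom.ext fun a => (hf a).symm
  refine Polynomial.Separable.of_dvd (Polynomial.Separable.map (f := f) hz) (minpoly.dvd k' _ ?_)
  rw [Polynomial.aeval_def, Polynomial.eval₂_map, e, ← Polynomial.hom_eval₂, ← Polynomial.aeval_def,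
    minpoly.aeval, map_zero]

theorem ex_top {F P R : Type*} [Field F] [Field P] [Field R] [Algebra F R] [Algebra P R]
    (h : ∀ a : F, algebraMap F R a ∈ (algebraMap P R).range) [FiniteDimensional F R] {z : R}
    (hz : Module.finrank F R ≤ (minpoly P z).natDegree) : P⟮z⟯ = ⊤ := by
  obtain ⟨f, hf⟩ := fieldc_hom (algebraMap F R) (algebraMap P R) h
  letI := f.toAlgebra
  have : IsScalarTower F P R := IsScalarTower.of_algebraMap_eq hf
  have : FiniteDimensional P R := Module.Finite.right F P R
  have : FiniteDimensional F P := Module.Finite.left F P R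
  have h1 := Module.finrank_mul_finrank F P R
  have h2 : 0 < Module.finrank F P := Module.finrank_pos
  have h3 := minpoly.natDegree_le (A := P) z
  rw [Field.primitive_element_iff_minpoly_natDegree_eq]
  nlinarith

theorem ex_deg_adj {z θ : K} (hz : IsIntegral k z) (h : θ ∈ k⟮z⟯) :
    (minpoly k θ).natDegree ≤ (minpoly k z).natDegree := by
  have := IntermediateField.adjoin.finiteDimensional hz
  have h1 := minpoly.natDegree_le (A := k) (⟨θ, h⟩ : k⟮z⟯)
  rwa [IntermediateField.adjoin.finrank hz, IntermediateField.minpoly_eq] at h1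

theorem ex_pc_simple {S : Set K} {z θ : K} (h : θ ∈ pc k (insert z S)) (A : IntermediateField k K)
    (hA : S ⊆ A) : θ ∈ pc A {z} := by
  refine pc_le_pc ?_ (fieldb_over A h)
  rintro x (rfl | hx)
  · exact self_mem_pc _
  · exact (pc A {z}).algebraMap_mem ⟨x, hA hx⟩

theorem ex_deg_le {S : Set K} {z θ : K} (h : θ ∈ pc k (insert z S))
    (hz : IsSeparable (IntermediateField.adjoin k S) z)
    (hθ : IsSeparable (IntermediateField.adjoin k S) θ) :
    (minpoly (IntermediateField.adjoin k S) θ).natDegree ≤
      (minpoly (IntermediateField.adjoin k S) z).natDegree :=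
  ex_deg_adj hz.isIntegral (mem_of_sep_of_pc
    (ex_pc_simple h _ (IntermediateField.subset_adjoin k S)) (IsSeparable.tower_top _ hθ))

/-- a separable element of maximal degree generates all separable elements -/
theorem ex_max {z ω : K} (hz : IsSeparable k z) (hω : IsSeparable k ω)
    (h : ∀ θ : K, IsSeparable k θ → (minpoly k θ).natDegree ≤ (minpoly k z).natDegree) :
    ω ∈ k⟮z⟯ := by
  have := IntermediateField.isSeparable_adjoin_pair_of_isSeparable k K hz hω
  have := IntermediateField.finiteDimensional_adjoin_pair hz.isIntegral hω.isIntegral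
  obtain ⟨θ, hθ⟩ := Field.exists_primitive_element k k⟮z, ω⟯
  rw [Field.primitive_element_iff_minpoly_natDegree_eq, IntermediateField.minpoly_eq] at hθ
  have h1 := h θ (IntermediateField.isSeparable_of_mem_isSeparable k K θ.2)
  have h2 : k⟮z⟯ ≤ k⟮z, ω⟯ := IntermediateField.adjoin.mono _ _ _ (by simp)
  have h3 := IntermediateField.eq_of_le_of_finrank_le h2
    (by rw [IntermediateField.adjoin.finrank hz.isIntegral, ← hθ]; exact h1)
  rw [h3]
  exact IntermediateField.subset_adjoin _ _ (by simp)

theorem ex_exp (O : ValuationSubring K) :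
    ringExpChar K = 1 ∨ ringExpChar (Res O) = ringExpChar K := by
  have h0 := ringExpChar.expChar K
  generalize ringExpChar K = q at h0 ⊢
  rcases h0 with _ | h
  · exact Or.inl rfl
  · right
    have h1 : ((q : ℕ) : Res O) = 0 := by
      rw [← res_natCast, CharP.cast_eq_zero, res_zero]
    have := (CharP.charP_iff_prime_eq_zero (R := Res O) h).2 h1
    have : ExpChar (Res O) q := ExpChar.prime h
    exact ringExpChar.eq _ _

theorem ex_res_pc {O : ValuationSubring K} {ι : Type*} {y : ι → K} (hy : RInd k O y) {c : K}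
    (hc : c ∈ pc k (Set.range y)) (hO : c ∈ O) :
    res O c ∈ pc (kap k O) (Set.range fun i => res O (y i)) := by
  obtain ⟨n, hn⟩ := mem_pc.1 hc
  have h1 := res_adjoin (J := Empty) (x := fun e => e.elim) hy
    ⟨fun e => e.elim, fun m _ _ => Subsingleton.elim _ _⟩
    (IntermediateField.adjoin.mono _ _ _ Set.subset_union_left hn)
  rw [res_pow O c hO] at h1
  rcases ex_exp O with h | h
  · rw [h, one_pow, pow_one] at h1
    exact adjoin_le_pc _ h1
  · exact mem_pc.2 ⟨n, by rwa [h]⟩

theorem ex_finrank [PerfectField K] {S : Set K} {z : K} (h : pc k (insert z S) = ⊤)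
    (hz : IsSeparable (IntermediateField.adjoin k S) z) :
    FiniteDimensional (pc k S) K ∧
      Module.finrank (pc k S) K ≤ (minpoly (IntermediateField.adjoin k S) z).natDegree := by
  have := perfect_pc (k := k) S
  letI : Algebra (IntermediateField.adjoin k S) (pc k S) :=
    (IntermediateField.inclusion (adjoin_le_pc S)).toAlgebra
  have : IsScalarTower (IntermediateField.adjoin k S) (pc k S) K :=
    IsScalarTower.of_algebraMap_eq fun _ => rfl
  have hi : IsIntegral (pc k S) z := hz.isIntegral.tower_top
  have h1 : (pc k S)⟮z⟯ = ⊤ := by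
    refine eq_top_iff.2 fun x _ => ?_
    have hx : x ∈ pc (pc k S) {z} := ex_pc_simple (h ▸ trivial) _ (subset_pc S)
    have := IntermediateField.adjoin.finiteDimensional hi
    have : PerfectField (pc k S)⟮z⟯ := Algebra.IsAlgebraic.perfectField (pc k S)
    refine mem_of_sep_of_pc hx ?_
    exact PerfectField.separable_of_irreducible
      (minpoly.irreducible (mem_ac.1 (pc_le_ac _ hx)).isIntegral)
  have := IntermediateField.adjoin.finiteDimensional hi
  have h2 : FiniteDimensional (pc k S) K := by
    have := IntermediateField.adjoin.finiteDimensional hi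
    rw [h1] at this
    exact IntermediateField.topEquiv.toLinearEquiv.finiteDimensional
  refine ⟨h2, ?_⟩
  rw [← (Field.primitive_element_iff_minpoly_natDegree_eq _ _).1 h1]
  exact fieldc_deg_le hz.isIntegral

theorem ex_deg_pc {S : Set K} {z : K} (hz : IsSeparable (IntermediateField.adjoin k S) z) :
    (minpoly (pc k S) z).natDegree = (minpoly (IntermediateField.adjoin k S) z).natDegree := by
  have := minpoly.map_eq_of_isSeparable_of_isPurelyInseparable
    (perfectClosure (IntermediateField.adjoin k S) K) z hz
  exact (congrArg Polynomial.natDegree this).symm.trans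
    ((minpoly.monic hz.isIntegral).natDegree_map _)

theorem ex_pc_adj {S : Set K} {z : K} (h : (pc k S)⟮z⟯ = ⊤) : pc k (insert z S) = ⊤ := by
  refine eq_top_iff.2 fun x _ => ?_
  have hx : x ∈ (pc k S)⟮z⟯ := h ▸ trivial
  have h8 : pc k S ≤ pc k (insert z S) := pc_le_pc fun w hw => subset_pc _ (Or.inr hw)
  have h9 : z ∈ pc k (insert z S) := subset_pc _ (Or.inl rfl)
  induction hx using IntermediateField.adjoin_induction with
  | mem w hw => rwa [hw]
  | algebraMap w => exact h8 w.2
  | add a b _ _ ha hb => exact add_mem (ha trivial) (hb trivial)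
  | inv a _ ha => exact inv_mem (ha trivial)
  | mul a b _ _ ha hb => exact mul_mem (ha trivial) (hb trivial)

theorem ex_pc_mono {F F' : Subfield K} (h : F ≤ F') {S : Set K} {x : K} (hx : x ∈ pc F S) :
    x ∈ pc F' S := by
  have h7 := map_mem_pc (k := F) (k' := F') (RingHom.id K) (fun b => ⟨⟨b.1, h b.2⟩, rfl⟩) hx
  rwa [RingHom.coe_id, Set.image_id] at h7

/-- the residue field is purely inseparable over the field generated by the residues -/
theorem ex_model [PerfectField K] {A : Type*} [Field A] [Algebra A K] {O : ValuationSubring K}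
    {ι : Type*} {y : ι → K} (hy : RInd k O y) (hle : kap A O ≤ kap k O) {z : K}
    (h : pc A (insert z (Set.range y)) = ⊤)
    (hz : IsSeparable (IntermediateField.adjoin A (Set.range y)) z)
    (hs : IsSeparable (IntermediateField.adjoin (kap k O) (Set.range fun m => res O (y m)))
      (res O z))
    (hd : (minpoly (IntermediateField.adjoin (kap k O) (Set.range fun m => res O (y m)))
      (res O z)).natDegree = (minpoly (IntermediateField.adjoin A (Set.range y)) z).natDegree) :
    pc (kap k O) (insert (res O z) (Set.range fun m => res O (y m))) = ⊤ := by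
  obtain ⟨h1, h2⟩ := ex_finrank h hz
  obtain ⟨h3, h4⟩ := res_finite (k := pc A (Set.range y)) (O := O)
  refine ex_pc_adj (ex_top (F := kap (pc A (Set.range y)) O) (fun a => ?_) ?_)
  · obtain ⟨c, hc, e⟩ := (mem_kap O _).1 a.2
    exact ⟨⟨_, ex_pc_mono hle (ex_res_pc (hy.of_kap_le hle) c.2 hc)⟩, e⟩
  · rw [ex_deg_pc hs, hd]
    exact h4.trans h2

end Vale.Agent.P019
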