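import Vale.Agent.P019.UltB
import Vale.Agent.P019.FieldC
import Vale.Agent.P019.AB
import Vale.Agent.P019.ExA

open scoped IntermediateField
open Filter

namespace Vale.Agent.P019

variable {ℓ : ℕ} [Fact ℓ.Prime] {l L : Type*} [Field l] [Field L] [Algebra l L] [IsAlgClosed l]
  {e : ℕ} {s : L} {y : Fin e → L} {ι : Type*} {𝒰 : Ultrafilter ι} {O : ι → ValuationSubring L}
  {j : L →+* UP 𝒰 (fun i => Res (O i))}

theorem Fam.const_mem (hF : Fam ℓ l s y 𝒰 O) (hj : ∀ x, j x = upMk 𝒰 _ (fun i => res (O i) x))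
    {f : L} (hf : f ∈ ac l {s}) : j f ∈ upC 𝒰 (fun i => kap l (O i)) := by
  rw [hj, upMk_mem_upC]
  exact Eventually.of_forall fun i => hF.const i f hf

theorem Fam.indep (hF : Fam ℓ l s y 𝒰 O) (hj : ∀ x, j x = upMk 𝒰 _ (fun i => res (O i) x)) :
    AlgebraicIndependent (upC 𝒰 (fun i => kap l (O i))) (j ∘ y) := by
  have e : j ∘ y = fun m => upMk 𝒰 _ (fun i => res (O i) (y m)) := funext fun m => hj _
  rw [e]
  exact indep_up 𝒰 _ (fun m i => res (O i) (y m)) (Eventually.of_forall fun i => (hF.rind i).2)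

theorem ac_top_of_cons (hL : Std ℓ l L (e + 1))
    (hs : AlgebraicIndependent l (Fin.cons s y : Fin (e + 1) → L)) :
    ac (ac l {s}) (Set.range y) = ⊤ := by
  have h1 := ac_eq_top_of_indep hs (by rw [hL.dim, Fintype.card_fin])
  refine eq_top_iff.2 fun x _ => ?_
  have h2 := map_mem_ac (k' := ac l {s}) (RingHom.id L)
    (fun c => ⟨algebraMap l _ c, rfl⟩) (h1.ge (IntermediateField.mem_top (x := x)))
  refine ac_le_ac ?_ h2
  rintro _ ⟨_, ⟨m, rfl⟩, rfl⟩
  refine Fin.cases ?_ (fun m => subset_ac _ ⟨m, rfl⟩) m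
  exact (ac (ac l {s}) (Set.range y)).algebraMap_mem ⟨s, self_mem_ac s⟩

theorem ex_const (hF : Fam ℓ l s y 𝒰 O) (hj : ∀ x, j x = upMk 𝒰 _ (fun i => res (O i) x))
    (a : ac l {s}) : j (algebraMap (ac l {s}) L a) ∈
      (algebraMap (upC 𝒰 (fun i => kap l (O i))) (UP 𝒰 (fun i => Res (O i)))).range :=
  ⟨⟨_, hF.const_mem hj a.2⟩, rfl⟩

theorem ex_mem_ac (hL : Std ℓ l L (e + 1))
    (hs : AlgebraicIndependent l (Fin.cons s y : Fin (e + 1) → L)) (hF : Fam ℓ l s y 𝒰 O)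
    (hj : ∀ x, j x = upMk 𝒰 _ (fun i => res (O i) x)) (u : L) :
    j u ∈ ac (upC 𝒰 (fun i => kap l (O i))) (Set.range (j ∘ y)) := by
  have h := map_mem_ac j (ex_const hF hj)
    (show u ∈ ac (ac l {s}) (Set.range y) from (ac_top_of_cons hL hs).symm ▸ trivial)
  rwa [← Set.range_comp] at h

theorem ex_cl (x : L) (h : IsAlgebraic (ac l {s}) x) : x ∈ (algebraMap (ac l {s}) L).range :=
  ⟨⟨x, mem_ac_of_isAlgebraic h⟩, rfl⟩

theorem ex_up (hL : Std ℓ l L (e + 1))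
    (hs : AlgebraicIndependent l (Fin.cons s y : Fin (e + 1) → L)) (hF : Fam ℓ l s y 𝒰 O)
    (hj : ∀ x, j x = upMk 𝒰 _ (fun i => res (O i) x)) {z : L}
    (hz : IsSeparable (IntermediateField.adjoin (ac l {s}) (Set.range y)) z) :
    IsSeparable (IntermediateField.adjoin (upC 𝒰 (fun i => kap l (O i))) (Set.range (j ∘ y)))
      (j z) ∧
    (minpoly (IntermediateField.adjoin (upC 𝒰 (fun i => kap l (O i))) (Set.range (j ∘ y)))
      (j z)).natDegree =
      (minpoly (IntermediateField.adjoin (ac l {s}) (Set.range y)) z).natDegree := by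
  have := hL.perf
  have := perfect_ac (k := l) ({s} : Set L)
  have := upC_isAlgClosed 𝒰 (fun i => kap l (O i)) fun i => inferInstance
  refine ⟨ex_sep j (fun a => ?_) hz, natDegree_minpoly_reg j (ex_const hF hj) ex_cl (hF.indep hj)
    ((ac_top_of_cons hL hs).symm ▸ trivial)⟩
  have h := map_mem_adjoin j (ex_const hF hj) a.2
  rw [← Set.range_comp] at h
  exact ⟨⟨_, h⟩, rfl⟩

theorem ex_down (hF : Fam ℓ l s y 𝒰 O) (hj : ∀ x, j x = upMk 𝒰 _ (fun i => res (O i) x))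
    (θ : Π i, Res (O i)) (hθ : IsSeparable (IntermediateField.adjoin
      (upC 𝒰 (fun i => kap l (O i))) (Set.range (j ∘ y))) (upMk 𝒰 _ θ)) :
    ∀ᶠ i in (𝒰 : Filter ι),
      IsSeparable (IntermediateField.adjoin (kap l (O i)) (Set.range fun m => res (O i) (y m)))
        (θ i) ∧
      (minpoly (IntermediateField.adjoin (kap l (O i)) (Set.range fun m => res (O i) (y m)))
        (θ i)).natDegree = (minpoly (IntermediateField.adjoin
          (upC 𝒰 (fun i => kap l (O i))) (Set.range (j ∘ y))) (upMk 𝒰 _ θ)).natDegree := by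
  have e : j ∘ y = fun m => upMk 𝒰 _ (fun i => res (O i) (y m)) := funext fun m => hj _
  rw [e] at hθ ⊢
  exact sep_deg_up 𝒰 _ (fun m i => res (O i) (y m))
    (Eventually.of_forall fun i => (hF.rind i).2) θ hθ

theorem Fam.mem_ac_of_mem (hL : Std ℓ l L (e + 1))
    (hs : AlgebraicIndependent l (Fin.cons s y : Fin (e + 1) → L)) (hF : Fam ℓ l s y 𝒰 O)
    (hj : ∀ x, j x = upMk 𝒰 _ (fun i => res (O i) x)) {x : L}
    (hx : j x ∈ upC 𝒰 (fun i => kap l (O i))) : x ∈ ac l {s} := by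
  have := upC_isAlgClosed 𝒰 (fun i => kap l (O i)) fun i => inferInstance
  exact mem_ac_of_isAlgebraic (mem_range_of_mem_C j (ex_const hF hj) (hF.indep hj)
    (ac_top_of_cons hL hs) ⟨⟨_, hx⟩, rfl⟩)

theorem Fam.small (hL : Std ℓ l L (e + 1))
    (hs : AlgebraicIndependent l (Fin.cons s y : Fin (e + 1) → L)) (hF : Fam ℓ l s y 𝒰 O) (u : L) :
    ∃ D, ∀ᶠ i in (𝒰 : Filter ι),
      Small (kap l (O i)) (fun m => res (O i) (y m)) D (res (O i) u) := by
  obtain ⟨j, hj⟩ := exists_resUP 𝒰 O hF.unit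
  obtain ⟨D, hD⟩ := ex_small (ex_mem_ac hL hs hF hj u)
  have e : j ∘ y = fun m => upMk 𝒰 _ (fun i => res (O i) (y m)) := funext fun m => hj _
  rw [e, hj] at hD
  exact ⟨D, (small_up 𝒰 _ (fun m i => res (O i) (y m)) (fun i => res (O i) u) D).1 hD⟩

/-- Let `A = ac l {s}`, `z` from `PF.exists_prim` over `A`, of degree `n` over `A(y)`. By
`natDegree_minpoly_reg` and `sep_deg_up` the residue of `z` is separable of degree `n` over
`κ(y)` almost everywhere. `E = pc A y` has `[L : E] = n`, so `[Res : kap E O] ≤ n` (`res_finite`),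
and `kap E O` is purely inseparable over `κ(y)` (`res_adjoin` over `A`, `RInd.of_kap_le`). -/
theorem Fam.model (hL : Std ℓ l L (e + 1))
    (hs : AlgebraicIndependent l (Fin.cons s y : Fin (e + 1) → L)) (hF : Fam ℓ l s y 𝒰 O) :
    ∃ (z : L) (n : ℕ), IsSeparable (IntermediateField.adjoin (ac l {s}) (Set.range y)) z ∧
      (minpoly (IntermediateField.adjoin (ac l {s}) (Set.range y)) z).natDegree = n ∧
      ∀ᶠ i in (𝒰 : Filter ι),
        pc (kap l (O i)) (insert (res (O i) z) (Set.range fun m => res (O i) (y m))) = ⊤ ∧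
        IsSeparable (IntermediateField.adjoin (kap l (O i)) (Set.range fun m => res (O i) (y m)))
          (res (O i) z) ∧
        (minpoly (IntermediateField.adjoin (kap l (O i)) (Set.range fun m => res (O i) (y m)))
          (res (O i) z)).natDegree = n := by
  obtain ⟨j, hj⟩ := exists_resUP 𝒰 O hF.unit
  have := hL.perf
  obtain ⟨z, hz, htop⟩ := (hL.pf.over (ac l {s})).exists_prim (ac_top_of_cons hL hs)
  obtain ⟨h1, h2⟩ := ex_up hL hs hF hj hz
  rw [hj z] at h1 h2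
  refine ⟨z, _, hz, rfl, ?_⟩
  filter_upwards [ex_down hF hj _ h1] with i hi
  refine ⟨ex_model (hF.rind i) (fun a ha => ?_) htop hz hi.1 (hi.2.trans h2), hi.1, hi.2.trans h2⟩
  obtain ⟨c, -, rfl⟩ := (mem_kap _ _).1 ha
  exact hF.const i c c.2

/-- Replace `ω` by a power separable over `C(y)`; a primitive element `θ` of `C(y)(z, ω)` has
degree `N ≥ n`; by `sep_deg_up` its components are separable of degree `N` inside
`pc κ (y, z)`, so they lie in `κ(y, z)` and `N ≤ n`. -/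
theorem Fam.mem_pc (hL : Std ℓ l L (e + 1))
    (hs : AlgebraicIndependent l (Fin.cons s y : Fin (e + 1) → L)) (hF : Fam ℓ l s y 𝒰 O)
    (hj : ∀ x, j x = upMk 𝒰 _ (fun i => res (O i) x)) {ω : UP 𝒰 (fun i => Res (O i))}
    (hω : ω ∈ ac (upC 𝒰 (fun i => kap l (O i))) (Set.range (j ∘ y))) :
    ω ∈ pc (upC 𝒰 (fun i => kap l (O i))) (Set.range j) := by
  obtain ⟨z, n, hz, hn, hev⟩ := hF.model hL hs
  obtain ⟨h1, h2⟩ := ex_up hL hs hF hj hz
  obtain ⟨m, hm⟩ := exists_sep_pow (mem_ac.1 hω)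
  have h3 := ex_max h1 hm fun θ hθ => by
    obtain ⟨θ, rfl⟩ := upMk_surj 𝒰 θ
    obtain ⟨i, ⟨a1, a2, a3⟩, b1, b2⟩ := (hev.and (ex_down hF hj θ hθ)).exists
    rw [h2, hn, ← b2, ← a3]
    exact ex_deg_le (a1 ▸ trivial) a2 b1
  refine mem_pc_of_pow m (adjoin_le_pc _ ?_)
  generalize ω ^ ringExpChar (UP 𝒰 (fun i => Res (O i))) ^ m = w at h3
  induction h3 using IntermediateField.adjoin_induction with
  | mem w hw => exact IntermediateField.subset_adjoin _ _ ⟨z, hw.symm⟩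
  | algebraMap w => exact IntermediateField.adjoin.mono _ _ _ (Set.range_comp_subset_range y j) w.2
  | add a b _ _ ha hb => exact add_mem ha hb
  | inv a _ ha => exact inv_mem ha
  | mul a b _ _ ha hb => exact mul_mem ha hb

/-- `ker_lemma` with `A = ac l {s}` -/
theorem Fam.ker (hL : Std ℓ l L (e + 1))
    (hs : AlgebraicIndependent l (Fin.cons s y : Fin (e + 1) → L)) (hF : Fam ℓ l s y 𝒰 O)
    (hj : ∀ x, j x = upMk 𝒰 _ (fun i => res (O i) x)) {z : V ℓ L} (hz : Vmap ℓ j z = 0) :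
    z ∈ H l ℓ s := by
  obtain ⟨u, hu, rfl⟩ := cl_surj z
  have := hL.perf
  have := upC_isAlgClosed 𝒰 (fun i => kap l (O i)) fun i => inferInstance
  rw [Vmap_cl, cl_eq_zero_iff ((map_ne_zero j).2 hu)] at hz
  obtain ⟨ω, hω⟩ := hz
  obtain ⟨ζ, hζ⟩ := exists_primitiveRoot l hL.char
  have h1 := hF.mem_pc hL hs hj (mem_ac_of_pow (Fact.out : ℓ.Prime).pos
    (hω ▸ ex_mem_ac hL hs hF hj u))
  obtain ⟨a, b, ha, e⟩ := ker_lemma j (ex_const hF hj) ex_cl (hF.indep hj) (hL.pf.over _)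
    (ac_top_of_cons hL hs) (hζ.map_of_injective (algebraMap l (ac l {s})).injective) hu h1 hω
  have ha' : algebraMap (ac l {s}) L a ≠ 0 := (map_ne_zero _).2 ha
  refine (mem_range_Vmap _ _).2 ⟨a, ha, ((cl_eq_iff hu ha').2 ⟨b, ?_, e⟩).symm⟩
  rintro rfl
  rw [zero_pow (Fact.out : ℓ.Prime).ne_zero, mul_zero] at e
  exact hu e

theorem Fam.ker' (hL : Std ℓ l L (e + 1))
    (hs : AlgebraicIndependent l (Fin.cons s y : Fin (e + 1) → L)) (hF : Fam ℓ l s y 𝒰 O)
    (z : V ℓ L) (hz : ∀ᶠ i in (𝒰 : Filter ι), z ∈ U1 ℓ (O i)) : z ∈ H l ℓ s := by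
  obtain ⟨j, hj⟩ := exists_resUP 𝒰 O hF.unit
  obtain ⟨u, hu, rfl⟩ := cl_surj z
  refine hF.ker hL hs hj ?_
  rw [Vmap_cl, hj, cl_upMk_eq_zero]
  filter_upwards [hz, hF.unit u hu] with i h1 h2
  exact (cl_mem_U1_iff _ h2).1 h1

theorem Fam.mem_U1 (hF : Fam ℓ l s y 𝒰 O) {z : V ℓ L} (hz : z ∈ H l ℓ s) :
    ∀ᶠ i in (𝒰 : Filter ι), z ∈ U1 ℓ (O i) := by
  obtain ⟨f, hf, rfl⟩ := (mem_range_Vmap _ _).1 hz
  filter_upwards [hF.unit _ ((map_ne_zero (algebraMap (ac l {s}) L)).2 hf)] with i h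
  exact (cl_mem_U1_iff _ h).2 (cl_const (k := kap l (O i)) ⟨_, hF.const i f f.2⟩)

end Vale.Agent.P019
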