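import Vale.Agent.P019.AP

open scoped IntermediateField

namespace Vale.Agent.P019

variable {ℓ : ℕ} [Fact ℓ.Prime] {k K : Type*} (l : Type*) {L : Type*} [Field k] [Field K]
  [Algebra k K] [IsAlgClosed k] [Field l] [Field L] [Algebra l L] [IsAlgClosed l]
  {Θ : V ℓ K ≃ₗ[ZMod ℓ] V ℓ L}
include l

/-- If `μ ∈ II v` take `ν' = w`. Otherwise `σ, μ` are independent (`0 ≠ σ ∈ II v`). For each finite
`Φ` take `O Φ, μ Φ` from `exists_GV_approx`, its partner `W Φ` (`IsGV.qp`, `exists_partner`), and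
`W = ulim 𝒰 W` for an ultrafilter `𝒰 ≤ atTop` on `Finset K`. Then `μ' = μ ∘ Θ⁻¹ ∈ II W` and
`μ' ∈ DD w`. If `W ≤ w` done; if `w ≤ W`, or incomparable (`mem_II_sup`), `μ' ∈ II w`. -/
theorem transfer_II (hK : Std ℓ k K 2) (hΘ : Iso Θ) {v : ValuationSubring K}
    {w : ValuationSubring L} (hP : Partner Θ v w) (hv : II ℓ v ≠ ⊥) {ν : ValuationSubring K}
    (hν : ν ≤ v) (hl : ν.valuation (ℓ : K) = 1) {μ : DV ℓ K} (hμ : μ ∈ II ℓ ν) :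
    ∃ ν' : ValuationSubring L, ν' ≤ w ∧ μ ∘ₗ Θ.symm.toLinearMap ∈ II ℓ ν' := by
  classical
  by_cases hμv : μ ∈ II ℓ v
  · exact ⟨w, le_rfl, (hP.symm.II_iff μ).1 hμv⟩
  obtain ⟨σ, hσ, hσ0⟩ := (Submodule.ne_bot_iff _).1 hv
  have hi : LinearIndependent (ZMod ℓ) ![σ, μ] := by
    refine linearIndependent_fin2.2 ⟨fun h0 => hμv ?_, fun a ha => hμv ?_⟩
    · have h1 : μ = 0 := h0
      rw [h1]
      exact zero_mem _
    · have h1 : a • μ = σ := ha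
      have ha0 : a ≠ 0 := by
        rintro rfl
        exact hσ0 (by rw [← h1, zero_smul])
      rw [← h1] at hσ
      exact (Submodule.smul_mem_iff _ ha0).1 hσ
  choose O h1 h2 μ' h3 h4 using exists_GV_approx hK hl (II_anti hν hσ) hμ hi
  choose W hW _ using fun Φ => exists_partner k l hΘ ((h1 Φ).qp hK.pf (e := 0) hK.dim (h2 Φ))
  let 𝒰 : Ultrafilter (Finset K) := Ultrafilter.of Filter.atTop
  have h5 : μ ∘ₗ Θ.symm.toLinearMap ∈ II ℓ (ulim 𝒰 W) := mem_II.2 fun y hy => by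
    obtain ⟨x, -, hx⟩ := cl_surj (Θ.symm (cl ℓ y))
    have h6 := (Filter.eventually_ge_atTop ({x} : Finset K)).filter_mono
      (Ultrafilter.of_le (Filter.atTop : Filter (Finset K)))
    obtain ⟨Φ, h7, h8⟩ := (h6.and ((ulim_val_eq_one 𝒰 W y).1 hy)).exists
    have h9 : cl ℓ x ∈ U ℓ (O Φ) := by
      rw [hx]
      exact ((hW Φ).symm.mem_U_iff _).2 (mem_U.2 ⟨y, h8, rfl⟩)
    show μ (Θ.symm (cl ℓ y)) = 0
    rw [← hx, ← h4 Φ x (Finset.singleton_subset_iff.1 h7)]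
    exact mem_U_iff_II.1 h9 _ (h3 Φ)
  have h6 : μ ∘ₗ Θ.symm.toLinearMap ∈ DD ℓ w :=
    (hP.symm.DD_iff μ).1 (DD_mono hν (II_le_DD _ hμ))
  by_cases a1 : ulim 𝒰 W ≤ w
  · exact ⟨_, a1, h5⟩
  by_cases a2 : w ≤ ulim 𝒰 W
  · exact ⟨w, le_rfl, II_anti a2 h5⟩
  · exact ⟨w, le_rfl, II_anti le_sup_right (mem_II_sup a1 a2 (II_le_DD _ h5) h6)⟩

theorem transfer_res (hK : Std ℓ k K 2) (hΘ : Iso Θ) {v : ValuationSubring K}
    {w : ValuationSubring L} (hP : Partner Θ v w) (hv : II ℓ v ≠ ⊥)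
    (hlv : v.valuation (ℓ : K) = 1) {Θb : V ℓ (Res v) ≃ₗ[ZMod ℓ] V ℓ (Res w)}
    (hb : ResIso Θ v w Θb) {u : ValuationSubring (Res v)} (hl : u.valuation (ℓ : Res v) = 1)
    {μ : DV ℓ (Res v)} (hμ : μ ∈ II ℓ u) :
    ∃ u' : ValuationSubring (Res w), μ ∘ₗ Θb.symm.toLinearMap ∈ II ℓ u' := by
  obtain ⟨μ₀, h0⟩ := exists_resFun_up v μ
  obtain ⟨ν', h1, h2⟩ := transfer_II l hK hΘ hP hv (vcomp_le v u)
    ((vcomp_val_eq_one v u _).2 ⟨hlv, by rw [res_natCast]; exact hl⟩) ((h0.II_iff u).2 hμ)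
  obtain ⟨u', rfl⟩ := exists_vcomp w h1
  exact ⟨u', ((hb.symm.resFun hP.symm h0).II_iff u').1 h2⟩

end Vale.Agent.P019
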