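import Vale.Agent.P019.Pair
import Vale.Agent.P019.PT
import Vale.Agent.P019.Dim
import Vale.Agent.P019.Ex

open scoped IntermediateField
open Filter

namespace Vale.Agent.P019

universe u

variable {ℓ : ℕ} [Fact ℓ.Prime] {k K l L : Type u} [Field k] [Field K] [Algebra k K] [IsAlgClosed k]
  [Field l] [Field L] [Algebra l L] [IsAlgClosed l] {Θ : V ℓ K ≃ₗ[ZMod ℓ] V ℓ L}

/-- partners of a family (any dimension `≥ 2`): `IsGV.qp`, `exists_partner`, `lim_trivial`,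
`Fam.ker'` -/
theorem Fam.exists_partners {e : ℕ} (hK : Std ℓ k K (e + 2)) (hL : Std ℓ l L (e + 2)) (hΘ : Iso Θ)
    {s : L} {y : Fin (e + 1) → L} (hs : AlgebraicIndependent l (Fin.cons s y : Fin (e + 2) → L))
    {ι : Type*} {𝒰 : Ultrafilter ι} {O : ι → ValuationSubring L} (hF : Fam ℓ l s y 𝒰 O) :
    ∃ (O' : ι → ValuationSubring K) (Θb : Π i, V ℓ (Res (O' i)) ≃ₗ[ZMod ℓ] V ℓ (Res (O i))),
      (∀ i, Partner Θ (O' i) (O i) ∧ IsAbh k (O' i) ∧ II ℓ (O' i) ≠ ⊥ ∧ II ℓ (O i) ≠ ⊥ ∧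
        ResIso Θ (O' i) (O i) (Θb i) ∧ Iso (Θb i)) ∧
      ∀ x : K, x ≠ 0 → ∀ᶠ i in (𝒰 : Filter ι), (O' i).valuation x = 1 := by
  choose O' hP _ using fun i =>
    exists_partner l k hΘ.symm ((hF.gv i).qp hL.pf hL.dim (hF.ell i))
  have hP' : ∀ i, Partner Θ (O' i) (O i) := fun i => (hP i).symm
  choose Θb hb1 hb2 using fun i => exists_resIso k l hΘ (hP' i)
  have hII : ∀ i, II ℓ (O i) ≠ ⊥ := fun i => (hF.gv i).isAbh.II_ne_bot hL.pf hL.char
  exact ⟨O', Θb, fun i => ⟨hP' i,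
    (hP i).isAbh hL.pf hL.dim hK.dim hΘ.symm (hF.gv i).isAbh (hF.ell i),
    (hP i).II_ne_bot (hII i), hII i, hb1 i, hb2 i⟩,
    lim_trivial hK.pf hK.char hK.dim hΘ (hs.transcendental 0) 𝒰 O' O hP' (hF.ker' hL hs)⟩

/-- For almost all `i`, `ℓ` is a unit at `O' i`; `transfer_res` in both directions gives
`Transfers`. Take five constants `a j`, `u j` with `Θ [x - a j] = [u j]`, `z` from `Fam.model`,
a common `D` from `Fam.small`, and apply `sdeg_le_of_pair` (`Small.reindex` for `Fin 1` and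
`Unit`). If `x` is constant the claim is void. -/
theorem Fam.sdeg_bound (hK : Std ℓ k K 2) (hL : Std ℓ l L 2) (hΘ : Iso Θ)
    {s : L} {y : Fin 1 → L} (hs : AlgebraicIndependent l (Fin.cons s y : Fin 2 → L))
    {ι : Type*} {𝒰 : Ultrafilter ι} {O : ι → ValuationSubring L} (hF : Fam ℓ l s y 𝒰 O)
    (hft : ∀ i, FT (kap l (O i))) {O' : ι → ValuationSubring K}
    {Θb : Π i, V ℓ (Res (O' i)) ≃ₗ[ZMod ℓ] V ℓ (Res (O i))}
    (hP : ∀ i, Partner Θ (O' i) (O i) ∧ IsAbh k (O' i) ∧ II ℓ (O' i) ≠ ⊥ ∧ II ℓ (O i) ≠ ⊥ ∧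
      ResIso Θ (O' i) (O i) (Θb i) ∧ Iso (Θb i))
    (hu : ∀ x : K, x ≠ 0 → ∀ᶠ i in (𝒰 : Filter ι), (O' i).valuation x = 1) (x : K) :
    ∃ B : ℕ, ∀ᶠ i in (𝒰 : Filter ι), Transcendental (kap k (O' i)) (res (O' i) x) →
      sdeg (kap k (O' i)) (res (O' i) x) ≤ B := by
  by_cases hx : x ∈ (algebraMap k K).range
  · obtain ⟨c, rfl⟩ := hx
    exact ⟨0, Eventually.of_forall fun i h => absurd
      (isAlgebraic_algebraMap (⟨_, res_const_mem (O' i) k c⟩ : kap k (O' i))) h⟩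
  let a : Fin 5 → k := fun j => Infinite.natEmbedding k j
  have ha : Function.Injective a := (Infinite.natEmbedding k).injective.comp Fin.val_injective
  have hxa : ∀ j, x - algebraMap k K (a j) ≠ 0 := fun j h => hx ⟨a j, (sub_eq_zero.1 h).symm⟩
  choose u hu0 hu' using fun j => cl_surj (Θ (cl ℓ (x - algebraMap k K (a j))))
  obtain ⟨z, n, -, -, hz⟩ := hF.model (e := 1) hL hs
  obtain ⟨D₀, hD₀⟩ := hF.small (e := 1) hL hs z
  choose D hD using fun j => hF.small (e := 1) hL hs (u j)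
  have hmem : ∀ w : K, ∀ᶠ i in (𝒰 : Filter ι), w ∈ O' i := fun w => by
    rcases eq_or_ne w 0 with rfl | hw
    · exact Eventually.of_forall fun i => zero_mem _
    · exact (hu w hw).mono fun i hi => (val_eq_one_iff.1 hi).2.1
  have hlK : (ℓ : K) ≠ 0 := by
    rw [← map_natCast (algebraMap k K)]
    exact (map_ne_zero _).2 hK.char
  have hdiff : ∀ᶠ i in (𝒰 : Filter ι), ∀ p : Fin 5 × Fin 5, p.1 ≠ p.2 →
      (O' i).valuation (algebraMap k K (a p.1) - algebraMap k K (a p.2)) = 1 :=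
    eventually_all.2 fun p => by
      by_cases h : p.1 = p.2
      · exact Eventually.of_forall fun i h1 => absurd h h1
      · exact (hu _ (sub_ne_zero.2 fun h1 => h (ha ((algebraMap k K).injective h1)))).mono
          fun i hi _ => hi
  refine ⟨8 * ((D₀ + ∑ j, D j) ^ 4 + 1) + 20 * (D₀ + ∑ j, D j) ^ 2, ?_⟩
  filter_upwards [hz, hD₀, eventually_all.2 hD, hu _ hlK, hdiff, hmem x,
    eventually_all.2 fun j => hmem (algebraMap k K (a j)), eventually_all.2 fun j => hu _ (hxa j),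
    eventually_all.2 fun j => hF.unit _ (hu0 j)] with i b1 b2 b3 b4 b5 b6 b7 b8 b9 htr
  obtain ⟨c1, c2, c3, c4, c5, -⟩ := hP i
  obtain ⟨d1, d2⟩ := c2.res_pf hK.pf (e := 1) hK.dim
  obtain ⟨d3, d4⟩ := (hF.gv i).isAbh.res_pf hL.pf (e := 1) hL.dim
  have hsm : ∀ (w : L) (E : ℕ), E ≤ D₀ + ∑ j, D j →
      Small (kap l (O i)) (fun m => res (O i) (y m)) E (res (O i) w) →
      Small (kap l (O i)) (fun _ : Unit => res (O i) (y 0)) (D₀ + ∑ j, D j) (res (O i) w) :=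
    fun w E hE h => ((Small.reindex (Equiv.ofUnique Unit (Fin 1))).2 h).mono hE
  refine sdeg_le_of_pair ⟨d1, by simpa using d2⟩ (kap_cast_ne_zero _ k b4) ⟨d3, by simpa using d4⟩
    (kap_cast_ne_zero _ l (hF.ell i)) (hft i)
    (fun v hv μ hμ => transfer_res l hK hΘ c1 c3 b4 c5 hv hμ)
    (fun v hv μ hμ => transfer_res k hL hΘ.symm c1.symm c4 (hF.ell i) c5.symm hv hμ)
    ((hF.rind i).2.transcendental 0) (z := res (O i) z) ?_ (hsm z D₀ (Nat.le_add_right _ _) b2) htr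
    (fun j => ⟨_, res_const_mem (O' i) k (a j)⟩) (fun j j' e => ?_) (fun j => res (O i) (u j))
    (fun j => hsm _ (D j) ((Finset.single_le_sum (fun _ _ => Nat.zero_le _)
      (Finset.mem_univ j)).trans (Nat.le_add_left _ _)) (b3 j)) fun j => ?_
  · rw [Set.pair_comm, ← b1.1, Set.range_unique]
    rfl
  · by_contra h
    have h1 := b5 (j, j') h
    rw [← res_ne_zero_iff, res_sub _ (b7 _) (b7 _), sub_ne_zero] at h1
    exact h1 (congrArg Subtype.val e)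
  · have h1 := c5 _ _ (b8 j) (b9 j) (hu' j).symm
    rwa [res_sub _ b6 (b7 j)] at h1

end Vale.Agent.P019
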