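import Vale.Agent.P019.CurveE
import Vale.Agent.P019.Gal2
import Vale.Agent.P019.FieldE

open scoped IntermediateField

namespace Vale.Agent.P019

variable {ℓ : ℕ} [Fact ℓ.Prime] {κ G : Type*} [Field κ] [Field G] [Algebra κ G] [IsAlgClosed κ]

omit [IsAlgClosed κ] in
theorem curvef_ne {f : G} (hf : Transcendental κ f) (a : κ) : f - algebraMap κ G a ≠ 0 :=
  fun h => hf (sub_eq_zero.1 h ▸ isAlgebraic_algebraMap a)

omit [IsAlgClosed κ] in
theorem curvef_mem {T : IntermediateField κ G} {f : G} {a : κ} (h : f - algebraMap κ G a ∈ T) :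
    f ∈ T := by simpa using add_mem h (T.algebraMap_mem a)

omit [IsAlgClosed κ] in
theorem curvef_unit {O : ValuationSubring G} (hk : ∀ c : κ, algebraMap κ G c ∈ O) {f : G} {c : κ}
    (h : At κ O f c) (hc : c ≠ 0) : O.valuation f = 1 := by
  have h1 := val_const_eq_one hk hc
  have := (O.valuation.map_add_eq_of_lt_left (h.trans_eq h1.symm)).trans h1
  rwa [add_sub_cancel] at this

omit [IsAlgClosed κ] in
theorem curvef_fin {S : Set (Pt κ G)} (hS : S.Finite) (f : G) :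
    {a : κ | ∃ P ∈ S, At κ P.1 f a}.Finite :=
  (hS.biUnion (t := fun P => {a | At κ P.1 f a}) fun P _ =>
    Set.Subsingleton.finite fun _ ha _ hb => ha.unique P.2.2 hb).subset fun _ h => by simpa using h

omit [IsAlgClosed κ] in
theorem curvef_hull.{u} {G : Type u} [Field G] [Algebra κ G] (E : Type*) [Field E] [Algebra κ E]
    [Algebra E G] [IsScalarTower κ E G] [PerfectField E] [FiniteDimensional E G] {g : G}
    (h : ∀ (M : Type u) [Field M] [Algebra κ M] [Algebra G M] [IsScalarTower κ G M]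
      [FiniteDimensional G M] (φ ψ : G →ₐ[κ] M),
      (∀ e, ψ (algebraMap E G e) = φ (algebraMap E G e)) → ψ g = φ g) :
    g ∈ (algebraMap E G).range := by
  obtain ⟨M, _, _, _, _, _, _, _, _⟩ := gal2_hull κ E G
  have : IsScalarTower κ G M := .of_algebraMap_eq fun c => by
    rw [IsScalarTower.algebraMap_apply κ E G, ← IsScalarTower.algebraMap_apply,
      ← IsScalarTower.algebraMap_apply]
  have : FiniteDimensional G M := Module.Finite.right E G M
  obtain ⟨e, he⟩ := (IsGalois.mem_range_algebraMap_iff_fixed (F := E) (algebraMap G M g)).2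
    fun τ => h M (IsScalarTower.toAlgHom κ G M)
      ((τ.toAlgHom.restrictScalars κ).comp (IsScalarTower.toAlgHom κ G M)) fun e => by
        simp [← IsScalarTower.algebraMap_apply]
  exact ⟨e, (algebraMap G M).injective (by rw [← IsScalarTower.algebraMap_apply, he])⟩

omit [IsAlgClosed κ] in
theorem curvef_At {M : Type*} [Field M] [Algebra κ M] (φ : G →ₐ[κ] M) (O : ValuationSubring M)
    (f : G) (a : κ) : At κ (O.comap (φ : G →+* M)) f a ↔ At κ O (φ f) a := by
  rw [At, At, comap_val_lt_one, map_sub, RingHom.coe_coe, AlgHom.commutes]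

omit [IsAlgClosed κ] in
theorem curvef_tr {M : Type*} [Field M] [Algebra κ M] (φ : G →ₐ[κ] M) {f : G}
    (hf : Transcendental κ f) : Transcendental κ (φ f) :=
  fun h => hf ((isAlgebraic_algHom_iff φ φ.injective).1 h)

/-- Almost all points are unramified. Use `exists_etale` for `f`; at a point with `f = a`,
`Δ(a) ≠ 0`, every value is a value of `pc κ {f}`, and `val_adjoin` for `f - a` applies. -/
theorem finite_ramified (h : Std ℓ κ G 1) {f : G} (hf : Transcendental κ f) :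
    {a : κ | ∃ P : Pt κ G, At κ P.1 f a ∧ cl ℓ (f - algebraMap κ G a) ∈ U ℓ P.1}.Finite := by
  have := h.perf
  have i1 : AlgebraicIndependent κ fun _ : Unit => f := algebraicIndependent_unique_type_iff.2 hf
  obtain ⟨Δ, h0, hΔ⟩ := exists_etale h.pf i1 (ac_eq_top_of_indep i1 (by simpa using h.dim))
  by_contra hinf
  refine h0 (MvPolynomial.funext_set (fun _ => _) (fun _ => hinf) fun x hx => by_contra fun h1 => ?_)
  obtain ⟨P, h2, h3⟩ := hx () trivial
  have hπ : f - algebraMap κ G (x ()) ≠ 0 := curvef_ne hf _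
  obtain ⟨z, hz, h4⟩ := (cl_mem_U_iff hπ).1 h3
  obtain ⟨e, he, h5⟩ := hΔ P.1 P.2.2 (Pt.kap_eq_top h.pfc.2.le P) (fun _ => h2.mem P.2.2)
    (curvef_unit P.2.2 (At.aeval P.2.2 (fun _ => h2) Δ) (by simpa using h1)) z hz
  obtain ⟨n, he⟩ := mem_pc.1 he
  have hv : 0 < P.1.valuation (f - algebraMap κ G (x ())) := zero_lt_iff.2 ((map_ne_zero _).2 hπ)
  have he0 : e ≠ 0 := fun e0 => hz (by rwa [e0, map_zero, map_eq_zero] at h5)
  obtain ⟨c, m, hc, h6⟩ := val_adjoin (O := P.1) (y := (Empty.elim : Empty → G))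
    ⟨fun i => i.elim, algebraicIndependent_empty_type⟩
    (Inf.vind (π := f - algebraMap κ G (x ())) ⟨hπ, h2, fun c hc n => by
      rw [not_not.1 (mt (val_const_eq_one P.2.2) hc.ne), map_zero, map_zero]
      exact pow_pos hv n⟩) (z := e ^ ringExpChar G ^ n)
    (IntermediateField.adjoin_le_iff.2 (Set.range_subset_iff.2 fun _ => curvef_mem
      (IntermediateField.subset_adjoin κ _ (.inr ⟨(), rfl⟩))) he) (pow_ne_zero _ he0)
  rw [map_mul, val_const_eq_one P.2.2 hc, one_mul, map_pow, ← h5, Fintype.prod_unique,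
    map_zpow₀] at h6
  have h7 := congrArg (· ^ (ℓ : ℤ)) h6
  simp only [zpow_natCast] at h7
  rw [← pow_mul, mul_comm, pow_mul, ← h4, ← zpow_natCast, ← zpow_natCast, ← zpow_mul,
    zpow_right_inj₀ hv (ne_of_lt h2)] at h7
  refine basic_expChar_pow (algebraMap κ G) h.char n ?_
  rw [← Int.cast_natCast, h7]
  simp

/-- Let `M` be a Galois hull of `G / pc κ {f}` and `τ` an automorphism. For `a ∈ A` and a point `R`
of `M` with `f = a`, both `R` and `R.comap τ` restrict to points of `G` with `f = a`, so `τ g - g`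
vanishes at `R`. Hence `τ g = g`. -/
theorem mem_pc_of_fibres [PerfectField G] (h : PFC κ G) {f g : G} (hf : Transcendental κ f)
    {A : Set κ} (hA : A.Infinite)
    (hg : ∀ a ∈ A, ∃ b : κ, ∀ P : Pt κ G, At κ P.1 f a → At κ P.1 g b) : g ∈ pc κ {f} := by
  have i1 : AlgebraicIndependent κ fun _ : Unit => f := algebraicIndependent_unique_type_iff.2 hf
  have := h.1.finite_pc (S := {f}) (by simpa using ac_eq_top_of_indep i1 (by simpa using h.2))
  have := perfect_pc (k := κ) {f}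
  obtain ⟨e, rfl⟩ := curvef_hull (κ := κ) (pc κ {f}) (g := g) fun M _ _ _ _ _ φ ψ he => by
    have hM : PFC κ M := ⟨h.1.of_finite M, by
      simpa using (trdeg_eq_of_isAlgebraic (K := G) (d := 1)).2 (by simpa using h.2)⟩
    refine sub_eq_zero.1 (hM.eq_zero_of_infinite fun h1 => hA ((curvef_fin h1 (φ f)).subset
      fun a ha => ?_))
    obtain ⟨R, hR⟩ := exists_Pt_At (curvef_tr φ hf) a
    obtain ⟨b, hb⟩ := hg a ha
    obtain ⟨P, hP⟩ := exists_Pt_comap φ hM.2.le ⟨f, hf⟩ R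
    obtain ⟨Q, hQ⟩ := exists_Pt_comap ψ hM.2.le ⟨f, hf⟩ R
    have h2 := hb P (by rwa [hP, curvef_At])
    have h3 := hb Q (by rw [hQ, curvef_At]; exact (he ⟨f, self_mem_pc f⟩).symm ▸ hR)
    rw [hP, curvef_At] at h2
    rw [hQ, curvef_At] at h3
    refine ⟨R, ?_, hR⟩
    simpa using R.1.valuation.map_sub_lt h3 h2
  exact e.2

theorem pc_eq_top_of_inj [PerfectField G] (h : PFC κ G) {f : G} (hf : Transcendental κ f)
    {S : Set (Pt κ G)} (hS : S.Finite)
    (hinj : ∀ P ∉ S, ∀ Q ∉ S, ∀ a : κ, At κ P.1 f a → At κ Q.1 f a → P = Q) : pc κ {f} = ⊤ := by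
  refine eq_top_iff.2 fun g _ => mem_pc_of_fibres h hf
    (curvef_fin (hS.union (h.finite_pole g)) f).infinite_compl fun a ha => ?_
  obtain ⟨P, hP⟩ := exists_Pt_At hf a
  obtain ⟨b, hb⟩ := P.exists_At h.2.le (f := g) (not_not.1 fun h1 => ha ⟨P, .inr h1, hP⟩)
  exact ⟨b, fun Q hQ => hinj P (fun h1 => ha ⟨P, .inl h1, hP⟩) Q (fun h1 => ha ⟨Q, .inl h1, hQ⟩)
    a hP hQ ▸ hb⟩

/-- Let `a ∈ A \ B`, `M` a Galois hull of `G / B`, `τ a ≠ a`. For every constant `c`,
`(τ a - c)/(a - c)` is an `ℓ`-th power in `M`. For almost all `c` there is a point of `M` with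
`a = c`, `[a - c] ∉ U` (`finite_ramified`) and `τ a - c` a unit. -/
theorem le_of_HF_le (h : Std ℓ κ G 1) {A B : IntermediateField κ G} [PerfectField B]
    (hB : ∃ b ∈ B, Transcendental κ b) (hle : HF ℓ A ≤ HF ℓ B) : A ≤ B := by
  intro a ha
  by_cases h1 : IsAlgebraic κ a
  · obtain ⟨c, rfl⟩ := not_not.1 (mt transcendental_iff.2 (not_not.2 h1))
    exact B.algebraMap_mem c
  obtain ⟨b, hb, hb'⟩ := hB
  have : Algebra.IsAlgebraic B G := ⟨fun x => (fielda_coe B).1 (ac_le_ac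
    (Set.singleton_subset_iff.2 (subset_ac _ hb))
      (mem_ac.2 ((isAlgebraic_of_trdeg_one h.pfc.2.le hb').1 x)))⟩
  have := h.pf.finite_emb B
  have : FiniteDimensional B G := by
    refine Module.finite_of_finrank_pos ?_
    rw [← Field.finSepDegree_eq_finrank_of_isSeparable]
    exact Nat.card_pos
  obtain ⟨e, rfl⟩ := curvef_hull (κ := κ) B (g := a) fun M _ _ _ _ _ φ ψ he => by
    have hM := h.of_finite M
    by_contra h2
    obtain ⟨c, hc⟩ := ((finite_ramified hM (curvef_tr φ h1)).union (curvef_fin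
      (hM.pfc.finite_val_ne_one (sub_ne_zero.2 h2)) (φ a))).infinite_compl.nonempty
    obtain ⟨R, hR⟩ := exists_Pt_At (curvef_tr φ h1) c
    refine hc (.inl ⟨R, hR, mem_U.2 ⟨ψ a - algebraMap κ M c, ?_, ?_⟩⟩)
    · have h3 : R.1.valuation (ψ a - φ a) = 1 := not_not.1 fun h3 => hc (.inr ⟨R, h3, hR⟩)
      have := (R.1.valuation.map_add_eq_of_lt_left (hR.trans_eq h3.symm)).trans h3
      rwa [sub_add_sub_cancel] at this
    · obtain ⟨y, hy, -, h3⟩ := mem_HF.1 (hle (mem_HF.2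
        ⟨_, sub_mem ha (A.algebraMap_mem c), curvef_ne h1 c, rfl⟩))
      have key : ∀ χ : G →ₐ[κ] M, cl ℓ (χ a - algebraMap κ M c) = cl ℓ (χ y) := fun χ => by
        have := congrArg (Vmap ℓ (χ : G →+* M)) h3
        rw [Vmap_cl, Vmap_cl, map_sub, RingHom.coe_coe, AlgHom.commutes] at this
        exact this.symm
      rw [key, key]
      exact congrArg _ (he ⟨y, hy⟩)
  exact e.2

omit [IsAlgClosed κ] in
theorem curvef_ext (Ω : Type*) [Field Ω] [Algebra κ Ω] [Algebra G Ω] [IsScalarTower κ G Ω]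
    {S : Set G} {O : ValuationSubring G} (h : ∀ f ∈ ac κ S, f ∈ O) :
    ∃ R : ValuationSubring Ω, R.comap (algebraMap G Ω) = O ∧
      ∀ c ∈ ac κ (algebraMap G Ω '' S), c ∈ R := by
  obtain ⟨R, rfl⟩ := exists_ext (algebraMap G Ω) O
  refine ⟨R, rfl, fun c hc => mem_of_mem_ac (fun z hz => ?_) hc⟩
  obtain ⟨w, hw, rfl⟩ := (IntermediateField.adjoin_map κ S (IsScalarTower.toAlgHom κ G Ω)).ge hz
  exact h w (adjoin_le_ac _ hw)

theorem curvef_U {F E : Type*} [Field F] [Field E] (φ : F →+* E) (O : ValuationSubring E) {x : F}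
    (h : cl ℓ x ∈ U ℓ (O.comap φ)) : cl ℓ (φ x) ∈ U ℓ O := by
  obtain ⟨y, hy, e⟩ := mem_U.1 h
  exact mem_U.2 ⟨φ y, (comap_val_eq_one φ O y).1 hy, by rw [← Vmap_cl, e, Vmap_cl]⟩

omit [IsAlgClosed κ] in
theorem curvef_bc0 {C N : Type*} [Field C] [Field N] [Algebra κ C] [Algebra C N] [IsAlgClosed C]
    (hN : Std ℓ C N 1) (φ : G →+* N)
    (hφ : ∀ c, φ (algebraMap κ G c) = algebraMap C N (algebraMap κ C c)) {x : G}
    (hx : Transcendental C (φ x)) :
    {a : κ | ∃ R : ValuationSubring N, (∀ c, algebraMap C N c ∈ R) ∧ At κ (R.comap φ) x a ∧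
      cl ℓ (x - algebraMap κ G a) ∈ U ℓ (R.comap φ)}.Finite := by
  refine ((finite_ramified hN hx).preimage (algebraMap κ C).injective.injOn).subset ?_
  rintro a ⟨R, h1, h2, h3⟩
  rw [At, comap_val_lt_one, map_sub, hφ] at h2
  have h4 := curvef_U φ R h3
  rw [map_sub, hφ] at h4
  exact ⟨⟨R, fielde_ne_top h2 (curvef_ne hx _), h1⟩, h2, h4⟩

omit [IsAlgClosed κ] in
theorem curvef_bc1 {Ω : Type*} [Field Ω] [Algebra κ Ω] [Algebra G Ω] [IsScalarTower κ G Ω]
    {S : Set G} {C : IntermediateField κ Ω} (hC : C = ac κ (algebraMap G Ω '' S)) [IsAlgClosed C]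
    {N : IntermediateField C Ω} (hN : Std ℓ C N 1) (φ : G →+* N)
    (hφ : ∀ x, (φ x).1 = algebraMap G Ω x) {x : G} (hx : Transcendental C (φ x)) :
    {a : κ | ∃ O : ValuationSubring G, (∀ f ∈ ac κ S, f ∈ O) ∧ At κ O x a ∧
      cl ℓ (x - algebraMap κ G a) ∈ U ℓ O}.Finite := by
  refine (curvef_bc0 hN φ (fun c => Subtype.ext ((hφ _).trans
    (IsScalarTower.algebraMap_apply κ G Ω c).symm)) hx).subset ?_
  rintro a ⟨O, h1, h2⟩
  obtain ⟨R, rfl, h3⟩ := curvef_ext Ω h1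
  refine ⟨R.comap (algebraMap N Ω), fun c => h3 c (hC.le c.2), ?_⟩
  rwa [ValuationSubring.comap_comap, show (algebraMap N Ω).comp φ = algebraMap G Ω from
    RingHom.ext hφ]

omit [IsAlgClosed κ] in
theorem curvef_bc {e : ℕ} (h : Std ℓ κ G (e + 1)) {y : Fin e → G} (hy : AlgebraicIndependent κ y)
    {x : G} (hx : x ∉ ac κ (Set.range y)) :
    {a : κ | ∃ O : ValuationSubring G, (∀ f ∈ ac κ (Set.range y), f ∈ O) ∧ At κ O x a ∧
      cl ℓ (x - algebraMap κ G a) ∈ U ℓ O}.Finite :=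
  curvef_bc1 (C := bcC κ (Set.range y)) rfl (bc_std h (Fintype.card_fin e) hy) (bcHom κ _)
    (coe_bcHom _) (bc_transcendental _ hx)

/-- Base change to the curve over `bcC κ y` with `y` from `exists_hyper`; use `finite_ramified`,
`exists_Pt_At`, and restrict the point along `bcHom`. -/
theorem finite_not_good {d : ℕ} (h : Std ℓ κ G d) {S : Set G} {x : G} (hx : x ∉ ac κ S) :
    {a : κ | ¬ ∃ O : ValuationSubring G, IsPrime κ O ∧ (∀ f ∈ ac κ S, f ∈ O) ∧ At κ O x a ∧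
      cl ℓ (x - algebraMap κ G a) ∉ U ℓ O}.Finite := by
  have h1 : Transcendental κ x := fun h1 => hx (ac_le_ac (Set.empty_subset _) (mem_ac_empty.2 h1))
  obtain ⟨e, rfl⟩ : ∃ e, d = e + 1 := Nat.exists_eq_add_one_of_ne_zero (by
    simpa [Nat.one_le_iff_ne_zero] using card_le_of_indep (y := fun _ : Unit => x)
      (algebraicIndependent_unique_type_iff.2 h1) h.dim.le)
  obtain ⟨y, hy, hS⟩ := exists_hyper h.dim hx
  obtain ⟨h2, h3⟩ := indep_cons_iff.1 hy
  refine (curvef_bc h h2 h3).subset fun a ha => by_contra fun h4 => ha ?_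
  obtain ⟨O, h5, h6, h7⟩ := exists_prime h.dim (π := x - algebraMap κ G a) (indep_cons_iff.2
    ⟨h2, fun h5 => h3 (curvef_mem h5)⟩)
  exact ⟨O, h5, fun f hf => h6.adjoin_mem h5.1 (ac_le_ac hS hf), h7,
    fun h8 => h4 ⟨O, fun f hf => h6.adjoin_mem h5.1 hf, h7, h8⟩⟩

theorem finite_cl_eq_zero {d : ℕ} (h : Std ℓ κ G d) {x : G} (hx : Transcendental κ x) :
    {a : κ | cl ℓ (x - algebraMap κ G a) = 0}.Finite :=
  (finite_not_good h (mt mem_ac_empty.1 hx)).subset fun _ ha ⟨_, _, _, _, h1⟩ =>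
    h1 (ha.symm ▸ zero_mem _)

theorem mem_ac_of_H_le {d : ℕ} (h : Std ℓ κ G d) {s s' : G} (hle : H κ ℓ s' ≤ H κ ℓ s) :
    s' ∈ ac κ {s} := by
  by_contra h1
  obtain ⟨a, ha⟩ := (finite_not_good h h1).infinite_compl.nonempty
  obtain ⟨O, -, h2, -, h3⟩ := not_not.1 ha
  obtain ⟨f, hf, h0, e⟩ := mem_HF.1 (hle (mem_HF.2 ⟨s' - algebraMap κ G a, sub_mem (self_mem_ac s')
    (IntermediateField.algebraMap_mem _ a),
    fun e => h1 (sub_eq_zero.1 e ▸ IntermediateField.algebraMap_mem _ a), rfl⟩))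
  exact h3 (mem_U.2 ⟨f, val_eq_one_iff.2 ⟨h0, h2 f hf, h2 _ (inv_mem hf)⟩, e⟩)

/-- Let `(s, y)` be a transcendence basis. For a point `Q` with `s = b`, extend it by
`exists_gauss` (base field `ac {s}`, variable `y`) to the base change over `bcC κ {y}`; this is a
point of that curve with `s = b`; use `finite_ramified` there, and `PFC.finite_At_mem`. -/
theorem finite_not_good_pt (h : Std ℓ κ G 2) {s : G} (hs : Transcendental κ s) :
    {Q : Pt κ (ac κ {s}) | ¬ ∃ O : ValuationSubring G, IsPrime κ O ∧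
      O.comap (algebraMap (ac κ {s}) G) = Q.1 ∧ ∃ f ∈ ac κ {s}, cl ℓ f ∉ U ℓ O}.Finite := by
  obtain ⟨y, hy⟩ := exists_cons_basis (e := 1) h.dim hs
  obtain ⟨h2, h3⟩ := indep_cons_iff.1 hy
  have h4 := PFC_ac h.pf hs
  have h5 : Transcendental κ (⟨s, self_mem_ac s⟩ : ac κ {s}) := fun h5 => hs h5.algebraMap
  refine (h4.finite_At_mem h5 (curvef_bc (e := 1) h h2 h3)).subset fun Q hQ =>
    by_contra fun h6 => hQ ?_
  obtain ⟨b, hb⟩ := Q.exists_At h4.2.le (not_not.1 fun h7 => h6 (.inl h7))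
  obtain ⟨O, h7, h8⟩ := exists_gauss Q.1 (indep_over_ac hy)
  have h9 := h8.of_kap_le (kap_le_kap O κ (ac κ {s}))
  have hk : ∀ c : κ, algebraMap κ G c ∈ O := fun c => h7.ge (Q.2.2 c)
  have h10 : At κ O s b := (curvef_At (ac κ {s}).val O ⟨s, self_mem_ac s⟩ b).1 (h7 ▸ hb :)
  exact ⟨O, isPrime_of_RInd (e := 1) h.dim (Fintype.card_fin 1) h9 hk
    (fielde_ne_top h10 (curvef_ne hs b)), h7, s - algebraMap κ G b,
    sub_mem (self_mem_ac s) (IntermediateField.algebraMap_mem _ b),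
    fun h11 => h6 (.inr ⟨b, ⟨O, fun f hf => h9.adjoin_mem hk hf, h10, h11⟩, hb⟩)⟩

end Vale.Agent.P019
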