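import Vale.Agent.P019.UltA
import Vale.Agent.P019.FieldE

open scoped IntermediateField
open Filter

namespace Vale.Agent.P019

variable {ℓ : ℕ} [Fact ℓ.Prime] {l L : Type*} [Field l] [Field L] [Algebra l L] [IsAlgClosed l]

/-- an element with a relation whose nonzero coefficients are units is a unit -/
theorem fam_unit {F : Type*} [Field F] [Algebra F L] {x : L} (hx : IsAlgebraic F x) (h0 : x ≠ 0) :
    ∃ T : Finset F, (0 : F) ∉ T ∧ ∀ O : ValuationSubring L,
      (∀ c ∈ T, O.valuation (algebraMap F L c) = 1) → O.valuation x = 1 := by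
  classical
  obtain ⟨p, hp, hpx⟩ := hx
  rw [Polynomial.aeval_def, Polynomial.eval₂_eq_sum, Polynomial.sum_def] at hpx
  refine ⟨p.coeffs, fun h1 => ?_, fun O hO => ?_⟩
  · obtain ⟨n, hn, e⟩ := Polynomial.mem_coeffs_iff.1 h1
    exact Polynomial.mem_support_iff.1 hn e.symm
  by_contra h1
  have hv : ∀ i ∈ p.support,
      O.valuation (algebraMap F L (p.coeff i) * x ^ i) = O.valuation x ^ i := fun i hi => by
    rw [map_mul, hO _ (Polynomial.coeff_mem_coeffs (Polynomial.mem_support_iff.1 hi)), one_mul,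
      map_pow]
  have hpos : 0 < O.valuation x := zero_lt_iff.2 ((map_ne_zero _).2 h0)
  obtain ⟨j, hj, hmax⟩ := Finset.exists_max_image p.support (fun i => O.valuation x ^ i)
    (Polynomial.support_nonempty.2 hp)
  have h3 := O.valuation.map_sum_eq_of_lt
    (f := fun i => algebraMap F L (p.coeff i) * x ^ i) hj fun i hi => by
      obtain ⟨hi1, hi2⟩ := Finset.mem_sdiff.1 hi
      rw [hv i hi1, hv j hj]
      exact lt_of_le_of_ne (hmax i hi1) fun e =>
        Finset.notMem_singleton.1 hi2 (pow_right_injective₀ hpos h1 e)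
  rw [hpx, map_zero, hv j hj] at h3
  exact (pow_pos hpos j).ne h3

/-- reduction to finitely many polynomial expressions -/
theorem fam_polys {ι : Type*} {Y : ι → L} (htop : ac l (Set.range Y) = ⊤) (Φ : Finset L) :
    ∃ W : Finset (MvPolynomial ι l), (∀ P ∈ W, MvPolynomial.aeval Y P ≠ 0) ∧
      ∀ O : ValuationSubring L, (∀ P ∈ W, O.valuation (MvPolynomial.aeval Y P) = 1) →
        ∀ x ∈ Φ, x ≠ 0 → O.valuation x = 1 := by
  classical
  choose! T hT0 hT using fun (x : L) (h0 : x ≠ 0) =>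
    fam_unit (mem_ac.1 (show x ∈ ac l (Set.range Y) by rw [htop]; trivial)) h0
  choose P Q hPQ using fun c : IntermediateField.adjoin l (Set.range Y) =>
    (IntermediateField.mem_adjoin_range_iff l Y (c : L)).1 c.2
  refine ⟨(Φ.erase 0).biUnion fun x => (T x).image P ∪ (T x).image Q, fun R hR => ?_,
    fun O hO x hx h0 => hT x h0 O fun c hc => ?_⟩
  · obtain ⟨x, hx, hR⟩ := Finset.mem_biUnion.1 hR
    have key : ∀ c ∈ T x, MvPolynomial.aeval Y (P c) ≠ 0 ∧ MvPolynomial.aeval Y (Q c) ≠ 0 := by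
      intro c hc
      rw [← div_ne_zero_iff, ← hPQ]
      exact fun h1 => hT0 x (Finset.ne_of_mem_erase hx) ((Subtype.ext h1 : c = 0) ▸ hc)
    rcases Finset.mem_union.1 hR with hR | hR
    · obtain ⟨c, hc, rfl⟩ := Finset.mem_image.1 hR
      exact (key c hc).1
    · obtain ⟨c, hc, rfl⟩ := Finset.mem_image.1 hR
      exact (key c hc).2
  · have hx' := Finset.mem_erase.2 ⟨h0, hx⟩
    have e : algebraMap (IntermediateField.adjoin l (Set.range Y)) L c = _ := hPQ c
    rw [e, map_div₀,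
      hO _ (Finset.mem_biUnion.2 ⟨x, hx', Finset.mem_union_left _ (Finset.mem_image_of_mem _ hc)⟩),
      hO _ (Finset.mem_biUnion.2 ⟨x, hx', Finset.mem_union_right _ (Finset.mem_image_of_mem _ hc)⟩),
      div_one]

theorem fam_point {ι : Type*} (y : ι → L) (s : L) (W : Finset (MvPolynomial (ι ⊕ Unit) l))
    (h : ∀ P ∈ W, MvPolynomial.aeval (Sum.elim y fun _ => s) P ≠ 0) :
    ∃ a : l, ∀ P ∈ W, MvPolynomial.aeval (Sum.elim y fun _ => algebraMap l L a) P ≠ 0 := by
  let q : MvPolynomial (ι ⊕ Unit) l →ₐ[l] Polynomial L :=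
    MvPolynomial.aeval (Sum.elim (fun i => Polynomial.C (y i)) fun _ => Polynomial.X)
  have hq : ∀ (t : L) (P : MvPolynomial (ι ⊕ Unit) l),
      (q P).eval t = MvPolynomial.aeval (Sum.elim y fun _ => t) P := by
    intro t P
    have e : ((Polynomial.aeval t : Polynomial L →ₐ[L] L).restrictScalars l).comp q =
        MvPolynomial.aeval (Sum.elim y fun _ => t) := by
      ext i
      rcases i with i | i <;> simp [q]
    exact AlgHom.congr_fun e P
  have h0 : q (∏ P ∈ W, P) ≠ 0 := fun h1 => by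
    have h2 := hq s (∏ P ∈ W, P)
    rw [h1, Polynomial.eval_zero, map_prod] at h2
    exact Finset.prod_ne_zero_iff.2 h h2.symm
  obtain ⟨a, ha⟩ := ((Polynomial.finite_setOf_isRoot h0).preimage
    (algebraMap l L).injective.injOn).exists_notMem
  refine ⟨a, Finset.prod_ne_zero_iff.1 ?_⟩
  rw [← map_prod, ← hq]
  exact ha

theorem fam_val {ι : Type*} {O : ValuationSubring L} {y : ι → L} {π : L} (hy : RInd l O y)
    (hπ : Inf l O π) {P : MvPolynomial (ι ⊕ Unit) l}
    (hP : ∀ m ∈ P.support, O.valuation (algebraMap l L (P.coeff m)) = 1)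
    (h0 : MvPolynomial.aeval (Sum.elim y fun _ => (0 : L)) P ≠ 0) :
    O.valuation (MvPolynomial.aeval (Sum.elim y fun _ => π) P) = 1 := by
  classical
  obtain ⟨m, hm, e, hmax⟩ := val_aeval_sum hy hπ.vind P (by
    rintro rfl
    exact h0 (map_zero _))
  rw [MvPolynomial.aeval_def, MvPolynomial.eval₂_eq] at h0
  obtain ⟨m', hm', h1⟩ := Finset.exists_ne_zero_of_sum_ne_zero h0
  have h2 : m' (Sum.inr ()) = 0 := by
    by_contra h2
    refine right_ne_zero_of_mul h1 (Finset.prod_eq_zero (Finsupp.mem_support_iff.2 h2) ?_)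
    exact zero_pow h2
  have h3 := hmax m' hm'
  rw [e]
  rw [Finset.univ_unique, Finset.prod_singleton, Finset.prod_singleton, map_mul, map_mul, hP m hm,
    hP m' hm', h2, pow_zero, map_one, one_mul] at h3
  rw [Finset.univ_unique, Finset.prod_singleton, map_mul, hP m hm]
  refine le_antisymm ?_ h3
  rw [one_mul, map_pow]
  exact pow_le_one₀ zero_le hπ.2.1.le

/-- Each `x ∈ Φ`, `x ≠ 0`, has a relation `∑ c j (s, y) x ^ j = 0` with first and last coefficient
nonzero. Choose `a ∈ l` with `c(a, Y) ≠ 0` for these, and put in `Ψ` all nonzero coefficients of the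
`c j (a + π, Y)` as polynomials in `π, Y`. Take `O` from `exists_GV` with `π = s - a`. Then all
`c j (s, y)` are integral, the first and last ones are units (`RInd_iff`), so `x` is a unit. The
last claim follows from `res_ac` with no `y` and `x = π`. -/
theorem exists_fam_val {e : ℕ} (hd : Algebra.trdeg l L = ((e + 1 : ℕ) : Cardinal)) {s : L}
    {y : Fin e → L} (hs : AlgebraicIndependent l (Fin.cons s y : Fin (e + 1) → L))
    (p : ValuationSubring l → Prop)
    (hp : ∀ Ψ : Finset l, (0 : l) ∉ Ψ → ∃ u : ValuationSubring l, (∀ a ∈ Ψ, u.valuation a = 1) ∧ p u)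
    (Φ : Finset L) :
    ∃ O : ValuationSubring L, p (O.comap (algebraMap l L)) ∧ IsGV l O ∧ RInd l O y ∧
      (∀ x ∈ Φ, x ≠ 0 → O.valuation x = 1) ∧ ∀ f ∈ ac l {s}, res O f ∈ kap l O := by
  classical
  have hY : AlgebraicIndependent l (Sum.elim y fun _ : Unit => s) := by
    have h1 := hs.comp (Sum.elim Fin.succ fun _ : Unit => 0) (by
      rintro (i | i) (j | j) h
      · exact congrArg _ (Fin.succ_injective _ h)
      · exact absurd h (Fin.succ_ne_zero i)
      · exact absurd h.symm (Fin.succ_ne_zero j)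
      · rfl)
    have e1 : (Fin.cons s y : Fin (e + 1) → L) ∘ (Sum.elim Fin.succ fun _ : Unit => 0) =
        Sum.elim y fun _ : Unit => s := by
      funext i
      rcases i with i | i <;> rfl
    rwa [e1] at h1
  obtain ⟨W, h1, h2⟩ := fam_polys (ac_eq_top_of_indep hY (by rw [hd]; simp)) Φ
  obtain ⟨a, ha⟩ := fam_point y s W h1
  let σ : MvPolynomial (Fin e ⊕ Unit) l →ₐ[l] MvPolynomial (Fin e ⊕ Unit) l :=
    MvPolynomial.aeval (Sum.elim (fun i => MvPolynomial.X (Sum.inl i))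
      fun i => MvPolynomial.X (Sum.inr i) + MvPolynomial.C a)
  have hσ : ∀ (t : L) (P : MvPolynomial (Fin e ⊕ Unit) l),
      MvPolynomial.aeval (Sum.elim y fun _ => t) (σ P) =
        MvPolynomial.aeval (Sum.elim y fun _ => t + algebraMap l L a) P := by
    intro t P
    have e1 : (MvPolynomial.aeval (Sum.elim y fun _ : Unit => t)).comp σ =
        MvPolynomial.aeval (Sum.elim y fun _ => t + algebraMap l L a) := by
      ext i
      rcases i with i | i <;> simp [σ]
    exact AlgHom.congr_fun e1 P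
  obtain ⟨u, hu, hpu⟩ := hp (W.biUnion fun P => (σ P).support.image fun m => (σ P).coeff m)
    fun h0 => by
      obtain ⟨P, -, h0⟩ := Finset.mem_biUnion.1 h0
      obtain ⟨m, hm, h0⟩ := Finset.mem_image.1 h0
      exact MvPolynomial.mem_support_iff.1 hm h0
  obtain ⟨h3, h4⟩ := indep_cons_iff.1 hs
  obtain ⟨O, rfl, hR, hI⟩ := exists_GV u (π := s - algebraMap l L a) (y := y)
    (indep_cons_iff.2 ⟨h3, fun h5 => h4 (by
      simpa using add_mem h5 (IntermediateField.algebraMap_mem _ a))⟩)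
  refine ⟨O, hpu, ⟨e, y, _, hd, hR, hI⟩, hR, h2 O fun P hP => ?_, fun f hf => ?_⟩
  · have h5 := fam_val hR hI (P := σ P) (fun m hm => (comap_val_eq_one _ O _).1 (hu _
      (Finset.mem_biUnion.2 ⟨P, hP, Finset.mem_image_of_mem _ hm⟩)))
      (by rw [hσ, zero_add]; exact ha P hP)
    rwa [hσ, sub_add_cancel] at h5
  · have hE : RInd l O (Fin.elim0 : Fin 0 → L) :=
      ⟨fun i => i.elim0, algebraicIndependent_empty_type⟩
    have h5 := res_ac hE hI.vind (z := f) (ac_le_ac (Set.singleton_subset_iff.2 (by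
      have h6 := subset_ac (k := l) (Set.range (Fin.elim0 : Fin 0 → L) ∪
        Set.range fun _ : Unit => s - algebraMap l L a) (Or.inr ⟨(), rfl⟩)
      simpa using add_mem h6 (IntermediateField.algebraMap_mem _ a))) hf)
    rw [Set.range_eq_empty, mem_ac_empty] at h5
    obtain ⟨c, hc⟩ := not_not.1 (mt transcendental_iff.2 (not_not.2 h5))
    rw [← hc]
    exact c.2

theorem fam_ex (hl : (ℓ : l) ≠ 0) {e : ℕ}
    (hd : Algebra.trdeg l L = ((e + 1 : ℕ) : Cardinal)) {s : L} {y : Fin e → L}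
    (hs : AlgebraicIndependent l (Fin.cons s y : Fin (e + 1) → L))
    (p : ValuationSubring l → Prop)
    (hp : ∀ Ψ : Finset l, (0 : l) ∉ Ψ →
      ∃ u : ValuationSubring l, (∀ a ∈ Ψ, u.valuation a = 1) ∧ p u) :
    ∃ (𝒰 : Ultrafilter (Finset L)) (O : Finset L → ValuationSubring L), Fam ℓ l s y 𝒰 O ∧
      ∀ i, p ((O i).comap (algebraMap l L)) := by
  classical
  choose O h1 h2 h3 h4 h5 using fun Φ : Finset L => exists_fam_val hd hs p hp (insert (ℓ : L) Φ)
  obtain ⟨𝒰, hU⟩ := exists_ultra_finset L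
  refine ⟨𝒰, O, ⟨h2, h3, fun i => h4 i _ (Finset.mem_insert_self _ _) ?_,
    fun x hx => (hU x).mono fun i hi => h4 i x (Finset.mem_insert_of_mem hi) hx, h5⟩, h1⟩
  rw [← map_natCast (algebraMap l L)]
  exact (map_ne_zero _).2 hl

theorem exists_fam_triv (hl : (ℓ : l) ≠ 0) {e : ℕ}
    (hd : Algebra.trdeg l L = ((e + 1 : ℕ) : Cardinal)) {s : L} {y : Fin e → L}
    (hs : AlgebraicIndependent l (Fin.cons s y : Fin (e + 1) → L)) :
    ∃ (𝒰 : Ultrafilter (Finset L)) (O : Finset L → ValuationSubring L), Fam ℓ l s y 𝒰 O ∧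
      ∀ i (c : l), algebraMap l L c ∈ O i := by
  obtain ⟨𝒰, O, h1, h2⟩ := fam_ex hl hd hs (fun u => u = ⊤) fun Ψ h0 =>
    ⟨⊤, fun a ha => val_eq_one_iff.2 ⟨fun h => h0 (h ▸ ha), trivial, trivial⟩, rfl⟩
  refine ⟨𝒰, O, h1, fun i c => ?_⟩
  rw [← ValuationSubring.mem_comap, h2 i]
  trivial

theorem exists_fam_ft (hl : (ℓ : l) ≠ 0) {e : ℕ}
    (hd : Algebra.trdeg l L = ((e + 1 : ℕ) : Cardinal)) {s : L} {y : Fin e → L}
    (hs : AlgebraicIndependent l (Fin.cons s y : Fin (e + 1) → L)) :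
    ∃ (𝒰 : Ultrafilter (Finset L)) (O : Finset L → ValuationSubring L), Fam ℓ l s y 𝒰 O ∧
      ∀ i, FT (kap l (O i)) := by
  obtain ⟨𝒰, O, h1, h2⟩ := fam_ex hl hd hs _ fun Ψ h0 => exists_ft_val Ψ h0
  refine ⟨𝒰, O, h1, fun i => ?_⟩
  obtain ⟨p, hp, h3, h4⟩ := h2 i
  refine FT_kap (O i) l ⟨p, hp, ?_, fun a ha => ?_⟩
  · rwa [comap_val_lt_one, map_natCast] at h3
  · obtain ⟨n, hn, h5⟩ := h4 a ha
    exact ⟨n, hn, (comap_val_lt_one _ _ _).1 h5⟩

end Vale.Agent.P019
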