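import Vale.Agent.P019.AB

open scoped IntermediateField

namespace Vale.Agent.P019

variable {ℓ : ℕ} [Fact ℓ.Prime]

theorem fieldd_fix {K E : Type*} [Field K] [Field E] [Algebra K E] [IsAlgClosed E]
    [Algebra.IsAlgebraic K E] {ζ : K} (hζ : IsPrimitiveRoot ζ ℓ) {u : K} (hu : u ≠ 0) {w : E}
    (hw : w ^ ℓ = algebraMap K E u) (h : ∀ τ : E ≃ₐ[K] E, τ w = w) : cl ℓ u = 0 := by
  have hp := (Fact.out : ℓ.Prime)
  by_contra h0
  have : IsAlgClosure K E := ⟨inferInstance, inferInstance⟩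
  have h1 := minpoly.eq_of_irreducible_of_monic (x := w) (X_pow_sub_C_irreducible_of_prime hp
    (not_exists.1 (mt (cl_eq_zero_iff hu).2 h0))) (by simp [hw])
    (Polynomial.monic_X_pow_sub_C u hp.ne_zero)
  obtain ⟨τ, hτ⟩ := minpoly.exists_algEquiv_of_root' (x := algebraMap K E ζ * w)
    (Algebra.IsAlgebraic.isAlgebraic (R := K) w) (by
      rw [← h1, map_sub, map_pow, Polynomial.aeval_X, Polynomial.aeval_C, mul_pow, hw, ← map_pow,
        hζ.pow_eq_one, map_one, one_mul, sub_self])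
  have h2 : w ≠ 0 := fun h2 => hu ((algebraMap K E).injective (by
    rw [← hw, h2, zero_pow hp.ne_zero, map_zero]))
  rw [h, right_eq_mul₀ h2] at hτ
  exact hζ.ne_one hp.one_lt ((algebraMap K E).injective (hτ.trans (map_one _).symm))

/-- Kummer theory. The image of `τ ↦ (τ (r j) / r j)` is a subgroup of `(ZMod ℓ)^J`; if proper, a
nonzero functional `n` kills it, so `∏ r j ^ n j` is fixed by all automorphisms and separable, so it
lies in `K`, contradicting independence. -/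
theorem kummer_aut {K E : Type*} [Field K] [Field E] [Algebra K E] [IsAlgClosed E]
    [Algebra.IsAlgebraic K E] {ζ : K} (hζ : IsPrimitiveRoot ζ ℓ) {J : Type*} [Fintype J]
    {u : J → K} (hu : LinearIndependent (ZMod ℓ) fun j => cl ℓ (u j)) {r : J → E}
    (hr : ∀ j, r j ^ ℓ = algebraMap K E (u j)) (e : J → ZMod ℓ) :
    ∃ τ : E ≃ₐ[K] E, ∀ j, τ (r j) = algebraMap K E ζ ^ (e j).val * r j := by
  classical
  have hp := (Fact.out : ℓ.Prime)
  have hζ' := hζ.map_of_injective (algebraMap K E).injective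
  have hu0 : ∀ j, u j ≠ 0 := fun j h => hu.ne_zero j (by rw [h, cl_zero])
  have hr0 : ∀ j, r j ≠ 0 := fun j h => hu0 j ((algebraMap K E).injective (by
    rw [← hr, h, zero_pow hp.ne_zero, map_zero]))
  let W₀ : AddSubmonoid (J → ZMod ℓ) :=
    { carrier := {e | ∃ τ : E ≃ₐ[K] E, ∀ j, τ (r j) = algebraMap K E ζ ^ (e j).val * r j}
      zero_mem' := ⟨AlgEquiv.refl, fun j => by simp⟩
      add_mem' := fun ⟨τ, h1⟩ ⟨τ', h2⟩ => ⟨τ.trans τ', fun j => by
        rw [AlgEquiv.trans_apply, h1, map_mul, map_pow, AlgEquiv.commutes, h2, Pi.add_apply,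
          ZMod.val_add, ← pow_eq_pow_mod _ hζ'.pow_eq_one, pow_add, mul_assoc]⟩ }
  let W : Submodule (ZMod ℓ) (J → ZMod ℓ) :=
    { W₀ with
      smul_mem' := fun c e he => by
        rw [← ZMod.natCast_zmod_val c, Nat.cast_smul_eq_nsmul]
        exact nsmul_mem (S := W₀) he _ }
  by_contra he
  obtain ⟨φ, h0, hφ⟩ := W.exists_le_ker_of_lt_top (lt_top_iff_ne_top.2 fun h => he (h.ge trivial))
  let n : J → ZMod ℓ := fun i => φ fun j => if i = j then 1 else 0
  have h1 : ∀ τ : E ≃ₐ[K] E, τ (∏ j, r j ^ (n j).val) = ∏ j, r j ^ (n j).val := fun τ => by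
    choose i h1 h2 using fun j => hζ'.eq_pow_of_pow_eq_one (ξ := τ (r j) / r j) (by
      rw [div_pow, ← map_pow, hr, AlgEquiv.commutes, div_self ((map_ne_zero _).2 (hu0 j))])
    have h3 : ∀ j, τ (r j) = algebraMap K E ζ ^ i j * r j := fun j => by
      rw [h2, div_mul_cancel₀ _ (hr0 j)]
    have h4 : φ (fun j => i j) = 0 := hφ ⟨τ, fun j => by rw [ZMod.val_cast_of_lt (h1 j), h3]⟩
    rw [LinearMap.pi_apply_eq_sum_univ] at h4
    have h5 : ℓ ∣ ∑ j, i j * (n j).val := (ZMod.natCast_eq_zero_iff _ _).1 (by simpa [n] using h4)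
    simp only [map_prod, map_pow, h3, mul_pow, ← pow_mul, Finset.prod_mul_distrib,
      Finset.prod_pow_eq_pow_sum]
    rw [(hζ'.pow_eq_one_iff_dvd _).2 h5, one_mul]
  have h2 := fieldd_fix hζ (u := ∏ j, u j ^ (n j).val)
    (Finset.prod_ne_zero_iff.2 fun j _ => pow_ne_zero _ (hu0 j)) (by
      simp only [← Finset.prod_pow, map_prod, map_pow, ← hr, ← pow_mul, mul_comm ℓ]) h1
  rw [cl_prod _ _ fun j _ => pow_ne_zero _ (hu0 j)] at h2
  simp only [cl_pow, ZMod.natCast_zmod_val] at h2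
  have h3 := Fintype.linearIndependent_iff.1 hu n h2
  refine h0 (LinearMap.ext fun e => ?_)
  rw [LinearMap.pi_apply_eq_sum_univ]
  exact Finset.sum_eq_zero fun j _ => smul_eq_zero_of_right _ (h3 j)

theorem kummer_ker {K N : Type*} [Field K] [Field N] [Algebra K N] [Algebra.IsAlgebraic K N]
    [Finite (Field.Emb K N)] {ζ : K} (hζ : IsPrimitiveRoot ζ ℓ) :
    FiniteDimensional (ZMod ℓ) (LinearMap.ker (Vmap ℓ (algebraMap K N))) := by
  have hp := (Fact.out : ℓ.Prime)
  by_contra h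
  obtain ⟨v, hv⟩ := (Module.le_rank_iff (n := Nat.card (Field.Emb K N))).1
    (Cardinal.natCast_lt_aleph0.le.trans (not_lt.1 (mt Module.rank_lt_aleph0_iff.1 h)))
  choose u hu hu' using fun j => cl_surj (v j).1
  choose r hr using fun j => (cl_eq_zero_iff (ℓ := ℓ) ((map_ne_zero (algebraMap K N)).2 (hu j))).1
    (by rw [← Vmap_cl, hu']; exact (v j).2)
  have : Algebra.IsAlgebraic K (AlgebraicClosure N) := .trans K N _
  choose τ hτ using kummer_aut (E := AlgebraicClosure N) hζ (u := u)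
    (by simp only [hu']; exact hv.map' _ (Submodule.ker_subtype _))
    (r := fun j => algebraMap N _ (r j))
    fun j => by rw [← map_pow, hr, ← IsScalarTower.algebraMap_apply]
  have h1 := Nat.card_le_card_of_injective (β := Field.Emb K N)
    (fun e => (τ e).toAlgHom.comp (IsScalarTower.toAlgHom K N _)) fun e e' h => funext fun j => by
      have h2 : τ e (algebraMap N _ (r j)) = τ e' (algebraMap N _ (r j)) := DFunLike.congr_fun h (r j)
      rw [hτ, hτ] at h2
      exact ZMod.val_injective ℓ ((hζ.map_of_injective (algebraMap K _).injective).pow_inj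
        (ZMod.val_lt _) (ZMod.val_lt _) (mul_right_cancel₀ ((map_ne_zero _).2 fun h0 =>
          (map_ne_zero _).2 (hu j) (by rw [← hr, h0, zero_pow hp.ne_zero])) h2))
  rw [Nat.card_fun, Nat.card_zmod, Nat.card_fin] at h1
  exact (Nat.lt_pow_self hp.one_lt).not_ge h1

variable {k K : Type*} [Field k] [Field K] [Algebra k K] [IsAlgClosed k]

/-- use the order of vanishing at `a` (`exists_lin`) -/
theorem linIndep_gen {s : K} (hs : Transcendental k s) :
    LinearIndependent (ZMod ℓ) fun a : k =>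
      cl ℓ ((⟨s, IntermediateField.mem_adjoin_simple_self k s⟩ : k⟮s⟯) - algebraMap k k⟮s⟯ a) := by
  classical
  have hp := (Fact.out : ℓ.Prime)
  have h0 : ∀ a : k, (⟨s, IntermediateField.mem_adjoin_simple_self k s⟩ : k⟮s⟯) -
      algebraMap k k⟮s⟯ a ≠ 0 := fun a h => by
    have e : s = algebraMap k K a := congrArg Subtype.val (sub_eq_zero.1 h)
    exact hs (e ▸ isAlgebraic_algebraMap a)
  refine linearIndependent_iff'.2 fun T c h a ha => ?_
  have h1 := fun a (_ : a ∈ T) => pow_ne_zero (c a).val (h0 a)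
  obtain ⟨z, hz⟩ := (cl_eq_zero_iff (ℓ := ℓ) (Finset.prod_ne_zero_iff.2 h1)).1 (by
    rw [cl_prod _ _ h1]
    simpa only [cl_pow, ZMod.natCast_zmod_val] using h)
  have h2 : z.1 ≠ 0 := fun h2 => Finset.prod_ne_zero_iff.2 h1 (by
    rw [← hz, show z = 0 from Subtype.ext h2, zero_pow hp.ne_zero])
  obtain ⟨f, g, hfg⟩ := (IntermediateField.mem_adjoin_simple_iff _ _).1 z.2
  have hg : Polynomial.aeval s g ≠ 0 := fun h => h2 (by rw [hfg, h, div_zero])
  have h3 : f ^ ℓ = (∏ a ∈ T, (Polynomial.X - Polynomial.C a) ^ (c a).val) * g ^ ℓ := by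
    refine transcendental_iff_injective.1 hs ?_
    have := congrArg (algebraMap k⟮s⟯ K) hz
    rw [map_pow, IntermediateField.algebraMap_apply, hfg, div_pow,
      div_eq_iff (pow_ne_zero _ hg)] at this
    simpa using this
  have h4 : ∏ a ∈ T, (Polynomial.X - Polynomial.C a) ^ (c a).val ≠ 0 :=
    Finset.prod_ne_zero_iff.2 fun a _ => pow_ne_zero _ (Polynomial.X_sub_C_ne_zero a)
  have h5 := congrArg (fun q : Polynomial k => q.roots.count a) h3
  have h6 : g ≠ 0 := fun h => hg (by rw [h, map_zero])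
  simp only [Polynomial.roots_mul (mul_ne_zero h4 (pow_ne_zero ℓ h6)),
    Polynomial.roots_prod _ _ h4, Polynomial.roots_pow, Multiset.count_add, Multiset.count_nsmul,
    Multiset.count_bind, Polynomial.roots_X_sub_C, Multiset.count_singleton] at h5
  rw [← Finset.sum_eq_multiset_sum] at h5
  simpa [ha] using (congrArg (Nat.cast : ℕ → ZMod ℓ) h5).symm

theorem infinite_integral (O : ValuationSubring K) : {a : k | algebraMap k K a ∈ O}.Infinite :=
  fun h => Set.infinite_univ ((h.union (h.preimage inv_injective.injOn)).subset fun a _ => by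
    simpa using O.mem_or_inv_mem (algebraMap k K a))

theorem fieldd_ker {F K : Type*} [Field F] [Field K] [Algebra F K] (h : PF F K) {ζ : F}
    (hζ : IsPrimitiveRoot ζ ℓ) :
    FiniteDimensional (ZMod ℓ) (LinearMap.ker (Vmap ℓ (algebraMap F K))) := by
  have := fieldb_sub F (algebraicClosure F K) h
  rw [IsScalarTower.algebraMap_eq F (algebraicClosure F K) K, Vmap_comp,
    LinearMap.ker_comp_of_ker_eq_bot _ (LinearMap.ker_eq_bot.2 (Vmap_injective _ fun y x h =>
      ⟨⟨y, mem_algebraicClosure_iff.2 (.of_pow (Fact.out : ℓ.Prime).pos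
        (h ▸ mem_algebraicClosure_iff.1 x.2))⟩, rfl⟩))]
  exact kummer_ker hζ

theorem fieldd_lin {R M N ι : Type*} [Field R] [AddCommGroup M] [AddCommGroup N] [Module R M]
    [Module R N] (Φ : M →ₗ[R] N) (W : Submodule R N) [FiniteDimensional R (LinearMap.ker Φ)]
    [FiniteDimensional R W] {v : ι → M} (hv : LinearIndependent R v) {T : Set ι}
    (h : ∀ i ∈ T, Φ (v i) ∈ W) : T.Finite := by
  have := Module.Finite.iff_fg.2 (Submodule.fg_of_fg_map_of_fg_inf_ker Φ (s := W.comap Φ)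
    (Module.Finite.iff_fg.1 (Submodule.finiteDimensional_of_le (Submodule.map_comap_le _ _)))
    (Module.Finite.iff_fg.1 (Submodule.finiteDimensional_of_le inf_le_right)))
  exact LinearIndependent.finite (R := R) (M := W.comap Φ) (f := fun a : T => ⟨v a, h a a.2⟩)
    (.of_comp (Submodule.subtype _) (hv.comp _ Subtype.val_injective))

theorem fieldd_inf (hK : PF k K) (hl : (ℓ : k) ≠ 0) {s : K} (hs : Transcendental k s)
    (W : Submodule (ZMod ℓ) (V ℓ K)) (h : {a : k | cl ℓ (s - algebraMap k K a) ∈ W}.Infinite) :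
    ¬ FiniteDimensional (ZMod ℓ) W := fun _ => by
  obtain ⟨ζ, hζ⟩ := exists_primitiveRoot k hl
  have := fieldd_ker (ℓ := ℓ) (hK.over k⟮s⟯) (hζ.map_of_injective (algebraMap k k⟮s⟯).injective)
  refine h (fieldd_lin (Vmap ℓ (algebraMap k⟮s⟯ K)) W (linIndep_gen hs) fun a ha => ?_)
  rw [Vmap_cl]
  exact ha

omit [IsAlgClosed k] in
theorem fieldd_mem {s t : K} (hs : Transcendental k s) (h : s ∈ ac k {t}) (a : k) :
    cl ℓ (s - algebraMap k K a) ∈ H k ℓ t :=
  mem_HF.2 ⟨_, sub_mem h (IntermediateField.algebraMap_mem _ a),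
    fun h => hs (sub_eq_zero.1 h ▸ isAlgebraic_algebraMap a), rfl⟩

/-- There is `s ∈ ac {t}` transcendental with `v s < 1`. The classes of `1 - a s` (`a ≠ 0`
integral) are independent in `V k(s)`, the kernel of `V k(s) → V (ac {t})` is finite dimensional
and `V (ac {t}) → V K` is injective. -/
theorem not_fd_H_inf_U1 (hK : PF k K) (hl : (ℓ : k) ≠ 0) {t : K} (ht : Transcendental k t)
    {O : ValuationSubring K} (h : ¬ Hor k O t) :
    ¬ FiniteDimensional (ZMod ℓ) ↥(H k ℓ t ⊓ U1 ℓ O) := by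
  obtain ⟨x, hx, hx'⟩ : ∃ x ∈ ac k {t}, x ∉ O := by simpa [Hor] using h
  have h1 : O.valuation x⁻¹ < 1 := O.mem_nonunits_iff.1 (O.inv_mem_nonunits_iff.2 (.inr hx'))
  have h0 : x⁻¹ ≠ 0 := inv_ne_zero fun h => hx' (h ▸ O.zero_mem)
  obtain ⟨t', h2, h3, h4⟩ : ∃ t' ∈ ac k {t}, t' ∈ O ∧ Transcendental k t' :=
    (O.mem_or_inv_mem t).elim (fun h => ⟨t, self_mem_ac t, h, ht⟩)
      fun h => ⟨t⁻¹, inv_mem (self_mem_ac t), h, fun h' => ht (by simpa using h'.inv)⟩
  obtain ⟨s, h5, h6, h7⟩ : ∃ s ∈ ac k {t}, O.valuation s < 1 ∧ Transcendental k s := by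
    by_cases h5 : IsAlgebraic k x⁻¹
    · refine ⟨x⁻¹ * t', mul_mem (inv_mem hx) h2, ?_, fun h => h4 ?_⟩
      · rw [map_mul]
        exact (mul_le_of_le_one_right' ((O.valuation_le_one_iff _).2 h3)).trans_lt h1
      · simpa only [inv_mul_cancel_left₀ h0] using h5.inv.mul h
    · exact ⟨_, inv_mem hx, h1, h5⟩
  refine fieldd_inf hK hl h7 _ ((((infinite_integral (k := k) O).preimage
    (inv_surjective.range_eq.ge.trans' (Set.subset_univ _))).diff (Set.finite_singleton 0)).mono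
    fun a ha => ⟨fieldd_mem h7 h5 a, mem_U1.2 ⟨algebraMap k K (-a⁻¹) * (s - algebraMap k K a), ?_,
      cl_const_mul (neg_ne_zero.2 (inv_ne_zero ha.2)) _⟩⟩)
  have h8 : algebraMap k K (-a⁻¹) * (s - algebraMap k K a) - 1 = -(algebraMap k K a⁻¹ * s) := by
    rw [mul_sub, ← map_mul, neg_mul, inv_mul_cancel₀ ha.2, map_neg, map_neg, map_one]
    ring
  rw [h8, Valuation.map_neg, map_mul]
  exact (mul_le_of_le_one_left' ((O.valuation_le_one_iff _).2 ha.1)).trans_lt h6

theorem not_fd_H (hK : PF k K) (hl : (ℓ : k) ≠ 0) {t : K} (ht : Transcendental k t) :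
    ¬ FiniteDimensional (ZMod ℓ) (H k ℓ t) :=
  fieldd_inf hK hl ht _ (Set.infinite_univ.mono fun a _ => fieldd_mem ht (self_mem_ac t) a)

theorem fieldd_ker' {κ F K : Type*} [Field κ] [Field F] [Field K] [Algebra κ K] (h : PF κ K)
    (φ : κ →+* F) (ψ : F →+* K) (e : ∀ c, ψ (φ c) = algebraMap κ K c) {ζ : F}
    (hζ : IsPrimitiveRoot ζ ℓ) : FiniteDimensional (ZMod ℓ) (LinearMap.ker (Vmap ℓ ψ)) := by
  let _ := φ.toAlgebra
  let _ := ψ.toAlgebra
  have : IsScalarTower κ F K := .of_algebraMap_eq fun c => (e c).symm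
  exact fieldd_ker (h.over F) hζ

/-- The residue map embeds `ac {t}` in the residue field, a `PF` curve; `H t ⊓ U1 O` is the image
of the kernel of `Vmap` (`cl_mem_U1_iff`). -/
theorem fd_H_inf_U1 (hK : PF k K) (hl : (ℓ : k) ≠ 0) (hd : Algebra.trdeg k K = 2) {t : K}
    (ht : Transcendental k t) {O : ValuationSubring K} (hO : IsAbh k O) (h : Hor k O t) :
    FiniteDimensional (ZMod ℓ) ↥(H k ℓ t ⊓ U1 ℓ O) := by
  obtain ⟨ψ, hψ⟩ := exists_resHom O (algebraMap (ac k {t}) K) fun x => h x x.2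
  obtain ⟨φ, hφ⟩ := exists_kapEquiv O k fun c => h _ (IntermediateField.algebraMap_mem _ c)
  obtain ⟨ζ, hζ⟩ := exists_primitiveRoot k hl
  have := fieldd_ker' (hO.res_pf hK (e := 1) (by simpa using hd)).1
    ((algebraMap k (ac k {t})).comp φ.symm.toRingHom) ψ
    (fun c => (hψ _).trans ((hφ _).symm.trans (congrArg Subtype.val (φ.apply_symm_apply c))))
    (hζ.map_of_injective (algebraMap k (ac k {t})).injective)
  refine Submodule.finiteDimensional_of_le
    (S₂ := (LinearMap.ker (Vmap ℓ ψ)).map (Vmap ℓ (algebraMap (ac k {t}) K))) fun z hz => ?_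
  obtain ⟨x, hx, rfl⟩ := (mem_range_Vmap _ _).1 hz.1
  refine ⟨cl ℓ x, ?_, Vmap_cl _ _⟩
  rw [SetLike.mem_coe, LinearMap.mem_ker, Vmap_cl, hψ]
  exact (cl_mem_U1_iff O (val_eq_one_iff.2
    ⟨(map_ne_zero _).2 hx, h _ x.2, h _ (inv_mem x.2)⟩)).1 hz.2

end Vale.Agent.P019
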