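import Vale.Agent.P019.FieldC

open scoped IntermediateField

namespace Vale.Agent.P019

variable {k K : Type*} [Field k] [Field K] [Algebra k K] [IsAlgClosed k]

omit [IsAlgClosed k] in
theorem zar_span {x y u v : K} (h : AlgebraicIndependent k ![x, y]) (hx : x ∈ ac k {u, v})
    (hy : y ∈ ac k {u, v}) : AlgebraicIndependent k ![u, v] := by
  have key : ∀ w : K, u ∈ ac k {w} → v ∈ ac k {w} → False := fun w h1 h2 => by
    have e : ac k {u, v} ≤ ac k {w} := ac_le_ac (Set.pair_subset h1 h2)
    exact (indep_pair_iff.1 h).2 ((ac_eq_of_mem (e hx) (indep_pair_iff.1 h).1).ge (e hy))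
  exact indep_pair_iff.2 ⟨fun hu => key v (ac_le_ac (Set.empty_subset _) (mem_ac_empty.2 hu))
    (self_mem_ac v), key u (self_mem_ac u)⟩

omit [IsAlgClosed k] in
theorem zar_mem {x y : K} {a b : k} (hab : a ≠ b) {T : IntermediateField k K}
    (ha : x + algebraMap k K a * y ∈ T) (hb : x + algebraMap k K b * y ∈ T) : x ∈ T ∧ y ∈ T := by
  have h0 : algebraMap k K a - algebraMap k K b ≠ 0 :=
    sub_ne_zero.2 ((algebraMap k K).injective.ne hab)
  have hy : y ∈ T := by
    convert div_mem (sub_mem ha hb) (sub_mem (T.algebraMap_mem a) (T.algebraMap_mem b)) using 1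
    field_simp
    ring
  exact ⟨by simpa using sub_mem ha (mul_mem (T.algebraMap_mem a) hy), hy⟩

theorem indep_lin {x y : K} (h : AlgebraicIndependent k ![x, y]) {a b : k} (hab : a ≠ b) :
    AlgebraicIndependent k ![x + algebraMap k K a * y, x + algebraMap k K b * y] := by
  have hS := zar_mem (T := IntermediateField.adjoin k
    {x + algebraMap k K a * y, x + algebraMap k K b * y}) hab
    (IntermediateField.subset_adjoin k _ (.inl rfl)) (IntermediateField.subset_adjoin k _ (.inr rfl))
  exact zar_span h (adjoin_le_ac _ hS.1) (adjoin_le_ac _ hS.2)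

theorem indep_lin' {x y : K} (h : AlgebraicIndependent k ![x, y]) (a : k) :
    AlgebraicIndependent k ![x + algebraMap k K a * y, y] := by
  have h1 : x + algebraMap k K a * y ∈ ac k {x + algebraMap k K a * y, y} := subset_ac _ (.inl rfl)
  have h2 : y ∈ ac k {x + algebraMap k K a * y, y} := subset_ac _ (.inr rfl)
  exact zar_span h (by simpa using sub_mem h1 (mul_mem (IntermediateField.algebraMap_mem _ a) h2)) h2

theorem subsingleton_dep {x y z : K} (h : AlgebraicIndependent k ![x, y])
    (hz : Transcendental k z) : {a : k | z ∈ ac k {x + algebraMap k K a * y}}.Subsingleton :=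
  fun _ ha _ hb => by_contra fun hab => transcendental_iff.1 hz (inter_ac (indep_lin h hab) ha hb)

theorem zar_fin (F A : Type*) {K : Type*} [Field F] [Field A] [Field K] [Algebra F A] [Algebra A K]
    [Algebra F K] [IsScalarTower F A K] [Algebra.IsAlgebraic F A] [PerfectField F] (h : PF F K) :
    Finite (IntermediateField F A) := by
  have := fieldb_sub F A h
  have : FiniteDimensional F A := by
    refine Module.finite_of_finrank_pos ?_
    rw [← Field.finSepDegree_eq_finrank_of_isSeparable]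
    exact Nat.card_pos
  exact Field.finite_intermediateField_of_exists_primitive_element F A
    (Field.exists_primitive_element F A)

theorem zar_key (E : Type*) {K ι : Type*} [Field E] [Field K] [Algebra E K] [PerfectField E]
    (h : PF E K) (f : ι → Set K) (T : Set ι) (h1 : ∀ a, ∀ z ∈ f a, IsAlgebraic E z)
    (h2 : ∀ a ∈ T, ∀ b ∈ T, (∀ N : Subfield K, (∀ c : E, algebraMap E K c ∈ N) → f a ⊆ N →
      f b ⊆ N) → a = b) : T.Finite := by
  have := zar_fin E (algebraicClosure E K) h
  refine Set.Finite.of_finite_image (f := fun a => IntermediateField.adjoin E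
    ((algebraicClosure E K).val ⁻¹' f a)) (Set.toFinite _) fun a ha b hb e =>
    h2 a ha b hb fun N h3 h4 z hz => ?_
  refine (Subfield.closure_le (t := N.comap (algebraicClosure E K).val.toRingHom)).2 ?_
    (e.ge (IntermediateField.subset_adjoin E _
      (show ⟨z, mem_algebraicClosure_iff.2 (h1 b z hz)⟩ ∈ _ from hz)))
  rintro _ (⟨c, rfl⟩ | hc)
  exacts [h3 c, h4 hc]

theorem zar_step {u v z : K} (h : AlgebraicIndependent k ![u, v]) (hz : z ∈ ac k {v})
    (h1 : ∀ S : Set K, u ∈ pc k S ∧ v ∈ pc k S → (ac k {u} : Set K) ⊆ pc k S → z ∈ pc k S) :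
    z ∈ pc k {v} := by
  have h2 : AlgebraicIndependent (ac k {u}) ![v] := indep_over_ac (s := u) (y := ![v]) h
  have h3 : (ac k {u} : Set K) ⊆ pc k (ac k {u} ∪ {v}) := Set.subset_union_left.trans (subset_pc _)
  obtain ⟨n, h4⟩ := mem_pc.1 (h1 _ ⟨h3 (self_mem_ac u), subset_pc _ (.inr rfl)⟩ h3)
  rw [← IntermediateField.adjoin_adjoin_left, IntermediateField.adjoin_self] at h4
  have h5 := mem_pc_of_algClosed h2 (z := z) (mem_pc.2 ⟨n, by simpa using h4⟩) (by simpa using hz)
  simpa using h5

/-- Zariski lemma. `A = ac k {x, y}` is finite over the perfect field `E = pc k {x, y}`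
(`PF.intermediate`, `PF.finite_pc`), so there are finitely many intermediate fields. If the set is
infinite there are `a ≠ b` in it with `E · ac {t a} = E · ac {t b}`, `t a = x + a y`. So an element
of `ac {t b}` lies in `pc F {t b}` with `F = ac {t a}`; apply `mem_pc_of_algClosed`. -/
theorem finite_not_GEN [PerfectField K] (hK : PF k K) {x y : K}
    (h : AlgebraicIndependent k ![x, y]) : {a : k | ¬ GEN k (x + algebraMap k K a * y)}.Finite := by
  have := perfect_pc (k := k) {x, y}
  have hx : x ∈ pc k {x, y} := subset_pc _ (.inl rfl)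
  have hy : y ∈ pc k {x, y} := subset_pc _ (.inr rfl)
  refine zar_key (pc k {x, y}) (hK.over _) (fun a => ac k {x + algebraMap k K a * y}) _
    (fun a z hz => isAlgebraic_pc_iff.2 (ac_le_ac (Set.singleton_subset_iff.2 (pc_le_ac _
      (add_mem hx (mul_mem (IntermediateField.algebraMap_mem _ a) hy)))) hz))
    fun a _ b hb e => by_contra fun hab => hb ⟨(indep_pair_iff.1 (indep_lin' h b)).1,
      le_antisymm (fun z hz => ?_) (pc_le_ac _)⟩
  exact zar_step (indep_lin h hab) hz fun S h1 h2 => e (pc k S).toSubfield (fun c => pc_le_pc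
    (Set.pair_subset (zar_mem hab h1.1 h1.2).1 (zar_mem hab h1.1 h1.2).2) c.2) h2 hz

theorem GEN.of_pc_eq {t t' : K} (h : GEN k t) (ht : pc k {t'} = pc k {t}) : GEN k t' := by
  have h1 : Transcendental k t' := fun h1 => h.1 (mem_ac_empty.1 (ac_le_ac
    (Set.singleton_subset_iff.2 (mem_ac_empty.2 h1)) (pc_le_ac _ (ht.ge (self_mem_pc t)))))
  exact ⟨h1, by rw [ac_eq_of_mem (pc_le_ac _ (ht.le (self_mem_pc t'))) h1, h.2, ht]⟩

theorem GEN.inv_sub {t : K} (h : GEN k t) (a : k) : GEN k (t - algebraMap k K a)⁻¹ := by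
  refine h.of_pc_eq (le_antisymm (pc_le_pc (Set.singleton_subset_iff.2 ?_))
    (pc_le_pc (Set.singleton_subset_iff.2 ?_)))
  · exact inv_mem (sub_mem (self_mem_pc t) (IntermediateField.algebraMap_mem _ a))
  · simpa using add_mem (inv_mem (self_mem_pc (k := k) (t - algebraMap k K a)⁻¹))
      (IntermediateField.algebraMap_mem _ a)

theorem GEN.pc_top {t : K} (h : GEN k t) :
    pc k {(⟨t, self_mem_ac t⟩ : ac k {t})} = ⊤ :=
  eq_top_iff.2 fun x _ => (algHom_mem_pc_iff (ac k {t}).val).1 (by simpa using h.2.le x.2)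

theorem GEN_of_pc_top {s : K} (hs : Transcendental k s) (f : ac k {s}) (hf : Transcendental k f)
    (h : pc k {f} = ⊤) : GEN k (f : K) ∧ ac k {(f : K)} = ac k {s} := by
  have h1 : Transcendental k (f : K) := fun h1 =>
    hf ((isAlgebraic_algebraMap_iff (algebraMap (ac k {s}) K).injective).1 h1)
  have h2 := ac_eq_of_mem f.2 h1
  refine ⟨⟨h1, le_antisymm (fun z hz => ?_) (pc_le_ac _)⟩, h2⟩
  simpa using (algHom_mem_pc_iff (ac k {s}).val).2 (h.ge trivial : ⟨z, h2.le hz⟩ ∈ _)

theorem exists_GEN_pair [PerfectField K] (hK : PF k K) (hd : (2 : Cardinal) ≤ Algebra.trdeg k K) :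
    ∃ x y : K, GEN k x ∧ GEN k y ∧ AlgebraicIndependent k ![x, y] := by
  obtain ⟨v, hv⟩ := exists_indep (k := k) (K := K) (d := 2) (by simpa using hd)
  have h : AlgebraicIndependent k ![v 0, v 1] := by
    convert hv using 1
    funext i
    fin_cases i <;> rfl
  obtain ⟨a, ha, b, hb, hab⟩ := (finite_not_GEN hK h).infinite_compl.nontrivial
  exact ⟨_, _, not_not.1 ha, not_not.1 hb, indep_lin h hab⟩

theorem exists_GEN_indep [PerfectField K] (hK : PF k K) (hd : (2 : Cardinal) ≤ Algebra.trdeg k K)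
    {z : K} (hz : Transcendental k z) : ∃ y : K, GEN k y ∧ AlgebraicIndependent k ![z, y] := by
  obtain ⟨y, hy⟩ := exists_not_mem_ac (k := k) (fun _ : Unit => z)
    (lt_of_lt_of_le (by simp) hd)
  have h := indep_pair_symm (indep_pair_iff.2 ⟨hz, by simpa using hy⟩)
  obtain ⟨a, ha⟩ := (finite_not_GEN hK h).infinite_compl.nonempty
  exact ⟨_, not_not.1 ha, indep_pair_symm (indep_lin' h a)⟩

theorem zar_zero {ℓ d : ℕ} [Fact ℓ.Prime] (hK : Std ℓ k K d) {s x : K}
    (h : AlgebraicIndependent k ![s, x]) {u : K} (hu : u ≠ 0)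
    (hz : ∀ a : k, cl ℓ u ∈ H k ℓ (s + algebraMap k K a * x)) {N : Type*} [Field N] [Algebra k N]
    [Algebra K N] [IsScalarTower k K N] [FiniteDimensional K N] (r : N)
    (hr : r ^ ℓ = algebraMap K N u) : cl ℓ u = 0 := by
  have hN := hK.of_finite N
  have := hN.perf
  have := hK.perf
  let φ := IsScalarTower.toAlgHom k K N
  have h1 : AlgebraicIndependent k ![φ s, φ x] := by
    convert h.map' (f := φ) φ.injective using 1
    funext i
    fin_cases i <;> rfl
  obtain ⟨a, ha⟩ := (finite_not_GEN hN.pf h1).infinite_compl.nonempty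
  obtain ⟨f, hf, e⟩ := (mem_range_Vmap _ _).1 (hz a)
  obtain ⟨b, hb, e⟩ := (cl_eq_iff hu ((map_ne_zero _).2 hf)).1 e.symm
  have hb' : φ b ≠ 0 := (map_ne_zero φ).2 hb
  have h2 : (r / φ b) ^ ℓ = φ f := by
    rw [div_pow, hr, e, div_eq_iff (pow_ne_zero _ hb'), ← map_pow, ← map_mul]
    rfl
  have h3 : r / φ b ∈ ac k {φ s + algebraMap k N a * φ x} := by
    refine mem_ac_of_pow (Fact.out : ℓ.Prime).pos ?_
    simpa [h2] using (algHom_mem_ac_iff φ).2 f.2
  obtain ⟨n, h4⟩ := mem_pc.1 ((not_not.1 ha : GEN k _).2.le h3)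
  obtain ⟨c, hc⟩ := (IntermediateField.adjoin_simple_le_iff (K := φ.fieldRange)).2
    ⟨s + algebraMap k K a * x, by simp⟩ h4
  rw [fielda_exp φ.toRingHom] at hc
  have := expChar_of_injective_ringHom φ.injective (ringExpChar K)
  obtain ⟨c, rfl⟩ := (bijective_iterateFrobenius K (ringExpChar K) n).2 c
  have h5 : φ c = r / φ b := iterateFrobenius_inj N (ringExpChar K) n (by
    rw [iterateFrobenius_def, iterateFrobenius_def, ← hc, iterateFrobenius_def, ← map_pow]
    rfl)
  refine (cl_eq_zero_iff hu).2 ⟨c * b, φ.injective (show φ _ = φ _ from ?_)⟩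
  rw [map_pow, map_mul, h5, div_mul_cancel₀ _ hb', hr]
  rfl

/-- If `z = [u] ≠ 0`, let `K' = K(r)`, `r ^ ℓ = u`, and take `a` with `s + a x` general in `K'`.
If `u = f b ^ ℓ` with `f ∈ ac {s + a x}` then `r / b` is algebraic over `k(s + a x)`, so it is
purely inseparable over `K`, so in `K`. -/
theorem eq_zero_of_mem_H {ℓ d : ℕ} [Fact ℓ.Prime] (hK : Std ℓ k K d) {s x : K}
    (h : AlgebraicIndependent k ![s, x]) {z : V ℓ K}
    (hz : ∀ a : k, z ∈ H k ℓ (s + algebraMap k K a * x)) : z = 0 := by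
  obtain ⟨u, hu, rfl⟩ := cl_surj z
  obtain ⟨r, hr⟩ := IsAlgClosed.exists_pow_nat_eq (algebraMap K (AlgebraicClosure K) u)
    (Fact.out : ℓ.Prime).pos
  have := IntermediateField.adjoin.finiteDimensional (Algebra.IsIntegral.isIntegral (R := K) r)
  exact zar_zero hK h hu hz (IntermediateField.AdjoinSimple.gen K r) (Subtype.ext hr)

end Vale.Agent.P019
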