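import Vale.Agent.P019.FieldC
import Vale.Agent.P019.Zar

open scoped IntermediateField
open Polynomial

namespace Vale.Agent.P019

universe u

theorem irrb_irr {K₀ K₁ : Type*} [Field K₀] [Field K₁] [Algebra K₀ K₁]
    (hcl : ∀ z : K₁, IsIntegral K₀ z → z ∈ (algebraMap K₀ K₁).range) {p : K₀[X]}
    (hp : Irreducible p) : Irreducible (p.map (algebraMap K₀ K₁)) := by
  obtain ⟨η, hη⟩ := IsAlgClosed.exists_aeval_eq_zero (AlgebraicClosure K₁) p
    (degree_pos_of_irreducible hp).ne'
  have hi : IsIntegral K₀ η := (isAlgebraic_iff_isIntegral).1 ⟨p, hp.ne_zero, hη⟩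
  refine (associated_of_dvd_of_natDegree_le (minpoly.dvd K₁ η (by simpa using hη))
    (Polynomial.map_ne_zero hp.ne_zero) ?_).irreducible (minpoly.irreducible hi.tower_top)
  rw [natDegree_map, fieldc_deg hcl hi]
  exact natDegree_le_of_dvd ((minpoly.irreducible hi).associated_of_dvd hp
    (minpoly.dvd K₀ η hη)).symm.dvd (minpoly.ne_zero hi)

theorem irrb_closed {C E K₀ K₁ : Type*} [Field C] [Field E] [Field K₀] [Field K₁] [Algebra C E]
    [Algebra E K₁] [Algebra C K₁] [IsScalarTower C E K₁] [Algebra C K₀] [Algebra K₀ K₁]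
    [IsScalarTower C K₀ K₁] [IsAlgClosed C] {t : K₀} (h0 : C⟮t⟯ = ⊤)
    (h1 : E⟮algebraMap K₀ K₁ t⟯ = ⊤) (ht : Transcendental E (algebraMap K₀ K₁ t)) (z : K₁)
    (hz : IsIntegral K₀ z) : z ∈ (algebraMap K₀ K₁).range := by
  let φ := IsScalarTower.toAlgHom C K₀ K₁
  have e : φ.fieldRange = IntermediateField.adjoin C (Set.range fun _ : Unit => φ t) := by
    rw [AlgHom.fieldRange_eq_map, ← h0, IntermediateField.adjoin_map]
    simp
  refine e.ge (mem_adjoin_of_algClosed (F := E) (algebraicIndependent_unique_type_iff.2 ht)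
    (by rw [Set.range_const]; exact h1.ge trivial) (mem_ac.2 ?_))
  rw [← e]
  exact hz.isAlgebraic.ringHom_of_comp_eq φ.toRingHom.rangeRestrictField (RingHom.id _)
    (RingHom.injective _) rfl

theorem irrb_abs0 {C E K₀ K₁ : Type*} [Field C] [Field E] [Field K₀] [Field K₁] [Algebra E K₁]
    [Algebra C K₀] [IsAlgClosed C] (ι : C →+* E) (ψ : K₀ →+* K₁)
    (h : ∀ c, ψ (algebraMap C K₀ c) = algebraMap E K₁ (ι c)) {t : K₀} (h0 : C⟮t⟯ = ⊤)
    (h1 : E⟮ψ t⟯ = ⊤) (ht : Transcendental E (ψ t)) {p : K₀[X]} (hp : Irreducible p) :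
    Irreducible (p.map ψ) := by
  let _ := ι.toAlgebra
  let _ : Algebra C K₁ := ((algebraMap E _).comp ι).toAlgebra
  let _ := ψ.toAlgebra
  have : IsScalarTower C E K₁ := .of_algebraMap_eq fun _ => rfl
  have : IsScalarTower C K₀ K₁ := .of_algebraMap_eq fun c => (h c).symm
  exact irrb_irr (irrb_closed h0 h1 ht) hp

theorem irrb_abs {C E : Type*} [Field C] [Field E] [IsAlgClosed C] (ι : C →+* E) {G : C[X][X]}
    (hG : Irreducible (G.map (algebraMap C[X] (RatFunc C)))) :
    Irreducible ((G.map (mapRingHom ι)).map (algebraMap E[X] (RatFunc E))) := by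
  have hi : Function.Injective ((algebraMap E[X] (RatFunc E)).comp (mapRingHom ι)) :=
    (IsFractionRing.injective _ _).comp (map_injective ι ι.injective)
  let ψ : RatFunc C →+* RatFunc E := IsFractionRing.lift hi
  have hψ : ∀ q, ψ (algebraMap C[X] _ q) = algebraMap E[X] _ (q.map ι) :=
    IsFractionRing.lift_algebraMap hi
  have hX : ψ RatFunc.X = RatFunc.X := (hψ X).trans (by rw [map_X]; rfl)
  have := irrb_abs0 ι ψ (fun c => (hψ (Polynomial.C c)).trans (by rw [map_C]; rfl))
    RatFunc.adjoin_X (hX ▸ RatFunc.adjoin_X) (hX ▸ RatFunc.transcendental_X) hG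
  rw [Polynomial.map_map] at this ⊢
  convert this using 2
  exact RingHom.ext fun q => (hψ q).symm

theorem irrb_poly {C N : Type*} [Field C] [Field N] [Algebra C N] {x y : N}
    (hx : Transcendental C x) (hy : y ∈ ac C {x}) : ∃ G : C[X][X], Irreducible G ∧
      G.natDegree ≠ 0 ∧ G.leadingCoeff.Monic ∧ G.eval₂ (aeval x).toRingHom y = 0 := by
  obtain ⟨q, hq, h0⟩ := fielda_mem.1 hy
  let e := Polynomial.algEquivOfTranscendental C x hx
  obtain ⟨G, h1, h2⟩ := (RingHom.ker_isPrime (eval₂RingHom (aeval x : C[X] →ₐ[C] N).toRingHom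
    y)).exists_mem_prime_of_ne_bot (Submodule.ne_bot_iff _ |>.2 ⟨q.map e.symm.toRingHom, by
      rw [RingHom.mem_ker, coe_eval₂RingHom, eval₂_map, ← h0, aeval_def]
      congr 1
      exact RingHom.ext fun a => (Polynomial.aeval_algebraMap_apply N
        (⟨x, Algebra.self_mem_adjoin_singleton C x⟩ : Algebra.adjoin C {x}) _).trans
        (congrArg Subtype.val (e.apply_symm_apply a)),
      (Polynomial.map_ne_zero_iff e.symm.injective).2 hq⟩)
  have h3 : G.leadingCoeff.leadingCoeff ≠ 0 := by simpa using h2.ne_zero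
  have h4 : IsUnit (Polynomial.C (Polynomial.C G.leadingCoeff.leadingCoeff⁻¹)) :=
    isUnit_C.2 (isUnit_C.2 (inv_ne_zero h3).isUnit)
  rw [RingHom.mem_ker, coe_eval₂RingHom] at h1
  refine ⟨_, (irreducible_isUnit_mul h4).2 h2.irreducible, ?_, ?_, by rw [eval₂_mul, h1, mul_zero]⟩
  · rw [natDegree_C_mul (isUnit_C.1 h4).ne_zero]
    intro h
    rw [eq_C_of_natDegree_eq_zero h, eval₂_C] at h1
    exact h2.ne_zero (by rw [eq_C_of_natDegree_eq_zero h,
      transcendental_iff_injective.1 hx (h1.trans (map_zero _).symm), map_zero])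
  · simp [Monic, h3]

theorem irrb_res {E : Type*} [Field E] {G₁ G₂ : E[X][X]}
    (h1 : Irreducible (G₁.map (algebraMap E[X] (RatFunc E)))) (h2 : G₁.IsPrimitive)
    (h3 : G₂.IsPrimitive) (h4 : G₁.leadingCoeff.Monic) (h5 : G₂.leadingCoeff.Monic)
    (h6 : G₁.natDegree = G₂.natDegree) (h7 : G₁.natDegree ≠ 0) (h : G₁ ≠ G₂) :
    ∃ r : E[X], r ≠ 0 ∧ ∃ A B, G₁ * A + G₂ * B = Polynomial.C r := by
  obtain ⟨A, B, -, -, e⟩ := exists_mul_add_mul_eq_C_resultant G₁ G₂ le_rfl le_rfl (.inl h7)
  refine ⟨_, fun h0 => ?_, A, B, e⟩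
  have hi := IsFractionRing.injective E[X] (RatFunc E)
  rcases h1.isCoprime_or_dvd (G₂.map (algebraMap E[X] (RatFunc E))) with h8 | h8
  · refine resultant_ne_zero _ _ h8 ?_
    rw [natDegree_map_eq_of_injective hi, natDegree_map_eq_of_injective hi, resultant_map_map, h0,
      map_zero]
  · obtain ⟨v, rfl⟩ := h2.dvd_of_fraction_map_dvd_fraction_map h8
    rw [natDegree_mul h2.ne_zero (right_ne_zero_of_mul h3.ne_zero), left_eq_add] at h6
    obtain ⟨v, rfl⟩ := natDegree_eq_zero.1 h6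
    rw [leadingCoeff_mul, leadingCoeff_C] at h5
    rw [(h4.of_mul_monic_left h5).eq_one_of_isUnit (h3 v (dvd_mul_left _ _)), map_one, mul_one] at h
    exact h rfl

/-- Field of definition of a plane curve, and finiteness of intersections. Let `g` be the minimal
polynomial of `y` over `C(x)`, its coefficients written as `num / denom` (`RatFunc`), `𝒞` the set
of coefficients of all these. If `ι₁ c ≠ ι₂ c` for some `c ∈ 𝒞`, the images `g₁ ≠ g₂` of `g` in
`E(X)[Y]` are monic and irreducible (`natDegree_minpoly_of_algClosed` at a root in an algebraic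
closure of `E(X)`), so coprime; clear denominators in the Bezout identity. -/
theorem exists_def_set {C N : Type*} [Field C] [IsAlgClosed C] [Field N] [Algebra C N] {x y : N}
    (hx : Transcendental C x) (hy : y ∈ ac C {x}) :
    ∃ 𝒞 : Finset C,
      (∀ F : Subfield N, x ∈ F → (∀ c ∈ 𝒞, algebraMap C N c ∈ F) → IsAlgebraic F y) ∧
      ∀ (E : Type u) [Field E] (ι₁ ι₂ : C →+* E), (∃ c ∈ 𝒞, ι₁ c ≠ ι₂ c) →
        ∃ r : Polynomial E, r ≠ 0 ∧ ∀ (E' : Type u) [Field E'] (ρ : E →+* E') (φ φ' : N →+* E'),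
          (∀ c, φ (algebraMap C N c) = ρ (ι₁ c)) → (∀ c, φ' (algebraMap C N c) = ρ (ι₂ c)) →
          φ x = φ' x → φ y = φ' y → r.eval₂ ρ (φ x) = 0 := by
  classical
  obtain ⟨G, h1, h2, h3, h4⟩ := irrb_poly hx hy
  refine ⟨G.support.biUnion fun n => (G.coeff n).coeffs, fun F hF h => ?_, fun E _ ι₁ ι₂ h => ?_⟩
  · obtain ⟨q, hq⟩ := (lifts_iff_coeff_lifts (f := F.subtype)
      (G.map (aeval x : C[X] →ₐ[C] N).toRingHom)).2 fun n => by
        rw [coeff_map]
        refine ⟨⟨_, ?_⟩, rfl⟩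
        rw [eval₂_eq_sum]
        exact sum_mem fun i hi => mul_mem (h _ (Finset.mem_biUnion.2 ⟨n, mem_support_iff.2
          (by rintro e; simp [e] at hi), coeff_mem_coeffs (mem_support_iff.1 hi)⟩)) (pow_mem hF _)
    refine ⟨q, fun e => (Polynomial.map_ne_zero_iff (transcendental_iff_injective.1 hx)).2
      h1.ne_zero (by rw [e, map_zero] at hq; exact hq.symm), ?_⟩
    rw [← h4, ← eval_map, ← hq]
    exact (eval_map _ _).symm
  have hp := h1.isPrimitive h2
  have hi : ∀ ι : C →+* E, Function.Injective (mapRingHom ι) := fun ι => map_injective ι ι.injective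
  have h5 : ∀ ι : C →+* E, (G.map (mapRingHom ι)).IsPrimitive := fun ι =>
    isPrimitive_of_contentIdeal_eq_top (by rw [contentIdeal_map_eq_map_contentIdeal,
      (isPrimitive_iff_contentIdeal_eq_top G).1 hp, Ideal.map_top])
  have h6 : ∀ ι : C →+* E, (G.map (mapRingHom ι)).leadingCoeff.Monic := fun ι => by
    rw [leadingCoeff_map_of_injective (hi ι)]
    exact h3.map ι
  have h7 := fun ι => natDegree_map_eq_of_injective (hi ι) G
  obtain ⟨r, h0, A, B, e⟩ := irrb_res (irrb_abs ι₁ (hp.irreducible_iff_irreducible_map_fraction_map.1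
    h1)) (h5 ι₁) (h5 ι₂) (h6 ι₁) (h6 ι₂) ((h7 ι₁).trans (h7 ι₂).symm) ((h7 ι₁).symm ▸ h2) fun e => by
      obtain ⟨c, hc, h⟩ := h
      obtain ⟨n, -, hc⟩ := Finset.mem_biUnion.1 hc
      obtain ⟨i, -, rfl⟩ := mem_coeffs_iff.1 hc
      exact h (by simpa using congrArg (fun q => (q.coeff n).coeff i) e)
  refine ⟨r, h0, fun E' _ ρ φ φ' a1 a2 a3 a4 => ?_⟩
  have key : ∀ (ι : C →+* E) (φ : N →+* E'), (∀ c, φ (algebraMap C N c) = ρ (ι c)) →
      (G.map (mapRingHom ι)).eval₂ (eval₂RingHom ρ (φ x)) (φ y) = 0 := fun ι φ h => by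
    rw [eval₂_map, ← map_zero φ, ← h4, hom_eval₂]
    congr 1
    exact Polynomial.ringHom_ext (fun c => by simp [h]) (by simp)
  have h8 := congrArg (eval₂ (eval₂RingHom ρ (φ x)) (φ y)) e
  rw [eval₂_add, eval₂_mul, eval₂_mul, key ι₁ φ a1, a3, a4, key ι₂ φ' a2, eval₂_C] at h8
  simpa [a3] using h8.symm

section tw
variable {k M : Type*} [Field k] [Field M] [Algebra k M]

theorem irrb_tower (A : Type*) [Field A] [Algebra k A] [Algebra A M] [IsScalarTower k A M]
    {S : Set M} {z : M} : z ∈ ac A S ↔ z ∈ ac k (Set.range (algebraMap A M) ∪ S) := by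
  have e : IntermediateField.adjoin k (Set.range (algebraMap A M) ∪ S) =
      (IntermediateField.adjoin A S).restrictScalars k := le_antisymm
    (IntermediateField.adjoin_le_iff.2 (Set.union_subset (Set.range_subset_iff.2
      (IntermediateField.algebraMap_mem _)) (IntermediateField.subset_adjoin A S)))
    ((Subfield.closure_le (t := (IntermediateField.adjoin k _).toSubfield)).2
      (IntermediateField.subset_adjoin k _))
  rw [mem_ac, mem_ac, e]
  rfl

theorem irrb_indep {B ι : Type*} [Field B] [Algebra B M] {v : ι → M}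
    (h : ∀ b, algebraMap B M b ∈ (algebraMap k M).range) (hv : AlgebraicIndependent k v) :
    AlgebraicIndependent B v := by
  obtain ⟨f, hf⟩ := fieldc_hom _ _ h
  let _ := f.toAlgebra
  have : IsScalarTower B k M := .of_algebraMap_eq hf
  exact hv.restrictScalars f.injective

theorem irrb_over {ι : Type*} {v : ι → M} (hv : AlgebraicIndependent k v) {s : M}
    (hs : s ∉ ac k (Set.range v)) : AlgebraicIndependent (ac k {s}) v := by
  have h1 := ((AlgebraicIndependent.option_iff.2 ⟨hv, mt fielda_mem.2 hs⟩).adjoin_of_disjoint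
    (s := {none}) (t := Set.range some) (by simp)).comp (fun i : ι => ⟨some i, i, rfl⟩)
    fun i j hij => Option.some_injective _ (congrArg Subtype.val hij)
  rw [Set.image_singleton] at h1
  exact (IntermediateField.algebraicIndependent_adjoin_iff.2 h1).algebraicClosure

theorem irrb_exch {ι : Type*} {v : ι → M} (hv : AlgebraicIndependent k v) {x y : M}
    (hx : x ∉ ac k (Set.range v)) (hy : y ∈ ac k (insert x (Set.range v))) (hy' : y ∉ ac k {x}) :
    ∃ i, y ∉ ac k (insert x (Set.range fun j : {j // j ≠ i} => v j.1)) := by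
  by_contra h
  push Not at h
  have h1 := (AlgebraicIndependent.matroid_indep_iff.2 hv.to_subtype_range).insert_indep_iff.2
    (.inl ⟨trivial, mt fielda_cl.2 hx⟩)
  have h2 := h1.closure_iInter_eq_biInter_closure_of_forall_subset (ι := Option ι)
    (Js := fun o => insert x (Set.range fun j : {j // some j ≠ o} => v j))
    fun o => Set.insert_subset_insert (Set.range_subset_iff.2 fun j => ⟨j, rfl⟩)
  refine hy' (ac_le_ac (fun z hz => ?_) (fielda_cl.2 (h2.ge (Set.mem_iInter.2 fun o => ?_))))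
  · rcases Set.mem_iInter.1 hz none with rfl | ⟨i, rfl⟩
    · exact self_mem_ac _
    rcases Set.mem_iInter.1 hz (some i) with e | ⟨j, e⟩
    · exact e.symm ▸ self_mem_ac _
    · exact absurd (congrArg some (hv.injective e)) j.2
  · refine fielda_cl.1 ?_
    rcases o with _ | i
    · refine ac_le_ac (Set.Subset.trans (Set.insert_subset_insert ?_) (subset_ac _)) hy
      exact Set.range_subset_iff.2 fun j => ⟨⟨j, by simp⟩, rfl⟩
    · refine ac_le_ac (Set.Subset.trans (Set.insert_subset_insert ?_) (subset_ac _)) (h i)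
      exact Set.range_subset_iff.2 fun j => ⟨⟨j, by simpa using j.2⟩, rfl⟩

theorem irrb_lift {E N ι : Type*} [Field E] [IsAlgClosed E] [Field N] [Algebra N E] {v : ι → M}
    (hv : AlgebraicIndependent k v) (htop : ac k (Set.range v) = ⊤) (ψ : k →+* E)
    (hψ : ∀ a, ψ a ∈ (algebraMap N E).range) {w : ι → E} (hw : AlgebraicIndependent N w) :
    ∃ j : M →+* E, (∀ a, j (algebraMap k M a) = ψ a) ∧ ∀ i, j (v i) = w i := by
  let _ := ψ.toAlgebra
  have h1 : AlgebraicIndependent k w := irrb_indep hψ hw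
  let χ := (MvPolynomial.aeval w : _ →ₐ[k] E).comp hv.repr
  let _ := χ.toAlgebra
  have : Algebra.IsAlgebraic (Algebra.adjoin k (Set.range v)) M :=
    ⟨fun z => fielda_mem.1 (htop.ge trivial)⟩
  have : FaithfulSMul (Algebra.adjoin k (Set.range v)) E :=
    (faithfulSMul_iff_algebraMap_injective _ _).2 
      fun a b h => hv.aevalEquiv.symm.injective (h1 h)
  let j : M →ₐ[Algebra.adjoin k (Set.range v)] E := IsAlgClosed.lift
  refine ⟨j, fun a => (j.commutes (algebraMap k _ a)).trans (χ.commutes a), fun i =>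
    (j.commutes ⟨v i, Algebra.subset_adjoin ⟨i, rfl⟩⟩).trans ?_⟩
  have : hv.repr ⟨v i, Algebra.subset_adjoin ⟨i, rfl⟩⟩ = MvPolynomial.X i :=
    hv (by rw [hv.aeval_repr, MvPolynomial.aeval_X])
  exact (congrArg (MvPolynomial.aeval w) this).trans (MvPolynomial.aeval_X _ _)

theorem irrb_ext (M ι : Type u) [Field M] : ∃ (E : Type u) (_ : Field E) (_ : Algebra M E)
    (_ : IsAlgClosed E) (X : ι → E), AlgebraicIndependent M X :=
  ⟨AlgebraicClosure (FractionRing (MvPolynomial ι M)), _, _, inferInstance, _,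
    (MvPolynomial.algebraicIndependent_X ι M).map' (f := IsScalarTower.toAlgHom M _ _)
      ((algebraMap (FractionRing (MvPolynomial ι M)) _).injective.comp
        (IsFractionRing.injective (MvPolynomial ι M) _))⟩

theorem irrb_fin {ι : Type*} {i : ι} {a b : ι → M} {x y : M}
    (h : AlgebraicIndependent k (Sum.elim (fun j : {j // j ≠ i} => b j)
      (Sum.elim (fun j : {j // j ≠ i} => a j) ![x, y])))
    (hx : x ∈ ac k (Set.range a ∪ Set.range b)) (hy : y ∈ ac k (Set.range a ∪ Set.range b)) :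
    AlgebraicIndependent k (Sum.elim a b) := by
  let s : {j // j ≠ i} ⊕ {j // j ≠ i} → M := Sum.elim (fun j => b j) fun j => a j
  obtain ⟨h1, h2⟩ := AlgebraicIndependent.sumElim_iff.1 ((algebraicIndependent_equiv'
    ((Equiv.sumAssoc _ _ _).symm.trans (Equiv.sumComm _ _)) (f := Sum.elim ![x, y] s) (by
      funext o
      rcases o with _ | _ | _ <;> rfl)).1 h)
  let F := IntermediateField.adjoin k (Set.range s)
  have h3 : ac k (Set.range a ∪ Set.range b) ≤ ac k (Set.range (algebraMap F M) ∪ {a i, b i}) := by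
    refine ac_le_ac (Set.Subset.trans ?_ (subset_ac _))
    rintro _ (⟨j, rfl⟩ | ⟨j, rfl⟩) <;> rcases eq_or_ne j i with rfl | hj
    · exact .inr (.inl rfl)
    · exact .inl ⟨⟨_, IntermediateField.subset_adjoin k _ ⟨.inr ⟨j, hj⟩, rfl⟩⟩, rfl⟩
    · exact .inr (.inr rfl)
    · exact .inl ⟨⟨_, IntermediateField.subset_adjoin k _ ⟨.inl ⟨j, hj⟩, rfl⟩⟩, rfl⟩
  have h4 := h1.sumElim (IntermediateField.algebraicIndependent_adjoin_iff.1 (zar_span
    (IntermediateField.algebraicIndependent_adjoin_iff.2 h2) ((irrb_tower F).2 (h3 hx))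
    ((irrb_tower F).2 (h3 hy))))
  let g : Fin 2 ⊕ {j // j ≠ i} ⊕ {j // j ≠ i} → ι ⊕ ι :=
    Sum.elim ![.inl i, .inr i] (Sum.elim (fun j => .inr j) fun j => .inl j)
  have hg : Function.Surjective g := by
    rintro (j | j) <;> rcases eq_or_ne j i with rfl | hj
    exacts [⟨.inl 0, rfl⟩, ⟨.inr (.inr ⟨j, hj⟩), rfl⟩, ⟨.inl 1, rfl⟩, ⟨.inr (.inl ⟨j, hj⟩), rfl⟩]
  have e : Sum.elim ![a i, b i] s = Sum.elim a b ∘ g := by
    funext o
    rcases o with o | _ | _
    · fin_cases o <;> rfl
    all_goals rfl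
  have h5 := (e ▸ h4).comp _ (Function.injective_surjInv hg)
  rwa [Function.comp_assoc, (Function.rightInverse_surjInv hg).id, Function.comp_id] at h5

end tw

/-- A second, independent copy. `(x, T)` is a transcendence basis of `M` over `k`; by exchange
there is `t₀` such that `T' = T \ t₀` is a transcendence basis of `M` over `K`. Let `E` be an
algebraic closure of the fraction field of `MvPolynomial T' M`, `j₁` the inclusion; `j₂` is `τ` on
the algebraic closure of `K`, sends `T'` to the new variables, and is extended by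
`IsAlgClosed.lift`. An element of `M` algebraic over `(closure of K)(variables)` is algebraic over
`K`. Over `k(j₁ T', j₂ T')` the independent pair `x, y` is algebraic over `j₁ t₀, j₂ t₀`. -/
theorem exists_twist {k K C M : Type u} [Field k] [Field K] [Field C] [Field M] [Algebra k K]
    [Algebra k C] [Algebra k M] [Algebra K M] [Algebra C M] [IsScalarTower k K M]
    [IsScalarTower k C M] [IsAlgClosed M] {x y : K} (hxy : AlgebraicIndependent k ![x, y])
    (htop : ac k {x, y} = ⊤) (hx : Transcendental C (algebraMap K M x))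
    (hM : ac C {algebraMap K M x} = ⊤) {ι : Type u} {T : ι → C} (hT : IsTranscendenceBasis k T) :
    ∃ (E : Type u) (_ : Field E) (_ : Algebra k E) (_ : IsAlgClosed E) (j₁ : M →ₐ[k] E),
      ∀ τ : algebraicClosure K M ≃ₐ[K] algebraicClosure K M, ∃ j₂ : M →ₐ[k] E,
        (∀ z : algebraicClosure K M, j₂ z = j₁ (τ z)) ∧
        (∀ m m' : M, j₁ m = j₂ m' → m' ∈ algebraicClosure K M) ∧
        (j₁ (algebraMap K M x) ∈ ac k (Set.range (j₁.comp (IsScalarTower.toAlgHom k C M)) ∪
            Set.range (j₂.comp (IsScalarTower.toAlgHom k C M))) →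
          AlgebraicIndependent k (Sum.elim (j₁.comp (IsScalarTower.toAlgHom k C M) ∘ T)
            (j₂.comp (IsScalarTower.toAlgHom k C M) ∘ T))) := by
  let φ := IsScalarTower.toAlgHom k C M
  let χ := IsScalarTower.toAlgHom k K M
  have hC : ∀ {E : Type u} [Field E] [Algebra k E] (ψ : C →ₐ[k] E),
      Set.range ψ ⊆ ac k (Set.range (ψ ∘ T)) := fun ψ => Set.range_subset_iff.2 fun c => by
    rw [Set.range_comp]
    exact (algHom_mem_ac_iff ψ).2 (mem_ac.2 (hT.isAlgebraic_field.1 c))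
  have h1 : AlgebraicIndependent k (φ ∘ T) := hT.1.map' φ.injective
  have h2 : χ x ∉ ac k (Set.range (φ ∘ T)) := fun h => hx (mem_ac_empty.1 ((irrb_tower C).2
    (ac_le_ac (Set.range_subset_iff.2 fun i => subset_ac _ (.inl ⟨T i, rfl⟩)) h)))
  have h3 : ∀ z, z ∈ ac k (insert (χ x) (Set.range (φ ∘ T))) := fun z =>
    ac_le_ac (Set.union_subset ((hC φ).trans (ac_le_ac ((Set.subset_insert _ _).trans
      (subset_ac _)))) (Set.singleton_subset_iff.2 (subset_ac _ (.inl rfl))))
      ((irrb_tower C).1 (hM.ge trivial))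
  have h4 : AlgebraicIndependent k ![χ x, χ y] := by
    convert hxy.map' (f := χ) χ.injective using 1
    funext i
    fin_cases i <;> rfl
  obtain ⟨i, hi⟩ := irrb_exch h1 h2 (h3 (χ y)) (indep_pair_iff.1 h4).2
  let v : {j // j ≠ i} → M := fun j => φ (T j)
  have h5 : AlgebraicIndependent (algebraicClosure K M) v := by
    refine irrb_indep (fun b => ?_) (irrb_over (irrb_over (h1.comp _ Subtype.val_injective)
      fun h => h2 (ac_le_ac ((Set.range_comp_subset_range _ _).trans (subset_ac _)) h))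
      fun h => hi (ac_le_ac ?_ ((irrb_tower (k := k) _).1 h)))
    · refine ⟨⟨b, (irrb_tower (k := k) _).2 (ac_le_ac ?_ ((irrb_tower (k := k) K (S := ∅)).1
        (mem_ac_empty.2 (mem_algebraicClosure_iff.1 b.2))))⟩, rfl⟩
      rintro _ (⟨c, rfl⟩ | h)
      · refine ac_le_ac ?_ ((algHom_mem_ac_iff χ).2 (htop.ge trivial : c ∈ _))
        rintro _ ⟨_, rfl | rfl, rfl⟩
        exacts [subset_ac _ (.inl ⟨⟨_, self_mem_ac _⟩, rfl⟩), subset_ac _ (.inr rfl)]
      · exact h.elim
    · rintro _ (⟨c, rfl⟩ | h)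
      · exact ac_le_ac (Set.singleton_subset_iff.2 (subset_ac _ (.inl rfl))) c.2
      · exact subset_ac _ (.inr h)
  have : IsScalarTower k (algebraicClosure K M) M := .of_algebraMap_eq fun _ => rfl
  have h6 : ac (algebraicClosure K M) (Set.range v) = ⊤ := by
    have e : (insert (χ y) (insert (χ x) (Set.range v)) : Set M) ⊆
        ac k (Set.range (algebraMap (algebraicClosure K M) M) ∪ Set.range v) := by
      rintro _ (rfl | rfl | h)
      exacts [subset_ac _ (.inl ⟨algebraMap K _ y, rfl⟩), subset_ac _ (.inl ⟨algebraMap K _ x, rfl⟩),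
        subset_ac _ (.inr h)]
    refine eq_top_iff.2 fun z _ => (irrb_tower (k := k) _).2 (ac_le_ac ?_ (h3 z))
    rintro _ (rfl | ⟨j, rfl⟩)
    · exact e (.inr (.inl rfl))
    rcases eq_or_ne j i with rfl | hj
    · refine ac_le_ac e (mem_ac_exchange (ac_le_ac (Set.Subset.trans ?_ (subset_ac _)) (h3 _)) hi)
      rintro _ (rfl | ⟨j', rfl⟩)
      · exact .inr (.inl rfl)
      rcases eq_or_ne j' j with rfl | hj
      exacts [.inl rfl, .inr (.inr ⟨⟨j', hj⟩, rfl⟩)]
    · exact e (.inr (.inr ⟨⟨j, hj⟩, rfl⟩))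
  have h7 : AlgebraicIndependent k (Sum.elim v ![χ x, χ y]) :=
    h4.sumElim_of_tower (S := algebraicClosure K M) (by
      rintro _ ⟨o, rfl⟩
      fin_cases o
      exacts [⟨algebraMap K _ x, rfl⟩, ⟨algebraMap K _ y, rfl⟩]) h5
  obtain ⟨E, _, _, _, X, hX⟩ := irrb_ext M {j // j ≠ i}
  let _ : Algebra k E := ((algebraMap M E).comp (algebraMap k M)).toAlgebra
  have : IsScalarTower k M E := .of_algebraMap_eq fun _ => rfl
  let j₁ := IsScalarTower.toAlgHom k M E
  refine ⟨E, _, _, inferInstance, j₁, fun τ => ?_⟩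
  obtain ⟨j, a1, a2⟩ := irrb_lift h5 h6 ((algebraMap M E).comp
    ((algebraMap (algebraicClosure K M) M).comp τ.toRingEquiv.toRingHom)) (fun a => ⟨_, rfl⟩) hX
  let j₂ : M →ₐ[k] E := ⟨j, fun c => by
    rw [IsScalarTower.algebraMap_apply k K M]
    refine (a1 (algebraMap K _ (algebraMap k K c))).trans ?_
    refine (congrArg (fun z : algebraicClosure K M => algebraMap M E z) (τ.commutes _)).trans ?_
    exact congrArg (algebraMap M E) (IsScalarTower.algebraMap_apply k K M c).symm⟩
  refine ⟨j₂, a1, fun m m' h => mem_algebraicClosure_iff.2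
    (IsAlgebraic.restrictScalars K (mem_range_of_mem_C (C := M) j (fun a => ⟨_, (a1 a).symm⟩)
      ((funext a2 : j ∘ v = X) ▸ hX) h6 ⟨m, h⟩)), fun h => ?_⟩
  have h8 : j₁ (χ x) ∈ ac k (Set.range (j₁.comp φ ∘ T) ∪ Set.range (j₂.comp φ ∘ T)) :=
    ac_le_ac (Set.union_subset
      ((hC _).trans (ac_le_ac (Set.subset_union_left.trans (subset_ac _))))
      ((hC _).trans (ac_le_ac (Set.subset_union_right.trans (subset_ac _))))) h
  refine irrb_fin (i := i) ?_ h8 (ac_le_ac ?_ ((algHom_mem_ac_iff j₁).2 (h3 (χ y))))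
  · convert (h7.map' (f := j₁) j₁.injective).sumElim_of_tower
      (Set.range_comp_subset_range _ _) hX using 2
    · exact funext a2
    · funext o
      rcases o with _ | o
      · rfl
      · fin_cases o <;> rfl
  · rintro _ ⟨_, rfl | ⟨j, rfl⟩, rfl⟩
    exacts [h8, subset_ac _ (.inl ⟨j, rfl⟩)]

end Vale.Agent.P019
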