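import Vale.Agent.P019.IrrA
import Vale.Agent.P019.IrrB
import Vale.Agent.P019.FieldD

open scoped IntermediateField

namespace Vale.Agent.P019

universe u

variable {ℓ : ℕ} [Fact ℓ.Prime]

theorem irrc_alg {F P R : Type*} [Field F] [Field P] [Field R] [Algebra F R] [Algebra P R]
    (h : ∀ a : F, algebraMap F R a ∈ (algebraMap P R).range) {z : R} (hz : IsAlgebraic F z) :
    IsAlgebraic P z := by
  obtain ⟨f, hf⟩ := fieldc_hom (algebraMap F R) (algebraMap P R) h
  letI := f.toAlgebra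
  have : IsScalarTower F P R := IsScalarTower.of_algebraMap_eq hf
  exact hz.tower_top P

theorem irrc_mem {k C N E : Type*} [Field k] [Field C] [Field N] [Field E] [Algebra C N]
    [Algebra k E] (φ : N →+* E) {S : Set E} (h1 : ∀ c, φ (algebraMap C N c) ∈ ac k S) {x n : N}
    (h2 : φ x ∈ ac k S) (hn : n ∈ ac C {x}) : φ n ∈ ac k S := by
  have h3 := map_mem_ac (k' := ac k S) φ (fun c => ⟨⟨_, h1 c⟩, rfl⟩) hn
  refine mem_ac_of_isAlgebraic (mem_ac_empty.1 (ac_le_ac ?_ h3))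
  rintro _ ⟨_, rfl, rfl⟩
  exact (ac (ac k S) ∅).algebraMap_mem ⟨_, h2⟩

theorem irrc_top {C N M : Type*} [Field C] [Field N] [Field M] [Algebra C N] [Algebra C M]
    [Algebra N M] [IsScalarTower C N M] [Algebra.IsAlgebraic N M] {x : N}
    [Algebra.IsAlgebraic C⟮x⟯ N] : ac C {algebraMap N M x} = ⊤ := by
  refine eq_top_iff.2 fun m _ => mem_ac_of_isAlgebraic (irrc_alg (F := N) (fun n => ?_)
    (Algebra.IsAlgebraic.isAlgebraic m))
  refine ⟨⟨_, irrc_mem (C := C) (x := x) (algebraMap N M) (fun c => ?_) (self_mem_ac _)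
    (mem_ac.2 (Algebra.IsAlgebraic.isAlgebraic n))⟩, rfl⟩
  rw [← IsScalarTower.algebraMap_apply]
  exact IntermediateField.algebraMap_mem _ _

theorem irrc_move {K E : Type*} [Field K] [Field E] [Algebra K E] [IsAlgClosed E]
    [Algebra.IsAlgebraic K E] {w : E} (h : ∀ τ : E ≃ₐ[K] E, τ w = w) :
    ∃ n : ℕ, w ^ ringExpChar E ^ n ∈ (algebraMap K E).range := by
  have : IsAlgClosure K E := ⟨inferInstance, inferInstance⟩
  obtain ⟨n, hn⟩ := exists_sep_pow (Algebra.IsAlgebraic.isAlgebraic (R := K) w)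
  refine ⟨n, ?_⟩
  have h1 : ∀ τ : E ≃ₐ[K] E, τ (w ^ ringExpChar E ^ n) = w ^ ringExpChar E ^ n := fun τ => by
    rw [map_pow, h]
  generalize w ^ ringExpChar E ^ n = z at hn h1
  have h2 : (minpoly K z).rootSet E ⊆ {z} := fun a ha => by
    obtain ⟨τ, hτ⟩ := minpoly.exists_algEquiv_of_root' (x := a) hn.isIntegral.isAlgebraic
      (Polynomial.mem_rootSet.1 ha).2
    exact hτ.symm.trans (h1 τ)
  have h3 := Polynomial.card_rootSet_eq_natDegree (K := E) hn (IsAlgClosed.splits _)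
  have h4 := Set.card_le_card h2
  rw [h3, Set.card_singleton] at h4
  exact minpoly.natDegree_eq_one_iff.1 (le_antisymm h4 (minpoly.natDegree_pos hn.isIntegral))

theorem irrc_indep {K N : Type*} [Field K] [Field N] [Algebra K N]
    (hker : ¬ FiniteDimensional (ZMod ℓ) (LinearMap.ker (Vmap ℓ (algebraMap K N)))) (m : ℕ) :
    ∃ (u : Fin m → K) (r : Fin m → N), (LinearIndependent (ZMod ℓ) fun j => cl ℓ (u j)) ∧
      ∀ j, r j ^ ℓ = algebraMap K N (u j) := by
  obtain ⟨v, hv⟩ := (Module.le_rank_iff (n := m)).1 ((Cardinal.natCast_lt_aleph0).le.trans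
    (not_lt.1 (mt Module.rank_lt_aleph0_iff.1 hker)))
  choose u h1 h2 using fun j => cl_surj (v j).1
  have h3 : ∀ j, ∃ r : N, r ^ ℓ = algebraMap K N (u j) := fun j => by
    rw [← cl_eq_zero_iff ((map_ne_zero _).2 (h1 j)), ← Vmap_cl, h2]
    exact (v j).2
  choose r hr using h3
  refine ⟨u, r, ?_, hr⟩
  simp only [h2]
  exact hv.map' _ (Submodule.ker_subtype _)

theorem irrc_count {K E Ω : Type*} [Field K] [Field E] [Algebra K E] [IsAlgClosed E]
    [Algebra.IsAlgebraic K E] {ζ : K} (hζ : IsPrimitiveRoot ζ ℓ) {m : ℕ} {u : Fin m → K}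
    (hu : LinearIndependent (ZMod ℓ) fun j => cl ℓ (u j)) {r : Fin m → E}
    (hr : ∀ j, r j ^ ℓ = algebraMap K E (u j)) [hfin : Finite Ω] (Rel : (E ≃ₐ[K] E) → Ω → Prop)
    (τ₀ : E ≃ₐ[K] E) (h1 : ∀ τ, (∃ ω, Rel τ ω) ∨ ∃ ω, Rel (τ₀ * τ) ω)
    (h2 : ∀ τ τ' ω, Rel τ ω → Rel τ' ω → ∀ j, τ (r j) = τ' (r j)) : m < 2 * Nat.card Ω := by
  have hp := (Fact.out : ℓ.Prime)
  have hζ' := hζ.map_of_injective (algebraMap K E).injective
  have hu0 : ∀ j, u j ≠ 0 := fun j h => hu.ne_zero j (by rw [h, cl_zero])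
  have hr0 : ∀ j, r j ≠ 0 := fun j h => hu0 j ((algebraMap K E).injective (by
    rw [← hr, h, zero_pow hp.ne_zero, map_zero]))
  choose τ hτ using kummer_aut hζ hu hr
  have h3 : ∀ e, ∃ p : Bool × Ω, Rel (cond p.1 (τ e) (τ₀ * τ e)) p.2 := fun e => by
    rcases h1 (τ e) with ⟨ω, h⟩ | ⟨ω, h⟩
    · exact ⟨(true, ω), h⟩
    · exact ⟨(false, ω), h⟩
  choose p hp' using h3
  have h4 : Function.Injective p := fun e e' h => by
    have a := hp' e
    have b := hp' e'
    rw [← h] at b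
    have c := h2 _ _ _ a b
    funext j
    have d : τ e (r j) = τ e' (r j) := by
      have := c j
      generalize (p e).1 = s at this
      cases s
      · exact τ₀.injective this
      · exact this
    rw [hτ, hτ] at d
    exact ZMod.val_injective _ (hζ'.pow_inj (ZMod.val_lt _) (ZMod.val_lt _)
      (mul_right_cancel₀ (hr0 j) d))
  have h5 := Nat.card_le_card_of_injective p h4
  rw [Nat.card_fun, Nat.card_zmod, Nat.card_prod, Nat.card_fin, Nat.card_eq_fintype_card,
    Fintype.card_bool] at h5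
  exact (Nat.lt_pow_self hp.one_lt).trans_le h5

theorem irrc_const {k K N : Type*} [Field k] [Field K] [Field N] [Algebra k K] [Algebra k N]
    [Algebra K N] [IsScalarTower k K N] {C : Type*} [Field C] [Algebra k C] [Algebra C N]
    [IsScalarTower k C N] {x y : K} (hxy : AlgebraicIndependent k ![x, y]) {𝒞 : Finset C}
    (h : ∀ F : Subfield N, algebraMap K N x ∈ F → (∀ c ∈ 𝒞, algebraMap C N c ∈ F) →
      IsAlgebraic F (algebraMap K N y)) : ∃ c ∈ 𝒞, c ∉ (algebraMap k C).range := by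
  by_contra h1
  push Not at h1
  refine (indep_pair_iff.1 hxy).2 ((algHom_mem_ac_iff (IsScalarTower.toAlgHom k K N)).1 ?_)
  rw [Set.image_singleton]
  refine mem_ac.2 (h k⟮algebraMap K N x⟯.toSubfield
    (IntermediateField.mem_adjoin_simple_self k _) fun c hc => ?_)
  obtain ⟨a, rfl⟩ := h1 c hc
  rw [← IsScalarTower.algebraMap_apply]
  exact IntermediateField.algebraMap_mem _ _

end Vale.Agent.P019
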