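import Vale.Agent.P019.IrrA
import Vale.Agent.P019.IrrB
import Vale.Agent.P019.FieldD
import Vale.Agent.P019.IrrCA

open scoped IntermediateField

namespace Vale.Agent.P019

universe u

variable {ℓ : ℕ} [Fact ℓ.Prime]

/-- homs out of `N` with prescribed values on `C` and at `x` -/
theorem ncard_hom_le {C N E : Type*} [Field C] [Field N] [Algebra C N] [Field E] {x : N}
    [Algebra.IsAlgebraic C⟮x⟯ N] [Finite (Field.Emb C⟮x⟯ N)] (ι₁ : C →+* E) (ξ : E) :
    {φ : N →+* E | (∀ c, φ (algebraMap C N c) = ι₁ c) ∧ φ x = ξ}.Finite ∧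
      {φ : N →+* E | (∀ c, φ (algebraMap C N c) = ι₁ c) ∧ φ x = ξ}.ncard ≤
        Field.finSepDegree C⟮x⟯ N := by
  rcases Set.eq_empty_or_nonempty
    {φ : N →+* E | (∀ c, φ (algebraMap C N c) = ι₁ c) ∧ φ x = ξ} with h | ⟨φ₀, h₀⟩
  · rw [h]
    simp
  letI : Algebra C⟮x⟯ (AlgebraicClosure E) :=
    (((algebraMap E (AlgebraicClosure E)).comp φ₀).comp (algebraMap C⟮x⟯ N)).toAlgebra
  have key : ∀ φ ∈ {φ : N →+* E | (∀ c, φ (algebraMap C N c) = ι₁ c) ∧ φ x = ξ},
      ∀ z ∈ C⟮x⟯, φ z = φ₀ z := fun φ hφ z hz => by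
    induction hz using IntermediateField.adjoin_induction with
    | mem w hw => rw [hw, hφ.2, h₀.2]
    | algebraMap w => rw [hφ.1, h₀.1]
    | add a b _ _ ha hb => rw [map_add, map_add, ha, hb]
    | inv a _ ha => rw [map_inv₀, map_inv₀, ha]
    | mul a b _ _ ha hb => rw [map_mul, map_mul, ha, hb]
  let f : {φ : N →+* E | (∀ c, φ (algebraMap C N c) = ι₁ c) ∧ φ x = ξ} →
      (N →ₐ[C⟮x⟯] AlgebraicClosure E) := fun φ =>
    { (algebraMap E (AlgebraicClosure E)).comp φ.1 with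
      commutes' := fun z => congrArg (algebraMap E (AlgebraicClosure E)) (key φ.1 φ.2 z z.2) }
  have hf : Function.Injective f := fun φ φ' h => Subtype.ext (RingHom.ext fun z =>
    (algebraMap E (AlgebraicClosure E)).injective (DFunLike.congr_fun h z))
  have : Finite (N →ₐ[C⟮x⟯] AlgebraicClosure E) :=
    Finite.of_equiv _ (Field.embEquivOfIsAlgClosed C⟮x⟯ N (AlgebraicClosure E))
  refine ⟨Set.finite_coe_iff.1 ?_, ?_⟩
  · exact Finite.of_injective f hf
  · rw [Field.finSepDegree_eq_of_isAlgClosed C⟮x⟯ N (AlgebraicClosure E)]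
    exact Nat.card_le_card_of_injective f hf

theorem irrc_fin {C N E : Type*} [Field C] [Field N] [Algebra C N] [Field E] {x : N}
    [Algebra.IsAlgebraic C⟮x⟯ N] [Finite (Field.Emb C⟮x⟯ N)] (ι₁ ι₂ : C →+* E)
    {r : Polynomial E} (hr : r ≠ 0) :
    {p : (N →+* E) × (N →+* E) | (∀ c, p.1 (algebraMap C N c) = ι₁ c) ∧
      (∀ c, p.2 (algebraMap C N c) = ι₂ c) ∧ p.1 x = p.2 x ∧ r.IsRoot (p.1 x)}.Finite := by
  refine ((Polynomial.finite_setOf_isRoot hr).biUnion fun ξ _ =>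
    (ncard_hom_le (x := x) ι₁ ξ).1.prod (ncard_hom_le (x := x) ι₂ ξ).1).subset ?_
  rintro p ⟨h1, h2, h3, h4⟩
  exact Set.mem_biUnion h4 ⟨⟨h1, rfl⟩, h2, h3.symm⟩

theorem irrc_main {k K C N M : Type u} [Field k] [Field K] [Field C] [Field N] [Field M]
    [Algebra k K] [Algebra k C] [Algebra k N] [Algebra K N] [Algebra C N] [IsScalarTower k K N]
    [IsScalarTower k C N] [Algebra k M] [Algebra K M] [Algebra C M] [Algebra N M]
    [IsScalarTower k K M] [IsScalarTower k C M] [IsScalarTower K N M] [IsScalarTower C N M]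
    [IsAlgClosed M] [Algebra.IsAlgebraic N M]
    [IsAlgClosed k] [IsAlgClosed C] (hd : Algebra.trdeg k K = 2)
    (hl : (ℓ : k) ≠ 0) {x : K} (hx : Transcendental C (algebraMap K N x))
    [Algebra.IsAlgebraic C⟮algebraMap K N x⟯ N] [Finite (Field.Emb C⟮algebraMap K N x⟯ N)]
    (hker : ¬ FiniteDimensional (ZMod ℓ) (LinearMap.ker (Vmap ℓ (algebraMap K N))))
    (hno : ∀ t : K, Transcendental k t → algebraMap K N t ∉ (algebraMap C N).range) : False := by
  have hKM : ∀ z : K, algebraMap N M (algebraMap K N z) = algebraMap K M z := fun z =>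
    (IsScalarTower.algebraMap_apply K N M z).symm
  have hCM : ∀ z : C, algebraMap N M (algebraMap C N z) = algebraMap C M z := fun z =>
    (IsScalarTower.algebraMap_apply C N M z).symm
  have hxk : Transcendental k x := fun h => hx ((h.algebraMap (A := N)).tower_top C)
  obtain ⟨y, hy⟩ := exists_not_mem_ac (k := k) ![x] (by rw [hd]; simp)
  have hxy : AlgebraicIndependent k ![x, y] := indep_pair_iff.2 ⟨hxk, by simpa using hy⟩
  have htop : ac k {x, y} = ⊤ := by
    simpa [Set.pair_comm] using ac_eq_top_of_indep hxy (by rw [hd]; simp)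
  have hN : ∀ n : N, n ∈ ac C {algebraMap K N x} := fun n =>
    mem_ac.2 (Algebra.IsAlgebraic.isAlgebraic n)
  obtain ⟨T, hT⟩ := exists_isTranscendenceBasis k C
  obtain ⟨E, _, _, _, j₁, hj⟩ := exists_twist (M := M) hxy htop
    (by rw [← hKM]; exact (transcendental_algebraMap_iff (algebraMap N M).injective).2 hx)
    (by rw [← hKM]; exact irrc_top) hT
  choose j₂ a1 a2 a3 using hj
  obtain ⟨𝒞, b1, b2⟩ := exists_def_set.{u} hx (hN (algebraMap K N y))
  obtain ⟨c₀, hc₀, hc₀'⟩ := irrc_const hxy b1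
  have : IsAlgClosed (algebraicClosure K M) := IsAlgClosure.isAlgClosed K
  have hK : ∀ τ (z : K), j₂ τ (algebraMap K M z) = j₁ (algebraMap K M z) := fun τ z =>
    (a1 τ (algebraMap K _ z)).trans (congrArg (fun w : algebraicClosure K M => j₁ w) (τ.commutes z))
  let Good : (algebraicClosure K M ≃ₐ[K] algebraicClosure K M) → Prop := fun τ =>
    j₁ (algebraMap C M c₀) ≠ j₂ τ (algebraMap C M c₀)
  have hG : ∀ τ, ¬ Good τ ↔ ∃ h : algebraMap C M c₀ ∈ algebraicClosure K M, τ ⟨_, h⟩ = ⟨_, h⟩ :=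
    fun τ => ⟨fun h => ⟨a2 τ _ _ (not_not.1 h), Subtype.ext (j₁.toRingHom.injective
      ((a1 τ ⟨_, a2 τ _ _ (not_not.1 h)⟩).symm.trans (not_not.1 h).symm))⟩,
      fun ⟨h, e⟩ => not_not.2 ((a1 τ ⟨_, h⟩).trans (by rw [e])).symm⟩
  obtain ⟨τ₀, hτ₀⟩ : ∃ τ₀, Good τ₀ := by
    by_contra h
    push Not at h
    obtain ⟨h1, -⟩ := (hG 1).1 (h 1)
    obtain ⟨n, t, ht⟩ := irrc_move (K := K) (w := ⟨_, h1⟩) fun τ => ((hG τ).1 (h τ)).2
    generalize hq : ringExpChar (algebraicClosure K M) ^ n = q at ht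
    have hq0 : 0 < q := hq ▸ fielda_pos n
    have h2 : algebraMap K M t = algebraMap C M (c₀ ^ q) := by
      rw [map_pow]
      exact congrArg Subtype.val ht
    refine hno t (fun h3 => hc₀' ?_) ⟨c₀ ^ q, (algebraMap N M).injective (by rw [hKM, hCM, h2])⟩
    have h4 : IsAlgebraic k (algebraMap C M (c₀ ^ q)) := h2 ▸ h3.algebraMap
    exact fieldc_alg _ (((isAlgebraic_algebraMap_iff (algebraMap C M).injective).1 h4).of_pow
      hq0).isIntegral
  have hmem : ∀ τ, Good τ → j₁ (algebraMap K M x) ∈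
      ac k (Set.range (j₁.comp (IsScalarTower.toAlgHom k C M)) ∪
        Set.range ((j₂ τ).comp (IsScalarTower.toAlgHom k C M))) := fun τ hτ => by
    obtain ⟨r, hr, h⟩ := b2 (ac k (Set.range (j₁.comp (IsScalarTower.toAlgHom k C M)) ∪
        Set.range ((j₂ τ).comp (IsScalarTower.toAlgHom k C M))))
      ((j₁.comp (IsScalarTower.toAlgHom k C M)).toRingHom.codRestrict _
        fun c => subset_ac _ (Or.inl ⟨c, rfl⟩))
      (((j₂ τ).comp (IsScalarTower.toAlgHom k C M)).toRingHom.codRestrict _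
        fun c => subset_ac _ (Or.inr ⟨c, rfl⟩)) ⟨c₀, hc₀, fun e => hτ (congrArg Subtype.val e)⟩
    have h1 := h E (algebraMap _ E) (j₁.toRingHom.comp (algebraMap N M))
      ((j₂ τ).toRingHom.comp (algebraMap N M)) (fun c => congrArg j₁ (hCM c))
      (fun c => congrArg (j₂ τ) (hCM c))
      (by simp only [RingHom.comp_apply, hKM]; exact (hK τ x).symm)
      (by simp only [RingHom.comp_apply, hKM]; exact (hK τ y).symm)
    rw [RingHom.comp_apply, hKM] at h1
    exact mem_ac_of_isAlgebraic ⟨r, hr, h1⟩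
  obtain ⟨r, hr, hroot⟩ := b2 E (j₁.comp (IsScalarTower.toAlgHom k C M)).toRingHom
    ((j₂ τ₀).comp (IsScalarTower.toAlgHom k C M)).toRingHom ⟨c₀, hc₀, hτ₀⟩
  have hfin := (irrc_fin (x := algebraMap K N x) (j₁.comp (IsScalarTower.toAlgHom k C M)).toRingHom
    ((j₂ τ₀).comp (IsScalarTower.toAlgHom k C M)).toRingHom hr).to_subtype
  obtain ⟨u, ρ, hu, hρ⟩ := irrc_indep hker _
  obtain ⟨ζ, hζ⟩ := exists_primitiveRoot k hl
  have hζ' := hζ.map_of_injective (algebraMap k K).injective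
  have hp := (Fact.out : ℓ.Prime)
  have hρ' : ∀ j, algebraMap N M (ρ j) ∈ algebraicClosure K M := fun j =>
    mem_algebraicClosure_iff.2 (IsAlgebraic.of_pow hp.pos (by
      rw [← map_pow, hρ, hKM]; exact isAlgebraic_algebraMap _))
  have hρ2 : ∀ j, (⟨_, hρ' j⟩ : algebraicClosure K M) ^ ℓ = algebraMap K _ (u j) := fun j =>
    Subtype.ext (show algebraMap N M (ρ j) ^ ℓ = algebraMap K M (u j) by rw [← map_pow, hρ, hKM])
  have hpair : ∀ τ, Good τ → ∃ φ φ' : N →+* E,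
      (∀ c, φ (algebraMap C N c) = j₁ (algebraMap C M c)) ∧
      (∀ c, φ' (algebraMap C N c) = j₂ τ₀ (algebraMap C M c)) ∧
      ∀ (n n' : N) (h : algebraMap N M n ∈ algebraicClosure K M),
        (τ ⟨_, h⟩ : M) = algebraMap N M n' → φ' n = φ n' := fun τ hτ => by
    obtain ⟨ψ, p1, p2⟩ := exists_amalg hT _ _ (a3 τ (hmem τ hτ)) _ _ (a3 τ₀ (hmem τ₀ hτ₀))
    have m1 := fun n => irrc_mem (j₁.toRingHom.comp (algebraMap N M))
      (fun c => subset_ac _ (Or.inl ⟨c, congrArg j₁ (hCM c).symm⟩))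
      ((congrArg j₁ (hKM x)).symm ▸ hmem τ hτ :) (hN n)
    have m2 := fun n => irrc_mem ((j₂ τ).toRingHom.comp (algebraMap N M))
      (fun c => subset_ac _ (Or.inr ⟨c, congrArg (j₂ τ) (hCM c).symm⟩))
      (((congrArg (j₂ τ) (hKM x)).trans (hK τ x)).symm ▸ hmem τ hτ :) (hN n)
    refine ⟨ψ.toRingHom.comp ((j₁.toRingHom.comp (algebraMap N M)).codRestrict _ m1),
      ψ.toRingHom.comp (((j₂ τ).toRingHom.comp (algebraMap N M)).codRestrict _ m2),
      fun c => ?_, fun c => ?_, fun n n' h e => ?_⟩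
    · exact (congrArg ψ (Subtype.ext (congrArg j₁ (hCM c)))).trans
        (p1 c (subset_ac _ (Or.inl ⟨c, rfl⟩)))
    · exact (congrArg ψ (Subtype.ext (congrArg (j₂ τ) (hCM c)))).trans
        (p2 c (subset_ac _ (Or.inr ⟨c, rfl⟩)))
    · exact congrArg ψ (Subtype.ext ((a1 τ ⟨_, h⟩).trans (congrArg j₁ e)))
  have hin : ∀ (τ : algebraicClosure K M ≃ₐ[K] algebraicClosure K M) j, ∃ n' : N,
      (τ ⟨_, hρ' j⟩ : M) = algebraMap N M n' := fun τ j => by
    have h0 : u j ≠ 0 := fun h => hu.ne_zero j (by rw [h, cl_zero])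
    have h1 : (⟨_, hρ' j⟩ : algebraicClosure K M) ≠ 0 := fun h =>
      h0 ((algebraMap K (algebraicClosure K M)).injective (by
        rw [← hρ2, h, zero_pow hp.ne_zero, map_zero]))
    obtain ⟨i, -, h2⟩ := (hζ'.map_of_injective
      (algebraMap K (algebraicClosure K M)).injective).eq_pow_of_pow_eq_one
      (ξ := τ ⟨_, hρ' j⟩ / ⟨_, hρ' j⟩) (by
        rw [div_pow, ← map_pow, hρ2, AlgEquiv.commutes, div_self ((map_ne_zero _).2 h0)])
    refine ⟨algebraMap K N (algebraMap k K ζ) ^ i * ρ j, ?_⟩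
    rw [← div_mul_cancel₀ (τ _) h1, ← h2, map_mul, map_pow, hKM]
    rfl
  refine lt_irrefl _ (irrc_count hζ' hu hρ2 (hfin := hfin) (fun τ ω =>
    ∀ (n n' : N) (h : algebraMap N M n ∈ algebraicClosure K M),
        (τ ⟨_, h⟩ : M) = algebraMap N M n' → ω.1.2 n = ω.1.1 n') τ₀ (fun τ => ?_)
    fun τ τ' ω h1 h2 j => ?_)
  · have h3 : ∀ τ, Good τ → ∃ ω : {p : (N →+* E) × (N →+* E) | (∀ c, p.1 (algebraMap C N c) =
        (j₁.comp (IsScalarTower.toAlgHom k C M)).toRingHom c) ∧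
        (∀ c, p.2 (algebraMap C N c) = ((j₂ τ₀).comp (IsScalarTower.toAlgHom k C M)).toRingHom c) ∧
        p.1 (algebraMap K N x) = p.2 (algebraMap K N x) ∧ r.IsRoot (p.1 (algebraMap K N x))},
        ∀ (n n' : N) (h : algebraMap N M n ∈ algebraicClosure K M),
          (τ ⟨_, h⟩ : M) = algebraMap N M n' → ω.1.2 n = ω.1.1 n' := fun τ hτ => by
      obtain ⟨φ, φ', q1, q2, q3⟩ := hpair τ hτ
      have q4 : ∀ z : K, φ (algebraMap K N z) = φ' (algebraMap K N z) := fun z =>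
        (q3 _ _ (by rw [hKM]; exact (algebraMap K (algebraicClosure K M) z).2) (by
          simp only [hKM]
          exact congrArg Subtype.val (τ.commutes z))).symm
      exact ⟨⟨(φ, φ'), q1, q2, q4 x, hroot E (RingHom.id E) φ φ' q1 q2 (q4 x) (q4 y)⟩, q3⟩
    by_cases h4 : Good τ
    · exact Or.inl (h3 τ h4)
    · refine Or.inr (h3 _ (not_not.1 fun h5 => not_not.2 hτ₀ ?_))
      obtain ⟨h6, h7⟩ := (hG _).1 h4
      obtain ⟨_, h8⟩ := (hG _).1 h5
      exact (hG _).2 ⟨h6, by rwa [AlgEquiv.mul_apply, h7] at h8⟩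
  · obtain ⟨n, hn⟩ := hin τ j
    obtain ⟨n', hn'⟩ := hin τ' j
    have := ω.1.1.injective ((h1 _ _ _ hn).symm.trans (h2 _ _ _ hn'))
    exact Subtype.ext (by rw [hn, hn', this])

/-- Suppose there is no such `t`. `M` = algebraic closure of `N`, `Kb = algebraicClosure K M`,
`(x, y)` a transcendence basis of `K`, `𝒞` from `exists_def_set`; some `c₀ ∈ 𝒞` is not in `k`, and
no power `c₀ ^ q ^ n` is in `K`. Call `τ ∈ Aut(Kb / K)` good if `j₁ c ≠ j₂ c` for some `c ∈ 𝒞`
(`j₂` from `exists_twist`); if `c₀ ∉ Kb` all `τ` are good, else those moving `c₀` are. For good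
`τ`, `x` is algebraic over `j₁ C · j₂ C` (`exists_def_set` with `E` the field they generate), so the
copies are independent. Fix a good `τ₀`, `ι₁ = j₁`, `ι₂ = j₂ τ₀` on `C`, and `r` for them. For good
`τ`, `exists_amalg` gives `ψ`, and `φ = ψ j₁`, `φ' = ψ j₂` restricted to `N` extend `ι₁`, `ι₂`, agree
on `K`, so `φ x` is a root of `r`: at most `deg r * B ^ 2` pairs (`ncard_hom_le`). Take `m`
independent classes `u j` in the kernel, `r j ∈ N` their roots; `τ (r j) = ζ ^ e j r j` and the pair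
`(φ, φ')` determines `e`. By `kummer_aut` every `e` occurs; the `e` that occur only for `τ` fixing
`c₀` form the empty set or a proper subgroup. So `ℓ ^ m ≤ 2 deg r * B ^ 2` for all `m`. -/
theorem exists_const_of_ker {k K C N : Type u} [Field k] [Field K] [Field C] [Field N]
    [Algebra k K] [Algebra k C] [Algebra k N] [Algebra K N] [Algebra C N] [IsScalarTower k K N]
    [IsScalarTower k C N] [IsAlgClosed k] [IsAlgClosed C] (hd : Algebra.trdeg k K = 2)
    (hl : (ℓ : k) ≠ 0) {x : K} (hx : Transcendental C (algebraMap K N x))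
    [Algebra.IsAlgebraic C⟮algebraMap K N x⟯ N] [Finite (Field.Emb C⟮algebraMap K N x⟯ N)]
    (hker : ¬ FiniteDimensional (ZMod ℓ) (LinearMap.ker (Vmap ℓ (algebraMap K N)))) :
    ∃ t : K, Transcendental k t ∧ algebraMap K N t ∈ (algebraMap C N).range := by
  by_contra h
  push Not at h
  exact irrc_main (M := AlgebraicClosure N) hd hl hx hker h

end Vale.Agent.P019
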