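import Vale.Agent.P019.BthA
import Vale.Agent.P019.Fam
import Vale.Agent.P019.IrrC
import Vale.Agent.P019.CurveF

open scoped IntermediateField
open Filter

namespace Vale.Agent.P019

universe u

variable {ℓ : ℕ} [Fact ℓ.Prime] {k K l L : Type u} [Field k] [Field K] [Algebra k K] [IsAlgClosed k]
  [Field l] [Field L] [Algebra l L] [IsAlgClosed l] {Θ : V ℓ K ≃ₗ[ZMod ℓ] V ℓ L}

theorem bthb_minpoly {A B N Ω : Type*} [Field A] [Field B] [Field N] [Field Ω] [Algebra A N]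
    [Algebra B Ω] (e : A ≃+* B) (g : N →+* Ω)
    (h : (algebraMap B Ω).comp (e : A →+* B) = g.comp (algebraMap A N)) {z : N}
    (hz : IsIntegral A z) : minpoly B (g z) = (minpoly A z).map (e : A →+* B) := by
  refine (minpoly.eq_of_irreducible_of_monic ?_ ?_ ((minpoly.monic hz).map _)).symm
  · exact (MulEquiv.irreducible_iff (Polynomial.mapEquiv e)).2 (minpoly.irreducible hz)
  · rw [Polynomial.aeval_def, Polynomial.eval₂_map, h, ← Polynomial.hom_eval₂,
      ← Polynomial.aeval_def, minpoly.aeval, map_zero]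

theorem bthb_finite {C N Ω : Type*} [Field C] [Field N] [Field Ω] [Algebra C N] [Algebra C Ω]
    (φ : N →ₐ[C] Ω) (x : N) [Algebra.IsAlgebraic C⟮x⟯ N] (B : ℕ)
    (h : ∀ ω : Ω, IsSeparable C⟮φ x⟯ ω → (minpoly C⟮φ x⟯ ω).natDegree ≤ B) :
    Finite (Field.Emb C⟮x⟯ N) := by
  refine finite_emb_of_bound _ _ B fun z hz => ?_
  have e1 : C⟮x⟯.map φ = C⟮φ x⟯ := by
    rw [IntermediateField.adjoin_map, Set.image_singleton]
  have h1 := bthb_minpoly
    ((C⟮x⟯.equivMap φ).trans (IntermediateField.equivOfEq e1)).toRingEquiv φ.toRingHom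
    (RingHom.ext fun _ => rfl) hz.isIntegral
  have h2 := h (φ.toRingHom z) (by
    unfold IsSeparable
    rw [h1]
    exact Polynomial.Separable.map hz)
  rwa [h1, Polynomial.natDegree_map] at h2

/-- the two copies lemma for a ring hom into a field with a field of constants -/
theorem bthb_const {Ω : Type u} [Field Ω] (hd : Algebra.trdeg k K = 2) (hl : (ℓ : k) ≠ 0)
    (C : Subfield Ω) [IsAlgClosed C] (j : K →+* Ω) (hj : ∀ c : k, j (algebraMap k K c) ∈ C)
    {x : K} (hx : Transcendental C (j x)) (hN : ∀ w : K, j w ∈ ac C {j x}) (B : ℕ)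
    (hB : ∀ ω : Ω, IsSeparable C⟮j x⟯ ω → (minpoly C⟮j x⟯ ω).natDegree ≤ B)
    (hker : ¬ FiniteDimensional (ZMod ℓ) (LinearMap.ker (Vmap ℓ j))) :
    ∃ t : K, Transcendental k t ∧ j t ∈ C := by
  letI : Algebra K (ac C {j x}) := (j.codRestrict (ac C {j x}) hN).toAlgebra
  letI : Algebra k C := ((j.comp (algebraMap k K)).codRestrict C hj).toAlgebra
  letI : Algebra k (ac C {j x}) := ((algebraMap C (ac C {j x})).comp (algebraMap k C)).toAlgebra
  have : IsScalarTower k C (ac C {j x}) := IsScalarTower.of_algebraMap_eq fun _ => rfl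
  have : IsScalarTower k K (ac C {j x}) := IsScalarTower.of_algebraMap_eq fun _ => rfl
  have h1 : Transcendental C (algebraMap K (ac C {j x}) x) := fun h =>
    hx ((IntermediateField.isAlgebraic_iff (x := algebraMap K (ac C {j x}) x)).1 h)
  have := isAlgebraic_of_trdeg_one (trdeg_ac_single hx).le h1
  have := bthb_finite (ac C {j x}).val (algebraMap K (ac C {j x}) x) B hB
  obtain ⟨t, ht, c, hc⟩ := exists_const_of_ker (ℓ := ℓ) (C := C) (N := ac C {j x}) hd hl h1 (by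
    have e1 : j = (algebraMap (ac C {j x}) Ω).comp (algebraMap K (ac C {j x})) := rfl
    rwa [e1, Vmap_comp, LinearMap.ker_comp_of_ker_eq_bot _
      (LinearMap.ker_eq_bot.2 (Vmap_ac_injective _))] at hker)
  refine ⟨t, ht, ?_⟩
  have h2 : (c : Ω) = j t := congrArg Subtype.val hc
  rw [← h2]
  exact c.2

/-- `exists_fam_ft`, `Fam.exists_partners`, `j' : K → Ω'` from `exists_resUP`, `C'` the
ultraproduct of the `kap k (O' i)`. For `x ≠ 0`: `[j' x] = 0` iff almost everywhere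
`[x] ∈ U1 (O' i)` iff `Θ [x] ∈ H s` (`Fam.ker'`, `Fam.mem_U1`). Some `j' x₀ ∉ C'` (else `H s = ⊤`,
contradicting `mem_ac_of_H_le`). By `Fam.sdeg_bound`, `small_of_three`, `small_up`, all of `K` lies
in `N = ac C' {j' x₀}`; `finite_emb_up`, `finite_emb_of_bound`; the kernel of `V K → V N` contains
`Θ⁻¹ (H s)` (`not_fd_H`). Apply `exists_const_of_ker` (build the algebra structures from the ring
homs). -/
theorem exists_H_le (hK : Std ℓ k K 2) (hL : Std ℓ l L 2) (hΘ : Iso Θ) {s : L}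
    (hs : Transcendental l s) :
    ∃ t : K, Transcendental k t ∧ (H k ℓ t).map Θ.toLinearMap ≤ H l ℓ s := by
  obtain ⟨y, hy⟩ := exists_cons_basis (e := 1) hL.dim hs
  obtain ⟨𝒰, O, hF, hft⟩ := exists_fam_ft (ℓ := ℓ) (e := 1) hL.char hL.dim hy
  obtain ⟨O', Θb, hP, hu⟩ := hF.exists_partners (e := 0) hK hL hΘ hy
  obtain ⟨j, hj⟩ := exists_resUP 𝒰 O' hu
  have := upC_isAlgClosed 𝒰 (fun i => kap k (O' i)) fun i => inferInstance
  have hker : ∀ x : K, x ≠ 0 → (cl ℓ (j x) = 0 ↔ Θ (cl ℓ x) ∈ H l ℓ s) := by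
    intro x hx
    rw [hj, cl_upMk_eq_zero]
    constructor
    · intro h
      refine hF.ker' (e := 1) hL hy _ ?_
      filter_upwards [h, hu x hx] with i h1 h2
      exact ((hP i).1.mem_U1_iff _).2 ((cl_mem_U1_iff _ h2).2 h1)
    · intro h
      filter_upwards [hF.mem_U1 h, hu x hx] with i h1 h2
      exact (cl_mem_U1_iff _ h2).1 (((hP i).1.mem_U1_iff _).1 h1)
  have hC : ∀ x : K, j x ∈ upC 𝒰 (fun i => kap k (O' i)) → Θ (cl ℓ x) ∈ H l ℓ s := by
    intro x hx
    rcases eq_or_ne x 0 with rfl | h0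
    · rw [cl_zero, map_zero]
      exact zero_mem _
    · exact (hker x h0).1 (cl_const (⟨j x, hx⟩ : upC 𝒰 fun i => kap k (O' i)))
  obtain ⟨x, hx⟩ : ∃ x : K, j x ∉ upC 𝒰 (fun i => kap k (O' i)) := by
    by_contra h
    push Not at h
    refine (indep_pair_iff.1 (show AlgebraicIndependent l ![s, y 0] from ?_)).2
      (mem_ac_of_H_le hL fun z _ => ?_)
    · have e1 : ![s, y 0] = (Fin.cons s y : Fin 2 → L) := by
        funext i
        fin_cases i <;> rfl
      rwa [e1]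
    · obtain ⟨w, -, hw⟩ := cl_surj (Θ.symm z)
      have h1 := hC w (h w)
      rwa [hw, LinearEquiv.apply_symm_apply] at h1
  have hxt : Transcendental (upC 𝒰 fun i => kap k (O' i)) (j x) :=
    transcendental_iff.2 fun ⟨c, hc⟩ => hx (hc ▸ c.2)
  have hxi : ∀ᶠ i in (𝒰 : Filter (Finset L)), Transcendental (kap k (O' i)) (res (O' i) x) := by
    rw [hj, upMk_mem_upC, ← Ultrafilter.eventually_not] at hx
    exact hx.mono fun i hi => transcendental_iff.2 fun ⟨c, hc⟩ => hi (hc ▸ c.2)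
  have hpfc : ∀ i, PFC (kap k (O' i)) (Res (O' i)) := fun i => by
    obtain ⟨d1, d2⟩ := (hP i).2.1.res_pf hK.pf (e := 1) hK.dim
    exact ⟨d1, by simpa using d2⟩
  have hmem : ∀ w : K, ∀ᶠ i in (𝒰 : Filter (Finset L)), w ∈ O' i := fun w => by
    rcases eq_or_ne w 0 with rfl | hw
    · exact Eventually.of_forall fun i => zero_mem _
    · exact (hu w hw).mono fun i hi => (val_eq_one_iff.1 hi).2.1
  choose B hB using hF.sdeg_bound hK hL hΘ hy hft hP hu
  have hconst : ∀ c : k, j (algebraMap k K c) ∈ upC 𝒰 fun i => kap k (O' i) := fun c => by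
    rw [hj, upMk_mem_upC]
    exact Eventually.of_forall fun i => res_const_mem _ k c
  obtain ⟨t, ht, htC⟩ := bthb_const (ℓ := ℓ) (by simpa using hK.dim) hK.char _ j hconst hxt
    (fun w => by
      have h1 : Small (upC 𝒰 fun i => kap k (O' i)) (fun _ : Unit => j x)
          (8 * (B x + B w + B (x + w) + 1)) (j w) := by
        rw [hj, hj]
        refine (small_up 𝒰 _ (fun _ : Unit => fun i => res (O' i) x) _ _).2 ?_
        filter_upwards [hB x, hB w, hB (x + w), hmem x, hmem w] with i b1 b2 b3 b4 b5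
        rw [res_add _ b4 b5] at b3
        exact small_of_three (hpfc i) (Nat.succ_pos _) (fun h => (b1 h).trans (by omega))
          (fun h => (b2 h).trans (by omega)) fun h => (b3 h).trans (by omega)
      have h2 := h1.mem_ac (algebraicIndependent_unique_type_iff.2 hxt)
      rwa [Set.range_const] at h2)
    (B x) (by
      rw [hj]
      refine finite_emb_up 𝒰 _ _ _ ?_
      filter_upwards [hB x, hxi] with i b1 b2
      exact ⟨hpfc i, b2, b1 b2⟩)
    (fun hfd => not_fd_H (ℓ := ℓ) hL.pf hL.char hs (Submodule.finiteDimensional_of_le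
      (S₂ := (LinearMap.ker (Vmap ℓ j)).map Θ.toLinearMap) fun z hz => by
        obtain ⟨w, hw0, hw⟩ := cl_surj (Θ.symm z)
        refine ⟨cl ℓ w, ?_, by rw [hw]; exact Θ.apply_symm_apply z⟩
        rw [SetLike.mem_coe, LinearMap.mem_ker, Vmap_cl, hker w hw0, hw,
          LinearEquiv.apply_symm_apply]
        exact hz))
  refine ⟨t, ht, ?_⟩
  rintro _ ⟨z, hz, rfl⟩
  obtain ⟨f, hf, -, rfl⟩ := mem_HF.1 hz
  refine hC f ?_
  have h1 := map_mem_ac (k' := upC 𝒰 fun i => kap k (O' i)) j (fun c => ⟨⟨_, hconst c⟩, rfl⟩) hf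
  have h2 := ac_le_ac (T := ∅) (by
    rw [Set.image_singleton, Set.singleton_subset_iff]
    exact IntermediateField.algebraMap_mem _ (⟨_, htC⟩ : upC 𝒰 fun i => kap k (O' i))) h1
  obtain ⟨c, hc⟩ := not_not.1 (mt transcendental_iff.2 (not_not.2 (mem_ac_empty.1 h2)))
  rw [← hc]
  exact c.2

theorem bthb_B (hK : Std ℓ k K 2) (hL : Std ℓ l L 2) (hΘ : Iso Θ) (t : K)
    (ht : Transcendental k t) :
    ∃ s : L, Transcendental l s ∧ (H k ℓ t).map Θ.toLinearMap = H l ℓ s := by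
  obtain ⟨s, hs, h1⟩ := exists_H_le hL hK hΘ.symm ht
  obtain ⟨t', ht', h2⟩ := exists_H_le hK hL hΘ hs
  have h3 : H k ℓ t' ≤ H k ℓ t := fun z hz =>
    h1 ⟨Θ z, h2 ⟨z, hz, rfl⟩, Θ.symm_apply_apply z⟩
  have h4 : H k ℓ t' = H k ℓ t := by
    rw [H_eq_HF, H_eq_HF, ac_eq_of_mem (mem_ac_of_H_le hK h3) ht']
  exact ⟨s, hs, le_antisymm (h4 ▸ h2) fun z hz =>
    ⟨Θ.symm z, h1 ⟨z, hz, rfl⟩, Θ.apply_symm_apply z⟩⟩

/-- use `exists_H_le` for `Θ` and `Θ.symm`, `mem_ac_of_H_le`, `ac_eq_of_mem` -/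
theorem set2 (hK : Std ℓ k K 2) (hL : Std ℓ l L 2) (hΘ : Iso Θ) : Set2 k l Θ := by
  refine ⟨hK, hL, hΘ, bthb_B hK hL hΘ, fun s hs => ?_⟩
  obtain ⟨t, ht, h⟩ := bthb_B hL hK hΘ.symm s hs
  refine ⟨t, ht, ?_⟩
  rw [← h, ← Submodule.map_comp]
  simp

end Vale.Agent.P019
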