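import Vale.Agent.P019.Prime2
import Vale.Agent.P019.Zar

open scoped IntermediateField

namespace Vale.Agent.P019

universe u

variable {ℓ : ℕ} [Fact ℓ.Prime] {k K l L : Type u} [Field k] [Field K] [Algebra k K] [IsAlgClosed k]
  [Field l] [Field L] [Algebra l L] [IsAlgClosed l] {Θ : V ℓ K ≃ₗ[ZMod ℓ] V ℓ L}

theorem Std.res (hK : Std ℓ k K 2) {v : ValuationSubring K} (hv : IsPrime k v) :
    Std ℓ (kap k v) (Res v) 1 := by
  have := hK.perf
  obtain ⟨h1, h2⟩ := hv.isAbh.res_pf hK.pf (e := 1) (by simpa using hK.dim)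
  obtain ⟨ψ, -⟩ := exists_resHom v (algebraMap k K) hv.1
  refine ⟨perfect_res v ?_, h1, kap_cast_ne_zero v k ?_, h2⟩
  · rw [← Algebra.ringChar_eq k K]
    let := ψ.toAlgebra
    exact (Algebra.ringChar_eq k (Res v)).symm
  · simpa using val_const_eq_one hv.1 hK.char

omit [IsAlgClosed k] in
theorem tau_unit {v : ValuationSubring K} {A : IntermediateField k K} (hA : ∀ x ∈ A, x ∈ v)
    {x : K} (hx : x ∈ A) (h0 : x ≠ 0) : v.valuation x = 1 :=
  val_eq_one_iff.2 ⟨h0, hA x hx, hA _ (inv_mem hx)⟩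

omit [IsAlgClosed k] in
theorem tau_inj {v : ValuationSubring K} {A : IntermediateField k K} (hA : ∀ x ∈ A, x ∈ v)
    {x y : K} (hx : x ∈ A) (hy : y ∈ A) (h : res v x = res v y) : x = y := by
  by_contra hne
  have h1 := tau_unit hA (sub_mem hx hy) (sub_ne_zero.2 hne)
  have h2 := (res_eq_iff v (hA x hx) (hA y hy)).1 h
  exact absurd h1 h2.ne

/-- two subfields of `v` with the same residues are isomorphic -/
theorem exists_res_equiv {v : ValuationSubring K} {A B : IntermediateField k K}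
    (hA : ∀ x ∈ A, x ∈ v) (hB : ∀ x ∈ B, x ∈ v) (h : res v '' A = res v '' B) :
    ∃ θ : B ≃ₐ[k] A, ∀ b : B, res v (θ b : K) = res v (b : K) := by
  obtain ⟨ψ, hψ⟩ := exists_resHom v (algebraMap A K) fun x => hA x x.2
  obtain ⟨χ, hχ⟩ := exists_resHom v (algebraMap B K) fun x => hB x x.2
  have e : χ.fieldRange = ψ.fieldRange := by
    ext z
    have h1 : z ∈ χ.fieldRange ↔ z ∈ res v '' B :=
      ⟨fun ⟨b, hb⟩ => ⟨b, b.2, (hχ b).symm.trans hb⟩, fun ⟨b, hb, e⟩ => ⟨⟨b, hb⟩, (hχ _).trans e⟩⟩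
    have h2 : z ∈ ψ.fieldRange ↔ z ∈ res v '' A :=
      ⟨fun ⟨b, hb⟩ => ⟨b, b.2, (hψ b).symm.trans hb⟩, fun ⟨b, hb, e⟩ => ⟨⟨b, hb⟩, (hψ _).trans e⟩⟩
    rw [h1, h2, h]
  let θ : B ≃+* A := (χ.rangeRestrictFieldEquiv.trans (RingEquiv.subfieldCongr e)).trans
    ψ.rangeRestrictFieldEquiv.symm
  have hθ : ∀ b : B, res v (θ b : K) = res v (b : K) := fun b =>
    (hψ (θ b)).symm.trans ((ψ.rangeRestrictFieldEquiv_apply_symm_apply _).trans (hχ b))
  refine ⟨AlgEquiv.ofRingEquiv (f := θ) fun c => Subtype.ext ?_, hθ⟩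
  exact tau_inj hA (θ _).2 (algebraMap k A c).2 (hθ _)

theorem tau_sub {y : K} (hy : GEN k y) [PerfectField K] {v : ValuationSubring K} {S : Set K}
    (hv : ∀ z ∈ ac k S, z ∈ v) {z : K} (hz : z ∈ ac k S) (ht : Transcendental k z)
    (h : v.valuation (y - z) < 1) :
    ∀ w ∈ ac k {y}, w ∈ v ∧ ∃ w' ∈ ac k S, res v w' = res v w := by
  have key := gv_ind (k := k) y (fun w => v.valuation w = 1 ∧ ∃ w' ∈ ac k S, res v w' = res v w)
    (fun c hc => ⟨tau_unit hv (IntermediateField.algebraMap_mem _ c) ((map_ne_zero _).2 hc),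
      _, IntermediateField.algebraMap_mem _ c, rfl⟩)
    (fun a _ => by
      have h1 : z - algebraMap k K a ∈ ac k S := sub_mem hz (IntermediateField.algebraMap_mem _ a)
      have h2 := tau_unit hv h1 (curvef_ne ht a)
      have e : y - algebraMap k K a = z - algebraMap k K a + (y - z) := by ring
      have h3 : v.valuation (y - algebraMap k K a) = 1 := by
        rw [e, Valuation.map_add_eq_of_lt_left _ (h2 ▸ h), h2]
      refine ⟨h3, _, h1, (res_eq_iff v (hv _ h1) (valb_mem v h3)).2 ?_⟩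
      rw [sub_sub_sub_cancel_right, Valuation.map_sub_swap]
      exact h)
    (fun a b _ _ ⟨h1, a', ha, ea⟩ ⟨h2, b', hb, eb⟩ => ⟨valb_val_mul v h1 h2, a' * b', mul_mem ha hb, by
      rw [res_mul v (hv _ ha) (hv _ hb), res_mul v (valb_mem v h1) (valb_mem v h2), ea, eb]⟩)
    (fun a ⟨h1, a', ha, ea⟩ => ⟨by rw [map_inv₀, h1, inv_one], a'⁻¹, inv_mem ha, by
      rw [res_inv, res_inv, ea]⟩)
  intro w hw
  rcases eq_or_ne w 0 with rfl | h0
  · exact ⟨v.zero_mem, 0, zero_mem _, rfl⟩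
  rw [hy.2] at hw
  obtain ⟨n, hn⟩ := mem_pc.1 hw
  obtain ⟨h1, w', hw', e⟩ := key _ hn (pow_ne_zero _ h0)
  have hq := fielda_pos (K := K) n
  have h2 : v.valuation w = 1 := by
    rw [map_pow] at h1
    exact (pow_eq_one_iff_of_nonneg zero_le hq.ne').1 h1
  obtain ⟨u, rfl⟩ := (bijective_iterateFrobenius K (ringExpChar K) n).2 w'
  rw [iterateFrobenius_def] at hw' e
  have hu := mem_ac_of_pow hq hw'
  refine ⟨valb_mem v h2, u, hu, (res_eq_iff v (hv _ hu) (valb_mem v h2)).2 ?_⟩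
  have h3 := (res_eq_iff v (hv _ hw') (valb_mem v h1)).1 e
  rw [← sub_pow_expChar_pow, map_pow] at h3
  exact (pow_lt_one_iff_of_nonneg zero_le hq.ne').1 h3

omit [IsAlgClosed k] in
theorem tau_tr {x : K} (hx : Transcendental k x) {c : k} (hc : c ≠ 0) (m : k) :
    Transcendental k (algebraMap k K c * x + algebraMap k K m) := by
  intro h
  have h1 := ((h.sub (isAlgebraic_algebraMap m)).mul (isAlgebraic_algebraMap c⁻¹))
  have : algebraMap k K c ≠ 0 := (map_ne_zero _).2 hc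
  rw [add_sub_cancel_right, map_inv₀, mul_comm, inv_mul_cancel_left₀ this] at h1
  exact hx h1

theorem res_image_line {x y : K} (hx : GEN k x) (hy : GEN k y) [PerfectField K]
    {v : ValuationSubring K} (hv : Hor k v x) {c m : k} (hc : c ≠ 0)
    (hl : v.valuation (y - (algebraMap k K c * x + algebraMap k K m)) < 1) :
    Hor k v y ∧ res v '' (ac k {x}) = res v '' (ac k {y}) := by
  have hk : ∀ c : k, algebraMap k K c ∈ v := fun c => hv _ (IntermediateField.algebraMap_mem _ c)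
  have h1 := tau_sub hy hv (add_mem (mul_mem (IntermediateField.algebraMap_mem _ c) (self_mem_ac x))
    (IntermediateField.algebraMap_mem _ m)) (tau_tr hx.1 hc m) hl
  have hH : Hor k v y := fun w hw => (h1 w hw).1
  have hc' : algebraMap k K c ≠ 0 := (map_ne_zero _).2 hc
  have h2 := tau_sub hx hH (add_mem (mul_mem (IntermediateField.algebraMap_mem _ c⁻¹) (self_mem_ac y))
    (IntermediateField.algebraMap_mem _ (-(c⁻¹ * m)))) (tau_tr hy.1 (inv_ne_zero hc) _) (by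
      have e : x - (algebraMap k K c⁻¹ * y + algebraMap k K (-(c⁻¹ * m))) =
          algebraMap k K c⁻¹ * -(y - (algebraMap k K c * x + algebraMap k K m)) := by
        rw [map_neg, map_mul, map_inv₀]
        field_simp
        ring
      rw [e, map_mul, val_const_eq_one hk (inv_ne_zero hc), one_mul, Valuation.map_neg]
      exact hl)
  refine ⟨hH, Set.Subset.antisymm ?_ ?_⟩
  · rintro _ ⟨w, hw, rfl⟩
    exact (h2 w hw).2
  · rintro _ ⟨w, hw, rfl⟩
    exact (h1 w hw).2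

omit [IsAlgClosed k] in
theorem tau_pt {A B : IntermediateField k K} (θ : B ≃ₐ[k] A) (P : Pt k A) :
    ∃ P' : Pt k B, P'.1 = P.1.comap (θ : B →+* A) := by
  refine ⟨⟨P.1.comap (θ : B →+* A), fun h => P.2.1 ?_, fun c => ?_⟩, rfl⟩
  · refine eq_top_iff.2 fun a _ => ?_
    have : θ.symm a ∈ P.1.comap (θ : B →+* A) := h ▸ ValuationSubring.mem_top _
    simpa using this
  · simpa using P.2.2 c

omit [IsAlgClosed k] in
theorem tau_rst {v : ValuationSubring K} {A B : IntermediateField k K} (hA : ∀ x ∈ A, x ∈ v)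
    (hB : ∀ x ∈ B, x ∈ v) (θ : B ≃ₐ[k] A) (hθ : ∀ b : B, res v (θ b : K) = res v (b : K))
    {ρ : DV ℓ K} (hρ : ρ ∈ DD ℓ v) : rst B ρ = rst A ρ ∘ₗ Vmap ℓ (θ : B →+* A) := by
  refine V_ext fun b hb => ?_
  rw [LinearMap.comp_apply, Vmap_cl, rst_cl, rst_cl]
  refine (DD_apply_eq hρ ?_).symm
  rw [tau_unit hB b.2 (by simpa using hb)]
  exact (res_eq_iff v (hA _ (θ b).2) (hB _ b.2)).1 (hθ b)

/-- a functional killing `H x ⊓ U1 v` extends to an element of `DD v` -/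
theorem tau_lift {v : ValuationSubring K} {A : IntermediateField k K} {σ : DV ℓ A}
    (h : ∀ z, Vmap ℓ (algebraMap A K) z ∈ U1 ℓ v → σ z = 0) : ∃ ρ ∈ DD ℓ v, rst A ρ = σ := by
  have h1 : σ ∈ (LinearMap.ker ((U1 ℓ v).mkQ ∘ₗ Vmap ℓ (algebraMap A K))).dualAnnihilator := by
    refine (Submodule.mem_dualAnnihilator _).2 fun z hz => h z ?_
    simpa using hz
  rw [← LinearMap.range_dualMap_eq_dualAnnihilator_ker] at h1
  obtain ⟨g, hg⟩ := h1
  refine ⟨g ∘ₗ (U1 ℓ v).mkQ, (Submodule.mem_dualAnnihilator _).2 fun z hz => ?_, hg⟩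
  rw [LinearMap.comp_apply, Submodule.mkQ_apply, (Submodule.Quotient.mk_eq_zero _).2 hz, map_zero]

/-- The kernel of `V (ac {x}) → V (Res v)` is finite dimensional (`kummer_ker`), its elements have
finite support; for other `a` a generator of `II P` factors through `V (Res v)`; lift it by
`exists_resFun_up`. With `θ` from `exists_res_equiv`, `θ y = c x + m` and `P.comap θ = P'`. -/
theorem finite_not_link (hK : Std ℓ k K 2) {x y : K} (hx : GEN k x) (hy : GEN k y)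
    {v : ValuationSubring K} (hv : IsPrime k v) (hh : Hor k v x) {c m : k} (hc : c ≠ 0)
    (hl : v.valuation (y - (algebraMap k K c * x + algebraMap k K m)) < 1) :
    {a : k | ¬ ∀ (P : Pt k (ac k {x})) (P' : Pt k (ac k {y})), AtK P x a → AtK P' y (c * a + m) →
      Link ℓ v P P'}.Finite := by
  have := hK.perf
  obtain ⟨hH, himg⟩ := res_image_line hx hy hh hc hl
  obtain ⟨θ, hθ⟩ := exists_res_equiv hh hH himg
  have hC := PFC_ac hK.pf hx.1
  have hfd := fd_H_inf_U1 (ℓ := ℓ) hK.pf hK.char (by simpa using hK.dim) hx.1 hv.isAbh hh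
  have hfin : ((H k ℓ x ⊓ U1 ℓ v : Submodule (ZMod ℓ) (V ℓ K)) : Set (V ℓ K)).Finite :=
    Set.finite_coe_iff.1 (Module.finite_of_finite (ZMod ℓ))
  have hN := hfin.preimage (Vmap_ac_injective (k := k) (ℓ := ℓ) {x}).injOn
  have hS := hN.biUnion fun z _ => hC.finite_supp z
  refine (curvef_fin hS ⟨x, self_mem_ac x⟩).subset fun a ha => ?_
  by_contra hn
  refine ha fun P P' hP hP' => ?_
  obtain ⟨hxm, hPa⟩ := hP
  have hPS : ∀ z, Vmap ℓ (algebraMap (ac k {x}) K) z ∈ U1 ℓ v → z ∈ U ℓ P.1 := fun z hz => by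
    by_contra hz'
    exact hn ⟨P, Set.mem_biUnion (x := z) ⟨⟨z, rfl⟩, hz⟩ hz', hPa⟩
  obtain ⟨σ, hσ, h0⟩ := (Submodule.ne_bot_iff _).1 (Pt.II_ne_bot (ℓ := ℓ) hC hK.char P)
  obtain ⟨ρ, hρ, e⟩ := tau_lift (v := v) (σ := σ) fun z hz => mem_U_iff_II.1 (hPS z hz) σ hσ
  refine ⟨ρ, hρ, e ▸ h0, e ▸ hσ, ?_⟩
  obtain ⟨Q, hQ⟩ := tau_pt θ P
  have hz : algebraMap k K c * x + algebraMap k K m ∈ ac k {x} :=
    add_mem (mul_mem (IntermediateField.algebraMap_mem _ c) (self_mem_ac x))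
      (IntermediateField.algebraMap_mem _ m)
  have hθy : θ ⟨y, self_mem_ac y⟩ =
      algebraMap k (ac k {x}) c * ⟨x, hxm⟩ + algebraMap k (ac k {x}) m :=
    Subtype.ext (tau_inj hh (θ _).2 hz ((hθ _).trans
      ((res_eq_iff v (hH _ (self_mem_ac y)) (hh _ hz)).2 hl)))
  have hQa : AtK Q y (c * a + m) := by
    refine ⟨self_mem_ac y, ?_⟩
    rw [At, hQ, comap_val_lt_one, map_sub, RingHom.coe_coe, hθy, AlgEquiv.commutes]
    have e2 : algebraMap k (ac k {x}) c * ⟨x, hxm⟩ + algebraMap k (ac k {x}) m -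
        algebraMap k (ac k {x}) (c * a + m) =
        algebraMap k (ac k {x}) c * (⟨x, hxm⟩ - algebraMap k (ac k {x}) a) := by
      rw [map_add, map_mul]
      ring
    rw [e2, map_mul, val_const_eq_one P.2.2 hc, one_mul]
    exact hPa
  rw [← hy.eq_of_AtK hQa hP', hQ, tau_rst hh hH θ hθ hρ, e]
  exact II_comap _ hσ

omit [IsAlgClosed k] in
theorem tau_H_le {v : ValuationSubring K} {A B : IntermediateField k K}
    (hB : ∀ x ∈ B, x ∈ v) (h : res v '' B ⊆ res v '' A) : HF ℓ B ≤ HF ℓ A ⊔ U1 ℓ v := by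
  intro z hz
  obtain ⟨b, hb, h0, rfl⟩ := mem_HF.1 hz
  obtain ⟨a, ha, e⟩ := h ⟨b, hb, rfl⟩
  have h1 := tau_unit hB hb h0
  have h2 : v.valuation a = 1 := (res_ne_zero_iff v a).1 (e ▸ (res_ne_zero_iff v b).2 h1)
  have ha0 := valb_ne_zero v h2
  have h3 : cl ℓ (b / a) ∈ U1 ℓ v := by
    rw [cl_mem_U1_iff v (valb_val_div v h1 h2), valb_res_div v h1 h2, e,
      div_self ((res_ne_zero_iff v b).2 h1), cl_one]
  rw [cl_div h0 ha0] at h3
  have := Submodule.add_mem_sup (mem_HF.2 ⟨a, ha, ha0, rfl⟩ : cl ℓ a ∈ HF ℓ A) h3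
  rwa [add_sub_cancel] at this

theorem tau_img_le (hK : Std ℓ k K 2) {v : ValuationSubring K} (hv : IsPrime k v) {s t : K}
    (hs : Transcendental k s) (h1 : Hor k v s) (h2 : Hor k v t)
    (h : H k ℓ t ≤ H k ℓ s ⊔ U1 ℓ v) : res v '' (ac k {t}) ⊆ res v '' (ac k {s}) := by
  have := hK.perf
  have := perfect_ac (k := k) {s}
  obtain ⟨ψ, hψ⟩ := exists_resHom v (algebraMap (ac k {s}) K) fun x => h1 x x.2
  obtain ⟨χ, hχ⟩ := exists_resHom v (algebraMap (ac k {t}) K) fun x => h2 x x.2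
  let A : IntermediateField (kap k v) (Res v) := ψ.fieldRange.toIntermediateField fun c => by
    obtain ⟨d, -, hd⟩ := (mem_kap v k).1 c.2
    exact ⟨algebraMap k _ d, (hψ _).trans hd⟩
  let B : IntermediateField (kap k v) (Res v) := χ.fieldRange.toIntermediateField fun c => by
    obtain ⟨d, -, hd⟩ := (mem_kap v k).1 c.2
    exact ⟨algebraMap k _ d, (hχ _).trans hd⟩
  have : PerfectField A := PerfectField.of_ringEquiv ψ.rangeRestrictFieldEquiv
  have hle : B ≤ A := by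
    refine le_of_HF_le (hK.res hv) ⟨ψ ⟨s, self_mem_ac s⟩, ⟨_, rfl⟩, ?_⟩ fun z hz => ?_
    · rw [transcendental_iff]
      rintro ⟨c, hc⟩
      obtain ⟨d, -, hd⟩ := (mem_kap v k).1 c.2
      refine transcendental_iff.1 hs ⟨d, tau_inj h1 (IntermediateField.algebraMap_mem _ d)
        (self_mem_ac s) (hd.trans (hc.trans (hψ _)))⟩
    · obtain ⟨_, ⟨b, rfl⟩, h0, rfl⟩ := mem_HF.1 hz
      have hb : (b : K) ≠ 0 := by simpa using h0
      obtain ⟨z1, hz1, z2, hz2, e⟩ := Submodule.mem_sup.1 (h (mem_HF.2 ⟨b, b.2, hb, rfl⟩))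
      obtain ⟨a, ha, ha0, rfl⟩ := mem_HF.1 hz1
      have ua := tau_unit h1 ha ha0
      have ub := tau_unit h2 b.2 hb
      rw [← eq_sub_iff_add_eq', ← cl_div hb ha0] at e
      rw [e, cl_mem_U1_iff v (valb_val_div v ub ua), valb_res_div v ub ua,
        cl_div ((res_ne_zero_iff v _).2 ub) ((res_ne_zero_iff v _).2 ua), sub_eq_zero] at hz2
      refine mem_HF.2 ⟨ψ ⟨a, ha⟩, ⟨_, rfl⟩, ?_, ?_⟩
      · rw [hψ]
        exact (res_ne_zero_iff v _).2 ua
      · rw [hψ, hχ]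
        exact hz2.symm
  rintro _ ⟨b, hb, rfl⟩
  obtain ⟨a, ha⟩ := hle (x := χ ⟨b, hb⟩) ⟨_, rfl⟩
  exact ⟨a, a.2, (hψ a).symm.trans (ha.trans (hχ _))⟩

/-- `w` the partner of `v`; it is trivial on `ac {x'}` and `ac {y'}`. The residue images have the
same image in `V (Res w)` (because `H x + U1 v = H y + U1 v`), so they are equal (`le_of_HF_le`);
`τ` from `exists_res_equiv`. For a link `ρ`, `ρ' = ρ ∘ Θ⁻¹ ∈ DD w` has
`rst ρ' = rst ρ' ∘ Vmap τ`; use `Match.II_iff`, `II_comap`, `Pt.eq_of_II`. -/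
theorem Set2.exists_tau (h : Set2 k l Θ) {x y : K} (hx : GEN k x) (hy : GEN k y) {x' y' : L}
    (hx' : Transcendental l x') (hy' : Transcendental l y')
    (hHx : (H k ℓ x).map Θ.toLinearMap = H l ℓ x') (hHy : (H k ℓ y).map Θ.toLinearMap = H l ℓ y')
    {v : ValuationSubring K} (hv : IsPrime k v) (hh : Hor k v x) {c m : k} (hc : c ≠ 0)
    (hl : v.valuation (y - (algebraMap k K c * x + algebraMap k K m)) < 1) :
    ∃ τ : ac l {y'} ≃ₐ[l] ac l {x'}, ∀ (P : Pt k (ac k {x})) (P' : Pt k (ac k {y}))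
      (Q : Pt l (ac l {x'})) (Q' : Pt l (ac l {y'})), Link ℓ v P P' → Match Θ P Q →
        Match Θ P' Q' → Q.1.comap (τ : ac l {y'} →+* ac l {x'}) = Q'.1 := by
  have := h.hK.perf
  obtain ⟨hH, himg⟩ := res_image_line hx hy hh hc hl
  obtain ⟨w, hw, hP⟩ := h.partner_prime hv
  have h1 := (h.hor_iff hv hw hP hx.1 hx' hHx).1 hh
  have h2 := (h.hor_iff hv hw hP hy.1 hy' hHy).1 hH
  have e1 : H l ℓ y' ≤ H l ℓ x' ⊔ U1 ℓ w := by
    rw [← hHx, ← hHy, ← hP.2, ← Submodule.map_sup]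
    exact Submodule.map_mono (tau_H_le hH himg.ge)
  have e2 : H l ℓ x' ≤ H l ℓ y' ⊔ U1 ℓ w := by
    rw [← hHx, ← hHy, ← hP.2, ← Submodule.map_sup]
    exact Submodule.map_mono (tau_H_le hh himg.le)
  obtain ⟨τ, hτ⟩ := exists_res_equiv h1 h2
    ((tau_img_le h.hL hw hy' h2 h1 e2).antisymm (tau_img_le h.hL hw hx' h1 h2 e1))
  refine ⟨τ, fun P P' Q Q' ⟨ρ, hρ, h0, hρP, hρP'⟩ hM hM' => ?_⟩
  have e : (ρ ∘ₗ Θ.symm.toLinearMap) ∘ₗ Θ.toLinearMap = ρ := by
    ext z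
    simp
  have hD : ρ ∘ₗ Θ.symm.toLinearMap ∈ DD ℓ w := by
    refine (Submodule.mem_dualAnnihilator _).2 fun z hz => ?_
    rw [← hP.2] at hz
    obtain ⟨u, hu, rfl⟩ := hz
    simpa using (Submodule.mem_dualAnnihilator _).1 hρ u hu
  have hQ := (hM.II_iff (ρ ∘ₗ Θ.symm.toLinearMap)).2 (e.symm ▸ hρP)
  have hQ' := (hM'.II_iff (ρ ∘ₗ Θ.symm.toLinearMap)).2 (e.symm ▸ hρP')
  have hn := (rst_ne_zero_iff hHx (ρ ∘ₗ Θ.symm.toLinearMap)).2 (e.symm ▸ h0)
  obtain ⟨R, hR⟩ := tau_pt τ Q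
  have hr := tau_rst h1 h2 τ hτ hD
  have hR' := II_comap (τ : ac l {y'} →+* ac l {x'}) hQ
  rw [← hr, ← hR] at hR'
  rw [← hR, Pt.eq_of_II (trdeg_ac_single hy') hR' hQ' fun h3 => hn ?_]
  refine V_ext fun a _ => ?_
  have h4 := LinearMap.congr_fun (hr.symm.trans h3) (cl ℓ (τ.symm a))
  rw [LinearMap.comp_apply, Vmap_cl] at h4
  simpa using h4

end Vale.Agent.P019
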