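import Vale.Agent.P019.Flag
import Vale.Agent.P019.Tau
import Vale.Agent.P019.AffB

open scoped IntermediateField

namespace Vale.Agent.P019

universe u

variable {ℓ : ℕ} [Fact ℓ.Prime] {k K l L : Type u} [Field k] [Field K] [Algebra k K] [IsAlgClosed k]
  [Field l] [Field L] [Algebra l L] [IsAlgClosed l] {Θ : V ℓ K ≃ₗ[ZMod ℓ] V ℓ L}

theorem coord_of_pc_top {σ : k ≃+* l} {t : K} {s : L} (hs : Transcendental l s)
    (hH : (H k ℓ t).map Θ.toLinearMap = H l ℓ s) (f : ac l {s}) (hf : Transcendental l f)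
    (htop : pc l {f} = ⊤) (h : CoordF Θ σ t (f : L) (ac l {s})) : Coord Θ σ t (f : L) := by
  obtain ⟨h1, h2⟩ := GEN_of_pc_top hs f hf htop
  have h3 : ∀ B, B = ac l {s} → CoordF Θ σ t (f : L) B := by
    rintro B rfl
    exact h
  exact ⟨h1, by rw [hH, H_eq_HF, H_eq_HF, h2], h3 _ h2⟩

theorem coord_eq_of_AtK {t : K} (ht : GEN k t) {B : IntermediateField k K} (e : ac k {t} = B)
    {P P' : Pt k B} {a : k} (h : AtK P t a) (h' : AtK P' t a) : P = P' := by
  subst e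
  exact ht.eq_of_AtK h h'

theorem coord_fin {A : IntermediateField k K} (t : K) {U : Set (Pt k A)} (hU : U.Finite) :
    {a : k | ∃ P ∈ U, AtK P t a}.Finite := by
  refine (hU.biUnion (t := fun P => {a : k | AtK P t a}) fun P _ =>
    Set.Subsingleton.finite fun a ha b hb => AtK.unique ha hb).subset ?_
  rintro a ⟨P, h1, h2⟩
  exact Set.mem_biUnion h1 h2

omit [IsAlgClosed k] in
theorem coord_root (Δ : MvPolynomial (Fin 2) k) (p : Fin 2 → Polynomial k) {a : k}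
    (h : MvPolynomial.eval (fun i => (p i).eval a) Δ ≠ 0) :
    {b : k | MvPolynomial.eval (fun i => (p i).eval b) Δ = 0}.Finite := by
  have e : ∀ b : k, MvPolynomial.eval (fun i => (p i).eval b) Δ =
      (MvPolynomial.aeval p Δ).eval b := fun b => by
    rw [← Polynomial.coe_aeval_eq_eval, ← AlgHom.comp_apply, MvPolynomial.comp_aeval]
    rfl
  simp only [e] at h ⊢
  exact Polynomial.finite_setOf_isRoot fun h0 => h (by rw [h0, Polynomial.eval_zero])

omit [IsAlgClosed k] in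
theorem coord_root_right (Δ : MvPolynomial (Fin 2) k) {a : k}
    (h : ¬ ∀ b, MvPolynomial.eval ![a, b] Δ = 0) :
    {b : k | MvPolynomial.eval ![a, b] Δ = 0}.Finite := by
  have e : ∀ b : k, (fun i => (![Polynomial.C a, Polynomial.X] i).eval b) = ![a, b] := fun b => by
    funext i
    fin_cases i <;> simp
  obtain ⟨b, hb⟩ := not_forall.1 h
  have := coord_root Δ ![Polynomial.C a, Polynomial.X] (a := b) (by rwa [e])
  simpa only [e] using this

theorem coord_root_left {Δ : MvPolynomial (Fin 2) k} (h : Δ ≠ 0) :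
    {a : k | ∀ b, MvPolynomial.eval ![a, b] Δ = 0}.Finite := by
  obtain ⟨z, hz⟩ : ∃ z, MvPolynomial.eval z Δ ≠ 0 := by
    by_contra h1
    push Not at h1
    exact h (MvPolynomial.funext fun z => by rw [h1, map_zero])
  have e : ∀ a : k, (fun i => (![Polynomial.X, Polynomial.C (z 1)] i).eval a) = ![a, z 1] :=
    fun b => by
      funext i
      fin_cases i <;> simp
  have e2 : ![z 0, z 1] = z := by
    funext i
    fin_cases i <;> rfl
  have := coord_root Δ ![Polynomial.X, Polynomial.C (z 1)] (a := z 0) (by rwa [e, e2])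
  simp only [e] at this
  exact this.subset fun a ha => ha _

omit [IsAlgClosed l] in
theorem coord_comap {F G : Type u} [Field F] [Field G] [Algebra l F] [Algebra l G]
    (τ τ' : F ≃ₐ[l] G) {R R' : ValuationSubring G} (h : R.comap (τ' : F →+* G) = R'.comap (τ : F →+* G)) :
    R.comap (τ.symm.trans τ' : G →+* G) = R' := by
  ext z
  have := SetLike.ext_iff.1 h (τ.symm z)
  simpa using this

theorem coord_tau_eq {F G : Type u} [Field F] [Field G] [Algebra l F] [Algebra l G] (hG : PFC l G)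
    (τ τ' : F ≃ₐ[l] G) (h : {R : Pt l G | R.1.comap (τ' : F →+* G) = R.1.comap (τ : F →+* G)}.Infinite) :
    τ' = τ := by
  have h1 := hG.aut_eq_one (τ.symm.trans τ') (h.mono fun R hR => coord_comap τ τ' hR)
  ext z
  simpa using DFunLike.congr_fun h1 (τ z)

/-- a choice of matching points -/
theorem coord_choice (h : Set2 k l Θ) {x : K} (hx : GEN k x) {x' : L} (hx' : Transcendental l x')
    (hH : (H k ℓ x).map Θ.toLinearMap = H l ℓ x') (O : ValuationSubring K) (hO : IsPrime k O)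
    (h1 : x ∉ O) (h2 : cl ℓ x ∉ U ℓ O) :
    ∃ (P : k → Pt k (ac k {x})) (P₀ : Pt k (ac k {x})) (Q : k → Pt l (ac l {x'}))
      (Q₀ : Pt l (ac l {x'})), (∀ a, AtK (P a) x a) ∧ PoleK P₀ x ∧ Match Θ P₀ Q₀ ∧
      {a | ¬ Match Θ (P a) (Q a)}.Finite ∧ (Set.range Q)ᶜ.Finite := by
  classical
  choose P hP using exists_AtK hx.1
  obtain ⟨P₀, hP₀⟩ := exists_PoleK hx.1
  obtain ⟨Q₀, hQ₀⟩ := h.match_of_prime hx.1 hx' hH hO (comap_eq_of_pole hx hO.1 h1 hP₀)
    ⟨x, self_mem_ac x, h2⟩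
  let Q : k → Pt l (ac l {x'}) := fun a => if h : ∃ R, Match Θ (P a) R then h.choose else Q₀
  have hQ : ∀ a, (∃ R : Pt l (ac l {x'}), Match Θ (P a) R) → Match Θ (P a) (Q a) := fun a ha => by
    simp only [Q, dif_pos ha]
    exact ha.choose_spec
  refine ⟨P, P₀, Q, Q₀, hP, hP₀, hQ₀, (coord_fin x (h.finite_unmatched hx.1 hx' hH)).subset
    fun a ha => ⟨P a, fun h3 => ha (hQ a h3), hP a⟩, ?_⟩
  refine ((h.symm.finite_unmatched hx' hx.1 (map_H_symm hH)).insert Q₀).subset fun R hR => ?_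
  by_contra h3
  rw [Set.mem_insert_iff, not_or] at h3
  obtain ⟨P₁, h4⟩ := not_not.1 h3.2
  have h5 : Match Θ P₁ R := h4.symm
  by_cases h6 : (⟨x, self_mem_ac x⟩ : ac k {x}) ∈ P₁.1
  · obtain ⟨c, hc⟩ := Pt.exists_At (trdeg_ac_single hx.1).le P₁ h6
    obtain rfl : P₁ = P c := hx.eq_of_AtK ⟨_, hc⟩ (hP c)
    exact hR ⟨c, Match.unique_right h hx' (hQ c ⟨R, h5⟩) h5⟩
  · obtain rfl : P₁ = P₀ := hx.eq_of_PoleK ⟨_, h6⟩ hP₀
    exact h3.1 (Match.unique_right h hx' h5 hQ₀)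

theorem coord_tau (h : Set2 k l Θ) {x y : K} (hx : GEN k x) (hy : GEN k y) {x' y' : L}
    (hx' : Transcendental l x') (hy' : Transcendental l y')
    (hHx : (H k ℓ x).map Θ.toLinearMap = H l ℓ x') (hHy : (H k ℓ y).map Θ.toLinearMap = H l ℓ y')
    {v : ValuationSubring K} (hv : IsPrime k v) (hh : Hor k v x) {c m : k} (hc : c ≠ 0)
    (hl : v.valuation (y - (algebraMap k K c * x + algebraMap k K m)) < 1)
    {P : k → Pt k (ac k {x})} {P' : k → Pt k (ac k {y})} {Q : k → Pt l (ac l {x'})}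
    {Q' : k → Pt l (ac l {y'})} (hP : ∀ a, AtK (P a) x a) (hP' : ∀ a, AtK (P' a) y a)
    (hQ : {a | ¬ Match Θ (P a) (Q a)}.Finite) (hQ' : {a | ¬ Match Θ (P' a) (Q' a)}.Finite) :
    ∃ τ : ac l {y'} ≃ₐ[l] ac l {x'}, (∀ (P : Pt k (ac k {x})) (P' : Pt k (ac k {y}))
      (Q : Pt l (ac l {x'})) (Q' : Pt l (ac l {y'})), Link ℓ v P P' → Match Θ P Q →
        Match Θ P' Q' → Q.1.comap (τ : ac l {y'} →+* ac l {x'}) = Q'.1) ∧
      {a | (Q a).1.comap (τ : ac l {y'} →+* ac l {x'}) ≠ (Q' (c * a + m)).1}.Finite := by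
  obtain ⟨τ, hτ⟩ := h.exists_tau hx hy hx' hy' hHx hHy hv hh hc hl
  have h1 : {a | ¬ Match Θ (P' (c * a + m)) (Q' (c * a + m))}.Finite :=
    hQ'.preimage (f := fun a => c * a + m) fun a _ b _ e => mul_left_cancel₀ hc (add_right_cancel e)
  refine ⟨τ, hτ, (((finite_not_link h.hK hx hy hv hh hc hl).union hQ).union h1).subset
    fun a ha => ?_⟩
  by_contra h2
  simp only [Set.mem_union, Set.mem_setOf_eq, not_or, not_not] at h2
  exact ha (hτ _ _ _ _ (h2.1.1 _ _ (hP a) (hP' _)) h2.1.2 h2.2)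

/-- `x, y` from `exists_link_inf`, `x', y'` from `hB`; `P a`, `P' b` the points with `x = a`,
`y = b`; `Q a`, `Q' b` their matches where they exist (junk elsewhere), `Q₀`, `Q₀'` the matches of
the poles (`Set2.match_of_prime`). `τ c m` from `Set2.exists_tau` for the prime of
`exists_link_inf`; `γ c m = (τ 1 0).symm.trans (τ c m)`. `h2`: `finite_not_link`. `h4`:
`Set2.finite_unmatched` for `Θ.symm`. `h5`: for `Δ(a, b) ≠ 0` the prime of `exists_link_disc` gives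
a `τ'` that agrees with `τ 1 (b - a)` on almost all points, so is equal (`PFC.aut_eq_one`); put in
`S` the `a` with `Δ(a, Y) = 0`, the unmatched ones and those with `(Q a).comap (τ 1 0) ≠ Q' a`. -/
theorem Set2.exists_first_coord (h : Set2 k l Θ) :
    ∃ (σ : k ≃+* l) (x : K) (s : L), GEN k x ∧ Coord Θ σ x s := by
  obtain ⟨x, y, hx, hy, hxy, ⟨O, hO, a1, a2⟩, ⟨O', hO', b1, b2⟩, hv⟩ := exists_link_inf h.hK
  obtain ⟨x', hx', hHx⟩ := h.hB x hx.1
  obtain ⟨y', hy', hHy⟩ := h.hB y hy.1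
  obtain ⟨P, P₀, Q, Q₀, hP, hP₀, hQ₀, hQ, hQr⟩ := coord_choice h hx hx' hHx O hO a1 a2
  obtain ⟨P', P₀', Q', Q₀', hP', hP₀', hQ₀', hQ', -⟩ := coord_choice h hy hy' hHy O' hO' b1 b2
  have key : ∀ (c : kˣ) (m : k), ∃ τ : ac l {y'} ≃ₐ[l] ac l {x'},
      Q₀.1.comap (τ : ac l {y'} →+* ac l {x'}) = Q₀'.1 ∧
      {a | (Q a).1.comap (τ : ac l {y'} →+* ac l {x'}) ≠ (Q' (c * a + m)).1}.Finite := by
    intro c m
    obtain ⟨v, v1, v2, v3, v4⟩ := hv c m c.ne_zero
    obtain ⟨τ, t1, t2⟩ := coord_tau h hx hy hx' hy' hHx hHy v1 v2 c.ne_zero v3 hP hP' hQ hQ'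
    exact ⟨τ, t1 _ _ _ _ (v4 _ _ hP₀ hP₀') hQ₀ hQ₀', t2⟩
  choose τ t1 t2 using key
  have t3 : {a | (Q a).1.comap (τ 1 0 : ac l {y'} →+* ac l {x'}) ≠ (Q' a).1}.Finite := by
    simpa using t2 1 0
  obtain ⟨Δ, hΔ, hd⟩ := exists_link_disc h.hK hxy hx hy
  have := h.hL.perf
  have := perfect_ac (k := l) ({x'} : Set L)
  have hF := PFC_ac h.hL.pf hx'
  have hinj : Set.InjOn Q {a | ¬ Match Θ (P a) (Q a)}ᶜ := fun a ha b hb e => by
    have h1 : Match Θ (P b) (Q a) := e ▸ not_not.1 hb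
    have h2 := Match.unique_left h hx.1 (not_not.1 ha) h1
    exact AtK.unique (hP a) (h2 ▸ hP b)
  have hS := (hQ.union t3).union (coord_root_left hΔ)
  have step : ∀ a b, Match Θ (P a) (Q a) → Match Θ (P' b) (Q' b) →
      MvPolynomial.eval ![a, b] Δ ≠ 0 →
      (Q a).1.comap (τ 1 (b - a) : ac l {y'} →+* ac l {x'}) = (Q' b).1 := by
    intro a b m1 m2 hab
    have e : 1 * a + (b - a) = b := by ring
    obtain ⟨v, v1, v2, v3, v4⟩ := hd a 1 (b - a) (by rwa [e])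
    obtain ⟨τ', s1, s2⟩ := coord_tau h hx hy hx' hy' hHx hHy v1 v2 one_ne_zero v3 hP hP' hQ hQ'
    have e2 : τ' = τ 1 (b - a) := by
      refine coord_tau_eq hF _ _ ?_
      have h1 := ((hQ.union s2).union (t2 1 (b - a))).infinite_compl
      refine (h1.image (hinj.mono (Set.compl_subset_compl.2
        fun z hz => Or.inl (Or.inl hz)))).mono ?_
      rintro _ ⟨z, hz, rfl⟩
      exact (not_not.1 fun h3 => hz (Or.inl (Or.inr h3))).trans
        (not_not.1 fun h3 => hz (Or.inr h3)).symm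
    rw [← e2]
    exact s1 _ _ _ _ (v4 _ _ (hP a) (e.symm ▸ hP' b)) m1 m2
  obtain ⟨σ, f, f1, f2, f3⟩ := exists_coordinate hF Q Q₀
    (fun c m => (τ 1 0).symm.trans (τ c m))
    (fun c m => coord_comap _ _ ((t1 c m).trans (t1 1 0).symm))
    (fun c m => by
      have h1 := t3.preimage (f := fun a => (c : k) * a + m)
        fun a _ b _ e => mul_left_cancel₀ c.ne_zero (add_right_cancel e)
      refine ((t2 c m).union h1).subset fun a ha => ?_
      by_contra h2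
      simp only [Set.mem_union, Set.mem_preimage, Set.mem_setOf_eq, not_or, not_not] at h2
      exact ha (coord_comap _ _ (h2.1.trans h2.2.symm)))
    _ hS (hinj.mono fun z hz h2 => hz (Or.inl (Or.inl h2))) hQr (fun a ha a' ha' => by
      simp only [Set.mem_union, Set.mem_setOf_eq, not_or, not_not] at ha ha'
      obtain ⟨b, hb⟩ := (((hS.union hQ').union (coord_root_right Δ ha.2)).union
        (coord_root_right Δ ha'.2)).infinite_compl.nonempty
      simp only [Set.mem_compl_iff, Set.mem_union, Set.mem_setOf_eq, not_or, not_not] at hb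
      refine ⟨b, by simpa only [Set.mem_union, Set.mem_setOf_eq, not_or, not_not] using hb.1.1.1,
        coord_comap _ _ ((step a b ha.1.1 hb.1.1.2 hb.1.2).trans hb.1.1.1.1.2.symm),
        coord_comap _ _ ((step a' b ha'.1.1 hb.1.1.2 hb.2).trans hb.1.1.1.1.2.symm)⟩)
  obtain ⟨g1, g2⟩ := GEN_of_pc_top hx' f f1 f2
  refine ⟨σ, x, f, hx, coord_of_pc_top hx' hHx f f1 f2 ((hQ.union f3).subset fun a ha => ?_)⟩
  by_contra h2
  simp only [Set.mem_union, Set.mem_setOf_eq, not_or, not_not] at h2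
  refine ha fun P₁ Q₁ p1 q1 => ?_
  rw [hx.eq_of_AtK p1 (hP a), coord_eq_of_AtK g1 g2 q1 ⟨f.2, h2.2⟩]
  exact h2.1

/-- the prime with `x` residually transcendental and a zero at `t - x`; `s' = τ.symm s` -/
theorem Set2.coord_transfer (h : Set2 k l Θ) {σ : k ≃+* l} {x t : K} {s : L} (hx : GEN k x)
    (hs : Coord Θ σ x s) (ht : GEN k t) (hi : AlgebraicIndependent k ![x, t]) :
    ∃ s' : L, Coord Θ σ t s' := by
  have h1 := indep_pair_symm (indep_lin' (indep_pair_symm hi) (-1))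
  obtain ⟨v, -, v1, v2, v3, -⟩ := exists_flag h.hK.dim h1
  have v4 : v.valuation (t - (algebraMap k K 1 * x + algebraMap k K 0)) < 1 := by
    simpa [sub_eq_add_neg] using v3
  obtain ⟨t', ht', hH⟩ := h.hB t ht.1
  obtain ⟨τ, hτ⟩ := h.exists_tau hx ht hs.1.1 ht' hs.2.1 hH v1 v2 one_ne_zero v4
  let f : ac l {t'} := τ.symm ⟨s, self_mem_ac s⟩
  have hf : τ f = ⟨s, self_mem_ac s⟩ := τ.apply_symm_apply _
  have f1 : Transcendental l f := fun h2 => by
    have h3 := h2.algHom ((ac l {s}).val.comp (τ : ac l {t'} →ₐ[l] ac l {s}))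
    rw [AlgHom.comp_apply, AlgEquiv.coe_algHom, hf] at h3
    exact hs.1.1 h3
  have f2 : pc l {f} = ⊤ := eq_top_iff.2 fun z _ => by
    rw [← algHom_mem_pc_iff (τ : ac l {t'} →ₐ[l] ac l {s}), Set.image_singleton,
      AlgEquiv.coe_algHom, hf, hs.1.pc_top]
    trivial
  obtain ⟨g1, g2⟩ := GEN_of_pc_top ht' f f1 f2
  refine ⟨f, coord_of_pc_top ht' hH f f1 f2 ((((finite_not_link h.hK hx ht v1 v2 one_ne_zero
    v4).union hs.2.2).union (coord_fin t (h.finite_unmatched ht.1 ht' hH))).subset fun a ha => ?_)⟩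
  by_contra h2
  simp only [Set.mem_union, Set.mem_setOf_eq, not_or, not_not] at h2
  refine ha fun P' R p1 q1 => ?_
  obtain ⟨P, hP⟩ := exists_AtK hx.1 a
  obtain ⟨Q, hQ⟩ := exists_AtK hs.1.1 (σ a)
  obtain ⟨Q', hQ'⟩ : ∃ Q' : Pt l (ac l {t'}), Match Θ P' Q' := by
    by_contra h3
    exact h2.2 ⟨P', h3, p1⟩
  have e := hτ P P' Q Q' (h2.1.1 _ _ hP (by rwa [one_mul, add_zero])) (h2.1.2 _ _ hP hQ) hQ'
  have h4 : At l Q'.1 f (σ a) := by
    obtain ⟨_, hQ⟩ := hQ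
    rw [At, ← e, comap_val_lt_one, map_sub, RingHom.coe_coe, hf, AlgEquiv.commutes]
    exact hQ
  rw [coord_eq_of_AtK g1 g2 q1 ⟨f.2, h4⟩]
  exact hQ'

theorem Set2.exists_coord (h : Set2 k l Θ) :
    ∃ σ : k ≃+* l, ∀ t : K, GEN k t → ∃ s : L, Coord Θ σ t s := by
  obtain ⟨σ, x, s, hx, hs⟩ := h.exists_first_coord
  refine ⟨σ, fun t ht => ?_⟩
  by_cases h1 : t ∈ ac k {x}
  · have := h.hK.perf
    obtain ⟨y, hy, hxy⟩ := exists_GEN_indep h.hK.pf h.hK.dim.ge hx.1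
    obtain ⟨s', hs'⟩ := h.coord_transfer hx hs hy hxy
    refine h.coord_transfer hy hs' ht (indep_pair_symm (indep_pair_iff.2 ⟨ht.1, ?_⟩))
    rw [ac_eq_of_mem h1 ht.1]
    exact (indep_pair_iff.1 hxy).2
  · exact h.coord_transfer hx hs ht (indep_pair_iff.2 ⟨hx.1, h1⟩)

end Vale.Agent.P019
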