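import Vale.Agent.P019.AB

open scoped IntermediateField
open Polynomial

namespace Vale.Agent.P019

theorem gal1_int {M : Type*} [Field M] (O : ValuationSubring M) {x : M} (h : IsIntegral O x) :
    x ∈ O := by
  obtain ⟨y, rfl⟩ := IsIntegrallyClosed.isIntegral_iff.1 h
  exact y.2

theorem gal1_map {M R : Type*} [CommRing M] [CommRing R] (φ : R →+* M) {S : Type*} [Fintype S]
    (w : S → R) : ∏ s, (X - C (φ (w s))) = (∏ s, (X - C (w s))).map φ := by
  simp [Polynomial.map_prod]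

theorem pattern_int {M : Type*} [Field M] (O : ValuationSubring M) {S : Type*} [Fintype S]
    (w : S → M) : (∀ s, w s ∈ O) ↔ ∀ j, (∏ s, (X - C (w s))).coeff j ∈ O := by
  refine ⟨fun h j => ?_, fun h s => gal1_int O ?_⟩
  · rw [show w = fun s => O.subtype ⟨w s, h s⟩ from rfl, gal1_map, coeff_map]
    exact Subtype.prop _
  · obtain ⟨q, h1, -, h2⟩ := lifts_and_natDegree_eq_and_monic ((lifts_iff_coeff_lifts
      (f := algebraMap O M) (∏ s, (X - C (w s)))).2 fun j => ⟨⟨_, h j⟩, rfl⟩) (monic_prod_X_sub_C w Finset.univ)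
    refine ⟨q, h2, ?_⟩
    rw [← eval_map, h1, eval_prod]
    exact Finset.prod_eq_zero (Finset.mem_univ s) (by simp)

open Classical in
/-- reduce modulo the maximal ideal: the order of vanishing at `0` -/
theorem pattern_card {M : Type*} [Field M] (O : ValuationSubring M) {S : Type*} [Fintype S]
    (w : S → M) (hw : ∀ s, w s ∈ O) (n : ℕ) :
    (Finset.univ.filter fun s => O.valuation (w s) < 1).card = n ↔
      O.valuation ((∏ s, (X - C (w s))).coeff n) = 1 ∧
        ∀ j < n, O.valuation ((∏ s, (X - C (w s))).coeff j) < 1 := by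
  lift w to S → O using hw
  set q := ∏ s, (X - C (IsLocalRing.residue O (w s))) with hq
  have q0 : q ≠ 0 := (monic_prod_X_sub_C _ _).ne_zero
  have h1 : ∀ j, res O ((∏ s, (X - C (w s : M))).coeff j) = q.coeff j := fun j => by
    rw [hq, gal1_map, coeff_map, ← res_coe]
    exact congrArg _ (by rw [← O.subtype_apply, ← coeff_map, ← gal1_map]; rfl)
  have h2 := (pattern_int O fun s => (w s : M)).1 fun s => (w s).2
  have h3 : (Finset.univ.filter fun s => O.valuation (w s : M) < 1).card = q.natTrailingDegree := by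
    rw [← rootMultiplicity_eq_natTrailingDegree', ← count_roots, hq, Finset.prod,
      ← Function.comp_def (fun a => X - C a), ← Multiset.map_map, roots_multiset_prod_X_sub_C,
      Multiset.count_map]
    exact congrArg _ (Multiset.filter_congr fun s _ => by
      rw [← res_eq_zero_iff O (w s).2, res_coe, eq_comm])
  simp only [← res_ne_zero_iff, ← res_eq_zero_iff O (h2 _), h1, h3]
  constructor
  · rintro rfl
    exact ⟨mt trailingCoeff_eq_zero.1 q0, fun j => coeff_eq_zero_of_lt_natTrailingDegree⟩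
  · exact fun h => le_antisymm (natTrailingDegree_le_of_ne_zero h.1) (le_natTrailingDegree q0 h.2)

/-- Newton polygon: a value taken by exactly one root is a quotient of values of two consecutive
coefficients. -/
theorem pattern_single {M : Type*} [Field M] (O : ValuationSubring M) {S : Type*} [Fintype S]
    (w : S → M) (s₀ : S) (h0 : w s₀ ≠ 0) (h : ∀ s, s ≠ s₀ → O.valuation (w s) ≠ O.valuation (w s₀)) :
    ∃ j, (∏ s, (X - C (w s))).coeff (j + 1) ≠ 0 ∧ O.valuation (w s₀) =
      O.valuation ((∏ s, (X - C (w s))).coeff j / (∏ s, (X - C (w s))).coeff (j + 1)) := by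
  classical
  have key : ∀ s, ∃ (u : M) (f : O[X]) (e : ℕ), u ≠ 0 ∧
      (X - C (w s)).comp (C (w s₀) * X) = C u * f.map O.subtype ∧
      f.map (IsLocalRing.residue O) = if s = s₀ then X - 1 else X ^ e := fun s => by
    rcases eq_or_ne s s₀ with rfl | hs
    · exact ⟨w s, X - 1, 0, h0, by simp [mul_sub], by simp⟩
    have v0 := zero_lt_iff.2 ((_root_.map_ne_zero O.valuation).2 h0)
    rcases (h s hs).lt_or_gt with h1 | h1
    · have h2 : O.valuation (w s / w s₀) < 1 := by rwa [map_div₀, div_lt_one₀ v0]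
      have h3 := (O.valuation_le_one_iff _).1 h2.le
      refine ⟨w s₀, X - C ⟨_, h3⟩, 1, h0, by simp [mul_sub, ← C_mul, mul_div_cancel₀ _ h0], ?_⟩
      simp [hs, ← res_coe, (res_eq_zero_iff O h3).2 h2]
    · have h2 : O.valuation (w s₀ / w s) < 1 := by rwa [map_div₀, div_lt_one₀ (v0.trans h1)]
      have h3 := (O.valuation_le_one_iff _).1 h2.le
      have h4 : w s ≠ 0 := (_root_.map_ne_zero O.valuation).1 (v0.trans h1).ne'
      refine ⟨-w s, 1 - C ⟨_, h3⟩ * X, 0, neg_ne_zero.2 h4, ?_, ?_⟩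
      · simp [mul_sub, ← mul_assoc, ← C_mul, mul_div_cancel₀ _ h4, neg_add_eq_sub]
      · simp [hs, ← res_coe, (res_eq_zero_iff O h3).2 h2]
  choose u f e h1 h2 h3 using key
  have h4 : (∏ s, f s).map (IsLocalRing.residue O) = (X - 1) * X ^ ∑ s ∈ Finset.univ.erase s₀, e s := by
    rw [Polynomial.map_prod, ← Finset.mul_prod_erase _ _ (Finset.mem_univ s₀), h3, if_pos rfl,
      ← Finset.prod_pow_eq_pow_sum]
    exact congrArg _ (Finset.prod_congr rfl fun s hs => by rw [h3, if_neg (Finset.ne_of_mem_erase hs)])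
  have h5 : ∀ j, (∏ s, (X - C (w s))).coeff j * w s₀ ^ j = (∏ s, u s) * (∏ s, f s).coeff j :=
    fun j => by
      rw [← comp_C_mul_X_coeff, Polynomial.prod_comp, Finset.prod_congr rfl fun s _ => h2 s,
        Finset.prod_mul_distrib, ← map_prod, ← Polynomial.map_prod, coeff_C_mul, coeff_map]
      rfl
  generalize ∑ s ∈ Finset.univ.erase s₀, e s = j at h4
  have h6 : ∀ i, (X - 1 : (Res O)[X]).coeff i ≠ 0 → O.valuation ((∏ s, (X - C (w s))).coeff (i + j) *
      w s₀ ^ (i + j)) = O.valuation (∏ s, u s) := fun i hi => by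
    rw [h5, map_mul, (res_ne_zero_iff O ((∏ s, f s).coeff (i + j))).1 (by rwa [res_coe, ← coeff_map, h4, coeff_mul_X_pow]),
      mul_one]
  have a0 := h6 0 (by simp)
  have a1 := h6 1 (by simp [coeff_one])
  rw [zero_add] at a0
  rw [add_comm] at a1
  have a2 : (∏ s, (X - C (w s))).coeff (j + 1) ≠ 0 := fun e => Finset.prod_ne_zero_iff.2
    (fun s _ => h1 s) ((_root_.map_eq_zero O.valuation).1 (by rw [← a1, e, zero_mul, map_zero]))
  refine ⟨j, a2, ?_⟩
  rw [← a0, pow_succ', ← mul_assoc, map_mul, map_mul, map_mul] at a1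
  rw [map_div₀, ← mul_right_cancel₀ ((_root_.map_ne_zero _).2 (pow_ne_zero j h0)) a1,
    mul_div_cancel_left₀ _ ((_root_.map_ne_zero _).2 a2)]

theorem gal1_unit {M : Type*} [Field M] (𝒮 : Finset (ValuationSubring M)) (a : M) :
    ∃ b : M, ∀ O ∈ 𝒮, (a ∈ O → O.valuation b = 1) ∧ (a ∉ O → O.valuation b < 1) := by
  have key : ∀ O : ValuationSubring M, ∃ g : ℤ[X], g.Monic ∧ ∀ f : ℤ[X], f.Monic →
      O.valuation (aeval a f) < 1 → O.valuation (aeval a g) < 1 := fun O => by
    by_cases H : ∃ f : ℤ[X], f.Monic ∧ O.valuation (aeval a f) < 1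
    · exact H.imp fun g hg => ⟨hg.1, fun _ _ _ => hg.2⟩
    · exact ⟨1, monic_one, fun f h1 h2 => absurd ⟨f, h1, h2⟩ H⟩
  choose g g1 g2 using key
  have m1 : (X * ∏ O ∈ 𝒮, g O).Monic := monic_X.mul (monic_prod_of_monic _ _ fun O _ => g1 O)
  have d1 : 0 < (X * ∏ O ∈ 𝒮, g O).natDegree := by
    rw [natDegree_X_mul (monic_prod_of_monic _ _ fun O _ => g1 O).ne_zero]; omega
  have m2 : (X * ∏ O ∈ 𝒮, g O + C 1).Monic :=
    m1.add_of_left (degree_C_le.trans_lt (natDegree_pos_iff_degree_pos.1 d1))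
  refine ⟨(aeval a (X * ∏ O ∈ 𝒮, g O + C 1))⁻¹, fun O hO => ⟨fun ha => ?_, fun ha => ?_⟩⟩
  · classical
    have h1 : ∀ f : ℤ[X], O.valuation (aeval a f) ≤ 1 := fun f => (O.valuation_le_one_iff _).2 (by
      rw [show a = algebraMap O M ⟨a, ha⟩ from rfl, aeval_algebraMap_apply]
      exact Subtype.prop _)
    rw [map_inv₀, inv_eq_one]
    refine (h1 _).antisymm (not_lt.1 fun h => h.ne ?_)
    rw [map_add, aeval_C, map_one, add_comm]
    refine O.valuation.map_one_add_of_lt ?_
    rw [← Finset.mul_prod_erase _ _ hO, mul_left_comm, map_mul (aeval a), map_mul]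
    exact mul_lt_one_of_lt_of_le (g2 O _ m2 h) (h1 _)
  · rw [map_inv₀]
    refine inv_lt_one_of_one_lt₀ (not_le.1 fun h => ha (gal1_int O (IsIntegral.of_aeval_monic
      (m2.map (algebraMap ℤ O)) (by rw [m2.natDegree_map, natDegree_add_C]; exact d1.ne') ?_)))
    rw [aeval_map_algebraMap]
    exact isIntegral_algebraMap (x := (⟨_, (O.valuation_le_one_iff _).1 h⟩ : O))

/-- Approximation. For `O' ≠ O` take `a ∈ O \ O'` and a root of unity `c` of prime order `r`
(`r > 𝒮.card`, different from all residue characteristics) with residue different from that of `a`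
wherever `a` is integral; `1/(a - c)` is integral everywhere, a unit at `O`, a nonunit at `O'`.
Take the product. -/
theorem exists_approx (k : Type*) {M : Type*} [Field k] [Field M] [Algebra k M] [IsAlgClosed k]
    (𝒮 : Finset (ValuationSubring M)) (h : ∀ O₁ ∈ 𝒮, ∀ O₂ ∈ 𝒮, O₁ ≤ O₂ → O₁ = O₂)
    {O : ValuationSubring M} (hO : O ∈ 𝒮) :
    ∃ b : M, O.valuation b = 1 ∧ ∀ O' ∈ 𝒮, O' ≠ O → O'.valuation b < 1 := by
  classical
  have key : ∀ O' ∈ 𝒮.erase O, ∃ b : M, O.valuation b = 1 ∧ O'.valuation b < 1 ∧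
      ∀ O'' ∈ 𝒮, O''.valuation b ≤ 1 := fun O' hO' => by
    obtain ⟨h1, h2⟩ := Finset.mem_erase.1 hO'
    obtain ⟨a, a1, a2⟩ := SetLike.not_le_iff_exists.1 fun e => h1 (h O hO O' h2 e).symm
    obtain ⟨b, hb⟩ := gal1_unit 𝒮 a
    exact ⟨b, (hb O hO).1 a1, (hb O' h2).2 a2, fun O'' h3 => (em (a ∈ O'')).elim
      (fun e => ((hb _ h3).1 e).le) fun e => ((hb _ h3).2 e).le⟩
  choose! b b1 b2 b3 using key
  refine ⟨∏ O' ∈ 𝒮.erase O, b O', by rw [map_prod, Finset.prod_eq_one b1], fun O' h1 h2 => ?_⟩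
  have h3 := Finset.mem_erase.2 ⟨h2, h1⟩
  rw [map_prod, ← Finset.mul_prod_erase _ _ h3]
  exact mul_lt_one_of_lt_of_le (b2 _ h3)
    (Finset.prod_le_one' fun i hi => b3 i (Finset.mem_of_mem_erase hi) _ h1)

variable {E M : Type*} [Field E] [Field M] [Algebra E M] [FiniteDimensional E M] [IsGalois E M]

theorem gal1_poly {S : Type*} [Fintype S] (w : S → M)
    (h : ∀ g : M ≃ₐ[E] M, ∃ e : S ≃ S, ∀ s, g (w s) = w (e s)) :
    ∃ p : E[X], p.map (algebraMap E M) = ∏ s, (X - C (w s)) := by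
  refine (mem_lifts _).1 ((lifts_iff_coeff_lifts _).2 fun j =>
    (IsGalois.mem_range_algebraMap_iff_fixed _).2 fun g => ?_)
  obtain ⟨e, he⟩ := h g
  rw [← RingHom.coe_coe, ← coeff_map, ← gal1_map, ← e.prod_comp fun s => X - C (w s)]
  simp only [RingHom.coe_coe, he]

theorem exists_poly_emb {K : Type*} [Field K] [Algebra E K] [Fintype (K →ₐ[E] M)] (θ : K) :
    ∃ p : E[X], p.map (algebraMap E M) = ∏ τ : K →ₐ[E] M, (X - C (τ θ)) := gal1_poly _ fun g => ⟨AlgEquiv.arrowCongr .refl g, fun _ => rfl⟩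

omit [FiniteDimensional E M] [IsGalois E M] in
theorem gal1_comap (O : ValuationSubring M) (g : M ≃ₐ[E] M) :
    (O.comap (g : M →+* M)).comap (algebraMap E M) = O.comap (algebraMap E M) := by
  ext x
  simp [ValuationSubring.mem_comap]

variable (k : Type*) [Field k] [Algebra k E] [Algebra k M] [IsScalarTower k E M] [IsAlgClosed k]
include k

/-- If not conjugate, take `b` a unit at `O₂` and a nonunit at all conjugates of `O₁`; the lower
coefficients of `∏ g, (X - g b)` are nonunits in `E`, so `b` is a nonunit at `O₂`. -/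
theorem exists_conj {O₁ O₂ : ValuationSubring M}
    (h : O₁.comap (algebraMap E M) = O₂.comap (algebraMap E M)) :
    ∃ g : M ≃ₐ[E] M, O₂ = O₁.comap (g : M →+* M) := by
  classical
  by_contra H
  have hc : ∀ O ∈ insert O₂ (Finset.univ.image fun g : M ≃ₐ[E] M => O₁.comap (g : M →+* M)),
      O.comap (algebraMap E M) = O₁.comap (algebraMap E M) := fun O hO => by
    rcases Finset.mem_insert.1 hO with rfl | hO
    · exact h.symm
    · obtain ⟨g, -, rfl⟩ := Finset.mem_image.1 hO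
      exact gal1_comap O₁ g
  obtain ⟨b, b1, b2⟩ := exists_approx k _ (fun O hO O' hO' e =>
    eq_of_le_of_comap_eq (F := E) e ((hc O hO).trans (hc O' hO').symm)) (Finset.mem_insert_self _ _)
  have h1 : ∀ g : M ≃ₐ[E] M, O₁.valuation (g b) < 1 := fun g =>
    (comap_val_lt_one (g : M →+* M) O₁ b).1 (b2 _ (Finset.mem_insert_of_mem
      (Finset.mem_image_of_mem _ (Finset.mem_univ g))) fun e => H ⟨g, e.symm⟩)
  obtain ⟨p, hp⟩ := gal1_poly (E := E) (fun g : M ≃ₐ[E] M => g b) fun g =>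
    ⟨Equiv.mulLeft g, fun _ => rfl⟩
  have h2 := fun g => (O₁.valuation_le_one_iff _).1 (h1 g).le
  have h3 := (pattern_int O₁ _).1 h2
  have h4 := (pattern_card O₁ _ h2 _).1 rfl
  rw [Finset.filter_true_of_mem fun g _ => h1 g] at h4
  have e1 : ∀ x, algebraMap E M x ∈ O₁ ↔ algebraMap E M x ∈ O₂ := SetLike.ext_iff.1 h
  have e2 : ∀ x, O₁.valuation (algebraMap E M x) < 1 ↔ O₂.valuation (algebraMap E M x) < 1 :=
    fun x => by rw [← comap_val_lt_one, h, comap_val_lt_one]
  have e3 : ∀ x, O₁.valuation (algebraMap E M x) = 1 ↔ O₂.valuation (algebraMap E M x) = 1 :=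
    fun x => by rw [← comap_val_eq_one, h, comap_val_eq_one]
  simp only [← hp, coeff_map, e1, e2, e3] at h3 h4
  simp only [← coeff_map, hp] at h3 h4
  have h5 := (pattern_card O₂ _ ((pattern_int O₂ _).2 h3) _).2 h4
  exact (Finset.card_filter_eq_iff.1 h5 1 (Finset.mem_univ _)).ne b1

/-- Decomposition field. Let `Z` be the stabilizer of `O`, `D` its fixed field. For `g ∉ Z` the
restrictions to `D` of `O` and `O.comap g` differ (`exists_conj` over `D`). Take `b ∈ D` from
`exists_approx` in `D`; for a suitable `n`, `z b ^ n` has a value different from the values of its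
other conjugates; apply `pattern_single` and `exists_poly_emb` with `K = D`. -/
theorem val_of_fixed (O : ValuationSubring M) {z : M} (h0 : z ≠ 0)
    (hz : ∀ g : M ≃ₐ[E] M, O.comap (g : M →+* M) = O → g z = z) :
    ∃ e : E, O.valuation z = O.valuation (algebraMap E M e) := by
  classical
  let Z : Subgroup (M ≃ₐ[E] M) :=
    { carrier := {g | ∀ x, g x ∈ O ↔ x ∈ O}
      mul_mem' := fun ha hb x => (ha _).trans (hb x)
      one_mem' := fun _ => Iff.rfl
      inv_mem' := fun {g} ha x => by simpa using (ha (g⁻¹ x)).symm }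
  have hZ : ∀ g : M ≃ₐ[E] M, O.comap (g : M →+* M) = O ↔ g ∈ Z := fun g => SetLike.ext_iff
  obtain ⟨a, a1, a2⟩ := exists_approx k
    (Finset.univ.image fun g : M ≃ₐ[E] M => O.comap (g : M →+* M)) (O := O) (fun O₁ h1 O₂ h2 e => by
      obtain ⟨g, -, rfl⟩ := Finset.mem_image.1 h1
      obtain ⟨g', -, rfl⟩ := Finset.mem_image.1 h2
      exact eq_of_le_of_comap_eq (F := E) e ((gal1_comap O g).trans (gal1_comap O g').symm))
    (Finset.mem_image.2 ⟨1, Finset.mem_univ _, (hZ 1).2 Z.one_mem⟩)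
  have a0 : a ≠ 0 := basic_ne_zero a1
  obtain ⟨b, hb⟩ : ∃ b, b = ∏ h : Z, h.1 a := ⟨_, rfl⟩
  have b0 : b ≠ 0 := hb ▸ Finset.prod_ne_zero_iff.2 fun h _ => (_root_.map_ne_zero _).2 a0
  have b1 : O.valuation b = 1 := by
    rw [hb, map_prod]
    exact Finset.prod_eq_one fun h _ => (comap_val_eq_one (h.1 : M →+* M) O a).1
      (((hZ _).2 h.2).symm ▸ a1)
  have b2 : ∀ g ∈ Z, g b = b := fun g hg => by
    rw [hb, map_prod]
    exact Equiv.prod_comp (Equiv.mulLeft (⟨g, hg⟩ : Z)) fun h => h.1 a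
  have b3 : ∀ g ∉ Z, O.valuation (g b) < 1 := fun g hg => by
    have : ∀ h : Z, O.valuation (g (h.1 a)) < 1 := fun h =>
      (comap_val_lt_one ((g * h.1 : M ≃ₐ[E] M) : M →+* M) O a).1 (a2 _ (Finset.mem_image_of_mem _
        (Finset.mem_univ _)) fun e => hg ((Z.mul_mem_cancel_right h.2).1 ((hZ _).1 e)))
    rw [hb, map_prod, map_prod, ← Finset.mul_prod_erase _ _ (Finset.mem_univ 1)]
    exact mul_lt_one_of_lt_of_le (this 1) (Finset.prod_le_one' fun h _ => (this h).le)
  obtain ⟨n, hn⟩ := (Set.toFinite {g | g ∉ Z}).biUnion (t := fun g =>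
    {n : ℕ | O.valuation (g z) * O.valuation (g b) ^ n = O.valuation z}) (fun g hg =>
      Set.Subsingleton.finite fun i hi j hj => pow_right_injective₀
        (zero_lt_iff.2 ((_root_.map_ne_zero _).2 ((_root_.map_ne_zero g).2 b0))) (b3 g hg).ne
        (mul_left_cancel₀ ((_root_.map_ne_zero _).2 ((_root_.map_ne_zero g).2 h0)) (hi.trans hj.symm))) |>.exists_notMem
  have e1 : O.valuation (z * b ^ n) = O.valuation z := by rw [map_mul, map_pow, b1, one_pow, mul_one]
  have : Fintype (MulAction.orbit (M ≃ₐ[E] M) (z * b ^ n)) := (Set.finite_range _).fintype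
  obtain ⟨p, hp⟩ := gal1_poly (E := E) (fun s : MulAction.orbit (M ≃ₐ[E] M) (z * b ^ n) => s.1)
    fun g => ⟨MulAction.toPerm g, fun _ => rfl⟩
  obtain ⟨j, -, hj⟩ := pattern_single O (fun s : MulAction.orbit (M ≃ₐ[E] M) (z * b ^ n) => s.1)
    ⟨_, MulAction.mem_orbit_self _⟩ (mul_ne_zero h0 (pow_ne_zero n b0)) (by
      rintro ⟨_, g, rfl⟩ h1 h2
      by_cases hg : g ∈ Z
      · exact h1 (Subtype.ext (by simp [hz g ((hZ g).2 hg), b2 g hg]))
      · exact hn (Set.mem_biUnion hg (by simpa [b1] using h2)))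
  exact ⟨p.coeff j / p.coeff (j + 1), by rw [← e1, hj, ← hp, coeff_map, coeff_map, map_div₀ (algebraMap E M)]⟩

end Vale.Agent.P019
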