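import Vale.Agent.P019.GV
import Vale.Agent.P019.Gal1

open scoped IntermediateField

namespace Vale.Agent.P019

noncomputable section

variable {κ G : Type*} [Field κ] [Field G] [Algebra κ G]

/-- uniformizer -/
def IsUnif (O : ValuationSubring G) (π : G) : Prop :=
  π ≠ 0 ∧ O.valuation π < 1 ∧ ∀ g : G, O.valuation g < 1 → O.valuation g ≤ O.valuation π

open Classical in
/-- order of vanishing (junk value `0`, in particular at `f = 0`) -/
def ord (O : ValuationSubring G) (f : G) : ℤ :=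
  if h : ∃ n : ℤ, ∃ π : G, IsUnif O π ∧ O.valuation f = O.valuation π ^ n then h.choose else 0

theorem curvea_pos {O : ValuationSubring G} {π : G} (hπ : IsUnif O π) : 0 < O.valuation π :=
  zero_lt_iff.2 ((map_ne_zero _).2 hπ.1)

theorem ord_zero (O : ValuationSubring G) : ord O 0 = 0 := by
  unfold ord
  rw [dif_neg]
  rintro ⟨n, π, hπ, h⟩
  rw [map_zero] at h
  exact zpow_ne_zero n (curvea_pos hπ).ne' h.symm

theorem ord_eq {O : ValuationSubring G} {π f : G} (hπ : IsUnif O π) {n : ℤ}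
    (h : O.valuation f = O.valuation π ^ n) : ord O f = n := by
  have h1 : ∃ n : ℤ, ∃ π : G, IsUnif O π ∧ O.valuation f = O.valuation π ^ n := ⟨n, π, hπ, h⟩
  unfold ord
  rw [dif_pos h1]
  obtain ⟨π', h2, h3⟩ := h1.choose_spec
  rw [le_antisymm (hπ.2.2 π' h2.2.1) (h2.2.2 π hπ.2.1)] at h3
  exact (zpow_right_inj₀ (curvea_pos hπ) hπ.2.1.ne).1 (h3.symm.trans h)

theorem ord_comap {G' : Type*} [Field G'] (φ : G ≃+* G') (O : ValuationSubring G') (f : G) :
    ord (O.comap (φ : G →+* G')) f = ord O (φ f) := by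
  have h1 : ∀ π : G, IsUnif (O.comap (φ : G →+* G')) π ↔ IsUnif O (φ π) := by
    intro π
    refine and_congr (map_ne_zero φ).symm (and_congr (comap_val_lt_one _ O π) ⟨fun h g hg => ?_,
      fun h g hg => ?_⟩)
    · obtain ⟨g, rfl⟩ := φ.surjective g
      exact (comap_val_le _ O g π).1 (h g ((comap_val_lt_one _ O g).2 hg))
    · exact (comap_val_le _ O g π).2 (h _ ((comap_val_lt_one _ O g).1 hg))
  have h2 : ∀ (π : G) (n : ℤ), (O.comap (φ : G →+* G')).valuation f =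
      (O.comap (φ : G →+* G')).valuation π ^ n ↔ O.valuation (φ f) = O.valuation (φ π) ^ n := by
    intro π n
    rw [← map_zpow₀, ← map_zpow₀, comap_val_eq, map_zpow₀ (φ : G →+* G')]
    rfl
  by_cases h : ∃ n : ℤ, ∃ π : G', IsUnif O π ∧ O.valuation (φ f) = O.valuation π ^ n
  · obtain ⟨n, π, a1, a2⟩ := h
    obtain ⟨π, rfl⟩ := φ.surjective π
    rw [ord_eq a1 a2, ord_eq ((h1 π).2 a1) ((h2 π n).2 a2)]
  · unfold ord
    rw [dif_neg h, dif_neg]
    rintro ⟨n, π, a1, a2⟩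
    exact h ⟨n, φ π, (h1 π).1 a1, (h2 π n).1 a2⟩

variable (κ G) in
theorem curvea_ess [h : IsCurve κ G] : Algebra.EssFiniteType κ G := by
  obtain ⟨t, -, h1⟩ := h.ex
  have : Algebra.EssFiniteType κ κ⟮t⟯ := IntermediateField.essFiniteType_iff.2 ⟨{t}, by simp⟩
  exact Algebra.EssFiniteType.comp κ κ⟮t⟯ G

variable (κ G) in
theorem curvea_trdeg [h : IsCurve κ G] : Algebra.trdeg κ G = 1 := by
  obtain ⟨t, ht, h1⟩ := h.ex
  have h2 := trdeg_eq_of_indep (y := fun _ : Unit => t) (algebraicIndependent_unique_type_iff.2 ht)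
    (eq_top_iff.2 fun x _ => by
      rw [Set.range_const]
      exact mem_ac.2 (Algebra.IsAlgebraic.isAlgebraic x))
  simpa using h2

theorem IsCurve.finite [IsCurve κ G] {f : G} (hf : Transcendental κ f) :
    FiniteDimensional κ⟮f⟯ G := by
  have := curvea_ess κ G
  have : Algebra.EssFiniteType κ⟮f⟯ G := Algebra.EssFiniteType.of_comp κ _ _
  have := isAlgebraic_of_trdeg_one (curvea_trdeg κ G).le hf
  exact Algebra.finite_of_essFiniteType_of_isAlgebraic

theorem IsCurve.trdeg [IsCurve κ G] : Algebra.trdeg κ G = 1 := curvea_trdeg κ G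

theorem IsCurve.pfc [IsCurve κ G] : PFC κ G :=
  have := curvea_ess κ G
  ⟨PF.of_fg (IntermediateField.fg_top κ G), curvea_trdeg κ G⟩

theorem isCurve_adjoin (S : Finset G) (hd : Algebra.trdeg κ G ≤ 1) {t : G} (ht : t ∈ S)
    (htr : Transcendental κ t) : IsCurve κ (IntermediateField.adjoin κ (S : Set G)) := by
  let t' : IntermediateField.adjoin κ (S : Set G) := ⟨t, IntermediateField.subset_adjoin _ _ ht⟩
  have h1 : Transcendental κ t' := fun h => htr ((IntermediateField.isAlgebraic_iff (x := t')).1 h)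
  have : Algebra.EssFiniteType κ (IntermediateField.adjoin κ (S : Set G)) :=
    IntermediateField.essFiniteType_iff.2 ⟨S, rfl⟩
  have : Algebra.EssFiniteType κ⟮t'⟯ (IntermediateField.adjoin κ (S : Set G)) :=
    Algebra.EssFiniteType.of_comp κ _ _
  have := isAlgebraic_of_trdeg_one ((trdeg_le_of_injective
    (IntermediateField.adjoin κ (S : Set G)).val Subtype.val_injective).trans hd) h1
  exact ⟨t', h1, Algebra.finite_of_essFiniteType_of_isAlgebraic⟩

variable [IsAlgClosed κ] [IsCurve κ G]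

/-- With `v π₀ < 1` and `n = [G : κ(π₀)]`, every `f ≠ 0` has `v (f ^ n!) = v (π₀ ^ m)`
(`val_pow_of_isAlgebraic`, `val_adjoin`), so the value group embeds in `ℤ`. -/
theorem Pt.exists_unif (P : Pt κ G) :
    ∃ π : G, IsUnif P.1 π ∧ ∀ f : G, f ≠ 0 → P.1.valuation f = P.1.valuation π ^ ord P.1 f := by
  classical
  obtain ⟨π₀, h0, h1⟩ := gv_exists_lt P.2.1
  have hpos : 0 < P.1.valuation π₀ := zero_lt_iff.2 ((map_ne_zero _).2 h0)
  have hc : ∀ c : κ, P.1.valuation (algebraMap κ G c) < 1 → c = 0 := fun c hc => by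
    by_contra hc0
    exact hc.ne (val_const_eq_one P.2.2 hc0)
  have hI : Inf κ P.1 π₀ := ⟨h0, h1, fun c h2 n => by
    rw [hc c h2, map_zero, map_zero]
    exact pow_pos hpos n⟩
  have htr : Transcendental κ π₀ := transcendental_iff.2 fun ⟨c, e⟩ =>
    h0 (by rw [← e, hc c (e ▸ h1), map_zero])
  have := IsCurve.finite htr
  have hR : RInd κ P.1 (Fin.elim0 : Fin 0 → G) :=
    ⟨fun i => i.elim0, algebraicIndependent_empty_type⟩
  obtain ⟨D, hD, hv⟩ : ∃ D : ℕ, 0 < D ∧ ∀ f : G, f ≠ 0 → ∃ m : ℤ,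
      P.1.valuation f ^ D = P.1.valuation π₀ ^ m := by
    refine ⟨(Module.finrank κ⟮π₀⟯ G).factorial, Nat.factorial_pos _, fun f hf => ?_⟩
    obtain ⟨N, c, hN, hN', e⟩ := val_pow_of_isAlgebraic (O := P.1)
      (Algebra.IsAlgebraic.isAlgebraic (R := κ⟮π₀⟯) f) hf
    have hc0 : (c : G) ≠ 0 := by
      intro h2
      have h3 : algebraMap κ⟮π₀⟯ G c = 0 := h2
      rw [h3, map_zero, map_eq_zero] at e
      exact pow_ne_zero _ hf e
    obtain ⟨c', m, hc', e2⟩ := val_adjoin hR hI.vind (z := (c : G)) (by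
      rw [Set.range_eq_empty, Set.empty_union, Set.range_const]
      exact c.2) hc0
    rw [Finset.univ_unique, Finset.prod_singleton, map_mul, map_zpow₀,
      val_const_eq_one P.2.2 hc', one_mul] at e2
    obtain ⟨r, hr⟩ := Nat.dvd_factorial hN (hN'.trans (minpoly.natDegree_le f))
    refine ⟨m default * r, ?_⟩
    rw [hr, pow_mul, ← map_pow, e, zpow_mul, zpow_natCast, ← e2]
    rfl
  have hex : ∃ m : ℕ, 0 < m ∧ ∃ f : G, f ≠ 0 ∧ P.1.valuation f ^ D = P.1.valuation π₀ ^ (m : ℤ) :=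
    ⟨D, hD, π₀, h0, (zpow_natCast _ _).symm⟩
  obtain ⟨hm, π, hπ0, hπ⟩ := Nat.find_spec hex
  have hmin : ∀ (f : G) (m : ℤ), f ≠ 0 → P.1.valuation f ^ D = P.1.valuation π₀ ^ m → 0 < m →
      (Nat.find hex : ℤ) ≤ m := by
    intro f m hf e hm
    lift m to ℕ using hm.le
    exact Int.ofNat_le.2 (Nat.find_min' hex ⟨Int.natCast_pos.1 hm, f, hf, e⟩)
  generalize Nat.find hex = m₀ at hm hπ hmin
  have hU : IsUnif P.1 π := by
    refine ⟨hπ0, ?_, fun g hg => ?_⟩
    · rw [← pow_lt_one_iff_of_nonneg zero_le hD.ne', hπ, zpow_lt_one_iff_right_of_lt_one₀ hpos h1]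
      exact Int.natCast_pos.2 hm
    · rcases eq_or_ne g 0 with rfl | hg0
      · rw [map_zero]
        exact zero_le
      obtain ⟨m, e⟩ := hv g hg0
      rw [← pow_lt_one_iff_of_nonneg zero_le hD.ne', e,
        zpow_lt_one_iff_right_of_lt_one₀ hpos h1] at hg
      rw [← pow_le_pow_iff_left₀ zero_le zero_le hD.ne', e, hπ,
        zpow_le_zpow_iff_right_of_lt_one₀ hpos h1]
      exact hmin g m hg0 e hg
  refine ⟨π, hU, fun f hf => ?_⟩
  obtain ⟨m, e⟩ := hv f hf
  have hm' : (0 : ℤ) < m₀ := Int.natCast_pos.2 hm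
  have hπv := zpow_ne_zero (m / m₀) (curvea_pos hU).ne'
  have e2 : P.1.valuation (f / π ^ (m / m₀)) ^ D = P.1.valuation π₀ ^ (m % m₀) := by
    rw [map_div₀, div_pow, e, map_zpow₀, ← zpow_natCast _ D, ← zpow_mul, mul_comm, zpow_mul,
      zpow_natCast, hπ, ← zpow_mul, ← zpow_sub₀ hpos.ne', Int.emod_def]
  have e3 : m % m₀ = 0 := by
    by_contra h2
    have h3 := hmin _ _ (div_ne_zero hf (zpow_ne_zero _ hπ0)) e2
      (lt_of_le_of_ne (Int.emod_nonneg m hm'.ne') (Ne.symm h2))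
    exact absurd (Int.emod_lt_of_pos m hm') (not_lt.2 h3)
  rw [e3, zpow_zero, pow_eq_one_iff_of_nonneg zero_le hD.ne', map_div₀, map_zpow₀,
    div_eq_one_iff_eq hπv] at e2
  rw [ord_eq hU e2, e2]

theorem Pt.exists_ord_eq (P : Pt κ G) (n : ℤ) : ∃ f : G, f ≠ 0 ∧ ord P.1 f = n := by
  obtain ⟨π, hπ, -⟩ := P.exists_unif
  exact ⟨π ^ n, zpow_ne_zero n hπ.1, ord_eq hπ (map_zpow₀ _ _ _)⟩

theorem Pt.ord_mul (P : Pt κ G) {f g : G} (hf : f ≠ 0) (hg : g ≠ 0) :
    ord P.1 (f * g) = ord P.1 f + ord P.1 g := by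
  obtain ⟨π, hπ, h⟩ := P.exists_unif
  exact ord_eq hπ (by rw [map_mul, h f hf, h g hg, zpow_add₀ (curvea_pos hπ).ne'])

theorem Pt.ord_inv (P : Pt κ G) (f : G) : ord P.1 f⁻¹ = - ord P.1 f := by
  rcases eq_or_ne f 0 with rfl | hf
  · rw [inv_zero, ord_zero, neg_zero]
  obtain ⟨π, hπ, h⟩ := P.exists_unif
  exact ord_eq hπ (by rw [map_inv₀, h f hf, zpow_neg])

theorem Pt.ord_zpow (P : Pt κ G) (f : G) (n : ℤ) : ord P.1 (f ^ n) = n * ord P.1 f := by
  obtain ⟨π, hπ, h⟩ := P.exists_unif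
  rcases eq_or_ne f 0 with rfl | hf
  · rw [ord_zero, mul_zero]
    rcases eq_or_ne n 0 with rfl | hn
    · exact ord_eq hπ (by rw [zpow_zero, zpow_zero, map_one])
    · rw [zero_zpow n hn, ord_zero]
  · exact ord_eq hπ (by rw [map_zpow₀, h f hf, ← zpow_mul, mul_comm])

theorem Pt.ord_pow (P : Pt κ G) (f : G) (n : ℕ) : ord P.1 (f ^ n) = n * ord P.1 f := by
  rw [← zpow_natCast, P.ord_zpow]

theorem Pt.ord_const (P : Pt κ G) (c : κ) : ord P.1 (algebraMap κ G c) = 0 := by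
  rcases eq_or_ne c 0 with rfl | hc
  · rw [map_zero, ord_zero]
  obtain ⟨π, hπ, -⟩ := P.exists_unif
  exact ord_eq hπ (by rw [val_const_eq_one P.2.2 hc, zpow_zero])

theorem Pt.val_le_iff (P : Pt κ G) {f g : G} (hf : f ≠ 0) (hg : g ≠ 0) :
    P.1.valuation f ≤ P.1.valuation g ↔ ord P.1 g ≤ ord P.1 f := by
  obtain ⟨π, hπ, h⟩ := P.exists_unif
  rw [h f hf, h g hg]
  exact zpow_le_zpow_iff_right_of_lt_one₀ (curvea_pos hπ) hπ.2.1

theorem Pt.val_lt_iff (P : Pt κ G) {f g : G} (hf : f ≠ 0) (hg : g ≠ 0) :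
    P.1.valuation f < P.1.valuation g ↔ ord P.1 g < ord P.1 f := by
  rw [← not_le, ← not_le, P.val_le_iff hg hf]

theorem curvea_one (P : Pt κ G) : ord P.1 1 = 0 := by
  have h := P.ord_const 1
  rwa [map_one] at h

theorem Pt.mem_iff (P : Pt κ G) (f : G) : f ∈ P.1 ↔ 0 ≤ ord P.1 f := by
  rcases eq_or_ne f 0 with rfl | hf
  · rw [ord_zero]
    exact iff_of_true (zero_mem _) le_rfl
  have h := P.val_le_iff hf one_ne_zero
  rwa [map_one, curvea_one, ValuationSubring.valuation_le_one_iff] at h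

theorem Pt.val_lt_one_iff (P : Pt κ G) {f : G} (hf : f ≠ 0) :
    P.1.valuation f < 1 ↔ 0 < ord P.1 f := by
  have h := P.val_lt_iff hf one_ne_zero
  rwa [map_one, curvea_one] at h

theorem Pt.val_eq_one_iff (P : Pt κ G) {f : G} (hf : f ≠ 0) :
    P.1.valuation f = 1 ↔ ord P.1 f = 0 := by
  obtain ⟨π, hπ, h⟩ := P.exists_unif
  rw [h f hf]
  exact zpow_eq_one_iff_right₀ zero_le hπ.2.1.ne

theorem Pt.min_le_ord_add (P : Pt κ G) {f g : G} (h : f + g ≠ 0) (hf : f ≠ 0) (hg : g ≠ 0) :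
    min (ord P.1 f) (ord P.1 g) ≤ ord P.1 (f + g) := by
  rcases le_max_iff.1 (P.1.valuation.map_add f g) with h1 | h1
  · exact (min_le_left _ _).trans ((P.val_le_iff h hf).1 h1)
  · exact (min_le_right _ _).trans ((P.val_le_iff h hg).1 h1)

theorem Pt.cl_mem_U_iff {ℓ : ℕ} [Fact ℓ.Prime] (P : Pt κ G) (f : G) :
    cl ℓ f ∈ U ℓ P.1 ↔ (ℓ : ℤ) ∣ ord P.1 f := by
  rcases eq_or_ne f 0 with rfl | hf
  · rw [cl_zero, ord_zero]
    exact iff_of_true (zero_mem _) (dvd_zero _)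
  obtain ⟨π, hπ, h⟩ := P.exists_unif
  rw [Vale.Agent.P019.cl_mem_U_iff hf]
  constructor
  · rintro ⟨z, hz, e⟩
    refine ⟨ord P.1 z, ord_eq hπ ?_⟩
    rw [e, h z hz, ← zpow_natCast, ← zpow_mul, mul_comm]
  · rintro ⟨m, hm⟩
    refine ⟨π ^ m, zpow_ne_zero m hπ.1, ?_⟩
    rw [h f hf, hm, map_zpow₀, ← zpow_natCast, ← zpow_mul, mul_comm]

/-- weak approximation (from `exists_approx`-like elements or `exists_split_unit`; points are
pairwise independent rank one valuations) -/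
theorem weak_approx (S : Finset (Pt κ G)) (a : Pt κ G → G) (n : Pt κ G → ℤ) :
    ∃ f : G, ∀ P ∈ S, f = a P ∨ n P ≤ ord P.1 (f - a P) := by
  classical
  choose π hπ hv using fun P : Pt κ G => P.exists_unif
  obtain ⟨N, hN⟩ : ∃ N : ℕ, ∀ P ∈ S, ∀ Q ∈ S, n P - ord P.1 (a Q) ≤ N := by
    refine ⟨(S ×ˢ S).sup fun x => (n x.1 - ord x.1.1 (a x.2)).toNat, fun P hP Q hQ => ?_⟩
    exact (Int.self_le_toNat _).trans (Int.ofNat_le.2 (Finset.le_sup
      (f := fun x : Pt κ G × Pt κ G => (n x.1 - ord x.1.1 (a x.2)).toNat)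
      (Finset.mk_mem_product hP hQ)))
  have he : ∀ Q ∈ S, ∃ e : G, ∀ P ∈ S,
      P.1.valuation (e - if Q = P then 1 else 0) ≤ P.1.valuation (π P) ^ N := by
    intro Q hQ
    obtain ⟨b, h1, h2⟩ := exists_approx κ (S.image fun P => P.1) (fun O₁ a1 O₂ a2 a3 => by
      obtain ⟨P₁, -, rfl⟩ := Finset.mem_image.1 a1
      obtain ⟨P₂, -, rfl⟩ := Finset.mem_image.1 a2
      rw [Pt.eq_of_le IsCurve.trdeg a3]) (Finset.mem_image_of_mem _ hQ)
    obtain ⟨c, hc⟩ := Q.exists_At IsCurve.trdeg.le (val_eq_one_iff.1 h1).2.1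
    have hc0 : c ≠ 0 := by
      rintro rfl
      unfold At at hc
      rw [map_zero, sub_zero] at hc
      exact hc.ne h1
    have hcG : algebraMap κ G c ≠ 0 := (map_ne_zero _).2 hc0
    have h3 : Q.1.valuation (b / algebraMap κ G c - 1) < 1 := by
      rw [div_sub_one hcG, map_div₀, val_const_eq_one Q.2.2 hc0, div_one]
      exact hc
    refine ⟨1 - (1 - (b / algebraMap κ G c) ^ N) ^ N, fun P hP => ?_⟩
    split_ifs with h
    · subst h
      rw [sub_sub_cancel_left, Valuation.map_neg, map_pow, Valuation.map_sub_swap]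
      exact pow_le_pow_left₀ zero_le ((hπ Q).2.2 _ (basic_pu_pow h3 N)) N
    · have h4 : P.1.valuation (b / algebraMap κ G c) < 1 := by
        rw [map_div₀, val_const_eq_one P.2.2 hc0, div_one]
        exact h2 _ (Finset.mem_image_of_mem _ hP) fun h5 => h (Subtype.ext h5).symm
      have h5 : b / algebraMap κ G c ∈ P.1 := (P.1.valuation_le_one_iff _).1 h4.le
      rw [sub_zero, ← mul_neg_geom_sum, sub_sub_cancel, map_mul, map_pow]
      refine (mul_le_of_le_one_right zero_le ((P.1.valuation_le_one_iff _).2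
        (sum_mem fun i _ => pow_mem (sub_mem (one_mem _) (pow_mem h5 N)) i))).trans ?_
      exact pow_le_pow_left₀ zero_le ((hπ P).2.2 _ h4) N
  choose! e he using he
  refine ⟨∑ Q ∈ S, e Q * a Q, fun P hP => ?_⟩
  have e1 : ∑ Q ∈ S, e Q * a Q - a P = ∑ Q ∈ S, (e Q - if Q = P then 1 else 0) * a Q := by
    simp only [sub_mul, Finset.sum_sub_distrib, ite_mul, one_mul, zero_mul, Finset.sum_ite_eq', hP,
      if_true]
  have h1 : P.1.valuation (∑ Q ∈ S, e Q * a Q - a P) ≤ P.1.valuation (π P) ^ n P := by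
    rw [e1]
    refine P.1.valuation.map_sum_le fun Q hQ => ?_
    rcases eq_or_ne (a Q) 0 with h0 | h0
    · rw [h0, mul_zero, map_zero]
      exact zero_le
    rw [map_mul, hv P _ h0]
    refine (mul_le_mul_left (he Q hQ P hP) _).trans ?_
    rw [← zpow_natCast, ← zpow_add₀ (curvea_pos (hπ P)).ne',
      zpow_le_zpow_iff_right_of_lt_one₀ (curvea_pos (hπ P)) (hπ P).2.1]
    have := hN P hP Q hQ
    omega
  refine or_iff_not_imp_left.2 fun h0 => ?_
  rwa [hv P _ (sub_ne_zero.2 h0),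
    zpow_le_zpow_iff_right_of_lt_one₀ (curvea_pos (hπ P)) (hπ P).2.1] at h1

theorem exists_ord_eq_on (S : Finset (Pt κ G)) (n : Pt κ G → ℤ) :
    ∃ f : G, f ≠ 0 ∧ ∀ P ∈ S, ord P.1 f = n P := by
  rcases S.eq_empty_or_nonempty with rfl | ⟨P₀, hP₀⟩
  · exact ⟨1, one_ne_zero, fun P hP => absurd hP (Finset.notMem_empty P)⟩
  choose a ha0 ha using fun P : Pt κ G => P.exists_ord_eq (n P)
  obtain ⟨f, hf⟩ := weak_approx S a fun P => n P + 1
  have key : ∀ P ∈ S, P.1.valuation f = P.1.valuation (a P) := by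
    intro P hP
    rcases eq_or_ne f (a P) with h | h
    · rw [h]
    have h1 := (hf P hP).resolve_left h
    refine P.1.valuation.map_eq_of_sub_lt ((P.val_lt_iff (sub_ne_zero.2 h) (ha0 P)).2 ?_)
    rw [ha]
    omega
  have hf0 : f ≠ 0 := by
    rintro rfl
    have h := key P₀ hP₀
    rw [map_zero, eq_comm, map_eq_zero] at h
    exact ha0 P₀ h
  refine ⟨f, hf0, fun P hP => ?_⟩
  rw [← ha P]
  exact le_antisymm ((P.val_le_iff (ha0 P) hf0).1 (key P hP).ge)
    ((P.val_le_iff hf0 (ha0 P)).1 (key P hP).le)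

/-- For zeros `P₁ … P_r` of `f` with orders `e i`, elements `g i j` with order `j < e i` at `P i`
and order `≥ e i'` at the others are independent over `κ(f)`. -/
theorem sum_ord_le {f : G} (hf : Transcendental κ f) (S : Finset (Pt κ G))
    (hS : ∀ P ∈ S, 0 < ord P.1 f) : ∑ P ∈ S, ord P.1 f ≤ Module.finrank κ⟮f⟯ G := by
  classical
  have := IsCurve.finite hf
  have hf0 : f ≠ 0 := fun h => hf (h ▸ isAlgebraic_zero)
  choose g hg0 hg using fun i : (Σ _ : Pt κ G, ℕ) =>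
    exists_ord_eq_on S fun Q => if i.1 = Q then (i.2 : ℤ) else ord Q.1 f
  have hm := gv_ind (k := κ) f (fun c => ∃ m : ℤ, ∀ P ∈ S, ord P.1 c = m * ord P.1 f)
    (fun c _ => ⟨0, fun P _ => by rw [P.ord_const, zero_mul]⟩)
    (fun b hb => by
      rcases eq_or_ne b 0 with rfl | hb0
      · exact ⟨1, fun P _ => by rw [map_zero, sub_zero, one_mul]⟩
      · refine ⟨0, fun P hP => ?_⟩
        have h1 := val_const_eq_one P.2.2 hb0
        rw [zero_mul, ← P.val_eq_one_iff hb, P.1.valuation.map_sub_eq_of_lt_right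
          (h1 ▸ (P.val_lt_one_iff hf0).2 (hS P hP)), h1])
    (fun x y hx hy ⟨m, h1⟩ ⟨m', h2⟩ => ⟨m + m', fun P hP => by
      rw [P.ord_mul hx hy, h1 P hP, h2 P hP, add_mul]⟩)
    (fun x ⟨m, h1⟩ => ⟨-m, fun P hP => by rw [P.ord_inv, h1 P hP, neg_mul]⟩)
  let J := S.sigma fun P => Finset.range (ord P.1 f).toNat
  have hJ : ∀ i : J, i.1.1 ∈ S ∧ (i.1.2 : ℤ) < ord i.1.1.1 f := fun i => by
    obtain ⟨h1, h2⟩ := Finset.mem_sigma.1 i.2
    exact ⟨h1, Int.lt_toNat.1 (Finset.mem_range.1 h2)⟩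
  have hli : LinearIndependent κ⟮f⟯ fun i : J => g i.1 := by
    refine Fintype.linearIndependent_iff.2 fun c hc => ?_
    by_contra hn
    push Not at hn
    have hT : (Finset.univ.filter fun i => c i ≠ 0).Nonempty :=
      hn.imp fun i hi => Finset.mem_filter.2 ⟨Finset.mem_univ i, hi⟩
    have hc0 : ∀ i ∈ Finset.univ.filter fun i => c i ≠ 0, (c i : G) ≠ 0 := fun i hi h =>
      (Finset.mem_filter.1 hi).2 (Subtype.ext h)
    choose! m hm using fun (i : J) (hi : i ∈ Finset.univ.filter fun i => c i ≠ 0) =>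
      hm (c i) (c i).2 (hc0 i hi)
    obtain ⟨i₀, h0, hmin⟩ := Finset.exists_min_image _ m hT
    have hP := (hJ i₀).1
    generalize hP₀ : i₀.1.1 = P at hP
    have he := hS P hP
    have ho : ∀ i ∈ Finset.univ.filter fun i => c i ≠ 0, ord P.1 ((c i : G) * g i.1) =
        m i * ord P.1 f + if i.1.1 = P then (i.1.2 : ℤ) else ord P.1 f := fun i hi => by
      rw [P.ord_mul (hc0 i hi) (hg0 _), hm i hi P hP, hg _ P hP]
    obtain ⟨i₁, h1, hmin1⟩ := Finset.exists_min_image _ (fun i => ord P.1 ((c i : G) * g i.1)) hT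
    have hlt : ord P.1 ((c i₁ : G) * g i₁.1) < m i₀ * ord P.1 f + ord P.1 f := by
      refine (hmin1 i₀ h0).trans_lt ?_
      rw [ho i₀ h0, if_pos hP₀]
      have h2 := (hJ i₀).2
      rw [hP₀] at h2
      omega
    have hone : ∀ i ∈ Finset.univ.filter fun i => c i ≠ 0,
        ord P.1 ((c i : G) * g i.1) = ord P.1 ((c i₁ : G) * g i₁.1) →
        i.1.1 = P ∧ (i.1.2 : ℤ) = ord P.1 ((c i₁ : G) * g i₁.1) - m i₀ * ord P.1 f := by
      intro i hi e
      rw [← e] at hlt ⊢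
      rw [ho i hi] at hlt ⊢
      have h2 := hmin i hi
      have h3 : m i₀ * ord P.1 f ≤ m i * ord P.1 f := mul_le_mul_of_nonneg_right h2 he.le
      split_ifs at hlt ⊢ with h4
      · refine ⟨h4, ?_⟩
        have h5 : m i = m i₀ := by
          by_contra h5
          have h6 : (m i₀ + 1) * ord P.1 f ≤ m i * ord P.1 f :=
            mul_le_mul_of_nonneg_right (by omega) he.le
          rw [add_mul, one_mul] at h6
          omega
        rw [h5, add_sub_cancel_left]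
      · omega
    have h2 := P.1.valuation.map_sum_eq_of_lt (f := fun i => (c i : G) * g i.1) h1 fun i hi => by
      obtain ⟨h3, h4⟩ := Finset.mem_sdiff.1 hi
      refine (P.val_lt_iff (mul_ne_zero (hc0 i h3) (hg0 _)) (mul_ne_zero (hc0 i₁ h1) (hg0 _))).2
        (lt_of_le_of_ne (hmin1 i h3) fun e => Finset.notMem_singleton.1 h4 ?_)
      obtain ⟨a1, a2⟩ := hone i h3 e.symm
      obtain ⟨a3, a4⟩ := hone i₁ h1 rfl
      exact Subtype.ext (Sigma.ext (a1.trans a3.symm)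
        (heq_of_eq (Int.natCast_inj.1 (a2.trans a4.symm))))
    have h3 : ∑ i ∈ Finset.univ.filter fun i => c i ≠ 0, (c i : G) * g i.1 = 0 := by
      rw [← hc]
      refine Finset.sum_filter_of_ne fun i _ h4 h5 => h4 ?_
      rw [h5]
      exact zero_mul _
    rw [h3, map_zero, eq_comm, map_eq_zero] at h2
    exact mul_ne_zero (hc0 i₁ h1) (hg0 _) h2
  have h1 := hli.fintype_card_le_finrank
  rw [Fintype.card_coe, Finset.card_sigma] at h1
  refine le_trans (le_of_eq ?_) (Int.ofNat_le.2 h1)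
  rw [Nat.cast_sum]
  refine Finset.sum_congr rfl fun P hP => ?_
  rw [Finset.card_range, Int.toNat_of_nonneg (hS P hP).le]

theorem finite_ord_ne_zero (f : G) : {P : Pt κ G | ord P.1 f ≠ 0}.Finite := by
  have key : ∀ f : G, {P : Pt κ G | 0 < ord P.1 f}.Finite := by
    intro f
    by_cases hf : f ∈ (algebraMap κ G).range
    · obtain ⟨c, rfl⟩ := hf
      refine Set.finite_empty.subset fun P hP => ?_
      rw [Set.mem_ofPred_eq, P.ord_const] at hP
      exact lt_irrefl _ hP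
    by_contra hinf
    obtain ⟨S, hS, hcard⟩ := Set.Infinite.exists_subset_card_eq hinf (Module.finrank κ⟮f⟯ G + 1)
    have h1 := sum_ord_le (transcendental_iff.2 hf) S fun P hP => hS hP
    have h2 := Finset.card_nsmul_le_sum S (fun P => ord P.1 f) 1 fun P hP => hS hP
    rw [hcard, nsmul_one, Nat.cast_succ] at h2
    omega
  refine ((key f).union (key f⁻¹)).subset fun P hP => ?_
  rw [Set.mem_union, Set.mem_ofPred_eq, Set.mem_ofPred_eq, P.ord_inv]
  have h : ord P.1 f ≠ 0 := hP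
  omega

theorem const_of_ord_nonneg {f : G} (h : ∀ P : Pt κ G, 0 ≤ ord P.1 f) :
    f ∈ (algebraMap κ G).range := by
  by_contra hf
  obtain ⟨P, hP⟩ := exists_Pt_pole (transcendental_iff.2 hf)
  exact hP ((P.mem_iff f).2 (h P))

theorem infinite_Pt : Infinite (Pt κ G) := by
  obtain ⟨t, ht, -⟩ := IsCurve.ex (κ := κ) (G := G)
  choose P hP using exists_Pt_At ht
  exact Infinite.of_injective P fun c c' h => At.unique (P c').2.2 (h ▸ hP c) (hP c')

variable (κ) in
/-- principal divisor -/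
def dv (f : G) : Pt κ G →₀ ℤ := Finsupp.ofSupportFinite (fun P => ord P.1 f) (finite_ord_ne_zero f)

theorem dv_apply (f : G) (P : Pt κ G) : dv κ f P = ord P.1 f := rfl

variable (κ) in
/-- pole divisor -/
def pole (f : G) : Pt κ G →₀ ℤ := (dv κ f).mapRange (fun n => max (-n) 0) (by simp)

theorem pole_apply (f : G) (P : Pt κ G) : pole κ f P = max (- ord P.1 f) 0 := rfl

/-- Riemann-Roch space -/
def LL (D : Pt κ G →₀ ℤ) : Submodule κ G where
  carrier := {f | f = 0 ∨ ∀ P : Pt κ G, - D P ≤ ord P.1 f}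
  add_mem' := fun {f g} hf hg => by
    rcases eq_or_ne f 0 with rfl | hf0
    · simpa using hg
    rcases eq_or_ne g 0 with rfl | hg0
    · simpa using hf
    rcases eq_or_ne (f + g) 0 with h | h
    · exact Or.inl h
    refine Or.inr fun P => le_trans (le_min ?_ ?_) (P.min_le_ord_add h hf0 hg0)
    · exact hf.resolve_left hf0 P
    · exact hg.resolve_left hg0 P
  zero_mem' := Or.inl rfl
  smul_mem' := fun c {f} hf => by
    rcases eq_or_ne f 0 with rfl | hf0
    · exact Or.inl (smul_zero c)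
    rcases eq_or_ne c 0 with rfl | hc
    · exact Or.inl (zero_smul κ f)
    refine Or.inr fun P => ?_
    rw [Algebra.smul_def, P.ord_mul ((map_ne_zero _).2 hc) hf0, P.ord_const, zero_add]
    exact hf.resolve_left hf0 P

theorem mem_LL {D : Pt κ G →₀ ℤ} {f : G} :
    f ∈ LL D ↔ f = 0 ∨ ∀ P : Pt κ G, - D P ≤ ord P.1 f := Iff.rfl

/-- its dimension -/
def ell (D : Pt κ G →₀ ℤ) : ℕ := Module.finrank κ (LL D)

variable (κ G) in
/-- genus -/
def genus : ℕ := sSup {n : ℕ | ∃ D : Pt κ G →₀ ℤ, (n : ℤ) = D.degree + 1 - ell D}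

end

end Vale.Agent.P019
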