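import Vale.Agent.P019.CurveA

open scoped IntermediateField

namespace Vale.Agent.P019

variable {κ G : Type*} [Field κ] [Field G] [Algebra κ G] [IsAlgClosed κ] [IsCurve κ G]

theorem LL_mono {D D' : Pt κ G →₀ ℤ} (h : D ≤ D') : LL D ≤ LL D' :=
  fun _ hf => hf.imp_right fun hf P => (neg_le_neg (h P)).trans (hf P)

theorem LL_mul {D D' : Pt κ G →₀ ℤ} {f g : G} (hf : f ∈ LL D) (hg : g ∈ LL D') :
    f * g ∈ LL (D + D') := by
  rcases eq_or_ne f 0 with rfl | f0
  · exact Or.inl (zero_mul g)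
  rcases eq_or_ne g 0 with rfl | g0
  · exact Or.inl (mul_zero f)
  refine Or.inr fun P => ?_
  rw [P.ord_mul f0 g0, Finsupp.add_apply, neg_add]
  exact add_le_add (hf.resolve_left f0 P) (hg.resolve_left g0 P)

theorem LL_zero : LL (0 : Pt κ G →₀ ℤ) = Submodule.span κ {1} := by
  refine le_antisymm (fun f hf => ?_) ((Submodule.span_singleton_le_iff_mem _ _).2
    (Or.inr fun P => by simpa using (P.ord_const 1).ge))
  rcases hf with rfl | hf
  · exact zero_mem _
  obtain ⟨c, rfl⟩ := const_of_ord_nonneg (κ := κ) (f := f) fun P => by simpa using hf P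
  exact Submodule.mem_span_singleton.2 ⟨c, (Algebra.algebraMap_eq_smul_one c).symm⟩

theorem mem_LL_pole (f : G) : f ∈ LL (pole κ f) :=
  Or.inr fun P => by rw [pole_apply]; omega

theorem dv_mul {f g : G} (hf : f ≠ 0) (hg : g ≠ 0) : dv κ (f * g) = dv κ f + dv κ g :=
  Finsupp.ext fun P => P.ord_mul hf hg

theorem dv_inv (f : G) : dv κ f⁻¹ = - dv κ f := Finsupp.ext fun P => P.ord_inv f

theorem dv_eq_pole (f : G) : dv κ f = pole κ f⁻¹ - pole κ f := Finsupp.ext fun P => by
  rw [Finsupp.sub_apply, pole_apply, pole_apply, P.ord_inv, dv_apply]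
  omega

theorem curveb_dv_const (c : κ) : dv κ (algebraMap κ G c) = 0 := Finsupp.ext fun P => P.ord_const c

theorem dv_eq_zero_iff {f : G} (hf : f ≠ 0) : dv κ f = 0 ↔ f ∈ (algebraMap κ G).range :=
  have _ := hf
  ⟨fun h => const_of_ord_nonneg fun P => (DFunLike.congr_fun h P).ge,
    fun ⟨c, hc⟩ => hc ▸ curveb_dv_const c⟩

omit [IsAlgClosed κ] [IsCurve κ G] in
theorem curveb_deg_mono {D E : Pt κ G →₀ ℤ} (h : D ≤ E) : D.degree ≤ E.degree := by
  rw [← sub_nonneg, ← map_sub]
  exact Finset.sum_nonneg fun P _ => sub_nonneg.2 h P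

omit [IsAlgClosed κ] [IsCurve κ G] in
theorem curveb_le (D : Pt κ G →₀ ℤ) (P : Pt κ G) : D ≤ D + Finsupp.single P 1 :=
  le_add_of_nonneg_right (Finsupp.single_nonneg.2 zero_le_one)

omit [IsAlgClosed κ] [IsCurve κ G] in
theorem curveb_ind {Q : (Pt κ G →₀ ℤ) → Prop} (h : ∀ D P, Q D → Q (D + Finsupp.single P 1))
    {D E : Pt κ G →₀ ℤ} (hle : D ≤ E) (hD : Q D) : Q E := by
  obtain ⟨n, hn⟩ := Int.eq_ofNat_of_zero_le (sub_nonneg.2 (curveb_deg_mono hle))
  induction n using Nat.strong_induction_on generalizing D with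
  | _ n ih =>
    by_cases H : E ≤ D
    · rwa [le_antisymm H hle]
    obtain ⟨P, hP⟩ : ∃ P, D P < E P := by simpa [Finsupp.le_def] using H
    have h1 : D + Finsupp.single P 1 ≤ E := fun Q => by
      rcases eq_or_ne Q P with rfl | hQ
      · simpa using hP
      · simpa [Finsupp.single_eq_of_ne hQ] using hle Q
    have h2 := curveb_deg_mono h1
    rw [map_add, Finsupp.degree_single] at h2
    refine ih (n - 1) (by omega) h1 (h D P hD) ?_
    rw [map_add, Finsupp.degree_single]
    omega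

theorem curveb_step (D : Pt κ G →₀ ℤ) (P : Pt κ G) :
    LL (D + Finsupp.single P 1) = LL D ∨ ∃ u : G, u ≠ 0 ∧ ord P.1 u = -(D P + 1) ∧
      LL (D + Finsupp.single P 1) = LL D ⊔ κ ∙ u := by
  have key : ∀ f ∈ LL (D + Finsupp.single P 1), (f ≠ 0 → -D P ≤ ord P.1 f) → f ∈ LL D :=
    fun f hf h => (eq_or_ne f 0).imp_right fun f0 Q => by
      rcases eq_or_ne Q P with rfl | hQ
      · exact h f0
      · simpa [Finsupp.single_eq_of_ne hQ] using hf.resolve_left f0 Q
  have bd : ∀ f ∈ LL (D + Finsupp.single P 1), f ≠ 0 → -(D P + 1) ≤ ord P.1 f :=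
    fun f hf f0 => by simpa using hf.resolve_left f0 P
  by_cases H : LL (D + Finsupp.single P 1) ≤ LL D
  · exact Or.inl (le_antisymm H (LL_mono (curveb_le D P)))
  obtain ⟨u, hu, hu'⟩ := SetLike.not_le_iff_exists.1 H
  have u0 : u ≠ 0 := by rintro rfl; exact hu' (zero_mem _)
  have h1 : ord P.1 u = -(D P + 1) := by
    have := bd u hu u0
    have := mt (fun h => key u hu fun _ => h) hu'
    omega
  refine Or.inr ⟨u, u0, h1, le_antisymm (fun f hf => ?_) (sup_le (LL_mono (curveb_le D P))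
    ((Submodule.span_singleton_le_iff_mem _ _).2 hu))⟩
  have h2 : f * u⁻¹ ∈ P.1 := by
    rcases eq_or_ne f 0 with rfl | f0
    · rw [zero_mul]; exact P.1.zero_mem
    have := bd f hf f0
    rw [P.mem_iff, P.ord_mul f0 (inv_ne_zero u0), P.ord_inv]
    omega
  obtain ⟨c, hc⟩ := Pt.exists_At (IsCurve.trdeg (κ := κ) (G := G)).le P h2
  rw [← sub_add_cancel f (c • u)]
  refine Submodule.add_mem_sup (key _ (sub_mem hf (Submodule.smul_mem _ c hu)) fun h0 => ?_)
    (Submodule.mem_span_singleton.2 ⟨c, rfl⟩)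
  have e : f - c • u = (f * u⁻¹ - algebraMap κ G c) * u := by
    rw [sub_mul, inv_mul_cancel_right₀ u0, Algebra.smul_def]
  rw [e] at h0 ⊢
  have := (P.val_lt_one_iff (left_ne_zero_of_mul h0)).1 hc
  rw [P.ord_mul (left_ne_zero_of_mul h0) u0]
  omega

/-- `LL D` is the kernel of the functional `f ↦ (f π ^ (D P + 1))(P)` on `LL (D + P)` -/
instance LL_finite (D : Pt κ G →₀ ℤ) : FiniteDimensional κ (LL D) := by
  have : FiniteDimensional κ (LL (D ⊔ 0)) := by
    refine curveb_ind (Q := fun D => FiniteDimensional κ (LL D)) (fun D P h => ?_) le_sup_right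
      (by rw [LL_zero]; infer_instance)
    rcases curveb_step D P with e | ⟨u, -, -, e⟩ <;> rw [e] <;> infer_instance
  exact Submodule.finiteDimensional_of_le (LL_mono (le_sup_left (b := 0)))

theorem ell_add_single_le (D : Pt κ G →₀ ℤ) (P : Pt κ G) :
    ell (D + Finsupp.single P 1) ≤ ell D + 1 := by
  unfold ell
  rcases curveb_step D P with e | ⟨u, u0, -, e⟩ <;> rw [e]
  · exact Nat.le_succ _
  · exact finrank_span_singleton (K := κ) u0 ▸ Submodule.finrank_add_le_finrank_add_finrank _ _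

theorem ell_mono {D D' : Pt κ G →₀ ℤ} (h : D ≤ D') : ell D ≤ ell D' :=
  Submodule.finrank_mono (LL_mono h)

theorem ell_sub_le {D D' : Pt κ G →₀ ℤ} (h : D ≤ D') :
    (ell D' : ℤ) - ell D ≤ D'.degree - D.degree := by
  refine curveb_ind (Q := fun D' => (ell D' : ℤ) - ell D ≤ D'.degree - D.degree)
    (fun E P h => ?_) h (by simp)
  have := ell_add_single_le E P
  rw [map_add, Finsupp.degree_single]
  omega

theorem ell_zero : ell (0 : Pt κ G →₀ ℤ) = 1 := by
  rw [ell, LL_zero, finrank_span_singleton one_ne_zero]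

theorem ell_add_dv (D : Pt κ G →₀ ℤ) {f : G} (hf : f ≠ 0) : ell (D + dv κ f) = ell D := by
  have key : ∀ (D : Pt κ G →₀ ℤ) (f : G), f ≠ 0 → ell D ≤ ell (D + dv κ f) := fun D f hf =>
    LinearMap.finrank_le_finrank_of_injective
      (f := (LinearMap.mulRight κ f⁻¹).restrict (p := LL D) (q := LL (D + dv κ f)) fun x hx =>
        LL_mul hx (Or.inr fun P => by rw [P.ord_inv, dv_apply]))
      fun x y h => Subtype.ext (mul_right_cancel₀ (inv_ne_zero hf) (congrArg Subtype.val h))
  refine le_antisymm ?_ (key D f hf)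
  simpa [dv_inv] using key (D + dv κ f) f⁻¹ (inv_ne_zero hf)

theorem ell_pos_iff (D : Pt κ G →₀ ℤ) : 0 < ell D ↔ ∃ f : G, f ≠ 0 ∧ 0 ≤ D + dv κ f := by
  rw [ell, Module.finrank_pos_iff_exists_ne_zero]
  constructor
  · rintro ⟨⟨f, hf⟩, h0⟩
    have f0 : f ≠ 0 := fun h => h0 (Subtype.ext h)
    exact ⟨f, f0, fun P => neg_le_iff_add_nonneg'.1 (hf.resolve_left f0 P)⟩
  · rintro ⟨f, f0, h⟩
    exact ⟨⟨f, Or.inr fun P => neg_le_iff_add_nonneg'.2 (h P)⟩, fun h => f0 (congrArg Subtype.val h)⟩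

theorem ell_le {D : Pt κ G →₀ ℤ} (h : 0 ≤ D) : (ell D : ℤ) ≤ D.degree + 1 := by
  have := ell_sub_le h
  rw [ell_zero, map_zero] at this
  omega

theorem curveb_pole_nonneg (f : G) : 0 ≤ pole κ f := fun _ => le_max_right _ _

theorem curveb_pow {D : Pt κ G →₀ ℤ} {f : G} (hf : f ∈ LL D) (h0 : 0 ≤ D) {j m : ℕ} (h : j ≤ m) :
    f ^ j ∈ LL (m • D) := by
  refine LL_mono (nsmul_le_nsmul_left h0 h) ?_
  clear h
  induction j with
  | zero => rw [zero_nsmul, pow_zero, LL_zero]; exact Submodule.mem_span_singleton_self _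
  | succ j ih => rw [succ_nsmul, pow_succ]; exact LL_mul ih hf

theorem curveb_card {ι : Type*} [Fintype ι] {v : ι → G} (hv : LinearIndependent κ v)
    {D : Pt κ G →₀ ℤ} (h : ∀ i, v i ∈ LL D) : Fintype.card ι ≤ ell D :=
  (LinearIndependent.of_comp (v := fun i => (⟨v i, h i⟩ : LL D)) (LL D).subtype
    hv).fintype_card_le_finrank

theorem curveb_lower {f : G} (hf : Transcendental κ f) {n : ℕ} {b : Fin n → G}
    (hb : LinearIndependent κ⟮f⟯ b) {D : Pt κ G →₀ ℤ} (hD : ∀ i, b i ∈ LL D) (m : ℕ) :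
    (m + 1) * n ≤ ell (m • pole κ f + D) := by
  have h1 : LinearIndependent κ fun j : ℕ => f ^ j := by
    have := (Polynomial.basisMonomials κ).linearIndependent.map' (Polynomial.aeval f).toLinearMap
      (LinearMap.ker_eq_bot.2 (_root_.transcendental_iff_injective.1 hf))
    simpa [Function.comp_def] using this
  have h2 : LinearIndependent κ fun j : Fin (m + 1) =>
      IntermediateField.AdjoinSimple.gen κ f ^ (j : ℕ) := by
    refine LinearIndependent.of_comp κ⟮f⟯.val.toLinearMap ?_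
    simpa [Function.comp_def] using h1.comp _ (Fin.val_injective (n := m + 1))
  have h3 := curveb_card (linearIndependent_smul h2 hb) (D := m • pole κ f + D) fun p => by
    rw [Algebra.smul_def, map_pow, IntermediateField.AdjoinSimple.algebraMap_gen]
    exact LL_mul (curveb_pow (mem_LL_pole f) (curveb_pole_nonneg f) (Nat.lt_succ_iff.1 p.1.2))
      (hD p.2)
  simpa using h3

theorem curveb_basis {f : G} (hf : Transcendental κ f) : ∃ D : Pt κ G →₀ ℤ, 0 ≤ D ∧
    ∀ m : ℕ, (m + 1) * Module.finrank κ⟮f⟯ G ≤ ell (m • pole κ f + D) := by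
  have := IsCurve.finite hf
  let b := Module.finBasis κ⟮f⟯ G
  exact ⟨∑ i, pole κ (b i), Finset.sum_nonneg fun i _ => curveb_pole_nonneg _,
    curveb_lower hf b.linearIndependent fun i => LL_mono (Finset.single_le_sum
      (fun i _ => curveb_pole_nonneg (b i)) (Finset.mem_univ i)) (mem_LL_pole _)⟩

omit [IsAlgClosed κ] [IsCurve κ G] in
theorem curveb_adj_inv (f : G) : κ⟮f⁻¹⟯ = κ⟮f⟯ := by
  have key : ∀ f : G, κ⟮f⁻¹⟯ ≤ κ⟮f⟯ := fun f => IntermediateField.adjoin_simple_le_iff.2
    (inv_mem (IntermediateField.mem_adjoin_simple_self κ f))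
  exact le_antisymm (key f) (by simpa using key f⁻¹)

/-- A basis `b i` of `G` over `κ(f)` lies in some `LL D₀`; the `f ^ j b i` give
`n (m + 1) ≤ ell (m • pole f + D₀) ≤ m deg (pole f) + c`. The other inequality is `sum_ord_le`
for `f⁻¹`. -/
theorem degree_pole {f : G} (hf : Transcendental κ f) :
    (pole κ f).degree = Module.finrank κ⟮f⟯ G := by
  refine le_antisymm ?_ (not_lt.1 fun H => ?_)
  · have h1 : ∀ P ∈ (pole κ f).support, 0 < ord P.1 f⁻¹ := fun P hP => by
      have := Finsupp.mem_support_iff.1 hP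
      rw [pole_apply] at this
      rw [P.ord_inv]
      omega
    have h2 := sum_ord_le (fun h => hf (IsAlgebraic.inv_iff.1 h)) _ h1
    rw [curveb_adj_inv] at h2
    refine le_trans (Finset.sum_congr rfl fun P hP => ?_).le h2
    have := h1 P hP
    rw [P.ord_inv] at this ⊢
    exact max_eq_left this.le
  · obtain ⟨D, D0, hD⟩ := curveb_basis hf
    have h1 := hD D.degree.toNat.succ
    have h2 := ell_le (add_nonneg (nsmul_nonneg (curveb_pole_nonneg (κ := κ) f) D.degree.toNat.succ) D0)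
    have h3 := curveb_deg_mono (curveb_pole_nonneg (κ := κ) f)
    have h4 := Int.self_le_toNat D.degree
    rw [map_add, map_nsmul, nsmul_eq_mul] at h2
    rw [map_zero] at h3
    zify at h1
    push_cast at h1 h2
    nlinarith

theorem degree_dv (f : G) : (dv κ f).degree = 0 := by
  by_cases hf : Transcendental κ f
  · rw [dv_eq_pole, map_sub, degree_pole hf, degree_pole fun h => hf (IsAlgebraic.inv_iff.1 h),
      curveb_adj_inv, sub_self]
  · obtain ⟨c, rfl⟩ := not_not.1 (mt transcendental_iff.2 hf)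
    rw [curveb_dv_const, map_zero]

theorem ell_eq_zero {D : Pt κ G →₀ ℤ} (h : D.degree < 0) : ell D = 0 := by
  by_contra H
  obtain ⟨f, -, hf⟩ := (ell_pos_iff D).1 (Nat.pos_of_ne_zero H)
  have := curveb_deg_mono hf
  rw [map_zero, map_add, degree_dv] at this
  omega

theorem curveb_cmp {D E : Pt κ G →₀ ℤ} (h : 0 < ell (E - D)) :
    D.degree - ell D ≤ E.degree - ell E := by
  obtain ⟨f, f0, hf⟩ := (ell_pos_iff _).1 h
  have := ell_sub_le (D := D) (D' := E + dv κ f) (by rwa [← sub_nonneg, add_sub_right_comm])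
  rw [ell_add_dv _ f0, map_add, degree_dv] at this
  omega

variable (κ G) in
theorem curveb_bdd :
    BddAbove {n : ℕ | ∃ D : Pt κ G →₀ ℤ, (n : ℤ) = D.degree + 1 - ell D} := by
  obtain ⟨x, hx, hfin⟩ := IsCurve.ex (κ := κ) (G := G)
  obtain ⟨B, B0, hB⟩ := curveb_basis hx
  have hn : 0 < Module.finrank κ⟮x⟯ G := Module.finrank_pos
  refine ⟨B.degree.toNat, ?_⟩
  rintro n ⟨D, hD⟩
  obtain ⟨m, hm⟩ : ∃ m : ℕ, (D ⊔ 0).degree ≤ m := ⟨_, Int.self_le_toNat _⟩
  have h1 := hB m
  have h2 := ell_sub_le (D := m • pole κ x + B - D ⊔ 0) (sub_le_self _ le_sup_right)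
  have h3 := ell_mono (D' := m • pole κ x + B - D) (sub_le_sub_left (le_sup_left (b := 0)) _)
  rw [map_sub] at h2
  have h4 := curveb_cmp (D := D) (E := m • pole κ x + B) (by zify at h1; nlinarith)
  rw [map_add, map_nsmul, degree_pole hx, nsmul_eq_mul] at h4
  have h5 := Int.self_le_toNat B.degree
  zify at h1 ⊢
  nlinarith

/-- Riemann. `deg - ell` is monotone, invariant under principal divisors, bounded on the multiples
of `pole x`, and every `D ≥ 0` is equivalent to a divisor `≤ m • pole x` for large `m`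
(because `ell (m • pole x - D) > 0`). -/
theorem riemann_ineq (D : Pt κ G →₀ ℤ) : D.degree + 1 - genus κ G ≤ ell D := by
  rcases le_total (D.degree + 1 - ell D) 0 with h | h
  · omega
  · have : _ ≤ genus κ G := le_csSup (curveb_bdd κ G) ⟨D, Int.toNat_of_nonneg h⟩
    omega

theorem exists_riemann_eq : ∃ D : Pt κ G →₀ ℤ, (ell D : ℤ) = D.degree + 1 - genus κ G := by
  obtain ⟨D, hD⟩ := Nat.sSup_mem (by exact ⟨0, 0, by simp [ell_zero]⟩) (curveb_bdd κ G)
  exact ⟨D, by unfold genus; omega⟩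

theorem riemann_large : ∃ c : ℤ, ∀ D : Pt κ G →₀ ℤ, c ≤ D.degree →
    (ell D : ℤ) = D.degree + 1 - genus κ G := by
  obtain ⟨E, hE⟩ := exists_riemann_eq (κ := κ) (G := G)
  refine ⟨E.degree + genus κ G, fun D hD => le_antisymm ?_ (riemann_ineq D)⟩
  have h1 := riemann_ineq (D - E)
  rw [map_sub] at h1
  have := curveb_cmp (D := E) (E := D) (by omega)
  omega

theorem finrank_add_le {f g : G} (hf : Transcendental κ f) (hg : Transcendental κ g)
    (h : Transcendental κ (f + g)) :
    Module.finrank κ⟮f + g⟯ G ≤ Module.finrank κ⟮f⟯ G + Module.finrank κ⟮g⟯ G := by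
  have h0 : ∀ {f : G}, Transcendental κ f → f ≠ 0 := fun h e => h (e ▸ isAlgebraic_zero)
  have := curveb_deg_mono (D := pole κ (f + g)) (E := pole κ f + pole κ g) fun P => by
    have := P.min_le_ord_add (h0 h) (h0 hf) (h0 hg)
    simp only [Finsupp.add_apply, pole_apply]
    omega
  rw [map_add, degree_pole hf, degree_pole hg, degree_pole h] at this
  exact_mod_cast this

theorem finrank_pow {f : G} (hf : Transcendental κ f) {n : ℕ} (hn : 0 < n) :
    Module.finrank κ⟮f ^ n⟯ G = n * Module.finrank κ⟮f⟯ G := by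
  have e : pole κ (f ^ n) = n • pole κ f := Finsupp.ext fun P => by
    rw [Finsupp.smul_apply, pole_apply, pole_apply, P.ord_pow, nsmul_eq_mul,
      mul_max_of_nonneg _ _ (Int.natCast_nonneg n), mul_zero, mul_neg]
  have := degree_pole (hf.pow hn)
  rw [e, map_nsmul, degree_pole hf, nsmul_eq_mul] at this
  exact_mod_cast this.symm

/-- the monomials `x ^ i y ^ j`, `i, j ≤ 2 B`, lie in a space of dimension `≤ 4 B ^ 2 + 1` -/
theorem small_of_finrank {x y : G} (hx : Transcendental κ x) (hy : Transcendental κ y) {B : ℕ}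
    (hxB : Module.finrank κ⟮x⟯ G ≤ B) (hyB : Module.finrank κ⟮y⟯ G ≤ B) :
    Small κ (fun _ : Unit => x) (4 * B) y := by
  by_contra H
  have := IsCurve.finite hx
  have hB : 0 < B := Module.finrank_pos.trans_le hxB
  let e : Fin (2 * B + 1) × Fin (2 * B + 1) → Option Unit →₀ ℕ := fun p =>
    Finsupp.single none (p.1 : ℕ) + Finsupp.single (some ()) (p.2 : ℕ)
  have he : Function.Injective e := fun p q h => Prod.ext
    (Fin.ext (by simpa [e] using DFunLike.congr_fun h none))
    (Fin.ext (by simpa [e] using DFunLike.congr_fun h (some ())))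
  have h1 := ((MvPolynomial.basisMonomials (Option Unit) κ).linearIndependent.comp e he).map
    (f := (MvPolynomial.aeval fun o : Option Unit => o.elim y fun _ => x).toLinearMap) (by
      refine Submodule.disjoint_def.2 fun P hP hP' => by_contra fun P0 => H ⟨P, P0, ?_, hP'⟩
      refine (MvPolynomial.mem_restrictTotalDegree _ _ _).1 (Submodule.span_le.2 ?_ hP)
      rintro _ ⟨p, rfl⟩
      refine (MvPolynomial.mem_restrictTotalDegree _ _ _).2 ?_
      refine (MvPolynomial.totalDegree_monomial_le _ _).trans ?_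
      rw [Finsupp.sum_add_index' (fun _ => rfl) fun _ _ _ => rfl, Finsupp.sum_single_index rfl,
        Finsupp.sum_single_index rfl]
      have := p.1.2
      have := p.2.2
      simp only [id]
      omega)
  have h3 := curveb_card h1 (D := (2 * B) • pole κ y + (2 * B) • pole κ x) fun p => by
    simpa [e, MvPolynomial.aeval_monomial, Finsupp.prod_add_index', pow_add] using LL_mul
      (curveb_pow (mem_LL_pole y) (curveb_pole_nonneg y) (Nat.lt_succ_iff.1 p.1.2))
      (curveb_pow (mem_LL_pole x) (curveb_pole_nonneg x) (Nat.lt_succ_iff.1 p.2.2))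
  have h4 := ell_le (add_nonneg (nsmul_nonneg (curveb_pole_nonneg (κ := κ) y) (2 * B))
    (nsmul_nonneg (curveb_pole_nonneg x) (2 * B)))
  rw [map_add, map_nsmul, map_nsmul, degree_pole hx, degree_pole hy, nsmul_eq_mul, nsmul_eq_mul] at h4
  rw [Fintype.card_prod, Fintype.card_fin] at h3
  zify at h3 hxB hyB hB
  push_cast at h4
  nlinarith

theorem curveb_tr {f : G} {P : Pt κ G} (h : ord P.1 f ≠ 0) : Transcendental κ f :=
  transcendental_iff.2 fun ⟨c, hc⟩ => h (hc ▸ P.ord_const c)

omit [IsAlgClosed κ] [IsCurve κ G] in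
theorem curveb_single (P : Pt κ G) (n : ℕ) : Finsupp.single P ((n + 1 : ℕ) : ℤ) =
    Finsupp.single P (n : ℤ) + Finsupp.single P 1 := by rw [Nat.cast_succ, Finsupp.single_add]

theorem exists_single_pole (P : Pt κ G) : ∃ (n : ℕ) (f : G), Transcendental κ f ∧
    ord P.1 f = - n ∧ LL (Finsupp.single P (n : ℤ)) = Submodule.span κ {1, f} := by
  classical
  have ex : ∃ n : ℕ, LL (Finsupp.single P (n : ℤ)) ≠ LL 0 := ⟨genus κ G + 1, fun h => by
    have := riemann_ineq (Finsupp.single P ((genus κ G + 1 : ℕ) : ℤ))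
    rw [ell, h, ← ell, ell_zero, Finsupp.degree_single] at this
    omega⟩
  obtain ⟨n, hn⟩ : ∃ n, Nat.find ex = n + 1 := Nat.exists_eq_succ_of_ne_zero fun h => by
    simpa [h] using Nat.find_spec ex
  have h1 := Nat.find_spec ex
  have h2 := not_not.1 (Nat.find_min ex (m := n) (by omega))
  rw [hn, curveb_single] at h1
  obtain ⟨u, -, h3, h4⟩ := (curveb_step _ P).resolve_left fun h => h1 (h.trans h2)
  rw [Finsupp.single_eq_same] at h3
  exact ⟨n + 1, u, curveb_tr (P := P) (by omega), by omega, by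
    rw [curveb_single, h4, h2, LL_zero, Submodule.span_insert]⟩

theorem exists_finrank_eq : ∃ c : ℕ, ∀ n : ℕ, c ≤ n → ∃ f : G, Transcendental κ f ∧
    Module.finrank κ⟮f⟯ G = n := by
  obtain ⟨c, hc⟩ := riemann_large (κ := κ) (G := G)
  obtain ⟨P⟩ : Nonempty (Pt κ G) := (infinite_Pt (κ := κ) (G := G)).nonempty
  refine ⟨c.toNat + 1, fun n hn => ?_⟩
  obtain ⟨n, rfl⟩ : ∃ m, n = m + 1 := Nat.exists_eq_succ_of_ne_zero (by omega)
  have h1 := hc (Finsupp.single P (n : ℤ)) (by rw [Finsupp.degree_single]; omega)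
  have h2 := hc (Finsupp.single P ((n + 1 : ℕ) : ℤ)) (by rw [Finsupp.degree_single]; omega)
  rw [Finsupp.degree_single] at h1 h2
  obtain ⟨u, u0, h3, h4⟩ := (curveb_step (Finsupp.single P (n : ℤ)) P).resolve_left fun h => by
    rw [curveb_single, ell, h, ← ell] at h2
    omega
  rw [Finsupp.single_eq_same] at h3
  have h5 : u ∈ LL (Finsupp.single P ((n + 1 : ℕ) : ℤ)) := by
    rw [curveb_single, h4]
    exact Submodule.mem_sup_right (Submodule.mem_span_singleton_self u)
  have h6 : pole κ u = Finsupp.single P ((n + 1 : ℕ) : ℤ) := Finsupp.ext fun Q => by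
    have := h5.resolve_left u0 Q
    rw [pole_apply]
    rcases eq_or_ne Q P with rfl | hQ
    · rw [Finsupp.single_eq_same]; omega
    · rw [Finsupp.single_eq_of_ne hQ] at this ⊢; omega
  have h7 := curveb_tr (f := u) (P := P) (by omega)
  have h8 := degree_pole h7
  rw [h6, Finsupp.degree_single] at h8
  exact ⟨u, h7, by omega⟩

omit [IsAlgClosed κ] [IsCurve κ G] in
theorem curveb_small {y z : G} (hy : Transcendental κ y) (htop : κ⟮y, z⟯ = ⊤) {D : ℕ}
    (hz : Small κ (fun _ : Unit => y) D z) :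
    (minpoly κ⟮y⟯ z).natDegree = Module.finrank κ⟮y⟯ G ∧ Module.finrank κ⟮y⟯ G ≤ D := by
  have h1 := hz.natDegree_le (algebraicIndependent_unique_type_iff.2 hy)
  rw [Set.range_const] at h1
  have h2 : κ⟮y⟯⟮z⟯ = ⊤ := IntermediateField.restrictScalars_injective κ
    (by rw [IntermediateField.adjoin_simple_adjoin_simple, htop]; rfl)
  have h3 := IntermediateField.adjoin.finrank h1.1.isIntegral
  rw [h2, IntermediateField.finrank_top'] at h3
  exact ⟨h3.symm, h3 ▸ h1.2⟩

/-- Let `a(y)` be the top coefficient of the relation in `z`; `z' = a(y) z` is integral over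
`κ[y]` and lies in `LL (D ^ 2 • pole y)`; `y ^ j z' ^ i` (`i < N = [G : κ(y)] ≤ D`) give
`ell (m • pole y) ≥ N (m - D ^ 3)`; compare with `riemann_large`. -/
theorem genus_le {y z : G} (hy : Transcendental κ y) (htop : κ⟮y, z⟯ = ⊤) {D : ℕ}
    (hz : Small κ (fun _ : Unit => y) D z) : genus κ G ≤ D ^ 4 + 1 := by
  obtain ⟨h1, h2⟩ := curveb_small hy htop hz
  have h3 : (pole κ z).degree ≤ D := by
    by_cases hz' : Transcendental κ z
    · obtain ⟨P, P0, P1, P2⟩ := hz
      let e := Equiv.swap (none : Option Unit) (some ())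
      rw [degree_pole hz', Nat.cast_le]
      refine (curveb_small hz' (by rwa [Set.pair_comm]) ⟨MvPolynomial.rename e P,
        fun h => P0 (MvPolynomial.rename_injective _ e.injective (h.trans (map_zero _).symm)),
        (MvPolynomial.totalDegree_rename_le _ _).trans P1, ?_⟩).2
      rw [MvPolynomial.aeval_rename, ← P2]
      congr
      funext o
      rcases o with _ | ⟨⟨⟩⟩ <;> simp [e]
    · obtain ⟨c, rfl⟩ := not_not.1 (mt transcendental_iff.2 hz')
      rw [show pole κ (algebraMap κ G c) = 0 from Finsupp.ext fun P => by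
        simp [pole_apply, P.ord_const], map_zero]
      exact Int.natCast_nonneg D
  obtain ⟨c, hc⟩ := riemann_large (κ := κ) (G := G)
  have := IsCurve.finite hy
  have hn : 0 < Module.finrank κ⟮y⟯ G := Module.finrank_pos
  have h4 := curveb_lower hy (linearIndependent_pow (K := κ⟮y⟯) z) (D := D • pole κ z)
    (fun i => curveb_pow (mem_LL_pole z) (curveb_pole_nonneg z) (by omega)) c.toNat
  have h5 := curveb_deg_mono (curveb_pole_nonneg (κ := κ) z)
  have h6 := Int.self_le_toNat c
  have h7 : (c.toNat • pole κ y + D • pole κ z).degree =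
      c.toNat * Module.finrank κ⟮y⟯ G + D * (pole κ z).degree := by
    rw [map_add, map_nsmul, map_nsmul, degree_pole hy, nsmul_eq_mul, nsmul_eq_mul]
  rw [map_zero] at h5
  have h8 := hc _ (le_trans (by nlinarith) h7.ge)
  rw [h7] at h8
  rw [h1] at h4
  have h9 : D * D ≤ D ^ 4 := by
    rw [← sq]
    exact Nat.pow_le_pow_right (by omega) (by norm_num)
  zify at h4 h9 ⊢
  nlinarith

end Vale.Agent.P019
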