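import Vale.Agent.P019.CurveB

open scoped IntermediateField

namespace Vale.Agent.P019

variable {κ G : Type*} [Field κ] [Field G] [Algebra κ G] [IsAlgClosed κ] [IsCurve κ G]

noncomputable section

/-- `x` vanishes to order at least `n` -/
def curvecGe (P : Pt κ G) (n : ℤ) (x : G) : Prop := x = 0 ∨ n ≤ ord P.1 x

omit [IsAlgClosed κ] [IsCurve κ G] in
theorem curvec_mono {P : Pt κ G} {n m : ℤ} {x : G} (h : curvecGe P n x) (hm : m ≤ n) :
    curvecGe P m x := h.imp_right hm.trans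

theorem curvec_add {P : Pt κ G} {n : ℤ} {x y : G} (hx : curvecGe P n x) (hy : curvecGe P n y) :
    curvecGe P n (x + y) := by
  rcases eq_or_ne x 0 with rfl | hx0
  · rwa [zero_add]
  rcases eq_or_ne y 0 with rfl | hy0
  · rwa [add_zero]
  rcases eq_or_ne (x + y) 0 with h | h
  · exact Or.inl h
  exact Or.inr ((le_min (hx.resolve_left hx0) (hy.resolve_left hy0)).trans
    (P.min_le_ord_add h hx0 hy0))

theorem curvec_mul {P : Pt κ G} {n m : ℤ} {x y : G} (hx : curvecGe P n x) (hy : curvecGe P m y) :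
    curvecGe P (n + m) (x * y) := by
  rcases eq_or_ne x 0 with rfl | hx0
  · exact Or.inl (zero_mul y)
  rcases eq_or_ne y 0 with rfl | hy0
  · exact Or.inl (mul_zero x)
  exact Or.inr (P.ord_mul hx0 hy0 ▸ add_le_add (hx.resolve_left hx0) (hy.resolve_left hy0))

theorem curvec_mem_LL {D : Pt κ G →₀ ℤ} {f : G} : f ∈ LL D ↔ ∀ P, curvecGe P (-D P) f :=
  ⟨fun h P => h.imp_right fun h => h P, fun h => (eq_or_ne f 0).imp_right fun h0 P =>
    (h P).resolve_left h0⟩

variable (κ G) in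
/-- adeles -/
def curvecA : Submodule G (Pt κ G → G) where
  carrier := {α | ∃ D : Pt κ G →₀ ℤ, ∀ P, curvecGe P (-D P) (α P)}
  add_mem' := by
    rintro α β ⟨D, hD⟩ ⟨E, hE⟩
    exact ⟨D ⊔ E, fun P => curvec_add (curvec_mono (hD P) (by simp)) (curvec_mono (hE P) (by simp))⟩
  zero_mem' := ⟨0, fun _ => Or.inl rfl⟩
  smul_mem' := by
    rintro f α ⟨D, hD⟩
    exact ⟨pole κ f + D, fun P => by
      simpa [add_comm] using curvec_mul (curvec_mem_LL.1 (mem_LL_pole f) P) (hD P)⟩

/-- adeles bounded by a divisor -/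
def curvecAD (D : Pt κ G →₀ ℤ) : Submodule κ (curvecA κ G) where
  carrier := {α | ∀ P, curvecGe P (-D P) (α.1 P)}
  add_mem' := fun ha hb P => curvec_add (ha P) (hb P)
  zero_mem' := fun _ => Or.inl rfl
  smul_mem' := fun c α h P => by
    have := curvec_mul (Or.inr (P.ord_const c).ge) (h P)
    rwa [zero_add, ← Algebra.smul_def] at this

variable (κ G) in
/-- the constant adele -/
def curvecOne : curvecA κ G := ⟨1, 0, fun P => Or.inr (by simpa using (P.ord_const 1).ge)⟩

theorem curvec_one (f : G) (P : Pt κ G) : (f • curvecOne κ G).1 P = f := mul_one f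

/-- the space killed by differentials -/
def curvecN (D : Pt κ G →₀ ℤ) : Submodule κ (curvecA κ G) :=
  curvecAD D ⊔ (G ∙ curvecOne κ G).restrictScalars κ

theorem curvec_mem_N {D : Pt κ G →₀ ℤ} {α : curvecA κ G} :
    α ∈ curvecN D ↔ ∃ f : G, α - f • curvecOne κ G ∈ curvecAD D := by
  rw [curvecN, Submodule.mem_sup]
  constructor
  · rintro ⟨β, hβ, γ, hγ, rfl⟩
    obtain ⟨f, rfl⟩ := Submodule.mem_span_singleton.1 hγ
    exact ⟨f, by rwa [add_sub_cancel_right]⟩
  · rintro ⟨f, hf⟩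
    exact ⟨_, hf, f • curvecOne κ G, Submodule.mem_span_singleton.2 ⟨f, rfl⟩, sub_add_cancel _ _⟩

theorem curvec_AD_mono {D E : Pt κ G →₀ ℤ} (h : D ≤ E) : curvecAD D ≤ curvecAD E :=
  fun _ hα P => curvec_mono (hα P) (neg_le_neg (h P))

theorem curvec_N_mono {D E : Pt κ G →₀ ℤ} (h : D ≤ E) : curvecN D ≤ curvecN E :=
  sup_le_sup_right (curvec_AD_mono h) _

theorem curvec_local (D : Pt κ G →₀ ℤ) (P : Pt κ G) :
    ∃ α₀ ∈ curvecAD (D + Finsupp.single P 1), α₀ ∉ curvecAD D ∧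
      ∀ α ∈ curvecAD (D + Finsupp.single P 1), ∃ c : κ, α - c • α₀ ∈ curvecAD D := by
  classical
  obtain ⟨u, u0, hu⟩ := P.exists_ord_eq (-(D P + 1))
  have h1 : ∀ Q, curvecGe Q (-(D + Finsupp.single P 1 : Pt κ G →₀ ℤ) Q)
      ((Pi.single P u : Pt κ G → G) Q) := fun Q => by
    rcases eq_or_ne Q P with rfl | h
    · exact Or.inr (by simp [hu])
    · exact Or.inl (Pi.single_eq_of_ne h _)
  refine ⟨⟨Pi.single P u, _, h1⟩, h1, fun h => ?_, fun α hα => ?_⟩
  · have := h P
    simp only [Pi.single_eq_same, curvecGe, u0, hu, false_or] at this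
    omega
  have h2 : α.1 P * u⁻¹ ∈ P.1 := by
    have := curvec_mul (hα P) (Or.inr (P.ord_inv u).ge)
    rcases this with h | h
    · exact h ▸ P.1.zero_mem
    · exact (P.mem_iff _).2 (by simpa [hu] using h)
  obtain ⟨c, hc⟩ := Pt.exists_At (IsCurve.trdeg (κ := κ) (G := G)).le P h2
  refine ⟨c, fun Q => ?_⟩
  show curvecGe Q _ (α.1 Q - c • (Pi.single P u : Pt κ G → G) Q)
  rcases eq_or_ne Q P with rfl | h
  · have h3 : curvecGe Q 1 (α.1 Q * u⁻¹ - algebraMap κ G c) :=
      (eq_or_ne _ 0).imp_right fun h0 => (Q.val_lt_one_iff h0).1 hc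
    have h4 := curvec_mul h3 (Or.inr hu.ge)
    rw [sub_mul, inv_mul_cancel_right₀ u0, ← Algebra.smul_def] at h4
    rw [Pi.single_eq_same]
    exact curvec_mono h4 (by omega)
  · simpa [Pi.single_eq_of_ne h, Finsupp.single_eq_of_ne h] using hα Q

theorem curvec_step (D : Pt κ G →₀ ℤ) (P : Pt κ G) :
    (curvecN (D + Finsupp.single P 1) = curvecN D ∧ ell (D + Finsupp.single P 1) = ell D + 1) ∨
    (ell (D + Finsupp.single P 1) = ell D ∧ ∃ α₀ ∉ curvecN D,
      curvecN (D + Finsupp.single P 1) = curvecN D ⊔ κ ∙ α₀) := by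
  obtain ⟨α₀, a1, a2, a3⟩ := curvec_local D P
  have hle : D ≤ D + Finsupp.single P 1 :=
    le_add_of_nonneg_right (Finsupp.single_nonneg.2 zero_le_one)
  have hN : curvecN (D + Finsupp.single P 1) = curvecN D ⊔ κ ∙ α₀ := by
    refine le_antisymm (sup_le (fun α hα => ?_) (le_sup_of_le_left le_sup_right))
      (sup_le (curvec_N_mono hle) ?_)
    · obtain ⟨c, hc⟩ := a3 α hα
      rw [← sub_add_cancel α (c • α₀)]
      exact Submodule.add_mem_sup (Submodule.mem_sup_left hc)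
        (Submodule.mem_span_singleton.2 ⟨c, rfl⟩)
    · exact (Submodule.span_singleton_le_iff_mem _ _).2 (Submodule.mem_sup_left a1)
  have hL : ∀ (E : Pt κ G →₀ ℤ) (f : G), f ∈ LL E ↔ f • curvecOne κ G ∈ curvecAD E :=
    fun E f => curvec_mem_LL.trans (forall_congr' fun Q => by rw [curvec_one])
  by_cases h : α₀ ∈ curvecN D
  · refine Or.inl ⟨by rw [hN, sup_eq_left.2 ((Submodule.span_singleton_le_iff_mem _ _).2 h)],
      le_antisymm (ell_add_single_le D P) (Submodule.finrank_lt_finrank_of_lt ?_)⟩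
    obtain ⟨f, hf⟩ := curvec_mem_N.1 h
    refine lt_of_le_of_ne (LL_mono hle) fun e => a2 ?_
    have h1 : f ∈ LL (D + Finsupp.single P 1) := (hL _ f).2 (by
      simpa using sub_mem a1 (curvec_AD_mono hle hf))
    simpa using add_mem hf ((hL _ f).1 (e ▸ h1))
  · refine Or.inr ⟨?_, α₀, h, hN⟩
    rw [ell, ell, le_antisymm (fun f hf => ?_) (LL_mono hle)]
    obtain ⟨c, hc⟩ := a3 _ ((hL _ f).1 hf)
    rcases eq_or_ne c 0 with rfl | c0
    · exact (hL _ f).2 (by simpa using hc)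
    · refine absurd ?_ h
      have h1 : c • α₀ ∈ curvecN D := curvec_mem_N.2 ⟨f, by simpa using neg_mem hc⟩
      simpa [c0] using (curvecN D).smul_mem c⁻¹ h1

omit [IsAlgClosed κ] [IsCurve κ G] in
theorem curvec_deg_nonneg {E : Pt κ G →₀ ℤ} (h : 0 ≤ E) : 0 ≤ E.degree :=
  Finset.sum_nonneg fun P _ => h P

omit [IsAlgClosed κ] [IsCurve κ G] in
theorem curvec_eq_of_deg {D E : Pt κ G →₀ ℤ} (h : D ≤ E) (hd : E.degree ≤ D.degree) : E = D := by
  have h0 := sub_nonneg.2 h
  have h1 : ∑ P ∈ (E - D).support, (E - D) P = 0 :=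
    le_antisymm (by rwa [← Finsupp.degree_apply, map_sub, sub_nonpos]) (curvec_deg_nonneg h0)
  rw [Finset.sum_eq_zero_iff_of_nonneg fun P _ => h0 P] at h1
  exact sub_eq_zero.1 (Finsupp.support_eq_empty.1 (Finset.eq_empty_of_forall_notMem
    fun P hP => Finsupp.mem_support_iff.1 hP (h1 P hP)))

omit [IsAlgClosed κ] [IsCurve κ G] in
theorem curvec_ind {Q : (Pt κ G →₀ ℤ) → Prop} (h : ∀ D P, Q (D + Finsupp.single P 1) → Q D)
    {D E : Pt κ G →₀ ℤ} (hle : D ≤ E) (hE : Q E) : Q D := by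
  obtain ⟨n, hn⟩ := Int.eq_ofNat_of_zero_le (curvec_deg_nonneg (sub_nonneg.2 hle))
  induction n generalizing D with
  | zero => rwa [← curvec_eq_of_deg hle (by rw [map_sub] at hn; omega)]
  | succ n ih =>
    obtain ⟨P, hP⟩ : ∃ P, D P < E P := by
      by_contra H
      push Not at H
      rw [le_antisymm hle H, sub_self, map_zero] at hn
      omega
    refine h D P (ih (fun Q => ?_) ?_)
    · rcases eq_or_ne Q P with rfl | hQ
      · simpa using hP
      · simpa [Finsupp.single_eq_of_ne hQ] using hle Q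
    · rw [map_sub, map_add, Finsupp.degree_single]
      rw [map_sub] at hn
      omega

theorem curvec_N_top {D : Pt κ G →₀ ℤ} (hD : (ell D : ℤ) = D.degree + 1 - genus κ G) :
    curvecN D = ⊤ := by
  refine top_le_iff.1 fun α _ => ?_
  obtain ⟨E, hE⟩ := α.2
  refine curvec_ind (Q := fun D => (ell D : ℤ) = D.degree + 1 - genus κ G → α ∈ curvecN D)
    (fun D P ih h => ?_) (le_sup_left (b := E)) (fun _ => Submodule.mem_sup_left
      (curvec_AD_mono le_sup_right hE)) hD
  have h1 := riemann_ineq (D + Finsupp.single P 1)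
  rw [map_add, Finsupp.degree_single] at h1 ih
  rcases curvec_step D P with ⟨h2, h3⟩ | ⟨h2, -⟩
  · exact h2 ▸ ih (by omega)
  · omega

omit [IsAlgClosed κ] in
theorem curvec_lin {U : Type*} [AddCommGroup U] [Module κ U] {N : Submodule κ U} {a : U}
    (ha : a ∉ N) [FiniteDimensional κ (N ⊔ κ ∙ a).dualAnnihilator] :
    FiniteDimensional κ N.dualAnnihilator ∧ Module.finrank κ N.dualAnnihilator =
      Module.finrank κ (N ⊔ κ ∙ a).dualAnnihilator + 1 := by
  obtain ⟨ω, w1, w2⟩ := Submodule.exists_le_ker_of_notMem ha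
  have w3 : ω ∈ N.dualAnnihilator := (Submodule.mem_dualAnnihilator ω).2 w2
  have hm : ∀ φ, φ ∈ (N ⊔ κ ∙ a).dualAnnihilator ↔ φ ∈ N.dualAnnihilator ∧ φ a = 0 := fun φ => by
    rw [Submodule.dualAnnihilator_sup_eq, Submodule.mem_inf, Submodule.mem_dualAnnihilator (W := κ ∙ a)]
    refine and_congr_right fun _ => ⟨fun h => h a (Submodule.mem_span_singleton_self a), ?_⟩
    intro h w hw
    obtain ⟨c, rfl⟩ := Submodule.mem_span_singleton.1 hw
    rw [map_smul, h, smul_zero]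
  have e : N.dualAnnihilator = (N ⊔ κ ∙ a).dualAnnihilator ⊔ κ ∙ ω := by
    refine le_antisymm (fun φ hφ => ?_) (sup_le (fun φ hφ => ((hm φ).1 hφ).1)
      ((Submodule.span_singleton_le_iff_mem _ _).2 w3))
    rw [← sub_add_cancel φ ((φ a / ω a) • ω)]
    exact Submodule.add_mem_sup ((hm _).2 ⟨sub_mem hφ (Submodule.smul_mem _ _ w3), by simp [w1]⟩)
      (Submodule.mem_span_singleton.2 ⟨_, rfl⟩)
  have w4 : ω ∉ (N ⊔ κ ∙ a).dualAnnihilator := fun h => w1 ((hm ω).1 h).2
  have w5 := Submodule.finrank_sup_add_finrank_inf_eq (N ⊔ κ ∙ a).dualAnnihilator (κ ∙ ω)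
  rw [((Submodule.disjoint_span_singleton' (by rintro rfl; simp at w1)).2 w4).eq_bot, finrank_bot,
    finrank_span_singleton (by rintro rfl; simp at w1), ← e] at w5
  exact ⟨e ▸ inferInstance, w5⟩

theorem curvec_dim (D : Pt κ G →₀ ℤ) : FiniteDimensional κ (curvecN D).dualAnnihilator ∧
    (Module.finrank κ (curvecN D).dualAnnihilator : ℤ) = ell D - D.degree - 1 + genus κ G := by
  obtain ⟨E, hE⟩ := exists_riemann_eq (κ := κ) (G := G)
  refine curvec_ind (Q := fun D => FiniteDimensional κ (curvecN D).dualAnnihilator ∧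
    (Module.finrank κ (curvecN D).dualAnnihilator : ℤ) = ell D - D.degree - 1 + genus κ G)
    (fun D P h => ?_) (D := D) (E := D ⊔ E) le_sup_left ?_
  · obtain ⟨h1, h2⟩ := h
    rw [map_add, Finsupp.degree_single] at h2
    rcases curvec_step D P with ⟨h3, h4⟩ | ⟨h3, α₀, h4, h5⟩
    · rw [h3] at h1 h2
      exact ⟨h1, by omega⟩
    · rw [h5] at h1 h2
      obtain ⟨h6, h7⟩ := curvec_lin h4
      exact ⟨h6, by omega⟩
  · have h1 := riemann_ineq (D ⊔ E)
    have h2 := ell_sub_le (le_sup_right : E ≤ D ⊔ E)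
    have h3 : (ell (D ⊔ E) : ℤ) = (D ⊔ E).degree + 1 - genus κ G := by omega
    show FiniteDimensional κ (curvecN (D ⊔ E)).dualAnnihilator ∧ _
    rw [curvec_N_top h3, Submodule.dualAnnihilator_top, finrank_bot]
    exact ⟨inferInstance, by omega⟩

/-- the action of functions on differentials -/
def curvecT (ω : Module.Dual κ (curvecA κ G)) : G →ₗ[κ] Module.Dual κ (curvecA κ G) where
  toFun f := ω ∘ₗ Algebra.lsmul κ κ (curvecA κ G) f
  map_add' f g := by rw [map_add, LinearMap.comp_add]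
  map_smul' c f := by rw [map_smul, LinearMap.comp_smul]; rfl

theorem curvec_T (ω : Module.Dual κ (curvecA κ G)) (f : G) (α : curvecA κ G) :
    curvecT ω f α = ω (f • α) := rfl

theorem curvec_TT (ω : Module.Dual κ (curvecA κ G)) (f g : G) :
    curvecT (curvecT ω f) g = curvecT ω (f * g) :=
  LinearMap.ext fun α => by simp only [curvec_T, mul_smul]

theorem curvec_T_one (ω : Module.Dual κ (curvecA κ G)) : curvecT ω 1 = ω :=
  LinearMap.ext fun α => by simp only [curvec_T, one_smul]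

theorem curvec_T_inj {ω : Module.Dual κ (curvecA κ G)} (h : ω ≠ 0) :
    Function.Injective (curvecT ω) := by
  refine (injective_iff_map_eq_zero _).2 fun f hf => by_contra fun h0 => h ?_
  rw [← curvec_T_one ω, ← mul_inv_cancel₀ h0, ← curvec_TT, hf]
  rfl

theorem curvec_T_mem {ω : Module.Dual κ (curvecA κ G)} {D E : Pt κ G →₀ ℤ} {f : G}
    (hω : ω ∈ (curvecN D).dualAnnihilator) (hf : f ∈ LL E) :
    curvecT ω f ∈ (curvecN (D - E)).dualAnnihilator := by
  rw [Submodule.mem_dualAnnihilator] at hω ⊢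
  intro α hα
  obtain ⟨g, hg⟩ := curvec_mem_N.1 hα
  rw [curvec_T]
  refine hω _ (curvec_mem_N.2 ⟨f * g, fun P => ?_⟩)
  show curvecGe P _ (f * α.1 P - f * g * 1)
  rw [mul_assoc, ← mul_sub]
  exact curvec_mono (curvec_mul (curvec_mem_LL.1 hf P) (hg P)) (by simp)

theorem curvec_sup {ω : Module.Dual κ (curvecA κ G)} {D E : Pt κ G →₀ ℤ}
    (hD : ω ∈ (curvecN D).dualAnnihilator) (hE : ω ∈ (curvecN E).dualAnnihilator) :
    ω ∈ (curvecN (D ⊔ E)).dualAnnihilator := by
  classical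
  refine Submodule.dualAnnihilator_anti (V := curvecN D ⊔ curvecN E) (sup_le (fun α hα => ?_)
    (le_sup_of_le_left le_sup_right)) (by rw [Submodule.dualAnnihilator_sup_eq]; exact ⟨hD, hE⟩)
  have h1 : ∀ P, curvecGe P (-D P) (if E P ≤ D P then α.1 P else 0) := fun P => by
    split_ifs with h
    · simpa [h] using hα P
    · exact Or.inl rfl
  let β : curvecA κ G := ⟨_, D, h1⟩
  rw [← add_sub_cancel β α]
  refine Submodule.add_mem_sup (Submodule.mem_sup_left h1) (Submodule.mem_sup_left fun P => ?_)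
  show curvecGe P _ (α.1 P - if E P ≤ D P then α.1 P else 0)
  split_ifs with h
  · exact Or.inl (sub_self _)
  · simpa [(not_le.1 h).le] using hα P

theorem curvec_max {ω : Module.Dual κ (curvecA κ G)} (h0 : ω ≠ 0) {D : Pt κ G →₀ ℤ}
    (hD : ω ∈ (curvecN D).dualAnnihilator) : ∃ W, ω ∈ (curvecN W).dualAnnihilator ∧
      ∀ E, ω ∈ (curvecN E).dualAnnihilator → E ≤ W := by
  obtain ⟨c, hc⟩ := riemann_large (κ := κ) (G := G)
  obtain ⟨_, ⟨W, hW, rfl⟩, h⟩ := Int.exists_greatest_of_bdd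
    (P := fun n => ∃ E : Pt κ G →₀ ℤ, ω ∈ (curvecN E).dualAnnihilator ∧ E.degree = n)
    ⟨c, by
      rintro _ ⟨E, hE, rfl⟩
      by_contra H
      rw [curvec_N_top (hc E (not_le.1 H).le), Submodule.dualAnnihilator_top] at hE
      exact h0 hE⟩ ⟨_, D, hD, rfl⟩
  exact ⟨W, hW, fun E hE => sup_eq_right.1
    (curvec_eq_of_deg le_sup_right (h _ ⟨_, curvec_sup hE hW, rfl⟩))⟩

theorem curvec_rank_one {ω ω' : Module.Dual κ (curvecA κ G)} (h0 : ω ≠ 0) {D : Pt κ G →₀ ℤ}
    (hD : ω ∈ (curvecN D).dualAnnihilator) (hD' : ω' ∈ (curvecN D).dualAnnihilator) :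
    ∃ f, ω' = curvecT ω f := by
  obtain ⟨P⟩ : Nonempty (Pt κ G) := (infinite_Pt (κ := κ) (G := G)).nonempty
  set B : Pt κ G →₀ ℤ := Finsupp.single P (2 * |D.degree| + 3 * genus κ G + 1) with hB
  have b1 : B.degree = 2 * |D.degree| + 3 * genus κ G + 1 := Finsupp.degree_single _ _
  have b2 := neg_abs_le D.degree
  have b3 := abs_nonneg D.degree
  obtain ⟨h1, h2⟩ := curvec_dim (D - (D + B))
  have h3 := riemann_ineq (D + B)
  rw [ell_eq_zero (by rw [map_sub, map_add]; omega), map_sub, map_add] at h2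
  rw [map_add] at h3
  let S : LL (D + B) × LL (D + B) →ₗ[κ] (curvecN (D - (D + B))).dualAnnihilator :=
    LinearMap.codRestrict _ ((curvecT ω ∘ₗ (LL (D + B)).subtype).coprod
      (curvecT ω' ∘ₗ (LL (D + B)).subtype))
      fun x => add_mem (curvec_T_mem hD x.1.2) (curvec_T_mem hD' x.2.2)
  have hS : LinearMap.ker S ≠ ⊥ := fun h => by
    have := LinearMap.finrank_le_finrank_of_injective (f := S) fun x y hxy => by
      have : x - y ∈ LinearMap.ker S := by rw [LinearMap.mem_ker, map_sub, hxy, sub_self]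
      rwa [h, Submodule.mem_bot, sub_eq_zero] at this
    rw [Module.finrank_prod, ← ell] at this
    omega
  obtain ⟨⟨f, g⟩, x1, x2⟩ := (Submodule.ne_bot_iff _).1 hS
  have x3 : curvecT ω f + curvecT ω' g = 0 := congrArg Subtype.val x1
  have x4 : (g : G) ≠ 0 := fun hg => x2 (by
    rw [hg, map_zero, add_zero, ← map_zero (curvecT ω)] at x3
    exact Prod.ext (Subtype.ext (curvec_T_inj h0 x3)) (Subtype.ext hg))
  refine ⟨-f * (g : G)⁻¹, ?_⟩
  rw [← curvec_TT, map_neg, neg_eq_of_add_eq_zero_right x3, curvec_TT, mul_inv_cancel₀ x4,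
    curvec_T_one]

end

/-- Riemann-Roch by Weil differentials (Stichtenoth 1.5). Adeles `A` = functions `α : Pt → G`
integral at almost all points, `A D = {α | ∀ P, α P = 0 ∨ -D P ≤ ord (α P)}`.
(1) `dim A D' / A D = deg D' - deg D`; (2) `dim (A D' + G)/(A D + G) =
(deg D' - ell D') - (deg D - ell D)`; (3) `A = A D + G` when `ell D = deg D + 1 - g`;
(4) `i D := dim A/(A D + G) = ell D - deg D - 1 + g`. `Ω D` = functionals on `A` killing
`A D + G`; `G` acts on `Ω = ⋃ Ω D` by `(f ω) α = ω (f α)`; `dim_G Ω = 1` (two independent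
differentials would give `2 ell (D + B) ≤ i (-B)` for all large `B`); a nonzero `ω` has a largest
`W` with `ω ∈ Ω W` (closed under `⊔`, degree bounded), and `f ↦ f ω` is an isomorphism
`LL (W - D) ≃ Ω D`. -/
theorem riemann_roch : ∃ W : Pt κ G →₀ ℤ, ∀ D : Pt κ G →₀ ℤ,
    (ell D : ℤ) = D.degree + 1 - genus κ G + ell (W - D) := by
  obtain ⟨P⟩ : Nonempty (Pt κ G) := (infinite_Pt (κ := κ) (G := G)).nonempty
  obtain ⟨-, h1⟩ := curvec_dim (Finsupp.single P (-2))
  rw [Finsupp.degree_single] at h1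
  obtain ⟨ω, w1, w0⟩ := (Submodule.ne_bot_iff (curvecN (Finsupp.single P (-2))).dualAnnihilator).1
    fun h => by rw [h, finrank_bot] at h1; omega
  obtain ⟨W, w2, w3⟩ := curvec_max w0 w1
  refine ⟨W, fun D => ?_⟩
  have e : (curvecN D).dualAnnihilator = (LL (W - D)).map (curvecT ω) := by
    refine le_antisymm (fun ω' h' => ?_) ?_
    · obtain ⟨f, rfl⟩ := curvec_rank_one w0
        (Submodule.dualAnnihilator_anti (curvec_N_mono inf_le_left) w2)
        (Submodule.dualAnnihilator_anti (curvec_N_mono (inf_le_right (a := W))) h')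
      refine ⟨f, (eq_or_ne f 0).imp_right fun f0 Q => ?_, rfl⟩
      have h2 := curvec_T_mem h' (f := f⁻¹) (E := dv κ f)
        (Or.inr fun Q => by rw [Q.ord_inv, dv_apply])
      rw [curvec_TT, mul_inv_cancel₀ f0, curvec_T_one] at h2
      have h3 := w3 _ h2 Q
      simp only [Finsupp.sub_apply, dv_apply] at h3 ⊢
      omega
    · rintro _ ⟨f, hf, rfl⟩
      simpa using curvec_T_mem w2 hf
  have h2 := (curvec_dim D).2
  rw [e, ← (Submodule.equivMapOfInjective _ (curvec_T_inj w0) _).finrank_eq, ← ell] at h2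
  omega

end Vale.Agent.P019
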