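import Vale.Agent.P019.CurveB
import Vale.Agent.P019.Gal1

open scoped IntermediateField

namespace Vale.Agent.P019

variable {κ G : Type*} [Field κ] [Field G] [Algebra κ G] [IsAlgClosed κ] [IsCurve κ G]

theorem curved_pw {x : G} {j m : ℕ} (h : j ≤ m) : x ^ j ∈ LL (m • pole κ x) :=
  curveb_pow (mem_LL_pole x) (curveb_pole_nonneg x) h

theorem curved_mul {x f : G} {j d m : ℕ} (hf : f ∈ LL (d • pole κ x)) (h : j + d ≤ m) :
    x ^ j * f ∈ LL (m • pole κ x) :=
  LL_mono (by rw [← add_nsmul]; exact nsmul_le_nsmul_left (curveb_pole_nonneg x) h)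
    (LL_mul (curved_pw le_rfl) hf)

theorem curved_div {x f : G} (hx : x ≠ 0) {D M : ℕ} (h1 : f ∈ LL ((M + 1) • pole κ x))
    (h2 : x ^ D * f ∈ LL ((D + M) • pole κ x)) : f ∈ LL (M • pole κ x) := by
  refine (eq_or_ne f 0).imp_right fun f0 P => ?_
  have a1 := h1.resolve_left f0 P
  have a2 := h2.resolve_left (mul_ne_zero (pow_ne_zero _ hx) f0) P
  rw [P.ord_mul (pow_ne_zero _ hx) f0, P.ord_pow] at a2
  simp only [Finsupp.smul_apply, pole_apply, nsmul_eq_mul] at a1 a2 ⊢
  rcases le_total (-ord P.1 x) 0 with h | h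
  · simpa [max_eq_right h] using a1
  · rw [max_eq_left h] at a2 ⊢
    push_cast at a2
    linarith

open scoped IntermediateField.algebraAdjoinAdjoin in
theorem curved_indep {x : G} (hx : x ≠ 0) {ι : Type*} [Fintype ι] {v : ι → G} {M : ℕ}
    (hv : ∀ i, v i ∈ LL ((M + 1) • pole κ x))
    (h : ∀ c : ι → κ, ∑ i, c i • v i ∈ LL (M • pole κ x) → c = 0) :
    LinearIndependent κ⟮x⟯ v := by
  refine (LinearIndependent.iff_fractionRing (Algebra.adjoin κ {x}) κ⟮x⟯).1
    (Fintype.linearIndependent_iff.2 fun g hg => ?_)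
  choose p hp using fun i => Algebra.adjoin_mem_exists_aeval κ x (g i).2
  have hg' : ∑ i, Polynomial.aeval x (p i) * v i = 0 := by
    simp only [hp]
    exact hg
  have key : ∀ D : ℕ, (∀ i, (p i).degree < D) → ∀ i, p i = 0 := by
    intro D
    induction D with
    | zero => exact fun H i => Polynomial.degree_eq_bot.1 (Nat.WithBot.lt_zero_iff.1 (H i))
    | succ D ih =>
      intro H
      have h1 : ∀ i, Polynomial.aeval x (p i) = ∑ j ∈ Finset.range D, (p i).coeff j • x ^ j +
          (p i).coeff D • x ^ D := fun i => by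
        rw [← Finset.sum_range_succ, Polynomial.aeval_eq_sum_range' (Nat.lt_succ_iff.2
          (Polynomial.natDegree_le_iff_coeff_eq_zero.2 fun m hm =>
            (Polynomial.degree_lt_iff_coeff_zero _ _).1 (H i) m hm))]
      have h2 : x ^ D * ∑ i, (p i).coeff D • v i =
          -∑ i, ∑ j ∈ Finset.range D, (p i).coeff j • (x ^ j * v i) := by
        rw [eq_neg_iff_add_eq_zero, ← hg', Finset.mul_sum, ← Finset.sum_add_distrib]
        refine Finset.sum_congr rfl fun i _ => ?_
        rw [h1, add_mul, Finset.sum_mul, add_comm, mul_smul_comm, smul_mul_assoc]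
        simp only [smul_mul_assoc]
      have h3 := h _ (curved_div hx (D := D) (sum_mem fun i _ => Submodule.smul_mem _ _ (hv i))
        (h2 ▸ neg_mem (sum_mem fun i _ => sum_mem fun j hj => Submodule.smul_mem _ _
          (curved_mul (hv i) (by have := Finset.mem_range.1 hj; omega)))))
      refine ih fun i => (Polynomial.degree_lt_iff_coeff_zero _ _).2 fun m hm => ?_
      rcases hm.eq_or_lt with rfl | hm
      · exact congrFun h3 i
      · exact (Polynomial.degree_lt_iff_coeff_zero _ _).1 (H i) m hm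
  intro i
  refine Subtype.ext ?_
  rw [← hp, key (∑ i, (p i).natDegree + 1) (fun i => Polynomial.degree_le_natDegree.trans_lt ?_) i,
    map_zero]
  · rfl
  · exact_mod_cast Nat.lt_succ_iff.2 (Finset.single_le_sum (f := fun i => (p i).natDegree)
      (fun _ _ => Nat.zero_le _) (Finset.mem_univ i))

theorem curved_step {x : G} (hx : x ≠ 0) {M : ℕ} {s : Finset G}
    (hs : (LL ((M + 1) • pole κ x) : Set G) ⊆ Submodule.span κ⟮x⟯ (s : Set G)) :
    ell ((M + 1) • pole κ x) ≤ ell (M • pole κ x) + s.card := by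
  obtain ⟨W, h1, h2⟩ := IsModularLattice.exists_disjoint_and_sup_eq
    (LL_mono (nsmul_le_nsmul_left (curveb_pole_nonneg (κ := κ) x) (Nat.le_succ M)))
  have hW : W ≤ LL ((M + 1) • pole κ x) := h2 ▸ le_sup_right
  have := Submodule.finiteDimensional_of_le hW
  let w := Module.finBasis κ W
  have h3 := curved_indep hx (v := fun i => (w i : G)) (fun i => hW (w i).2) fun c hc =>
    funext (Fintype.linearIndependent_iff.1 w.linearIndependent c (Subtype.ext (by
      simpa using Submodule.disjoint_def.1 h1 _ hc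
        (sum_mem fun i _ => Submodule.smul_mem _ _ (w i).2))))
  have h4 := linearIndependent_le_span_aux' _ h3 (s : Set G)
    (by rintro _ ⟨i, rfl⟩; exact hs (hW (w i).2))
  have h5 := Submodule.finrank_add_le_finrank_add_finrank (LL (M • pole κ x)) W
  rw [h2] at h5
  simp only [Fintype.card_fin, SetLike.coe_sort_coe, Fintype.card_coe] at h4
  exact h5.trans (Nat.add_le_add_left h4 _)

theorem curved_greedy {x : G} (hx : Transcendental κ x) (M : ℕ) : ∃ (s : Finset G) (d : G → ℕ),
    LinearIndepOn κ⟮x⟯ id (s : Set G) ∧ (∀ f ∈ s, f ∈ LL (d f • pole κ x)) ∧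
      ∑ f ∈ s, d f + ell (M • pole κ x) ≤ (M + 1) * s.card := by
  classical
  have := IsCurve.finite hx
  induction M with
  | zero =>
    exact ⟨{1}, 0, by simp, fun f hf => by
      rw [Finset.mem_singleton.1 hf, ← pow_zero x]; exact curved_pw le_rfl, by simp [ell_zero]⟩
  | succ M ih =>
    obtain ⟨s, d, h1, h2, h3⟩ := ih
    obtain ⟨b, b1, b2, b3, b4⟩ := exists_linearIndepOn_id_extension h1
      (Set.subset_union_left (t := LL ((M + 1) • pole κ x)))
    obtain ⟨t, rfl⟩ := (LinearIndependent.setFinite b4).exists_finset_coe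
    have h4 := curved_step (x := x) (fun h => hx (h ▸ isAlgebraic_zero)) (Set.subset_union_right.trans b3)
    have hst : s ⊆ t := b2
    refine ⟨t, fun f => if f ∈ s then d f else M + 1, b4, fun f hf => ?_, ?_⟩
    · beta_reduce
      split_ifs with h
      · exact h2 f h
      · exact (b1 hf).resolve_left h
    · rw [← Finset.sum_sdiff hst, Finset.sum_congr rfl fun f hf => if_pos hf,
        Finset.sum_congr rfl fun f hf => if_neg (Finset.mem_sdiff.1 hf).2, Finset.sum_const,
        smul_eq_mul]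
      rw [← Finset.card_sdiff_add_card_eq_card hst] at h4 ⊢
      nlinarith

theorem curved_lower {x : G} (hx : Transcendental κ x) {ι : Type*} [Fintype ι] {b : ι → G}
    (hb : LinearIndependent κ⟮x⟯ b) {d : ι → ℕ} (hd : ∀ i, b i ∈ LL (d i • pole κ x)) (m : ℕ) :
    ∑ i, (m + 1 - d i) ≤ ell (m • pole κ x) := by
  have h1 : LinearIndependent κ fun j : ℕ => x ^ j := by
    have := (Polynomial.basisMonomials κ).linearIndependent.map' (Polynomial.aeval x).toLinearMap
      (LinearMap.ker_eq_bot.2 (_root_.transcendental_iff_injective.1 hx))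
    simpa [Function.comp_def] using this
  have h2 : LinearIndependent κ fun j : ℕ => IntermediateField.AdjoinSimple.gen κ x ^ j := by
    refine LinearIndependent.of_comp κ⟮x⟯.val.toLinearMap ?_
    simpa [Function.comp_def] using h1
  have h3 := curveb_card ((linearIndependent_smul h2 hb).comp
    (fun p : Σ i, Fin (m + 1 - d i) => ((p.2 : ℕ), p.1)) (by
      rintro ⟨i, j⟩ ⟨i', j'⟩ h
      obtain ⟨e1, rfl⟩ := Prod.ext_iff.1 h
      exact congrArg _ (Fin.ext e1))) (D := m • pole κ x) fun p => by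
    rw [Function.comp_apply, Algebra.smul_def, map_pow,
      IntermediateField.AdjoinSimple.algebraMap_gen]
    exact curved_mul (hd p.1) (by have := p.2.2; omega)
  simpa using h3

/-- Reduced basis. `L m = LL (m • pole x)`, multiplication by `x` is injective
`L m / L (m-1) → L (m+1) / L m`, these spaces have dimension `≤ N = [G : κ(x)]`. Choosing
complements gives `b i ∈ L (d i)` such that the `x ^ j b i`, `j + d i ≤ m`, form a basis of `L m`.
So `ell (m • pole x) = m r + r - ∑ d i` for large `m`, and `riemann_large`, `degree_pole` give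
`r = N` and the formula. -/
theorem exists_reduced_basis {x : G} (hx : Transcendental κ x) :
    ∃ (b : Module.Basis (Fin (Module.finrank κ⟮x⟯ G)) κ⟮x⟯ G)
      (d : Fin (Module.finrank κ⟮x⟯ G) → ℕ), (∀ i, b i ∈ LL (d i • pole κ x)) ∧
      (∑ i, d i : ℤ) = Module.finrank κ⟮x⟯ G + genus κ G - 1 := by
  have := IsCurve.finite hx
  have hN : 0 < Module.finrank κ⟮x⟯ G := Module.finrank_pos
  obtain ⟨s, d, h1, h2, h3⟩ := curved_greedy hx (Module.finrank κ⟮x⟯ G + genus κ G)
  have h4 := riemann_ineq ((Module.finrank κ⟮x⟯ G + genus κ G) • pole κ x)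
  rw [map_nsmul, degree_pole hx, nsmul_eq_mul] at h4
  have h5 : s.card ≤ Module.finrank κ⟮x⟯ G := by
    simpa using LinearIndependent.fintype_card_le_finrank h1
  have h6 : s.card = Module.finrank κ⟮x⟯ G := by
    refine le_antisymm h5 (not_lt.1 fun h => ?_)
    have h7 := Nat.zero_le (∑ f ∈ s, d f)
    generalize ∑ f ∈ s, d f = S at h3 h7
    zify at h3 h h7 hN
    push_cast at h4
    nlinarith
  let e := (s.equivFinOfCardEq h6).symm
  have h7 : LinearIndependent κ⟮x⟯ fun i => (e i : G) := LinearIndependent.comp h1 e e.injective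
  have h8 : ∀ i, (e i : G) ∈ LL (d (e i) • pole κ x) := fun i => h2 _ (e i).2
  refine ⟨basisOfLinearIndependentOfCardEqFinrank' _ h7 (by simp), fun i => d (e i),
    fun i => by simpa [basisOfLinearIndependentOfCardEqFinrank'] using h8 i, le_antisymm ?_ ?_⟩
  · rw [← Finset.sum_coe_sort, ← e.sum_comp, h6] at h3
    zify at h3
    push_cast at h4
    linarith
  · obtain ⟨c, hc⟩ := riemann_large (κ := κ) (G := G)
    have h9 := curved_lower hx h7 h8 c.toNat
    have a1 : (c.toNat • pole κ x).degree = c.toNat * Module.finrank κ⟮x⟯ G := by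
      rw [map_nsmul, degree_pole hx, nsmul_eq_mul]
    have a2 := Int.self_le_toNat c
    have a3 := hc _ (le_trans (by nlinarith) a1.ge)
    have a4 : ∑ i, ((c.toNat : ℤ) + 1 - d (e i)) ≤ ∑ i, ((c.toNat + 1 - d (e i) : ℕ) : ℤ) :=
      Finset.sum_le_sum fun i _ => by omega
    rw [Finset.sum_sub_distrib, Finset.sum_const, Finset.card_univ, Fintype.card_fin,
      nsmul_eq_mul] at a4
    zify at h9
    rw [a1] at a3
    linarith

omit [IsAlgClosed κ] [IsCurve κ G] in
theorem curved_tr (F : IntermediateField κ G) [FiniteDimensional F G] [Algebra.IsSeparable F G]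
    (P : Pt κ G) (g : G) :
    ((∀ Q : Pt κ G, Q.1.comap (algebraMap F G) = P.1.comap (algebraMap F G) → g ∈ Q.1) →
      (Algebra.trace F G g : G) ∈ P.1) ∧
    ((∀ Q : Pt κ G, Q.1.comap (algebraMap F G) = P.1.comap (algebraMap F G) →
      Q.1.valuation g < 1) → P.1.valuation (Algebra.trace F G g : G) < 1) := by
  obtain ⟨O, hO⟩ := exists_ext (algebraMap G (AlgebraicClosure G)) P.1
  have h1 : ∀ σ : G →ₐ[F] AlgebraicClosure G, (O.comap σ.toRingHom).comap (algebraMap F G) =
      P.1.comap (algebraMap F G) := fun σ => by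
    ext t
    rw [← hO]
    simp only [ValuationSubring.mem_comap, AlgHom.toRingHom_eq_coe, RingHom.coe_coe, σ.commutes]
    rfl
  have h2 : ∀ σ : G →ₐ[F] AlgebraicClosure G, O.comap σ.toRingHom ≠ ⊤ ∧
      ∀ c : κ, algebraMap κ G c ∈ O.comap σ.toRingHom := fun σ =>
    ⟨fun h => P.2.1 (eq_top_of_comap_eq_top (F := F) (by rw [← h1 σ, h]; rfl)), fun c =>
      (SetLike.ext_iff.1 (h1 σ) (algebraMap κ F c)).2 (P.2.2 c)⟩
  have h3 : algebraMap G (AlgebraicClosure G) (Algebra.trace F G g : G) =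
      ∑ σ : G →ₐ[F] AlgebraicClosure G, σ g :=
    trace_eq_sum_embeddings (K := F) (AlgebraicClosure G)
  refine ⟨fun h => ?_, fun h => ?_⟩
  · rw [← hO, ValuationSubring.mem_comap, h3]
    exact sum_mem fun σ _ => h ⟨_, h2 σ⟩ (h1 σ)
  · rw [← hO, basic_comap_lt_one, h3]
    exact O.valuation.map_sum_lt one_ne_zero fun σ _ =>
      (basic_comap_lt_one _ O g).1 (h ⟨_, h2 σ⟩ (h1 σ))

omit [IsAlgClosed κ] [IsCurve κ G] in
theorem curved_aeval (P : Pt κ G) {x : G} {a : κ} (h : At κ P.1 x a) (p : Polynomial κ) :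
    At κ P.1 (Polynomial.aeval x p) (p.eval a) := by
  have := At.aeval P.2.2 (f := fun _ : Unit => x) (c := fun _ => a) (fun _ => h)
    (Polynomial.aeval (MvPolynomial.X ()) p)
  rwa [← Polynomial.aeval_algHom_apply, ← MvPolynomial.coe_aeval_eq_eval, RingHom.coe_coe,
    ← Polynomial.aeval_algHom_apply, MvPolynomial.aeval_X, MvPolynomial.aeval_X,
    Polynomial.coe_aeval_eq_eval] at this

omit [IsCurve κ G] in
theorem curved_poly {x T : G} (hx : Transcendental κ x)
    (h : ∀ (P : Pt κ G) (a : κ), At κ P.1 x a → P.1.valuation ((x - algebraMap κ G a) * T) < 1)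
    (n : ℕ) : ∀ p q : Polynomial κ, q ≠ 0 → q.natDegree = n →
      Polynomial.aeval x q * T = Polynomial.aeval x p →
      ∃ r : Polynomial κ, T = Polynomial.aeval x r := by
  induction n with
  | zero =>
    intro p q q0 hq e
    obtain ⟨c, rfl⟩ := Polynomial.natDegree_eq_zero.1 hq
    have c0 : algebraMap κ G c ≠ 0 := (map_ne_zero _).2 (by simpa using q0)
    exact ⟨Polynomial.C c⁻¹ * p, by
      rw [map_mul, ← e, Polynomial.aeval_C, Polynomial.aeval_C, map_inv₀, inv_mul_cancel_left₀ c0]⟩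
  | succ n ih =>
    intro p q q0 hq e
    obtain ⟨a, ha⟩ := IsAlgClosed.exists_root q (by
      rw [Polynomial.degree_eq_natDegree q0, hq]; exact_mod_cast Nat.succ_ne_zero n)
    obtain ⟨q₁, rfl⟩ := Polynomial.dvd_iff_isRoot.2 ha
    obtain ⟨P, hP⟩ := exists_Pt_At hx a
    have q1 := right_ne_zero_of_mul q0
    have h1 : At κ P.1 (Polynomial.aeval x p) 0 := by
      rw [At, map_zero, sub_zero, ← e, map_mul (Polynomial.aeval x), mul_right_comm, map_mul]
      simp only [map_sub, Polynomial.aeval_X, Polynomial.aeval_C]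
      exact mul_lt_one_of_lt_of_le (h P a hP)
        ((P.1.valuation_le_one_iff _).2 ((curved_aeval P hP q₁).mem P.2.2))
    obtain ⟨p₁, rfl⟩ := Polynomial.dvd_iff_isRoot.2 ((curved_aeval P hP p).unique P.2.2 h1)
    rw [Polynomial.natDegree_mul (Polynomial.X_sub_C_ne_zero a) q1, Polynomial.natDegree_X_sub_C]
      at hq
    rw [map_mul, map_mul, mul_assoc] at e
    exact ih p₁ q₁ q1 (by omega) (mul_left_cancel₀ (fun h0 => Polynomial.X_sub_C_ne_zero a
      (_root_.transcendental_iff.1 hx _ h0)) e)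

/-- In a Galois hull the trace is the sum of the conjugates. At a place over `x = a` each conjugate
`w` has `v (w) < v (x - a)⁻¹`, so the trace has no pole at `a`; at infinity
`v w ≤ v (x ^ m)`. A rational function without finite poles is a polynomial. -/
theorem trace_mem {x : G} (hx : Transcendental κ x) [Algebra.IsSeparable κ⟮x⟯ G]
    (R : Pt κ G →₀ ℤ)
    (hR : ∀ P, R P ≠ 0 → ∃ a : κ, At κ P.1 x a ∧ R P < ord P.1 (x - algebraMap κ G a)) (m : ℕ)
    {f : G} (hf : f ∈ LL (R + m • pole κ x)) :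
    ∃ p : Polynomial κ, p.natDegree ≤ m ∧
      ((Algebra.trace κ⟮x⟯ G f : κ⟮x⟯) : G) = Polynomial.aeval x p := by
  have := IsCurve.finite hx
  have x0 : ∀ a : κ, x - algebraMap κ G a ≠ 0 := fun a h =>
    hx (sub_eq_zero.1 h ▸ isAlgebraic_algebraMap a)
  have x1 : x ≠ 0 := by simpa using x0 0
  rcases eq_or_ne f 0 with rfl | f0
  · exact ⟨0, by simp, by simp⟩
  have hf' := hf.resolve_left f0
  have hs : ∀ t : κ⟮x⟯, (Algebra.trace κ⟮x⟯ G (t * f) : G) = t * Algebra.trace κ⟮x⟯ G f :=
    fun t => by rw [show (t : G) * f = t • f from rfl, map_smul]; rfl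
  have hm := IntermediateField.mem_adjoin_simple_self κ x
  obtain ⟨p, q, hpq⟩ := (IntermediateField.mem_adjoin_simple_iff κ _).1 (Algebra.trace κ⟮x⟯ G f).2
  obtain ⟨r, hr⟩ : ∃ r : Polynomial κ, (Algebra.trace κ⟮x⟯ G f : G) = Polynomial.aeval x r := by
    rcases eq_or_ne q 0 with rfl | q0
    · exact ⟨0, by simpa using hpq⟩
    refine curved_poly hx (fun P a hP => ?_) _ p q q0 rfl (by
      rw [hpq, mul_div_cancel₀ _ fun h => q0 (_root_.transcendental_iff.1 hx _ h)])
    let t : κ⟮x⟯ := ⟨x - algebraMap κ G a, sub_mem hm (IntermediateField.algebraMap_mem _ a)⟩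
    refine hs t ▸ (curved_tr κ⟮x⟯ P (t * f)).2 fun Q hQ => ?_
    have h1 : At κ Q.1 x a := (basic_comap_lt_one (algebraMap κ⟮x⟯ G) Q.1 t).1
      (hQ ▸ (basic_comap_lt_one (algebraMap κ⟮x⟯ G) P.1 t).2 hP)
    have h2 := (Q.val_lt_one_iff (x0 a)).1 h1
    have h3 := (Q.mem_iff x).1 (h1.mem Q.2.2)
    have h4 := hf' Q
    rw [Finsupp.add_apply, Finsupp.smul_apply, pole_apply, max_eq_right (by omega), smul_zero] at h4
    rw [Q.val_lt_one_iff (mul_ne_zero (x0 a) f0), Q.ord_mul (x0 a) f0]
    rcases eq_or_ne (R Q) 0 with h | h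
    · omega
    · obtain ⟨a', h5, h6⟩ := hR Q h
      rw [h5.unique Q.2.2 h1] at h6
      omega
  refine ⟨r, ?_, hr⟩
  rcases eq_or_ne r 0 with rfl | r0
  · simp
  obtain ⟨P, hP⟩ := exists_Pt_pole hx
  let t : κ⟮x⟯ := ⟨(x ^ m)⁻¹, inv_mem (pow_mem hm m)⟩
  have h1 := (curved_tr κ⟮x⟯ P (t * f)).1 fun Q hQ => by
    have h1 : x ∉ Q.1 := fun h => hP ((SetLike.ext_iff.1 hQ ⟨x, hm⟩).1 h)
    have h2 : R Q = 0 := by_contra fun h => (hR Q h).elim fun a ha => h1 (ha.1.mem Q.2.2)
    have h4 := hf' Q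
    rw [Q.mem_iff] at h1
    rw [Finsupp.add_apply, Finsupp.smul_apply, pole_apply, max_eq_left (by omega), h2] at h4
    rw [Q.mem_iff, Q.ord_mul (inv_ne_zero (pow_ne_zero m x1)) f0, Q.ord_inv, Q.ord_pow]
    simpa using h4
  have : P.1.valuation.IsTrivialOn κ := ⟨fun c hc => val_const_eq_one P.2.2 hc⟩
  have h2 : 1 < P.1.valuation x := not_le.1 (mt (P.1.valuation_le_one_iff x).1 hP)
  rw [hs, hr, ← P.1.valuation_le_one_iff, map_mul,
    Polynomial.valuation_aeval_eq_valuation_X_pow_natDegree_of_one_lt_valuation_X x h2 r0,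
    show (t : G) = (x ^ m)⁻¹ from rfl, map_inv₀, map_pow, inv_mul_le_one₀ (pow_pos (zero_lt_one.trans h2) m)] at h1
  exact (pow_le_pow_iff_right₀ h2).1 h1

/-- Hurwitz inequality. `f ↦ (Tr (f b i))` embeds `LL (R + m • pole x)` in a space of dimension
`∑ (m + d i + 1)` (the trace form is nondegenerate); compare with `riemann_ineq`. -/
theorem hurwitz {x : G} (hx : Transcendental κ x) [Algebra.IsSeparable κ⟮x⟯ G] (R : Pt κ G →₀ ℤ)
    (hR : ∀ P, R P ≠ 0 → ∃ a : κ, At κ P.1 x a ∧ R P < ord P.1 (x - algebraMap κ G a)) :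
    R.degree ≤ 2 * Module.finrank κ⟮x⟯ G + 2 * genus κ G - 2 := by
  have := IsCurve.finite hx
  obtain ⟨b, d, h1, h2⟩ := exists_reduced_basis hx
  let W : ∀ i, Submodule κ G := fun i =>
    Submodule.span κ (Set.range fun j : Fin (d i + 1) => x ^ (j : ℕ))
  have hW : ∀ i, FiniteDimensional κ (W i) := fun i =>
    FiniteDimensional.span_of_finite κ (Set.finite_range _)
  let T : ∀ i, LL R →ₗ[κ] W i := fun i => LinearMap.codRestrict _
    (κ⟮x⟯.val.toLinearMap ∘ₗ (Algebra.trace κ⟮x⟯ G).restrictScalars κ ∘ₗ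
      LinearMap.mulRight κ (b i) ∘ₗ (LL R).subtype) fun f => by
    obtain ⟨p, p1, p2⟩ := trace_mem hx R hR (d i) (LL_mul f.2 (h1 i))
    show (Algebra.trace κ⟮x⟯ G (f * b i) : G) ∈ _
    rw [p2, Polynomial.aeval_eq_sum_range' (Nat.lt_succ_iff.2 p1) x]
    exact sum_mem fun j hj => Submodule.smul_mem _ _
      (Submodule.subset_span ⟨⟨j, Finset.mem_range.1 hj⟩, rfl⟩)
  have h3 := LinearMap.finrank_le_finrank_of_injective (f := LinearMap.pi T)
    ((injective_iff_map_eq_zero _).2 fun f hf => Subtype.ext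
      ((traceForm_nondegenerate κ⟮x⟯ G).1 f fun g => by
        have e : Algebra.traceForm κ⟮x⟯ G f = 0 := b.ext fun i =>
          Subtype.ext (congrArg (fun y : W i => (y : G)) (congrFun hf i))
        rw [e, LinearMap.zero_apply]))
  have h4 : ∑ i, Module.finrank κ (W i) ≤ ∑ i, (d i + 1) :=
    Finset.sum_le_sum fun i _ => (finrank_range_le_card _).trans (Fintype.card_fin _).le
  have h5 := riemann_ineq R
  rw [Module.finrank_pi_fintype, ← ell] at h3
  rw [Finset.sum_add_distrib, Finset.sum_const, Finset.card_univ, Fintype.card_fin] at h4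
  have h6 := h3.trans h4
  zify at h6
  simp only [smul_eq_mul, mul_one] at h6
  linarith

/-- Take `R P = e P - 1` over the five values. Over each value `∑ e P = N` (`degree_pole` for
`(x - a)⁻¹`), and `2 (e - 1) ≥ e` when `ℓ ∣ e`, `2 (e - 1) ≥ e - 2` always. -/
theorem finrank_le_of_five {ℓ : ℕ} [Fact ℓ.Prime] {x : G} (hx : Transcendental κ x)
    [Algebra.IsSeparable κ⟮x⟯ G] (a : Fin 5 → κ) (ha : Function.Injective a) {n : ℕ}
    (hn : ∀ j, {P : Pt κ G | ¬ (ℓ : ℤ) ∣ ord P.1 (x - algebraMap κ G (a j))}.ncard ≤ n) :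
    Module.finrank κ⟮x⟯ G ≤ 4 * genus κ G + 10 * n := by
  classical
  have x0 : ∀ c : κ, x - algebraMap κ G c ≠ 0 := fun c h =>
    hx (sub_eq_zero.1 h ▸ isAlgebraic_algebraMap c)
  let R : Fin 5 → Pt κ G →₀ ℤ := fun j =>
    (dv κ (x - algebraMap κ G (a j))).mapRange (fun e => max (e - 1) 0) (by simp)
  have hR : ∀ j P, R j P = max (ord P.1 (x - algebraMap κ G (a j)) - 1) 0 := fun _ _ => rfl
  have hA : ∀ j P, R j P ≠ 0 → At κ P.1 x (a j) := fun j P h =>
    (P.val_lt_one_iff (x0 _)).2 (by rw [hR] at h; omega)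
  have h1 := hurwitz hx (∑ j, R j) fun P hP => by
    rw [Finsupp.finsetSum_apply] at hP ⊢
    obtain ⟨j, -, hj⟩ := Finset.exists_ne_zero_of_sum_ne_zero hP
    refine ⟨a j, hA j P hj, ?_⟩
    rw [Finset.sum_eq_single j (fun i _ hi => by_contra fun h =>
      hi (ha ((hA i P h).unique P.2.2 (hA j P hj)))) (by simp)]
    rw [hR] at hj ⊢
    omega
  have h2 : ∀ j, (Module.finrank κ⟮x⟯ G : ℤ) ≤ 2 * (R j).degree + 2 * n := fun j => by
    let I : Pt κ G →₀ ℤ :=
      (dv κ (x - algebraMap κ G (a j))).mapRange (fun e => if (ℓ : ℤ) ∣ e then 0 else 1) (by simp)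
    have hI : ∀ P, I P = if (ℓ : ℤ) ∣ ord P.1 (x - algebraMap κ G (a j)) then 0 else 1 :=
      fun _ => rfl
    have b1 : I.degree ≤ n := by
      have := hn j
      rw [show {P : Pt κ G | ¬ (ℓ : ℤ) ∣ ord P.1 (x - algebraMap κ G (a j))} = I.support from
        Set.ext fun P => by simp [hI], Set.ncard_coe_finset] at this
      refine (Finset.sum_le_card_nsmul _ _ 1 fun P _ => ?_).trans (by simpa using this)
      rw [hI]
      split_ifs <;> simp
    have b2 := curveb_deg_mono (D := pole κ (x - algebraMap κ G (a j))⁻¹) (E := 2 • R j + 2 • I)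
      fun P => by
        simp only [Finsupp.add_apply, Finsupp.smul_apply, pole_apply, hI, hR, P.ord_inv, neg_neg,
          nsmul_eq_mul, Nat.cast_ofNat]
        split_ifs with h
        · have : ord P.1 (x - algebraMap κ G (a j)) ≠ 1 := fun e =>
            (Fact.out : ℓ.Prime).one_lt.ne' (by rwa [e, ← Nat.cast_one, Int.natCast_dvd_natCast,
              Nat.dvd_one] at h)
          omega
        · omega
    have b3 : κ⟮x - algebraMap κ G (a j)⟯ = κ⟮x⟯ := by
      refine le_antisymm (IntermediateField.adjoin_simple_le_iff.2 (sub_mem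
        (IntermediateField.mem_adjoin_simple_self κ x) (IntermediateField.algebraMap_mem _ _)))
        (IntermediateField.adjoin_simple_le_iff.2 ?_)
      simpa using add_mem (IntermediateField.mem_adjoin_simple_self κ (x - algebraMap κ G (a j)))
        (IntermediateField.algebraMap_mem _ (a j))
    rw [degree_pole fun h => hx (by
        simpa using (IsAlgebraic.inv_iff.1 h).add (isAlgebraic_algebraMap (a j))),
      curveb_adj_inv, b3, map_add, map_nsmul, map_nsmul] at b2
    simp only [nsmul_eq_mul, Nat.cast_ofNat] at b2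
    omega
  rw [map_sum, Fin.sum_univ_five] at h1
  have := h2 0
  have := h2 1
  have := h2 2
  have := h2 3
  have := h2 4
  omega

end Vale.Agent.P019
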