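import Vale.Agent.P019.Stmt

open scoped IntermediateField
open Filter

namespace Vale.Agent.P019

universe u

noncomputable section

/-! ### classes, functionals, commuting pairs -/

open Classical in
/-- class of a field element (junk value `0` at `0`) -/
def cl (ℓ : ℕ) {F : Type*} [Field F] (x : F) : V ℓ F :=
  if h : x = 0 then 0 else clu ℓ (Units.mk0 x h)

/-- functoriality of `V` -/
def Vmap (ℓ : ℕ) {F E : Type*} [Field F] [Field E] (φ : F →+* E) : V ℓ F →ₗ[ZMod ℓ] V ℓ E :=
  (ModN.liftEquiv' (G := Additive Fˣ) (n := ℓ) (H := ModN (Additive Eˣ) ℓ)).symm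
    ⟨(ModN.mkQ ℓ).comp (MonoidHom.toAdditive (Units.map φ.toMonoidHom)), fun g => by
      rw [← Nat.cast_smul_eq_nsmul (ZMod ℓ), ZMod.natCast_self, zero_smul]⟩

/-- linear functionals on `V` -/
abbrev DV (ℓ : ℕ) (F : Type*) [Field F] : Type _ := Module.Dual (ZMod ℓ) (V ℓ F)

/-- commuting pair -/
def CP {ℓ : ℕ} {F : Type*} [Field F] (f g : DV ℓ F) : Prop :=
  ∀ x : F, x ≠ 0 → x ≠ 1 → f (cl ℓ x) * g (cl ℓ (1 - x)) = f (cl ℓ (1 - x)) * g (cl ℓ x)

/-- a linear isomorphism that preserves commuting pairs in both directions -/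
def Iso {ℓ : ℕ} {K L : Type*} [Field K] [Field L] (Θ : V ℓ K ≃ₗ[ZMod ℓ] V ℓ L) : Prop :=
  ∀ f g : DV ℓ L, CP f g ↔ CP (f ∘ₗ Θ.toLinearMap) (g ∘ₗ Θ.toLinearMap)

/-! ### valuation rings -/

section val
variable (ℓ : ℕ) {F : Type*} [Field F]

/-- classes of units -/
def U (O : ValuationSubring F) : Submodule (ZMod ℓ) (V ℓ F) :=
  Submodule.span (ZMod ℓ) {v | ∃ x : F, O.valuation x = 1 ∧ cl ℓ x = v}

/-- classes of principal units -/
def U1 (O : ValuationSubring F) : Submodule (ZMod ℓ) (V ℓ F) :=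
  Submodule.span (ZMod ℓ) {v | ∃ x : F, O.valuation (x - 1) < 1 ∧ cl ℓ x = v}

/-- minimized inertia -/
def II (O : ValuationSubring F) : Submodule (ZMod ℓ) (DV ℓ F) := (U ℓ O).dualAnnihilator

/-- minimized decomposition -/
def DD (O : ValuationSubring F) : Submodule (ZMod ℓ) (DV ℓ F) := (U1 ℓ O).dualAnnihilator

variable {ℓ}

/-- `O` is a coarsest valuation ring whose inertia contains `σ` -/
def Max (σ : DV ℓ F) (O : ValuationSubring F) : Prop :=
  σ ∈ II ℓ O ∧ ∀ O' : ValuationSubring F, O ≤ O' → σ ∈ II ℓ O' → O' = O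

variable (ℓ)

/-- quasi prime divisor, described by commuting pairs -/
structure QP (O : ValuationSubring F) : Prop where
  ex : ∃ σ : DV ℓ F, σ ≠ 0 ∧ Max σ O ∧ II ℓ O = Submodule.span (ZMod ℓ) {σ}
  centre : ∀ f ∈ DD ℓ O, (∀ g ∈ DD ℓ O, CP f g) → f ∈ II ℓ O
  nonc : ∃ f ∈ DD ℓ O, ∃ g ∈ DD ℓ O, ¬ CP f g

end val

/-- partner valuation rings under `Θ` -/
def Partner {ℓ : ℕ} {K L : Type*} [Field K] [Field L] (Θ : V ℓ K ≃ₗ[ZMod ℓ] V ℓ L)
    (O : ValuationSubring K) (O' : ValuationSubring L) : Prop :=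
  (U ℓ O).map Θ.toLinearMap = U ℓ O' ∧ (U1 ℓ O).map Θ.toLinearMap = U1 ℓ O'

/-- residue field -/
abbrev Res {K : Type*} [Field K] (O : ValuationSubring K) : Type _ := IsLocalRing.ResidueField O

open Classical in
/-- residue map, extended by `0` outside `O` -/
def res {K : Type*} [Field K] (O : ValuationSubring K) (x : K) : Res O :=
  if h : x ∈ O then IsLocalRing.residue O ⟨x, h⟩ else 0

/-- residues of the constants -/
def kap (k : Type*) {K : Type*} [Field k] [Field K] [Algebra k K] (O : ValuationSubring K) :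
    Subfield (Res O) :=
  Subfield.closure (Set.range fun c : k => res O (algebraMap k K c))

/-- `Θb` is the isomorphism induced by `Θ` on the residue fields -/
def ResIso {ℓ : ℕ} {K L : Type*} [Field K] [Field L] (Θ : V ℓ K ≃ₗ[ZMod ℓ] V ℓ L)
    (O : ValuationSubring K) (O' : ValuationSubring L)
    (Θb : V ℓ (Res O) ≃ₗ[ZMod ℓ] V ℓ (Res O')) : Prop :=
  ∀ (x : K) (y : L), O.valuation x = 1 → O'.valuation y = 1 → Θ (cl ℓ x) = cl ℓ y →
    Θb (cl ℓ (res O x)) = cl ℓ (res O' y)

/-- the functional `f` on `V K` induces the functional `fb` on the residue field -/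
def ResFun {ℓ : ℕ} {K : Type*} [Field K] (O : ValuationSubring K) (f : DV ℓ K)
    (fb : DV ℓ (Res O)) : Prop :=
  f ∈ DD ℓ O ∧ ∀ x : K, O.valuation x = 1 → fb (cl ℓ (res O x)) = f (cl ℓ x)

/-! ### fields -/

section fields
variable (k : Type*) {K : Type*} [Field k] [Field K] [Algebra k K]

/-- relative algebraic closure of `k(S)` in `K` -/
def ac (S : Set K) : IntermediateField k K :=
  (algebraicClosure (IntermediateField.adjoin k S) K).restrictScalars k

/-- relative perfect closure of `k(S)` in `K` -/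
def pc (S : Set K) : IntermediateField k K :=
  (perfectClosure (IntermediateField.adjoin k S) K).restrictScalars k

variable (K) in
/-- purely inseparable over a finitely generated extension -/
def PF : Prop := ∃ S : Finset K, pc k (S : Set K) = ⊤

variable (K) in
/-- `PF` of transcendence degree one -/
def PFC : Prop := PF k K ∧ Algebra.trdeg k K = 1

/-- image in `V K` of the relative algebraic closure of `k(t)` -/
def H (ℓ : ℕ) (t : K) : Submodule (ZMod ℓ) (V ℓ K) :=
  LinearMap.range (Vmap ℓ (algebraMap (ac k {t}) K))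

/-- elements of `O` with residues algebraically independent over the residues of `k` -/
def RInd (O : ValuationSubring K) {ι : Type*} (y : ι → K) : Prop :=
  (∀ i, y i ∈ O) ∧ AlgebraicIndependent (kap k O) (fun i => res O (y i))

/-- the values of the `x j` are `ℤ`-independent modulo the values of `k` -/
def VInd (O : ValuationSubring K) {J : Type*} [Fintype J] (x : J → K) : Prop :=
  (∀ j, x j ≠ 0) ∧ ∀ (m : J → ℤ) (c : k),
    O.valuation (∏ j, x j ^ m j) = O.valuation (algebraMap k K c) → m = 0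

/-- Abhyankar valuation with rational rank one over `k` -/
def IsAbh (O : ValuationSubring K) : Prop :=
  ∃ (e : ℕ) (y : Fin e → K) (π : K), Algebra.trdeg k K = ((e + 1 : ℕ) : Cardinal) ∧ RInd k O y ∧
    VInd k O (fun _ : Unit => π)

/-- `π` is in the maximal ideal, with value infinitesimal with respect to the values of `k` -/
def Inf (O : ValuationSubring K) (π : K) : Prop :=
  π ≠ 0 ∧ O.valuation π < 1 ∧ ∀ c : k, O.valuation (algebraMap k K c) < 1 →
    ∀ n : ℕ, O.valuation (algebraMap k K c) < O.valuation π ^ n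

/-- good valuation -/
def IsGV (O : ValuationSubring K) : Prop :=
  ∃ (e : ℕ) (y : Fin e → K) (π : K), Algebra.trdeg k K = ((e + 1 : ℕ) : Cardinal) ∧ RInd k O y ∧
    Inf k O π

/-- prime divisor of `K / k` -/
def IsPrime (O : ValuationSubring K) : Prop :=
  (∀ c : k, algebraMap k K c ∈ O) ∧ O ≠ ⊤ ∧
    ∃ (e : ℕ) (y : Fin e → K), Algebra.trdeg k K = ((e + 1 : ℕ) : Cardinal) ∧ RInd k O y

variable (K) in
/-- points (used for transcendence degree one) -/
def Pt : Type _ := {O : ValuationSubring K // O ≠ ⊤ ∧ ∀ c : k, algebraMap k K c ∈ O}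

/-- `f` has the value `c` at `O` -/
def At (O : ValuationSubring K) (f : K) (c : k) : Prop := O.valuation (f - algebraMap k K c) < 1

/-- separable degree of `K` over `k(x)` -/
def sdeg (x : K) : ℕ := Field.finSepDegree k⟮x⟯ K

/-- general element -/
def GEN (t : K) : Prop := Transcendental k t ∧ ac k {t} = pc k {t}

/-- `O` is trivial on the relative algebraic closure of `k(t)` -/
def Hor (O : ValuationSubring K) (t : K) : Prop := ∀ x ∈ ac k {t}, x ∈ O

/-- `g` satisfies a nonzero relation of total degree at most `D` over `k[y]` -/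
def Small {ι : Type*} (y : ι → K) (D : ℕ) (g : K) : Prop :=
  ∃ P : MvPolynomial (Option ι) k, P ≠ 0 ∧ P.totalDegree ≤ D ∧
    MvPolynomial.aeval (fun o : Option ι => o.elim g y) P = 0

variable (K) in
/-- unramified classes -/
def Vnr (ℓ : ℕ) : Submodule (ZMod ℓ) (V ℓ K) := ⨅ P : Pt k K, U ℓ P.1

/-- support of a class -/
def supp {ℓ : ℕ} (z : V ℓ K) : Set (Pt k K) := {P | z ∉ U ℓ P.1}

end fields

/-- algebraic over a finite field -/
def FT (κ : Type*) [Field κ] : Prop :=
  ∃ p : ℕ, p.Prime ∧ CharP κ p ∧ ∀ a : κ, ∃ n : ℕ, 0 < n ∧ a ^ p ^ n = a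

/-- image of `V A` in `V K` -/
def HF (ℓ : ℕ) {k K : Type*} [Field k] [Field K] [Algebra k K] (A : IntermediateField k K) :
    Submodule (ZMod ℓ) (V ℓ K) := LinearMap.range (Vmap ℓ (algebraMap A K))

/-- restriction of a functional to an intermediate field -/
def rst {ℓ : ℕ} {k K : Type*} [Field k] [Field K] [Algebra k K] (A : IntermediateField k K)
    (ρ : DV ℓ K) : DV ℓ A := ρ ∘ₗ Vmap ℓ (algebraMap A K)

/-- the points `P` of `A` and `Q` of `B` correspond under `Θ` -/
def Match {ℓ : ℕ} {k K l L : Type*} [Field k] [Field K] [Algebra k K] [Field l] [Field L]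
    [Algebra l L] (Θ : V ℓ K ≃ₗ[ZMod ℓ] V ℓ L) {A : IntermediateField k K}
    {B : IntermediateField l L} (P : Pt k A) (Q : Pt l B) : Prop :=
  ((U ℓ P.1).map (Vmap ℓ (algebraMap A K))).map Θ.toLinearMap =
    (U ℓ Q.1).map (Vmap ℓ (algebraMap B L))

/-- `t` lies in `A` and has the value `a` at the point `P` of `A` -/
def AtK {k K : Type*} [Field k] [Field K] [Algebra k K] {A : IntermediateField k K}
    (P : Pt k A) (t : K) (a : k) : Prop := ∃ h : t ∈ A, At k P.1 (⟨t, h⟩ : A) a

/-- `t` lies in `A` and has a pole at the point `P` of `A` -/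
def PoleK {k K : Type*} [Field k] [Field K] [Algebra k K] {A : IntermediateField k K}
    (P : Pt k A) (t : K) : Prop := ∃ h : t ∈ A, (⟨t, h⟩ : A) ∉ P.1

/-- the points `P`, `P'` are linked through `v` -/
def Link (ℓ : ℕ) {k K : Type*} [Field k] [Field K] [Algebra k K] (v : ValuationSubring K)
    {A A' : IntermediateField k K} (P : Pt k A) (P' : Pt k A') : Prop :=
  ∃ ρ ∈ DD ℓ v, rst A ρ ≠ 0 ∧ rst A ρ ∈ II ℓ P.1 ∧ rst A' ρ ∈ II ℓ P'.1

/-- `s` is the coordinate on `B` corresponding to `t` -/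
def CoordF {ℓ : ℕ} {k K l L : Type*} [Field k] [Field K] [Algebra k K] [Field l] [Field L]
    [Algebra l L] (Θ : V ℓ K ≃ₗ[ZMod ℓ] V ℓ L) (σ : k ≃+* l) (t : K) (s : L)
    (B : IntermediateField l L) : Prop :=
  {a : k | ¬ ∀ (P : Pt k (ac k {t})) (Q : Pt l B), AtK P t a → AtK Q s (σ a) → Match Θ P Q}.Finite

/-- `s` is the coordinate corresponding to `t` -/
def Coord {ℓ : ℕ} {k K l L : Type*} [Field k] [Field K] [Algebra k K] [Field l] [Field L]
    [Algebra l L] (Θ : V ℓ K ≃ₗ[ZMod ℓ] V ℓ L) (σ : k ≃+* l) (t : K) (s : L) : Prop :=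
  GEN l s ∧ (H k ℓ t).map Θ.toLinearMap = H l ℓ s ∧ CoordF Θ σ t s (ac l {s})

/-- five translates of `g` have classes proportional to classes of small elements -/
def Nice (ℓ : ℕ) (k : Type*) {K : Type*} [Field k] [Field K] [Algebra k K] {ι : Type*}
    (y : ι → K) (D : ℕ) (g : K) : Prop :=
  ∃ a : Fin 5 → k, Function.Injective a ∧ ∀ j, ∃ (u : K) (c : ZMod ℓ), u ≠ 0 ∧ Small k y D u ∧
    cl ℓ (g - algebraMap k K (a j)) = c • cl ℓ u

/-- `g` lies in `A` and is not a `p`-th power in `A` (no condition in characteristic zero) -/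
def Nrm {k K : Type*} [Field k] [Field K] [Algebra k K] (A : IntermediateField k K) (g : K) :
    Prop := g ∈ A ∧ (ringExpChar K = 1 ∨ ∀ h ∈ A, h ^ ringExpChar K ≠ g)

/-- the conclusion of the main theorem, as an embedding -/
def Emb {ℓ : ℕ} (k : Type*) {K : Type*} (l : Type*) {L : Type*} [Field k] [Field K] [Algebra k K]
    [Field l] [Field L] [Algebra l L] (Θ : V ℓ K ≃ₗ[ZMod ℓ] V ℓ L) : Prop :=
  ∃ (c : ZMod ℓ) (ι : K →+* L), c ≠ 0 ∧ (∀ a : k, ι (algebraMap k K a) ∈ (algebraMap l L).range) ∧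
    ∀ x : K, Θ (cl ℓ x) = c • cl ℓ (ι x)

/-- ultralimit of valuation rings -/
def ulim {F : Type*} [Field F] {ι : Type*} (𝒰 : Ultrafilter ι) (O : ι → ValuationSubring F) :
    ValuationSubring F where
  carrier := {x | ∀ᶠ i in (𝒰 : Filter ι), x ∈ O i}
  mul_mem' := fun ha hb => by
    filter_upwards [ha, hb] with i h1 h2 using (O i).mul_mem _ _ h1 h2
  one_mem' := Eventually.of_forall fun i => (O i).one_mem
  add_mem' := fun ha hb => by
    filter_upwards [ha, hb] with i h1 h2 using (O i).add_mem _ _ h1 h2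
  zero_mem' := Eventually.of_forall fun i => (O i).zero_mem
  neg_mem' := fun ha => by
    filter_upwards [ha] with i h1 using (O i).neg_mem _ h1
  mem_or_inv_mem' := fun x =>
    Ultrafilter.eventually_or.1 (Eventually.of_forall fun i => (O i).mem_or_inv_mem x)

/-- composite of `O` with a valuation ring of its residue field -/
def vcomp {K : Type*} [Field K] (O : ValuationSubring K) (u : ValuationSubring (Res O)) :
    ValuationSubring K :=
  ValuationSubring.ofSubring ((u.toSubring.comap (IsLocalRing.residue O)).map O.subtype) (by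
    have key : ∀ x : K, x ∈ O → x⁻¹ ∉ O →
        x ∈ (u.toSubring.comap (IsLocalRing.residue O)).map O.subtype := by
      intro x hx hx'
      refine ⟨⟨x, hx⟩, ?_, rfl⟩
      have : (⟨x, hx⟩ : O) ∈ IsLocalRing.maximalIdeal O :=
        ValuationSubring.coe_mem_nonunits_iff.1 ((O.mem_nonunits_iff_or).2 (Or.inr hx'))
      have h0 : IsLocalRing.residue O ⟨x, hx⟩ = 0 := (IsLocalRing.residue_eq_zero_iff _).2 this
      show IsLocalRing.residue O ⟨x, hx⟩ ∈ u
      rw [h0]; exact u.zero_mem
    intro x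
    by_cases hx : x ∈ O
    · by_cases hx' : x⁻¹ ∈ O
      · rcases eq_or_ne x 0 with rfl | h0
        · exact Or.inl (Subring.zero_mem _)
        have hm : IsLocalRing.residue O ⟨x, hx⟩ * IsLocalRing.residue O ⟨x⁻¹, hx'⟩ = 1 := by
          rw [← map_mul, ← map_one (IsLocalRing.residue O)]
          congr 1
          exact Subtype.ext (mul_inv_cancel₀ h0)
        rcases u.mem_or_inv_mem (IsLocalRing.residue O ⟨x, hx⟩) with h | h
        · exact Or.inl ⟨⟨x, hx⟩, h, rfl⟩
        · refine Or.inr ⟨⟨x⁻¹, hx'⟩, ?_, rfl⟩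
          show IsLocalRing.residue O ⟨x⁻¹, hx'⟩ ∈ u
          rw [eq_inv_of_mul_eq_one_right hm]; exact h
      · exact Or.inl (key x hx hx')
    · exact Or.inr (key x⁻¹ ((O.mem_or_inv_mem x).resolve_left hx) (by simpa using hx)))

/-- the standing hypotheses on a pair: perfect, `PF`, characteristic not `ℓ`, dimension `d` -/
structure Std (ℓ : ℕ) (k K : Type*) [Field k] [Field K] [Algebra k K] (d : ℕ) : Prop where
  perf : PerfectField K
  pf : PF k K
  char : (ℓ : k) ≠ 0
  dim : Algebra.trdeg k K = (d : Cardinal)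

/-- the setting in dimension two, once the subgroups `H` are known to correspond -/
structure Set2 {ℓ : ℕ} (k : Type*) {K : Type*} (l : Type*) {L : Type*} [Field k] [Field K]
    [Algebra k K] [Field l] [Field L] [Algebra l L] (Θ : V ℓ K ≃ₗ[ZMod ℓ] V ℓ L) : Prop where
  hK : Std ℓ k K 2
  hL : Std ℓ l L 2
  iso : Iso Θ
  hB : ∀ t : K, Transcendental k t → ∃ s : L, Transcendental l s ∧
    (H k ℓ t).map Θ.toLinearMap = H l ℓ s
  hB' : ∀ s : L, Transcendental l s → ∃ t : K, Transcendental k t ∧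
    (H k ℓ t).map Θ.toLinearMap = H l ℓ s

/-- a family of good valuations specializing `s` to a constant and converging to the trivial one -/
structure Fam (ℓ : ℕ) (l : Type*) {L : Type*} [Field l] [Field L] [Algebra l L] (s : L) {e : ℕ}
    (y : Fin e → L) {ι : Type*} (𝒰 : Ultrafilter ι) (O : ι → ValuationSubring L) : Prop where
  gv : ∀ i, IsGV l (O i)
  rind : ∀ i, RInd l (O i) y
  ell : ∀ i, (O i).valuation (ℓ : L) = 1
  unit : ∀ x : L, x ≠ 0 → ∀ᶠ i in (𝒰 : Filter ι), (O i).valuation x = 1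
  const : ∀ i, ∀ f ∈ ac l {s}, res (O i) f ∈ kap l (O i)

/-- function field of a curve -/
class IsCurve (κ G : Type*) [Field κ] [Field G] [Algebra κ G] : Prop where
  ex : ∃ t : G, Transcendental κ t ∧ FiniteDimensional κ⟮t⟯ G

/-! ### base change of constants -/

/-- new constants: the algebraic closure of `k(S)` -/
def bcC (k : Type*) {K : Type*} [Field k] [Field K] [Algebra k K] (S : Set K) :
    IntermediateField k (AlgebraicClosure K) :=
  ac k (algebraMap K (AlgebraicClosure K) '' S)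

/-- perfect hull of the compositum of `K` with the new constants -/
def bcN (k : Type*) {K : Type*} [Field k] [Field K] [Algebra k K] (S : Set K) :
    IntermediateField (bcC k S) (AlgebraicClosure K) :=
  pc (bcC k S) (Set.range (algebraMap K (AlgebraicClosure K)))

/-- the inclusion of `K` in the base change -/
def bcHom (k : Type*) {K : Type*} [Field k] [Field K] [Algebra k K] (S : Set K) :
    K →+* bcN k S :=
  (algebraMap K (AlgebraicClosure K)).codRestrict (bcN k S) fun x =>
    (IntermediateField.mem_restrictScalars _).2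
      ((perfectClosure _ _).algebraMap_mem
        (⟨_, IntermediateField.subset_adjoin _ _ ⟨x, rfl⟩⟩ :
          IntermediateField.adjoin (bcC k S) (Set.range (algebraMap K (AlgebraicClosure K)))))

/-! ### ultraproducts -/

section up
variable {ι : Type*} (𝒰 : Ultrafilter ι) (R : ι → Type*) [∀ i, Field (R i)]

/-- ideal of families vanishing almost everywhere -/
def upI : Ideal (Π i, R i) where
  carrier := {f | ∀ᶠ i in (𝒰 : Filter ι), f i = 0}
  add_mem' := fun {a b} ha hb => by
    filter_upwards [ha, hb] with i h1 h2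
    simp [h1, h2]
  zero_mem' := Eventually.of_forall fun _ => rfl
  smul_mem' := fun c {x} hx => by
    filter_upwards [hx] with i h
    simp [h]

instance upI_isMaximal : (upI 𝒰 R).IsMaximal := by
  classical
  rw [Ideal.isMaximal_iff]
  refine ⟨fun h => ?_, fun J x hIJ hx hxJ => ?_⟩
  · have h' : ∀ᶠ i in (𝒰 : Filter ι), (1 : Π i, R i) i = 0 := h
    obtain ⟨i, hi⟩ := h'.exists
    simp at hi
  · have hx' : ∀ᶠ i in (𝒰 : Filter ι), ¬ x i = 0 := Ultrafilter.eventually_not.2 hx
    have h1 : (1 - (fun i => (x i)⁻¹) * x) ∈ upI 𝒰 R := by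
      show ∀ᶠ i in (𝒰 : Filter ι), _
      filter_upwards [hx'] with i hi
      simp [inv_mul_cancel₀ hi]
    have := J.add_mem (hIJ h1) (J.mul_mem_left (fun i => (x i)⁻¹) hxJ)
    simpa using this

/-- ultraproduct of fields -/
def UP : Type _ := (Π i, R i) ⧸ upI 𝒰 R

instance : Field (UP 𝒰 R) := Ideal.Quotient.field (upI 𝒰 R)

/-- class of a family -/
def upMk : (Π i, R i) →+* UP 𝒰 R := Ideal.Quotient.mk (upI 𝒰 R)

variable {R} in
/-- ultraproduct of subfields -/
def upC (κ : Π i, Subfield (R i)) : Subfield (UP 𝒰 R) :=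
  Subfield.closure {x | ∃ f : Π i, R i, (∀ i, f i ∈ κ i) ∧ upMk 𝒰 R f = x}

end up

end

end Vale.Agent.P019
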