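import Vale.Agent.P019.FieldC

open scoped IntermediateField

namespace Vale.Agent.P019

theorem desca_ext {F F' M : Type*} [Field F] [Field F'] [Field M] [IsAlgClosed M] [Algebra F M]
    [Algebra F' M] (h : ∀ x : M, IsAlgebraic F x) (h' : ∀ x : M, IsAlgebraic F' x) (e : F ≃+* F') :
    ∃ σ : M ≃+* M, ∀ a, σ (algebraMap F M a) = algebraMap F' M (e a) :=
  have : IsAlgClosure F M := ⟨inferInstance, ⟨h⟩⟩
  have : IsAlgClosure F' M := ⟨inferInstance, ⟨h'⟩⟩
  ⟨_, IsAlgClosure.equivOfEquiv_algebraMap M M e⟩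

theorem desca_conj {F M : Type*} [Field F] [Field M] [IsAlgClosed M] [Algebra F M]
    (h : ∀ x : M, IsAlgebraic F x) {g : M} (hs : IsSeparable F g)
    (hg : (minpoly F g).natDegree ≠ 1) : ∃ σ : M ≃ₐ[F] M, σ g ≠ g := by
  have : IsAlgClosure F M := ⟨inferInstance, ⟨h⟩⟩
  obtain ⟨y, hy, h2⟩ := (notMem_iff_exists_ne_and_isConjRoot hs (IsAlgClosed.splits _)).1 fun h =>
    hg (minpoly.natDegree_eq_one_iff.2 h)
  obtain ⟨σ, hσ⟩ := h2.symm.exists_algEquiv
  exact ⟨σ, fun h => hy (h.symm.trans hσ)⟩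

theorem desca_fin {F M : Type*} [Field F] [Field M] [Algebra F M] {t : M} (ht : IsAlgebraic F t) :
    {u | ∃ σ : M ≃+* M, (∀ a, σ (algebraMap F M a) = algebraMap F M a) ∧ σ t = u}.Finite := by
  refine ((minpoly F t).rootSet_finite M).subset ?_
  rintro _ ⟨σ, h, rfl⟩
  exact (isConjRoot_iff_mem_minpoly_rootSet ht.isIntegral).1
    (isConjRoot_of_algEquiv t { σ with commutes' := h })

theorem desca_up {k k' K : Type*} [Field k] [Field k'] [Field K] [Algebra k K] [Algebra k' K]
    (h : ∀ c, algebraMap k K c ∈ (algebraMap k' K).range) {S : Set K} {x : K} (hx : x ∈ ac k S) :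
    x ∈ ac k' S := by
  simpa using map_mem_ac (RingHom.id K) h hx

theorem desca_le {k K : Type*} [Field k] [Field K] [Algebra k K] {S T : Set K} {x : K}
    (hx : x ∈ ac k S) (h : ∀ u ∈ S, u ∈ ac k T) : x ∈ ac k T := ac_le_ac h hx

theorem desca_mem {k K : Type*} [Field k] [Field K] [Algebra k K] {A : IntermediateField k K}
    (h : A = ⊤) (x : K) : x ∈ A := h ▸ IntermediateField.mem_top

/-- translation of one transcendental: define it on `E[t]`, `E(t)`, extend by
`IsAlgClosure.equivOfEquiv` -/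
theorem exists_aut_translate {E M : Type*} [Field E] [Field M] [Algebra E M] [IsAlgClosed M] {t : M}
    (ht : Transcendental E t) (htop : ac E {t} = ⊤) (c : E) :
    ∃ σ : M ≃ₐ[E] M, σ t = t + algebraMap E M c := by
  have h1 : t ∈ ac E {t + algebraMap E M c} := by
    simpa using sub_mem (self_mem_ac (k := E) (t + algebraMap E M c)) ((ac E _).algebraMap_mem c)
  have ht' : Transcendental E (t + algebraMap E M c) := fun h =>
    ht (by simpa using h.sub (isAlgebraic_algebraMap c))
  let e := (RatFunc.algEquivOfTranscendental t ht).symm.trans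
    (RatFunc.algEquivOfTranscendental _ ht')
  obtain ⟨σ, hσ⟩ := desca_ext (fun x => mem_ac.1 (desca_mem htop x))
    (fun x => mem_ac.1 (ac_le_ac (Set.singleton_subset_iff.2 h1) (desca_mem htop x))) e.toRingEquiv
  exact ⟨{ σ with commutes' := fun a => (hσ (algebraMap E _ a)).trans (congrArg _ (e.commutes a)) },
    (hσ (IntermediateField.AdjoinSimple.gen E t)).trans (by simp [e])⟩

theorem desca_move {A L M : Type*} [Field A] [Infinite A] [Field L] [PerfectField L] [Field M]
    [IsAlgClosed M] [Algebra L M] (f : A →+* L) {T : Set M}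
    (hT : AlgebraicIndependent L ((↑) : T → M)) (htop : ac L T = ⊤) {g : M}
    (hg : g ∉ (algebraMap L M).range) :
    ∃ σ : M ≃ₐ[L] M, σ g ≠ g ∧ ∀ t ∈ T, ∃ a, σ t = t + algebraMap L M (f a) := by
  have hI : (AlgebraicIndependent.matroid L M).Indep T := hT
  by_cases ha : IsAlgebraic L g
  · have hs : IsSeparable L g :=
      PerfectField.separable_of_irreducible (minpoly.irreducible ha.isIntegral)
    have h1 := fieldb_deg hT ha.isIntegral
    rw [Subtype.range_coe] at h1
    obtain ⟨σ, hσ⟩ := desca_conj (fun x => mem_ac.1 (desca_mem htop x))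
      (hs.tower_top (IntermediateField.adjoin L T)) fun h => hg (minpoly.natDegree_eq_one_iff.1
        (le_antisymm (h1.trans h.le) (minpoly.natDegree_pos ha.isIntegral)))
    refine ⟨σ.restrictScalars L, hσ, fun t ht => ⟨0, ?_⟩⟩
    rw [map_zero, map_zero, add_zero]
    exact σ.commutes ⟨t, IntermediateField.subset_adjoin _ _ ht⟩
  obtain ⟨t, ht, h1⟩ : ∃ t ∈ T, g ∉ ac L (T \ {t}) := by
    by_contra! h
    have h2 := hI.closure_iInter_eq_biInter_closure_of_forall_subset
      (Js := fun o : Option T => o.elim T fun t => T \ {t.1}) (by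
        rintro (_ | t)
        exacts [subset_rfl, Set.sdiff_subset])
    rw [Set.eq_empty_of_forall_notMem (s := ⋂ _, _) fun x hx =>
      (Set.mem_iInter.1 hx (some ⟨x, Set.mem_iInter.1 hx none⟩)).2 rfl] at h2
    refine ha (mem_ac_empty.1 (fielda_cl.2 (h2.ge (Set.mem_iInter.2 ?_))))
    rintro (_ | t)
    exacts [fielda_cl.1 (desca_mem htop g), fielda_cl.1 (h t t.2)]
  have h2 : insert t (T \ {t}) = T := Set.insert_sdiff_self_of_mem ht
  have h3 := mem_ac.1 (mem_ac_exchange (h2.symm ▸ desca_mem htop g) h1)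
  have h4 : Transcendental (IntermediateField.adjoin L (T \ {t})) t := fun h =>
    hI.notMem_closure_sdiff_of_mem ht (fielda_cl.1 (mem_ac.2 h))
  have h5 : ac (IntermediateField.adjoin L (T \ {t})) {t} = ⊤ := top_le_iff.1 fun x _ => by
    refine desca_le (desca_up (k := L) (fun c => ⟨⟨_, IntermediateField.algebraMap_mem _ c⟩, rfl⟩)
      (desca_mem htop x)) fun u hu => ?_
    rcases eq_or_ne u t with rfl | h
    · exact self_mem_ac u
    · exact (ac (IntermediateField.adjoin L (T \ {t})) _).algebraMap_mem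
        ⟨u, IntermediateField.subset_adjoin _ _ ⟨hu, h⟩⟩
  choose σ hσ using fun a : A => exists_aut_translate h4 h5 (algebraMap L _ (f a))
  have h6 : ∀ a, ∀ u ∈ T \ {t}, σ a u = u := fun a u hu =>
    (σ a).commutes ⟨u, IntermediateField.subset_adjoin _ _ hu⟩
  by_contra! h
  have h7 : ∀ a, σ a g = g := fun a => by
    by_contra h'
    obtain ⟨u, hu, h8⟩ := h ((σ a).restrictScalars L) h'
    rcases eq_or_ne u t with rfl | h9
    · exact h8 a (hσ a)
    · exact h8 0 ((h6 a u ⟨hu, h9⟩).trans (by simp))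
  refine Set.infinite_of_injective_forall_mem (f := fun a => t + algebraMap L M (f a))
    (fun a b hab => f.injective ((algebraMap L M).injective (add_left_cancel hab))) (fun a => ?_)
    (desca_fin h3)
  refine ⟨(σ a).toRingEquiv, fun ⟨x, hx⟩ => show σ a x = x from ?_, hσ a⟩
  induction hx using IntermediateField.adjoin_induction with
  | mem x hx => exact hx.elim (fun h => h ▸ h7 a) (h6 a x)
  | algebraMap x => exact ((σ a).restrictScalars L).commutes x
  | add x y _ _ hx hy => rw [map_add, hx, hy]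
  | inv x _ hx => rw [map_inv₀, hx]
  | mul x y _ _ hx hy => rw [map_mul, hx, hy]

theorem desca_sub {L C N M : Type*} [Field L] [Field C] [Field N] [Algebra C N] [Field M]
    {j : L →+* N} (hN : pc C (Set.range j) = ⊤) (φ : N →+* M) (B : Subfield M)
    (h0 : ∀ x n, x ^ ringExpChar M ^ n ∈ B → x ∈ B) (h1 : ∀ c, φ (algebraMap C N c) ∈ B)
    (h2 : ∀ x, φ (j x) ∈ B) (x : N) : φ x ∈ B := by
  obtain ⟨n, hn⟩ := mem_pc.1 (desca_mem hN x)
  refine h0 _ n ?_
  rw [fielda_exp φ, ← map_pow]
  refine (Subfield.closure_le (t := B.comap φ)).2 ?_ hn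
  rintro _ (⟨c, rfl⟩ | ⟨x, rfl⟩)
  exacts [h1 c, h2 x]

theorem desca_res {F M : Type*} [Field F] [Field M] (ι : F →+* M) (σ : M ≃+* M)
    (h : ∀ x, σ (ι x) ∈ ι.range) (h' : ∀ x, σ.symm (ι x) ∈ ι.range) :
    ∃ τ : F ≃+* F, ∀ x, σ (ι x) = ι (τ x) := by
  obtain ⟨f, hf⟩ := fieldc_hom (σ.toRingHom.comp ι) ι h
  obtain ⟨f', hf'⟩ := fieldc_hom (σ.symm.toRingHom.comp ι) ι h'
  refine ⟨RingEquiv.ofRingHom f f' (RingHom.ext fun x => ι.injective ?_)
    (RingHom.ext fun x => ι.injective ?_), hf⟩
  · rw [RingHom.comp_apply, ← hf, RingHom.comp_apply, ← hf']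
    exact σ.apply_symm_apply _
  · rw [RingHom.comp_apply, ← hf', RingHom.comp_apply, ← hf]
    exact σ.symm_apply_apply _

/-- Enough automorphisms. `M` is an algebraic closure of `N`. Let `T` be a transcendence basis of
`C` over `A`; it is independent over `L` and `M` is algebraic over `L(T)`. If `g` is not algebraic
over `L`, take `T₀ ⊆ T` finite minimal with `g` algebraic over `L(T₀)` and `t ∈ T₀`; `g` is not
algebraic over `E = L(T \ t)`, so `t` is algebraic over `E(g)`; if all translations `t ↦ t + c`,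
`c ∈ A`, fixed `g`, then `t` would have infinitely many conjugates. If `g` is algebraic over `L`
and not in `L`, its minimal polynomial (separable, degree `> 1`) stays irreducible over `L(T)`; move
`g` to another root. All these automorphisms map `A(T)` onto itself, so they preserve `C`, and so
`N = pc C (j L)`. -/
theorem exists_aut_moving {A L C N : Type*} [Field A] [Infinite A] [Field L] [Algebra A L]
    [PerfectField L] [Field C] [IsAlgClosed C] [Field N] [PerfectField N] [Algebra C N]
    (j : L →+* N) (hA : ∀ a : A, j (algebraMap A L a) ∈ (algebraMap C N).range) {ι : Type*}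
    {y : ι → L} (hy : AlgebraicIndependent C (j ∘ y)) (htop : ac A (Set.range y) = ⊤)
    (hN : pc C (Set.range j) = ⊤) {g : N} (hg : g ∉ j.range) :
    ∃ (σ : N ≃+* N) (σ₀ : C ≃+* C), (∀ x, σ (j x) = j x) ∧
      (∀ c, σ (algebraMap C N c) = algebraMap C N (σ₀ c)) ∧ σ g ≠ g := by
  let M := AlgebraicClosure N
  obtain ⟨f, hf⟩ := fieldc_hom (j.comp (algebraMap A L)) (algebraMap C N) hA
  let _ : Algebra L M := ((algebraMap N M).comp j).toAlgebra
  let _ : Algebra A M := ((algebraMap L M).comp (algebraMap A L)).toAlgebra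
  let _ : Algebra A C := f.toAlgebra
  have : IsScalarTower A L M := .of_algebraMap_eq fun _ => rfl
  have : IsScalarTower A C M := .of_algebraMap_eq fun a => congrArg (algebraMap N M) (hf a)
  obtain ⟨T, hT⟩ := (AlgebraicIndependent.matroid A M).exists_isBasis (Set.range (algebraMap C M))
  have h1 : AlgebraicIndependent A ((↑) : T → M) := hT.indep
  have h2 : AlgebraicIndependent C (algebraMap L M ∘ y) :=
    hy.map' (f := IsScalarTower.toAlgHom C N M) (algebraMap N M).injective
  have h3 := (h1.sumElim_of_tower (by rw [Subtype.range_coe]; exact hT.subset) h2).comp _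
    Sum.swap_leftInverse.injective
  rw [Sum.elim_swap] at h3
  have h4 : AlgebraicIndependent (ac A (Set.range (algebraMap L M ∘ y))) ((↑) : T → M) :=
    (IntermediateField.algebraicIndependent_adjoin_iff.2
      (AlgebraicIndependent.sumElim_iff.1 h3).2).algebraicClosure
  have h5 : ∀ x, algebraMap L M x ∈ ac A (Set.range (algebraMap L M ∘ y)) := fun x => by
    rw [Set.range_comp]
    exact map_mem_ac _ (fun c => ⟨c, rfl⟩) (desca_mem htop x)
  let _ := ((algebraMap L M).codRestrict _ h5).toAlgebra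
  have : IsScalarTower L (ac A (Set.range (algebraMap L M ∘ y))) M :=
    .of_algebraMap_eq fun _ => rfl
  have h6 : AlgebraicIndependent L ((↑) : T → M) := h4.restrictScalars (RingHom.injective _)
  have h7 : ∀ c, algebraMap C M c ∈ ac A T := fun c => fielda_cl.2 (hT.subset_closure ⟨c, rfl⟩)
  have h8 : ∀ x, algebraMap N M x ∈ ac L T :=
    desca_sub hN _ (ac L T).toSubfield (fun x n => mem_ac_of_pow (fielda_pos n))
      (fun c => desca_up (k := A) (fun c => ⟨algebraMap A L c, rfl⟩) (h7 c))
      (ac L T).algebraMap_mem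
  have h9 : ac L T = ⊤ := top_le_iff.1 fun x _ => by
    let _ := ((algebraMap N M).codRestrict _ h8).toAlgebra
    have : IsScalarTower N (ac L T) M := .of_algebraMap_eq fun _ => rfl
    exact mem_ac_of_isAlgebraic ((Algebra.IsAlgebraic.isAlgebraic (R := N) x).tower_top _)
  obtain ⟨σ, hσ, hσT⟩ := desca_move (algebraMap A L) h6 h9 (g := algebraMap N M g)
    fun ⟨x, hx⟩ => hg ⟨x, (algebraMap N M).injective hx⟩
  have key : ∀ τ : M ≃ₐ[L] M, (∀ t ∈ T, τ t ∈ (algebraMap C M).range) →
      (∀ c, τ (algebraMap C M c) ∈ (algebraMap C M).range) ∧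
      ∀ x, τ (algebraMap N M x) ∈ (algebraMap N M).range := fun τ hτ => by
    have k1 : ∀ c, τ (algebraMap C M c) ∈ (algebraMap C M).range := fun c => by
      have k2 := map_mem_ac (k' := C) (τ : M →+* M) (fun a => ⟨algebraMap A C a,
        (IsScalarTower.algebraMap_apply A C M a).symm.trans (τ.commutes _).symm⟩) (h7 c)
      refine not_not.1 (mt transcendental_iff.2 (not_not.2 (mem_ac_empty.1 (desca_le k2 ?_))))
      rintro _ ⟨t, ht, rfl⟩
      obtain ⟨c, hc⟩ := hτ t ht
      exact hc ▸ (ac C _).algebraMap_mem c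
    refine ⟨k1, desca_sub hN ((τ : M →+* M).comp (algebraMap N M)) (algebraMap N M).fieldRange
      ?_ (fun c => ?_) fun x => ⟨j x, (τ.commutes x).symm⟩⟩
    · rintro x n ⟨a, ha⟩
      have := expChar_of_injective_ringHom (algebraMap N M).injective (ringExpChar N)
      obtain ⟨b, rfl⟩ := (iterateFrobeniusEquiv N (ringExpChar N) n).surjective a
      refine ⟨b, (iterateFrobenius M (ringExpChar N) n).injective ?_⟩
      rw [iterateFrobenius_def, iterateFrobenius_def, ← map_pow, ← fielda_exp (algebraMap N M), ← ha,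
        fielda_exp (algebraMap N M)]
      rfl
    · obtain ⟨c', hc⟩ := k1 c
      exact ⟨algebraMap C N c', hc⟩
  have hC : ∀ a, algebraMap L M (algebraMap A L a) ∈ (algebraMap C M).range := fun a =>
    ⟨algebraMap A C a, (IsScalarTower.algebraMap_apply A C M a).symm⟩
  obtain ⟨k1, k2⟩ := key σ fun t ht => by
    obtain ⟨a, ha⟩ := hσT t ht
    exact ha ▸ add_mem (hT.subset ht) (hC a)
  obtain ⟨k3, k4⟩ := key σ.symm fun t ht => by
    obtain ⟨a, ha⟩ := hσT t ht
    rw [show σ.symm t = t - algebraMap L M (algebraMap A L a) by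
      rw [σ.symm_apply_eq, map_sub, ha, σ.commutes, add_sub_cancel_right]]
    exact sub_mem (hT.subset ht) (hC a)
  obtain ⟨τ, hτ⟩ := desca_res _ σ.toRingEquiv k2 k4
  obtain ⟨τ₀, hτ₀⟩ := desca_res _ σ.toRingEquiv k1 k3
  exact ⟨τ, τ₀, fun x => (algebraMap N M).injective ((hτ _).symm.trans (σ.commutes x)),
    fun c => (algebraMap N M).injective ((hτ _).symm.trans (hτ₀ c)),
    fun h => hσ ((hτ g).trans (congrArg _ h))⟩

end Vale.Agent.P019
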