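import Vale.Agent.P019.LemRa
import Vale.Agent.P019.CurveF

open scoped IntermediateField

namespace Vale.Agent.P019

variable {ℓ : ℕ} [Fact ℓ.Prime] {k K C N : Type*} [Field k] [Infinite k] [Field K] [Algebra k K]
  [Field C] [IsAlgClosed C] [Field N] [Algebra C N]

omit [Infinite k] [IsAlgClosed C] in
theorem lemrb_hom (σ : k →+* N) (h : ∀ a : k, σ a ∈ (algebraMap C N).range) :
    ∃ φ : k →+* C, ∀ a, algebraMap C N (φ a) = σ a := by
  choose f hf using h
  have hi := (algebraMap C N).injective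
  exact ⟨⟨⟨⟨f, hi (by rw [hf, map_one, map_one])⟩,
    fun a b => hi (by rw [map_mul, hf, hf, hf, map_mul])⟩, hi (by rw [hf, map_zero, map_zero]),
    fun a b => hi (by rw [map_add, hf, hf, hf, map_add])⟩, hf⟩

theorem lemrb_tr {d : ℕ} (hN : Std ℓ C N d) (φ ψ : k →+* C) {c : ZMod ℓ} (hc : c ≠ 0) {f g : N}
    (hf : Transcendental C f)
    (h : ∀ a : k, cl ℓ (g - algebraMap C N (ψ a)) = c • cl ℓ (f - algebraMap C N (φ a))) :
    Transcendental C g := by
  rw [transcendental_iff]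
  rintro ⟨b, rfl⟩
  obtain ⟨a, ha⟩ :=
    ((finite_cl_eq_zero hN hf).preimage φ.injective.injOn).infinite_compl.nonempty
  have h1 := h a
  rw [← map_sub, cl_const] at h1
  exact ha ((smul_eq_zero.1 h1.symm).resolve_left hc)

theorem lemrb_mem {d : ℕ} (hN : Std ℓ C N d) (φ ψ : k →+* C) {c : ZMod ℓ} {f g : N}
    (h : ∀ a : k, cl ℓ (g - algebraMap C N (ψ a)) = c • cl ℓ (f - algebraMap C N (φ a))) :
    g ∈ ac C {f} := by
  by_contra hg
  obtain ⟨a, ha⟩ :=
    ((finite_not_good hN hg).preimage ψ.injective.injOn).infinite_compl.nonempty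
  simp only [Set.mem_compl_iff, Set.mem_preimage, Set.mem_ofPred_eq, not_not] at ha
  obtain ⟨O, -, hO, -, hU⟩ := ha
  apply hU
  rw [h a]
  refine Submodule.smul_mem _ _ ?_
  rcases eq_or_ne (f - algebraMap C N (φ a)) 0 with h0 | h0
  · rw [h0, cl_zero]
    exact zero_mem _
  · have h1 : f - algebraMap C N (φ a) ∈ ac C {f} :=
      sub_mem (self_mem_ac f) (IntermediateField.algebraMap_mem _ _)
    exact mem_U.2 ⟨_, val_eq_one_iff.2 ⟨h0, hO _ h1, hO _ (inv_mem h1)⟩, rfl⟩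

omit [Infinite k] in
theorem lemrb_fibres (hN : Std ℓ C N 1) (φ ψ : k →+* C) {c : ZMod ℓ} (hc : c ≠ 0) {f g : N}
    (hf : Transcendental C f)
    (h : ∀ a : k, cl ℓ (g - algebraMap C N (ψ a)) = c • cl ℓ (f - algebraMap C N (φ a))) :
    {a : k | ¬ ∀ P : Pt C N, At C P.1 f (φ a) → At C P.1 g (ψ a)}.Finite := by
  have h1 := (finite_ramified hN hf).preimage φ.injective.injOn
  have h2 : (⋃ P ∈ {P : Pt C N | g ∉ P.1}, {a : k | At C P.1 f (φ a)}).Finite :=
    (hN.pfc.finite_pole g).biUnion fun P _ => Set.Subsingleton.finite fun a ha b hb =>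
      φ.injective (At.unique P.2.2 ha hb)
  refine (h1.union h2).subset fun a ha => ?_
  by_contra ha'
  simp only [Set.mem_union, Set.mem_preimage, Set.mem_ofPred_eq, Set.mem_iUnion, not_or,
    not_exists, not_and] at ha'
  refine ha fun P hP => ?_
  have h3 : g - algebraMap C N (ψ a) ∈ P.1 :=
    sub_mem (by_contra fun h4 => ha'.2 P h4 hP) (P.2.2 _)
  refine lt_of_le_of_ne ((P.1.valuation_le_one_iff _).2 h3) fun h4 => ha'.1 P hP ?_
  have h5 : c • cl ℓ (f - algebraMap C N (φ a)) ∈ U ℓ P.1 := mem_U.2 ⟨_, h4, h a⟩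
  exact (Submodule.smul_mem_iff _ hc).1 h5

theorem lemrb_curve (hN : Std ℓ C N 1) (φ ψ : k →+* C) {c : ZMod ℓ} (hc : c ≠ 0) {f g : N}
    (hf : Transcendental C f)
    (h : ∀ a : k, cl ℓ (g - algebraMap C N (ψ a)) = c • cl ℓ (f - algebraMap C N (φ a))) :
    ∃ i j : ℕ, g ^ ringExpChar C ^ i = f ^ ringExpChar C ^ j ∧
      ∀ a : k, ψ a ^ ringExpChar C ^ i = φ a ^ ringExpChar C ^ j := by
  have hg := lemrb_tr hN φ ψ hc hf h
  have h1 := lemrb_fibres hN φ ψ hc hf h
  have := hN.perf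
  have h2 : g ∈ pc C {f} :=
    mem_pc_of_fibres hN.pfc hf (h1.infinite_compl.image φ.injective.injOn) (by
      rintro _ ⟨a, ha, rfl⟩
      exact ⟨ψ a, not_not.1 ha⟩)
  obtain ⟨i, hi⟩ := mem_pc.1 h2
  rw [fielda_exp (algebraMap C N)] at hi
  obtain ⟨A, B, hAB⟩ := (IntermediateField.mem_adjoin_simple_iff C _).1 hi
  have hg0 : g ≠ 0 := fun h0 => hg (h0 ▸ isAlgebraic_zero)
  have hB' : Polynomial.aeval f B ≠ 0 := fun h0 =>
    pow_ne_zero _ hg0 (by rw [hAB, h0, div_zero])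
  have hB : B ≠ 0 := fun h0 => hB' (by rw [h0, map_zero])
  rw [eq_div_iff hB'] at hAB
  have h3 : {a : k | ((iterateFrobenius C (ringExpChar C) i).comp ψ) a * B.eval (φ a) ≠
      A.eval (φ a)}.Finite := by
    refine h1.subset fun a ha h4 => ha ?_
    obtain ⟨P, hP⟩ := exists_Pt_At hf (φ a)
    have h5 := At.aeval P.2.2 (f := ![f, g]) (c := ![φ a, ψ a])
      (fun o => by fin_cases o; exacts [hP, h4 P hP])
    have h6 := h5 (MvPolynomial.X 1 ^ ringExpChar C ^ i * B.toMvPolynomial 0)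
    have h7 := h5 (A.toMvPolynomial 0)
    simp only [map_mul, map_pow, MvPolynomial.aeval_X, MvPolynomial.eval_X,
      MvPolynomial.aeval_toMvPolynomial, MvPolynomial.eval_toMvPolynomial, Matrix.cons_val_zero,
      Matrix.cons_val_one] at h6 h7
    rw [hAB] at h6
    exact At.unique P.2.2 h6 h7
  obtain ⟨j, hj⟩ := eq_mul_X_pow_of_hom φ _ A B hB h3
  refine ⟨i, j, ?_, ?_⟩
  · rw [hj, map_mul, map_pow, Polynomial.aeval_X, mul_comm] at hAB
    exact mul_left_cancel₀ hB' hAB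
  · have h4 : {a : k | B.eval (φ a) = 0}.Finite :=
      (Polynomial.finite_setOfPred_isRoot hB).preimage φ.injective.injOn
    have h5 := hom_eq_of_finite ((iterateFrobenius C (ringExpChar C) i).comp ψ)
      ((iterateFrobenius C (ringExpChar C) j).comp φ) ((h3.union h4).subset fun a ha => by
        by_contra ha'
        simp only [Set.mem_union, Set.mem_ofPred_eq, not_or, not_not] at ha'
        apply ha
        apply mul_right_cancel₀ ha'.2
        rw [ha'.1, hj, Polynomial.eval_mul, Polynomial.eval_pow, Polynomial.eval_X, mul_comm]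
        rfl)
    exact fun a => RingHom.congr_fun h5 a

/-- One element. `f = τ x`, `f' = τ' x`. `f'` is transcendental (`finite_cl_eq_zero`) and lies in
`M = ac C {f}` (`finite_not_good`). In `M` (`Std.ac`, `Vmap_ac_injective`), for almost all `a`
every point with `f = τ a` has `f' = τ' a` (`finite_ramified`, poles of `f'`). By
`mem_pc_of_fibres`, `f' ^ q ^ i = A(f) / B(f)`; evaluate at such points and apply
`eq_mul_X_pow_of_hom`. -/
theorem rigid_elem {d : ℕ} (hN : Std ℓ C N d) (τ τ' : K →+* N)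
    (hτ : ∀ a : k, τ (algebraMap k K a) ∈ (algebraMap C N).range)
    (hτ' : ∀ a : k, τ' (algebraMap k K a) ∈ (algebraMap C N).range) {c : ZMod ℓ} (hc : c ≠ 0)
    (h : ∀ x : K, cl ℓ (τ' x) = c • cl ℓ (τ x)) {x : K} (hx : Transcendental C (τ x)) :
    ∃ i j : ℕ, τ' x ^ ringExpChar N ^ i = τ x ^ ringExpChar N ^ j ∧
      ∀ a : k, τ' (algebraMap k K a) ^ ringExpChar N ^ i =
        τ (algebraMap k K a) ^ ringExpChar N ^ j := by
  obtain ⟨φ, hφ⟩ := lemrb_hom (τ.comp (algebraMap k K)) hτ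
  obtain ⟨ψ, hψ⟩ := lemrb_hom (τ'.comp (algebraMap k K)) hτ'
  simp only [RingHom.comp_apply] at hφ hψ
  have h1 : ∀ a : k, cl ℓ (τ' x - algebraMap C N (ψ a)) =
      c • cl ℓ (τ x - algebraMap C N (φ a)) := fun a => by
    rw [hφ, hψ, ← map_sub, ← map_sub, h]
  have h2 := lemrb_mem hN φ ψ h1
  obtain ⟨i, j, h3, h4⟩ := lemrb_curve (hN.ac hx) φ ψ hc (f := ⟨τ x, self_mem_ac _⟩)
    (g := ⟨τ' x, h2⟩) ((curvee_tr _).2 hx) fun a => Vmap_ac_injective (ℓ := ℓ) _ (by
      rw [map_smul, Vmap_cl, Vmap_cl]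
      exact h1 a)
  rw [fielda_exp (algebraMap C N)]
  refine ⟨i, j, congrArg Subtype.val h3, fun a => ?_⟩
  rw [← hφ, ← hψ, ← map_pow (algebraMap C N), ← map_pow (algebraMap C N), h4]

/-- Rigidity. The exponents are determined by the constants (`expChar_pow_eq_of_hom`); write
`x = (x + x₀) - x₀` if `τ x` is constant; for the scalar use `finite_cl_eq_zero`. -/
theorem rigid {d : ℕ} (hN : Std ℓ C N d) (τ τ' : K →+* N)
    (hτ : ∀ a : k, τ (algebraMap k K a) ∈ (algebraMap C N).range)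
    (hτ' : ∀ a : k, τ' (algebraMap k K a) ∈ (algebraMap C N).range) {c : ZMod ℓ} (hc : c ≠ 0)
    (h : ∀ x : K, cl ℓ (τ' x) = c • cl ℓ (τ x)) (hx : ∃ x : K, Transcendental C (τ x)) :
    ∃ i j : ℕ, (∀ x : K, τ' x ^ ringExpChar N ^ i = τ x ^ ringExpChar N ^ j) ∧
      c * ((ringExpChar N : ℕ) : ZMod ℓ) ^ i = ((ringExpChar N : ℕ) : ZMod ℓ) ^ j := by
  obtain ⟨x₀, hx₀⟩ := hx
  obtain ⟨i, j, h0, hk⟩ := rigid_elem hN τ τ' hτ hτ' hc h hx₀
  have h1 : ∀ x : K, Transcendental C (τ x) →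
      τ' x ^ ringExpChar N ^ i = τ x ^ ringExpChar N ^ j := by
    intro x hx
    obtain ⟨i', j', h2, h3⟩ := rigid_elem hN τ τ' hτ hτ' hc h hx
    have h4 : ringExpChar N ^ (j + i') = ringExpChar N ^ (j' + i) :=
      expChar_pow_eq_of_hom (τ.comp (algebraMap k K)) fun a => by
        rw [RingHom.comp_apply, pow_add, pow_add, pow_mul, pow_mul, ← hk, ← h3, ← pow_mul,
          ← pow_mul, mul_comm]
    apply (iterateFrobenius N (ringExpChar N) i').injective
    rw [iterateFrobenius_def, iterateFrobenius_def, ← pow_mul, ← pow_mul, ← pow_add, ← pow_add, h4,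
      add_comm i, pow_add, pow_add, pow_mul, pow_mul, h2]
  have h2 : ∀ x : K, τ' x ^ ringExpChar N ^ i = τ x ^ ringExpChar N ^ j := by
    intro x
    by_cases hx : IsAlgebraic C (τ x)
    · have h3 := h1 (x + x₀) fun h4 => hx₀ (by
        have h5 := h4.sub hx
        rwa [map_add, add_sub_cancel_left] at h5)
      rw [map_add, map_add, add_pow_expChar_pow, add_pow_expChar_pow, h0] at h3
      exact add_right_cancel h3
    · exact h1 x hx
  refine ⟨i, j, h2, ?_⟩
  obtain ⟨φ, hφ⟩ := lemrb_hom (τ.comp (algebraMap k K)) hτ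
  obtain ⟨a, ha⟩ :=
    ((finite_cl_eq_zero hN hx₀).preimage φ.injective.injOn).infinite_compl.nonempty
  simp only [Set.mem_compl_iff, Set.mem_preimage, Set.mem_ofPred_eq, hφ, RingHom.comp_apply,
    ← map_sub] at ha
  have h3 := congrArg (cl ℓ) (h2 (x₀ - algebraMap k K a))
  rw [cl_pow, cl_pow, h, smul_smul, Nat.cast_pow, Nat.cast_pow, mul_comm] at h3
  exact smul_left_injective _ ha h3

end Vale.Agent.P019
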