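import Vale.Agent.P019.PolyRelA

open scoped IntermediateField

namespace Vale.Agent.P019

noncomputable section

/-- the Frobenius automorphism of a perfect field (the identity in characteristic zero) -/
def frobE (G : Type*) [Field G] [PerfectField G] : G ≃+* G :=
  haveI := ringExpChar.expChar G
  frobeniusEquiv G (ringExpChar G)

variable {ℓ : ℕ} [Fact ℓ.Prime] {κ G : Type*} [Field κ] [Field G] [Algebra κ G] [IsAlgClosed κ]

theorem frobE_pow_apply [PerfectField G] (n : ℕ) (x : G) :
    (frobE G ^ n) x = x ^ ringExpChar G ^ n := by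
  induction n with
  | zero => simp
  | succ n ih =>
    rw [pow_succ', RingAut.mul_apply, ih, pow_succ, pow_mul]
    rfl

theorem polyrel_neg [PerfectField G] (n : ℕ) (x : G) :
    (frobE G ^ (-(n : ℤ))) x ^ ringExpChar G ^ n = x := by
  rw [← frobE_pow_apply, ← RingAut.mul_apply, zpow_neg, zpow_natCast, mul_inv_cancel,
    RingAut.one_apply]

theorem cl_frobE [PerfectField G] (hl : (ℓ : G) ≠ 0) (n : ℤ) (x : G) :
    cl ℓ ((frobE G ^ n) x) = ((ringExpChar G : ℕ) : ZMod ℓ) ^ n • cl ℓ x := by
  obtain ⟨m, rfl | rfl⟩ := n.eq_nat_or_neg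
  · rw [zpow_natCast, zpow_natCast, frobE_pow_apply, cl_pow, Nat.cast_pow]
  · conv_rhs => rw [← polyrel_neg m x]
    rw [cl_pow, smul_smul, zpow_neg ((ringExpChar G : ℕ) : ZMod ℓ), zpow_natCast, Nat.cast_pow,
      inv_mul_cancel₀ (pow_ne_zero _ (expChar_cast_ne_zero hl)), one_smul]

theorem frobE_mem_range [PerfectField G] (n : ℤ) {x : G} (hx : x ∈ (algebraMap κ G).range) :
    (frobE G ^ n) x ∈ (algebraMap κ G).range := by
  obtain ⟨m, rfl | rfl⟩ := n.eq_nat_or_neg
  · rw [zpow_natCast, frobE_pow_apply]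
    exact pow_mem hx _
  · obtain ⟨c, rfl⟩ := hx
    obtain ⟨b, rfl⟩ := IsAlgClosed.exists_pow_nat_eq c (fielda_pos (K := G) m)
    refine ⟨b, (frobE G ^ m).injective ?_⟩
    rw [frobE_pow_apply, frobE_pow_apply, polyrel_neg, map_pow]

theorem Nice.frob [PerfectField G] (hl : (ℓ : κ) ≠ 0) {ι : Type*} {y : ι → G} {D : ℕ} {g : G}
    (h : Nice ℓ κ y D g) (n : ℤ) : Nice ℓ κ y D ((frobE G ^ n) g) := by
  obtain ⟨a, ha, h⟩ := h
  choose b hb using fun j => frobE_mem_range (κ := κ) n (x := algebraMap κ G (a j)) ⟨_, rfl⟩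
  have hl' : (ℓ : G) ≠ 0 := by
    rw [← map_natCast (algebraMap κ G)]
    exact (map_ne_zero _).2 hl
  refine ⟨b, fun i j hij => ha ((algebraMap κ G).injective ((frobE G ^ n).injective ?_)),
    fun j => ?_⟩
  · rw [← hb, ← hb, hij]
  · obtain ⟨u, c, hu, hs, hc⟩ := h j
    exact ⟨u, _, hu, hs, by rw [hb, ← map_sub, cl_frobE hl', hc, smul_smul]⟩

theorem Nrm.pow_add {A : IntermediateField κ G} {g h : G} (hg : Nrm A g) (hh : h ∈ A) {n : ℕ}
    (hn : 0 < n) : Nrm A (h ^ ringExpChar G ^ n + g) := by
  refine ⟨add_mem (pow_mem hh _) hg.1, hg.2.imp_right fun h1 x hx h2 => ?_⟩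
  obtain ⟨m, rfl⟩ := Nat.exists_eq_succ_of_ne_zero hn.ne'
  refine h1 (x - h ^ ringExpChar G ^ m) (sub_mem hx (pow_mem hh _)) ?_
  rw [sub_pow_expChar, h2, ← pow_mul, ← pow_succ, add_sub_cancel_left]

/-- an irreducible factor of a relation; Gauss lemma for the degree -/
theorem exists_irred_rel {ι : Type*} {y : ι → G} (hy : AlgebraicIndependent κ y) {g : G}
    (hg : g ∈ ac κ (Set.range y)) :
    ∃ R : MvPolynomial (Option ι) κ, Irreducible R ∧
      MvPolynomial.aeval (fun o : Option ι => o.elim g y) R = 0 ∧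
      R.degreeOf none = (minpoly (IntermediateField.adjoin κ (Set.range y)) g).natDegree := by
  obtain ⟨D, P, hP, -, h⟩ := small_of_mem_ac hg
  obtain ⟨R, hR, h1⟩ := polyrela_irred P hP h
  obtain ⟨-, c, hc, h2⟩ := polyrela_min hy hR h1
  refine ⟨R, hR, h1, ?_⟩
  rw [← MvPolynomial.natDegree_optionEquivLeft,
    ← Polynomial.natDegree_map_eq_of_injective (polyrela_inj hy), h2,
    Polynomial.natDegree_mul_C hc]

theorem dvd_of_rel {ι : Type*} {y : ι → G} (hy : AlgebraicIndependent κ y) {g : G}
    {R S : MvPolynomial (Option ι) κ} (hR : Irreducible R)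
    (h : MvPolynomial.aeval (fun o : Option ι => o.elim g y) R = 0)
    (hS : MvPolynomial.aeval (fun o : Option ι => o.elim g y) S = 0) : R ∣ S := by
  obtain ⟨h1, c, hc, h2⟩ := polyrela_min hy hR h
  refine (map_dvd_iff (MvPolynomial.optionEquivLeft κ ι)).1 ((polyrela_gauss hy h1).2 _ ?_)
  rw [h2, (Polynomial.isUnit_C.2 hc.isUnit).mul_right_dvd]
  exact minpoly.dvd _ _ (by rw [polyrela_aeval, hS])

/-- Ratio lemma. If `D < Q = q ^ n`, write the relation as `∑ y ^ α * b α ^ Q = 0` with
`b α ∈ κ[g]` and all exponents of `α` less than `Q`. Expand `b α` in a basis of `κ(y, g)` over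
`κ(y)`; the `Q`-th powers of the basis stay independent
(`LinearIndependent.map_pow_expChar_pow_of_isSeparable'`); clear denominators and compare
monomials mod `Q`: all `b α = 0`, so `g` is algebraic over `κ`. -/
theorem pow_le_of_small {ι : Type*} {y : ι → G} (hy : AlgebraicIndependent κ y) {g : G}
    (hg : Transcendental κ g) (hs : IsSeparable (IntermediateField.adjoin κ (Set.range y)) g)
    {n D : ℕ} (h : Small κ y D (g ^ ringExpChar G ^ n)) : ringExpChar G ^ n ≤ D := by
  obtain ⟨R, hR, h1, -⟩ := exists_irred_rel hy (mem_ac.2 hs.isIntegral.isAlgebraic)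
  obtain ⟨h2, c, hc, h3⟩ := polyrela_min hy hR h1
  obtain ⟨P, hP, hD, h4⟩ := h
  have e1 : ExpChar κ (ringExpChar G) := fielda_exp (algebraMap κ G) ▸ inferInstance
  have e2 : ExpChar (IntermediateField.adjoin κ (Set.range y)) (ringExpChar G) :=
    fielda_exp (algebraMap (IntermediateField.adjoin κ (Set.range y)) G) ▸ inferInstance
  have h5 : (MvPolynomial.optionEquivLeft κ ι R).map (iterateFrobenius _ (ringExpChar G) n) ∣
      MvPolynomial.optionEquivLeft κ ι P := by
    refine (polyrela_gauss hy (polyrela_prim _ n h2)).2 _ ?_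
    rw [Polynomial.map_map, RingHom.iterateFrobenius_comm, ← Polynomial.map_map, h3,
      Polynomial.map_mul, ← minpoly.iterateFrobenius_of_isSeparable _ n hs, Polynomial.map_C,
      (Polynomial.isUnit_C.2 ((map_ne_zero _).2 hc).isUnit).mul_right_dvd]
    exact minpoly.dvd _ _ (by rw [polyrela_aeval, iterateFrobenius_def, h4])
  obtain ⟨j, hj⟩ : ∃ j, ((MvPolynomial.optionEquivLeft κ ι R).coeff j).totalDegree ≠ 0 := by
    by_contra h6
    push Not at h6
    exact hg (polyrela_alg hR.ne_zero h1 ((Polynomial.lifts_iff_coeff_lifts _).2 fun j =>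
      ⟨_, (MvPolynomial.totalDegree_eq_zero_iff_eq_C.1 (h6 j)).symm⟩))
  rw [← (MvPolynomial.optionEquivLeft κ ι).apply_symm_apply (Polynomial.map _ _),
    map_dvd_iff] at h5
  refine le_trans ?_ ((MvPolynomial.totalDegree_le_of_dvd_of_isDomain h5 hP).trans hD)
  refine le_trans ?_ (MvPolynomial.totalDegree_coeff_optionEquivLeft_le _ _ _ j)
  rw [AlgEquiv.apply_symm_apply, Polynomial.coeff_map, iterateFrobenius_def]
  exact polyrela_deg _ _ hj

theorem polyrel_simple {F : Type*} [Field F] [Algebra F G] {z g : G} (hz : IsSeparable F z)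
    (hg : g ∈ F⟮z⟯) : IsSeparable F g ∧ (minpoly F g).natDegree ≤ (minpoly F z).natDegree := by
  have := (IntermediateField.isSeparable_adjoin_simple_iff_isSeparable _ _).2 hz
  have := IntermediateField.adjoin.finiteDimensional hz.isIntegral
  refine ⟨IntermediateField.isSeparable_of_mem_isSeparable _ _ hg, ?_⟩
  rw [← IntermediateField.adjoin.finrank hz.isIntegral]
  exact (congrArg Polynomial.natDegree (IntermediateField.minpoly_eq (⟨g, hg⟩ : F⟮z⟯))).ge.trans
    (minpoly.natDegree_le _)

omit [IsAlgClosed κ] in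
theorem polyrel_sep {S : Set G} {z g : G} (hz : IsSeparable (IntermediateField.adjoin κ S) z)
    (hg : g ∈ IntermediateField.adjoin κ (insert z S)) :
    IsSeparable (IntermediateField.adjoin κ S) g ∧
      (minpoly (IntermediateField.adjoin κ S) g).natDegree ≤
        (minpoly (IntermediateField.adjoin κ S) z).natDegree := by
  refine polyrel_simple hz ?_
  rw [← IntermediateField.mem_restrictScalars κ, IntermediateField.adjoin_adjoin_left,
    Set.union_singleton]
  exact hg

/-- take the largest `b` such that `g ^ q ^ a` is a `q ^ b`-th power in `A` (`pow_le_of_small`) -/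
theorem exists_Nrm [PerfectField G] {ι : Type*} {y : ι → G} (hy : AlgebraicIndependent κ y) {z : G}
    (hz : IsSeparable (IntermediateField.adjoin κ (Set.range y)) z)
    (htop : pc κ (insert z (Set.range y)) = ⊤) {g : G} (hg : Transcendental κ g) :
    ∃ n : ℤ, Nrm (IntermediateField.adjoin κ (insert z (Set.range y))) ((frobE G ^ n) g) := by
  by_contra h
  push Not at h
  obtain ⟨a, ha⟩ := mem_pc.1 (htop ▸ IntermediateField.mem_top (x := g))
  have h1 : ∀ b : ℕ, (frobE G ^ ((a : ℤ) - b)) g ∈
      IntermediateField.adjoin κ (insert z (Set.range y)) := by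
    intro b
    induction b with
    | zero => rwa [Nat.cast_zero, sub_zero, zpow_natCast, frobE_pow_apply]
    | succ b ih =>
      have h2 := h ((a : ℤ) - b)
      rw [Nrm, not_and, not_or] at h2
      have h3 := (h2 ih).2
      push Not at h3
      obtain ⟨x, hx, h4⟩ := h3
      have h5 : x = (frobE G ^ ((a : ℤ) - (b + 1 : ℕ))) g := (frobE G ^ 1).injective (by
        rw [frobE_pow_apply, pow_one, h4, ← RingAut.mul_apply, pow_one, ← zpow_one_add]
        congr 2
        push_cast
        ring)
      rwa [← h5]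
  have hq : 1 < ringExpChar G := by
    have h2 := h ((a : ℤ) - (0 : ℕ))
    rw [Nrm, not_and, not_or] at h2
    exact lt_of_le_of_ne (expChar_pos G _) (Ne.symm (h2 (h1 0)).1)
  obtain ⟨D, hD⟩ := small_of_mem_ac (mem_ac.2 (polyrel_sep hz ha).1.isIntegral.isAlgebraic)
  have h2 : (frobE G ^ ((a : ℤ) - D)) g ^ ringExpChar G ^ D = g ^ ringExpChar G ^ a := by
    rw [← frobE_pow_apply, ← frobE_pow_apply, ← RingAut.mul_apply, ← zpow_natCast, ← zpow_add,
      add_sub_cancel, zpow_natCast]
  rw [← h2] at hD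
  refine (Nat.lt_pow_self hq).not_ge (pow_le_of_small hy (fun h3 => ?_)
    (polyrel_sep hz (h1 D)).1 hD)
  exact hg.pow (fielda_pos a) (h2 ▸ h3.pow _)

theorem isSeparable_of_mem {S : Set G} {z g : G} (hz : IsSeparable (IntermediateField.adjoin κ S) z)
    (hg : g ∈ IntermediateField.adjoin κ (insert z S)) :
    IsSeparable (IntermediateField.adjoin κ S) g ∧
      (minpoly (IntermediateField.adjoin κ S) g).natDegree ≤
        (minpoly (IntermediateField.adjoin κ S) z).natDegree :=
  polyrel_sep hz hg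

/-- If all `pderiv (some i) R` vanish: in characteristic zero `g` is constant; in characteristic
`p`, `R ∈ κ[Y ^ p, T]`, so `g` is separable over `κ(y ^ p) ⊆ A ^ p` and purely inseparable over
`A ^ p`, so `g ∈ A ^ p`. -/
theorem exists_pderiv_ne_zero {ι : Type*} {y : ι → G} (hy : AlgebraicIndependent κ y) {z g : G}
    (hz : IsSeparable (IntermediateField.adjoin κ (Set.range y)) z) (hg : Transcendental κ g)
    (hn : Nrm (IntermediateField.adjoin κ (insert z (Set.range y))) g)
    {R : MvPolynomial (Option ι) κ} (hR : Irreducible R)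
    (h : MvPolynomial.aeval (fun o : Option ι => o.elim g y) R = 0) :
    ∃ i, MvPolynomial.pderiv (some i) R ≠ 0 := by
  by_contra h0
  push Not at h0
  have h1 : ∀ m ∈ R.support, ∀ i, (m (some i) : κ) = 0 := fun m hm i => polyrela_cast (h0 i) hm
  obtain ⟨hA, hn⟩ := hn
  have e1 : ExpChar κ (ringExpChar G) := fielda_exp (algebraMap κ G) ▸ inferInstance
  have e2 : ExpChar G (ringExpChar G) := inferInstance
  generalize ringExpChar G = q at e1 e2 hn
  cases e1 with
  | zero =>
    refine hg (polyrela_alg hR.ne_zero h (polyrela_lifts _ fun m hm => ⟨R.coeff m, ?_⟩))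
    have h2 : m.some = 0 := Finsupp.ext fun i => Nat.cast_eq_zero.1 (h1 m hm i)
    rw [h2, MvPolynomial.monomial_zero']
  | prime hp =>
    have := Fact.mk hp
    have h2 : MvPolynomial.optionEquivLeft κ ι R ∈ Polynomial.lifts (frobenius _ q) := by
      refine polyrela_lifts _ fun m hm => ?_
      obtain ⟨c, hc⟩ := IsAlgClosed.exists_pow_nat_eq (R.coeff m) hp.pos
      refine ⟨MvPolynomial.monomial (m.some.mapRange (· / q) (Nat.zero_div q)) c, ?_⟩
      rw [frobenius_def, MvPolynomial.monomial_pow, hc]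
      congr 2
      exact Finsupp.ext fun i =>
        Nat.mul_div_cancel' ((CharP.cast_eq_zero_iff κ q _).1 (h1 m hm i))
    obtain ⟨S, hS⟩ := (Polynomial.mem_lifts _).1 h2
    obtain ⟨-, c, hc, h3⟩ := polyrela_min hy hR h
    set A := IntermediateField.adjoin κ (insert z (Set.range y))
    let θ : MvPolynomial ι κ →+* A := (MvPolynomial.aeval (R := κ) fun i =>
      (⟨y i, IntermediateField.subset_adjoin κ _ (Or.inr ⟨i, rfl⟩)⟩ : A)).toRingHom
    have hθ : (algebraMap A G).comp θ =
        (MvPolynomial.aeval y : MvPolynomial ι κ →ₐ[κ] G).toRingHom := by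
      ext c
      · simp [θ]
      · simp [θ]
    let φ : A →+* G := (frobenius G q).comp (algebraMap A G)
    have h4 : (S.map θ).map φ = (minpoly (IntermediateField.adjoin κ (Set.range y)) g *
        Polynomial.C c).map (algebraMap _ G) := by
      rw [← h3, Polynomial.map_map, Polynomial.map_map, polyrela_comp, ← hS, Polynomial.map_map,
        RingHom.comp_assoc, hθ, RingHom.frobenius_comm]
    have h5 : (S.map θ).Separable := by
      rw [← Polynomial.separable_map φ, h4, Polynomial.separable_map]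
      exact Polynomial.Separable.mul_unit (polyrel_sep hz hA).1 (Polynomial.isUnit_C.2 hc.isUnit)
    have h6 : Irreducible (Polynomial.X ^ q - Polynomial.C (⟨g, hA⟩ : A)) :=
      X_pow_sub_C_irreducible_of_prime hp fun b hb =>
        hn.resolve_left hp.ne_one b b.2 (congrArg Subtype.val hb)
    have h7 : Polynomial.X ^ q - Polynomial.C (⟨g, hA⟩ : A) ∣ S.map θ := by
      by_contra h8
      have h9 := (h6.coprime_iff_not_dvd.2 h8).map (Polynomial.eval₂RingHom φ g)
      rw [Polynomial.coe_eval₂RingHom, Polynomial.eval₂_sub, Polynomial.eval₂_X_pow,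
        Polynomial.eval₂_C, ← Polynomial.eval_map, h4, Polynomial.eval_map, ← Polynomial.aeval_def,
        map_mul, minpoly.aeval, zero_mul, show φ ⟨g, hA⟩ = g ^ q from rfl, sub_self] at h9
      exact not_isCoprime_zero_zero h9
    have h8 := h5.of_dvd h7
    have : CharP A q := charP_of_injective_algebraMap (algebraMap κ A).injective q
    rw [Polynomial.separable_def, Polynomial.derivative_sub, Polynomial.derivative_X_pow,
      Polynomial.derivative_C, CharP.cast_eq_zero, Polynomial.C_0, zero_mul, sub_zero,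
      isCoprime_zero_right] at h8
    exact h6.not_isUnit h8

end

end Vale.Agent.P019
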