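import Vale.Agent.P019.DescA
import Vale.Agent.P019.LemRb
import Vale.Agent.P019.PolyRel

open scoped IntermediateField

namespace Vale.Agent.P019

variable {ℓ : ℕ} [Fact ℓ.Prime]

theorem descb_inj {N : Type*} [Field N] {x y : N} {n : ℕ}
    (h : x ^ ringExpChar N ^ n = y ^ ringExpChar N ^ n) : x = y :=
  (iterateFrobenius N (ringExpChar N) n).injective h

theorem descb_top {A L C N : Type*} [Field A] [Field L] [Algebra A L] [Field C] [Field N]
    [Algebra C N] (j : L →+* N) (hA : ∀ a : A, j (algebraMap A L a) ∈ (algebraMap C N).range)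
    {ι' : Type*} {y : ι' → L} (htop : ac A (Set.range y) = ⊤) :
    pc C (Set.range j) ≤ ac C (Set.range (j ∘ y)) := by
  refine (pc_le_ac _).trans (ac_le_ac ?_)
  rintro _ ⟨x, rfl⟩
  rw [Set.range_comp]
  exact map_mem_ac j hA (desca_mem htop x)

theorem descb_small {C N ι : Type*} [Field C] [Field N] [Algebra C N] (σ : N →+* N) (σ₀ : C →+* C)
    (hσ : ∀ c, σ (algebraMap C N c) = algebraMap C N (σ₀ c)) {y : ι → N} (hy : ∀ i, σ (y i) = y i)
    {D : ℕ} {g : N} (h : Small C y D g) : Small C y D (σ g) := by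
  obtain ⟨P, h0, h1, h2⟩ := h
  refine ⟨MvPolynomial.map σ₀ P, fun h => h0 (MvPolynomial.map_injective σ₀ σ₀.injective
    (h.trans (map_zero _).symm)), (MvPolynomial.totalDegree_le_of_support_subset
      (MvPolynomial.support_map_subset _ _)).trans h1, ?_⟩
  have h3 := congrArg σ h2
  rw [map_zero, MvPolynomial.map_aeval] at h3
  rw [MvPolynomial.aeval_def, MvPolynomial.eval₂_map, ← h3, MvPolynomial.coe_eval₂Hom]
  congr 1
  · exact RingHom.ext fun c => (hσ c).symm
  · ext (_ | i)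
    exacts [rfl, (hy i).symm]

theorem descb_fix {K C N ι' : Type*} [Field K] [Field C] [IsAlgClosed C] [Field N] [Algebra C N]
    {y : ι' → N} (hy : AlgebraicIndependent C y) (htop : ac C (Set.range y) = ⊤) (ι : K →+* N)
    (hx : ∃ x : K, Transcendental C (ι x)) (σ : N →+* N) (σ₀ : C →+* C)
    (hσ : ∀ c, σ (algebraMap C N c) = algebraMap C N (σ₀ c)) (hy' : ∀ i, σ (y i) = y i) {r : ℕ}
    (h : ∀ x, σ (ι x) = ι x ^ ringExpChar N ^ r) (x : K) : σ (ι x) = ι x := by
  obtain ⟨x₀, hx⟩ := hx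
  obtain ⟨n, hn⟩ := exists_sep_pow (mem_ac.1 (desca_mem htop (ι x₀)))
  have hx' := hx.pow (fielda_pos (K := N) n)
  rw [← map_pow] at hn hx'
  generalize x₀ ^ ringExpChar N ^ n = w at hn hx'
  obtain ⟨D, hD⟩ := small_of_mem_ac (desca_mem htop (ι w))
  have key : ∀ m, Small C y D (ι w ^ ringExpChar N ^ (r * m)) := fun m => by
    induction m with
    | zero => simpa using hD
    | succ m ih =>
      have := descb_small σ σ₀ hσ hy' ih
      rwa [map_pow, h, ← pow_mul, ← pow_add, add_comm, ← mul_add_one] at this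
  have h1 := pow_le_of_small hy hx' hn (key D)
  have h2 : ringExpChar N ^ r = 1 := by
    by_contra h2
    have := fielda_pos (K := N) r
    rw [pow_mul] at h1
    exact (Nat.lt_pow_self (by omega)).not_ge h1
  rw [h, h2, pow_one]

/-- Descent. For `σ` as in `exists_aut_moving`, `rigid` (with scalar `1`) gives
`(σ ι x) ^ q ^ a = (ι x) ^ q ^ b`. Let `g` be a power of `ι x₀` separable over `C(y)`, `Small D`.
`σ` and `σ⁻¹` preserve `Small D`. If `a < b`, `σ ^ m g = g ^ q ^ (m (b - a))`, so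
`pow_le_of_small` forces `q = 1`; symmetric for `b < a`. So `σ ι = ι`. -/
theorem mem_range_of_desc {k K A L C N : Type*} [Field k] [Infinite k] [Field K] [Algebra k K]
    [Field A] [Infinite A] [Field L] [Algebra A L] [PerfectField L] [Field C] [IsAlgClosed C]
    [Field N] [Algebra C N] {d : ℕ} (hS : Std ℓ C N d) (j : L →+* N)
    (hA : ∀ a : A, j (algebraMap A L a) ∈ (algebraMap C N).range) {ι' : Type*} {y : ι' → L}
    (hy : AlgebraicIndependent C (j ∘ y)) (htop : ac A (Set.range y) = ⊤)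
    (hN : pc C (Set.range j) = ⊤) (ι : K →+* N)
    (hι : ∀ a : k, ι (algebraMap k K a) ∈ (algebraMap C N).range) {c : ZMod ℓ} (hc : c ≠ 0)
    (h : ∀ x : K, ∃ x' : L, cl ℓ (j x') = c • cl ℓ (ι x)) (hx : ∃ x : K, Transcendental C (ι x))
    (x : K) : ι x ∈ j.range := by
  by_contra hg
  have := hS.perf
  obtain ⟨σ, σ₀, h1, h2, h3⟩ := exists_aut_moving j hA hy htop hN hg
  have h4 := top_le_iff.1 (hN.ge.trans (descb_top j hA htop))
  obtain ⟨a, b, h5, -⟩ := rigid hS ι (σ.toRingHom.comp ι) hι (fun a => by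
    obtain ⟨u, hu⟩ := hι a
    exact ⟨σ₀ u, (h2 u).symm.trans (congrArg σ hu)⟩) one_ne_zero (fun w => by
    obtain ⟨w', hw⟩ := h w
    have h6 := congrArg (Vmap ℓ σ.toRingHom) hw
    rw [map_smul, Vmap_cl, Vmap_cl, show σ.toRingHom (j w') = j w' from h1 w', hw] at h6
    rw [one_smul]
    exact (smul_right_injective _ hc h6).symm) hx
  refine h3 ?_
  rcases le_total a b with h6 | h6
  · obtain ⟨r, rfl⟩ := Nat.exists_eq_add_of_le' h6
    exact descb_fix hy h4 ι hx σ σ₀ h2 (fun i => h1 _) (r := r)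
      (fun w => descb_inj ((h5 w).trans (by rw [pow_add, pow_mul]))) x
  · obtain ⟨r, rfl⟩ := Nat.exists_eq_add_of_le' h6
    refine (σ.symm_apply_eq.1 (descb_fix hy h4 ι hx σ.symm σ₀.symm (fun u => σ.symm_apply_eq.2 ?_)
      (fun i => σ.symm_apply_eq.2 (h1 _).symm) (r := r) (fun w => σ.symm_apply_eq.2 ?_) x)).symm
    · rw [h2]
      exact congrArg _ (σ₀.apply_symm_apply u).symm
    · rw [map_pow]
      exact descb_inj ((h5 w).symm.trans (by rw [pow_add, pow_mul]; rfl))

end Vale.Agent.P019
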