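import Vale.Agent.P019.Basic

open scoped IntermediateField

namespace Vale.Agent.P019

variable {k K : Type*} [Field k] [Field K] [Algebra k K]

theorem mem_ac {S : Set K} {x : K} :
    x ∈ ac k S ↔ IsAlgebraic (IntermediateField.adjoin k S) x := (IntermediateField.mem_restrictScalars k).trans mem_algebraicClosure_iff

theorem fielda_mem {S : Set K} {x : K} : x ∈ ac k S ↔ IsAlgebraic (Algebra.adjoin k S) x :=
  mem_ac.trans IntermediateField.isAlgebraic_adjoin_iff

theorem fielda_cl {S : Set K} {x : K} :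
    x ∈ ac k S ↔ x ∈ (AlgebraicIndependent.matroid k K).closure S := by
  rw [AlgebraicIndependent.matroid_closure_eq, fielda_mem]
  rfl

theorem fielda_coe (A : IntermediateField k K) {x : K} :
    x ∈ ac k (A : Set K) ↔ IsAlgebraic A x := by
  rw [mem_ac, IntermediateField.adjoin_self]

theorem fielda_exp {K' : Type*} [Field K'] (φ : K →+* K') : ringExpChar K' = ringExpChar K :=
  have := expChar_of_injective_ringHom φ.injective (ringExpChar K)
  ringExpChar.eq _ _

theorem fielda_pos (n : ℕ) : 0 < ringExpChar K ^ n := expChar_pow_pos K _ n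

theorem mem_pc {S : Set K} {x : K} :
    x ∈ pc k S ↔ ∃ n : ℕ, x ^ ringExpChar K ^ n ∈ IntermediateField.adjoin k S := by
  rw [pc, IntermediateField.mem_restrictScalars, mem_perfectClosure_iff_pow_mem (ringExpChar K)]
  exact exists_congr fun n => ⟨fun ⟨y, hy⟩ => hy ▸ y.2, fun h => ⟨⟨_, h⟩, rfl⟩⟩

theorem adjoin_le_pc (S : Set K) : IntermediateField.adjoin k S ≤ pc k S := fun _ hx => mem_pc.2 ⟨0, by simpa using hx⟩

theorem pc_le_ac (S : Set K) : pc k S ≤ ac k S := fun x hx => by
  obtain ⟨n, h⟩ := mem_pc.1 hx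
  exact mem_ac.2 (IsAlgebraic.of_pow (fielda_pos n)
    (isAlgebraic_algebraMap (⟨_, h⟩ : IntermediateField.adjoin k S)))

theorem adjoin_le_ac (S : Set K) : IntermediateField.adjoin k S ≤ ac k S := (adjoin_le_pc S).trans (pc_le_ac S)

theorem subset_pc (S : Set K) : S ⊆ pc k S := fun _ hx => adjoin_le_pc S (IntermediateField.subset_adjoin k S hx)

theorem subset_ac (S : Set K) : S ⊆ ac k S := fun _ hx => adjoin_le_ac S (IntermediateField.subset_adjoin k S hx)

theorem self_mem_ac (t : K) : t ∈ ac k {t} := subset_ac _ rfl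

theorem self_mem_pc (t : K) : t ∈ pc k {t} := subset_pc _ rfl

theorem pc_le_pc {S T : Set K} (h : S ⊆ pc k T) : pc k S ≤ pc k T := fun x hx => by
  obtain ⟨n, h1⟩ := mem_pc.1 hx
  obtain ⟨m, h2⟩ := mem_pc.1 (IntermediateField.adjoin_le_iff.2 h h1)
  exact mem_pc.2 ⟨n + m, by rwa [pow_add, pow_mul]⟩

theorem ac_le_ac {S T : Set K} (h : S ⊆ ac k T) : ac k S ≤ ac k T := fun _ hx =>
  fielda_cl.2 (Matroid.closure_subset_closure_of_subset_closure (fun _ hy => fielda_cl.1 (h hy))
    (fielda_cl.1 hx))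

theorem mem_pc_of_pow {S : Set K} {x : K} (n : ℕ) (h : x ^ ringExpChar K ^ n ∈ pc k S) :
    x ∈ pc k S := by
  obtain ⟨m, h2⟩ := mem_pc.1 h
  exact mem_pc.2 ⟨n + m, by rwa [pow_add, pow_mul]⟩

theorem mem_ac_of_isAlgebraic {S : Set K} {x : K} (h : IsAlgebraic (ac k S) x) : x ∈ ac k S :=
  ac_le_ac subset_rfl ((fielda_coe _).2 h)

theorem mem_ac_of_pow {S : Set K} {x : K} {n : ℕ} (hn : 0 < n) (h : x ^ n ∈ ac k S) :
    x ∈ ac k S :=
  mem_ac.2 ((mem_ac.1 h).of_pow hn)

theorem isAlgebraic_pc_iff {S : Set K} {x : K} : IsAlgebraic (pc k S) x ↔ x ∈ ac k S :=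
  (fielda_coe _).symm.trans ⟨fun h => ac_le_ac (pc_le_ac S) h,
    fun h => ac_le_ac ((subset_pc S).trans (subset_ac _)) h⟩

theorem perfect_pc [PerfectField K] (S : Set K) : PerfectField (pc k S) :=
  perfectClosure.perfectField (IntermediateField.adjoin k S) K

theorem perfect_ac [PerfectField K] (S : Set K) : PerfectField (ac k S) := by
  have : PerfectRing (ac k S) (ringExpChar K) := PerfectRing.ofSurjective _ _ fun x => by
    obtain ⟨y, hy⟩ := surjective_frobenius K (ringExpChar K) x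
    exact ⟨⟨y, mem_ac_of_pow (expChar_pos K (ringExpChar K)) (by rw [← frobenius_def, hy]; exact x.2)⟩,
      Subtype.ext hy⟩
  exact PerfectRing.toPerfectField _ (ringExpChar K)

theorem isAlgClosed_ac [IsAlgClosed K] (S : Set K) : IsAlgClosed (ac k S) :=
  (algebraicClosure.isAlgClosure (IntermediateField.adjoin k S) K).isAlgClosed

/-- images under ring homs compatible with the constants -/
theorem map_mem_adjoin {k' K' : Type*} [Field k'] [Field K'] [Algebra k' K'] (φ : K →+* K')
    (hφ : ∀ c : k, φ (algebraMap k K c) ∈ (algebraMap k' K').range) {S : Set K} {x : K}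
    (hx : x ∈ IntermediateField.adjoin k S) : φ x ∈ IntermediateField.adjoin k' (φ '' S) := by
  refine (Subfield.closure_le (t := (IntermediateField.adjoin k' (φ '' S)).toSubfield.comap φ)).2
    ?_ hx
  rintro _ (⟨c, rfl⟩ | h)
  · obtain ⟨c', hc⟩ := hφ c
    show φ _ ∈ IntermediateField.adjoin k' (φ '' S)
    rw [← hc]
    exact IntermediateField.algebraMap_mem _ _
  · exact IntermediateField.subset_adjoin k' _ ⟨_, h, rfl⟩

theorem map_mem_pc {k' K' : Type*} [Field k'] [Field K'] [Algebra k' K'] (φ : K →+* K')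
    (hφ : ∀ c : k, φ (algebraMap k K c) ∈ (algebraMap k' K').range) {S : Set K} {x : K}
    (hx : x ∈ pc k S) : φ x ∈ pc k' (φ '' S) := by
  obtain ⟨n, h⟩ := mem_pc.1 hx
  exact mem_pc.2 ⟨n, by rw [fielda_exp φ, ← map_pow]; exact map_mem_adjoin φ hφ h⟩

theorem map_mem_ac {k' K' : Type*} [Field k'] [Field K'] [Algebra k' K'] (φ : K →+* K')
    (hφ : ∀ c : k, φ (algebraMap k K c) ∈ (algebraMap k' K').range) {S : Set K} {x : K}
    (hx : x ∈ ac k S) : φ x ∈ ac k' (φ '' S) := by
  let ψ : IntermediateField.adjoin k S →+* IntermediateField.adjoin k' (φ '' S) :=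
    (φ.comp (algebraMap (IntermediateField.adjoin k S) K)).codRestrict _ fun y =>
      map_mem_adjoin φ hφ y.2
  exact mem_ac.2 ((mem_ac.1 hx).ringHom_of_comp_eq ψ φ ψ.injective rfl)

theorem algHom_mem_pc_iff {K' : Type*} [Field K'] [Algebra k K'] (φ : K →ₐ[k] K') {S : Set K}
    {x : K} : φ x ∈ pc k (φ '' S) ↔ x ∈ pc k S := by
  rw [mem_pc, mem_pc, ← IntermediateField.adjoin_map, fielda_exp φ.toRingHom]
  refine exists_congr fun n => ⟨fun ⟨y, hy, e⟩ => ?_, fun h => ⟨_, h, map_pow φ _ _⟩⟩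
  rwa [φ.injective (e.trans (map_pow φ _ _).symm)] at hy

theorem algHom_mem_ac_iff {K' : Type*} [Field K'] [Algebra k K'] (φ : K →ₐ[k] K') {S : Set K}
    {x : K} : φ x ∈ ac k (φ '' S) ↔ x ∈ ac k S := by
  rw [mem_ac, mem_ac, ← IntermediateField.adjoin_map]
  exact isAlgebraic_ringHom_iff_of_comp_eq
    ((IntermediateField.adjoin k S).equivMap φ).toRingEquiv φ.toRingHom φ.injective rfl

theorem transcendental_iff [IsAlgClosed k] {x : K} :
    Transcendental k x ↔ x ∉ (algebraMap k K).range :=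
  not_congr ⟨fun h => minpoly.mem_range_of_degree_eq_one k x
    (IsAlgClosed.degree_eq_one_of_irreducible k (minpoly.irreducible h.isIntegral)),
    fun ⟨c, hc⟩ => hc ▸ isAlgebraic_algebraMap c⟩

theorem exists_sep_pow {x : K} (hx : IsAlgebraic k x) :
    ∃ n : ℕ, IsSeparable k (x ^ ringExpChar K ^ n) := by
  obtain ⟨g, h1, n, h2⟩ := (minpoly.irreducible hx.isIntegral).hasSeparableContraction
    (ringExpChar k)
  refine ⟨n, h1.of_dvd (minpoly.dvd k _ ?_)⟩
  rw [fielda_exp (algebraMap k K), ← Polynomial.expand_aeval, h2, minpoly.aeval]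

theorem mem_of_sep_of_pc {S : Set K} {x : K} (hx : x ∈ pc k S)
    (hs : IsSeparable (IntermediateField.adjoin k S) x) : x ∈ IntermediateField.adjoin k S := by
  have : x ∈ separableClosure (IntermediateField.adjoin k S) K ⊓ perfectClosure _ K := ⟨hs, hx⟩
  rw [separableClosure_inf_perfectClosure, IntermediateField.mem_bot] at this
  obtain ⟨y, rfl⟩ := this
  exact y.2

/-- exchange -/
theorem mem_ac_exchange {S : Set K} {x y : K} (h : x ∈ ac k (insert y S)) (h' : x ∉ ac k S) :
    y ∈ ac k (insert x S) :=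
  fielda_cl.2 (Matroid.closure_exchange ⟨fielda_cl.1 h, mt fielda_cl.2 h'⟩).1

theorem fielda_empty {x : K} : x ∈ ac k (∅ : Set K) ↔ IsAlgebraic k x := by
  rw [mem_ac, IntermediateField.adjoin_empty]
  exact (Algebra.IsAlgebraic.isAlgebraic_iff ..).symm

theorem ac_eq_of_mem {t t' : K} (h : t' ∈ ac k {t}) (ht' : Transcendental k t') :
    ac k {t'} = ac k {t} := by
  refine le_antisymm (ac_le_ac (Set.singleton_subset_iff.2 h))
    (ac_le_ac (Set.singleton_subset_iff.2 ?_))
  simpa using mem_ac_exchange (S := ∅) (y := t) (by simpa using h) (mt fielda_empty.1 ht')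

theorem mem_ac_empty {x : K} : x ∈ ac k (∅ : Set K) ↔ IsAlgebraic k x := fielda_empty

theorem fielda_symm {x y : K} (h : AlgebraicIndependent k ![x, y]) :
    AlgebraicIndependent k ![y, x] :=
  (algebraicIndependent_equiv' (Equiv.swap 0 1) (by
    funext i
    fin_cases i <;> rfl)).2 h

theorem fielda_cons {e : ℕ} {x : K} {y : Fin e → K} :
    AlgebraicIndependent k (Fin.cons x y : Fin (e + 1) → K) ↔
      AlgebraicIndependent k y ∧ x ∉ ac k (Set.range y) := by
  rw [fielda_mem]
  refine Iff.trans (algebraicIndependent_equiv' (finSuccEquiv e) ?_)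
    AlgebraicIndependent.option_iff
  funext i
  refine Fin.cases ?_ (fun i => ?_) i <;> simp

theorem indep_pair_iff {x y : K} :
    AlgebraicIndependent k ![x, y] ↔ Transcendental k x ∧ y ∉ ac k {x} := by
  rw [show AlgebraicIndependent k ![x, y] ↔ AlgebraicIndependent k ![y, x] from
    ⟨fielda_symm, fielda_symm⟩]
  refine (fielda_cons (y := ![x])).trans ?_
  rw [algebraicIndependent_iff_transcendental, Matrix.range_cons_empty]

theorem indep_pair_symm {x y : K} (h : AlgebraicIndependent k ![x, y]) :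
    AlgebraicIndependent k ![y, x] := fielda_symm h

theorem indep_cons_iff {e : ℕ} {x : K} {y : Fin e → K} :
    AlgebraicIndependent k (Fin.cons x y : Fin (e + 1) → K) ↔
      AlgebraicIndependent k y ∧ x ∉ ac k (Set.range y) := fielda_cons

/-- independent over `k(S)` means independent over its relative algebraic closure -/
theorem indep_over_ac {e : ℕ} {s : K} {y : Fin e → K}
    (h : AlgebraicIndependent k (Fin.cons s y : Fin (e + 1) → K)) :
    AlgebraicIndependent (ac k {s}) y := by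
  have h1 := (h.adjoin_of_disjoint (s := {0}) (t := Set.range Fin.succ) (by simp)).comp
    (fun i : Fin e => ⟨i.succ, i, rfl⟩) fun i j hij => Fin.succ_injective _ (congrArg Subtype.val hij)
  rw [Set.image_singleton] at h1
  exact (IntermediateField.algebraicIndependent_adjoin_iff.2 h1).algebraicClosure

theorem inter_ac [IsAlgClosed k] {x y z : K} (h : AlgebraicIndependent k ![x, y])
    (hx : z ∈ ac k {x}) (hy : z ∈ ac k {y}) : z ∈ (algebraMap k K).range := by
  by_contra hz
  have := transcendental_iff.2 hz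
  refine (indep_pair_iff.1 h).2 ?_
  rw [← ac_eq_of_mem hx this, ac_eq_of_mem hy this]
  exact self_mem_ac y

theorem card_le_of_indep {ι : Type*} [Fintype ι] {y : ι → K} (hy : AlgebraicIndependent k y)
    {d : ℕ} (hd : Algebra.trdeg k K ≤ (d : Cardinal)) : Fintype.card ι ≤ d := by
  have := hy.lift_cardinalMk_le_trdeg.trans (Cardinal.lift_le.2 hd)
  simpa using this

theorem fielda_indep {d : ℕ} (hd : (d : Cardinal) ≤ Algebra.trdeg k K) :
    ∃ y : Fin d → K, AlgebraicIndependent k y := by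
  obtain ⟨s, hs⟩ := exists_isTranscendenceBasis k K
  rw [← hs.cardinalMk_eq_trdeg] at hd
  obtain ⟨f⟩ : Nonempty (Fin d ↪ s) := Cardinal.lift_mk_le'.1 (by simpa using hd)
  exact ⟨_, hs.1.comp f f.injective⟩

theorem trdeg_le_of_forall {d : ℕ}
    (h : ∀ (n : ℕ) (y : Fin n → K), AlgebraicIndependent k y → n ≤ d) :
    Algebra.trdeg k K ≤ (d : Cardinal) := by
  by_contra h0
  obtain ⟨y, hy⟩ := fielda_indep (k := k) (K := K) (d := d + 1) (by
    rw [Nat.cast_succ, ← Cardinal.succ_natCast]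
    exact Order.succ_le_of_lt (not_le.1 h0))
  exact absurd (h _ y hy) (by omega)

theorem ac_eq_top_of_indep {ι : Type*} [Fintype ι] {y : ι → K} (hy : AlgebraicIndependent k y)
    (hd : Algebra.trdeg k K = (Fintype.card ι : Cardinal)) : ac k (Set.range y) = ⊤ :=
  eq_top_iff.2 fun x _ => mem_ac.2 ((hy.isTranscendenceBasis_of_lift_trdeg_le_of_finite
    (by simp [hd])).isAlgebraic_field.1 x)

theorem trdeg_eq_of_indep {ι : Type*} [Fintype ι] {y : ι → K} (hy : AlgebraicIndependent k y)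
    (h : ac k (Set.range y) = ⊤) : Algebra.trdeg k K = (Fintype.card ι : Cardinal) := by
  have := (hy.isTranscendenceBasis_iff_isAlgebraic.2
    ⟨fun x => fielda_mem.1 (h ▸ IntermediateField.mem_top)⟩).lift_cardinalMk_eq_trdeg
  simpa using this.symm

theorem trdeg_le_of_ac {ι : Type*} [Fintype ι] {y : ι → K} (h : ac k (Set.range y) = ⊤) :
    Algebra.trdeg k K ≤ (Fintype.card ι : Cardinal) := by
  have : Algebra.IsAlgebraic (Algebra.adjoin k (Set.range y)) K :=
    ⟨fun x => fielda_mem.1 (h ▸ IntermediateField.mem_top)⟩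
  have h2 := (Cardinal.lift_le.2 (Algebra.IsAlgebraic.trdeg_le_cardinalMk k (Set.range y))).trans
    (Cardinal.mk_range_le_lift (f := y))
  simpa using h2

theorem exists_indep {d : ℕ} (hd : (d : Cardinal) ≤ Algebra.trdeg k K) :
    ∃ y : Fin d → K, AlgebraicIndependent k y := fielda_indep hd

theorem exists_not_mem_ac {ι : Type*} [Fintype ι] (y : ι → K)
    (h : (Fintype.card ι : Cardinal) < Algebra.trdeg k K) : ∃ x, x ∉ ac k (Set.range y) := by
  by_contra h0
  push Not at h0
  exact h.not_ge (trdeg_le_of_ac (eq_top_iff.2 fun x _ => h0 x))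

theorem fielda_hyper {e : ℕ} (hd : Algebra.trdeg k K = ((e + 1 : ℕ) : Cardinal)) {S : Set K}
    {x : K} (hx : x ∉ ac k S) :
    ∃ y : Fin e → K, AlgebraicIndependent k (Fin.cons x y : Fin (e + 1) → K) ∧
      S ⊆ ac k (Set.range y) := by
  obtain ⟨I, hI⟩ := (AlgebraicIndependent.matroid k K).exists_isBasis S
  rw [fielda_cl, ← hI.closure_eq_closure] at hx
  have hxI : x ∉ I := fun h => hx (Matroid.subset_closure _ _ (Set.subset_univ _) h)
  obtain ⟨B, hB, hIB⟩ := (hI.indep.insert_indep_iff.2 (.inl ⟨trivial, hx⟩)).exists_isBase_superset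
  have hxB : x ∈ B := hIB (Set.mem_insert _ _)
  have h1 : Cardinal.mk (B \ {x} : Set K) = e := by
    have := (AlgebraicIndependent.matroid_isBase_iff.1 hB).cardinalMk_eq_trdeg
    rwa [hd, ← Set.insert_eq_of_mem hxB, ← Set.insert_sdiff_singleton,
      Cardinal.mk_insert (by simp), Nat.cast_succ, Cardinal.add_one_inj] at this
  obtain ⟨f⟩ := Cardinal.mk_eq_nat_iff.1 h1
  have hr : Set.range (Subtype.val ∘ f.symm) = B \ {x} := by
    rw [f.symm.surjective.range_comp, Subtype.range_coe]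
  refine ⟨Subtype.val ∘ f.symm, fielda_cons.2 ⟨(AlgebraicIndependent.matroid_indep_iff.1
    (hB.indep.subset Set.sdiff_subset)).comp f.symm f.symm.injective, ?_⟩, fun z hz => ?_⟩
  · rw [hr, fielda_cl]
    exact hB.indep.notMem_closure_sdiff_of_mem hxB
  · rw [hr, SetLike.mem_coe, fielda_cl]
    refine Matroid.closure_subset_closure _ (fun w hw => ?_) (hI.subset_closure hz)
    exact ⟨hIB (Set.mem_insert_of_mem _ hw), fun h => hxI (h ▸ hw)⟩

theorem exists_cons_basis {e : ℕ} (hd : Algebra.trdeg k K = ((e + 1 : ℕ) : Cardinal)) {s : K}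
    (hs : Transcendental k s) :
    ∃ y : Fin e → K, AlgebraicIndependent k (Fin.cons s y : Fin (e + 1) → K) :=
  (fielda_hyper hd (mt mem_ac_empty.1 hs)).imp fun _ h => h.1

/-- a hyperplane containing `S` and avoiding `x` -/
theorem exists_hyper {e : ℕ} (hd : Algebra.trdeg k K = ((e + 1 : ℕ) : Cardinal)) {S : Set K}
    {x : K} (hx : x ∉ ac k S) :
    ∃ y : Fin e → K, AlgebraicIndependent k (Fin.cons x y : Fin (e + 1) → K) ∧
      S ⊆ ac k (Set.range y) := fielda_hyper hd hx

theorem trdeg_ac_single {t : K} (ht : Transcendental k t) : Algebra.trdeg k (ac k {t}) = 1 := by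
  have := trdeg_eq_of_indep (k := k) (y := fun _ : Unit => (⟨t, self_mem_ac t⟩ : ac k {t}))
    (algebraicIndependent_unique_type_iff.2 fun h => ht (h.algHom (ac k {t}).val))
    (eq_top_iff.2 fun x _ => (algHom_mem_ac_iff (ac k {t}).val).1 (by simp))
  simpa using this

theorem isAlgebraic_of_trdeg_one (hd : Algebra.trdeg k K ≤ 1) {t : K} (ht : Transcendental k t) :
    Algebra.IsAlgebraic k⟮t⟯ K := ⟨fun x => by
  by_contra h
  have := card_le_of_indep (indep_pair_iff.2 ⟨ht, mt mem_ac.1 h⟩) (d := 1) (by simpa using hd)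
  simp at this⟩

theorem PF.trdeg_nat (h : PF k K) : ∃ d : ℕ, Algebra.trdeg k K = (d : Cardinal) := by
  obtain ⟨S, hS⟩ := h
  refine Cardinal.lt_aleph0.1 ((trdeg_le_of_ac (y := ((↑) : S → K)) ?_).trans_lt
    Cardinal.natCast_lt_aleph0)
  rw [eq_top_iff, ← hS]
  exact (pc_le_ac _).trans_eq (by simp)

theorem PF.of_fg (h : (⊤ : IntermediateField k K).FG) : PF k K := by
  obtain ⟨S, hS⟩ := h
  exact ⟨S, eq_top_iff.2 (hS ▸ adjoin_le_pc _)⟩

theorem trdeg_eq_of_isAlgebraic {K' : Type*} [Field K'] [Algebra k K'] [Algebra K K']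
    [IsScalarTower k K K'] [Algebra.IsAlgebraic K K'] {d : ℕ} :
    Algebra.trdeg k K' = (d : Cardinal) ↔ Algebra.trdeg k K = (d : Cardinal) := by
  have := lift_trdeg_add_eq k K K'
  rw [trdeg_eq_zero (R := K) (A := K'), Cardinal.lift_zero, add_zero] at this
  rw [← Cardinal.lift_eq_nat_iff, ← this, Cardinal.lift_eq_nat_iff]

theorem Vmap_ac_injective {ℓ : ℕ} [Fact ℓ.Prime] (S : Set K) :
    Function.Injective (Vmap ℓ (algebraMap (ac k S) K)) :=
  Vmap_injective _ fun y x h =>
    ⟨⟨y, mem_ac_of_pow (Fact.out : ℓ.Prime).pos (h ▸ x.2)⟩, rfl⟩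

end Vale.Agent.P019
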