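import Vale.Agent.P019.Prime2
import Vale.Agent.P019.Zar

open scoped IntermediateField

namespace Vale.Agent.P019

universe u

variable {ℓ : ℕ} [Fact ℓ.Prime] {k K : Type u} [Field k] [Field K] [Algebra k K] [IsAlgClosed k]

/-- `exists_prime`, then `vcomp` with a point of the residue field where `t` vanishes -/
theorem exists_flag (hd : Algebra.trdeg k K = 2) {t π : K} (h : AlgebraicIndependent k ![t, π]) :
    ∃ v ν : ValuationSubring K, IsPrime k v ∧ Hor k v t ∧ v.valuation π < 1 ∧ ν ≤ v ∧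
      (∀ c : k, algebraMap k K c ∈ ν) ∧ ν.valuation t < 1 := by
  obtain ⟨v, h1, h2, h3⟩ := exists_prime (e := 1) (by simpa using hd) (π := π) (y := ![t])
    (indep_pair_symm h)
  obtain ⟨u, h4, h5⟩ := exists_zero (h2.2.transcendental 0)
  exact ⟨v, vcomp v u, h1, Hor_of_res h1.1 (h2.2.transcendental 0), h3, vcomp_le v u,
    fun c => (mem_vcomp v u _).2 ⟨h1.1 c, h4 ⟨_, res_const_mem v k c⟩⟩,
    (vcomp_val_lt_one v u t).2 ⟨h2.1 0, h5⟩⟩

/-- `Δ` from `exists_etale`. `VInd k ν ![t, π]` holds, so `kap k ν = ⊤` and every value of `ν` is a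
value of `pc k {t, π}`, described by `val_adjoin`. -/
theorem exists_flag_disc (hK : Std ℓ k K 2) {x y : K} (hxy : AlgebraicIndependent k ![x, y]) :
    ∃ Δ : MvPolynomial (Fin 2) k, Δ ≠ 0 ∧ ∀ a b : k, MvPolynomial.eval ![a, b] Δ ≠ 0 →
      ∀ (t π : K) (v ν : ValuationSubring K), AlgebraicIndependent k ![t, π] →
        IntermediateField.adjoin k {x, y} = IntermediateField.adjoin k {t, π} →
        IsPrime k v → Hor k v t → v.valuation π < 1 → ν ≤ v → (∀ c : k, algebraMap k K c ∈ ν) →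
        ν.valuation t < 1 → At k ν x a → At k ν y b → cl ℓ π ∉ U ℓ v ∧ cl ℓ t ∉ U ℓ ν := by
  have := hK.perf
  have hr : ∀ a b : K, Set.range ![a, b] = {a, b} := fun a b => by
    rw [Matrix.range_cons, Matrix.range_cons_empty, Set.singleton_union]
  obtain ⟨Δ, h0, hΔ⟩ := exists_etale hK.pf hxy (ac_eq_top_of_indep hxy (by rw [hK.dim]; simp))
  refine ⟨Δ, h0, fun a b hab t π v ν hi hadj hv hH hπ hle hk ht hx hy => ?_⟩
  have ht0 : t ≠ 0 := hi.ne_zero 0
  have hπ0 : π ≠ 0 := hi.ne_zero 1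
  have hvt : v.valuation t = 1 :=
    val_eq_one_iff.2 ⟨ht0, hH _ (self_mem_ac t), hH _ (inv_mem (self_mem_ac t))⟩
  have hV : ∀ i j : ℤ, ν.valuation (t ^ i * π ^ j) = 1 → i = 0 ∧ j = 0 := by
    intro i j e
    have h1 := val_eq_one_of_le hle e
    rw [map_mul, map_zpow₀, map_zpow₀, hvt, one_zpow, one_mul,
      zpow_eq_one_iff_right₀ zero_le hπ.ne] at h1
    rw [h1, zpow_zero, mul_one, map_zpow₀, zpow_eq_one_iff_right₀ zero_le ht.ne] at e
    exact ⟨e, h1⟩
  have hVI : VInd k ν ![t, π] := by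
    refine ⟨hi.ne_zero, fun m c e => ?_⟩
    rw [Fin.prod_univ_two] at e
    have hc : c ≠ 0 := by
      rintro rfl
      rw [map_zero, map_zero, map_eq_zero] at e
      exact mul_ne_zero (zpow_ne_zero _ ht0) (zpow_ne_zero _ hπ0) e
    obtain ⟨h1, h2⟩ := hV (m 0) (m 1) (e.trans (val_const_eq_one hk hc))
    funext j
    fin_cases j
    · exact h1
    · exact h2
  have hAt : ∀ i, At k ν (![x, y] i) (![a, b] i) := fun i => by
    fin_cases i
    · exact hx
    · exact hy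
  have h1 := hΔ ν hk (kap_eq_top hVI (by rw [hK.dim]; simp)) (fun i => (hAt i).mem hk) (by
    have h2 := At.aeval hk hAt Δ
    have h3 := val_const_eq_one hk hab
    rw [← h3]
    exact ν.valuation.map_eq_of_sub_lt (h3 ▸ h2))
  have hE : RInd k ν (Fin.elim0 : Fin 0 → K) := ⟨fun i => i.elim0, algebraicIndependent_empty_type⟩
  have key : ∀ z : K, z ≠ 0 → ∃ (r : ℕ) (i j : ℤ),
      ν.valuation (z ^ ringExpChar K ^ r) = ν.valuation (t ^ i * π ^ j) := by
    intro z hz
    obtain ⟨e, he, e1⟩ := h1 z hz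
    obtain ⟨r, h2⟩ := mem_pc.1 he
    have he0 : e ≠ 0 := by
      rintro rfl
      rw [map_zero, map_eq_zero] at e1
      exact hz e1
    obtain ⟨c, m, hc, e2⟩ := val_adjoin hE hVI (z := e ^ ringExpChar K ^ r) (by
      rwa [Set.range_eq_empty, Set.empty_union, hr, ← hadj, ← hr]) (pow_ne_zero _ he0)
    rw [Fin.prod_univ_two, map_mul, val_const_eq_one hk hc, one_mul] at e2
    exact ⟨r, m 0, m 1, by rw [map_pow, e1, ← map_pow]; exact e2⟩
  have hq : ∀ (r : ℕ) (i : ℤ), ((ringExpChar K ^ r : ℕ) : ℤ) ≠ i * ℓ := fun r i h =>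
    basic_expChar_pow (algebraMap k K) hK.char r ((ZMod.natCast_eq_zero_iff _ _).2
      (Int.natCast_dvd_natCast.1 (Dvd.intro_left _ h.symm)))
  constructor
  · intro hU
    obtain ⟨z, hz, e1⟩ := (cl_mem_U_iff hπ0).1 hU
    obtain ⟨r, i, j, e2⟩ := key z hz
    have hm : t ^ i * π ^ j ≠ 0 := mul_ne_zero (zpow_ne_zero _ ht0) (zpow_ne_zero _ hπ0)
    have h2 := val_eq_one_of_le hle (x := z ^ ringExpChar K ^ r / (t ^ i * π ^ j)) (by
      rw [map_div₀, e2, div_self ((map_ne_zero _).2 hm)])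
    rw [map_div₀, div_eq_one_iff_eq ((map_ne_zero _).2 hm), map_mul, map_zpow₀, map_zpow₀, hvt,
      one_zpow, one_mul, map_pow] at h2
    refine hq r j ((zpow_right_inj₀ (zero_lt_iff.2 ((map_ne_zero v.valuation).2 hπ0)) hπ.ne).1 ?_)
    rw [zpow_mul, ← h2, zpow_natCast, zpow_natCast, e1, ← pow_mul, ← pow_mul, mul_comm]
  · intro hU
    obtain ⟨z, hz, e1⟩ := (cl_mem_U_iff ht0).1 hU
    obtain ⟨r, i, j, e2⟩ := key z hz
    have hm : t ^ i * π ^ j ≠ 0 := mul_ne_zero (zpow_ne_zero _ ht0) (zpow_ne_zero _ hπ0)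
    have e3 : t ^ (((ringExpChar K ^ r : ℕ) : ℤ) - i * ℓ) * π ^ (-(j * ℓ)) =
        t ^ ringExpChar K ^ r / (t ^ i * π ^ j) ^ ℓ := by
      rw [zpow_sub₀ ht0, zpow_neg, zpow_mul, zpow_mul, zpow_natCast, zpow_natCast, zpow_natCast,
        mul_pow, ← div_eq_mul_inv, div_div]
    refine hq r i (sub_eq_zero.1 (hV _ (-(j * ℓ)) ?_).1)
    rw [e3, map_div₀, div_eq_one_iff_eq ((map_ne_zero _).2 (pow_ne_zero _ hm)), map_pow, map_pow,
      ← e2, map_pow, e1, ← pow_mul, ← pow_mul, mul_comm]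

theorem flag_main (hK : Std ℓ k K 2) {x y : K} (hxy : AlgebraicIndependent k ![x, y]) :
    ∃ Δ : MvPolynomial (Fin 2) k, Δ ≠ 0 ∧ ∀ a b : k, MvPolynomial.eval ![a, b] Δ ≠ 0 →
      ∀ t π : K, t ∈ IntermediateField.adjoin k {x, y} → π ∈ IntermediateField.adjoin k {x, y} →
        x ∈ IntermediateField.adjoin k {t, π} → y ∈ IntermediateField.adjoin k {t, π} →
        (∀ ν : ValuationSubring K, (∀ c : k, algebraMap k K c ∈ ν) → ν.valuation t < 1 →
          ν.valuation π < 1 → At k ν x a ∧ At k ν y b) →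
        ∃ v ν : ValuationSubring K, IsPrime k v ∧ Hor k v t ∧ v.valuation π < 1 ∧ ν ≤ v ∧
          (∀ c : k, algebraMap k K c ∈ ν) ∧ At k ν x a ∧ At k ν y b ∧ cl ℓ π ∉ U ℓ v ∧
          cl ℓ t ∉ U ℓ ν := by
  obtain ⟨Δ, h0, hΔ⟩ := exists_flag_disc hK hxy
  refine ⟨Δ, h0, fun a b hab t π h1 h2 h3 h4 h5 => ?_⟩
  have hi := zar_span hxy (adjoin_le_ac _ h3) (adjoin_le_ac _ h4)
  obtain ⟨v, ν, a1, a2, a3, a4, a5, a6⟩ := exists_flag (by simpa using hK.dim) hi
  obtain ⟨a7, a8⟩ := h5 ν a5 a6 (val_lt_one_of_le a4 a3)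
  exact ⟨v, ν, a1, a2, a3, a4, a5, a7, a8, hΔ a b hab t π v ν hi (le_antisymm
    (IntermediateField.adjoin_le_iff.2 (Set.pair_subset h3 h4))
    (IntermediateField.adjoin_le_iff.2 (Set.pair_subset h1 h2))) a1 a2 a3 a4 a5 a6 a7 a8⟩

theorem flag_l (x y : K) : x ∈ IntermediateField.adjoin k ({x, y} : Set K) :=
  IntermediateField.subset_adjoin _ _ (Or.inl rfl)

theorem flag_r (x y : K) : y ∈ IntermediateField.adjoin k ({x, y} : Set K) :=
  IntermediateField.subset_adjoin _ _ (Or.inr rfl)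

theorem flag_c (A : IntermediateField k K) (c : k) : algebraMap k K c ∈ A := A.algebraMap_mem c

theorem flag_lt {ν : ValuationSubring K} (hk : ∀ c : k, algebraMap k K c ∈ ν) {t π : K}
    (ht : ν.valuation t < 1) (hπ : ν.valuation π < 1) (c : k) :
    ν.valuation (π + algebraMap k K c * t) < 1 := by
  refine ν.valuation.map_add_lt hπ ?_
  rw [map_mul]
  exact mul_lt_one_of_nonneg_of_lt_one_right ((ν.valuation_le_one_iff _).2 (hk c)) zero_le ht

theorem flag_fin (Δ : MvPolynomial (Fin 2) k) (f : Fin 2 → Polynomial k) {s₀ : k}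
    (h : MvPolynomial.eval (fun i => (f i).eval s₀) Δ ≠ 0) :
    {s : k | MvPolynomial.eval (fun i => (f i).eval s) Δ = 0}.Finite := by
  have e : ∀ s : k, (MvPolynomial.aeval f Δ).eval s =
      MvPolynomial.eval (fun i => (f i).eval s) Δ := fun s =>
    AlgHom.congr_fun (MvPolynomial.comp_aeval f (Polynomial.aeval s)) Δ
  have h0 : MvPolynomial.aeval f Δ ≠ 0 := fun h1 => h (by rw [← e, h1, Polynomial.eval_zero])
  exact (Polynomial.finite_setOf_isRoot h0).subset fun s hs => (e s).trans hs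

theorem flag_point {Δ : MvPolynomial (Fin 2) k} (h : Δ ≠ 0) :
    ∃ a b : k, MvPolynomial.eval ![a, b] Δ ≠ 0 := by
  by_contra hn
  push Not at hn
  refine h (MvPolynomial.funext fun p => ?_)
  have e : p = ![p 0, p 1] := by
    funext j
    fin_cases j <;> rfl
  rw [e, hn, map_zero]

theorem flag_lines {Δ : MvPolynomial (Fin 2) k} (h : Δ ≠ 0) :
    {c : k | ∃ a : k, ∀ b : k, MvPolynomial.eval ![a - c * b, b] Δ = 0}.Finite := by
  obtain ⟨a₀, b₀, h0⟩ := flag_point h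
  have e1 : ∀ a s : k, (fun i => (![Polynomial.C a, Polynomial.X] i).eval s) = ![a, s] :=
    fun a s => by
      funext j
      fin_cases j <;> simp
  have e2 : ∀ b s : k, (fun i => (![Polynomial.X, Polynomial.C b] i).eval s) = ![s, b] :=
    fun a s => by
      funext j
      fin_cases j <;> simp
  have h1 := flag_fin Δ ![Polynomial.C a₀, Polynomial.X] (s₀ := b₀) (by rwa [e1])
  obtain ⟨b₁, h2⟩ := (h1.insert b₀).exists_notMem
  rw [Set.mem_insert_iff, not_or, Set.mem_ofPred_eq, e1] at h2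
  have h3 := flag_fin Δ ![Polynomial.X, Polynomial.C b₀] (s₀ := a₀) (by rwa [e2])
  have h4 := flag_fin Δ ![Polynomial.X, Polynomial.C b₁] (s₀ := a₀) (by rw [e2]; exact h2.2)
  refine ((h3.prod h4).image fun p => (p.1 - p.2) / (b₁ - b₀)).subset ?_
  rintro c ⟨a, ha⟩
  refine ⟨(a - c * b₀, a - c * b₁), ⟨?_, ?_⟩, ?_⟩
  · rw [Set.mem_ofPred_eq, e2]
    exact ha _
  · rw [Set.mem_ofPred_eq, e2]
    exact ha _
  · have h5 := sub_ne_zero.2 h2.1
    field_simp
    ring

theorem flag_link {v ν : ValuationSubring K} (hle : ν ≤ v) {A A' : IntermediateField k K}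
    {P : Pt k A} {P' : Pt k A'} (hP : ν.comap (algebraMap A K) = P.1)
    (hP' : ν.comap (algebraMap A' K) = P'.1) {t : K} (ht : t ∈ A) (hU : cl ℓ t ∉ U ℓ ν) :
    Link ℓ v P P' := by
  rw [mem_U_iff_II] at hU
  push Not at hU
  obtain ⟨ρ, hρ, h0⟩ := hU
  refine ⟨ρ, DD_mono hle (II_le_DD _ hρ), fun h1 => h0 ?_, hP ▸ II_comap _ hρ, hP' ▸ II_comap _ hρ⟩
  rw [← rst_cl A ρ ⟨t, ht⟩, h1, LinearMap.zero_apply]

/-- only finitely many lines `X + c Y = a` lie in `Δ = 0`; on another line take a point `(a₀, b₀)`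
with `Δ ≠ 0`, `π = x + c y - a`, `t = y - b₀` -/
theorem finite_not_vgen (hK : Std ℓ k K 2) {x y : K} (hxy : AlgebraicIndependent k ![x, y]) :
    {c : k | ¬ ∀ a : k, ∃ O : ValuationSubring K, IsPrime k O ∧
      At k O (x + algebraMap k K c * y) a ∧
      cl ℓ (x + algebraMap k K c * y - algebraMap k K a) ∉ U ℓ O}.Finite := by
  obtain ⟨Δ, h0, hΔ⟩ := flag_main hK hxy
  refine (flag_lines h0).subset fun c hc => ?_
  obtain ⟨a, ha⟩ := not_forall.1 hc
  refine ⟨a, fun b => ?_⟩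
  by_contra hb
  have e1 : x - algebraMap k K (a - c * b) = x + algebraMap k K c * y - algebraMap k K a +
      algebraMap k K (-c) * (y - algebraMap k K b) := by
    rw [map_sub, map_mul, map_neg]
    ring
  obtain ⟨v, -, a1, -, a3, -, -, -, -, a4, -⟩ := hΔ _ _ hb (y - algebraMap k K b)
    (x + algebraMap k K c * y - algebraMap k K a) (sub_mem (flag_r x y) (flag_c _ b))
    (sub_mem (add_mem (flag_l x y) (mul_mem (flag_c _ c) (flag_r x y))) (flag_c _ a))
    (by
      rw [sub_eq_iff_eq_add] at e1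
      have h1 := add_mem (add_mem (flag_r (k := k) (y - algebraMap k K b)
        (x + algebraMap k K c * y - algebraMap k K a)) (mul_mem (flag_c _ (-c)) (flag_l _ _)))
        (flag_c _ (a - c * b))
      rwa [← e1] at h1)
    (by simpa using add_mem (flag_l (k := k) (y - algebraMap k K b)
      (x + algebraMap k K c * y - algebraMap k K a)) (flag_c _ b))
    fun ν hk h1 h2 => ⟨by
      unfold At
      rw [e1]
      exact flag_lt hk h1 h2 _, h1⟩
  exact ha ⟨v, a1, a3, a4⟩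

/-- `t = x - a`, `π = y - c x - m`; a functional in `II ν` not vanishing at `[t]` gives the link
(`comap_eq_of_At`, `II_comap`) -/
theorem exists_link_disc (hK : Std ℓ k K 2) {x y : K} (hxy : AlgebraicIndependent k ![x, y])
    (hx : GEN k x) (hy : GEN k y) :
    ∃ Δ : MvPolynomial (Fin 2) k, Δ ≠ 0 ∧ ∀ a c m : k,
      MvPolynomial.eval ![a, c * a + m] Δ ≠ 0 → ∃ v : ValuationSubring K, IsPrime k v ∧ Hor k v x ∧
        v.valuation (y - (algebraMap k K c * x + algebraMap k K m)) < 1 ∧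
        ∀ (P : Pt k (ac k {x})) (P' : Pt k (ac k {y})), AtK P x a → AtK P' y (c * a + m) →
          Link ℓ v P P' := by
  obtain ⟨Δ, h0, hΔ⟩ := flag_main hK hxy
  refine ⟨Δ, h0, fun a c m hb => ?_⟩
  have e1 : y - algebraMap k K (c * a + m) = y - (algebraMap k K c * x + algebraMap k K m) +
      algebraMap k K c * (x - algebraMap k K a) := by
    rw [map_add, map_mul]
    ring
  obtain ⟨v, ν, a1, a2, a3, a4, a5, a6, a7, -, a8⟩ := hΔ _ _ hb (x - algebraMap k K a)
    (y - (algebraMap k K c * x + algebraMap k K m)) (sub_mem (flag_l x y) (flag_c _ a))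
    (sub_mem (flag_r x y) (add_mem (mul_mem (flag_c _ c) (flag_l x y)) (flag_c _ m)))
    (by simpa using add_mem (flag_l (k := k) (x - algebraMap k K a)
      (y - (algebraMap k K c * x + algebraMap k K m))) (flag_c _ a))
    (by
      rw [sub_eq_iff_eq_add] at e1
      have h1 := add_mem (add_mem (flag_r (k := k) (x - algebraMap k K a)
        (y - (algebraMap k K c * x + algebraMap k K m))) (mul_mem (flag_c _ c) (flag_l _ _)))
        (flag_c _ (c * a + m))
      rwa [← e1] at h1)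
    fun ν hk h1 h2 => ⟨h1, by
      unfold At
      rw [e1]
      exact flag_lt hk h1 h2 _⟩
  refine ⟨v, a1, fun z hz => a2 z (ac_le_ac (Set.singleton_subset_iff.2 ?_) hz), a3,
    fun P P' hP hP' => flag_link a4 (comap_eq_of_At hx a5 a6 hP) (comap_eq_of_At hy a5 a7 hP')
      (sub_mem (self_mem_ac x) (flag_c _ a)) a8⟩
  simpa using add_mem (self_mem_ac (k := k) (x - algebraMap k K a)) (flag_c _ a)

/-- Start from a general pair `x₀, y₀`, `Δ(a₀, b₀) ≠ 0`, `x = 1/(x₀ - a₀)`, `y = 1/(y₀ - b₀)`.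
For the first claim use `π = x₀ - a₀`, `t = y₀ - b₀`. For the last one `t = x₀ - a₀ = 1/x`,
`π = y - c x - m`, so `y₀ - b₀ = t/(c + m t + π t)`. -/
theorem exists_link_inf (hK : Std ℓ k K 2) :
    ∃ x y : K, GEN k x ∧ GEN k y ∧ AlgebraicIndependent k ![x, y] ∧
      (∃ O : ValuationSubring K, IsPrime k O ∧ x ∉ O ∧ cl ℓ x ∉ U ℓ O) ∧
      (∃ O : ValuationSubring K, IsPrime k O ∧ y ∉ O ∧ cl ℓ y ∉ U ℓ O) ∧
      ∀ c m : k, c ≠ 0 → ∃ v : ValuationSubring K, IsPrime k v ∧ Hor k v x ∧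
        v.valuation (y - (algebraMap k K c * x + algebraMap k K m)) < 1 ∧
        ∀ (P : Pt k (ac k {x})) (P' : Pt k (ac k {y})), PoleK P x → PoleK P' y → Link ℓ v P P' := by
  have := hK.perf
  obtain ⟨x, y, hx, hy, hxy⟩ := exists_GEN_pair hK.pf (by simpa using hK.dim.ge)
  obtain ⟨Δ, h0, hΔ⟩ := flag_main hK hxy
  obtain ⟨a, b, hab⟩ := flag_point h0
  have hs : ∀ (u : K) (c : k), GEN k u → u - algebraMap k K c ≠ 0 := fun u c hu h =>
    transcendental_iff.1 hu.1 ⟨c, (sub_eq_zero.1 h).symm⟩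
  have hpole : ∀ (O : ValuationSubring K) (u : K), u ≠ 0 → O.valuation u < 1 → u⁻¹ ∉ O :=
    fun O u h1 h2 => (O.mem_nonunits_iff_or.1 (O.mem_nonunits_iff.2 h2)).resolve_left h1
  have hU : ∀ (O : ValuationSubring K) (u : K), cl ℓ u ∉ U ℓ O → cl ℓ u⁻¹ ∉ U ℓ O :=
    fun O u h1 h2 => h1 (by rwa [cl_inv, neg_mem_iff] at h2)
  have hl : ∀ (u w : K) (c : k), u ∈ IntermediateField.adjoin k {u - algebraMap k K c, w} :=
    fun u w c => by simpa using add_mem (flag_l (k := k) (u - algebraMap k K c) w) (flag_c _ c)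
  have hr : ∀ (u w : K) (c : k), u ∈ IntermediateField.adjoin k {w, u - algebraMap k K c} :=
    fun u w c => by simpa using add_mem (flag_r (k := k) w (u - algebraMap k K c)) (flag_c _ c)
  refine ⟨_, _, hx.inv_sub a, hy.inv_sub b, zar_span hxy (adjoin_le_ac _ ?_) (adjoin_le_ac _ ?_),
    ?_, ?_, fun c m hc => ?_⟩
  · simpa using add_mem (inv_mem (flag_l (k := k) (x - algebraMap k K a)⁻¹
      (y - algebraMap k K b)⁻¹)) (flag_c _ a)
  · simpa using add_mem (inv_mem (flag_r (k := k) (x - algebraMap k K a)⁻¹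
      (y - algebraMap k K b)⁻¹)) (flag_c _ b)
  · obtain ⟨v, -, a1, -, a3, -, -, -, -, a4, -⟩ := hΔ a b hab (y - algebraMap k K b)
      (x - algebraMap k K a) (sub_mem (flag_r x y) (flag_c _ b))
      (sub_mem (flag_l x y) (flag_c _ a)) (hr _ _ _) (hl _ _ _) fun ν _ h1 h2 => ⟨h2, h1⟩
    exact ⟨v, a1, hpole v _ (hs x a hx) a3, hU v _ a4⟩
  · obtain ⟨v, -, a1, -, a3, -, -, -, -, a4, -⟩ := hΔ a b hab (x - algebraMap k K a)
      (y - algebraMap k K b) (sub_mem (flag_l x y) (flag_c _ a))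
      (sub_mem (flag_r x y) (flag_c _ b)) (hl _ _ _) (hr _ _ _) fun ν _ h1 h2 => ⟨h1, h2⟩
    exact ⟨v, a1, hpole v _ (hs y b hy) a3, hU v _ a4⟩
  · obtain ⟨v, ν, a1, a2, a3, a4, a5, a6, a7, -, a8⟩ := hΔ a b hab (x - algebraMap k K a)
      ((y - algebraMap k K b)⁻¹ - (algebraMap k K c * (x - algebraMap k K a)⁻¹ + algebraMap k K m))
      (sub_mem (flag_l x y) (flag_c _ a))
      (sub_mem (inv_mem (sub_mem (flag_r x y) (flag_c _ b))) (add_mem (mul_mem (flag_c _ c)
        (inv_mem (sub_mem (flag_l x y) (flag_c _ a)))) (flag_c _ m))) (hl _ _ _)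
      (by
        have h1 := add_mem (inv_mem (add_mem (flag_r (k := k) (x - algebraMap k K a)
          ((y - algebraMap k K b)⁻¹ - (algebraMap k K c * (x - algebraMap k K a)⁻¹ +
            algebraMap k K m))) (add_mem (mul_mem (flag_c _ c) (inv_mem (flag_l _ _)))
            (flag_c _ m)))) (flag_c _ b)
        rwa [sub_add_cancel, inv_inv, sub_add_cancel] at h1)
      fun ν hk h1 h2 => ⟨h1, by
        by_contra h3
        have h4 : (y - algebraMap k K b)⁻¹ ∈ ν := by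
          rw [← ν.valuation_le_one_iff, map_inv₀]
          exact inv_le_one_of_one_le₀ (not_lt.1 h3)
        have h5 := mul_mem (hk c⁻¹) (sub_mem (sub_mem h4 ((ν.valuation_le_one_iff _).1 h2.le))
          (hk m))
        rw [sub_sub_cancel, add_sub_cancel_right, ← mul_assoc, ← map_mul, inv_mul_cancel₀ hc,
          map_one, one_mul] at h5
        exact hpole ν _ (hs x a hx) h1 h5⟩
    refine ⟨v, a1, fun z hz => a2 z (ac_le_ac (Set.singleton_subset_iff.2
      (inv_mem (self_mem_ac _))) hz), a3, fun P P' hP hP' => flag_link a4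
      (comap_eq_of_pole (hx.inv_sub a) a5 (hpole ν _ (hs x a hx) a6) hP)
      (comap_eq_of_pole (hy.inv_sub b) a5 (hpole ν _ (hs y b hy) a7) hP') ?_ a8⟩
    simpa using inv_mem (self_mem_ac (k := k) (x - algebraMap k K a)⁻¹)

end Vale.Agent.P019
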