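import Vale.Agent.P019.BthA
import Vale.Agent.P019.BDb
import Vale.Agent.P019.CurveF

open scoped IntermediateField
open Filter

namespace Vale.Agent.P019

universe u

/-- the main statement in dimension `d` -/
def EmbStmt (ℓ d : ℕ) : Prop :=
  ∀ (k K l L : Type u) [Field k] [Field K] [Algebra k K] [IsAlgClosed k] [Field l] [Field L]
    [Algebra l L] [IsAlgClosed l], Std ℓ k K d → Std ℓ l L d →
    ∀ Θ : V ℓ K ≃ₗ[ZMod ℓ] V ℓ L, Iso Θ → Emb k l Θ

variable {ℓ : ℕ} [Fact ℓ.Prime] {k K l L : Type u} [Field k] [Field K] [Algebra k K] [IsAlgClosed k]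
  [Field l] [Field L] [Algebra l L] [IsAlgClosed l] {Θ : V ℓ K ≃ₗ[ZMod ℓ] V ℓ L}

/-- pass to the perfect closure of `K` (`PF.std_perf`, `perf_pi`, `exists_iso_of_pi`) -/
theorem EmbStmt.of_PF {d : ℕ} (h : EmbStmt.{u} ℓ d) (hK : PF k K) (hl : (ℓ : k) ≠ 0)
    (hd : Algebra.trdeg k K = (d : Cardinal)) (hL : Std ℓ l L d) (hΘ : Iso Θ) : Emb k l Θ := by
  have hlK : (ℓ : K) ≠ 0 := by
    rw [← map_natCast (algebraMap k K)]
    exact (map_ne_zero _).2 hl
  obtain ⟨Θ₀, h₀, e₀⟩ := exists_iso_of_pi (ℓ := ℓ)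
    (algebraMap K (perfectClosure K (AlgebraicClosure K))) hlK perf_pi
  obtain ⟨c, ι, hc, hk, hι⟩ := h k _ l L (hK.std_perf hl hd) hL (Θ₀.symm.trans Θ)
    (h₀.symm.trans hΘ)
  refine ⟨c, ι.comp (algebraMap K _), hc, fun a => ?_, fun x => ?_⟩
  · have := hk a
    rwa [IsScalarTower.algebraMap_apply k K (perfectClosure K (AlgebraicClosure K))] at this
  · have h1 : Θ₀ (cl ℓ x) = cl ℓ (algebraMap K (perfectClosure K (AlgebraicClosure K)) x) := by
      rw [← Vmap_cl, ← e₀]; rfl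
    have h2 := hι (algebraMap K _ x)
    rw [← h1, LinearEquiv.trans_apply, LinearEquiv.symm_apply_apply] at h2
    exact h2

/-- Componentwise embeddings. For almost all `i` (`ℓ` a unit at `O' i`) the residue fields are `PF`
of dimension `e + 2` (`IsAbh.res_pf`, `perfect_res`), so `EmbStmt.of_PF` applies. -/
theorem Fam.exists_emb_res {e : ℕ} (IH : EmbStmt.{u} ℓ (e + 2)) (hK : Std ℓ k K (e + 3))
    (hL : Std ℓ l L (e + 3)) {s : L} {y : Fin (e + 2) → L}
    {ι : Type*} {𝒰 : Ultrafilter ι} {O : ι → ValuationSubring L} (hF : Fam ℓ l s y 𝒰 O)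
    (htr : ∀ i (c : l), algebraMap l L c ∈ O i) {O' : ι → ValuationSubring K}
    {Θb : Π i, V ℓ (Res (O' i)) ≃ₗ[ZMod ℓ] V ℓ (Res (O i))}
    (hP : ∀ i, Partner Θ (O' i) (O i) ∧ IsAbh k (O' i) ∧ II ℓ (O' i) ≠ ⊥ ∧ II ℓ (O i) ≠ ⊥ ∧
      ResIso Θ (O' i) (O i) (Θb i) ∧ Iso (Θb i))
    (hu : ∀ x : K, x ≠ 0 → ∀ᶠ i in (𝒰 : Filter ι), (O' i).valuation x = 1) :
    (∀ i, Std ℓ (kap l (O i)) (Res (O i)) (e + 2)) ∧
      ∀ᶠ i in (𝒰 : Filter ι), Emb (kap k (O' i)) (kap l (O i)) (Θb i) := by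
  have hS : ∀ i, Std ℓ (kap l (O i)) (Res (O i)) (e + 2) := fun i => by
    have := hL.perf
    obtain ⟨h1, h2⟩ := (hF.gv i).isAbh.res_pf hL.pf (e := e + 2) hL.dim
    refine ⟨perfect_res (O i) ?_, h1, kap_cast_ne_zero (O i) l (hF.ell i), h2⟩
    obtain ⟨ψ, -⟩ := exists_resHom (O i) (algebraMap l L) (htr i)
    have h3 := (ψ.charP_iff_charP (ringChar l)).1 inferInstance
    have h4 := ((algebraMap l L).charP_iff_charP (ringChar l)).1 inferInstance
    rw [ringChar.eq _ (ringChar l), ringChar.eq L (ringChar l)]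
  refine ⟨hS, ?_⟩
  have hlK : (ℓ : K) ≠ 0 := by
    rw [← map_natCast (algebraMap k K)]
    exact (map_ne_zero _).2 hK.char
  filter_upwards [hu _ hlK] with i hi
  obtain ⟨h1, h2⟩ := (hP i).2.1.res_pf hK.pf (e := e + 2) hK.dim
  exact IH.of_PF h1 (kap_cast_ne_zero (O' i) k hi) h2 (hS i) (hP i).2.2.2.2.2

theorem inda_choice {ι : Type*} {F : Filter ι} {β : ι → Type*} [∀ i, Nonempty (β i)]
    {r : Π i, β i → Prop} (h : ∀ᶠ i in F, ∃ b, r i b) : ∃ f : Π i, β i, ∀ᶠ i in F, r i (f i) := by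
  classical
  refine ⟨fun i => if h : ∃ b, r i b then h.choose else Classical.arbitrary _, ?_⟩
  filter_upwards [h] with i hi
  rw [dif_pos hi]
  exact hi.choose_spec

theorem inda_range {G : Type*} [Field G] (κ : Subfield G) {x : G} :
    x ∈ (algebraMap κ G).range ↔ x ∈ κ :=
  ⟨fun ⟨a, ha⟩ => ha ▸ a.2, fun h => ⟨⟨x, h⟩, rfl⟩⟩

omit [Fact ℓ.Prime] in
theorem inda_nice_mono {κ G : Type*} [Field κ] [Field G] [Algebra κ G] {J : Type*} {y : J → G}
    {D D' : ℕ} {g : G} (h : Nice ℓ κ y D g) (hD : D ≤ D') : Nice ℓ κ y D' g := by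
  obtain ⟨a, ha, h⟩ := h
  refine ⟨a, ha, fun m => ?_⟩
  obtain ⟨u, c, h1, h2, h3⟩ := h m
  exact ⟨u, c, h1, h2.mono hD, h3⟩

section key
variable {ι : Type*} {𝒰 : Ultrafilter ι} {R : ι → Type*} [∀ i, Field (R i)]
  {κ : Π i, Subfield (R i)} [∀ i, IsAlgClosed (κ i)] {e : ℕ} {y : Fin e → Π i, R i}
  {z : Π i, R i} {D₀ : ℕ}

theorem inda_ac (hS : ∀ i, Std ℓ (κ i) (R i) e)
    (hy : ∀ i, AlgebraicIndependent (κ i) fun m => y m i)
    (hz : ∀ᶠ i in (𝒰 : Filter ι), pc (κ i) (insert (z i) (Set.range fun m => y m i)) = ⊤ ∧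
      IsSeparable (IntermediateField.adjoin (κ i) (Set.range fun m => y m i)) (z i) ∧
      Small (κ i) (fun m => y m i) D₀ (z i)) {f : Π i, R i} {D : ℕ}
    (hN : ∀ᶠ i in (𝒰 : Filter ι),
      Nrm (IntermediateField.adjoin (κ i) (insert (z i) (Set.range fun m => y m i))) (f i))
    (hn : ∀ᶠ i in (𝒰 : Filter ι), Nice ℓ (κ i) (fun m => y m i) D (f i)) :
    upMk 𝒰 R f ∈ ac (upC 𝒰 κ) (Set.range fun m => upMk 𝒰 R (y m)) := by
  refine Small.mem_ac (indep_up 𝒰 κ y (Eventually.of_forall hy)) ((small_up 𝒰 κ y f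
    (e * (max D D₀ * (4 * (max D D₀ ^ 4 + 1) + 20 * max D D₀ ^ 2)) + max D D₀ + 1)).2 ?_)
  filter_upwards [hz, hN, hn] with i h1 h2 h3
  exact small_of_nice (hS i) (hy i) h1.2.1 h1.1 (h1.2.2.mono (le_max_right _ _)) h2
    (inda_nice_mono h3 (le_max_left _ _))

theorem inda_key [∀ i, PerfectField (R i)] (hS : ∀ i, Std ℓ (κ i) (R i) e)
    (hy : ∀ i, AlgebraicIndependent (κ i) fun m => y m i)
    (hz : ∀ᶠ i in (𝒰 : Filter ι), pc (κ i) (insert (z i) (Set.range fun m => y m i)) = ⊤ ∧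
      IsSeparable (IntermediateField.adjoin (κ i) (Set.range fun m => y m i)) (z i) ∧
      Small (κ i) (fun m => y m i) D₀ (z i)) {f g : Π i, R i} {D : ℕ}
    (hN : ∀ᶠ i in (𝒰 : Filter ι),
      Nrm (IntermediateField.adjoin (κ i) (insert (z i) (Set.range fun m => y m i))) (g i))
    (hg : ∀ᶠ i in (𝒰 : Filter ι), g i ∉ κ i)
    (hgn : ∀ᶠ i in (𝒰 : Filter ι), Nice ℓ (κ i) (fun m => y m i) D (g i))
    (hf : ∀ᶠ i in (𝒰 : Filter ι), f i ∉ κ i)
    (hfn : ∀ᶠ i in (𝒰 : Filter ι), Nice ℓ (κ i) (fun m => y m i) D (f i))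
    (hsn : ∀ᶠ i in (𝒰 : Filter ι), Nice ℓ (κ i) (fun m => y m i) D (f i + g i)) :
    upMk 𝒰 R f ∈ ac (upC 𝒰 κ) (Set.range fun m => upMk 𝒰 R (y m)) := by
  have hg0 := inda_ac hS hy hz hN hgn
  obtain ⟨n, hn⟩ : ∃ n : ι → ℤ, ∀ᶠ i in (𝒰 : Filter ι),
      Nrm (IntermediateField.adjoin (κ i) (insert (z i) (Set.range fun m => y m i)))
        ((frobE (R i) ^ n i) (f i)) := by
    refine inda_choice (β := fun _ => ℤ) (r := fun i n =>
      Nrm (IntermediateField.adjoin (κ i) (insert (z i) (Set.range fun m => y m i)))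
        ((frobE (R i) ^ n) (f i))) ?_
    filter_upwards [hz, hf] with i h1 h2
    exact exists_Nrm (hy i) h1.2.1 h1.1 (transcendental_iff.2 fun h => h2 ((inda_range _).1 h))
  have h3 : ∀ᶠ i in (𝒰 : Filter ι), n i = 0 ∨ n i < 0 ∨ 0 < n i :=
    Eventually.of_forall fun i => by omega
  rcases Ultrafilter.eventually_or.1 h3 with h0 | h0
  · refine inda_ac hS hy hz ?_ hfn
    filter_upwards [hn, h0] with i h1 h2
    rwa [h2, zpow_zero] at h1
  rcases Ultrafilter.eventually_or.1 h0 with h0 | h0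
  · have h1 : upMk 𝒰 R (f + g) ∈ ac (upC 𝒰 κ) (Set.range fun m => upMk 𝒰 R (y m)) := by
      refine inda_ac hS hy hz ?_ hsn
      filter_upwards [hn, h0, hN] with i h1 h2 h4
      have h5 := h4.pow_add h1.1 (n := (-n i).toNat) (by omega)
      rw [← frobE_pow_apply, ← zpow_natCast, Int.toNat_of_nonneg (by omega),
        ← RingAut.mul_apply, ← zpow_add, neg_add_cancel, zpow_zero] at h5
      exact h5
    rw [map_add] at h1
    simpa using sub_mem h1 hg0
  · have h1 : upMk 𝒰 R (fun i => (frobE (R i) ^ n i) (f i)) ∈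
        ac (upC 𝒰 κ) (Set.range fun m => upMk 𝒰 R (y m)) := by
      refine inda_ac hS hy hz (D := D) hn ?_
      filter_upwards [hfn] with i h1 using h1.frob (hS i).char _
    have hp : ∀ᶠ i in (𝒰 : Filter ι), ∀ x : R i,
        (frobE (R i) ^ n i) x = x ^ ringExpChar (R i) ^ (n i).toNat := by
      filter_upwards [h0] with i h2 x
      rw [← frobE_pow_apply, ← zpow_natCast, Int.toNat_of_nonneg h2.le]
    have h2 : upMk 𝒰 R (fun i => (frobE (R i) ^ n i) (f i + g i)) ∈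
        ac (upC 𝒰 κ) (Set.range fun m => upMk 𝒰 R (y m)) := by
      refine inda_ac hS hy hz (D := D) ?_ ?_
      · filter_upwards [hn, h0, hN, hp] with i h1 h2 h4 h5
        rw [map_add, add_comm, h5 (g i)]
        exact h1.pow_add h4.1 (by omega)
      · filter_upwards [hsn] with i h1 using h1.frob (hS i).char _
    have h4 : upMk 𝒰 R (fun i => (frobE (R i) ^ n i) (g i)) ∈
        ac (upC 𝒰 κ) (Set.range fun m => upMk 𝒰 R (y m)) := by
      have := sub_mem h2 h1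
      rw [← map_sub] at this
      convert this using 2
      funext i
      simp
    obtain ⟨B, hB⟩ := small_of_mem_ac h4
    rw [small_up] at hB
    obtain ⟨N, hN'⟩ := eventually_const_of_le 𝒰 (fun i => ringExpChar (R i) ^ (n i).toNat) B (by
      filter_upwards [hB, hp, hz, hN, hg] with i h5 h6 h7 h8 h9
      rw [h6] at h5
      exact pow_le_of_small (hy i) (transcendental_iff.2 fun h => h9 ((inda_range _).1 h))
        (isSeparable_of_mem h7.2.1 h8.1).1 h5)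
    have hpos : 0 < N := by
      obtain ⟨i, hi⟩ := hN'.exists
      rw [← hi]
      exact fielda_pos _
    refine mem_ac_of_pow hpos ?_
    rw [← map_pow]
    convert h1 using 1
    rw [upMk_eq_iff]
    filter_upwards [hN', hp] with i h5 h6
    rw [h6, h5, Pi.pow_apply]

end key

/-- a family of maps that is almost everywhere compatible with `Θ` -/
structure IndaGood (k l : Type u) [Field k] [Algebra k K] [Field l] [Algebra l L]
    (Θ : V ℓ K ≃ₗ[ZMod ℓ] V ℓ L) {ι : Type*} (𝒰 : Ultrafilter ι) (O : ι → ValuationSubring L)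
    (c : ι → ZMod ℓ) (g : K → Π i, Res (O i)) : Prop where
  one : ∀ᶠ i in (𝒰 : Filter ι), g 1 i = 1
  add : ∀ x y, ∀ᶠ i in (𝒰 : Filter ι), g (x + y) i = g x i + g y i
  mul : ∀ x y, ∀ᶠ i in (𝒰 : Filter ι), g (x * y) i = g x i * g y i
  const : ∀ a : k, ∀ᶠ i in (𝒰 : Filter ι), g (algebraMap k K a) i ∈ kap l (O i)
  ne : ∀ᶠ i in (𝒰 : Filter ι), c i ≠ 0
  cls : ∀ x u, x ≠ 0 → u ≠ 0 → Θ (cl ℓ x) = cl ℓ u →
    ∀ᶠ i in (𝒰 : Filter ι), cl ℓ (res (O i) u) = c i • cl ℓ (g x i)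

section good
variable {ι : Type*} {𝒰 : Ultrafilter ι} {O : ι → ValuationSubring L} {c : ι → ZMod ℓ}
  {g : K → Π i, Res (O i)}

omit [IsAlgClosed k] in
theorem IndaGood.frob [∀ i, PerfectField (Res (O i))] (h : IndaGood k l Θ 𝒰 O c g)
    (hl : ∀ i, (O i).valuation (ℓ : L) = 1) (n : ι → ℤ) :
    ∃ c', IndaGood k l Θ 𝒰 O c' fun x i => (frobE (Res (O i)) ^ n i) (g x i) := by
  have hq : ∀ i, ((ringExpChar (Res (O i)) : ℕ) : ZMod ℓ) ^ n i ≠ 0 := fun i =>
    zpow_ne_zero _ (expChar_cast_ne_zero (res_cast_ne_zero (O i) (hl i)))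
  refine ⟨fun i => c i * (((ringExpChar (Res (O i)) : ℕ) : ZMod ℓ) ^ n i)⁻¹, ?_, fun x y => ?_,
    fun x y => ?_, fun a => ?_, ?_, fun x u hx hu e => ?_⟩
  · filter_upwards [h.one] with i hi
    rw [hi, map_one]
  · filter_upwards [h.add x y] with i hi
    rw [hi, map_add]
  · filter_upwards [h.mul x y] with i hi
    rw [hi, map_mul]
  · filter_upwards [h.const a] with i hi
    exact (inda_range _).1 (frobE_mem_range _ ((inda_range _).2 hi))
  · filter_upwards [h.ne] with i hi using mul_ne_zero hi (inv_ne_zero (hq i))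
  · filter_upwards [h.cls x u hx hu e] with i hi
    rw [hi, cl_frobE (res_cast_ne_zero (O i) (hl i)), smul_smul, inv_mul_cancel_right₀ (hq i)]

omit [IsAlgClosed k] [IsAlgClosed l] in
theorem IndaGood.hom (h : IndaGood k l Θ 𝒰 O c g) :
    ∃ φ : K →+* UP 𝒰 (fun i => Res (O i)), ∀ x, φ x = upMk 𝒰 _ (g x) :=
  exists_upHom 𝒰 g h.one h.add h.mul

omit [IsAlgClosed k] [IsAlgClosed l] in
theorem IndaGood.sub (h : IndaGood k l Θ 𝒰 O c g) (x y : K) :
    ∀ᶠ i in (𝒰 : Filter ι), g (x - y) i = g x i - g y i := by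
  filter_upwards [h.add (x - y) y] with i hi
  rw [sub_add_cancel] at hi
  rw [hi, add_sub_cancel_right]

omit [IsAlgClosed k] [IsAlgClosed l] in
theorem IndaGood.ne_zero (h : IndaGood k l Θ 𝒰 O c g) {x : K} (hx : x ≠ 0) :
    ∀ᶠ i in (𝒰 : Filter ι), g x i ≠ 0 := by
  filter_upwards [h.mul x x⁻¹, h.one] with i h1 h2 h3
  rw [mul_inv_cancel₀ hx, h2, h3, zero_mul] at h1
  exact one_ne_zero h1

theorem IndaGood.nice {e : ℕ} (hL : Std ℓ l L (e + 1)) {s : L} {y : Fin e → L}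
    (hs : AlgebraicIndependent l (Fin.cons s y : Fin (e + 1) → L)) (hF : Fam ℓ l s y 𝒰 O)
    (h : IndaGood k l Θ 𝒰 O c g) {x : K} (hx : ∀ᶠ i in (𝒰 : Filter ι), g x i ∉ kap l (O i)) :
    ∃ D, ∀ᶠ i in (𝒰 : Filter ι),
      Nice ℓ (kap l (O i)) (fun m => res (O i) (y m)) D (g x i) := by
  let a : Fin 5 → k := fun m => Infinite.natEmbedding k m
  have ha : Function.Injective a := fun m m' e =>
    Fin.ext ((Infinite.natEmbedding k).injective e)
  have h0 : ∀ m, x - algebraMap k K (a m) ≠ 0 := fun m e => by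
    obtain ⟨i, h1, h2⟩ := (hx.and (h.const (a m))).exists
    rw [← sub_eq_zero.1 e] at h2
    exact h1 h2
  choose u hu hu' using fun m => cl_surj (Θ (cl ℓ (x - algebraMap k K (a m))))
  choose D hD using fun m => hF.small hL hs (u m)
  refine ⟨Finset.univ.sup D, ?_⟩
  filter_upwards [eventually_all.2 hD, eventually_all.2 fun m => h.const (a m), h.ne,
    eventually_all.2 fun m => h.sub x (algebraMap k K (a m)),
    eventually_all.2 fun m => h.cls _ _ (h0 m) (hu m) (hu' m).symm,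
    eventually_all.2 fun m => hF.unit _ (hu m),
    eventually_all.2 fun m => eventually_all.2 fun m' =>
      h.sub (algebraMap k K (a m)) (algebraMap k K (a m')),
    eventually_all.2 fun m => eventually_all.2 fun m' => eventually_all.2 fun e : m ≠ m' =>
      h.ne_zero (x := algebraMap k K (a m) - algebraMap k K (a m'))
        (sub_ne_zero.2 fun e' => e (ha ((algebraMap k K).injective e')))]
    with i h1 h2 h3 h4 h5 h6 h7 h8
  refine ⟨fun m => ⟨_, h2 m⟩, fun m m' e => ?_, fun m => ⟨res (O i) (u m), (c i)⁻¹,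
    (res_ne_zero_iff _ _).2 (h6 m), (h1 m).mono (Finset.le_sup (Finset.mem_univ m)), ?_⟩⟩
  · by_contra e'
    apply h8 m m' e'
    rw [h7, sub_eq_zero]
    exact congrArg Subtype.val e
  · rw [h5, smul_smul, inv_mul_cancel₀ h3, one_smul, h4]
    rfl

omit [IsAlgClosed k] in
theorem IndaGood.exists_tr {e : ℕ} (hL : Std ℓ l L (e + 2)) {s : L} {y : Fin (e + 1) → L}
    (hs : AlgebraicIndependent l (Fin.cons s y : Fin (e + 2) → L)) (hF : Fam ℓ l s y 𝒰 O)
    (h : IndaGood k l Θ 𝒰 O c g) : ∃ x, ∀ᶠ i in (𝒰 : Filter ι), g x i ∉ kap l (O i) := by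
  by_contra hc
  have h1 : ∀ x, ∀ᶠ i in (𝒰 : Filter ι), g x i ∈ kap l (O i) := fun x => by
    by_contra h2
    exact hc ⟨x, Ultrafilter.eventually_not.2 h2⟩
  have h2 : H l ℓ (y 0) ≤ H l ℓ s := fun v _ => by
    refine hF.ker' hL hs v ?_
    obtain ⟨u, hu, rfl⟩ := cl_surj v
    obtain ⟨x, hx, e⟩ := cl_surj (Θ.symm (cl ℓ u))
    filter_upwards [h.cls x u hx hu (by rw [e, LinearEquiv.apply_symm_apply]), h1 x,
      hF.unit u hu] with i h3 h4 h5
    rw [cl_mem_U1_iff _ h5, h3]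
    have := cl_const (ℓ := ℓ) (F := Res (O i)) (⟨_, h4⟩ : kap l (O i))
    rw [show cl ℓ (g x i) = 0 from this, smul_zero]
  have h3 : AlgebraicIndependent l ![s, y 0] := by
    have := hs.comp (![0, 1] : Fin 2 → Fin (e + 2)) (by
      intro a b hab
      fin_cases a <;> fin_cases b <;> simp_all)
    convert this using 1
    funext m
    fin_cases m <;> rfl
  exact (indep_pair_iff.1 h3).2 (mem_ac_of_H_le hL h2)

end good

/-- Choose `c i, φ i` from `Fam.exists_emb_res`, `g x i = φ i (res x)`, `z` from `Fam.model`,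
`A i = κ i (y, z)`. For each `x ∉ k` there is `D` with `Nice D (g x i)` almost everywhere (five
constants `a m`, `Θ [x - a m] = [u m]`, `Fam.small`). Some `x₀` has `g x₀ i` transcendental almost
everywhere (else every class is in `U1 (O i)` almost everywhere, so `H s = ⊤` by `Fam.ker'`, against
`mem_ac_of_H_le`). Compose `φ i` with a power of `frobE` so that `Nrm (A i) (g x₀ i)` (`exists_Nrm`,
`cl_frobE`; the new scalars are constant almost everywhere). For `x` with `g x i` transcendental let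
`Nrm (A i) (frobE ^ n i (g x i))`. Cases almost everywhere: `n = 0`: `small_of_nice`, `small_up`.
`n < 0`: `g (x + x₀) i` is `Nrm` (`Nrm.pow_add`). `n > 0`: `frobE ^ n (g (x + x₀))` and
`frobE ^ n (g x)` are `Nrm` and `Nice`, so their difference `g x₀ ^ q ^ n` is algebraic in the
ultraproduct, so `Small` almost everywhere, so `n` is bounded (`pow_le_of_small`), so constant. -/
theorem Fam.exists_emb_up {e : ℕ} (IH : EmbStmt.{u} ℓ (e + 2)) (hK : Std ℓ k K (e + 3))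
    (hL : Std ℓ l L (e + 3)) (hΘ : Iso Θ) {s : L} {y : Fin (e + 2) → L}
    (hs : AlgebraicIndependent l (Fin.cons s y : Fin (e + 3) → L))
    {ι : Type*} {𝒰 : Ultrafilter ι} {O : ι → ValuationSubring L} (hF : Fam ℓ l s y 𝒰 O)
    (htr : ∀ i (c : l), algebraMap l L c ∈ O i) {j : L →+* UP 𝒰 (fun i => Res (O i))}
    (hj : ∀ x, j x = upMk 𝒰 _ (fun i => res (O i) x)) :
    ∃ (c : ZMod ℓ) (φ : K →+* UP 𝒰 (fun i => Res (O i))), c ≠ 0 ∧
      (∀ a : k, φ (algebraMap k K a) ∈ upC 𝒰 (fun i => kap l (O i))) ∧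
      (∀ x, φ x ∈ ac (upC 𝒰 (fun i => kap l (O i))) (Set.range (j ∘ y))) ∧
      ∀ x, Vmap ℓ j (Θ (cl ℓ x)) = c • cl ℓ (φ x) := by
  obtain ⟨O', Θb, hP, hu⟩ := hF.exists_partners (e := e + 1) hK hL hΘ hs
  obtain ⟨hS, hE⟩ := hF.exists_emb_res IH hK hL htr hP hu
  have := fun i => (hS i).perf
  obtain ⟨c₀, g₀, h₀⟩ : ∃ c g, IndaGood k l Θ 𝒰 O c g := by
    obtain ⟨p, hp⟩ := inda_choice (F := (𝒰 : Filter ι))
      (β := fun i => ZMod ℓ × (Res (O' i) → Res (O i))) (r := fun i p =>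
      ∃ ψ : Res (O' i) →+* Res (O i), p.2 = ψ ∧ p.1 ≠ 0 ∧
        (∀ a ∈ kap k (O' i), ψ a ∈ kap l (O i)) ∧ ∀ x, Θb i (cl ℓ x) = p.1 • cl ℓ (ψ x)) (by
      filter_upwards [hE] with i ⟨c, ψ, h1, h2, h3⟩
      exact ⟨(c, ψ), ψ, rfl, h1, fun a ha => (inda_range _).1 (h2 ⟨a, ha⟩), h3⟩)
    have hm : ∀ x : K, ∀ᶠ i in (𝒰 : Filter ι), x ∈ O' i := fun x => by
      rcases eq_or_ne x 0 with rfl | hx
      · exact Eventually.of_forall fun i => zero_mem _
      · filter_upwards [hu x hx] with i hi using valb_mem _ hi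
    refine ⟨fun i => (p i).1, fun x i => (p i).2 (res (O' i) x), ?_, fun x y => ?_, fun x y => ?_,
      fun a => ?_, ?_, fun x u hx hu' e => ?_⟩
    · filter_upwards [hp] with i ⟨ψ, h1, _⟩
      rw [h1, res_one, map_one]
    · filter_upwards [hp, hm x, hm y] with i ⟨ψ, h1, _⟩ h2 h3
      rw [h1, res_add _ h2 h3, map_add]
    · filter_upwards [hp, hm x, hm y] with i ⟨ψ, h1, _⟩ h2 h3
      rw [h1, res_mul _ h2 h3, map_mul]
    · filter_upwards [hp] with i ⟨ψ, h1, _, h2, _⟩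
      rw [h1]
      exact h2 _ (res_const_mem _ k a)
    · filter_upwards [hp] with i ⟨ψ, _, h1, _⟩ using h1
    · filter_upwards [hp, hu x hx, hF.unit u hu'] with i ⟨ψ, h1, _, _, h2⟩ h3 h4
      rw [h1, ← h2, (hP i).2.2.2.2.1 x u h3 h4 e]
  obtain ⟨x₀, hx₀⟩ := h₀.exists_tr hL hs hF
  obtain ⟨z, n₀, -, -, hz⟩ := hF.model hL hs
  obtain ⟨D₀, hD₀⟩ := hF.small hL hs z
  have hy : ∀ i, AlgebraicIndependent (kap l (O i)) fun m => res (O i) (y m) :=
    fun i => (hF.rind i).2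
  obtain ⟨n, hn⟩ := inda_choice (F := (𝒰 : Filter ι)) (β := fun _ => ℤ) (r := fun i n =>
      Nrm (IntermediateField.adjoin (kap l (O i))
        (insert (res (O i) z) (Set.range fun m => res (O i) (y m))))
        ((frobE (Res (O i)) ^ n) (g₀ x₀ i))) (by
    filter_upwards [hz, hx₀] with i h1 h2
    exact exists_Nrm (hy i) h1.2.1 h1.1 (transcendental_iff.2 fun h => h2 ((inda_range _).1 h)))
  obtain ⟨c₁, h₁⟩ := h₀.frob hF.ell n
  have hx₁ : ∀ᶠ i in (𝒰 : Filter ι), (frobE (Res (O i)) ^ n i) (g₀ x₀ i) ∉ kap l (O i) := by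
    filter_upwards [hx₀] with i h1 h2
    have h3 := frobE_mem_range (-n i) ((inda_range _).2 h2)
    rw [← RingAut.mul_apply, ← zpow_add, neg_add_cancel, zpow_zero] at h3
    exact h1 ((inda_range _).1 h3)
  generalize hg : (fun x i => (frobE (Res (O i)) ^ n i) (g₀ x i)) = g at h₁
  have hg' : ∀ i, (frobE (Res (O i)) ^ n i) (g₀ x₀ i) = g x₀ i := fun i => by rw [← hg]
  simp only [hg'] at hx₁ hn
  obtain ⟨c, hc⟩ := eventually_const 𝒰 c₁
  obtain ⟨φ, hφ⟩ := h₁.hom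
  have hz' := (hz.and hD₀).mono fun i h => And.intro h.1.1 (And.intro h.1.2.1 h.2)
  have hjy : j ∘ y = fun m => upMk 𝒰 (fun i => Res (O i)) fun i => res (O i) (y m) :=
    funext fun m => hj _
  have hC : ∀ x, (∀ᶠ i in (𝒰 : Filter ι), g x i ∈ kap l (O i)) →
      φ x ∈ ac (upC 𝒰 (fun i => kap l (O i))) (Set.range (j ∘ y)) := fun x hx => by
    rw [hφ]
    exact IntermediateField.algebraMap_mem _
      (⟨_, (upMk_mem_upC 𝒰 (fun i => kap l (O i))).2 hx⟩ : upC 𝒰 (fun i => kap l (O i)))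
  refine ⟨c, φ, ?_, fun a => ?_, fun x => ?_, fun x => ?_⟩
  · obtain ⟨i, h1, h2⟩ := (hc.and h₁.ne).exists
    rwa [← h1]
  · rw [hφ]
    exact (upMk_mem_upC 𝒰 _).2 (h₁.const a)
  · obtain ⟨D₁, hD₁⟩ := h₁.nice hL hs hF hx₁
    by_cases h1 : ∀ᶠ i in (𝒰 : Filter ι), g x i ∈ kap l (O i)
    · exact hC x h1
    by_cases h2 : ∀ᶠ i in (𝒰 : Filter ι), g (x + x₀) i ∈ kap l (O i)
    · have h3 : φ x₀ ∈ ac (upC 𝒰 (fun i => kap l (O i))) (Set.range (j ∘ y)) := by
        rw [hφ, hjy]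
        exact inda_ac hS hy hz' hn hD₁
      have h4 := sub_mem (hC _ h2) h3
      rwa [map_add, add_sub_cancel_right] at h4
    replace h1 := Ultrafilter.eventually_not.2 h1
    obtain ⟨D₂, hD₂⟩ := h₁.nice hL hs hF h1
    obtain ⟨D₃, hD₃⟩ := h₁.nice hL hs hF (Ultrafilter.eventually_not.2 h2)
    rw [hφ, hjy]
    refine inda_key (D := max D₁ (max D₂ D₃)) hS hy hz' hn hx₁
      (hD₁.mono fun i h => inda_nice_mono h (le_max_left _ _)) h1
      (hD₂.mono fun i h => inda_nice_mono h (by omega)) ?_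
    filter_upwards [hD₃, h₁.add x x₀] with i h3 h4
    rw [← h4]
    exact inda_nice_mono h3 (by omega)
  · rcases eq_or_ne x 0 with rfl | hx
    · rw [map_zero φ, cl_zero, cl_zero, map_zero, map_zero, smul_zero]
    obtain ⟨u, hu', e⟩ := cl_surj (Θ (cl ℓ x))
    rw [← e, Vmap_cl, hj, hφ]
    refine cl_upMk_eq_smul 𝒰 c ?_ (h₁.ne_zero hx) ?_
    · filter_upwards [hF.unit u hu'] with i hi using (res_ne_zero_iff _ _).2 hi
    · filter_upwards [h₁.cls x u hx hu' e.symm, hc] with i h1 h2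
      rw [h1, h2]

end Vale.Agent.P019
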