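import Vale.Agent.P019.IndA
import Vale.Agent.P019.DescB
import Vale.Agent.P019.Fam
import Vale.Agent.P019.Zar

open scoped IntermediateField
open Filter

namespace Vale.Agent.P019

universe u

variable {ℓ : ℕ} [Fact ℓ.Prime] {k K l L : Type u} [Field k] [Field K] [Algebra k K] [IsAlgClosed k]
  [Field l] [Field L] [Algebra l L] [IsAlgClosed l] {Θ : V ℓ K ≃ₗ[ZMod ℓ] V ℓ L}

omit [IsAlgClosed k] in
theorem indb_not_H {e : ℕ} (hL : Std ℓ l L (e + 2)) {s : L} {y : Fin (e + 1) → L}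
    (hs : AlgebraicIndependent l (Fin.cons s y : Fin (e + 2) → L)) : ∃ v, v ∉ H l ℓ s := by
  by_contra hc
  have h2 : H l ℓ (y 0) ≤ H l ℓ s := fun v _ => by
    by_contra h
    exact hc ⟨v, h⟩
  have h3 : AlgebraicIndependent l ![s, y 0] := by
    have := hs.comp (![0, 1] : Fin 2 → Fin (e + 2)) (by
      intro a b hab
      fin_cases a <;> fin_cases b <;> simp_all)
    convert this using 1
    funext m
    fin_cases m <;> rfl
  exact (indep_pair_iff.1 h3).2 (mem_ac_of_H_le hL h2)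

/-- descent inside a large field -/
theorem indb_desc {k K A L C Ω : Type*} [Field k] [Infinite k] [Field K] [Algebra k K]
    [Field A] [Infinite A] [Field L] [Algebra A L] [PerfectField L] [Field C] [IsAlgClosed C]
    [Field Ω] [PerfectField Ω] [Algebra C Ω] (hl : (ℓ : L) ≠ 0) (hPF : PF A L) (j : L →+* Ω)
    (hA : ∀ a : A, j (algebraMap A L a) ∈ (algebraMap C Ω).range) {d : ℕ} {y : Fin d → L}
    (hy : AlgebraicIndependent C (j ∘ y)) (htop : ac A (Set.range y) = ⊤)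
    (hN : ∀ ω ∈ ac C (Set.range (j ∘ y)), ω ∈ pc C (Set.range j)) (φ : K →+* Ω)
    (hk : ∀ a : k, φ (algebraMap k K a) ∈ (algebraMap C Ω).range)
    (hφ : ∀ x, φ x ∈ ac C (Set.range (j ∘ y))) {c : ZMod ℓ} (hc : c ≠ 0)
    (h : ∀ x : K, ∃ x' : L, cl ℓ (j x') = c • cl ℓ (φ x))
    (hx : ∃ x : K, φ x ∉ (algebraMap C Ω).range) (x : K) : φ x ∈ j.range := by
  classical
  let N := pc C (Set.range j)
  let j' : L →+* N := j.codRestrict N fun x => subset_pc _ ⟨x, rfl⟩
  let φ' : K →+* N := φ.codRestrict N fun x => hN _ (hφ x)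
  have hr : ∀ w : N, (w : Ω) ∈ (algebraMap C Ω).range ↔ w ∈ (algebraMap C N).range := fun w =>
    ⟨fun ⟨a, ha⟩ => ⟨a, Subtype.ext ha⟩, fun ⟨a, ha⟩ => ⟨a, congrArg Subtype.val ha⟩⟩
  have him : ∀ S : Set L, N.val '' (j' '' S) = j '' S := fun S => by
    rw [Set.image_image]; rfl
  have hle : N ≤ ac C (Set.range (j ∘ y)) := by
    refine (pc_le_ac _).trans (ac_le_ac ?_)
    rintro _ ⟨u, rfl⟩
    rw [Set.range_comp]
    exact map_mem_ac j hA (htop ▸ IntermediateField.mem_top)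
  have hy' : AlgebraicIndependent C (j' ∘ y) := AlgebraicIndependent.of_comp N.val hy
  have hS : Std ℓ C N d := by
    refine ⟨perfect_pc _, ?_, fun h0 => hl ?_, ?_⟩
    · obtain ⟨S, hS⟩ := hPF
      refine ⟨S.image j', eq_top_iff.2 fun w _ => ?_⟩
      rw [Finset.coe_image, ← algHom_mem_pc_iff N.val, him]
      refine pc_le_pc ?_ w.2
      rintro _ ⟨u, rfl⟩
      exact map_mem_pc j hA (hS ▸ IntermediateField.mem_top)
    · apply j.injective
      rw [map_natCast, map_zero, ← map_natCast (algebraMap C Ω), h0, map_zero]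
    · rw [trdeg_eq_of_indep hy' (eq_top_iff.2 fun w _ => ?_), Fintype.card_fin]
      rw [Set.range_comp, ← algHom_mem_ac_iff N.val, him, ← Set.range_comp]
      exact hle w.2
  have hinj : Function.Injective (Vmap ℓ (algebraMap N Ω)) := by
    refine Vmap_injective _ fun w v hw => ⟨⟨w, hN _ ?_⟩, rfl⟩
    refine mem_ac_of_pow (Fact.out : ℓ.Prime).pos ?_
    rw [hw]
    exact hle v.2
  obtain ⟨u, hu⟩ := mem_range_of_desc (k := k) hS j' (fun a => (hr _).1 (hA a)) hy' htop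
    (eq_top_iff.2 fun w _ => by
      rw [← Set.image_univ, ← algHom_mem_pc_iff N.val, him, Set.image_univ]
      exact w.2) φ' (fun a => (hr _).1 (hk a)) hc (fun x => by
      obtain ⟨x', hx'⟩ := h x
      refine ⟨x', hinj ?_⟩
      rw [map_smul, Vmap_cl, Vmap_cl]
      exact hx') (by
      obtain ⟨x, hx⟩ := hx
      exact ⟨x, transcendental_iff.2 fun h => hx ((hr _).2 h)⟩) x
  exact ⟨u, congrArg Subtype.val hu⟩

/-- `exists_fam_triv`, `Fam.exists_emb_up`. Let `N = pc C (range j)` (perfect by `perfect_resUP`,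
`PF` over `C`, dimension `e + 2`); `φ` and `j` map into `N` (`Fam.mem_pc`), `N = ac C (j y)`, so
`V N → V Ω` is injective. `mem_range_of_desc` with `A = ac l {s}` gives `φ = j ∘ ι₀`; finish with
`Fam.ker` and `Fam.mem_ac_of_mem`. -/
theorem exists_emb_mod {e : ℕ} (IH : EmbStmt.{u} ℓ (e + 2)) (hK : Std ℓ k K (e + 3))
    (hL : Std ℓ l L (e + 3)) (hΘ : Iso Θ) {s : L} (hs : Transcendental l s) :
    ∃ (c : ZMod ℓ) (ι₀ : K →+* L), c ≠ 0 ∧ (∀ a : k, ι₀ (algebraMap k K a) ∈ ac l {s}) ∧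
      ∀ x : K, Θ (cl ℓ x) - c • cl ℓ (ι₀ x) ∈ H l ℓ s := by
  obtain ⟨y, hy⟩ := exists_cons_basis (e := e + 2) hL.dim hs
  obtain ⟨𝒰, O, hF, htr⟩ := exists_fam_triv (ℓ := ℓ) hL.char (e := e + 2) hL.dim hy
  obtain ⟨j, hj⟩ := exists_resUP 𝒰 O hF.unit
  obtain ⟨c, φ, hc, hk, hφ, hcl⟩ := hF.exists_emb_up IH hK hL hΘ hy htr hj
  have := hL.perf
  have := perfect_resUP 𝒰 O hF.unit
  have := upC_isAlgClosed 𝒰 (fun i => kap l (O i)) fun i => inferInstance
  have : Infinite (ac l {s}) := Infinite.of_injective _ (algebraMap l (ac l {s})).injective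
  have hl : (ℓ : L) ≠ 0 := by
    rw [← map_natCast (algebraMap l L)]
    exact (map_ne_zero _).2 hL.char
  have key := indb_desc (k := k) (A := ac l {s}) (C := upC 𝒰 fun i => kap l (O i)) hl
    (hL.pf.over _) j (fun a => (inda_range _).2 (hF.const_mem hj a.2)) (hF.indep hj)
    (ac_top_of_cons hL hy) (fun ω hω => hF.mem_pc hL hy hj hω) φ
    (fun a => (inda_range _).2 (hk a)) hφ hc (fun x => by
      obtain ⟨u, -, hu⟩ := cl_surj (Θ (cl ℓ x))
      exact ⟨u, by rw [← hcl, ← hu, Vmap_cl]⟩) (by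
      obtain ⟨v, hv⟩ := indb_not_H hL hy
      obtain ⟨x, -, hx⟩ := cl_surj (Θ.symm v)
      refine ⟨x, fun ⟨a, ha⟩ => hv (hF.ker hL hy hj ?_)⟩
      have h0 : cl ℓ (φ x) = 0 := ha ▸ cl_const a
      rw [← Θ.apply_symm_apply v, ← hx, hcl, h0, smul_zero])
  obtain ⟨ι₀, hι⟩ := fieldc_hom φ j key
  refine ⟨c, ι₀, hc, fun a => hF.mem_ac_of_mem hL hy hj (hι _ ▸ hk a), fun x =>
    hF.ker hL hy hj ?_⟩
  rw [map_sub, map_smul, hcl, Vmap_cl, hι, sub_self]

/-- Fix independent `s, x` and `s a = s + a x`, with `c a, ι a` from `exists_emb_mod`. In the base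
change over `bcC l {s, x}` (dimension `e + 1`) all `H (s a)` die, so `rigid` applies to `ι 0`, `ι a`
(some `ι 0 w` is transcendental, else `V L → V N` is zero, against `finite_cl_eq_zero`). It gives
`c a • [ι a w] = c 0 • [ι 0 w]` in `V L`; conclude with `eq_zero_of_mem_H` and `inter_ac`. -/
theorem EmbStmt.step {e : ℕ} (IH : EmbStmt.{u} ℓ (e + 2)) : EmbStmt.{u} ℓ (e + 3) := by
  intro k K l L _ _ _ _ _ _ _ _ hK hL Θ hΘ
  obtain ⟨y, hy⟩ := exists_indep (k := l) (K := L) (d := 2) (by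
    rw [hL.dim]
    exact Nat.cast_le.2 (by omega))
  have hy' : AlgebraicIndependent l ![y 0, y 1] := by
    convert hy using 1
    funext m
    fin_cases m <;> rfl
  choose c ι hc hk hι using fun a : l =>
    exists_emb_mod IH hK hL hΘ (indep_pair_iff.1 (indep_lin' hy' a)).1
  have hS := bc_std (e := 2) (d := e + 1) (by rw [show 2 + (e + 1) = e + 3 by omega]; exact hL)
    (Fintype.card_fin 2) hy
  have hl : (ℓ : L) ≠ 0 := by
    rw [← map_natCast (algebraMap l L)]
    exact (map_ne_zero _).2 hL.char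
  have hle : ∀ a : l, ac l {y 0 + algebraMap l L a * y 1} ≤ ac l (Set.range y) := fun a => by
    refine ac_le_ac (Set.singleton_subset_iff.2 (add_mem (subset_ac _ ⟨0, rfl⟩)
      (mul_mem (IntermediateField.algebraMap_mem _ _) (subset_ac _ ⟨1, rfl⟩))))
  have hβ : ∀ a w, Vmap ℓ (bcHom l (Set.range y)) (Θ (cl ℓ w)) =
      c a • cl ℓ (bcHom l (Set.range y) (ι a w)) := fun a w => by
    have h1 := hι a w
    rw [H_eq_HF, mem_HF] at h1
    obtain ⟨f, hf, -, h1⟩ := h1
    obtain ⟨b, hb⟩ := (bcHom_mem_range_iff _ f).2 (hle a hf)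
    rw [← Vmap_cl, ← map_smul, ← sub_eq_zero, ← map_sub, ← h1, Vmap_cl, ← hb, cl_const]
  have htr : ∃ w, Transcendental (bcC l (Set.range y)) (bcHom l (Set.range y) (ι 0 w)) := by
    by_contra hn
    obtain ⟨u, hu⟩ := exists_not_mem_ac (k := l) y (by
      rw [hL.dim, Fintype.card_fin]
      exact Nat.cast_lt.2 (by omega))
    refine (finite_cl_eq_zero hS (bc_transcendental _ hu)).not_infinite
      (Set.infinite_of_injective_forall_mem (algebraMap l (bcC l (Set.range y))).injective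
        fun a => ?_)
    obtain ⟨w, -, hw⟩ := cl_surj (Θ.symm (cl ℓ (u - algebraMap l L a)))
    obtain ⟨b, hb⟩ : bcHom l (Set.range y) (ι 0 w) ∈
        (algebraMap (bcC l (Set.range y)) (bcN l (Set.range y))).range := by
      by_contra h
      exact hn ⟨w, transcendental_iff.2 h⟩
    have h1 := hβ 0 w
    rw [hw, LinearEquiv.apply_symm_apply, ← hb, cl_const, smul_zero, Vmap_cl, map_sub,
      bcHom_const] at h1
    exact h1
  have key : ∀ a, ∃ i j : ℕ, (∀ w, ι a w ^ ringExpChar L ^ i = ι 0 w ^ ringExpChar L ^ j) ∧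
      (c a)⁻¹ * c 0 * ((ringExpChar L : ℕ) : ZMod ℓ) ^ i = ((ringExpChar L : ℕ) : ZMod ℓ) ^ j :=
    fun a => by
    obtain ⟨i, j, h1, h2⟩ := rigid (k := k) hS ((bcHom l (Set.range y)).comp (ι 0))
      ((bcHom l (Set.range y)).comp (ι a))
      (fun b => (bcHom_mem_range_iff _ _).2 (hle 0 (hk 0 b)))
      (fun b => (bcHom_mem_range_iff _ _).2 (hle a (hk a b)))
      (mul_ne_zero (inv_ne_zero (hc a)) (hc 0)) (fun w => by
        rw [mul_smul, RingHom.comp_apply, RingHom.comp_apply, ← hβ, hβ a, smul_smul,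
          inv_mul_cancel₀ (hc a), one_smul]) htr
    rw [fielda_exp (bcHom l (Set.range y))] at h1 h2
    refine ⟨i, j, fun w => (bcHom l (Set.range y)).injective ?_, h2⟩
    rw [map_pow, map_pow]
    exact h1 w
  refine ⟨c 0, ι 0, hc 0, fun b => ?_, fun w => ?_⟩
  · obtain ⟨i, j, h1, -⟩ := key 1
    refine inter_ac (indep_lin hy' (zero_ne_one' l)) (hk 0 b) (mem_ac_of_pow (fielda_pos (K := L) j) ?_)
    rw [← h1]
    exact pow_mem (hk 1 b) _
  · rw [← sub_eq_zero]
    refine eq_zero_of_mem_H hL hy' fun a => ?_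
    obtain ⟨i, j, h1, h2⟩ := key a
    have h3 := congrArg (cl ℓ) (h1 w)
    rw [cl_pow, cl_pow, Nat.cast_pow, Nat.cast_pow, ← h2, mul_comm, mul_smul] at h3
    have h4 := smul_right_injective _ (pow_ne_zero i (expChar_cast_ne_zero hl)) h3
    have h5 := hι a w
    rwa [h4, smul_smul, mul_inv_cancel_left₀ (hc a)] at h5

end Vale.Agent.P019
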