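import Vale.Agent.P019.FieldC

open scoped IntermediateField TensorProduct

namespace Vale.Agent.P019

variable {k C E E' : Type*} [Field k] [IsAlgClosed k] [Field C] [Algebra k C] [IsAlgClosed C]
  [Field E] [Algebra k E] [Field E'] [Algebra k E']

section irra
variable {k F K : Type*} [Field k] [Field F] [Field K] [Algebra k F] [Algebra F K] [Algebra k K]
  [IsScalarTower k F K]

open scoped IntermediateField.algebraAdjoinAdjoin in
theorem irra_A {ι J : Type*} {y : ι → K} (hy : AlgebraicIndependent F y) {a : J → F}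
    (ha : LinearIndependent k a) :
    LinearIndependent (IntermediateField.adjoin k (Set.range y))
      (fun j => algebraMap F K (a j)) := by
  classical
  rw [← LinearIndependent.iff_fractionRing (Algebra.adjoin k (Set.range y))]
  rw [linearIndependent_iff'] at ha ⊢
  intro s g hg j hj
  have hp : ∀ j, ∃ p : MvPolynomial ι k, MvPolynomial.aeval y p = (g j : K) := fun j =>
    (Algebra.adjoin_range_eq_range_aeval k y).le (g j).2
  choose p hp using hp
  have h1 : (∑ j ∈ s, MvPolynomial.C (a j) * MvPolynomial.map (algebraMap k F) (p j)) = 0 := by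
    apply hy
    rw [map_zero, map_sum, ← hg]
    refine Finset.sum_congr rfl fun j _ => ?_
    rw [map_mul, MvPolynomial.aeval_C, MvPolynomial.aeval_map_algebraMap, hp, mul_comm]
    rfl
  have h2 : p j = 0 := by
    ext m
    refine ha s (fun j => (p j).coeff m) ?_ j hj
    have h3 := congrArg (MvPolynomial.coeff m) h1
    rw [MvPolynomial.coeff_sum, MvPolynomial.coeff_zero] at h3
    rw [← h3]
    refine Finset.sum_congr rfl fun j _ => ?_
    rw [MvPolynomial.coeff_C_mul, MvPolynomial.coeff_map, Algebra.smul_def, mul_comm]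
  apply Subtype.ext
  rw [← hp, h2, map_zero]
  rfl

theorem irra_B [IsAlgClosed k] {ι J : Type*} {y : ι → K} (hy : AlgebraicIndependent F y)
    {a : J → F} (ha : LinearIndependent k a) {θ : K} (hθ : θ ∈ ac k (Set.range y))
    (s : Finset J) (c : J → K)
    (hc : ∀ j ∈ s, c j ∈ (IntermediateField.adjoin k (Set.range y))⟮θ⟯)
    (h0 : ∑ j ∈ s, c j * algebraMap F K (a j) = 0) : ∀ j ∈ s, c j = 0 := by
  classical
  have hA := irra_A hy ha
  have hd := natDegree_minpoly_of_algClosed hy hθ
  have hi : IsIntegral (IntermediateField.adjoin k (Set.range y)) θ := (mem_ac.1 hθ).isIntegral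
  let ψ : IntermediateField.adjoin k (Set.range y) →+* IntermediateField.adjoin F (Set.range y) :=
    (algebraMap (IntermediateField.adjoin k (Set.range y)) K).codRestrict _ fun x => fieldc_up x.2
  have hp : ∀ j, ∃ p : Polynomial (IntermediateField.adjoin k (Set.range y)),
      p.degree < (minpoly (IntermediateField.adjoin k (Set.range y)) θ).degree ∧
        (j ∈ s → Polynomial.aeval θ p = c j) := fun j => by
    by_cases hj : j ∈ s
    · have h := hc j hj
      rw [← IntermediateField.mem_toSubalgebra,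
        IntermediateField.adjoin_simple_toSubalgebra_of_isAlgebraic hi.isAlgebraic,
        Algebra.adjoin_singleton_eq_range_aeval] at h
      obtain ⟨p, hp⟩ := h
      refine ⟨p %ₘ minpoly _ θ, Polynomial.degree_modByMonic_lt _ (minpoly.monic hi), fun _ => ?_⟩
      rw [Polynomial.aeval_modByMonic_eq_self_of_root (minpoly.aeval _ _)]
      exact hp
    · refine ⟨0, ?_, fun h => (hj h).elim⟩
      rw [Polynomial.degree_zero]
      exact bot_lt_iff_ne_bot.2 (Polynomial.degree_ne_bot.2 (minpoly.ne_zero hi))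
  choose p hp1 hp2 using hp
  have hi' : IsIntegral (IntermediateField.adjoin F (Set.range y)) θ := by
    refine ⟨(minpoly _ θ).map ψ, (minpoly.monic hi).map ψ, ?_⟩
    rw [Polynomial.eval₂_map]
    exact minpoly.aeval _ θ
  have hdeg : (minpoly (IntermediateField.adjoin F (Set.range y)) θ).degree =
      (minpoly (IntermediateField.adjoin k (Set.range y)) θ).degree := by
    rw [Polynomial.degree_eq_natDegree (minpoly.ne_zero hi),
      Polynomial.degree_eq_natDegree (minpoly.ne_zero hi'), hd]
  have h1 : (∑ j ∈ s, Polynomial.C (algebraMap F (IntermediateField.adjoin F (Set.range y)) (a j)) *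
      (p j).map ψ) = 0 := by
    by_contra hne
    refine absurd (minpoly.degree_le_of_ne_zero _ θ hne ?_) (not_le.2 ?_)
    · rw [map_sum, ← h0]
      refine Finset.sum_congr rfl fun j hj => ?_
      rw [map_mul, Polynomial.aeval_C, mul_comm, ← hp2 j hj, Polynomial.aeval_def,
        Polynomial.eval₂_map]
      rfl
    · rw [hdeg]
      refine (Polynomial.degree_sum_le _ _).trans_lt ?_
      rw [Finset.sup_lt_iff
        (bot_lt_iff_ne_bot.2 (Polynomial.degree_ne_bot.2 (minpoly.ne_zero hi)))]
      intro j _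
      refine lt_of_le_of_lt ?_ (hp1 j)
      rw [← Polynomial.smul_eq_C_mul]
      exact (Polynomial.degree_smul_le _ _).trans Polynomial.degree_map_le
  intro j hj
  have h2 : p j = 0 := by
    ext m
    rw [linearIndependent_iff'] at hA
    have h4 := hA s (fun j => (p j).coeff m) ?_ j hj
    · exact congrArg Subtype.val h4
    have h3 := congrArg (fun q : Polynomial (IntermediateField.adjoin F (Set.range y)) =>
      ((q.coeff m : IntermediateField.adjoin F (Set.range y)) : K)) h1
    simp only [Polynomial.finsetSum_coeff, Polynomial.coeff_C_mul, Polynomial.coeff_map,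
      Polynomial.coeff_zero, AddSubmonoidClass.coe_finsetSum, MulMemClass.coe_mul,
      ZeroMemClass.coe_zero] at h3
    rw [← h3]
    refine Finset.sum_congr rfl fun j _ => ?_
    rw [mul_comm]
    rfl
  rw [← hp2 j hj, h2, map_zero]

theorem irra_pow [IsAlgClosed k] {J : Type*} {a : J → F} (ha : LinearIndependent k a) (n : ℕ) :
    LinearIndependent k (fun j => a j ^ ringExpChar F ^ n) := by
  classical
  rw [linearIndependent_iff'] at ha ⊢
  intro s g hg j hj
  have hq : 0 < ringExpChar F ^ n := fielda_pos n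
  choose r hr using fun j => IsAlgClosed.exists_pow_nat_eq (g j) hq
  have h1 : (∑ j ∈ s, r j • a j) ^ ringExpChar F ^ n = 0 := by
    rw [sum_pow_char_pow, ← hg]
    refine Finset.sum_congr rfl fun j _ => ?_
    rw [smul_pow, hr]
  rw [← hr, ha s r (pow_eq_zero_iff hq.ne' |>.1 h1) j hj, zero_pow hq.ne']

theorem irra_C [IsAlgClosed k] {ι J : Type*} {y : ι → K} (hy : AlgebraicIndependent F y)
    {a : J → F} (ha : LinearIndependent k a) (s : Finset J) (c : J → K)
    (hc : ∀ j, c j ∈ ac k (Set.range y))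
    (h0 : ∑ j ∈ s, c j * algebraMap F K (a j) = 0) : ∀ j ∈ s, c j = 0 := by
  classical
  choose n hn using fun j => exists_sep_pow (mem_ac.1 (hc j))
  have hsep : ∀ j ∈ s, IsSeparable (IntermediateField.adjoin k (Set.range y))
      (c j ^ ringExpChar K ^ s.sup n) := fun j hj => by
    obtain ⟨m, hm⟩ := Nat.exists_eq_add_of_le (Finset.le_sup (f := n) hj)
    rw [hm, pow_add, pow_mul]
    exact mem_separableClosure_iff.1 (pow_mem (mem_separableClosure_iff.2 (hn j)) _)
  let S : Set K := (fun j => c j ^ ringExpChar K ^ s.sup n) '' (s : Set J)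
  have : Finite S := (s.finite_toSet.image _).to_subtype
  have hS : ∀ x ∈ S, IsSeparable (IntermediateField.adjoin k (Set.range y)) x := by
    rintro _ ⟨j, hj, rfl⟩
    exact hsep j hj
  have : FiniteDimensional (IntermediateField.adjoin k (Set.range y))
      (IntermediateField.adjoin (IntermediateField.adjoin k (Set.range y)) S) :=
    IntermediateField.finiteDimensional_adjoin fun x hx => (hS x hx).isIntegral
  have : Algebra.IsSeparable (IntermediateField.adjoin k (Set.range y))
      (IntermediateField.adjoin (IntermediateField.adjoin k (Set.range y)) S) :=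
    (IntermediateField.isSeparable_adjoin_iff_isSeparable _ _).2 hS
  obtain ⟨θ, hθ⟩ := Field.exists_primitive_element (IntermediateField.adjoin k (Set.range y))
    (IntermediateField.adjoin (IntermediateField.adjoin k (Set.range y)) S)
  have hθ' : (θ : K) ∈ ac k (Set.range y) :=
    mem_ac.2 (IntermediateField.isAlgebraic_iff.1 (Algebra.IsAlgebraic.isAlgebraic θ))
  have hl := congrArg IntermediateField.lift hθ
  rw [IntermediateField.lift_adjoin_simple, IntermediateField.lift_top] at hl
  have hq : 0 < ringExpChar K ^ s.sup n := fielda_pos _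
  intro j hj
  refine (pow_eq_zero_iff hq.ne').1 (irra_B hy (irra_pow ha (s.sup n)) hθ' s
    (fun j => c j ^ ringExpChar K ^ s.sup n) (fun j hj => ?_) ?_ j hj)
  · rw [hl]
    exact IntermediateField.subset_adjoin _ _ ⟨j, hj, rfl⟩
  · have h1 := congrArg (· ^ ringExpChar K ^ s.sup n) h0
    simp only [zero_pow hq.ne'] at h1
    rw [sum_pow_char_pow] at h1
    rw [← h1]
    refine Finset.sum_congr rfl fun j _ => ?_
    rw [mul_pow, map_pow, fielda_exp (algebraMap F K)]

end irra

/-- Linear disjointness. Let `∑ ι₁ (a i) ι₂ (b i) = 0` with `b i` independent over `k`. Raising to a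
power of the exponential characteristic we may assume that the `b i` lie in `k(T)(θ)` with `θ`
separable; by `natDegree_minpoly_of_algClosed` the powers of `ι₂ θ` stay independent over
`ι₁ C (ι₂ T)`; clear denominators and compare coefficients of the monomials in `ι₂ T`. -/
theorem tensor_injective {ι : Type*} {T : ι → C} (hT : IsTranscendenceBasis k T)
    (ι₁ ι₂ : C →ₐ[k] E) (h : AlgebraicIndependent k (Sum.elim (ι₁ ∘ T) (ι₂ ∘ T))) :
    Function.Injective (Algebra.TensorProduct.productMap ι₁ ι₂) := by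
  classical
  let _ : Algebra C E := ι₁.toRingHom.toAlgebra
  have : IsScalarTower k C E := .of_algebraMap_eq fun x => (ι₁.commutes x).symm
  have h' : AlgebraicIndependent k (Sum.elim (ι₂ ∘ T) (ι₁ ∘ T)) := by
    have := h.comp Sum.swap Sum.swap_leftInverse.injective
    rwa [Sum.elim_swap] at this
  have h1 := (AlgebraicIndependent.sumElim_iff.1 h').2
  let f : Algebra.adjoin k (Set.range T) →+* Algebra.adjoin k (Set.range (ι₁ ∘ T)) :=
    (ι₁.toRingHom.comp (algebraMap (Algebra.adjoin k (Set.range T)) C)).codRestrict _ fun x => by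
      rw [Set.range_comp, ← AlgHom.map_adjoin]
      exact ⟨x, x.2, rfl⟩
  have h2 : AlgebraicIndependent (Algebra.adjoin k (Set.range T)) (ι₂ ∘ T) :=
    AlgebraicIndependent.of_ringHom_of_comp_eq f (RingHom.id E) h1
      (fun x y hxy => Subtype.ext (ι₁.injective (congrArg Subtype.val hxy))) rfl
  have := hT.isAlgebraic
  have hy : AlgebraicIndependent C (ι₂ ∘ T) := h2.extendScalars C
  have hc : ∀ c : C, ι₂ c ∈ ac k (Set.range (ι₂ ∘ T)) := fun c => by
    rw [Set.range_comp, algHom_mem_ac_iff]
    exact fielda_mem.2 (Algebra.IsAlgebraic.isAlgebraic c)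
  rw [injective_iff_map_eq_zero]
  intro x hx
  obtain ⟨c, rfl⟩ := TensorProduct.eq_repr_basis_left (Module.Basis.ofVectorSpace k C) x
  have h3 := irra_C hy (Module.Basis.ofVectorSpace k C).linearIndependent c.support
    (fun j => ι₂ (c j)) (fun j => hc _) (by
      rw [← hx, Finsupp.sum, map_sum]
      refine Finset.sum_congr rfl fun j _ => ?_
      rw [Algebra.TensorProduct.productMap_apply_tmul, mul_comm]
      rfl)
  rw [Finsupp.sum]
  refine Finset.sum_eq_zero fun j hj => ?_
  rw [(map_eq_zero ι₂).1 (h3 j hj), TensorProduct.tmul_zero]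

/-- extend through the fraction field of `C ⊗ C` and `IsAlgClosed.lift` -/
theorem exists_amalg [IsAlgClosed E'] {ι : Type*} {T : ι → C} (hT : IsTranscendenceBasis k T)
    (ι₁ ι₂ : C →ₐ[k] E) (h : AlgebraicIndependent k (Sum.elim (ι₁ ∘ T) (ι₂ ∘ T)))
    (ι₁' ι₂' : C →ₐ[k] E') (h' : AlgebraicIndependent k (Sum.elim (ι₁' ∘ T) (ι₂' ∘ T))) :
    ∃ ψ : ac k (Set.range ι₁ ∪ Set.range ι₂) →ₐ[k] E',
      (∀ c hc, ψ ⟨ι₁ c, hc⟩ = ι₁' c) ∧ ∀ c hc, ψ ⟨ι₂ c, hc⟩ = ι₂' c := by
  have hi := tensor_injective hT ι₁ ι₂ h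
  have hi' := tensor_injective hT ι₁' ι₂' h'
  have : IsDomain (C ⊗[k] C) :=
    Function.Injective.isDomain (Algebra.TensorProduct.productMap ι₁ ι₂).toRingHom hi
  have hr : (Algebra.TensorProduct.productMap ι₁ ι₂).range =
      Algebra.adjoin k (Set.range ι₁ ∪ Set.range ι₂) := by
    rw [Algebra.TensorProduct.productMap_range, Algebra.adjoin_union]
    congr 1
    · exact (Algebra.adjoin_eq ι₁.range).symm
    · exact (Algebra.adjoin_eq ι₂.range).symm
  have hm : ∀ x, Algebra.TensorProduct.productMap ι₁ ι₂ x ∈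
      Algebra.adjoin k (Set.range ι₁ ∪ Set.range ι₂) := fun x => hr ▸ ⟨x, rfl⟩
  have hm' : ∀ x, Algebra.TensorProduct.productMap ι₁ ι₂ x ∈
      ac k (Set.range ι₁ ∪ Set.range ι₂) := fun x =>
    fielda_mem.2 (isAlgebraic_algebraMap (⟨_, hm x⟩ : Algebra.adjoin k _))
  let g : C ⊗[k] C →ₐ[k] ac k (Set.range ι₁ ∪ Set.range ι₂) :=
    (Algebra.TensorProduct.productMap ι₁ ι₂).codRestrict
      (ac k (Set.range ι₁ ∪ Set.range ι₂)).toSubalgebra hm'
  have hg : Function.Injective g := fun x y hxy => hi (congrArg Subtype.val hxy)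
  let g₀ : C ⊗[k] C →+* Algebra.adjoin k (Set.range ι₁ ∪ Set.range ι₂) :=
    (Algebra.TensorProduct.productMap ι₁ ι₂).toRingHom.codRestrict _ hm
  have hg₀ : Function.Surjective g₀ := fun x => by
    obtain ⟨z, hz⟩ := hr.ge x.2
    exact ⟨z, Subtype.ext hz⟩
  let _ : Algebra (C ⊗[k] C) (ac k (Set.range ι₁ ∪ Set.range ι₂)) := g.toRingHom.toAlgebra
  let _ : Algebra (C ⊗[k] C) E' := (Algebra.TensorProduct.productMap ι₁' ι₂').toRingHom.toAlgebra
  have : FaithfulSMul (C ⊗[k] C) (ac k (Set.range ι₁ ∪ Set.range ι₂)) :=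
    (faithfulSMul_iff_algebraMap_injective _ _).2 hg
  have : FaithfulSMul (C ⊗[k] C) E' := (faithfulSMul_iff_algebraMap_injective _ _).2 hi'
  have : Algebra.IsAlgebraic (C ⊗[k] C) (ac k (Set.range ι₁ ∪ Set.range ι₂)) := ⟨fun x =>
    IsAlgebraic.of_ringHom_of_comp_eq g₀ (algebraMap (ac k (Set.range ι₁ ∪ Set.range ι₂)) E)
      (fielda_mem.1 x.2) hg₀ Subtype.val_injective rfl⟩
  let ψ : ac k (Set.range ι₁ ∪ Set.range ι₂) →ₐ[C ⊗[k] C] E' := IsAlgClosed.lift
  have hψ : ∀ x, ψ (g x) = Algebra.TensorProduct.productMap ι₁' ι₂' x := ψ.commutes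
  refine ⟨⟨ψ.toRingHom, fun c => ?_⟩, fun c hc => ?_, fun c hc => ?_⟩
  · have := hψ (algebraMap k _ c)
    rwa [AlgHom.commutes, AlgHom.commutes] at this
  · have := hψ (c ⊗ₜ 1)
    rw [Algebra.TensorProduct.productMap_left_apply] at this
    rw [← this]
    exact congrArg ψ (Subtype.ext (Algebra.TensorProduct.productMap_left_apply ι₁ ι₂ c).symm)
  · have := hψ (1 ⊗ₜ c)
    rw [Algebra.TensorProduct.productMap_right_apply] at this
    rw [← this]
    exact congrArg ψ (Subtype.ext (Algebra.TensorProduct.productMap_right_apply ι₁ ι₂ c).symm)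

end Vale.Agent.P019
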