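import Vale.Agent.P019.Basic

namespace Vale.Agent.P019

section abs

variable {k F K : Type*} [Field k] [Field F] [Algebra k F] [Field K]

/-- The abstract properties of a commuting pair. -/
structure lta_Ax (k : Type*) {F K : Type*} [Field k] [Field F] [Algebra k F] [Field K]
    (Ψ : F → K × K) : Prop where
  mul : ∀ {x y : F}, x ≠ 0 → y ≠ 0 → Ψ (x * y) = Ψ x + Ψ y
  const : ∀ c : k, Ψ (algebraMap k F c) = 0
  col : ∀ {a b : F}, a ≠ 0 → b ≠ 0 → a + b ≠ 0 →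
    ((Ψ a).1 - (Ψ (a + b)).1) * ((Ψ b).2 - (Ψ (a + b)).2) =
      ((Ψ b).1 - (Ψ (a + b)).1) * ((Ψ a).2 - (Ψ (a + b)).2)

namespace lta_Ax

variable {Ψ : F → K × K} (h : lta_Ax k Ψ)
include h

theorem zero : Ψ 0 = 0 := by simpa using h.const 0

theorem one : Ψ 1 = 0 := by simpa using h.const 1

theorem cmul {c : k} (hc : c ≠ 0) (x : F) : Ψ (algebraMap k F c * x) = Ψ x := by
  rcases eq_or_ne x 0 with rfl | hx
  · rw [mul_zero]
  · rw [h.mul ((map_ne_zero _).2 hc) hx, h.const, zero_add]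

theorem neg (x : F) : Ψ (-x) = Ψ x := by
  simpa using h.cmul (c := -1) (by simp) x

theorem div {x y : F} (hx : x ≠ 0) (hy : y ≠ 0) : Ψ (x / y) = Ψ x - Ψ y := by
  rw [eq_sub_iff_add_eq, ← h.mul (div_ne_zero hx hy) hy, div_mul_cancel₀ _ hy]

theorem ne_zero {x : F} (hx : Ψ x ≠ 0) : x ≠ 0 := fun e => hx (e ▸ h.zero)

theorem add_ne_zero {x : F} (hx : Ψ x ≠ 0) : 1 + x ≠ 0 := fun e => hx <| by
  rw [← h.neg, ← eq_neg_of_add_eq_zero_left e, h.one]

theorem colc {a b : F} (c : k) (ha : a ≠ 0) (hb : b ≠ 0) (hab : a + algebraMap k F c * b ≠ 0) :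
    ((Ψ a).1 - (Ψ (a + algebraMap k F c * b)).1) * ((Ψ b).2 - (Ψ (a + algebraMap k F c * b)).2) =
      ((Ψ b).1 - (Ψ (a + algebraMap k F c * b)).1) *
        ((Ψ a).2 - (Ψ (a + algebraMap k F c * b)).2) := by
  rcases eq_or_ne c 0 with rfl | hc
  · simp
  · have := h.col ha (mul_ne_zero ((map_ne_zero (algebraMap k F)).2 hc) hb) hab
    rwa [h.cmul hc] at this

theorem lin (a b c d : K) :
    lta_Ax k fun x => (a * (Ψ x).1 + b * (Ψ x).2, c * (Ψ x).1 + d * (Ψ x).2) where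
  mul hx hy := by
    rw [h.mul hx hy]
    ext <;> simp <;> ring
  const e := by simp [h.const]
  col ha hb hab := by
    dsimp only
    linear_combination (a * d - b * c) * h.col ha hb hab

theorem col_one {x : F} (hx : Ψ x ≠ 0) :
    (Ψ (1 + x)).1 * (Ψ x).2 = (Ψ (1 + x)).2 * (Ψ x).1 := by
  have := h.col one_ne_zero (h.ne_zero hx) (h.add_ne_zero hx)
  rw [h.one] at this
  simp only [Prod.fst_zero, Prod.snd_zero] at this
  linear_combination -this

/-- The von Staudt argument. -/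
theorem staudt (hK : ∀ a : K, ∃ n : ℕ, (n : K) = a) {x y : F} (hx : Ψ x = (1, 0))
    (hy : Ψ y = (0, 1)) (hx0 : Ψ (1 + x) ≠ 0) (hx1 : Ψ (1 + x) ≠ Ψ x) (hy0 : Ψ (1 + y) ≠ 0)
    (hy1 : Ψ (1 + y) ≠ Ψ y) : False := by
  have px : Ψ x ≠ 0 := by simp [hx]
  have py : Ψ y ≠ 0 := by simp [hy]
  have x0 := h.ne_zero px
  have y0 := h.ne_zero py
  have y1 := h.add_ne_zero py
  have a2 : (Ψ (1 + x)).2 = 0 := by simpa [hx] using (h.col_one px).symm
  have b1 : (Ψ (1 + y)).1 = 0 := by simpa [hy] using h.col_one py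
  obtain ⟨α, hα⟩ : ∃ α, Ψ (1 + x) = (α, 0) := ⟨_, Prod.ext rfl a2⟩
  obtain ⟨β, hβ⟩ : ∃ β, Ψ (1 + y) = (0, β) := ⟨_, Prod.ext b1 rfl⟩
  have α0 : α ≠ 0 := by
    rintro rfl
    exact hx0 hα
  have α1 : 1 - α ≠ 0 := fun e => hx1 (by rw [hα, hx, ← sub_eq_zero.1 e])
  have β0 : β ≠ 0 := by
    rintro rfl
    exact hy0 hβ
  have β1 : 1 - β ≠ 0 := fun e => hy1 (by rw [hβ, hy, ← sub_eq_zero.1 e])
  have nB : ∀ c : k, 1 + algebraMap k F c * x ≠ 0 := by
    intro c e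
    rcases eq_or_ne c 0 with rfl | hc
    · simp at e
    · exact h.add_ne_zero (by rwa [h.cmul hc]) e
  have tB : ∀ c : k, (Ψ (1 + algebraMap k F c * x)).2 = 0 := by
    intro c
    have := h.colc c one_ne_zero x0 (nB c)
    rw [h.one, hx] at this
    simp only [Prod.fst_zero, Prod.snd_zero] at this
    linear_combination this
  have nC : ∀ c : k, 1 + algebraMap k F c * x + y ≠ 0 := by
    intro c e
    have := tB c
    rw [eq_neg_of_add_eq_zero_left e, h.neg, hy] at this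
    exact one_ne_zero this
  have c1 : ∀ c : k, (Ψ (1 + algebraMap k F c * x + y)).1 + (Ψ (1 + algebraMap k F c * x)).1 *
      (Ψ (1 + algebraMap k F c * x + y)).2 = (Ψ (1 + algebraMap k F c * x)).1 := by
    intro c
    have := h.col (nB c) y0 (nC c)
    rw [tB, hy] at this
    linear_combination -this
  have c2 : ∀ c : k, β * (Ψ (1 + algebraMap k F c * x + y)).1 +
      (Ψ (1 + algebraMap k F c * x + y)).2 = β := by
    intro c
    have := h.colc c y1 x0 (by rw [add_right_comm]; exact nC c)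
    rw [add_right_comm, hβ, hx] at this
    linear_combination this
  have nW : x + y ≠ 0 := fun e => by
    rw [eq_neg_of_add_eq_zero_left e, h.neg, hy] at hx
    simp at hx
  have w1 : (Ψ (x + y)).1 + (Ψ (x + y)).2 = 1 := by
    have := h.col x0 y0 nW
    rw [hx, hy] at this
    linear_combination -this
  have w2 : (Ψ (x + y)).1 * (β * (1 - α)) = (Ψ (x + y)).2 * (α * (1 - β)) := by
    have e1 := c1 1
    have e2 := c2 1
    have e3 := nC 1
    simp only [map_one, one_mul] at e1 e2 e3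
    have := h.col one_ne_zero nW (by rwa [← add_assoc])
    rw [h.one, ← add_assoc] at this
    rw [hα] at e1
    simp only [Prod.fst_zero, Prod.snd_zero] at this e1
    linear_combination (1 - α * β) * this - (Ψ (x + y)).1 * (e2 - β * e1) +
      (Ψ (x + y)).2 * (e1 - α * e2)
  have main : ∀ n : ℕ, (Ψ (1 + algebraMap k F (1 - n) * x)).1 * (1 - α * n) = α * (1 - n) := by
    intro n
    induction n with
    | zero => simp [hα]
    | succ n ih =>
      have e : 1 + algebraMap k F (1 - n) * x + y + -(x + y) =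
          1 + algebraMap k F (1 - (n + 1 : ℕ)) * x := by
        simp only [Nat.cast_succ, map_sub, map_add, map_one]
        ring
      have h3 := h.col (nC (1 - n)) (neg_ne_zero.2 nW) (e ▸ nB _)
      rw [e, h.neg, tB] at h3
      have h1 := c1 (1 - n)
      have h2 := c2 (1 - n)
      generalize (Ψ (1 + algebraMap k F (1 - (n + 1 : ℕ)) * x)).1 = s' at h3 ⊢
      generalize (Ψ (1 + algebraMap k F (1 - n) * x)).1 = s at h1 ih
      generalize (Ψ (1 + algebraMap k F (1 - n) * x + y)).1 = e at h1 h2 h3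
      generalize (Ψ (1 + algebraMap k F (1 - n) * x + y)).2 = t at h1 h2 h3
      generalize (Ψ (x + y)).1 = c at w1 w2 h3
      generalize (Ψ (x + y)).2 = d at w1 w2 h3
      have he : e * (1 - s * β) = s * (1 - β) := by linear_combination h1 - s * h2
      have ht : t * (1 - s * β) = β * (1 - s) := by linear_combination h2 - β * h1
      have hc : c * (α * (1 - β) + β * (1 - α)) = α * (1 - β) := by
        linear_combination w2 + α * (1 - β) * w1
      have hd : d * (α * (1 - β) + β * (1 - α)) = β * (1 - α) := by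
        linear_combination β * (1 - α) * w1 - w2
      have h4 : β * (1 - β) * (s' * (2 * α - 1 - α * s) - (α - s)) = 0 := by
        linear_combination ((α * (1 - β) + β * (1 - α)) * (1 - s * β)) * h3 -
          d * (α * (1 - β) + β * (1 - α)) * he - (s * (1 - β) - s' * (1 - s * β)) * hd +
          t * (1 - s * β) * hc + (α * (1 - β) - s' * (α * (1 - β) + β * (1 - α))) * ht
      have h5 := (mul_eq_zero.1 h4).resolve_left (mul_ne_zero β0 β1)
      refine mul_left_cancel₀ α1 ?_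
      push_cast
      linear_combination -(1 - α * n) * h5 + (1 - α * s') * ih
  obtain ⟨n, hn⟩ := hK α⁻¹
  have := main n
  rw [hn, mul_sub α, mul_inv_cancel₀ α0] at this
  exact α1 (by linear_combination this)

theorem bad_dep (hK : ∀ a : K, ∃ n : ℕ, (n : K) = a) {x y : F} (hx0 : Ψ (1 + x) ≠ 0)
    (hx1 : Ψ (1 + x) ≠ Ψ x) (hy0 : Ψ (1 + y) ≠ 0) (hy1 : Ψ (1 + y) ≠ Ψ y) :
    (Ψ x).2 * (Ψ y).1 + -(Ψ x).1 * (Ψ y).2 = 0 := by
  by_contra hδ
  obtain ⟨e, he⟩ : ∃ e, e * ((Ψ x).2 * (Ψ y).1 + -(Ψ x).1 * (Ψ y).2) = 1 :=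
    ⟨_, inv_mul_cancel₀ hδ⟩
  have inj : ∀ u v : K × K, (-e * (Ψ y).2 * u.1 + e * (Ψ y).1 * u.2,
      e * (Ψ x).2 * u.1 + -e * (Ψ x).1 * u.2) = (-e * (Ψ y).2 * v.1 + e * (Ψ y).1 * v.2,
      e * (Ψ x).2 * v.1 + -e * (Ψ x).1 * v.2) → u = v := by
    intro u v huv
    obtain ⟨h1, h2⟩ := Prod.ext_iff.1 huv
    dsimp only at h1 h2
    ext
    · linear_combination (Ψ x).1 * h1 + (Ψ y).1 * h2 - (u.1 - v.1) * he
    · linear_combination (Ψ x).2 * h1 + (Ψ y).2 * h2 - (u.2 - v.2) * he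
  refine (h.lin (-e * (Ψ y).2) (e * (Ψ y).1) (e * (Ψ x).2) (-e * (Ψ x).1)).staudt hK
    (x := x) (y := y) (Prod.ext ?_ ?_) (Prod.ext ?_ ?_) (fun e => hx0 (inj _ _ (by simpa using e)))
    (fun e => hx1 (inj _ _ e)) (fun e => hy0 (inj _ _ (by simpa using e)))
    (fun e => hy1 (inj _ _ e))
  · linear_combination he
  · ring
  · ring
  · linear_combination he

theorem pair {G : K × K → Prop} (hG : ¬ G 0)
    (hR : ∀ z, G (Ψ z) → Ψ (1 + z) = 0 ∨ Ψ (1 + z) = Ψ z) {x y : F} (hx : G (Ψ x)) (hy : G (Ψ y))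
    (hx1 : Ψ (1 + x) = 0) (hy1 : Ψ (1 + y) = 0) :
    1 - x * y ≠ 0 ∧ (Ψ (1 - x * y) = 0 ∨ Ψ (1 - x * y) = Ψ x) := by
  have px : Ψ x ≠ 0 := fun e => hG (e ▸ hx)
  have py : Ψ y ≠ 0 := fun e => hG (e ▸ hy)
  have x0 := h.ne_zero px
  have x1 := h.add_ne_zero px
  have y1 := h.add_ne_zero py
  have e1 : Ψ (-(x * (1 + y)) / (1 + x)) = Ψ x := by
    rw [h.div (neg_ne_zero.2 (mul_ne_zero x0 y1)) x1, h.neg, h.mul x0 y1, hx1, hy1]
    simp
  have e2 : 1 - x * y = (1 + x) * (1 + -(x * (1 + y)) / (1 + x)) := by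
    field_simp
    ring
  have n1 := h.add_ne_zero (e1 ▸ px)
  rw [e2, h.mul x1 n1, hx1, zero_add]
  exact ⟨mul_ne_zero x1 n1, e1 ▸ hR _ (e1 ▸ hx)⟩

theorem line (hK : ∀ a : K, ∃ n : ℕ, (n : K) = a) :
    ∃ a b : K, (a ≠ 0 ∨ b ≠ 0) ∧
      (∀ x : F, a * (Ψ x).1 + b * (Ψ x).2 ≠ 0 → Ψ (1 + x) = 0 ∨ Ψ (1 + x) = Ψ x) ∧
      (∀ x y : F, a * (Ψ x).1 + b * (Ψ x).2 ≠ 0 → a * (Ψ y).1 + b * (Ψ y).2 ≠ 0 →
        Ψ (1 + x) = 0 → Ψ (1 + y) = 0 → 1 - x * y ≠ 0 ∧ Ψ (1 - x * y) = 0) := by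
  have hline : ∀ ξ : K × K, ξ ≠ 0 → (ξ.2 ≠ 0 ∨ -ξ.1 ≠ 0) := by
    intro ξ hξ
    by_contra hc
    push Not at hc
    exact hξ (Prod.ext (neg_eq_zero.1 hc.2) hc.1)
  by_cases h2 : (2 : K) = 0
  · have h01 : ∀ a : K, a = 0 ∨ a = 1 := by
      intro a
      obtain ⟨n, rfl⟩ := hK a
      induction n with
      | zero => simp
      | succ n ih =>
        rcases ih with ih | ih
        · exact Or.inr (by rw [Nat.cast_succ, ih, zero_add])
        · exact Or.inl (by rw [Nat.cast_succ, ih, ← h2]; ring)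
    have hdb : ∀ ξ : K × K, ξ + ξ = 0 := fun ξ => by
      ext
      · simp only [Prod.fst_add, Prod.fst_zero]
        linear_combination ξ.1 * h2
      · simp only [Prod.snd_add, Prod.snd_zero]
        linear_combination ξ.2 * h2
    have hR : ∀ z, Ψ z ≠ 0 → Ψ (1 + z) = 0 ∨ Ψ (1 + z) = Ψ z := by
      intro z hz
      have := h.col_one hz
      rw [Ne, Prod.ext_iff] at hz
      rw [Prod.ext_iff, Prod.ext_iff]
      rcases h01 (Ψ z).1 with e1 | e1 <;> rcases h01 (Ψ z).2 with e2 | e2 <;>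
        rcases h01 (Ψ (1 + z)).1 with e3 | e3 <;> rcases h01 (Ψ (1 + z)).2 with e4 | e4 <;>
        simp [e1, e2, e3, e4] at this hz ⊢
    have hP := fun x y hx hy => h.pair (G := (· ≠ 0)) (by simp) hR (x := x) (y := y) hx hy
    have hP' : ∀ x y, Ψ x ≠ 0 → Ψ y ≠ 0 → Ψ (1 + x) = 0 → Ψ (1 + y) = 0 → Ψ (1 - x * y) ≠ 0 →
        Ψ (1 - x * y) = Ψ x ∧ Ψ y = Ψ x := by
      intro x y hx hy h1 h2 h3
      have e1 := (hP x y hx hy h1 h2).2.resolve_left h3
      have e2 := (hP y x hy hx h2 h1).2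
      rw [mul_comm] at e2
      exact ⟨e1, (e2.resolve_left h3).symm.trans e1⟩
    have hne : ∀ (a b : K) x, a * (Ψ x).1 + b * (Ψ x).2 ≠ 0 → Ψ x ≠ 0 := fun a b x hx e =>
      hx (by simp [e])
    by_cases hex : ∃ x y, Ψ x ≠ 0 ∧ Ψ y ≠ 0 ∧ Ψ (1 + x) = 0 ∧ Ψ (1 + y) = 0 ∧ Ψ (1 - x * y) ≠ 0
    · obtain ⟨x, y, hx, hy, hx1, hy1, hxy⟩ := hex
      refine ⟨(Ψ x).2, -(Ψ x).1, hline _ hx, fun z hz => hR z (hne _ _ _ hz),
        fun u w hu hw hu1 hw1 => ⟨(hP u w (hne _ _ _ hu) (hne _ _ _ hw) hu1 hw1).1, ?_⟩⟩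
      by_contra huw
      have hux : Ψ u ≠ Ψ x := fun e => hu (by rw [e]; ring)
      replace hu := hne _ _ _ hu
      replace hw := hne _ _ _ hw
      obtain ⟨e1, e2⟩ := hP' x y hx hy hx1 hy1 hxy
      obtain ⟨e3, e4⟩ := hP' u w hu hw hu1 hw1 huw
      have x0 := h.ne_zero hx
      have y0 := h.ne_zero hy
      have t1 : Ψ (1 + -(x * u)) = 0 := by
        by_contra hc
        rw [← sub_eq_add_neg] at hc
        exact hux (hP' x u hx hu hx1 hu1 hc).2
      have t2 : Ψ (1 + -(y * w)) = 0 := by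
        by_contra hc
        rw [← sub_eq_add_neg] at hc
        exact hux (e4.symm.trans ((hP' y w hy hw hy1 hw1 hc).2.trans e2))
      have s0 : Ψ x + Ψ u ≠ 0 := fun e => hux (add_left_cancel (e.trans (hdb _).symm))
      have s1 : Ψ (-(x * u)) = Ψ x + Ψ u := by rw [h.neg, h.mul x0 (h.ne_zero hu)]
      have s2 : Ψ (-(y * w)) = Ψ x + Ψ u := by rw [h.neg, h.mul y0 (h.ne_zero hw), e2, e4]
      have r1 := (hP _ _ (s1 ▸ s0) (s2 ▸ s0) t1 t2).2
      have n1 := h.ne_zero hxy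
      have n2 := h.ne_zero huw
      have s3 : Ψ (x * y * (1 - u * w) / (1 - x * y)) = Ψ u - Ψ x := by
        rw [h.div (mul_ne_zero (mul_ne_zero x0 y0) n2) n1, h.mul (mul_ne_zero x0 y0) n2,
          h.mul x0 y0, e1, e2, e3, hdb, zero_add]
      have s4 : Ψ (x * y * (1 - u * w) / (1 - x * y)) ≠ 0 := s3 ▸ sub_ne_zero.2 hux
      have e5 : 1 - -(x * u) * -(y * w) =
          (1 - x * y) * (1 + x * y * (1 - u * w) / (1 - x * y)) := by
        field_simp
        ring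
      rw [e5, h.mul n1 (h.add_ne_zero s4), s1, e1] at r1
      rcases hR _ s4 with r2 | r2 <;> rw [r2] at r1
      · rcases r1 with r1 | r1
        · exact hx (by simpa using r1)
        · exact hu (add_left_cancel r1).symm
      · rw [s3, add_sub_cancel] at r1
        rcases r1 with r1 | r1
        · exact hu r1
        · exact hx (by simpa using r1)
    · refine ⟨1, 0, Or.inl one_ne_zero, fun z hz => hR z (hne _ _ _ hz),
        fun u w hu hw hu1 hw1 => ⟨(hP u w (hne _ _ _ hu) (hne _ _ _ hw) hu1 hw1).1, ?_⟩⟩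
      by_contra huw
      exact hex ⟨u, w, hne _ _ _ hu, hne _ _ _ hw, hu1, hw1, huw⟩
  · obtain ⟨a, b, hab, hR⟩ : ∃ a b : K, (a ≠ 0 ∨ b ≠ 0) ∧
        ∀ x : F, a * (Ψ x).1 + b * (Ψ x).2 ≠ 0 → Ψ (1 + x) = 0 ∨ Ψ (1 + x) = Ψ x := by
      by_cases hex : ∃ x, Ψ x ≠ 0 ∧ Ψ (1 + x) ≠ 0 ∧ Ψ (1 + x) ≠ Ψ x
      · obtain ⟨x, hx, hx0, hx1⟩ := hex
        refine ⟨(Ψ x).2, -(Ψ x).1, hline _ hx, fun z hz => ?_⟩
        by_contra hc
        push Not at hc
        exact hz (h.bad_dep hK hx0 hx1 hc.1 hc.2)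
      · refine ⟨1, 0, Or.inl one_ne_zero, fun z hz => ?_⟩
        by_contra hc
        push Not at hc
        exact hex ⟨z, fun e => hz (by simp [e]), hc⟩
    have hP := fun x y hx hy => h.pair (G := fun ξ => a * ξ.1 + b * ξ.2 ≠ 0) (by simp) hR
      (x := x) (y := y) hx hy
    refine ⟨a, b, hab, hR, fun x y hx hy hx1 hy1 => ⟨(hP x y hx hy hx1 hy1).1, ?_⟩⟩
    by_contra hc
    have e1 := (hP x y hx hy hx1 hy1).2.resolve_left hc
    have e2 := (hP y x hy hx hy1 hx1).2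
    rw [mul_comm] at e2
    have e3 := (e2.resolve_left hc).symm.trans e1
    have px : Ψ x ≠ 0 := fun e => hx (by simp [e])
    have s1 : Ψ (-(x * y)) = Ψ x + Ψ x := by
      rw [h.neg, h.mul (h.ne_zero px) (h.ne_zero (e3 ▸ px)), e3]
    have r := hR (-(x * y)) (by
      rw [s1]
      intro e
      refine mul_ne_zero h2 hx ?_
      simp only [Prod.fst_add, Prod.snd_add] at e
      linear_combination e)
    rw [← sub_eq_add_neg, s1, e1] at r
    rcases r with r | r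
    · exact px r
    · exact px (by simpa using r)

end lta_Ax

end abs

variable {ℓ : ℕ} [Fact ℓ.Prime]

theorem lta_ax (k : Type*) {F : Type*} [Field k] [Field F] [Algebra k F] [IsAlgClosed k]
    {f g : DV ℓ F} (h : CP f g) : lta_Ax k fun x : F => (f (cl ℓ x), g (cl ℓ x)) where
  mul hx hy := by rw [cl_mul hx hy, map_add, map_add, Prod.mk_add_mk]
  const c := by simp [cl_const]
  col {a b} ha hb hab := by
    have e : 1 - a / (a + b) = b / (a + b) := by
      field_simp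
      ring
    have := h (a / (a + b)) (div_ne_zero ha hab) fun e' => by
      rw [e', sub_self] at e
      exact div_ne_zero hb hab e.symm
    rw [e, cl_div ha hab, cl_div hb hab] at this
    simpa only [map_sub] using this

/-- The exceptional line. Write `Ψ x = (f [x], g [x])`, `T = ker Ψ`; `T` contains the constants and
`-1`. `CP` says: for `a, b, a + b ≠ 0` the points `Ψ a, Ψ b, Ψ (a + b)` of the affine plane are
collinear (apply it to `-b/a`).
If `f, g` are dependent take `a f + b g = 0` (both claims are void). Otherwise: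
call `x ≠ 0` bad if `Ψ x ≠ 0` and `Ψ (1 + x) ∉ {0, Ψ x}`.
(1) Two bad elements `x, y` have dependent `Ψ x, Ψ y`. Otherwise `1, x, y` are `k`-independent
and, in coordinates with `Ψ x = (1,0)`, `Ψ y = (0,1)`: `u0 = 1 + x ↦ (α,0)`, `u1 = -x ↦ (1,0)`,
`u2 = y ↦ (0,1)`, `u0 + u1 + u2 = 1 + y ↦ (0,β)`, with `α, β ∉ {0,1}`. This is a projective frame:
choose coordinates of `(ZMod ℓ)^3` such that `(1, Ψ ·)` of these four is proportional to
`(1,0,0), (0,1,0), (0,0,1), (1,1,1)`. By intersecting lines: `u0 + u1 ↦ [1:1:0]`,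
`u0 + u2 ↦ [1:0:1]`, `u1 - u2 ↦ [0:1:-1]`, and by induction on `n`, `B n = u0 + n u1 ↦ [1:n:0]`,
`B n + u2 ↦ [1:n:1]` (it is on the lines `(B n, u2)` and `(u0 + u1 + u2, u1)`),
`B (n+1) = (B n + u2) + (u1 - u2)`. The point at infinity of the line through `(α,0), (1,0)` is
some `[1:n:0]`, a contradiction. For `ℓ = 2` there are no bad elements at all.
(2) `ℓ` odd: take the line through the bad classes (any line if there is none). For the second
claim `1 - x y = (1 + x) - x (1 + y) = (1 + y) - y (1 + x)`, so by rigidity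
`Ψ (1 - x y) ∈ {0, Ψ x} ∩ {0, Ψ y}`; if `Ψ x = Ψ y = ξ`, then `-x y` has class `2 ξ` off the line,
so `Ψ (1 - x y) ∈ {0, 2 ξ}` too.
(3) `ℓ = 2`: call `ξ ≠ 0` exceptional if there are `x, y` of class `ξ` with `1 + x, 1 + y ∈ T`
and `Ψ (1 - x y) = ξ`. Two different exceptional classes `ξ, η` (witnesses `x, y` and `u, w`) are
impossible: `1 - x y u w = (1 - x y) + x y (1 - u w)` has class in `{ξ, η}`, while
`1 - x u, 1 - y w ∈ T` and `-x u, -y w` have class `ξ + η`, so it has class in `{0, ξ + η}`.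
Take the line spanned by the exceptional class. -/
theorem LT_line (k : Type*) {F : Type*} [Field k] [Field F] [Algebra k F] [IsAlgClosed k]
    (f g : DV ℓ F) (h : CP f g) :
    ∃ a b : ZMod ℓ, (a ≠ 0 ∨ b ≠ 0) ∧
      (∀ x : F, (a • f + b • g) (cl ℓ x) ≠ 0 →
        (f (cl ℓ (1 + x)) = 0 ∧ g (cl ℓ (1 + x)) = 0) ∨
          (f (cl ℓ (1 + x)) = f (cl ℓ x) ∧ g (cl ℓ (1 + x)) = g (cl ℓ x))) ∧
      (∀ x y : F, (a • f + b • g) (cl ℓ x) ≠ 0 → (a • f + b • g) (cl ℓ y) ≠ 0 →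
        f (cl ℓ (1 + x)) = 0 → g (cl ℓ (1 + x)) = 0 → f (cl ℓ (1 + y)) = 0 →
        g (cl ℓ (1 + y)) = 0 →
          1 - x * y ≠ 0 ∧ f (cl ℓ (1 - x * y)) = 0 ∧ g (cl ℓ (1 - x * y)) = 0) := by
  have : NeZero ℓ := ⟨(Fact.out : ℓ.Prime).ne_zero⟩
  obtain ⟨a, b, hab, h1, h2⟩ := (lta_ax k h).line fun a => ⟨a.val, ZMod.natCast_zmod_val a⟩
  refine ⟨a, b, hab, fun x hx => ?_, fun x y hx hy e1 e2 e3 e4 => ?_⟩
  · simpa only [Prod.ext_iff, Prod.fst_zero, Prod.snd_zero] using h1 x hx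
  · simpa only [Prod.ext_iff, Prod.fst_zero, Prod.snd_zero] using
      h2 x y hx hy (Prod.ext e1 e2) (Prod.ext e3 e4)

end Vale.Agent.P019
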