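import Vale.Agent.P019.LTa

namespace Vale.Agent.P019

section abs

variable {k F K : Type*} [Field k] [Field F] [Algebra k F] [Field K]

/-- The rigidity properties of the exceptional line. -/
structure ltb_Rig (k : Type*) {F K : Type*} [Field k] [Field F] [Algebra k F] [Field K]
    (Ψ : F → K × K) (L : K × K →+ K) : Prop extends lta_Ax k Ψ where
  r1 : ∀ x, L (Ψ x) ≠ 0 → Ψ (1 + x) = 0 ∨ Ψ (1 + x) = Ψ x
  r2 : ∀ x y, L (Ψ x) ≠ 0 → L (Ψ y) ≠ 0 → Ψ (1 + x) = 0 → Ψ (1 + y) = 0 →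
    1 - x * y ≠ 0 ∧ Ψ (1 - x * y) = 0

/-- Rigid elements. -/
def ltb_Om (Ψ : F → K × K) (L : K × K →+ K) (x : F) : Prop := L (Ψ x) ≠ 0 ∧ Ψ (1 + x) = 0

/-- Multipliers of rigid elements. -/
def ltb_Op (Ψ : F → K × K) (L : K × K →+ K) (t : F) : Prop :=
  t ≠ 0 ∧ L (Ψ t) = 0 ∧ ∀ x, ltb_Om Ψ L x → ltb_Om Ψ L (t * x)

/-- The valuation ring as a set. -/
def ltb_O (Ψ : F → K × K) (L : K × K →+ K) (x : F) : Prop :=
  x = 0 ∨ ltb_Om Ψ L x ∨ ltb_Op Ψ L x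

namespace ltb_Rig

variable {Ψ : F → K × K} {L : K × K →+ K} (h : ltb_Rig k Ψ L)
include h

theorem pne {x : F} (hx : L (Ψ x) ≠ 0) : Ψ x ≠ 0 := fun e => hx (by rw [e, map_zero])

theorem ne {x : F} (hx : L (Ψ x) ≠ 0) : x ≠ 0 := h.tolta_Ax.ne_zero (h.pne hx)

theorem inv (x : F) : Ψ x⁻¹ = -Ψ x := by
  rcases eq_or_ne x 0 with rfl | hx
  · simp [h.tolta_Ax.zero]
  · rw [← one_div, h.tolta_Ax.div one_ne_zero hx, h.tolta_Ax.one, zero_sub]

theorem om_or {x : F} (hx : L (Ψ x) ≠ 0) : ltb_Om Ψ L x ∨ ltb_Om Ψ L x⁻¹ := by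
  refine (h.r1 x hx).imp (fun e => ⟨hx, e⟩) fun e => ⟨by simpa [h.inv] using hx, ?_⟩
  have x0 := h.ne hx
  have : 1 + x⁻¹ = (1 + x) / x := by
    field_simp
    ring
  rw [this, h.tolta_Ax.div (h.tolta_Ax.add_ne_zero (h.pne hx)) x0, e, sub_self]

theorem r2' {x y : F} (hx : ltb_Om Ψ L x) (hy : ltb_Om Ψ L y) :
    1 - x * y ≠ 0 ∧ Ψ (1 - x * y) = 0 := h.r2 x y hx.1 hy.1 hx.2 hy.2

theorem not_both {x : F} (hx : ltb_Om Ψ L x) (hx' : ltb_Om Ψ L x⁻¹) : False :=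
  (h.r2' hx hx').1 (by rw [mul_inv_cancel₀ (h.ne hx.1), sub_self])

theorem om_neg {x : F} (hx : ltb_Om Ψ L x) : ltb_Om Ψ L (-x) := by
  refine ⟨by rw [h.tolta_Ax.neg]; exact hx.1, ?_⟩
  have x1 := h.tolta_Ax.add_ne_zero (h.pne hx.1)
  have : 1 + -x = (1 - x * x) / (1 + x) := by
    field_simp
    ring
  rw [this, h.tolta_Ax.div (h.r2' hx hx).1 x1, (h.r2' hx hx).2, hx.2, sub_self]

theorem op_of {t : F} (h0 : t ≠ 0) (h1 : Ψ t = 0) (h2 : Ψ (1 - t⁻¹) ≠ 0) : ltb_Op Ψ L t := by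
  refine ⟨h0, by rw [h1, map_zero], fun y hy => ?_⟩
  have y0 := h.ne hy.1
  refine (h.om_or (by rw [h.mul h0 y0, h1, zero_add]; exact hy.1)).resolve_right fun hw => h2 ?_
  have := (h.r2' hy hw).2
  rwa [mul_inv, mul_left_comm, mul_inv_cancel₀ y0, mul_one] at this

theorem op_mul {s t : F} (hs : ltb_Op Ψ L s) (ht : ltb_Op Ψ L t) : ltb_Op Ψ L (s * t) :=
  ⟨mul_ne_zero hs.1 ht.1, by rw [h.mul hs.1 ht.1, map_add, hs.2.1, ht.2.1, add_zero],
    fun x hx => mul_assoc s t x ▸ hs.2.2 _ (ht.2.2 x hx)⟩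

theorem op_neg_one : ltb_Op Ψ L (-1) :=
  ⟨by simp, by rw [h.tolta_Ax.neg, h.tolta_Ax.one, map_zero],
    fun x hx => by simpa using h.om_neg hx⟩

theorem op_one : ltb_Op Ψ L 1 := by simpa using h.op_mul h.op_neg_one h.op_neg_one

theorem op_add {x : F} (hx : ltb_Om Ψ L x) : ltb_Op Ψ L (1 + x) ∧ ltb_Op Ψ L (1 + x)⁻¹ := by
  have px := h.pne hx.1
  have x1 := h.tolta_Ax.add_ne_zero px
  refine ⟨h.op_of x1 hx.2 ?_, h.op_of (inv_ne_zero x1) (by rw [h.inv, hx.2, neg_zero]) ?_⟩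
  · have : 1 - (1 + x)⁻¹ = x / (1 + x) := by
      field_simp
      ring
    rwa [this, h.tolta_Ax.div (h.ne hx.1) x1, hx.2, sub_zero]
  · rwa [inv_inv, sub_add_cancel_left, h.tolta_Ax.neg]

theorem op_sub {x y : F} (hx : ltb_Om Ψ L x) (hy : ltb_Om Ψ L y) :
    ltb_Op Ψ L (1 - x * y) ∧ ltb_Op Ψ L (1 - x * y)⁻¹ := by
  have x1 := (h.op_add hx).1.1
  have hz := h.op_add (h.om_neg ((h.op_add hx).2.2.2 _ ((h.op_add hy).1.2.2 _ hx)))
  have e : 1 - x * y = (1 + x) * (1 + -((1 + x)⁻¹ * ((1 + y) * x))) := by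
    field_simp
    ring
  rw [e, mul_inv]
  exact ⟨h.op_mul (h.op_add hx).1 hz.1, h.op_mul (h.op_add hx).2 hz.2⟩

theorem add_mul {x y : F} (hx : ltb_Om Ψ L x) (hy : ltb_Om Ψ L y) : Ψ (1 + x * y) = 0 := by
  simpa using (h.r2' hx (h.om_neg hy)).2

theorem om_mul {x y : F} (hx : ltb_Om Ψ L x) (hy : ltb_Om Ψ L y) : ltb_O Ψ L (x * y) := by
  by_cases hn : L (Ψ (x * y)) = 0
  · have x0 := h.ne hx.1
    have y0 := h.ne hy.1
    refine Or.inr (Or.inr ⟨mul_ne_zero x0 y0, hn, fun z hz => ?_⟩)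
    have z0 := h.ne hz.1
    rcases h.om_or (x := x * y * z) (by
      rw [h.mul (mul_ne_zero x0 y0) z0, map_add, hn, zero_add]
      exact hz.1) with hw | hw
    · exact hw
    · have n1 := (h.r2' hx hy).1
      have e : 1 - z * (x * y * z)⁻¹ = -(1 - x * y) / (x * y) := by
        field_simp
        ring
      have h1 := h.op_mul (h.op_mul h.op_neg_one (h.op_sub hx hy).1) (h.op_sub hz hw).2
      have e' : -1 * (1 - x * y) * (1 - z * (x * y * z)⁻¹)⁻¹ = x * y := by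
        rw [e]
        field_simp
      rw [e'] at h1
      exact h1.2.2 z hz
  · exact Or.inr (Or.inl ⟨hn, h.add_mul hx hy⟩)

theorem not_op {t : F} (h0 : t ≠ 0) (h1 : L (Ψ t) = 0) (h2 : ¬ ltb_Op Ψ L t) :
    ∃ y y', ltb_Om Ψ L y ∧ ltb_Om Ψ L y' ∧ t⁻¹ = y * y' := by
  obtain ⟨x, hx, hx'⟩ : ∃ x, ltb_Om Ψ L x ∧ ¬ ltb_Om Ψ L (t * x) := by
    by_contra hc
    push Not at hc
    exact h2 ⟨h0, h1, hc⟩
  have x0 := h.ne hx.1
  refine ⟨x, _, hx, (h.om_or (by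
    rw [h.mul h0 x0, map_add, h1, zero_add]
    exact hx.1)).resolve_left hx', ?_⟩
  field_simp

theorem total (x : F) : ltb_O Ψ L x ∨ ltb_O Ψ L x⁻¹ := by
  rcases eq_or_ne x 0 with rfl | x0
  · exact Or.inl (Or.inl rfl)
  by_cases hn : L (Ψ x) = 0
  · by_cases hp : ltb_Op Ψ L x
    · exact Or.inl (Or.inr (Or.inr hp))
    · obtain ⟨y, y', hy, hy', e⟩ := h.not_op x0 hn hp
      exact Or.inr (e ▸ h.om_mul hy hy')
  · exact (h.om_or hn).imp (fun e => Or.inr (Or.inl e)) fun e => Or.inr (Or.inl e)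

theorem o_mul {x y : F} (hx : ltb_O Ψ L x) (hy : ltb_O Ψ L y) : ltb_O Ψ L (x * y) := by
  rcases hx with rfl | hx | hx
  · exact Or.inl (zero_mul _)
  · rcases hy with rfl | hy | hy
    · exact Or.inl (mul_zero _)
    · exact h.om_mul hx hy
    · exact Or.inr (Or.inl (mul_comm y x ▸ hy.2.2 x hx))
  · rcases hy with rfl | hy | hy
    · exact Or.inl (mul_zero _)
    · exact Or.inr (Or.inl (hx.2.2 y hy))
    · exact Or.inr (Or.inr (h.op_mul hx hy))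

theorem o_one_add {a : F} (ha : ltb_O Ψ L a) : ltb_O Ψ L (1 + a) := by
  rcases ha with rfl | ha | ha
  · exact Or.inr (Or.inr (by simpa using h.op_one))
  · exact Or.inr (Or.inr (h.op_add ha).1)
  by_contra hc
  have c0 : 1 + a ≠ 0 := fun e => hc (Or.inl e)
  have a0 := ha.1
  have e : 1 - (1 + a)⁻¹ = a / (1 + a) := by
    field_simp
    ring
  by_cases hn : L (Ψ (1 + a)) = 0
  · obtain ⟨y, y', hy, hy', e'⟩ := h.not_op c0 hn fun e => hc (Or.inr (Or.inr e))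
    have h1 := h.op_mul ha (h.op_sub hy hy').2
    rw [← e', e, inv_div, mul_div_cancel₀ _ a0] at h1
    exact hc (Or.inr (Or.inr h1))
  · have h1 := (h.om_neg (ha.2.2 _ ((h.om_or hn).resolve_left fun e => hc (Or.inr (Or.inl e))))).2
    have e' : 1 + -(a * (1 + a)⁻¹) = (1 + a)⁻¹ := by
      field_simp
      ring
    rw [e', h.inv, neg_eq_zero] at h1
    exact h.pne hn h1

theorem o_add {x y : F} (hx : ltb_O Ψ L x) (hy : ltb_O Ψ L y) : ltb_O Ψ L (x + y) := by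
  rcases eq_or_ne x 0 with rfl | x0
  · rwa [zero_add]
  rcases eq_or_ne y 0 with rfl | y0
  · rwa [add_zero]
  rcases h.total (y / x) with h1 | h1
  · have := h.o_mul hx (h.o_one_add h1)
    rwa [mul_add, mul_one, mul_div_cancel₀ _ x0] at this
  · have := h.o_mul hy (h.o_one_add h1)
    rwa [inv_div, mul_add, mul_one, mul_div_cancel₀ _ y0, add_comm] at this

theorem exists_val : ∃ O : ValuationSubring F, (∀ x, O.valuation (x - 1) < 1 → Ψ x = 0) ∧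
    ∀ x, O.valuation x = 1 → L (Ψ x) = 0 := by
  let O : ValuationSubring F :=
    { carrier := {x | ltb_O Ψ L x}
      mul_mem' := h.o_mul
      one_mem' := Or.inr (Or.inr h.op_one)
      add_mem' := h.o_add
      zero_mem' := Or.inl rfl
      neg_mem' := fun hx => by simpa using h.o_mul (Or.inr (Or.inr h.op_neg_one)) hx
      mem_or_inv_mem' := h.total }
  refine ⟨O, fun x hx => ?_, fun x hx => ?_⟩
  · obtain ⟨m, rfl⟩ : ∃ m, x = 1 + m := ⟨x - 1, by ring⟩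
    rw [add_sub_cancel_left] at hx
    have h1 : ltb_O Ψ L m := (O.valuation_le_one_iff m).1 hx.le
    rcases eq_or_ne m 0 with rfl | m0
    · rw [add_zero, h.tolta_Ax.one]
    have h2 : ¬ ltb_O Ψ L m⁻¹ :=
      (O.mem_nonunits_iff_or.1 (O.mem_nonunits_iff.2 hx)).resolve_left m0
    rcases h1 with h1 | h1 | h1
    · exact absurd h1 m0
    · exact h1.2
    · obtain ⟨y, y', hy, hy', e⟩ := h.not_op (inv_ne_zero m0) (by simp [h.inv, h1.2.1])
        fun e => h2 (Or.inr (Or.inr e))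
      rw [inv_inv] at e
      exact e ▸ h.add_mul hy hy'
  · obtain ⟨x0, h1, h2⟩ := val_eq_one_iff.1 hx
    by_contra hn
    rcases h1 with h1 | h1 | h1
    · exact x0 h1
    · rcases h2 with h2 | h2 | h2
      · exact inv_ne_zero x0 h2
      · exact h.not_both h1 h2
      · exact hn (by simpa [h.inv] using h2.2.1)
    · exact hn h1.2.1

end ltb_Rig

end abs

variable {ℓ : ℕ} [Fact ℓ.Prime]

/-- Local theory: a commuting pair comes from a valuation.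
Take `a, b` from `LT_line`, `λ = a f + b g`, `T = {x ≠ 0, f [x] = g [x] = 0}`,
`Hh = {x ≠ 0, λ [x] = 0}`, `Om = {x ≠ 0, x ∉ Hh, 1 + x ∈ T}`, `Op = {h ∈ Hh, h Om ⊆ Om}`,
`O = {0} ∪ Om ∪ Op`. Steps:
for `x ∉ Hh` exactly one of `x, x⁻¹` is in `Om`; `x ∈ Om → -x ∈ Om` (use `y = x`:
`1 - x = (1 - x^2)/(1 + x)`); so `x, y ∈ Om → 1 ± x y ∈ T`;
`x ∈ Om → (1 + x)^{±1} ∈ Op` (if `y (1 + x) ∉ Om` its inverse is in `Om`, and
`1 - y (y (1 + x))⁻¹ = x/(1 + x) ∈ T`, absurd; same for `y/(1 + x)`);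
`x, y ∈ Om → (1 - x y)^{±1} ∈ Op` since `1 - x y = (1 + x)(1 - x (1 + y)/(1 + x))`;
`x, y ∈ Om → x y ∈ O`: if `x y ∈ Hh`, `z ∈ Om` and `w = (x y z)⁻¹ ∈ Om` then
`1 - z w = -(1 - x y)/(x y)` shows that `x y` is a unit of `Op`, so `x y z ∈ Om`, absurd;
`h ∈ Hh \ Op → h⁻¹` is a product of two elements of `Om`; so `O` is total and closed under products;
`a ∈ O → 1 + a ∈ O` (for `a ∈ Op`, `c = 1 + a ∉ O`: if `c ∉ Hh`, `-a/c ∈ Om` gives `1/c ∈ T`;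
if `c ∈ Hh`, `c⁻¹ = y y'` and `1 - y y' = a/c` is a unit of `Op`);
units lie in `Op ⊆ Hh`, and `1 + m ⊆ T`. -/
theorem LT (k : Type*) {F : Type*} [Field k] [Field F] [Algebra k F] [IsAlgClosed k]
    (f g : DV ℓ F) (h : CP f g) :
    ∃ O : ValuationSubring F, f ∈ DD ℓ O ∧ g ∈ DD ℓ O ∧
      ∃ a b : ZMod ℓ, (a ≠ 0 ∨ b ≠ 0) ∧ a • f + b • g ∈ II ℓ O := by
  obtain ⟨a, b, hab, h1, h2⟩ := LT_line k f g h
  let L : ZMod ℓ × ZMod ℓ →+ ZMod ℓ :=
    AddMonoidHom.mk' (fun ξ => a * ξ.1 + b * ξ.2) fun ξ η => by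
      simp only [Prod.fst_add, Prod.snd_add]
      ring
  have hR : ltb_Rig k (fun x : F => (f (cl ℓ x), g (cl ℓ x))) L :=
    { lta_ax k h with
      r1 := fun x hx => by
        simpa only [Prod.ext_iff, Prod.fst_zero, Prod.snd_zero] using h1 x hx
      r2 := fun x y hx hy e1 e2 => by
        simpa only [Prod.ext_iff, Prod.fst_zero, Prod.snd_zero] using h2 x y hx hy
          (congrArg Prod.fst e1) (congrArg Prod.snd e1) (congrArg Prod.fst e2)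
          (congrArg Prod.snd e2) }
  obtain ⟨O, h3, h4⟩ := hR.exists_val
  exact ⟨O, mem_DD.2 fun x hx => congrArg Prod.fst (h3 x hx),
    mem_DD.2 fun x hx => congrArg Prod.snd (h3 x hx), a, b, hab, mem_II.2 h4⟩

end Vale.Agent.P019
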