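import Vale.Agent.P019.Basic

open Polynomial

namespace Vale.Agent.P019

theorem lemra_poly_eq {k C : Type*} [Field k] [Infinite k] [Field C] (φ : k →+* C) {P Q : C[X]}
    (h : {a : k | P.eval (φ a) ≠ Q.eval (φ a)}.Finite) : P = Q := by
  apply Polynomial.eq_of_infinite_eval_eq
  refine (h.infinite_compl.image φ.injective.injOn).mono ?_
  rintro _ ⟨a, ha, rfl⟩
  simpa using ha

theorem lemra_pow {C : Type*} [Field C] {c : C} (hc : c ≠ 0) (n : ℕ) (hn : 0 < n)
    (h : (X + Polynomial.C c) ^ n = X ^ n + Polynomial.C c ^ n) :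
    ∃ j : ℕ, n = ringExpChar C ^ j := by
  induction n using Nat.strong_induction_on with
  | _ n ih =>
    by_cases h0 : (n : C) = 0
    · have hq : ExpChar C (ringExpChar C) := inferInstance
      generalize ringExpChar C = q at hq ih ⊢
      cases hq with
      | zero => exact absurd (Nat.cast_eq_zero.1 h0) hn.ne'
      | prime hp =>
        have := Fact.mk hp
        obtain ⟨m, rfl⟩ := (CharP.cast_eq_zero_iff C q n).1 h0
        have hm : 0 < m := Nat.pos_of_mul_pos_left hn
        have h1 : (X + Polynomial.C c) ^ m = X ^ m + Polynomial.C c ^ m := by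
          apply frobenius_inj C[X] q
          rw [frobenius_def, frobenius_def, add_pow_char (X ^ m : C[X]) _ q, ← pow_mul, ← pow_mul,
            ← pow_mul, mul_comm m q, h]
        obtain ⟨j, hj⟩ := ih m (by have := hp.one_lt; nlinarith) hm h1
        exact ⟨j + 1, by rw [pow_succ, ← hj, mul_comm]⟩
    · refine ⟨0, ?_⟩
      by_contra h1
      rw [pow_zero] at h1
      have h2 := congrArg (fun P : C[X] => P.coeff 1) h
      simp only [coeff_X_add_C_pow, coeff_add, coeff_X_pow, ← C_pow, coeff_C, Nat.choose_one_right,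
        if_neg (Ne.symm h1), if_neg one_ne_zero, add_zero] at h2
      exact mul_ne_zero (pow_ne_zero _ hc) h0 h2

theorem lemra_const {k C : Type*} [Field k] [Infinite k] [Field C] (φ ψ : k →+* C)
    (A B : C[X]) (hB : B ≠ 0) (hAB : IsCoprime A B)
    (h : {a : k | ψ a * B.eval (φ a) ≠ A.eval (φ a)}.Finite) :
    B = Polynomial.C (B.eval 0) := by
  apply lemra_poly_eq φ
  refine h.subset fun a ha => ?_
  by_contra ha'
  simp only [Set.mem_ofPred_eq, not_not] at ha ha'
  apply ha
  have h1 : taylor (φ a) A * B = (Polynomial.C (ψ a) * B + A) * taylor (φ a) B := by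
    apply lemra_poly_eq φ
    refine (h.union (h.preimage (f := fun b => b + a) (add_left_injective a).injOn)).subset
      fun b hb => ?_
    by_contra hb'
    simp only [Set.mem_union, Set.mem_preimage, Set.mem_ofPred_eq, not_or, not_not, map_add] at hb'
    apply hb
    simp only [eval_mul, eval_add, eval_C, taylor_eval]
    rw [← hb'.1, ← hb'.2]
    ring
  have h2 : IsCoprime (taylor (φ a) A) (taylor (φ a) B) :=
    hAB.map (taylorAlgHom (φ a)).toRingHom
  have h3 : taylor (φ a) B ∣ B := h2.symm.dvd_of_dvd_mul_left ⟨_, by rw [h1, mul_comm]⟩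
  have h4 : B = taylor (φ a) B := by
    obtain ⟨u, hu⟩ := h3
    have h5 : taylor (φ a) B ≠ 0 := fun h0 => hB (by rw [hu, h0, zero_mul])
    have h6 : u ≠ 0 := fun h0 => hB (by rw [hu, h0, mul_zero])
    have h7 := congrArg natDegree hu
    rw [natDegree_mul h5 h6, natDegree_taylor] at h7
    have h8 : u.natDegree = 0 := by omega
    rw [eq_C_of_natDegree_eq_zero h8] at hu
    have h9 := congrArg leadingCoeff hu
    rw [leadingCoeff_mul, leadingCoeff_taylor, leadingCoeff_C] at h9
    have h10 : u.coeff 0 = 1 :=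
      (mul_left_cancel₀ (leadingCoeff_ne_zero.2 hB) (by rw [← h9, mul_one])).symm
    rw [h10, C_1, mul_one] at hu
    exact hu
  have h5 := congrArg (eval 0) h4
  rw [taylor_eval, zero_add] at h5
  rw [eval_C, h5]

theorem lemra_mono {k C : Type*} [Field k] [Infinite k] [Field C] (φ ψ : k →+* C)
    (P : C[X]) (h : {a : k | ψ a ≠ P.eval (φ a)}.Finite) :
    ∃ j : ℕ, P = X ^ ringExpChar C ^ j := by
  have hP : P ≠ 0 := by
    rintro rfl
    obtain ⟨a, ha⟩ := (h.union (Set.finite_singleton 0)).infinite_compl.nonempty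
    simp only [Set.mem_compl_iff, Set.mem_union, Set.mem_ofPred_eq, not_or, not_not, eval_zero,
      Set.mem_singleton_iff, map_eq_zero] at ha
    exact ha.2 ha.1
  have h1 : ∀ a : k, a ≠ 0 → ψ a = P.eval (φ a) → ψ a = φ a ^ P.natDegree := by
    intro a ha0 ha
    have h2 : P.comp (Polynomial.C (φ a) * X) = Polynomial.C (ψ a) * P := by
      apply lemra_poly_eq φ
      refine (h.union (h.preimage (f := fun b => a * b)
        (mul_right_injective₀ ha0).injOn)).subset fun b hb => ?_
      by_contra hb'
      simp only [Set.mem_union, Set.mem_preimage, Set.mem_ofPred_eq, not_or, not_not,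
        map_mul] at hb'
      apply hb
      simp only [eval_mul, eval_C, eval_comp, eval_X]
      rw [← hb'.1, ← hb'.2]
    have h3 := congrArg (fun Q : C[X] => Q.coeff P.natDegree) h2
    simp only [comp_C_mul_X_coeff, coeff_C_mul, coeff_natDegree] at h3
    exact mul_right_cancel₀ (leadingCoeff_ne_zero.2 hP) (by rw [← h3, mul_comm])
  have h2 : P = X ^ P.natDegree := by
    apply lemra_poly_eq φ
    refine (h.union (Set.finite_singleton 0)).subset fun a ha => ?_
    by_contra ha'
    simp only [Set.mem_union, Set.mem_ofPred_eq, not_or, not_not, Set.mem_singleton_iff] at ha'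
    apply ha
    rw [eval_pow, eval_X, ← h1 a ha'.2 ha'.1, ha'.1]
  generalize P.natDegree = n at h2
  subst h2
  simp only [eval_pow, eval_X] at h
  obtain ⟨a, ha⟩ := (h.union (Set.toFinite {0, 1})).infinite_compl.nonempty
  simp only [Set.mem_compl_iff, Set.mem_union, Set.mem_ofPred_eq, not_or, not_not,
    Set.mem_insert_iff, Set.mem_singleton_iff] at ha
  obtain ⟨ha, ha0, ha1⟩ := ha
  have hn : 0 < n := by
    refine Nat.pos_of_ne_zero fun h0 => ha1 (ψ.injective ?_)
    rw [ha, h0, pow_zero, map_one]
  have h3 : (X + Polynomial.C (φ a)) ^ n = X ^ n + Polynomial.C (φ a) ^ n := by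
    apply lemra_poly_eq φ
    refine (h.union (h.preimage (f := fun b => b + a) (add_left_injective a).injOn)).subset
      fun b hb => ?_
    by_contra hb'
    simp only [Set.mem_union, Set.mem_preimage, Set.mem_ofPred_eq, not_or, not_not, map_add] at hb'
    apply hb
    simp only [eval_add, eval_C, eval_pow, eval_X]
    rw [← hb'.1, ← hb'.2, ha]
  obtain ⟨j, hj⟩ := lemra_pow ((map_ne_zero φ).2 ha0) n hn h3
  exact ⟨j, by rw [hj]⟩

/-- `r = A / B`. After cancelling the gcd, additivity shows that `B` is invariant under infinitely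
many translations, so it is constant. Multiplicativity gives `r = X ^ m`, and additivity shows that
`m` is a power of the exponential characteristic. -/
theorem eq_mul_X_pow_of_hom {k C : Type*} [Field k] [Infinite k] [Field C] (φ ψ : k →+* C)
    (A B : C[X]) (hB : B ≠ 0) (h : {a : k | ψ a * B.eval (φ a) ≠ A.eval (φ a)}.Finite) :
    ∃ j : ℕ, A = B * X ^ ringExpChar C ^ j := by
  obtain ⟨A', B', g, hAB, rfl, rfl⟩ := UniqueFactorizationMonoid.exists_reduced_factors' A B hB
  have hg : g ≠ 0 := left_ne_zero_of_mul hB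
  have hB' : B' ≠ 0 := right_ne_zero_of_mul hB
  have h1 : {a : k | ψ a * B'.eval (φ a) ≠ A'.eval (φ a)}.Finite := by
    have h2 : {a : k | g.eval (φ a) = 0}.Finite :=
      (finite_setOfPred_isRoot hg).preimage φ.injective.injOn
    refine (h.union h2).subset fun a ha => ?_
    by_contra ha'
    simp only [Set.mem_union, Set.mem_ofPred_eq, not_or, not_not, eval_mul] at ha'
    apply ha
    apply mul_left_cancel₀ ha'.2
    rw [← ha'.1]
    ring
  have h2 := lemra_const φ ψ A' B' hB' hAB.isCoprime h1
  generalize B'.eval 0 = b at h2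
  subst h2
  have hb : b ≠ 0 := fun h0 => hB' (by rw [h0, C_0])
  obtain ⟨j, hj⟩ := lemra_mono φ ψ (Polynomial.C b⁻¹ * A') (h1.subset fun a ha => by
    by_contra ha'
    simp only [Set.mem_ofPred_eq, not_not, eval_C] at ha'
    apply ha
    rw [eval_mul, eval_C, ← ha']
    field_simp)
  refine ⟨j, ?_⟩
  rw [← hj, mul_assoc, ← mul_assoc (Polynomial.C b), ← C_mul, mul_inv_cancel₀ hb, C_1, one_mul]

theorem hom_eq_of_finite {k C : Type*} [Field k] [Infinite k] [Field C] (φ ψ : k →+* C)
    (h : {a : k | φ a ≠ ψ a}.Finite) : φ = ψ := by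
  ext a
  obtain ⟨b, hb⟩ := (h.union (h.preimage (f := fun b => b + a)
    (add_left_injective a).injOn)).infinite_compl.nonempty
  simp only [Set.mem_compl_iff, Set.mem_union, Set.mem_preimage, Set.mem_ofPred_eq, not_or, not_not,
    map_add] at hb
  rw [hb.1] at hb
  exact add_left_cancel hb.2

theorem expChar_pow_eq_of_hom {k C : Type*} [Field k] [Infinite k] [Field C] (φ : k →+* C)
    {m n : ℕ} (h : ∀ a : k, φ a ^ ringExpChar C ^ m = φ a ^ ringExpChar C ^ n) :
    ringExpChar C ^ m = ringExpChar C ^ n := by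
  have h1 : (X : C[X]) ^ ringExpChar C ^ m = X ^ ringExpChar C ^ n := by
    apply lemra_poly_eq φ
    simp [h]
  simpa using congrArg natDegree h1

end Vale.Agent.P019
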