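import Vale.Agent.P019.Alpha
import Vale.Agent.P019.Coord

open scoped IntermediateField

namespace Vale.Agent.P019

universe u

variable {ℓ : ℕ} [Fact ℓ.Prime] {k K l L : Type u} [Field k] [Field K] [Algebra k K] [IsAlgClosed k]
  [Field l] [Field L] [Algebra l L] [IsAlgClosed l] {Θ : V ℓ K ≃ₗ[ZMod ℓ] V ℓ L}

section lin
variable {R W ι : Type*} [Field R] [AddCommGroup W] [Module R W] {x : ι → W}
  {f : ι → Module.Dual R W}

theorem scal_linA (hf : ∀ a a', a ≠ a' → f a (x a') = 0) {z : W}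
    (hz : z ∈ Submodule.span R (Set.range x)) {b : ι} (hb : f b z ≠ 0) : f b (x b) ≠ 0 := by
  intro h0
  have : Submodule.span R (Set.range x) ≤ LinearMap.ker (f b) := by
    rw [Submodule.span_le]
    rintro _ ⟨a, rfl⟩
    rcases eq_or_ne b a with rfl | hba
    · exact h0
    · exact hf b a hba
  exact hb (this hz)

theorem scal_linB (hf : ∀ a a', a ≠ a' → f a (x a') = 0) (hf' : ∀ a, f a (x a) ≠ 0) {z : W}
    (hz : z ∈ Submodule.span R (Set.range x)) {b : ι} (hb : ∀ a, a ≠ b → f a z = 0) :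
    ∃ n : R, z = n • x b := by
  obtain ⟨c, rfl⟩ := Finsupp.mem_span_range_iff_exists_finsupp.1 hz
  have h1 : ∀ a, f a (c.sum fun i r => r • x i) = c a * f a (x a) := by
    intro a
    rw [Finsupp.sum, map_sum, Finset.sum_eq_single a]
    · rw [map_smul, smul_eq_mul]
    · intro a' _ ha'
      rw [map_smul, hf a a' ha'.symm, smul_zero]
    · intro ha
      rw [Finsupp.notMem_support_iff.1 ha, zero_smul, map_zero]
  refine ⟨c b, ?_⟩
  rw [Finsupp.sum, Finset.sum_eq_single b]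
  · intro a _ ha
    have h2 := hb a ha
    rw [h1] at h2
    rw [(mul_eq_zero.1 h2).resolve_right (hf' a), zero_smul]
  · intro ha
    rw [Finsupp.notMem_support_iff.1 ha, zero_smul]

end lin

/-- the functional attached to a prime -/
theorem scal_fun (h : Set2 k l Θ) {α : K →+* L}
    (hc : ∀ v w, IsPrime k v → IsPrime l w → Partner Θ v w → w.comap α = v)
    {v : ValuationSubring K} (hv : IsPrime k v) :
    ∃ (τ : DV ℓ L) (e : ZMod ℓ), (∀ z, τ (Θ z) = 0 ↔ z ∈ U ℓ v) ∧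
      ∀ x : K, τ (cl ℓ (α x)) = e * τ (Θ (cl ℓ x)) := by
  obtain ⟨w, hw, hP⟩ := h.partner_prime hv
  obtain ⟨τ, hτ, h0⟩ := Submodule.exists_mem_ne_zero_of_ne_bot
    (hP.II_ne_bot (hv.isAbh.II_ne_bot h.hK.pf h.hK.char))
  have h1 : τ ∘ₗ Θ.toLinearMap ∈ II ℓ v := (hP.II_iff τ).1 hτ
  have h2 : τ ∘ₗ Θ.toLinearMap ≠ 0 := fun h3 => h0 (LinearMap.ext fun y => by
    simpa using LinearMap.congr_fun h3 (Θ.symm y))
  have h3 := hv.isAbh.II_le_span h1 h2
  have h4 : τ ∘ₗ Vmap ℓ α ∈ II ℓ v := hc v w hv hw hP ▸ II_comap α hτ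
  rw [h3, Submodule.mem_span_singleton] at h4
  obtain ⟨e, he⟩ := h4
  refine ⟨τ, e, fun z => ⟨fun hz => mem_U_iff_II.2 fun g hg => ?_,
    fun hz => mem_U_iff_II.1 hz _ h1⟩, fun x => ?_⟩
  · rw [h3, Submodule.mem_span_singleton] at hg
    obtain ⟨c, rfl⟩ := hg
    show c * τ (Θ z) = 0
    rw [hz, mul_zero]
  · rw [← Vmap_cl]
    exact (LinearMap.congr_fun he (cl ℓ x)).symm

omit [IsAlgClosed k] in
theorem scal_span (hl : (ℓ : l) ≠ 0) (σ : k ≃+* l) {s : L} (hs : GEN l s) :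
    H l ℓ s ≤ Submodule.span (ZMod ℓ) (Set.range fun a : k => cl ℓ (s - algebraMap l L (σ a))) := by
  rintro _ ⟨z, rfl⟩
  have h1 : z ∈ Submodule.span (ZMod ℓ) (Set.range fun a : l =>
      cl ℓ ((⟨s, self_mem_ac s⟩ : ac l {s}) - algebraMap l (ac l {s}) a)) := by
    rw [V_span_of_pc hs.pc_top hl]; exact Submodule.mem_top
  refine Submodule.mem_comap.1 (Submodule.span_le.2 ?_ h1)
  rintro _ ⟨a, rfl⟩
  refine Submodule.subset_span ⟨σ.symm a, ?_⟩
  show cl ℓ (s - algebraMap l L (σ (σ.symm a))) = _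
  rw [Vmap_cl, RingEquiv.apply_symm_apply]
  rfl

omit [IsAlgClosed k] in
theorem scal_unit {O : ValuationSubring K} (hk : ∀ c : k, algebraMap k K c ∈ O) {u : K} {a b : k}
    (h : At k O u a) (hab : a ≠ b) : cl ℓ (u - algebraMap k K b) ∈ U ℓ O := by
  refine mem_U.2 ⟨_, ?_, rfl⟩
  have h1 : O.valuation (algebraMap k K (a - b)) = 1 := val_const_eq_one hk (sub_ne_zero.2 hab)
  have h2 : u - algebraMap k K b = algebraMap k K (a - b) + (u - algebraMap k K a) := by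
    rw [map_sub]; ring
  rw [h2, Valuation.map_add_eq_of_lt_left _ (by rw [h1]; exact h), h1]

/-- For partner primes `v, w` and `0 ≠ σ_w ∈ II w`: `σ_w ∘ α_* = e v • σ_w ∘ Θ`. Write
`Θ [u - b] = ∑ n a [s - σ a]`, `s = α u` (`V_span_of_pc`, `GEN.pc_top`). Applying `σ_w` for the
prime over `u = a` gives `n a * e a = 0` for `a ≠ b` and `n b * e b = 1`; so all `e a ≠ 0` and
`Θ [u - b] = n b [s - σ b]`. Applying `σ_{w₀}` gives `n b * e₀ = 1`. -/
theorem Set2.scalar_vgen (h : Set2 k l Θ) {σ : k ≃+* l} {α : K →+* L}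
    (hα : ∀ c : k, α (algebraMap k K c) = algebraMap l L (σ c))
    (hc : ∀ v w, IsPrime k v → IsPrime l w → Partner Θ v w → w.comap α = v)
    {v₀ : ValuationSubring K} (hv₀ : IsPrime k v₀) :
    ∃ e : ZMod ℓ, ∀ u : K, Coord Θ σ u (α u) → u ∉ v₀ → cl ℓ u ∉ U ℓ v₀ →
      (∀ a : k, ∃ O : ValuationSubring K, IsPrime k O ∧ At k O u a ∧
        cl ℓ (u - algebraMap k K a) ∉ U ℓ O) → Θ (cl ℓ u) = e • cl ℓ (α u) := by
  obtain ⟨τ₀, e₀, h₀, h₀'⟩ := scal_fun h hc hv₀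
  refine ⟨e₀⁻¹, fun u hu _ hU hO => ?_⟩
  choose O hO hAt hnot using hO
  choose τ e h1 h2 using fun a => scal_fun h hc (hO a)
  have hx : ∀ a : k, α u - algebraMap l L (σ a) = α (u - algebraMap k K a) := fun a => by
    rw [map_sub, hα]
  have hf : ∀ a a' : k, a ≠ a' → τ a (cl ℓ (α u - algebraMap l L (σ a'))) = 0 := fun a a' ha => by
    rw [hx, h2, (h1 a _).2 (scal_unit (hO a).1 (hAt a) ha), mul_zero]
  have hz : ∀ b : k, Θ (cl ℓ (u - algebraMap k K b)) ∈ Submodule.span (ZMod ℓ)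
      (Set.range fun a : k => cl ℓ (α u - algebraMap l L (σ a))) := fun b => by
    refine scal_span h.hL.char σ hu.1 ?_
    rw [← hu.2.1]
    refine Submodule.mem_map_of_mem (f := Θ.toLinearMap)
      ⟨cl ℓ ((⟨u, self_mem_ac u⟩ : ac k {u}) - algebraMap k (ac k {u}) b), ?_⟩
    rw [Vmap_cl]
    rfl
  obtain ⟨n, hn⟩ := scal_linB hf
    (fun a => scal_linA hf (hz a) (fun h3 => hnot a ((h1 a _).1 h3))) (hz 0) (b := 0)
    (fun a ha => (h1 a _).2 (scal_unit (hO a).1 (hAt a) ha))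
  simp only [map_zero, sub_zero] at hn
  have h3 : τ₀ (Θ (cl ℓ u)) ≠ 0 := fun h4 => hU ((h₀ _).1 h4)
  have h4 : τ₀ (Θ (cl ℓ u)) = n * e₀ * τ₀ (Θ (cl ℓ u)) := by
    rw [mul_assoc, ← h₀', ← smul_eq_mul, ← map_smul, ← hn]
  have h5 : n * e₀ = 1 := mul_right_cancel₀ h3 (by rw [← h4, one_mul])
  rw [hn, eq_inv_of_mul_eq_one_left h5]

omit [IsAlgClosed k] in
theorem scal_pole {v : ValuationSubring K} {x y : K} (hx : x ∉ v) (hx' : cl ℓ x ∉ U ℓ v)
    (hy : y ∈ v) : x + y ∉ v ∧ cl ℓ (x + y) ∉ U ℓ v := by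
  refine ⟨fun h => hx (by simpa using sub_mem h hy), fun h => hx' (mem_U_iff_II.2 fun g hg => ?_)⟩
  have h1 : v.valuation y < v.valuation x :=
    ((v.valuation_le_one_iff y).2 hy).trans_lt
      (lt_of_not_ge fun h2 => hx ((v.valuation_le_one_iff x).1 h2))
  rw [← II_apply_eq hg (Valuation.map_add_eq_of_lt_left _ h1)]
  exact mem_U_iff_II.1 h g hg

theorem scal_exists (hK : Std ℓ k K 2) {v : ValuationSubring K} (hv : IsPrime k v) :
    ∃ x : K, x ∉ v ∧ cl ℓ x ∉ U ℓ v := by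
  have h1 : U ℓ v ≠ ⊤ := fun h => hv.isAbh.II_ne_bot hK.pf hK.char (II_eq_bot_iff.2 h)
  obtain ⟨z, -, hz⟩ := SetLike.exists_of_lt (lt_top_iff_ne_top.2 h1)
  obtain ⟨x, hx0, rfl⟩ := cl_surj z
  by_cases hx : x ∈ v
  · refine ⟨x⁻¹, fun h => hz (mem_U.2 ⟨x, val_eq_one_iff.2 ⟨hx0, hx, h⟩, rfl⟩), fun h => hz ?_⟩
    rw [cl_inv] at h
    exact neg_mem_iff.1 h
  · exact ⟨x, hx, hz⟩

/-- For `z` transcendental take `v₀` horizontal for `z` (`exists_hor`), `x ∉ v₀` with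
`[x] ∉ U v₀`; `(x, z)` and `(z x, z ^ 2)` are independent (`indep_of_RInd_VInd`). For almost all
`c`, `u = x + c z` and `z u` are general (`finite_not_GEN`) and very general (`finite_not_vgen`).
So `Θ [z] = e • [α z]`; finish with `exists_scalar`. -/
theorem Set2.emb (h : Set2 k l Θ) : Emb k l Θ := by
  have := h.hK.perf
  obtain ⟨σ, hσ⟩ := h.exists_coord
  obtain ⟨α, hα, hα'⟩ := h.exists_alpha hσ
  have hco : ∀ t, GEN k t → Coord Θ σ t (α t) := fun t ht => by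
    obtain ⟨s, hs⟩ := hσ t ht
    rwa [hα' t s ht hs]
  have key : ∀ z : K, Transcendental k z → ∃ e : ZMod ℓ, Θ (cl ℓ z) = e • cl ℓ (α z) := by
    intro z hz
    obtain ⟨v, hv, hh⟩ := exists_hor (alpha_dim h.hK) {z} (by simpa using hz)
    replace hh : Hor k v z := hh z (Finset.mem_singleton_self z)
    obtain ⟨x, hx, hx'⟩ := scal_exists h.hK hv
    have hz0 : z ≠ 0 := alpha_ne_zero hz
    have hx0 : x ≠ 0 := fun h0 => hx (h0 ▸ zero_mem v)
    have hzv : z ∈ v := hh z (self_mem_ac z)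
    have hzu : cl ℓ z ∈ U ℓ v := mem_U.2 ⟨z, alpha_unit hh (self_mem_ac z) hz0, rfl⟩
    have hzx : z * x ∉ v := fun h1 => hx (by
      simpa [hz0] using mul_mem (hh _ (inv_mem (self_mem_ac z))) h1)
    have hzx' : cl ℓ (z * x) ∉ U ℓ v := fun h1 => hx' (by
      rw [cl_mul hz0 hx0] at h1
      simpa using sub_mem h1 hzu)
    have hi : AlgebraicIndependent k ![x, z] :=
      indep_pair_symm (indep_pair_iff.2 ⟨hz, fun hm => hx (hh x hm)⟩)
    have hi' : AlgebraicIndependent k ![z * x, z ^ 2] :=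
      indep_pair_symm (indep_pair_iff.2 ⟨hz.pow two_pos, fun hm => hzx (hh _
        (ac_le_ac (Set.singleton_subset_iff.2 (pow_mem (self_mem_ac z) 2)) hm))⟩)
    obtain ⟨c, hc⟩ := (((finite_not_GEN h.hK.pf hi).union (finite_not_vgen h.hK hi)).union
      ((finite_not_GEN h.hK.pf hi').union (finite_not_vgen h.hK hi'))).exists_notMem
    simp only [Set.mem_union, not_or, Set.mem_ofPred_eq, not_not] at hc
    obtain ⟨⟨hc1, hc2⟩, hc3, hc4⟩ := hc
    obtain ⟨e, he⟩ := h.scalar_vgen hα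
      (fun v w hv hw hP => h.comap_alpha hσ hα hα' hv hw hP) hv
    have hp1 := scal_pole hx hx' (mul_mem (hv.1 c) hzv)
    have hp2 := scal_pole hzx hzx' (mul_mem (hv.1 c) (pow_mem hzv 2))
    have h1 := he _ (hco _ hc1) hp1.1 hp1.2 hc2
    have h2 := he _ (hco _ hc3) hp2.1 hp2.2 hc4
    have h3 : z * x + algebraMap k K c * z ^ 2 = z * (x + algebraMap k K c * z) := by ring
    have hu0 : x + algebraMap k K c * z ≠ 0 := alpha_ne_zero hc1.1
    rw [h3, map_mul, cl_mul hz0 hu0, cl_mul ((map_ne_zero α).2 hz0) ((map_ne_zero α).2 hu0),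
      map_add, smul_add, h1] at h2
    exact ⟨e, add_right_cancel h2⟩
  obtain ⟨c, hc0, hc⟩ := exists_scalar Θ.toLinearMap (Vmap ℓ α) Θ.injective (fun z => by
    obtain ⟨x, -, rfl⟩ := cl_surj z
    rw [Vmap_cl]
    by_cases htr : Transcendental k x
    · exact key x htr
    · obtain ⟨a, rfl⟩ := not_not.1 (mt transcendental_iff.2 htr)
      exact ⟨0, by rw [cl_const, map_zero, zero_smul]⟩)
  exact ⟨c, α, hc0, fun a => ⟨σ a, (hα a).symm⟩, fun x => by rw [← Vmap_cl]; exact hc _⟩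

end Vale.Agent.P019
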