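import Vale.Agent.P019.IndB
import Vale.Agent.P019.BthB
import Vale.Agent.P019.Scal

open scoped IntermediateField TensorProduct

namespace Vale.Agent.P019

universe u

variable {ℓ : ℕ} [Fact ℓ.Prime]

theorem embStmt (e : ℕ) : EmbStmt.{u} ℓ (e + 2) := by
  induction e with
  | zero =>
    intro k K l L _ _ _ _ _ _ _ _ hK hL Θ hΘ
    exact (set2 hK hL hΘ).emb
  | succ e ih => exact EmbStmt.step ih

variable {k K l L : Type u} [Field k] [Field K] [Algebra k K] [IsAlgClosed k]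
  [Field l] [Field L] [Algebra l L] [IsAlgClosed l]

theorem main_std {e : ℕ} (hK : Std ℓ k K (e + 2)) (hL : Std ℓ l L (e + 2))
    {Θ : V ℓ K ≃ₗ[ZMod ℓ] V ℓ L} (hΘ : Iso Θ) :
    ∃ (c : ZMod ℓ) (α : K ≃+* L), c ≠ 0 ∧
      (∀ y : L, (∃ a : k, α (algebraMap k K a) = y) ↔ ∃ b : l, algebraMap l L b = y) ∧
      ∀ x : K, Θ (cl ℓ x) = c • cl ℓ (α x) := by
  obtain ⟨c, ι, hc, hι, h⟩ := embStmt e k K l L hK hL Θ hΘ
  obtain ⟨c', ι', hc', hι', h'⟩ := embStmt e l L k K hL hK Θ.symm hΘ.symm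
  have hrel : ∀ y : L, cl ℓ ((ι.comp ι') y) = (c' * c)⁻¹ • cl ℓ ((RingHom.id L) y) := by
    intro y
    have h1 : cl ℓ y = (c' * c) • cl ℓ (ι (ι' y)) := by
      have := congrArg Θ (h' y)
      rw [LinearEquiv.apply_symm_apply, map_smul, h, smul_smul] at this
      exact this
    rw [RingHom.id_apply, h1, smul_smul, inv_mul_cancel₀ (mul_ne_zero hc' hc), one_smul]
    rfl
  have htr : ∃ y : L, Transcendental l ((RingHom.id L) y) := by
    obtain ⟨y, hy⟩ := exists_indep (k := l) (K := L) (d := 1) (by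
      rw [hL.dim]; exact_mod_cast Nat.le_add_left 1 (e + 1))
    exact ⟨y 0, hy.transcendental 0⟩
  obtain ⟨i, j, hij, -⟩ := rigid (k := l) hL (RingHom.id L) (ι.comp ι') (fun a => ⟨a, rfl⟩)
    (fun a => by
      obtain ⟨b, hb⟩ := hι' a
      rw [RingHom.comp_apply, ← hb]
      exact hι b) (inv_ne_zero (mul_ne_zero hc' hc)) hrel htr
  have := hL.perf
  have := ringExpChar.expChar L
  have hq : 0 < ringExpChar L ^ j := pow_pos (expChar_pos L _) _
  have hinj : ∀ a b : L, a ^ ringExpChar L ^ i = b ^ ringExpChar L ^ i → a = b := fun a b hab =>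
    (iterateFrobenius L (ringExpChar L) i).injective hab
  have hsurj : Function.Surjective ι := by
    intro w
    obtain ⟨x, hx⟩ := (iterateFrobeniusEquiv L (ringExpChar L) j).surjective
      (w ^ ringExpChar L ^ i)
    refine ⟨ι' x, hinj _ _ ?_⟩
    rw [← hx]
    exact hij x
  refine ⟨c, RingEquiv.ofBijective ι ⟨ι.injective, hsurj⟩, hc, fun y => ⟨?_, ?_⟩, h⟩
  · rintro ⟨a, rfl⟩
    exact hι a
  · rintro ⟨b, rfl⟩
    obtain ⟨b', hb'⟩ := IsAlgClosed.exists_pow_nat_eq (b ^ ringExpChar L ^ i) hq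
    obtain ⟨a, ha⟩ := hι' b'
    refine ⟨a, hinj _ _ ?_⟩
    have := hij (algebraMap l L b')
    rw [RingHom.id_apply, ← map_pow (algebraMap l L), hb', map_pow (algebraMap l L),
      RingHom.comp_apply, ← ha] at this
    exact this

theorem cast_ne_zero_of_ringChar {F : Type*} [Field F] (h : ringChar F ≠ ℓ) : (ℓ : F) ≠ 0 := by
  intro h0
  rcases (Nat.dvd_prime Fact.out).1 ((ringChar.spec F ℓ).1 h0) with h1 | h1
  · exact CharP.ringChar_ne_one h1
  · exact h h1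

theorem main (hK : (⊤ : IntermediateField k K).FG) (hL : (⊤ : IntermediateField l L).FG)
    (hdK : 2 ≤ Algebra.trdeg k K) (hk : ringChar k ≠ ℓ) (hl : ringChar l ≠ ℓ)
    (Θ : V ℓ K ≃ₗ[ZMod ℓ] V ℓ L)
    (hΘ : (Rsub ℓ K).map (TensorProduct.map Θ.toLinearMap Θ.toLinearMap) = Rsub ℓ L) :
    ∃ (c : ZMod ℓ)
      (α : perfectClosure K (AlgebraicClosure K) ≃+* perfectClosure L (AlgebraicClosure L)),
      c ≠ 0 ∧
      (∀ y, (∃ a : k, α (algebraMap K _ (algebraMap k K a)) = y) ↔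
        ∃ b : l, algebraMap L _ (algebraMap l L b) = y) ∧
      ∀ (x : K) (y : L), Θ (cl ℓ x) = cl ℓ y →
        cl ℓ (algebraMap L (perfectClosure L (AlgebraicClosure L)) y) =
          c • cl ℓ (α (algebraMap K _ x)) := by
  have hk' := cast_ne_zero_of_ringChar hk
  have hl' := cast_ne_zero_of_ringChar hl
  have hK0 : (ℓ : K) ≠ 0 := by rw [← map_natCast (algebraMap k K)]; exact (map_ne_zero _).2 hk'
  have hL0 : (ℓ : L) ≠ 0 := by rw [← map_natCast (algebraMap l L)]; exact (map_ne_zero _).2 hl'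
  obtain ⟨d, hd⟩ := (PF.of_fg hK).trdeg_nat
  obtain ⟨d', hd'⟩ := (PF.of_fg hL).trdeg_nat
  have sK := (PF.of_fg hK).std_perf hk' hd
  have sL := (PF.of_fg hL).std_perf hl' hd'
  obtain ⟨ΘK, iK, eK⟩ := exists_iso_of_pi (ℓ := ℓ) (algebraMap K _) hK0 (perf_pi (K := K))
  obtain ⟨ΘL, iL, eL⟩ := exists_iso_of_pi (ℓ := ℓ) (algebraMap L _) hL0 (perf_pi (K := L))
  have hI : Iso ((ΘK.symm.trans Θ).trans ΘL) := (iK.symm.trans (iso_of_Rsub Θ hΘ)).trans iL
  have hdd : d = d' := dim_eq sK sL hI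
  subst hdd
  have h2 : 2 ≤ d := by rw [hd] at hdK; exact_mod_cast hdK
  obtain ⟨e, rfl⟩ : ∃ e, d = e + 2 := ⟨d - 2, by omega⟩
  obtain ⟨c, α, hc, h1, h3⟩ := main_std sK sL hI
  refine ⟨c, α, hc, fun y => ?_, fun x y hxy => ?_⟩
  · simpa only [← IsScalarTower.algebraMap_apply] using h1 y
  · have a1 : ΘK (cl ℓ x) = cl ℓ (algebraMap K _ x) := by
      rw [← Vmap_cl, ← eK]; rfl
    have a2 : ΘL (cl ℓ y) = cl ℓ (algebraMap L _ y) := by
      rw [← Vmap_cl, ← eL]; rfl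
    rw [← h3, ← a1, ← a2, ← hxy]
    simp

end Vale.Agent.P019
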