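import Vale.Agent.P019.AB

open scoped IntermediateField

namespace Vale.Agent.P019

section fm
variable {H : Type*} [AddCommGroup H] [LinearOrder H] [IsOrderedAddMonoid H]

theorem near_zsmul_pos_iff {i : ℤ} (hi : 0 < i) {u : H} : 0 < i • u ↔ 0 < u := by
  constructor
  · intro h
    by_contra hu
    have := zsmul_nonneg (neg_nonneg.2 (not_lt.1 hu)) hi.le
    rw [smul_neg, neg_nonneg] at this
    exact absurd h (not_lt.2 this)
  · intro h
    exact zsmul_pos h hi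

/-- elimination of one unknown -/
theorem near_fm1 (hdiv : ∀ (n : ℤ), n ≠ 0 → ∀ u : H, ∃ w : H, n • w = u) (e : H) (he : 0 < e)
    {R : Type*} [Finite R] (γ : R → H) (i : R → ℤ) (h0 : ∀ r, i r = 0 → 0 < γ r)
    (h1 : ∀ r s, 0 < i r → i s < 0 → 0 < (-i s) • γ r + i r • γ s) :
    ∃ x : H, ∀ r, 0 < γ r + i r • x := by
  classical
  have : Nonempty H := ⟨0⟩
  have : NoMaxOrder H := ⟨fun a => ⟨a + e, lt_add_of_pos_right a he⟩⟩
  have : NoMinOrder H := ⟨fun a => ⟨a - e, sub_lt_self a he⟩⟩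
  have : DenselyOrdered H := ⟨fun a b hab => by
    obtain ⟨w, hw⟩ := hdiv 2 two_ne_zero (b - a)
    have hw0 : 0 < w := (near_zsmul_pos_iff (i := 2) two_pos).1 (by rw [hw]; exact sub_pos.2 hab)
    refine ⟨a + w, lt_add_of_pos_right a hw0, ?_⟩
    have : b = a + w + w := by
      rw [add_assoc, ← two_zsmul, hw]; abel
    rw [this]
    exact lt_add_of_pos_right _ hw0⟩
  have hx : ∀ r, ∃ w : H, i r ≠ 0 → i r • w = - γ r := fun r => by
    by_cases h : i r = 0
    · exact ⟨0, fun h' => absurd h h'⟩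
    · obtain ⟨w, hw⟩ := hdiv _ h (-γ r)
      exact ⟨w, fun _ => hw⟩
  choose w hw using hx
  have := Fintype.ofFinite R
  obtain ⟨x, hx1, hx2⟩ := Order.exists_between_finsets
    ((Finset.univ.filter fun r => 0 < i r).image w) ((Finset.univ.filter fun r => i r < 0).image w)
    (by
      intro a ha b hb
      obtain ⟨r, hr, rfl⟩ := Finset.mem_image.1 ha
      obtain ⟨s, hs, rfl⟩ := Finset.mem_image.1 hb
      have hr' : 0 < i r := (Finset.mem_filter.1 hr).2
      have hs' : i s < 0 := (Finset.mem_filter.1 hs).2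
      have h2 := h1 r s hr' hs'
      have e1 : γ r = - (i r • w r) := by rw [hw r hr'.ne', neg_neg]
      have e2 : γ s = - (i s • w s) := by rw [hw s hs'.ne, neg_neg]
      have e3 : (-i s) • γ r + i r • γ s = (i r * (-i s)) • (w s - w r) := by
        rw [e1, e2]; module
      rw [e3, near_zsmul_pos_iff (mul_pos hr' (neg_pos.2 hs'))] at h2
      exact sub_pos.1 h2)
  refine ⟨x, fun r => ?_⟩
  rcases lt_trichotomy (i r) 0 with h | h | h
  · have h2 := hx2 _ (Finset.mem_image_of_mem w (Finset.mem_filter.2 ⟨Finset.mem_univ r, h⟩))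
    have e1 : γ r = - (i r • w r) := by rw [hw r h.ne, neg_neg]
    have e3 : γ r + i r • x = (-i r) • (w r - x) := by rw [e1]; module
    rw [e3, near_zsmul_pos_iff (neg_pos.2 h)]
    exact sub_pos.2 h2
  · rw [h, zero_smul, add_zero]; exact h0 r h
  · have h2 := hx1 _ (Finset.mem_image_of_mem w (Finset.mem_filter.2 ⟨Finset.mem_univ r, h⟩))
    have e1 : γ r = - (i r • w r) := by rw [hw r h.ne', neg_neg]
    have e3 : γ r + i r • x = (i r) • (x - w r) := by rw [e1]; module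
    rw [e3, near_zsmul_pos_iff h]
    exact sub_pos.2 h2

variable {Γ : Type*} [AddCommGroup Γ] [LinearOrder Γ] [IsOrderedAddMonoid Γ]
  {A : Type*} [AddCommGroup A]

/-- one unknown, transfer of solvability -/
theorem near_fm1' (hdiv : ∀ (n : ℤ), n ≠ 0 → ∀ u : H, ∃ w : H, n • w = u) (e : H) (he : 0 < e)
    (f : A →+ Γ) (g : A →+ H) (hfg : ∀ a, 0 < f a → 0 < g a)
    {R : Type*} [Finite R] (γ : R → A) (i : R → ℤ) (α : Γ) (h : ∀ r, 0 < f (γ r) + i r • α) :
    ∃ x : H, ∀ r, 0 < g (γ r) + i r • x := by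
  refine near_fm1 hdiv e he (fun r => g (γ r)) i (fun r hr => hfg _ ?_) (fun r s hr hs => ?_)
  · simpa [hr] using h r
  · have e1 : (-i s) • g (γ r) + i r • g (γ s) = g ((-i s) • γ r + i r • γ s) := by
      rw [map_add, map_zsmul, map_zsmul]
    rw [e1]
    apply hfg
    have e2 : f ((-i s) • γ r + i r • γ s) =
        (-i s) • (f (γ r) + i r • α) + i r • (f (γ s) + i s • α) := by
      rw [map_add, map_zsmul, map_zsmul]; module
    rw [e2]
    exact add_pos (zsmul_pos (h r) (neg_pos.2 hs)) (zsmul_pos (h s) hr)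

/-- two unknowns -/
theorem near_fm2 (hdiv : ∀ (n : ℤ), n ≠ 0 → ∀ u : H, ∃ w : H, n • w = u) (e : H) (he : 0 < e)
    (f : A →+ Γ) (g : A →+ H) (hfg : ∀ a, 0 < f a → 0 < g a)
    {R : Type*} [Finite R] (γ : R → A) (i j : R → ℤ) (α β : Γ)
    (h : ∀ r, 0 < f (γ r) + i r • α + j r • β) :
    ∃ x y : H, ∀ r, 0 < g (γ r) + i r • x + j r • y := by
  obtain ⟨x, hx⟩ := near_fm1' hdiv e he f g hfg
    (R := {r : R // j r = 0} ⊕ {p : R × R // 0 < j p.1 ∧ j p.2 < 0})
    (Sum.elim (fun r => γ r.1) fun p => (-j p.1.2) • γ p.1.1 + j p.1.1 • γ p.1.2)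
    (Sum.elim (fun r => i r.1) fun p => (-j p.1.2) * i p.1.1 + j p.1.1 * i p.1.2) α (by
      rintro (⟨r, hr⟩ | ⟨⟨r, s⟩, hr, hs⟩)
      · simpa [hr] using h r
      · simp only [Sum.elim_inr]
        have e2 : f ((-j s) • γ r + j r • γ s) + ((-j s) * i r + j r * i s) • α =
            (-j s) • (f (γ r) + i r • α + j r • β) + j r • (f (γ s) + i s • α + j s • β) := by
          rw [map_add, map_zsmul, map_zsmul]; module
        rw [e2]
        exact add_pos (zsmul_pos (h r) (neg_pos.2 hs)) (zsmul_pos (h s) hr))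
  obtain ⟨y, hy⟩ := near_fm1 hdiv e he (fun r => g (γ r) + i r • x) j
    (fun r hr => hx (Sum.inl ⟨r, hr⟩)) (fun r s hr hs => by
      have h2 := hx (Sum.inr ⟨(r, s), hr, hs⟩)
      simp only [Sum.elim_inr] at h2
      have e2 : (-j s) • (g (γ r) + i r • x) + j r • (g (γ s) + i s • x) =
          g ((-j s) • γ r + j r • γ s) + ((-j s) * i r + j r * i s) • x := by
        rw [map_add, map_zsmul, map_zsmul]; module
      rw [e2]; exact h2)
  exact ⟨x, y, hy⟩

/-- two unknowns with an infinitesimal -/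
theorem near_fm3 (hdiv : ∀ (n : ℤ), n ≠ 0 → ∀ u : A, ∃ w : A, n • w = u) (f : A →+ Γ)
    {R : Type*} [Finite R] (γ : R → A) (i j : R → ℤ) (α β : Γ)
    (h : ∀ r, 0 < f (γ r) + i r • α + j r • β) :
    ∃ (a b : A) (m n : ℚ), ∀ r, 0 < f (γ r + i r • a + j r • b) ∨
      (f (γ r + i r • a + j r • b) = 0 ∧ 0 < i r * m + j r * n) := by
  let g₀ : A →+ f.range × ℚ := AddMonoidHom.prod f.rangeRestrict 0
  let g : A →+ Lex (f.range × ℚ) := g₀
  obtain ⟨x, y, hxy⟩ := near_fm2 (H := Lex (f.range × ℚ)) (fun n hn u => by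
      obtain ⟨a, ha⟩ := (ofLex u).1.2
      obtain ⟨w, hw⟩ := hdiv n hn a
      refine ⟨toLex (f.rangeRestrict w, (ofLex u).2 / n), ?_⟩
      have hn' : (n : ℚ) ≠ 0 := Int.cast_ne_zero.2 hn
      have : n • (f.rangeRestrict w, (ofLex u).2 / n) = ofLex u := by
        refine Prod.ext (Subtype.ext ?_) ?_
        · show n • f w = _
          rw [← map_zsmul, hw, ha]
        · show n • ((ofLex u).2 / n) = _
          rw [zsmul_eq_mul]; field_simp
      exact this)
    (toLex (0, 1)) (Prod.Lex.lt_iff.2 (Or.inr ⟨rfl, one_pos⟩)) f g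
    (fun a ha => Prod.Lex.lt_iff.2 (Or.inl ha)) γ i j α β h
  obtain ⟨a, ha⟩ := (ofLex x).1.2
  obtain ⟨b, hb⟩ := (ofLex y).1.2
  refine ⟨a, b, (ofLex x).2, (ofLex y).2, fun r => ?_⟩
  have e1 : f (γ r + i r • a + j r • b) = ((ofLex (g (γ r) + i r • x + j r • y)).1 : Γ) := by
    rw [map_add, map_add, map_zsmul, map_zsmul, ha, hb]; rfl
  have e2 : i r * (ofLex x).2 + j r * (ofLex y).2 = (ofLex (g (γ r) + i r • x + j r • y)).2 := by
    show _ = 0 + i r • (ofLex x).2 + j r • (ofLex y).2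
    rw [zero_add, zsmul_eq_mul, zsmul_eq_mul]
  rw [e1, e2]
  rcases Prod.Lex.lt_iff.1 (hxy r) with h1 | ⟨h1, h2⟩
  · exact Or.inl h1
  · exact Or.inr ⟨(congrArg Subtype.val h1).symm, h2⟩

end fm

/-- from rational to coprime integer weights -/
theorem near_int {ℓ : ℕ} [Fact ℓ.Prime] {R : Type*} [Fintype R] (i j : R → ℤ) (m₀ n₀ : ℚ) :
    ∃ m n : ℤ, (ℓ : ℤ) ∣ m ∧ ¬ (ℓ : ℤ) ∣ n ∧ IsCoprime m n ∧
      ∀ r, 0 < i r * m₀ + j r * n₀ → 0 < i r * m + j r * n := by
  have hl : (ℓ : ℤ) ≠ 1 := by exact_mod_cast (Fact.out : ℓ.Prime).ne_one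
  have hlp : Prime (ℓ : ℤ) := Nat.prime_iff_prime_int.1 Fact.out
  have hl0 : (0 : ℤ) < ℓ := by exact_mod_cast (Fact.out : ℓ.Prime).pos
  set m₁ : ℤ := m₀.num * n₀.den
  set n₁ : ℤ := n₀.num * m₀.den
  have h1 : ∀ r, 0 < i r * m₀ + j r * n₀ → 0 < i r * m₁ + j r * n₁ := fun r hr => by
    have : ((i r * m₁ + j r * n₁ : ℤ) : ℚ) = (i r * m₀ + j r * n₀) * (m₀.den * n₀.den) := by
      simp only [m₁, n₁]
      push_cast
      rw [← Rat.mul_den_eq_num m₀, ← Rat.mul_den_eq_num n₀]; ring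
    have h2 : (0 : ℚ) < ((i r * m₁ + j r * n₁ : ℤ) : ℚ) := by
      rw [this]
      exact mul_pos hr (mul_pos (by exact_mod_cast m₀.den_pos) (by exact_mod_cast n₀.den_pos))
    exact_mod_cast h2
  set S : ℤ := 1 + ∑ r, |j r|
  have hS : ∀ r, |j r| < S := fun r => by
    have := Finset.single_le_sum (f := fun r => |j r|) (fun r _ => abs_nonneg _) (Finset.mem_univ r)
    simp only [S]; linarith
  have hS0 : 0 < S := by
    have : 0 ≤ ∑ r, |j r| := Finset.sum_nonneg fun r _ => abs_nonneg _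
    simp only [S]; linarith
  have hn₂ : ¬ (ℓ : ℤ) ∣ ℓ * S * n₁ + 1 := fun h => by
    have : (ℓ : ℤ) ∣ 1 := (dvd_add_right ⟨S * n₁, by ring⟩).1 h
    exact hlp.not_dvd_one this
  have hg : 0 < Int.gcd (ℓ * S * m₁) (ℓ * S * n₁ + 1) :=
    Int.gcd_pos_of_ne_zero_right _ fun h => hn₂ (h ▸ dvd_zero _)
  obtain ⟨m, n, hmn, hm, hn⟩ := Int.exists_gcd_one hg
  set g : ℤ := (Int.gcd (ℓ * S * m₁) (ℓ * S * n₁ + 1) : ℤ)
  have hg0 : 0 < g := Int.natCast_pos.2 hg
  refine ⟨m, n, ?_, fun h => hn₂ (hn ▸ h.mul_right _), Int.isCoprime_iff_gcd_eq_one.2 hmn,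
    fun r hr => ?_⟩
  · have : (ℓ : ℤ) ∣ m * g := hm ▸ ⟨S * m₁, by ring⟩
    exact (hlp.dvd_or_dvd this).resolve_right fun h => hn₂ (hn ▸ h.mul_left _)
  · have h2 := h1 r hr
    have e : (i r * m + j r * n) * g = ℓ * S * (i r * m₁ + j r * n₁) + j r := by
      have : (i r * m + j r * n) * g = i r * (m * g) + j r * (n * g) := by ring
      rw [this, ← hm, ← hn]; ring
    have h3 : S ≤ ℓ * S * (i r * m₁ + j r * n₁) := by
      have : 1 ≤ ℓ * (i r * m₁ + j r * n₁) := mul_pos hl0 h2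
      nlinarith
    have h4 : 0 < (i r * m + j r * n) * g := by
      have := hS r
      have := neg_abs_le (j r)
      linarith
    exact (mul_pos_iff_of_pos_right hg0).1 h4

variable {ℓ : ℕ} [Fact ℓ.Prime] {k K : Type*} [Field k] [Field K] [Algebra k K] [IsAlgClosed k]

/-- Fourier-Motzkin with an infinitesimal. Additively: `Δ` = values of `k` (divisible),
`γ r + i r α + j r β > 0`. Every nonnegative integer combination of the inequalities that kills the
coefficients has positive constant term, so the system is solvable in the nontrivial divisible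
ordered group `Δ ×ₗ ℚ` (eliminate one unknown at a time). Scale the rational parts `(m₀, n₀)` by a
large multiple of `ℓ` and of the denominators, add `(0, 1)`, divide by the gcd. -/
theorem exists_near (O : ValuationSubring K) {x y : K} (hx : x ≠ 0) (hy : y ≠ 0) {R : Type*}
    [Fintype R] (c : R → k) (i j : R → ℤ) (hc : ∀ r, c r ≠ 0)
    (h : ∀ r, O.valuation (algebraMap k K (c r) * x ^ i r * y ^ j r) < 1) :
    ∃ (d₁ d₂ : k) (m n : ℤ), d₁ ≠ 0 ∧ d₂ ≠ 0 ∧ (ℓ : ℤ) ∣ m ∧ ¬ (ℓ : ℤ) ∣ n ∧ IsCoprime m n ∧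
      ∀ r, O.valuation (algebraMap k K (c r * d₁ ^ i r * d₂ ^ j r)) < 1 ∨
        (O.valuation (algebraMap k K (c r * d₁ ^ i r * d₂ ^ j r)) = 1 ∧ 0 < i r * m + j r * n) := by
  let w : Kˣ →* O.ValueGroupˣ := Units.map O.valuation.toMonoidWithZeroHom.toMonoidHom
  have hw : ∀ u : Kˣ, ((w u : O.ValueGroupˣ) : O.ValueGroup) = O.valuation u := fun _ => rfl
  let F : Additive Kˣ →+ Additive O.ValueGroupˣ := - MonoidHom.toAdditive w
  have hF : ∀ u : Kˣ, 0 < F (Additive.ofMul u) ↔ O.valuation u < 1 := fun u => by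
    show 0 < - Additive.ofMul (w u) ↔ _
    rw [neg_pos, ← hw, ← Units.val_one, Units.val_lt_val]
    rfl
  have hF0 : ∀ u : Kˣ, F (Additive.ofMul u) = 0 ↔ O.valuation u = 1 := fun u => by
    show - Additive.ofMul (w u) = 0 ↔ _
    rw [neg_eq_zero, ← hw, Units.val_eq_one]
    rfl
  let ι : kˣ →* Kˣ := Units.map (algebraMap k K).toMonoidHom
  let f : Additive kˣ →+ Additive O.ValueGroupˣ := F.comp (MonoidHom.toAdditive ι)
  obtain ⟨a, b, m₀, n₀, hab⟩ := near_fm3 (A := Additive kˣ) (fun n hn u => by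
      obtain ⟨z, hz⟩ := IsAlgClosed.exists_pow_nat_eq ((Additive.toMul u : kˣ) : k)
        (Int.natAbs_pos.2 hn)
      have hz0 : z ≠ 0 := by
        rintro rfl
        rw [zero_pow (Int.natAbs_pos.2 hn).ne'] at hz
        exact (Additive.toMul u).ne_zero hz.symm
      have e : n.natAbs • Additive.ofMul (Units.mk0 z hz0) = u := by
        rw [← ofMul_pow]
        exact congrArg Additive.ofMul (Units.ext hz)
      rcases Int.natAbs_eq n with h1 | h1
      · exact ⟨_, by rw [h1, natCast_zsmul, e]⟩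
      · exact ⟨- Additive.ofMul (Units.mk0 z hz0), by rw [h1, neg_smul_neg, natCast_zsmul, e]⟩)
    f (fun r => Additive.ofMul (Units.mk0 (c r) (hc r))) i j (F (Additive.ofMul (Units.mk0 x hx)))
    (F (Additive.ofMul (Units.mk0 y hy))) (fun r => by
      have e : f (Additive.ofMul (Units.mk0 (c r) (hc r))) +
          i r • F (Additive.ofMul (Units.mk0 x hx)) + j r • F (Additive.ofMul (Units.mk0 y hy)) =
          F (Additive.ofMul (ι (Units.mk0 (c r) (hc r)) * Units.mk0 x hx ^ i r *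
            Units.mk0 y hy ^ j r)) := by
        rw [ofMul_mul, ofMul_mul, ofMul_zpow, ofMul_zpow, map_add, map_add, map_zsmul, map_zsmul]
        rfl
      rw [e, hF]
      simpa [ι] using h r)
  obtain ⟨m, n, hm, hn, hmn, hR⟩ := near_int (ℓ := ℓ) i j m₀ n₀
  refine ⟨(Additive.toMul a : kˣ), (Additive.toMul b : kˣ), m, n, Units.ne_zero _, Units.ne_zero _,
    hm, hn, hmn, fun r => ?_⟩
  have e : f (Additive.ofMul (Units.mk0 (c r) (hc r)) + i r • a + j r • b) =
      F (Additive.ofMul (ι (Units.mk0 (c r) (hc r) * Additive.toMul a ^ i r *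
        Additive.toMul b ^ j r))) := rfl
  have e2 : ((ι (Units.mk0 (c r) (hc r) * Additive.toMul a ^ i r * Additive.toMul b ^ j r) : Kˣ) : K)
      = algebraMap k K (c r * ((Additive.toMul a : kˣ) : k) ^ i r *
        ((Additive.toMul b : kˣ) : k) ^ j r) := by
    simp [ι]
  have h2 := hab r
  rw [e, hF, hF0, e2] at h2
  exact h2.imp id fun h3 => ⟨h3.1, hR r h3.2⟩

variable (k) in
/-- monomials -/
def near_Mon (x y t : K) : Prop :=
  ∃ (c : k) (i j : ℤ), c ≠ 0 ∧ t = algebraMap k K c * x ^ i * y ^ j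

omit [IsAlgClosed k] in
theorem near_Mon.div {x y s t : K} (hx : x ≠ 0) (hy : y ≠ 0) (hs : near_Mon k x y s)
    (ht : near_Mon k x y t) : near_Mon k x y (s / t) := by
  obtain ⟨c, i, j, hc, rfl⟩ := hs
  obtain ⟨c', i', j', hc', rfl⟩ := ht
  refine ⟨c / c', i - i', j - j', div_ne_zero hc hc', ?_⟩
  rw [map_div₀, zpow_sub₀ hx, zpow_sub₀ hy, div_mul_div_comm, div_mul_div_comm]

omit [IsAlgClosed k] in
theorem near_Mon.ne_zero {x y t : K} (hx : x ≠ 0) (hy : y ≠ 0) (ht : near_Mon k x y t) : t ≠ 0 := by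
  obtain ⟨c, i, j, hc, rfl⟩ := ht
  exact mul_ne_zero (mul_ne_zero ((map_ne_zero _).2 hc) (zpow_ne_zero _ hx)) (zpow_ne_zero _ hy)

omit [IsAlgClosed k] in
theorem near_exp_zero {O : ValuationSubring K} {x y : K} (hxy : VInd k O ![x, y]) {c : k}
    (hc : c ≠ 0) {i j : ℤ} (h : O.valuation (algebraMap k K c * x ^ i * y ^ j) = 1) :
    i = 0 ∧ j = 0 := by
  have hc' : O.valuation (algebraMap k K c) ≠ 0 := by
    rw [Valuation.ne_zero_iff]; exact (map_ne_zero _).2 hc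
  have := hxy.2 ![i, j] c⁻¹ (by
    rw [Fin.prod_univ_two, map_inv₀, map_inv₀]
    rw [mul_assoc, map_mul] at h
    exact eq_inv_of_mul_eq_one_right h)
  exact ⟨congrFun this 0, congrFun this 1⟩

theorem near_mon (O : ValuationSubring K) {x y : K} (hx : x ≠ 0) (hy : y ≠ 0) (T : Finset K)
    (hT : ∀ t ∈ T, near_Mon k x y t ∧ O.valuation t < 1) :
    ∃ (d₁ d₂ : k) (m n a b : ℤ), d₁ ≠ 0 ∧ d₂ ≠ 0 ∧ (ℓ : ℤ) ∣ m ∧ ¬ (ℓ : ℤ) ∣ n ∧
      a * m + b * n = 1 ∧ ∀ O' : ValuationSubring K,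
        O'.comap (algebraMap k K) = O.comap (algebraMap k K) →
        RInd k O' ![(x / algebraMap k K d₁) ^ n * (y / algebraMap k K d₂) ^ (-m)] →
        Inf k O' ((x / algebraMap k K d₁) ^ a * (y / algebraMap k K d₂) ^ b) →
        ∀ t ∈ T, O'.valuation t < 1 := by
  choose c i j hc ht using fun t : T => (hT t.1 t.2).1
  obtain ⟨d₁, d₂, m, n, h₁, h₂, hm, hn, ⟨a, b, hab⟩, hR⟩ := exists_near (ℓ := ℓ) O hx hy c i j hc
    (fun t => ht t ▸ (hT t.1 t.2).2)
  refine ⟨d₁, d₂, m, n, a, b, h₁, h₂, hm, hn, hab, fun O' hO hz hπ t htT => ?_⟩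
  set X := x / algebraMap k K d₁ with hX
  set Y := y / algebraMap k K d₂ with hY
  have h₁' : algebraMap k K d₁ ≠ 0 := (map_ne_zero _).2 h₁
  have h₂' : algebraMap k K d₂ ≠ 0 := (map_ne_zero _).2 h₂
  have hX0 : X ≠ 0 := div_ne_zero hx h₁'
  have hY0 : Y ≠ 0 := div_ne_zero hy h₂'
  have hz1 : O'.valuation (X ^ n * Y ^ (-m)) = 1 := (res_ne_zero_iff O' _).1 (hz.2.ne_zero 0)
  set r : T := ⟨t, htT⟩
  have e1 : X ^ i r * Y ^ j r =
      (X ^ n * Y ^ (-m)) ^ (b * i r - a * j r) * (X ^ a * Y ^ b) ^ (i r * m + j r * n) := by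
    rw [mul_zpow, mul_zpow, ← zpow_mul, ← zpow_mul, ← zpow_mul, ← zpow_mul, mul_mul_mul_comm,
      ← zpow_add₀ hX0, ← zpow_add₀ hY0]
    congr 2
    · linear_combination (-i r) * hab
    · linear_combination (-j r) * hab
  have e2 : t = algebraMap k K (c r * d₁ ^ i r * d₂ ^ j r) * (X ^ i r * Y ^ j r) := by
    have := ht r
    rw [hX, hY, div_zpow, div_zpow, map_mul, map_mul, map_zpow₀, map_zpow₀]
    have h3 := zpow_ne_zero (i r) h₁'
    have h4 := zpow_ne_zero (j r) h₂'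
    field_simp
    rw [show t = (r : K) from rfl, this]
  have e3 : O'.valuation t = O'.valuation (algebraMap k K (c r * d₁ ^ i r * d₂ ^ j r)) *
      O'.valuation (X ^ a * Y ^ b) ^ (i r * m + j r * n) := by
    rw [e2, Valuation.map_mul, e1, Valuation.map_mul, map_zpow₀ O'.valuation,
      map_zpow₀ O'.valuation, hz1, one_zpow, one_mul]
  have hπ0 : 0 < O'.valuation (X ^ a * Y ^ b) := by
    rw [zero_lt_iff, Valuation.ne_zero_iff]; exact hπ.1
  rw [e3]
  rcases hR r with h | ⟨h, h'⟩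
  · rw [← comap_val_lt_one, ← hO, comap_val_lt_one] at h
    obtain ⟨N, hN | hN⟩ := Int.eq_nat_or_neg (i r * m + j r * n)
    · rw [hN, zpow_natCast]
      exact mul_lt_one_of_nonneg_of_lt_one_left zero_le h (pow_le_one₀ zero_le hπ.2.1.le)
    · rw [hN, zpow_neg, zpow_natCast, mul_inv_lt_iff₀ (pow_pos hπ0 N), one_mul]
      exact hπ.2.2 _ h N
  · rw [← comap_val_eq_one, ← hO, comap_val_eq_one] at h
    rw [h, one_mul]
    exact zpow_lt_one₀ hπ0 hπ.2.1 h'

omit [IsAlgClosed k] in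
/-- dominant monomial of a polynomial -/
theorem near_poly {O : ValuationSubring K} {x y : K} (hxy : VInd k O ![x, y])
    (P : MvPolynomial (Fin 2) k) (hP : P ≠ 0) :
    ∃ (T : Finset K) (t₀ : K), (∀ t ∈ T, near_Mon k x y t ∧ O.valuation t < 1) ∧
      near_Mon k x y t₀ ∧ ∀ O' : ValuationSubring K, (∀ t ∈ T, O'.valuation t < 1) →
        O'.valuation (MvPolynomial.aeval ![x, y] P) = O'.valuation t₀ := by
  classical
  have hx : x ≠ 0 := hxy.1 0
  have hy : y ≠ 0 := hxy.1 1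
  let τ : (Fin 2 →₀ ℕ) → K := fun μ =>
    algebraMap k K (P.coeff μ) * x ^ (μ 0 : ℤ) * y ^ (μ 1 : ℤ)
  have hτ : ∀ μ ∈ P.support, near_Mon k x y (τ μ) := fun μ hμ =>
    ⟨_, _, _, MvPolynomial.mem_support_iff.1 hμ, rfl⟩
  have hsum : MvPolynomial.aeval ![x, y] P = ∑ μ ∈ P.support, τ μ := by
    rw [MvPolynomial.aeval_def, MvPolynomial.eval₂_eq']
    refine Finset.sum_congr rfl fun μ _ => ?_
    simp [τ, Fin.prod_univ_two, mul_assoc]
  obtain ⟨μ, hμ, hmax⟩ := P.support.exists_max_image (fun μ => O.valuation (τ μ))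
    (MvPolynomial.support_nonempty.2 hP)
  have hpos : ∀ O' : ValuationSubring K, 0 < O'.valuation (τ μ) := fun O' => by
    rw [zero_lt_iff, Valuation.ne_zero_iff]; exact (hτ μ hμ).ne_zero hx hy
  refine ⟨(P.support \ {μ}).image fun ν => τ ν / τ μ, τ μ, fun t ht => ?_, hτ μ hμ,
    fun O' hO' => ?_⟩
  · obtain ⟨ν, hν, rfl⟩ := Finset.mem_image.1 ht
    obtain ⟨hν1, hν2⟩ := Finset.mem_sdiff.1 hν
    refine ⟨(hτ ν hν1).div hx hy (hτ μ hμ), lt_of_le_of_ne ?_ fun h => hν2 ?_⟩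
    · rw [map_div₀, div_le_one₀ (hpos O)]
      exact hmax ν hν1
    · have e : τ ν / τ μ = algebraMap k K (P.coeff ν / P.coeff μ) * x ^ ((ν 0 : ℤ) - μ 0) *
          y ^ ((ν 1 : ℤ) - μ 1) := by
        rw [map_div₀, zpow_sub₀ hx, zpow_sub₀ hy, div_mul_div_comm, div_mul_div_comm]
      rw [e] at h
      obtain ⟨h0, h1⟩ := near_exp_zero hxy (div_ne_zero (MvPolynomial.mem_support_iff.1 hν1)
        (MvPolynomial.mem_support_iff.1 hμ)) h
      rw [Finset.mem_singleton]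
      ext s
      fin_cases s
      · exact_mod_cast sub_eq_zero.1 h0
      · exact_mod_cast sub_eq_zero.1 h1
  · rw [hsum]
    refine Valuation.map_sum_eq_of_lt _ hμ fun ν hν => ?_
    have := hO' _ (Finset.mem_image_of_mem (fun ν => τ ν / τ μ) hν)
    rwa [map_div₀, div_lt_one₀ (hpos O')] at this

omit [IsAlgClosed k] in
theorem near_elt {O : ValuationSubring K} {x y : K} (hxy : VInd k O ![x, y]) {φ : K}
    (hφ : φ ∈ pc k {x, y}) :
    ∃ T : Finset K, (∀ t ∈ T, near_Mon k x y t ∧ O.valuation t < 1) ∧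
      ∀ O' : ValuationSubring K, O'.comap (algebraMap k K) = O.comap (algebraMap k K) →
        (∀ t ∈ T, O'.valuation t < 1) → (O.valuation φ < 1 → O'.valuation φ < 1) ∧
          (O.valuation φ = 1 → O'.valuation φ = 1) := by
  classical
  have hx : x ≠ 0 := hxy.1 0
  have hy : y ≠ 0 := hxy.1 1
  rcases eq_or_ne φ 0 with rfl | h0
  · exact ⟨∅, by simp, fun O' _ _ => by simp⟩
  obtain ⟨e, he⟩ := mem_pc.1 hφ
  have hq : ringExpChar K ^ e ≠ 0 := pow_ne_zero _ (expChar_ne_zero K _)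
  have hr : ({x, y} : Set K) = Set.range ![x, y] := by simp [Set.pair_comm]
  rw [hr, IntermediateField.mem_adjoin_range_iff] at he
  obtain ⟨A, B, hAB⟩ := he
  have hA : A ≠ 0 := by
    rintro rfl
    rw [map_zero, zero_div] at hAB
    exact pow_ne_zero _ h0 hAB
  have hB : B ≠ 0 := by
    rintro rfl
    rw [map_zero, div_zero] at hAB
    exact pow_ne_zero _ h0 hAB
  obtain ⟨TA, a, hTA, ha, hA'⟩ := near_poly hxy A hA
  obtain ⟨TB, b, hTB, hb, hB'⟩ := near_poly hxy B hB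
  have key : ∀ O' : ValuationSubring K, (∀ t ∈ TA, O'.valuation t < 1) →
      (∀ t ∈ TB, O'.valuation t < 1) →
      O'.valuation φ ^ ringExpChar K ^ e = O'.valuation (a / b) := fun O' h1 h2 => by
    rw [← map_pow, hAB, map_div₀, map_div₀, hA' O' h1, hB' O' h2]
  have kO := key O (fun t ht => (hTA t ht).2) (fun t ht => (hTB t ht).2)
  refine ⟨TA ∪ TB ∪ ({a / b} : Finset K).filter fun t => O.valuation t < 1, fun t ht => ?_,
    fun O' hO h => ?_⟩
  · simp only [Finset.mem_union, Finset.mem_filter, Finset.mem_singleton] at ht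
    rcases ht with (ht | ht) | ⟨rfl, ht⟩
    · exact hTA t ht
    · exact hTB t ht
    · exact ⟨ha.div hx hy hb, ht⟩
  have kO' := key O' (fun t ht => h t (by simp [ht])) (fun t ht => h t (by simp [ht]))
  constructor
  · intro h1
    have h2 : O.valuation (a / b) < 1 := kO ▸ pow_lt_one₀ zero_le h1 hq
    have h3 := h (a / b) (by
      simp only [Finset.mem_union, Finset.mem_filter, Finset.mem_singleton]
      exact Or.inr ⟨trivial, h2⟩)
    rw [← kO'] at h3
    exact (pow_lt_one_iff_of_nonneg zero_le hq).1 h3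
  · intro h1
    have h2 : O.valuation (a / b) = 1 := by rw [← kO, h1, one_pow]
    obtain ⟨c, i, j, hc, hcij⟩ := ha.div hx hy hb
    rw [hcij] at h2
    obtain ⟨rfl, rfl⟩ := near_exp_zero hxy hc h2
    rw [zpow_zero, zpow_zero, mul_one, mul_one] at h2 hcij
    rw [← comap_val_eq_one, ← hO, comap_val_eq_one] at h2
    rw [hcij, h2] at kO'
    exact (pow_eq_one_iff_of_nonneg zero_le hq).1 kO'

/-- Write `φ ^ q ^ n = A(x,y)/B(x,y)`. Feed `exists_near` with: (other monomial)/(dominant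
monomial) for every `A`, `B`, and (dominant of `A`)/(dominant of `B`) when its value is `< 1`.
With `z`, `π` the two displayed monomials, `x = d₁ z ^ b π ^ m`, `y = d₂ z ^ (-a) π ^ n`, so the
same monomials dominate for `O'`. -/
theorem near_transfer (O : ValuationSubring K) {x y : K} (hxy : VInd k O ![x, y]) (Φ : Finset K)
    (hΦ : ∀ φ ∈ Φ, φ ∈ pc k {x, y}) :
    ∃ (d₁ d₂ : k) (m n a b : ℤ), d₁ ≠ 0 ∧ d₂ ≠ 0 ∧ (ℓ : ℤ) ∣ m ∧ ¬ (ℓ : ℤ) ∣ n ∧
      a * m + b * n = 1 ∧ ∀ O' : ValuationSubring K,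
        O'.comap (algebraMap k K) = O.comap (algebraMap k K) →
        RInd k O' ![(x / algebraMap k K d₁) ^ n * (y / algebraMap k K d₂) ^ (-m)] →
        Inf k O' ((x / algebraMap k K d₁) ^ a * (y / algebraMap k K d₂) ^ b) →
        ∀ φ ∈ Φ, (O.valuation φ ≤ 1 → O'.valuation φ ≤ 1) ∧
          (O.valuation φ < 1 → O'.valuation φ < 1) ∧ (O.valuation φ = 1 → O'.valuation φ = 1) := by
  classical
  choose T hT hT' using fun φ : Φ => near_elt hxy (hΦ φ.1 φ.2)
  obtain ⟨d₁, d₂, m, n, a, b, h₁, h₂, hm, hn, hab, h⟩ := near_mon (ℓ := ℓ) (k := k) O (hxy.1 0)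
    (hxy.1 1) (Finset.univ.biUnion T) (fun t ht => by
      obtain ⟨φ, -, hφ⟩ := Finset.mem_biUnion.1 ht
      exact hT φ t hφ)
  refine ⟨d₁, d₂, m, n, a, b, h₁, h₂, hm, hn, hab, fun O' hO hz hπ φ hφ => ?_⟩
  obtain ⟨h3, h4⟩ := hT' ⟨φ, hφ⟩ O' hO fun t ht =>
    h O' hO hz hπ t (Finset.mem_biUnion.2 ⟨_, Finset.mem_univ _, ht⟩)
  exact ⟨fun h5 => h5.lt_or_eq.elim (fun h6 => (h3 h6).le) fun h6 => (h4 h6).le, h3, h4⟩

end Vale.Agent.P019
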