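import Vale.Agent.P019.TGeo
import Vale.Agent.P019.Gal2
import Vale.Agent.P019.FieldE

open scoped IntermediateField

namespace Vale.Agent.P019

variable {ℓ : ℕ} [Fact ℓ.Prime] {κ G κ' G' : Type*} [Field κ] [Field G] [Algebra κ G]
  [IsAlgClosed κ] [Field κ'] [Field G'] [Algebra κ' G'] [IsAlgClosed κ']

/-- inertia elements of valuations with `ℓ` a unit are sent to inertia elements -/
def Transfers (Θ : V ℓ G ≃ₗ[ZMod ℓ] V ℓ G') : Prop :=
  ∀ u : ValuationSubring G, u.valuation (ℓ : G) = 1 → ∀ μ ∈ II ℓ u,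
    ∃ u' : ValuationSubring G', μ ∘ₗ Θ.symm.toLinearMap ∈ II ℓ u'

theorem pair_inf_map {F : Type*} [Field F] [Algebra κ F] (φ : F →ₐ[κ] G) {O : ValuationSubring G}
    {π : F} (h : Inf κ (O.comap φ.toRingHom) π) : Inf κ O (φ π) := by
  refine ⟨(map_ne_zero φ).2 h.1, (comap_val_lt_one _ O π).1 h.2.1, fun c hc n => ?_⟩
  have e : φ.toRingHom (algebraMap κ F c) = algebraMap κ G c := φ.commutes c
  have h1 := h.2.2 c (by rwa [comap_val_lt_one, e]) n
  rwa [← map_pow, comap_val_lt, e, map_pow, map_pow] at h1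

theorem pair_not_mem {O : ValuationSubring G} {π : G} (hπ : Inf κ O π)
    (hval : ∀ z : G, z ≠ 0 → ∃ (N : ℕ) (e : G), ¬ ℓ ∣ N ∧ e ∈ κ⟮π⟯ ∧
      O.valuation (z ^ N) = O.valuation e) : cl ℓ π ∉ U ℓ O := by
  intro hU
  obtain ⟨w, hw, ew⟩ := (cl_mem_U_iff hπ.1).1 hU
  obtain ⟨N, e, hN, he, e3⟩ := hval w hw
  have he0 : e ≠ 0 := by
    rintro rfl
    rw [map_zero, map_eq_zero] at e3
    exact pow_ne_zero _ hw e3
  have hE : RInd κ O (Fin.elim0 : Fin 0 → G) :=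
    ⟨fun i => i.elim0, algebraicIndependent_empty_type⟩
  obtain ⟨c, s, -, e4⟩ := val_adjoin hE hπ.vind (z := e) (by
    rwa [Set.range_eq_empty, Set.empty_union, Set.range_const]) he0
  have hπ0 : O.valuation π ≠ 0 := (map_ne_zero _).2 hπ.1
  rw [Finset.univ_unique, Finset.prod_singleton, map_mul, map_zpow₀, ← e3, map_pow] at e4
  have h4 := hπ.vind.2 (fun _ => (N : ℤ) - s default * (ℓ : ℤ)) (c ^ ℓ) (by
    rw [Finset.univ_unique, Finset.prod_singleton, map_zpow₀, zpow_sub₀ hπ0, zpow_natCast,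
      zpow_mul, zpow_natCast, map_pow, map_pow,
      div_eq_iff (pow_ne_zero _ (zpow_ne_zero _ hπ0)), ← mul_pow, ← e4, ← pow_mul,
      mul_comm _ ℓ, pow_mul (O.valuation w), ← ew])
  exact hN (Int.natCast_dvd_natCast.1 (Dvd.intro_left _ (sub_eq_zero.1 (congrFun h4 ())).symm))

/-- `t` from `exists_sdeg_not_dvd`, `u₀` from `exists_val_of_not_FT`, `c ≠ 0` a nonunit. In
`κ(t)` take `exists_GV u₀` with `π = t / c ^ j` (no `y`), extend by `exists_ext_prime_to`. Then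
`[t] ∉ U`, and `μ j [t - c ^ m]` is `μ j [t]` for `m > j` and `0` for `m ≤ j`. -/
theorem exists_many_inertia (h : PFC κ G) (hl : (ℓ : κ) ≠ 0) (hF : ¬ FT κ) :
    ∃ (z : V ℓ G) (μ : ℕ → DV ℓ G) (u : ℕ → ValuationSubring G),
      (∀ j, (u j).valuation (ℓ : G) = 1 ∧ μ j ∈ II ℓ (u j) ∧ μ j z ≠ 0) ∧
      ∀ i j, LinearMap.ker (μ i) = LinearMap.ker (μ j) → i = j := by
  obtain ⟨t, ht, hd⟩ := exists_sdeg_not_dvd h (ℓ := ℓ)
  obtain ⟨u₀, hu, hul⟩ := exists_val_of_not_FT hF hl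
  obtain ⟨c, hc0, hc⟩ := gv_exists_lt hu
  have hcG : algebraMap κ G c ≠ 0 := (map_ne_zero _).2 hc0
  have key : ∀ j : ℕ, ∃ (O : ValuationSubring G) (μ : DV ℓ G), O.valuation (ℓ : G) = 1 ∧
      μ ∈ II ℓ O ∧ μ (cl ℓ t) ≠ 0 ∧ μ (cl ℓ (t - algebraMap κ G (c ^ j))) = 0 ∧
      ∀ m, j < m → μ (cl ℓ (t - algebraMap κ G (c ^ m))) = μ (cl ℓ t) := by
    intro j
    let π : κ⟮t⟯ := IntermediateField.AdjoinSimple.gen κ t / algebraMap κ κ⟮t⟯ (c ^ j)
    have hcj : algebraMap κ G (c ^ j) ≠ 0 := (map_ne_zero _).2 (pow_ne_zero _ hc0)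
    have et : t = algebraMap κ G (c ^ j) * (π : G) := (mul_div_cancel₀ t hcj).symm
    have hπ : Transcendental κ π := transcendental_iff.2 fun ⟨d, hd⟩ =>
      transcendental_iff.1 ht ⟨c ^ j * d, by
        rw [map_mul]
        exact (congrArg (fun w : κ⟮t⟯ => algebraMap κ G (c ^ j) * (w : G)) hd).trans et.symm⟩
    obtain ⟨w, hw, -, hI⟩ := exists_GV u₀ (π := π) (y := Fin.elim0)
      (algebraicIndependent_iff_transcendental.2 hπ)
    obtain ⟨O, rfl, hO⟩ := exists_ext_prime_to h hl ht hd w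
    have hI' : Inf κ O (π : G) := pair_inf_map κ⟮t⟯.val hI
    generalize (π : G) = p at hI' et
    rw [ValuationSubring.comap_comap, ← IsScalarTower.algebraMap_eq] at hw
    subst hw
    rw [comap_val_lt_one] at hc
    have hU := pair_not_mem (ℓ := ℓ) hI' fun z hz => by
      obtain ⟨N, e, a1, a2⟩ := hO z hz
      refine ⟨N, e, a1, IntermediateField.adjoin_simple_le_iff.2 ?_ e.2, a2⟩
      rw [et]
      exact mul_mem (IntermediateField.algebraMap_mem _ _)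
        (IntermediateField.mem_adjoin_simple_self κ _)
    rw [mem_U_iff_II] at hU
    push Not at hU
    obtain ⟨μ, hμ, h0⟩ := hU
    have hpos : 0 < O.valuation (algebraMap κ G (c ^ j)) := zero_lt_iff.2 ((map_ne_zero _).2 hcj)
    refine ⟨O, μ, by rwa [comap_val_eq_one, map_natCast] at hul, hμ, ?_, ?_, fun m hm => ?_⟩
    · rwa [et, cl_const_mul (pow_ne_zero _ hc0)]
    · have h1 : O.valuation t < O.valuation (algebraMap κ G (c ^ j)) := by
        rw [et, map_mul]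
        exact mul_lt_of_lt_one_right hpos hI'.2.1
      rw [II_apply_eq hμ (O.valuation.map_sub_eq_of_lt_right h1), cl_const, map_zero]
    · obtain ⟨n, rfl⟩ := Nat.exists_eq_add_of_lt hm
      have h1 : O.valuation (algebraMap κ G (c ^ (j + n + 1))) < O.valuation t := by
        have h2 := hI'.2.2 (c ^ (n + 1)) (by
          rw [map_pow, map_pow]
          exact pow_lt_one₀ zero_le hc n.succ_ne_zero) 1
        rw [pow_one] at h2
        rw [et, add_assoc, pow_add, map_mul, map_mul, map_mul]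
        exact mul_lt_mul_of_pos_left h2 hpos
      exact II_apply_eq hμ (O.valuation.map_sub_eq_of_lt_left h1)
  choose O μ h1 h2 h3 h4 h5 using key
  have hne : ∀ i j, i < j → LinearMap.ker (μ i) ≠ LinearMap.ker (μ j) := fun i j hij e => by
    have h6 := LinearMap.mem_ker.2 (h4 j)
    rw [← e, LinearMap.mem_ker, h5 i j hij] at h6
    exact h3 i h6
  refine ⟨cl ℓ t, μ, O, fun j => ⟨h1 j, h2 j, h3 j⟩, fun i j e => ?_⟩
  rcases lt_trichotomy i j with h6 | h6 | h6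
  · exact absurd e (hne i j h6)
  · exact h6
  · exact absurd e.symm (hne j i h6)

theorem pair_pt (h' : PFC κ' G') (hF : FT κ') {Θ : V ℓ G ≃ₗ[ZMod ℓ] V ℓ G'} (hT : Transfers Θ)
    {u : ValuationSubring G} (hu : u.valuation (ℓ : G) = 1) {μ : DV ℓ G} (hμ : μ ∈ II ℓ u)
    (h0 : μ ≠ 0) : ∃ Q : Pt κ' G', (LinearMap.ker μ).map Θ.toLinearMap = U ℓ Q.1 := by
  obtain ⟨u', h1⟩ := hT u hu μ hμ
  have h2 : μ ∘ₗ Θ.symm.toLinearMap ≠ 0 := fun h3 => h0 (by
    ext v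
    simpa using LinearMap.congr_fun h3 (Θ v))
  have h3 : u' ≠ ⊤ := by
    rintro rfl
    rw [II_top] at h1
    exact h2 h1
  refine ⟨⟨u', h3, hF.mem u'⟩, ?_⟩
  rw [Pt.U_eq_ker h'.2 ⟨u', h3, hF.mem u'⟩ h1 h2, LinearMap.ker_comp,
    Submodule.map_equiv_eq_comap_symm]

theorem FT_of_transfers (h : PFC κ G) (hl : (ℓ : κ) ≠ 0) (h' : PFC κ' G') (hF : FT κ')
    {Θ : V ℓ G ≃ₗ[ZMod ℓ] V ℓ G'} (hT : Transfers Θ) : FT κ := by
  by_contra hn
  obtain ⟨z, μ, u, h1, h2⟩ := exists_many_inertia h hl hn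
  choose Q hQ using fun j => pair_pt h' hF hT (h1 j).1 (h1 j).2.1
    fun h0 => (h1 j).2.2 (by rw [h0, LinearMap.zero_apply])
  refine Set.infinite_of_injective_forall_mem (f := Q) (fun i j e => h2 i j ?_)
    (fun j => ?_) (h'.finite_supp (Θ z))
  · apply Submodule.map_injective_of_injective (f := Θ.toLinearMap) Θ.injective
    rw [hQ, hQ, e]
  · show Θ z ∉ U ℓ (Q j).1
    rw [← hQ]
    rintro ⟨w, hw, e⟩
    rw [Θ.injective e] at hw
    exact (h1 j).2.2 hw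

theorem exists_pt_of_transfers (h : PFC κ G) (hl : (ℓ : κ) ≠ 0) (h' : PFC κ' G') (hF : FT κ')
    {Θ : V ℓ G ≃ₗ[ZMod ℓ] V ℓ G'} (hT : Transfers Θ) (P : Pt κ G) :
    ∃ Q : Pt κ' G', (U ℓ P.1).map Θ.toLinearMap = U ℓ Q.1 := by
  obtain ⟨σ, hσ, h0⟩ := (Submodule.ne_bot_iff _).1 (P.II_ne_bot (ℓ := ℓ) h hl)
  rw [P.U_eq_ker h.2 hσ h0]
  refine pair_pt h' hF hT ?_ hσ h0
  rw [← map_natCast (algebraMap κ G)]
  exact val_const_eq_one P.2.2 hl

/-- `Θ` maps `Vnr` onto `Vnr` and supports inject into supports. Use `genusLE_of_small`,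
`GenusLE.finrank_Vnr`, `genusLE_of_Vnr`, `ncard_supp_le`, `sdeg_le_of_five`. -/
theorem sdeg_le_of_pair (h : PFC κ G) (hl : (ℓ : κ) ≠ 0) (h' : PFC κ' G') (hl' : (ℓ : κ') ≠ 0)
    (hF : FT κ') {Θ : V ℓ G ≃ₗ[ZMod ℓ] V ℓ G'} (hT : Transfers Θ) (hT' : Transfers Θ.symm)
    {y z : G'} (hy : Transcendental κ' y) (htop : pc κ' {y, z} = ⊤) {D : ℕ}
    (hz : Small κ' (fun _ : Unit => y) D z) {x : G} (hx : Transcendental κ x) (a : Fin 5 → κ)
    (ha : Function.Injective a) (u : Fin 5 → G') (hu : ∀ j, Small κ' (fun _ : Unit => y) D (u j))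
    (hΘ : ∀ j, Θ (cl ℓ (x - algebraMap κ G (a j))) = cl ℓ (u j)) :
    sdeg κ x ≤ 8 * (D ^ 4 + 1) + 20 * D ^ 2 := by
  have hF' := FT_of_transfers h hl h' hF hT
  choose Q hQ using exists_pt_of_transfers h hl h' hF hT
  choose P hP using exists_pt_of_transfers h' hl' h hF' hT'
  have hQ' : ∀ (p : Pt κ G) (w : V ℓ G), Θ w ∈ U ℓ (Q p).1 ↔ w ∈ U ℓ p.1 := fun p w => by
    rw [← hQ, Submodule.mem_map_equiv, LinearEquiv.symm_apply_apply]
  have hP' : ∀ (q : Pt κ' G') (w : V ℓ G), Θ w ∈ U ℓ q.1 ↔ w ∈ U ℓ (P q).1 := fun q w => by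
    rw [← hP, Submodule.mem_map_equiv, LinearEquiv.symm_symm]
  have hV : (Vnr κ G ℓ).map Θ.toLinearMap = Vnr κ' G' ℓ := by
    ext w
    obtain ⟨w, rfl⟩ := Θ.surjective w
    rw [Submodule.mem_map_equiv, LinearEquiv.symm_apply_apply]
    unfold Vnr
    rw [Submodule.mem_iInf, Submodule.mem_iInf]
    exact ⟨fun h1 q => (hP' q w).2 (h1 _), fun h1 p => (hQ' p w).1 (h1 _)⟩
  have h1 := (genusLE_of_small hy htop hz).finrank_Vnr hF hl'
  rw [← hV, LinearEquiv.finrank_map_eq] at h1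
  have h2 := sdeg_le_of_five h hl (genusLE_of_Vnr h hF' hl) hx a ha (n := 2 * (D * D)) fun j => by
    have h3 := ncard_supp_le h' hy htop hz (hu j) (1 : ZMod ℓ)
    rw [one_smul] at h3
    refine (Set.ncard_le_ncard_of_injOn Q (fun p hp => ?_) (fun p _ p' _ e => ?_)
      (h'.finite_supp _)).trans h3
    · show cl ℓ (u j) ∉ U ℓ (Q p).1
      rw [← hΘ, hQ']
      exact hp
    · refine Subtype.ext ((p.isPrime h.2).U_inj h.1 hl (p'.isPrime h.2) ?_)
      ext w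
      rw [← hQ', ← hQ', e]
  rw [pow_two]
  omega

end Vale.Agent.P019
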