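import Vale.Agent.P019.FieldB

open scoped IntermediateField
open Polynomial

namespace Vale.Agent.P019

noncomputable section

variable {κ G : Type*} [Field κ] [Field G] [Algebra κ G] {ι : Type*}

variable (κ) in
/-- evaluation at `y`, with values in `κ(y)` -/
def polyrelaHom (y : ι → G) : MvPolynomial ι κ →+* IntermediateField.adjoin κ (Set.range y) :=
  (MvPolynomial.aeval (R := κ) fun i => (⟨y i, IntermediateField.subset_adjoin κ _ ⟨i, rfl⟩⟩ :
    IntermediateField.adjoin κ (Set.range y))).toRingHom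

theorem polyrela_comp (y : ι → G) :
    (algebraMap (IntermediateField.adjoin κ (Set.range y)) G).comp (polyrelaHom κ y) =
      (MvPolynomial.aeval y : MvPolynomial ι κ →ₐ[κ] G).toRingHom := by
  ext c
  · simp [polyrelaHom]
  · simp [polyrelaHom]

theorem polyrela_coe (y : ι → G) (P : MvPolynomial ι κ) :
    (polyrelaHom κ y P : G) = MvPolynomial.aeval y P :=
  RingHom.congr_fun (polyrela_comp y) P

theorem polyrela_inj {y : ι → G} (hy : AlgebraicIndependent κ y) :
    Function.Injective (polyrelaHom κ y) := fun P Q h =>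
  hy (by rw [← polyrela_coe, ← polyrela_coe, h])

theorem polyrela_gauss {y : ι → G} (hy : AlgebraicIndependent κ y) {p : (MvPolynomial ι κ)[X]}
    (hp : p.IsPrimitive) : (Irreducible p → Irreducible (p.map (polyrelaHom κ y))) ∧
      ∀ q, p.map (polyrelaHom κ y) ∣ q.map (polyrelaHom κ y) → p ∣ q := by
  let := (polyrelaHom κ y).toAlgebra
  have : FaithfulSMul (MvPolynomial ι κ) (IntermediateField.adjoin κ (Set.range y)) :=
    (faithfulSMul_iff_algebraMap_injective _ _).2 (polyrela_inj hy)
  have : IsFractionRing (MvPolynomial ι κ) (IntermediateField.adjoin κ (Set.range y)) :=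
    IsFractionRing.of_field _ _ fun z => by
      obtain ⟨r, s, h⟩ := (IntermediateField.mem_adjoin_range_iff κ y z.1).1 z.2
      refine ⟨r, s, Subtype.ext ?_⟩
      rw [h, ← polyrela_coe, ← polyrela_coe]
      rfl
  exact ⟨hp.irreducible_iff_irreducible_map_fraction_map.1,
    fun q => hp.dvd_of_fraction_map_dvd_fraction_map⟩

theorem polyrela_aeval (y : ι → G) (g : G) (P : MvPolynomial (Option ι) κ) :
    aeval g ((MvPolynomial.optionEquivLeft κ ι P).map (polyrelaHom κ y)) =
      MvPolynomial.aeval (fun o : Option ι => o.elim g y) P := by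
  rw [aeval_def, eval₂_map, polyrela_comp, fieldb_key]

theorem polyrela_min {y : ι → G} (hy : AlgebraicIndependent κ y) {g : G}
    {R : MvPolynomial (Option ι) κ} (hR : Irreducible R)
    (h : MvPolynomial.aeval (fun o : Option ι => o.elim g y) R = 0) :
    (MvPolynomial.optionEquivLeft κ ι R).IsPrimitive ∧
      ∃ c, c ≠ 0 ∧ (MvPolynomial.optionEquivLeft κ ι R).map (polyrelaHom κ y) =
        minpoly (IntermediateField.adjoin κ (Set.range y)) g * C c := by
  have h1 : Irreducible (MvPolynomial.optionEquivLeft κ ι R) := hR.map _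
  have h2 : (MvPolynomial.optionEquivLeft κ ι R).IsPrimitive := h1.isPrimitive fun h0 => by
    rw [← polyrela_aeval, eq_C_of_natDegree_eq_zero h0, map_C, aeval_C, map_eq_zero,
      map_eq_zero_iff _ (polyrela_inj hy)] at h
    exact h1.ne_zero (by rw [eq_C_of_natDegree_eq_zero h0, h, C_0])
  have h3 := (polyrela_gauss hy h2).1 h1
  have h4 := leadingCoeff_ne_zero.2 h3.ne_zero
  refine ⟨h2, _, h4, ?_⟩
  rw [← minpoly.eq_of_irreducible h3 (by rw [polyrela_aeval, h]), mul_assoc, ← C_mul,
    inv_mul_cancel₀ h4, C_1, mul_one]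

theorem polyrela_irred {y : ι → G} {g : G} (P : MvPolynomial (Option ι) κ) :
    P ≠ 0 → MvPolynomial.aeval (fun o : Option ι => o.elim g y) P = 0 →
      ∃ R : MvPolynomial (Option ι) κ, Irreducible R ∧
        MvPolynomial.aeval (fun o : Option ι => o.elim g y) R = 0 := by
  induction P using WfDvdMonoid.induction_on_irreducible with
  | zero => exact fun h => absurd rfl h
  | unit u hu => exact fun _ h => absurd h (hu.map _).ne_zero
  | mul a i ha hi ih =>
    intro _ h
    rw [map_mul, mul_eq_zero] at h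
    exact h.elim (fun h => ⟨i, hi, h⟩) (ih ha)

theorem polyrela_prim {R : Type*} [CommRing R] [IsDomain R] [UniqueFactorizationMonoid R] (q : ℕ)
    [ExpChar R q] (n : ℕ) {p : R[X]} (hp : p.IsPrimitive) :
    (p.map (iterateFrobenius R q n)).IsPrimitive := by
  intro r hr
  by_contra hu
  have h0 : r ≠ 0 := by
    rintro rfl
    rw [C_0, zero_dvd_iff, Polynomial.map_eq_zero_iff (iterateFrobenius_inj R q n)] at hr
    exact hp.ne_zero hr
  obtain ⟨π, hπ, hd⟩ := WfDvdMonoid.exists_irreducible_factor hu h0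
  refine hπ.not_isUnit (hp π ((C_dvd_iff_dvd_coeff _ _).2 fun i => ?_))
  have h1 := (C_dvd_iff_dvd_coeff _ _).1 hr i
  rw [coeff_map, iterateFrobenius_def] at h1
  exact hπ.prime.dvd_of_dvd_pow (hd.trans h1)

theorem polyrela_alg {y : ι → G} {g : G} {R : MvPolynomial (Option ι) κ} (hR : R ≠ 0)
    (h : MvPolynomial.aeval (fun o : Option ι => o.elim g y) R = 0)
    (hc : MvPolynomial.optionEquivLeft κ ι R ∈ lifts (MvPolynomial.C : κ →+* MvPolynomial ι κ)) :
    IsAlgebraic κ g := by
  obtain ⟨S, hS⟩ := (mem_lifts _).1 hc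
  refine ⟨S, fun h0 => hR ?_, ?_⟩
  · rw [h0, Polynomial.map_zero] at hS
    exact (map_eq_zero_iff _ (MvPolynomial.optionEquivLeft κ ι).injective).1 hS.symm
  · rw [fieldb_key, ← hS, eval₂_map] at h
    rw [aeval_def, ← h]
    congr 1
    ext c
    simp

theorem polyrela_deg (P : MvPolynomial ι κ) (n : ℕ) (h : P.totalDegree ≠ 0) :
    n ≤ (P ^ n).totalDegree := by
  have h0 : P ≠ 0 := by
    rintro rfl
    exact h MvPolynomial.totalDegree_zero
  induction n with
  | zero => exact Nat.zero_le _
  | succ n ih =>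
    rw [pow_succ, MvPolynomial.totalDegree_mul_of_isDomain (pow_ne_zero _ h0) h0]
    omega

theorem polyrela_lifts {S : Type*} [CommRing S] (f : S →+* MvPolynomial ι κ)
    {R : MvPolynomial (Option ι) κ}
    (h : ∀ m ∈ R.support, MvPolynomial.monomial m.some (R.coeff m) ∈ Set.range f) :
    MvPolynomial.optionEquivLeft κ ι R ∈ lifts f := by
  rw [R.as_sum, map_sum]
  refine sum_mem fun m hm => ?_
  rw [MvPolynomial.optionEquivLeft_monomial]
  exact monomial_mem_lifts _ (h m hm)

theorem polyrela_cast {σ : Type*} {R : MvPolynomial σ κ} {i : σ}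
    (h : MvPolynomial.pderiv i R = 0) {m : σ →₀ ℕ} (hm : m ∈ R.support) : (m i : κ) = 0 := by
  rcases Nat.eq_zero_or_pos (m i) with h0 | h0
  · rw [h0, Nat.cast_zero]
  · have h1 : m - Finsupp.single i 1 + Finsupp.single i 1 = m :=
      tsub_add_cancel_of_le (Finsupp.single_le_iff.2 h0)
    have h2 := MvPolynomial.coeff_pderiv (i := i) R (m - Finsupp.single i 1)
    rw [h, MvPolynomial.coeff_zero, h1] at h2
    have h3 := (mul_eq_zero.1 h2.symm).resolve_left (MvPolynomial.mem_support_iff.1 hm)
    rw [← h1, Finsupp.add_apply, Finsupp.single_eq_same, Nat.cast_add, Nat.cast_one]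
    exact h3

end

end Vale.Agent.P019
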