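import Vale.Agent.P019.Dim
import Vale.Agent.P019.FieldD
import Vale.Agent.P019.CurveF

open scoped IntermediateField

namespace Vale.Agent.P019

universe u

variable {ℓ : ℕ} [Fact ℓ.Prime] {k K l L : Type u} [Field k] [Field K] [Algebra k K] [IsAlgClosed k]
  [Field l] [Field L] [Algebra l L] [IsAlgClosed l] {Θ : V ℓ K ≃ₗ[ZMod ℓ] V ℓ L}

theorem prime2_symm {A : Submodule (ZMod ℓ) (V ℓ K)} {B : Submodule (ZMod ℓ) (V ℓ L)}
    (h : A.map Θ.toLinearMap = B) : B.map Θ.symm.toLinearMap = A := by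
  rw [← h, ← Submodule.map_comp]
  simp

theorem map_H_symm {t : K} {s : L} (h : (H k ℓ t).map Θ.toLinearMap = H l ℓ s) :
    (H l ℓ s).map Θ.symm.toLinearMap = H k ℓ t := prime2_symm h

theorem Set2.symm (h : Set2 k l Θ) : Set2 l k Θ.symm :=
  ⟨h.hL, h.hK, h.iso.symm, fun s hs => (h.hB' s hs).imp fun _ e => ⟨e.1, map_H_symm e.2⟩,
    fun t ht => (h.hB t ht).imp fun _ e => ⟨e.1, map_H_symm e.2⟩⟩

theorem prime2_hor (h : Set2 k l Θ) {v : ValuationSubring K} {w : ValuationSubring L}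
    (hv : IsAbh k v) (hP : Partner Θ v w) {t : K} {s : L} (ht : Transcendental k t)
    (hs : Transcendental l s) (hH : (H k ℓ t).map Θ.toLinearMap = H l ℓ s) (h1 : Hor k v t) :
    Hor l w s := by
  by_contra hn
  have := fd_H_inf_U1 (ℓ := ℓ) h.hK.pf h.hK.char (by simpa using h.hK.dim) ht hv h1
  refine not_fd_H_inf_U1 (ℓ := ℓ) h.hL.pf h.hL.char hs hn ?_
  rw [← hH, ← hP.2, ← Submodule.map_inf _ Θ.injective]
  infer_instance

/-- Take `t` with `Hor k v t` (from `RInd`), `s` from `hB`; `fd_H_inf_U1` and `not_fd_H_inf_U1` give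
`Hor l w s`, so `w` contains `l`; `Partner.isAbh`, `isPrime_of_isAbh`. -/
theorem Set2.partner_prime (h : Set2 k l Θ) {v : ValuationSubring K} (hv : IsPrime k v) :
    ∃ w : ValuationSubring L, IsPrime l w ∧ Partner Θ v w := by
  have hl : v.valuation (ℓ : K) = 1 := by
    rw [← map_natCast (algebraMap k K)]
    exact val_const_eq_one hv.1 h.hK.char
  obtain ⟨w, hP, -⟩ := exists_partner k l h.iso (hv.isGV.qp h.hK.pf (e := 0) h.hK.dim hl)
  obtain ⟨hk, -, e, y, hd, hy⟩ := id hv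
  have he : e + 1 = 2 := Nat.cast_injective (R := Cardinal) (hd.symm.trans h.hK.dim)
  have ht := hy.indep.transcendental ⟨0, by omega⟩
  obtain ⟨s, hs, hH⟩ := h.hB _ ht
  have h1 := prime2_hor h hv.isAbh hP ht hs hH (Hor_of_res hk (hy.2.transcendental _))
  exact ⟨w, isPrime_of_isAbh (hP.isAbh h.hK.pf (e := 0) h.hK.dim h.hL.dim h.iso hv.isAbh hl)
    fun c => h1 _ (IntermediateField.algebraMap_mem _ c), hP⟩

theorem Set2.hor_iff (h : Set2 k l Θ) {v : ValuationSubring K} {w : ValuationSubring L}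
    (hv : IsPrime k v) (hw : IsPrime l w) (hP : Partner Θ v w) {t : K} {s : L}
    (ht : Transcendental k t) (hs : Transcendental l s)
    (hH : (H k ℓ t).map Θ.toLinearMap = H l ℓ s) : Hor k v t ↔ Hor l w s :=
  ⟨prime2_hor h hv.isAbh hP ht hs hH, prime2_hor h.symm hw.isAbh hP.symm hs ht (map_H_symm hH)⟩

theorem Match.symm {A : IntermediateField k K} {B : IntermediateField l L} {P : Pt k A}
    {Q : Pt l B} (h : Match Θ P Q) : Match Θ.symm Q P := prime2_symm h

theorem prime2_II {A : IntermediateField k K} (O : ValuationSubring A) (ρ : DV ℓ K) :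
    rst A ρ ∈ II ℓ O ↔ (U ℓ O).map (Vmap ℓ (algebraMap A K)) ≤ LinearMap.ker ρ := by
  unfold II
  rw [Submodule.mem_dualAnnihilator, Submodule.map_le_iff_le_comap]
  rfl

theorem Match.II_iff {A : IntermediateField k K} {B : IntermediateField l L} {P : Pt k A}
    {Q : Pt l B} (h : Match Θ P Q) (ρ : DV ℓ L) :
    rst B ρ ∈ II ℓ Q.1 ↔ rst A (ρ ∘ₗ Θ.toLinearMap) ∈ II ℓ P.1 := by
  rw [prime2_II, prime2_II, ← h, Submodule.map_le_iff_le_comap (f := Θ.toLinearMap),
    LinearMap.ker_comp]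

theorem rst_ne_zero_iff {t : K} {s : L} (hH : (H k ℓ t).map Θ.toLinearMap = H l ℓ s) (ρ : DV ℓ L) :
    rst (ac l {s}) ρ ≠ 0 ↔ rst (ac k {t}) (ρ ∘ₗ Θ.toLinearMap) ≠ 0 := by
  rw [Ne, Ne, rst_eq_zero_iff, rst_eq_zero_iff, ← H_eq_HF, ← H_eq_HF, ← hH]
  refine not_congr ⟨fun h z hz => h _ ⟨z, hz, rfl⟩, ?_⟩
  rintro h _ ⟨z, hz, rfl⟩
  exact h z hz

theorem prime2_U {t : K} (ht : Transcendental k t) {P : Pt k (ac k {t})} {ρ : DV ℓ K}
    (h0 : rst (ac k {t}) ρ ≠ 0) (hP : rst (ac k {t}) ρ ∈ II ℓ P.1) :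
    (U ℓ P.1).map (Vmap ℓ (algebraMap (ac k {t}) K)) = H k ℓ t ⊓ LinearMap.ker ρ := by
  rw [P.U_eq_ker (trdeg_ac_single ht) hP h0]
  unfold rst
  rw [LinearMap.ker_comp, Submodule.map_comap_eq]
  rfl

/-- both sides are `H s ⊓ ker ρ` (`Pt.U_eq_ker`) -/
theorem match_of_fun {t : K} {s : L} (ht : Transcendental k t) (hs : Transcendental l s)
    (hH : (H k ℓ t).map Θ.toLinearMap = H l ℓ s) {P : Pt k (ac k {t})} {Q : Pt l (ac l {s})}
    {ρ : DV ℓ L} (h0 : rst (ac l {s}) ρ ≠ 0) (hQ : rst (ac l {s}) ρ ∈ II ℓ Q.1)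
    (hP : rst (ac k {t}) (ρ ∘ₗ Θ.toLinearMap) ∈ II ℓ P.1) : Match Θ P Q := by
  unfold Match
  rw [prime2_U hs h0 hQ, prime2_U ht ((rst_ne_zero_iff hH ρ).1 h0) hP,
    Submodule.map_inf _ Θ.injective, hH, LinearMap.ker_comp,
    Submodule.map_comap_eq_of_surjective Θ.surjective]

theorem Match.unique_right (h : Set2 k l Θ) {A : IntermediateField k K} {s : L}
    (hs : Transcendental l s) {P : Pt k A} {Q Q' : Pt l (ac l {s})} (h₁ : Match Θ P Q)
    (h₂ : Match Θ P Q') : Q = Q' :=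
  Subtype.ext ((Q.isPrime (trdeg_ac_single hs)).U_inj (ℓ := ℓ) (PFC_ac h.hL.pf hs).1 h.hL.char
    (Q'.isPrime (trdeg_ac_single hs))
    (Submodule.map_injective_of_injective (Vmap_ac_injective _) ((Eq.symm h₁).trans h₂)))

theorem Match.unique_left (h : Set2 k l Θ) {t : K} (ht : Transcendental k t)
    {B : IntermediateField l L} {P P' : Pt k (ac k {t})} {Q : Pt l B} (h₁ : Match Θ P Q)
    (h₂ : Match Θ P' Q) : P = P' := Match.unique_right h.symm ht h₁.symm h₂.symm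

/-- a generator of `II w` (`w` the partner) is nonzero on `H s`, so `w.comap` is a point -/
theorem Set2.match_of_prime (h : Set2 k l Θ) {t : K} {s : L} (ht : Transcendental k t)
    (hs : Transcendental l s) (hH : (H k ℓ t).map Θ.toLinearMap = H l ℓ s)
    {v : ValuationSubring K} (hv : IsPrime k v) {P : Pt k (ac k {t})}
    (hP : v.comap (algebraMap (ac k {t}) K) = P.1) (hf : ∃ f ∈ ac k {t}, cl ℓ f ∉ U ℓ v) :
    ∃ Q : Pt l (ac l {s}), Match Θ P Q := by
  obtain ⟨w, hw, hvw⟩ := h.partner_prime hv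
  obtain ⟨f, hf, hU⟩ := hf
  rw [mem_U_iff_II] at hU
  push Not at hU
  obtain ⟨σ, hσ, h0⟩ := hU
  have e : (σ ∘ₗ Θ.symm.toLinearMap) ∘ₗ Θ.toLinearMap = σ := by
    ext z
    simp
  have h1 : rst (ac l {s}) (σ ∘ₗ Θ.symm.toLinearMap) ≠ 0 := by
    rw [rst_ne_zero_iff hH, e]
    intro h2
    apply h0
    rw [← rst_cl (ac k {t}) σ ⟨f, hf⟩, h2, LinearMap.zero_apply]
  have h2 : rst (ac l {s}) (σ ∘ₗ Θ.symm.toLinearMap) ∈
      II ℓ (w.comap (algebraMap (ac l {s}) L)) := II_comap _ ((hvw.symm.II_iff σ).1 hσ)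
  have h3 : w.comap (algebraMap (ac l {s}) L) ≠ ⊤ := fun h4 => by
    rw [h4, II_top] at h2
    exact h1 h2
  refine ⟨⟨_, h3, fun c => hw.1 c⟩, match_of_fun ht hs hH h1 h2 ?_⟩
  rw [e, ← hP]
  exact II_comap _ hσ

theorem Set2.finite_unmatched (h : Set2 k l Θ) {t : K} {s : L} (ht : Transcendental k t)
    (hs : Transcendental l s) (hH : (H k ℓ t).map Θ.toLinearMap = H l ℓ s) :
    {P : Pt k (ac k {t}) | ¬ ∃ Q : Pt l (ac l {s}), Match Θ P Q}.Finite :=
  (finite_not_good_pt h.hK ht).subset fun _ hP ⟨_, h1, h2, h3⟩ =>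
    hP (h.match_of_prime ht hs hH h1 h2 h3)

section kron
open Polynomial

/-- Kronecker substitution -/
theorem prime2_kron {N : ℕ} {q : k[X][X]} (hq : q ≠ 0) (h : ∀ j, q.coeff j ∈ degreeLT k N) :
    q.eval (X ^ N) ≠ 0 := by
  obtain ⟨g, hg, hn⟩ := q.exists_eq_pow_rootMultiplicity_mul_and_not_dvd hq 0
  rw [C_0, sub_zero] at hg hn
  have h1 := h (0 + q.rootMultiplicity 0)
  generalize q.rootMultiplicity 0 = m at hg h1
  rw [hg, coeff_X_pow_mul, mem_degreeLT] at h1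
  rw [hg, eval_mul, eval_pow, eval_X]
  refine mul_ne_zero (pow_ne_zero _ (pow_ne_zero _ X_ne_zero)) fun h0 => hn ?_
  rw [← X_mul_divX_add g, eval_add, eval_mul, eval_X, eval_C, add_eq_zero_iff_eq_neg'] at h0
  refine X_dvd_iff.2 (eq_zero_of_dvd_of_degree_lt (p := X ^ N) ?_ (by rwa [degree_X_pow]))
  rw [h0]
  exact (Dvd.intro _ rfl).neg_right

theorem prime2_ev {A : Type*} [Semiring A] (P : ℕ → A → Prop) (h0 : ∀ N, P N 0)
    (h : ∀ a, ∀ᶠ N in Filter.atTop, P N a) (q : A[X]) :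
    ∀ᶠ N in Filter.atTop, ∀ j, P N (q.coeff j) :=
  ((Filter.eventually_all_finset q.support).2 fun j _ => h (q.coeff j)).mono fun N hN j => by
    by_cases hj : j ∈ q.support
    · exact hN j hj
    · rw [notMem_support_iff.1 hj]
      exact h0 N

theorem prime2_bound (G : k[X][X][X]) : ∀ᶠ N in Filter.atTop, ∀ (b : k) (j : ℕ),
    (G.eval (C (C b))).coeff j ∈ degreeLT k N := by
  have h1 : ∀ p : k[X], ∀ᶠ N in Filter.atTop, p ∈ degreeLT k N := fun p =>
    (Filter.eventually_gt_atTop p.natDegree).mono fun N hN =>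
      mem_degreeLT.2 (degree_le_natDegree.trans_lt (Nat.cast_lt.2 hN))
  have h2 := prime2_ev (fun N (q : k[X][X]) => ∀ j, q.coeff j ∈ degreeLT k N)
    (fun N j => by rw [coeff_zero]; exact zero_mem _)
    (prime2_ev (fun N (p : k[X]) => p ∈ degreeLT k N) (fun N => zero_mem _) h1) G
  refine h2.mono fun N hN b j => ?_
  rw [eval_eq_sum_range, finsetSum_coeff]
  refine Submodule.sum_mem _ fun i _ => ?_
  rw [← C_pow, coeff_mul_C, ← C_pow, mul_comm, ← smul_eq_C_mul]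
  exact Submodule.smul_mem _ _ (hN i j)

theorem prime2_cong {A : Type*} [CommRing A] {O : ValuationSubring K} (f : A →+* K)
    (hf : ∀ r, f r ∈ O) {a a' : K} (ha : a ∈ O) (ha' : a' ∈ O) (h : res O a = res O a')
    (q : A[X]) : q.eval₂ f a ∈ O ∧ q.eval₂ f a' ∈ O ∧ res O (q.eval₂ f a) = res O (q.eval₂ f a') := by
  induction q using Polynomial.induction_on' with
  | add p q hp hq =>
    rw [eval₂_add, eval₂_add, res_add O hp.1 hq.1, res_add O hp.2.1 hq.2.1, hp.2.2, hq.2.2]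
    exact ⟨add_mem hp.1 hq.1, add_mem hp.2.1 hq.2.1, rfl⟩
  | monomial n c =>
    rw [eval₂_monomial, eval₂_monomial, res_mul O (hf c) (pow_mem ha n),
      res_mul O (hf c) (pow_mem ha' n), res_pow O _ ha, res_pow O _ ha', h]
    exact ⟨mul_mem (hf c) (pow_mem ha n), mul_mem (hf c) (pow_mem ha' n), rfl⟩

theorem prime2_rel {A : Type*} [CommRing A] [IsDomain A] (f : A →+* K) (c : k → A) {s : K}
    (hs : ∀ b, s ≠ f (c b)) (n : ℕ) : ∀ G : A[X], G ≠ 0 → G.natDegree = n → G.eval₂ f s = 0 →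
      ∃ G' : A[X], G'.eval₂ f s = 0 ∧ ∀ b, G'.eval (c b) ≠ 0 := by
  induction n using Nat.strong_induction_on with
  | _ n ih =>
    intro G h0 hn hG
    by_cases h : ∀ b, G.eval (c b) ≠ 0
    · exact ⟨G, hG, h⟩
    push Not at h
    obtain ⟨b, hb⟩ := h
    obtain ⟨G', rfl⟩ := dvd_iff_isRoot.2 hb
    have h1 := right_ne_zero_of_mul h0
    rw [natDegree_mul (X_sub_C_ne_zero _) h1, natDegree_X_sub_C] at hn
    rw [eval₂_mul, eval₂_sub, eval₂_X, eval₂_C] at hG
    exact ih _ (by omega) G' h1 rfl ((mul_eq_zero.1 hG).resolve_left (sub_ne_zero.2 (hs b)))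

theorem prime2_notAt {x y : K} (hx : Transcendental k x) (htop : ac k {x, y} = ⊤) {s : K}
    (hs : Transcendental k s) : ∀ᶠ N in Filter.atTop, ∀ O : ValuationSubring K, Hor k O x →
      O.valuation (y - x ^ N) < 1 → ∀ b : k, ¬ At k O s b := by
  let ev : k[X][X] →ₐ[k] K := eval₂AlgHom (aeval x) y fun _ => Commute.all _ _
  have hev : ∀ q, ev q = q.eval₂ (aeval x : k[X] →ₐ[k] K).toRingHom y := fun _ => rfl
  have hC : ∀ b : k, ev (C (C b)) = algebraMap k K b := fun b => by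
    rw [hev, eval₂_C]
    exact aeval_C x b
  obtain ⟨p, hp0, hp⟩ : IsAlgebraic ev.range s :=
    (fielda_mem.1 (show s ∈ ac k {x, y} by rw [htop]; trivial)).tower_top_of_subalgebra_le
      (Algebra.adjoin_le (by
        rintro u (rfl | rfl)
        · exact ⟨C X, by rw [AlgHom.toRingHom_eq_coe, RingHom.coe_coe, hev, eval₂_C]; exact aeval_X _⟩
        · exact ⟨X, by rw [AlgHom.toRingHom_eq_coe, RingHom.coe_coe, hev, eval₂_X]⟩))
  obtain ⟨G₀, rfl⟩ := map_surjective ev.rangeRestrict.toRingHom ev.rangeRestrict_surjective p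
  obtain ⟨G, hG, hb⟩ := prime2_rel ev.toRingHom (fun b : k => C (C b)) (s := s)
    (fun b h => transcendental_iff.1 hs ⟨b, (hC b).symm.trans h.symm⟩) _ G₀
    (fun h => hp0 (by rw [h, Polynomial.map_zero])) rfl (by
      rw [aeval_def, eval₂_map] at hp
      exact hp)
  refine (prime2_bound G).mono fun N hN O hO hy b hAt => ?_
  have hk : ∀ c : k, algebraMap k K c ∈ O := fun c => hO _ (IntermediateField.algebraMap_mem _ c)
  have h1 : ∀ r : k[X], aeval x r ∈ ac k {x} := fun r => adjoin_le_ac _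
    ((IntermediateField.mem_adjoin_simple_iff k _).2 ⟨r, 1, by rw [map_one, div_one]⟩)
  have hxN : x ^ N ∈ O := pow_mem (hO _ (self_mem_ac x)) N
  have hyO : y ∈ O := by
    have h2 := add_mem ((O.valuation_le_one_iff _).1 hy.le) hxN
    rwa [sub_add_cancel] at h2
  have h2 := fun q => prime2_cong (aeval x : k[X] →ₐ[k] K).toRingHom (fun r => hO _ (h1 r)) hyO hxN
    ((res_eq_iff O hyO hxN).2 hy) q
  obtain ⟨h3, h4⟩ := (At_iff_res hk).1 hAt
  have h5 := (prime2_cong ev.toRingHom (fun q => (h2 q).1) h3 (hk b) h4 G).2.2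
  have e1 : G.eval₂ ev.toRingHom (algebraMap k K b) = ev (G.eval (C (C b))) := by
    rw [← hC]
    exact eval₂_at_apply ev.toRingHom _
  have e2 : (G.eval (C (C b))).eval₂ (aeval x : k[X] →ₐ[k] K).toRingHom (x ^ N) =
      aeval x ((G.eval (C (C b))).eval (X ^ N)) := by
    rw [← aeval_X_pow (R := k) x]
    exact eval₂_at_apply (aeval x : k[X] →ₐ[k] K).toRingHom _
  rw [hG, res_zero, e1, hev, (h2 _).2.2, e2] at h5
  refine (res_ne_zero_iff O _).2 (val_eq_one_iff.2 ⟨fun h6 => ?_, hO _ (h1 _),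
    hO _ (inv_mem (h1 _))⟩) h5.symm
  exact prime2_kron (hb b) (hN b) (_root_.transcendental_iff.1 hx _ h6)

end kron

/-- Let `(x, y)` be a transcendence basis; for `s ∈ S` clear denominators in the minimal polynomial:
`g(x, y, s) = 0`, and `g(X, Y, b) ≠ 0` for every constant `b`. Take the prime with `x` residually
transcendental and a zero at `y - x ^ N`, `N` larger than all degrees (Kronecker substitution). -/
theorem exists_hor (hd : Algebra.trdeg k K = 2) (S : Finset K) (hS : ∀ s ∈ S, Transcendental k s) :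
    ∃ O : ValuationSubring K, IsPrime k O ∧ ∀ s ∈ S, Hor k O s := by
  obtain ⟨Y, hY⟩ := exists_indep (k := k) (K := K) (d := 2) (by simpa using hd.ge)
  obtain ⟨x, y, rfl⟩ : ∃ x y, Y = ![x, y] := ⟨Y 0, Y 1, by
    funext j
    fin_cases j <;> rfl⟩
  obtain ⟨hx, hy⟩ := indep_pair_iff.1 hY
  have htop : ac k {x, y} = ⊤ := by
    have h5 := ac_eq_top_of_indep hY (by rw [hd]; simp)
    rwa [Matrix.range_cons, Matrix.range_cons_empty, Set.singleton_union] at h5
  have hinv : ∀ s ∈ S, Transcendental k s⁻¹ := fun s hs => transcendental_iff.2 fun ⟨d, hd⟩ =>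
    transcendental_iff.1 (hS s hs) ⟨d⁻¹, by rw [map_inv₀, hd, inv_inv]⟩
  obtain ⟨N, hN⟩ := ((Filter.eventually_all_finset S).2 fun s hs =>
    (prime2_notAt hx htop (hS s hs)).and (prime2_notAt hx htop (hinv s hs))).exists
  obtain ⟨O, h1, h2, h3⟩ := exists_prime (e := 1) (by simpa using hd) (π := y - x ^ N) (y := ![x])
    (indep_cons_iff.2 ⟨algebraicIndependent_iff_transcendental.2 hx, fun h => hy (by
      rw [Matrix.range_cons_empty] at h
      simpa using add_mem h (pow_mem (self_mem_ac x) N))⟩)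
  have h4 : Hor k O x := Hor_of_res h1.1 (h2.2.transcendental 0)
  refine ⟨O, h1, fun s hs => ?_⟩
  by_contra hn
  have h5 : O.comap (algebraMap (ac k {s}) K) ≠ ⊤ := fun h6 => hn fun z hz =>
    (ValuationSubring.mem_comap (x := (⟨z, hz⟩ : ac k {s}))).1 (by rw [h6]; trivial)
  have key : ∀ z : ac k {s}, (z : K) ∈ O → ∃ b : k, At k O (z : K) b := fun z hz => by
    obtain ⟨b, hb⟩ := Pt.exists_At (trdeg_ac_single (hS s hs)).le ⟨_, h5, fun c => h1.1 c⟩
      (f := z) hz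
    exact ⟨b, (comap_val_lt_one _ O _).1 hb⟩
  rcases O.mem_or_inv_mem s with h6 | h6
  · obtain ⟨b, hb⟩ := key ⟨s, self_mem_ac s⟩ h6
    exact (hN s hs).1 O h4 h3 b hb
  · obtain ⟨b, hb⟩ := key ⟨s⁻¹, inv_mem (self_mem_ac s)⟩ h6
    exact (hN s hs).2 O h4 h3 b hb

/-! points of general elements -/

theorem prime2_tr {t : K} (ht : Transcendental k t) :
    Transcendental k (⟨t, self_mem_ac t⟩ : ac k {t}) := fun h =>
  ht ((IntermediateField.isAlgebraic_iff (x := (⟨t, self_mem_ac t⟩ : ac k {t}))).1 h)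

theorem prime2_top {t : K} (h : GEN k t) : pc k {(⟨t, self_mem_ac t⟩ : ac k {t})} = ⊤ :=
  eq_top_iff.2 fun e _ => (algHom_mem_pc_iff (ac k {t}).val).1 (by
    rw [Set.image_singleton]
    exact h.2.le e.2)

theorem exists_AtK {t : K} (ht : Transcendental k t) (a : k) :
    ∃ P : Pt k (ac k {t}), AtK P t a :=
  (exists_Pt_At (prime2_tr ht) a).imp fun _ h => ⟨self_mem_ac t, h⟩

theorem exists_PoleK {t : K} (ht : Transcendental k t) : ∃ P : Pt k (ac k {t}), PoleK P t :=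
  (exists_Pt_pole (prime2_tr ht)).imp fun _ h => ⟨self_mem_ac t, h⟩

theorem GEN.eq_of_AtK {t : K} (ht : GEN k t) {P P' : Pt k (ac k {t})} {a : k} (h : AtK P t a)
    (h' : AtK P' t a) : P = P' := Pt.eq_of_At (prime2_top ht) h.2 h'.2

theorem GEN.eq_of_PoleK {t : K} (ht : GEN k t) {P P' : Pt k (ac k {t})} (h : PoleK P t)
    (h' : PoleK P' t) : P = P' := Pt.eq_of_pole (prime2_top ht) h.2 h'.2

theorem AtK.unique {A : IntermediateField k K} {P : Pt k A} {t : K} {a b : k} (h : AtK P t a)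
    (h' : AtK P t b) : a = b := At.unique P.2.2 h.2 h'.2

theorem comap_eq_of_At {t : K} (ht : GEN k t) {O : ValuationSubring K}
    (hO : ∀ c : k, algebraMap k K c ∈ O) {a : k} (h : At k O t a) {P : Pt k (ac k {t})}
    (hP : AtK P t a) : O.comap (algebraMap (ac k {t}) K) = P.1 := by
  have h1 : At k (O.comap (algebraMap (ac k {t}) K)) (⟨t, self_mem_ac t⟩ : ac k {t}) a :=
    (comap_val_lt_one _ O _).2 h
  have h2 := gv_ne_top (fun h0 => transcendental_iff.1 (prime2_tr ht.1)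
    ⟨a, (sub_eq_zero.1 h0).symm⟩) h1
  exact congrArg Subtype.val
    (ht.eq_of_AtK (P := ⟨_, h2, fun c => hO c⟩) ⟨self_mem_ac t, h1⟩ hP)

theorem comap_eq_of_pole {t : K} (ht : GEN k t) {O : ValuationSubring K}
    (hO : ∀ c : k, algebraMap k K c ∈ O) (h : t ∉ O) {P : Pt k (ac k {t})} (hP : PoleK P t) :
    O.comap (algebraMap (ac k {t}) K) = P.1 := by
  have h2 : O.comap (algebraMap (ac k {t}) K) ≠ ⊤ := fun h3 =>
    h ((ValuationSubring.mem_comap (x := (⟨t, self_mem_ac t⟩ : ac k {t}))).1 (by rw [h3]; trivial))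
  exact congrArg Subtype.val
    (ht.eq_of_PoleK (P := ⟨_, h2, fun c => hO c⟩) ⟨self_mem_ac t, h⟩ hP)

end Vale.Agent.P019
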