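import Vale.Agent.P019.Tau
import Vale.Agent.P019.PT

open scoped IntermediateField

namespace Vale.Agent.P019

universe u

variable {ℓ : ℕ} [Fact ℓ.Prime] {k K l L : Type u} [Field k] [Field K] [Algebra k K] [IsAlgClosed k]
  [Field l] [Field L] [Algebra l L] [IsAlgClosed l] {Θ : V ℓ K ≃ₗ[ZMod ℓ] V ℓ L}

omit [Fact ℓ.Prime] in
/-- a refinement of a prime that dominates given points can be coarsened to one inducing them -/
theorem rel_coarsen (hK : Std ℓ k K 2) {v ν₀ : ValuationSubring K} (hv : IsPrime k v) (hν : ν₀ ≤ v)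
    {ι : Type*} {t : ι → K} (ht : ∀ i, Transcendental k (t i)) (hh : ∀ i, Hor k v (t i))
    (P : ∀ i, Pt k (ac k {t i}))
    (hP : ∀ i, ν₀.comap (algebraMap (ac k {t i}) K) ≤ (P i).1) :
    ∃ ν : ValuationSubring K, ν ≤ v ∧ (∀ c : k, algebraMap k K c ∈ ν) ∧
      ∀ i, ν.comap (algebraMap (ac k {t i}) K) = (P i).1 := by
  rcases isEmpty_or_nonempty ι with hι | ⟨⟨i₀⟩⟩
  · exact ⟨v, le_rfl, hv.1, fun i => hι.elim i⟩
  obtain ⟨ν, h1, h2⟩ := exists_lift_coarsening _ ν₀ (hP i₀)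
  have hne : ¬ v ≤ ν := fun h => (P i₀).2.1 (by
    rw [← h2, eq_top_iff]
    exact fun x _ => h (hh i₀ x x.2))
  have hle : ν ≤ v := (le_total_of_le h1 hν).resolve_right hne
  have hk : ∀ c : k, algebraMap k K c ∈ ν := fun c => by
    have := (P i₀).2.2 c
    rw [← h2] at this
    exact this
  refine ⟨ν, hle, hk, fun i => ?_⟩
  have hnt : ν.comap (algebraMap (ac k {t i}) K) ≠ ⊤ := fun h => by
    have hH : Hor k ν (t i) := fun x hx => by
      have : (⟨x, hx⟩ : ac k {t i}) ∈ ν.comap (algebraMap (ac k {t i}) K) := by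
        rw [h]; trivial
      exact this
    have hp : IsPrime k ν := isPrime_of_RInd (e := 1) hK.dim (by simp)
      ((Hor_iff hk (ht i)).1 hH) hk fun h => hne (h ▸ le_top)
    exact hne (gv_eq_of_le hp hv hle).ge
  let R : Pt k (ac k {t i}) := ⟨ν.comap (algebraMap (ac k {t i}) K), hnt, fun c => hk c⟩
  have h3 : ν₀.comap (algebraMap (ac k {t i}) K) ≤ R.1 := fun x hx => h1 hx
  rcases le_total_of_le h3 (hP i) with h | h
  · exact congrArg Subtype.val (Pt.eq_of_le (trdeg_ac_single (ht i)) h)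
  · exact congrArg Subtype.val (Pt.eq_of_le (trdeg_ac_single (ht i)) h).symm

/-- Let `ψ' i : ac {s i} → Res w`, `ψ i : ac {t i} → Res v` be the residue embeddings. For all but
finitely many points `R'` of `Res w`: the residue of `s i` has a value `σ (a i)` with `a i` good for
`Coord` and unramified (`finite_ramified`). Take `0 ≠ μ' ∈ II R'`, transport it by `transfer_res`
to `μ ∈ II u`, lift by `exists_resFun_up`; `Match.II_iff` shows `0 ≠ μ ∘ ψ i ∈ II (P i)`, so
`u.comap (ψ i) ≤ P i` (`Pt.le_of_II`). Coarsen `u` (`exists_lift_coarsening` for one index) to a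
point `R`; `R.comap (ψ i)` and `P i` are comparable points, so equal. -/
theorem Set2.exists_point (h : Set2 k l Θ) {σ : k ≃+* l} {v : ValuationSubring K}
    {w : ValuationSubring L} (hv : IsPrime k v) (hw : IsPrime l w) (hP : Partner Θ v w)
    {ι : Type*} [Finite ι] {t : ι → K} {s : ι → L} (ht : ∀ i, GEN k (t i))
    (hs : ∀ i, Coord Θ σ (t i) (s i)) (hh : ∀ i, Hor k v (t i)) :
    {R' : Pt (kap l w) (Res w) | ¬ ∃ (a : ι → k) (ν : ValuationSubring K), ν ≤ v ∧
      (∀ c : k, algebraMap k K c ∈ ν) ∧ ∀ i, At k ν (t i) (a i) ∧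
        At l (vcomp w R'.1) (s i) (σ (a i))}.Finite := by
  have hW := h.hL.res hw
  have hsH : ∀ i, Hor l w (s i) := fun i =>
    (h.hor_iff hv hw hP (ht i).1 (hs i).1.1 (hs i).2.1).1 (hh i)
  have htr : ∀ i, Transcendental (kap l w) (res w (s i)) := fun i =>
    (hsH i).res_transcendental (hs i).1.1
  obtain ⟨φ, hφ⟩ := exists_kapEquiv w l hw.1
  refine (Set.finite_iUnion fun i => hW.pfc.finite_At_mem (htr i)
    ((finite_ramified hW (htr i)).union ((hs i).2.2.image fun a => φ (σ a)))).subset ?_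
  intro R' hR'
  by_contra hn
  apply hR'
  simp only [Set.mem_iUnion, Set.mem_ofPred_eq, not_exists, not_or, not_not, Set.mem_union,
    Set.mem_image, not_and] at hn
  choose b hb using fun i => Pt.exists_At hW.pfc.2.le R' (hn i).1
  have hsw : ∀ i, s i ∈ w := fun i => hsH i _ (self_mem_ac _)
  have hres : ∀ i, res w (s i - algebraMap l L (σ (σ.symm (φ.symm (b i))))) =
      res w (s i) - algebraMap (kap l w) (Res w) (b i) := fun i => by
    rw [res_sub w (hsw i) (hw.1 _), ← hφ, σ.apply_symm_apply, φ.apply_symm_apply]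
    rfl
  have hAt : ∀ i, At l (vcomp w R'.1) (s i) (σ (σ.symm (φ.symm (b i)))) := fun i =>
    (vcomp_val_lt_one w _ _).2 ⟨w.sub_mem (hsw i) (hw.1 _), by rw [hres]; exact hb i⟩
  have hl : ∀ c : l, algebraMap l L c ∈ vcomp w R'.1 := fun c =>
    (mem_vcomp w _ _).2 ⟨hw.1 c, R'.2.2 ⟨_, res_const_mem w l c⟩⟩
  choose P hPt using fun i => exists_AtK (ht i).1 (σ.symm (φ.symm (b i)))
  choose Q hQ using fun i => exists_AtK (hs i).1.1 (σ (σ.symm (φ.symm (b i))))
  have hM : ∀ i, Match Θ (P i) (Q i) := fun i => by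
    by_contra hm
    refine (hn i).2 (b i) (Or.inr ⟨σ.symm (φ.symm (b i)), fun hall => ?_, by simp⟩) (hb i)
    exact hm (hall _ _ (hPt i) (hQ i))
  obtain ⟨μ, hμ, hμ0⟩ := Submodule.exists_mem_ne_zero_of_ne_bot (R'.II_ne_bot hW.pfc hW.char)
  obtain ⟨ρ, hρ⟩ := exists_resFun_up w μ
  have hρI : ρ ∈ II ℓ (vcomp w R'.1) := (hρ.II_iff _).2 hμ
  obtain ⟨ν₀, hν₀, hI⟩ := transfer_II k h.hL h.iso.symm hP.symm
    (hw.isAbh.II_ne_bot h.hL.pf h.hL.char) (vcomp_le w R'.1)
    (by simpa using val_const_eq_one hl h.hL.char) hρI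
  rw [LinearEquiv.symm_symm] at hI
  have hle : ∀ i, ν₀.comap (algebraMap (ac k {t i}) K) ≤ (P i).1 := fun i => by
    have h1 : rst (ac l {s i}) ρ ∈ II ℓ (Q i).1 := by
      rw [← comap_eq_of_At (hs i).1 hl (hAt i) (hQ i)]
      exact II_comap _ hρI
    have h2 : rst (ac l {s i}) ρ ≠ 0 := fun h0 => by
      refine (hn i).2 (b i) (Or.inl ⟨R', hb i, ?_⟩) (hb i)
      have h3 : w.valuation (s i - algebraMap l L (σ (σ.symm (φ.symm (b i))))) = 1 := by
        rw [← res_ne_zero_iff, hres, sub_ne_zero]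
        exact fun e => htr i (e ▸ isAlgebraic_algebraMap _)
      rw [R'.U_eq_ker hW.pfc.2 hμ hμ0, LinearMap.mem_ker, ← hres, hρ.2 _ h3]
      refine (rst_eq_zero_iff _ _).1 h0 _ (mem_HF.2 ⟨_, ?_, basic_ne_zero h3, rfl⟩)
      exact sub_mem (self_mem_ac _) (IntermediateField.algebraMap_mem _ _)
    exact (P i).le_of_II (trdeg_ac_single (ht i).1) (((hM i).II_iff ρ).1 h1)
      ((rst_ne_zero_iff (hs i).2.1 ρ).1 h2) (II_comap _ hI)
  obtain ⟨ν, h1, h2, h3⟩ := rel_coarsen h.hK hv hν₀ (fun i => (ht i).1) hh P hle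
  refine ⟨fun i => σ.symm (φ.symm (b i)), ν, h1, h2, fun i => ⟨?_, hAt i⟩⟩
  obtain ⟨hm, ha⟩ := hPt i
  rw [← h3, At, comap_val_lt_one, map_sub] at ha
  exact ha

/-- otherwise choose `R'` where the residue is a unit; `At.aeval` on both sides -/
theorem Set2.rel (h : Set2 k l Θ) {σ : k ≃+* l} {v : ValuationSubring K}
    {w : ValuationSubring L} (hv : IsPrime k v) (hw : IsPrime l w) (hP : Partner Θ v w)
    {ι : Type*} [Finite ι] {t : ι → K} {s : ι → L} (ht : ∀ i, GEN k (t i))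
    (hs : ∀ i, Coord Θ σ (t i) (s i)) (hh : ∀ i, Hor k v (t i)) (f : MvPolynomial ι k)
    (hf : v.valuation (MvPolynomial.aeval t f) < 1) :
    w.valuation (MvPolynomial.aeval s (MvPolynomial.map (σ : k →+* l) f)) < 1 := by
  have hW := h.hL.res hw
  have := hW.pfc.infinite_Pt
  have hinf := (h.exists_point hv hw hP ht hs hh).infinite_compl
  have key : ∀ R' ∈ {R' : Pt (kap l w) (Res w) | ¬ ∃ (a : ι → k) (ν : ValuationSubring K), ν ≤ v ∧
      (∀ c : k, algebraMap k K c ∈ ν) ∧ ∀ i, At k ν (t i) (a i) ∧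
        At l (vcomp w R'.1) (s i) (σ (a i))}ᶜ, (vcomp w R'.1).valuation
      (MvPolynomial.aeval s (MvPolynomial.map (σ : k →+* l) f)) < 1 := fun R' hR' => by
    obtain ⟨a, ν, h1, h2, h3⟩ := not_not.1 hR'
    have hl : ∀ c : l, algebraMap l L c ∈ vcomp w R'.1 := fun c =>
      (mem_vcomp w _ _).2 ⟨hw.1 c, R'.2.2 ⟨_, res_const_mem w l c⟩⟩
    have e1 : MvPolynomial.eval a f = 0 := At.unique h2 (At.aeval h2 (fun i => (h3 i).1) f)
      (by simpa [At] using val_lt_one_of_le h1 hf)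
    have e2 : MvPolynomial.eval (fun i => σ (a i)) (MvPolynomial.map (σ : k →+* l) f) = 0 := by
      have := MvPolynomial.map_eval (σ : k →+* l) a f
      rw [e1, map_zero] at this
      exact this.symm
    have := At.aeval hl (fun i => (h3 i).2) (MvPolynomial.map (σ : k →+* l) f)
    rw [e2] at this
    simpa [At] using this
  obtain ⟨R₀, hR₀⟩ := hinf.nonempty
  refine (res_eq_zero_iff w ((vcomp_val_lt_one w _ _).1 (key R₀ hR₀)).1).1 ?_
  exact hW.pfc.eq_zero_of_infinite (hinf.mono fun R' hR' =>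
    ((vcomp_val_lt_one w _ _).1 (key R' hR')).2)

end Vale.Agent.P019
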