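import Mathlib

namespace Vale.Agent.P019

open Polynomial

section

variable {κ W : Type*} [Field κ] [IsAlgClosed κ] [AddCommGroup W] [Module κ W] {Q : ℕ}

/-- the polynomials of the recursion -/
noncomputable def slPoly (Q : ℕ) (c : ℕ → κ) : ℕ → κ[X]
  | 0 => C (-c 0)
  | i + 1 => X ^ (Q - 1) * slPoly Q c i ^ Q - C (c (i + 1))

omit [IsAlgClosed κ] in
theorem sl_poly_deg (hQ : 2 ≤ Q) {c : ℕ → κ} (h0 : c 0 ≠ 0) (i : ℕ) :
    slPoly Q c i ≠ 0 ∧ 0 < (slPoly Q c (i + 1)).natDegree := by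
  have key : ∀ i, slPoly Q c i ≠ 0 → 0 < (slPoly Q c (i + 1)).natDegree := fun i h => by
    rw [slPoly, natDegree_sub_C, natDegree_mul (pow_ne_zero _ X_ne_zero) (pow_ne_zero _ h),
      natDegree_X_pow]
    omega
  induction i with
  | zero =>
    have : slPoly Q c 0 ≠ 0 := by simpa [slPoly] using h0
    exact ⟨this, key 0 this⟩
  | succ i ih =>
    have : slPoly Q c (i + 1) ≠ 0 := fun h => by simp [h] at ih
    exact ⟨this, key _ this⟩

theorem sl_rel [FiniteDimensional κ W] (hQ : 2 ≤ Q) (ψ : W →+ W)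
    (hψ : ∀ (c : κ) (w : W), ψ (c • w) = c ^ Q • ψ w) (U : Submodule κ W)
    (hU : ∀ x, ψ x ∈ U → x ∈ U) {w : W} (hw : w ∉ U) : ∃ u, u ∉ U ∧ ψ u - u ∈ U := by
  classical
  let v : ℕ → W := fun i => ψ^[i] w
  have hv : ∀ i, v (i + 1) = ψ (v i) := fun i => Function.iterate_succ_apply' ψ i w
  let P : ℕ → Prop := fun N => ∃ c : ℕ → κ, (∃ i < N, c i ≠ 0) ∧
    ∑ i ∈ Finset.range N, c i • v i ∈ U
  have ex : ∃ N, P N := by
    have h1 : ¬LinearIndependent κ fun i : Fin (Module.finrank κ W + 1) => v i := fun h => by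
      simpa using h.fintype_card_le_finrank
    obtain ⟨g, h2, i, h3⟩ := Fintype.not_linearIndependent_iff.1 h1
    refine ⟨Module.finrank κ W + 1, fun i => if h : i < _ then g ⟨i, h⟩ else 0,
      ⟨i, i.2, by simpa [i.2] using h3⟩, ?_⟩
    rw [← Fin.sum_univ_eq_sum_range (fun i => (if h : i < _ then g ⟨i, h⟩ else 0) • v i)]
    simp only [Fin.is_lt, dif_pos, Fin.eta, h2]
    exact U.zero_mem
  obtain ⟨c, ⟨i₀, hi₀, hc₀⟩, hc⟩ := Nat.find_spec ex
  obtain ⟨N, hN⟩ : ∃ N, Nat.find ex = N + 1 := ⟨Nat.find ex - 1, by omega⟩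
  have ind : ∀ d : ℕ → κ, ∑ i ∈ Finset.range N, d i • v i ∈ U → ∀ i < N, d i = 0 := fun d hd i hi => by
    by_contra h
    exact Nat.find_min ex (m := N) (by omega) ⟨d, ⟨i, hi, h⟩, hd⟩
  rw [hN] at hc hi₀
  have cN : c N ≠ 0 := fun h => by
    rw [Finset.sum_range_succ, h, zero_smul, add_zero] at hc
    rcases Nat.lt_succ_iff_lt_or_eq.1 hi₀ with h1 | h1
    · exact hc₀ (ind c hc _ h1)
    · exact hc₀ (h1 ▸ h)
  have c0 : c 0 ≠ 0 := fun h => by
    choose r hr using fun i => IsAlgClosed.exists_pow_nat_eq (c (i + 1)) (n := Q) (by omega)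
    rw [Finset.sum_range_succ', h, zero_smul, add_zero] at hc
    have h1 := ind r (hU _ (by simpa only [map_sum, hψ, hr, ← hv] using hc))
    rcases N with _ | N
    · exact cN h
    · exact cN (by rw [← hr, h1 N N.lt_succ_self, zero_pow (by omega)])
  obtain ⟨M, rfl⟩ : ∃ M, N = M + 1 := by
    rcases N with _ | N
    · rw [Finset.sum_range_one] at hc
      exact absurd ((U.smul_mem_iff c0).1 hc) hw
    · exact ⟨N, rfl⟩
  obtain ⟨t, ht⟩ := IsAlgClosed.exists_root (slPoly Q c (M + 1))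
    (natDegree_pos_iff_degree_pos.1 (sl_poly_deg hQ c0 M).2).ne'
  have t0 : t ≠ 0 := fun h => cN (by
    simpa [slPoly, h, zero_pow (show Q - 1 ≠ 0 by omega)] using ht)
  let x : ℕ → κ := fun i => t * (slPoly Q c i).eval t
  have x0 : x 0 = -(t * c 0) := by simp [x, slPoly]
  have xs : ∀ i, x i ^ Q = x (i + 1) + t * c (i + 1) := fun i => by
    simp only [x, slPoly, eval_sub, eval_mul, eval_pow, eval_X, eval_C]
    obtain ⟨R, rfl⟩ : ∃ R, Q = R + 1 := ⟨Q - 1, by omega⟩
    rw [Nat.add_sub_cancel]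
    ring
  have xN : x (M + 1) = 0 := by simp only [x]; rw [ht.eq_zero, mul_zero]
  refine ⟨∑ i ∈ Finset.range (M + 1), x i • v i, fun h => ?_, ?_⟩
  · have := ind x h 0 M.succ_pos
    rw [x0, neg_eq_zero] at this
    exact mul_ne_zero t0 c0 this
  · have e1 := Finset.sum_range_succ' (fun i => x i • v i) (M + 1)
    rw [Finset.sum_range_succ, xN, zero_smul, add_zero] at e1
    have e2 := U.smul_mem t hc
    rw [Finset.sum_range_succ', smul_add, Finset.smul_sum] at e2
    simp only [map_sum, hψ, ← hv, xs, add_smul, Finset.sum_add_distrib]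
    rw [e1, x0]
    simp only [smul_smul] at e2
    rwa [add_sub_add_left_eq_sub, neg_smul, sub_neg_eq_add]

theorem sl_span [FiniteDimensional κ W] (hQ : 2 ≤ Q) (ψ : W →+ W)
    (hψ : ∀ (c : κ) (w : W), ψ (c • w) = c ^ Q • ψ w) (hinj : Function.Injective ψ) :
    Submodule.span κ {w | ψ w = w} = ⊤ := by
  set U := Submodule.span κ {w | ψ w = w}
  have h1 : ∀ y ∈ U, ∃ x ∈ U, ψ x = y := fun y hy => by
    induction hy using Submodule.span_induction with
    | mem y hy => exact ⟨y, Submodule.subset_span hy, hy⟩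
    | zero => exact ⟨0, U.zero_mem, map_zero _⟩
    | add y z _ _ hy hz =>
      obtain ⟨a, ha, rfl⟩ := hy
      obtain ⟨b, hb, rfl⟩ := hz
      exact ⟨a + b, U.add_mem ha hb, map_add _ _ _⟩
    | smul c y _ hy =>
      obtain ⟨a, ha, rfl⟩ := hy
      obtain ⟨r, rfl⟩ := IsAlgClosed.exists_pow_nat_eq c (n := Q) (by omega)
      exact ⟨r • a, U.smul_mem _ ha, hψ _ _⟩
  have h2 : ∀ y ∈ U, ∀ c : κ, ∃ x ∈ U, ψ x - x = c • y := fun y hy => by
    induction hy using Submodule.span_induction with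
    | mem y hy =>
      intro c
      have hd : (X ^ Q - X - C c : κ[X]).natDegree = Q := by
        rw [natDegree_sub_C, natDegree_sub_eq_left_of_natDegree_lt, natDegree_X_pow]
        rw [natDegree_X, natDegree_X_pow]
        omega
      obtain ⟨d, hd⟩ := IsAlgClosed.exists_root (X ^ Q - X - C c : κ[X])
        (natDegree_pos_iff_degree_pos.1 (by omega)).ne'
      refine ⟨d • y, U.smul_mem _ (Submodule.subset_span hy), ?_⟩
      have e : d ^ Q - d = c := by simpa [sub_eq_zero] using hd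
      rw [hψ, show ψ y = y from hy, ← sub_smul, e]
    | zero => exact fun c => ⟨0, U.zero_mem, by simp⟩
    | add y z _ _ hy hz =>
      intro c
      obtain ⟨a, ha, e1⟩ := hy c
      obtain ⟨b, hb, e2⟩ := hz c
      exact ⟨a + b, U.add_mem ha hb, by rw [map_add, add_sub_add_comm, e1, e2, smul_add]⟩
    | smul c y _ hy => exact fun d => by simpa only [mul_smul] using hy (d * c)
  refine eq_top_iff.2 fun w _ => ?_
  by_contra hw
  obtain ⟨u, h3, h4⟩ := sl_rel hQ ψ hψ U (fun x hx => by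
    obtain ⟨y, hy, e⟩ := h1 _ hx
    exact hinj e ▸ hy) hw
  obtain ⟨x, hx, e⟩ := h2 _ h4 1
  have h5 : u - x ∈ U := Submodule.subset_span (show ψ (u - x) = u - x by
    rw [one_smul, sub_eq_sub_iff_sub_eq_sub] at e
    rw [map_sub, ← neg_sub, e, neg_sub])
  exact h3 (by simpa using U.add_mem h5 hx)

theorem sl_card_root {p n : ℕ} [Fact p.Prime] [CharP κ p] (hn : 0 < n) :
    Nat.card {c : κ // c ^ p ^ n = c} = p ^ n := by
  have hp : 1 < p := (Fact.out : p.Prime).one_lt
  have h1 := card_rootSet_eq_natDegree (K := κ) (galois_poly_separable (K := κ) p (p ^ n)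
    (dvd_pow_self p hn.ne')) (IsAlgClosed.splits _)
  rw [FiniteField.X_pow_card_pow_sub_X_natDegree_eq κ hn.ne' hp, ← Nat.card_eq_fintype_card] at h1
  refine (Nat.card_congr (Equiv.subtypeEquivRight fun c => ?_)).trans h1
  rw [mem_rootSet_of_ne (FiniteField.X_pow_card_pow_sub_X_ne_zero κ hn.ne' hp)]
  simp [sub_eq_zero]

theorem sl_card_ne {α : Type*} {p : α → Prop} {a : α} (h : p a) :
    Nat.card {x // p x ∧ x ≠ a} = Nat.card {x // p x} - 1 :=
  Set.ncard_diff_singleton_of_mem (s := {x | p x}) h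

end

/-- Semilinear fixed points. Existence of a nonzero fixed vector: take `w ≠ 0`, `n` minimal with
`ψ^n w = ∑ a i ψ^i w` (`a 0 ≠ 0` by injectivity); `∑ x i ψ^i w` is fixed iff `x 0 = a 0 y`,
`x i = x (i-1) ^ Q + a i y`, where `y = x (n-1) ^ Q`; this is one polynomial equation for
`x (n-1)`, with a nonzero root. The fixed vectors span, so there is a basis of fixed vectors. -/
theorem card_semilinear_fixed {κ W : Type*} [Field κ] [IsAlgClosed κ] [AddCommGroup W]
    [Module κ W] [FiniteDimensional κ W] {p n : ℕ} [Fact p.Prime] [CharP κ p] (hn : 0 < n)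
    (ψ : W →+ W) (hψ : ∀ (c : κ) (w : W), ψ (c • w) = c ^ p ^ n • ψ w)
    (hinj : Function.Injective ψ) :
    Nat.card {w : W // ψ w = w} = (p ^ n) ^ Module.finrank κ W := by
  have hQ : 2 ≤ p ^ n := Nat.one_lt_pow hn.ne' (Fact.out : p.Prime).one_lt
  obtain ⟨b, h1, h2, h3⟩ := exists_linearIndependent κ {w | ψ w = w}
  rw [sl_span hQ ψ hψ hinj] at h2
  let B : Module.Basis b κ W := Module.Basis.mk h3 (by rw [Subtype.range_coe, h2])
  have : Finite b := Module.Finite.finite_basis B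
  have := Fintype.ofFinite b
  have hB : ∀ i, ψ (B i) = B i := fun i => by
    rw [show B i = i from Module.Basis.mk_apply _ _ i]; exact h1 i.2
  have e : ∀ w, B.equivFun (ψ w) = fun i => B.equivFun w i ^ p ^ n := fun w => by
    conv_lhs => rw [← B.sum_equivFun w]
    simp only [map_sum, hψ, hB]
    rw [← map_sum, ← B.equivFun_symm_apply, LinearEquiv.apply_symm_apply]
  have e2 : {w : W // ψ w = w} ≃ {x : b → κ // ∀ i, x i ^ p ^ n = x i} :=
    Equiv.subtypeEquiv B.equivFun.toEquiv fun w => by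
      rw [← B.equivFun.injective.eq_iff, e, funext_iff]; rfl
  rw [Nat.card_congr (e2.trans (Equiv.subtypePiEquivPi (p := fun _ (c : κ) => c ^ p ^ n = c))),
    Nat.card_pi, Finset.prod_const, sl_card_root hn, Module.finrank_eq_card_basis B,
    Finset.card_univ]

/-- Fixed lines: a fixed line contains exactly `Q - 1` nonzero fixed vectors. -/
theorem card_fixed_lines {κ W : Type*} [Field κ] [IsAlgClosed κ] [AddCommGroup W]
    [Module κ W] [FiniteDimensional κ W] {p n : ℕ} [Fact p.Prime] [CharP κ p] (hn : 0 < n)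
    (ψ : W →+ W) (hψ : ∀ (c : κ) (w : W), ψ (c • w) = c ^ p ^ n • ψ w)
    (hinj : Function.Injective ψ) :
    Nat.card {N : Submodule κ W // ∃ w : W, w ≠ 0 ∧ N = Submodule.span κ {w} ∧ ψ w ∈ N} *
      (p ^ n - 1) = (p ^ n) ^ Module.finrank κ W - 1 := by
  have hQ : 2 ≤ p ^ n := Nat.one_lt_pow hn.ne' (Fact.out : p.Prime).one_lt
  have ex : ∀ N : {N : Submodule κ W // ∃ w : W, w ≠ 0 ∧ N = Submodule.span κ {w} ∧ ψ w ∈ N},
      ∃ w, ψ w = w ∧ w ≠ 0 ∧ N.1 = Submodule.span κ {w} := by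
    rintro ⟨_, w, h0, rfl, h1⟩
    obtain ⟨a, ha⟩ := Submodule.mem_span_singleton.1 h1
    have a0 : a ≠ 0 := fun h => h0 (hinj (by rw [← ha, h, zero_smul, map_zero]))
    obtain ⟨c, hc⟩ := IsAlgClosed.exists_pow_nat_eq a⁻¹ (n := p ^ n - 1) (by omega)
    have c0 : c ≠ 0 := fun h => inv_ne_zero a0 (by rw [← hc, h, zero_pow (by omega)])
    refine ⟨c • w, ?_, smul_ne_zero c0 h0, (Submodule.span_singleton_smul_eq c0.isUnit w).symm⟩
    rw [hψ, ← ha, smul_smul, ← Nat.sub_add_cancel (show 1 ≤ p ^ n by omega), pow_succ', hc,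
      mul_assoc, inv_mul_cancel₀ a0, mul_one]
  choose r h1 h2 h3 using ex
  rw [← card_semilinear_fixed hn ψ hψ hinj, ← sl_card_ne (p := fun w => ψ w = w) (map_zero ψ)]
  nth_rw 1 [← sl_card_root (κ := κ) (p := p) hn]
  rw [← sl_card_ne (p := fun c : κ => c ^ p ^ n = c) (zero_pow (by omega)), ← Nat.card_prod]
  refine Nat.card_eq_of_bijective (fun x => ⟨x.2.1 • r x.1, by rw [hψ, h1, x.2.2.1],
    smul_ne_zero x.2.2.2 (h2 _)⟩) ⟨?_, ?_⟩
  · rintro ⟨N, c, hc⟩ ⟨N', c', hc'⟩ e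
    have e1 : c • r N = c' • r N' := congrArg Subtype.val e
    obtain rfl : N = N' := Subtype.ext (by
      rw [h3, h3, ← Submodule.span_singleton_smul_eq hc.2.isUnit, e1,
        Submodule.span_singleton_smul_eq hc'.2.isUnit])
    obtain rfl : c = c' := smul_left_injective κ (h2 N) e1
    rfl
  · rintro ⟨w, hw, w0⟩
    let N : {N : Submodule κ W // ∃ w : W, w ≠ 0 ∧ N = Submodule.span κ {w} ∧ ψ w ∈ N} :=
      ⟨Submodule.span κ {w}, w, w0, rfl, by rw [hw]; exact Submodule.mem_span_singleton_self w⟩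
    obtain ⟨c, hc⟩ := Submodule.mem_span_singleton.1
      (h3 N ▸ Submodule.mem_span_singleton_self w : w ∈ Submodule.span κ {r N})
    refine ⟨(N, ⟨c, smul_left_injective κ (h2 N) ?_, fun h => w0 (by rw [← hc, h, zero_smul])⟩),
      Subtype.ext hc⟩
    change c ^ p ^ n • r N = c • r N
    rw [hc, ← hw, ← hc, hψ, h1]

end Vale.Agent.P019
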