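import Mathlib

open scoped TensorProduct

namespace Vale.Agent.P019

/-- `V ℓ F` is the group `F^× / (F^×)^ℓ`, written additively. -/
def V (ℓ : ℕ) (F : Type*) [Field F] : Type _ := ModN (Additive Fˣ) ℓ

instance (ℓ : ℕ) (F : Type*) [Field F] : AddCommGroup (V ℓ F) :=
  inferInstanceAs (AddCommGroup (ModN (Additive Fˣ) ℓ))

instance (ℓ : ℕ) (F : Type*) [Field F] : Module (ZMod ℓ) (V ℓ F) :=
  inferInstanceAs (Module (ZMod ℓ) (ModN (Additive Fˣ) ℓ))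

/-- The class `[x]` in `V ℓ F` of a unit `x`. -/
def clu (ℓ : ℕ) {F : Type*} [Field F] (x : Fˣ) : V ℓ F := ModN.mkQ ℓ (Additive.ofMul x)

/-- The span of all `[x] ⊗ [y]` with `x + y = 1`, i.e. of the `[x] ⊗ [1 - x]`, `x ≠ 0, 1`. -/
def Rsub (ℓ : ℕ) (F : Type*) [Field F] : Submodule (ZMod ℓ) (V ℓ F ⊗[ZMod ℓ] V ℓ F) :=
  Submodule.span (ZMod ℓ)
    {t | ∃ x y : Fˣ, (x : F) + (y : F) = 1 ∧ t = clu ℓ x ⊗ₜ[ZMod ℓ] clu ℓ y}

end Vale.Agent.P019
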