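import Vale.Agent.P019.ZetaB

namespace Vale.Agent.P019

variable {X : Type*} {S : RRS X} {φ : Equiv.Perm X} {q : ℕ}

theorem zetac_psum (α : Multiset ℂ) (m r : ℕ) : psum (α.map (· ^ m)) r = psum α (m * r) := by
  simp [psum, Multiset.map_map, pow_mul]

/-- `zeta` for `φ` and for `φ ^ m`, and `prod_eq_of_psum` -/
theorem RRS.Frob.card_fix0_pow (h : S.Frob φ q) :
    ∃ α : Multiset ℂ, Multiset.card α = 2 * S.g ∧ α.prod = (q : ℂ) ^ S.g ∧
      (∀ c ∈ α, IsIntegral ℤ c) ∧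
      ∀ m : ℕ, 0 < m → (Nat.card (S.fix0 (φ ^ m)) : ℂ) = (α.map fun c => 1 - c ^ m).prod := by
  obtain ⟨α, h1, h2, h3, h4, -⟩ := h.zeta
  refine ⟨α, h1, h2, h3, fun m hm => ?_⟩
  obtain ⟨α', -, -, -, h5, h6⟩ := (h.pow hm).zeta
  rw [h6, prod_eq_of_psum α' (α.map (· ^ m)) fun r hr => ?_, Multiset.map_map]
  · rfl
  have e1 := h4 _ (Nat.mul_pos hm hr)
  have e2 := h5 r hr
  rw [← pow_mul, e1, Nat.cast_pow, ← pow_mul, sub_right_inj] at e2
  rw [zetac_psum, e2]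

theorem zetac_norm_orb (φ : Equiv.Perm X) (n r : ℕ) (P : X) :
    ∑ i ∈ Finset.range n, (orb (φ ^ n) r P).mapDomain (φ ^ i : Equiv.Perm X) = orb φ (n * r) P := by
  induction r with
  | zero => simp [orb]
  | succ r ih =>
    unfold orb at ih ⊢
    rw [Nat.mul_succ, Finset.sum_range_add _ (n * r), ← ih, ← Finset.sum_add_distrib]
    refine Finset.sum_congr rfl fun i _ => ?_
    rw [Finset.sum_range_succ, Finsupp.mapDomain_add, Finsupp.mapDomain_single, ← pow_mul,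
      add_comm (n * r), pow_add]
    rfl

theorem zetac_pow_fix {P : X} (hP : φ P = P) (i : ℕ) : (φ ^ i) P = P :=
  zetaa_dvd.2 ((zetaa_dvd.1 ((pow_one φ).symm ▸ hP)).trans (one_dvd i))

/-- Lang. If the norm is not onto, take a nontrivial character `χ` of `fix0 φ` trivial on norms.
For `m = n m'`, `orb φ m P - m P₀` is the norm of `orb (φ ^ n) m' P - m' P₀`. So `lfun` and `zeta`
give `psum (α ^ n) r = 1 + q ^ (n r) + psum (β ^ n) r` for all `r > 0`, and `prod_eq_of_psum`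
(the multiset on the right contains `1`) gives `card (fix0 (φ ^ n)) = 0`. -/
theorem RRS.Frob.norm_surj (h : S.Frob φ q) {n : ℕ} (hn : 0 < n) {c : S.Pic} (hc : c ∈ S.fix0 φ) :
    ∃ D : X →₀ ℤ, D.degree = 0 ∧ D.mapDomain (φ ^ n : Equiv.Perm X) - D ∈ S.Pr ∧
      ((∑ i ∈ Finset.range n, D.mapDomain (φ ^ i : Equiv.Perm X) : X →₀ ℤ) : S.Pic) = c := by
  by_contra hc'
  obtain ⟨P₀, hP⟩ := h.pt
  have := h.finite_fix0
  let H : AddSubgroup (S.fix0 φ) :=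
    { carrier := {c | ∃ D : X →₀ ℤ, D.degree = 0 ∧ D.mapDomain (φ ^ n : Equiv.Perm X) - D ∈ S.Pr ∧
        ((∑ i ∈ Finset.range n, D.mapDomain (φ ^ i : Equiv.Perm X) : X →₀ ℤ) : S.Pic) = c}
      add_mem' := by
        rintro a b ⟨D, h1, h2, h3⟩ ⟨E, h4, h5, h6⟩
        refine ⟨D + E, by rw [map_add, h1, h4, add_zero], ?_, ?_⟩
        · rw [Finsupp.mapDomain_add, add_sub_add_comm]
          exact S.Pr.add_mem h2 h5
        · simp only [Finsupp.mapDomain_add, Finset.sum_add_distrib, QuotientAddGroup.mk_add, h3, h6,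
            AddSubgroup.coe_add]
      zero_mem' := ⟨0, map_zero _, by simp, by simp⟩
      neg_mem' := by
        rintro a ⟨D, h1, h2, h3⟩
        have e : ∀ f : X → X, (-D).mapDomain f = -D.mapDomain f := fun f =>
          map_neg (Finsupp.mapDomain.addMonoidHom f) D
        refine ⟨-D, by rw [map_neg, h1, neg_zero], ?_, ?_⟩
        · rw [e, neg_sub_neg, ← neg_sub]
          exact S.Pr.neg_mem h2
        · simp only [e, Finset.sum_neg_distrib, QuotientAddGroup.mk_neg, h3, AddSubgroup.coe_neg] }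
  obtain ⟨ψ, hψ⟩ := (AddChar.exists_apply_ne_zero (a := ((⟨c, hc⟩ : S.fix0 φ) : _ ⧸ H))).2
    fun e => hc' ((QuotientAddGroup.eq_zero_iff _).1 e)
  obtain ⟨β, hβ⟩ := h.lfun hP (ψ.compAddMonoidHom (QuotientAddGroup.mk' H)) fun e =>
    hψ (DFunLike.congr_fun e ⟨c, hc⟩)
  obtain ⟨α, -, -, -, h1, h2⟩ := (h.pow hn).zeta
  have := (h.pow hn).finite_fix0
  rw [prod_eq_of_psum α (1 ::ₘ ((q : ℂ) ^ n) ::ₘ β.map (· ^ n)) fun r hr => ?_] at h2
  · simp [Nat.card_pos.ne'] at h2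
  have e1 := hβ _ (Nat.mul_pos hn hr) fun P hP' d hd => by
    have : ((d : S.fix0 φ) : _ ⧸ H) = 0 := (QuotientAddGroup.eq_zero_iff _).2
      ⟨orb (φ ^ n) r P - Finsupp.single P₀ (r : ℤ), by
        rw [map_sub, zetaa_orb_deg, Finsupp.degree_single, sub_self], by
        rw [zetaa_map_sub, zetaa_orb_fix (by rwa [← pow_mul]), Finsupp.mapDomain_single,
          zetac_pow_fix hP, sub_self]
        exact S.Pr.zero_mem, by
        simp only [zetaa_map_sub, Finset.sum_sub_distrib, zetac_norm_orb, Finsupp.mapDomain_single,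
          zetac_pow_fix hP, Finset.sum_const, Finset.card_range, Finsupp.smul_single, hd,
          nsmul_eq_mul, Nat.cast_mul]⟩
    exact (congrArg ψ this).trans ψ.map_zero_eq_one
  have e2 := h1 r hr
  rw [← pow_mul, e1, ← zetac_psum] at e2
  simp only [psum, Multiset.map_cons, Multiset.sum_cons, one_pow, Nat.cast_pow] at e2 ⊢
  linear_combination e2

theorem zetac_unit {ℓ : ℕ} [Fact ℓ.Prime] (α : Multiset ℂ) (hα : ∀ c ∈ α, IsIntegral ℤ c)
    {Q : ℕ} (hQ : Nat.Coprime Q ℓ) (hp : α.prod = Q) :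
    ∃ n₀ : ℕ, 0 < n₀ ∧ ∀ c ∈ α, ∃ r, IsIntegral ℤ r ∧ c ^ n₀ = 1 + (ℓ : ℂ) ^ 2 * r := by
  let R := Algebra.adjoin ℤ {c | c ∈ α}
  have : Module.Finite ℤ R := Algebra.finite_adjoin_of_finite_of_isIntegral α.finite_toSet hα
  let I : Ideal R := Ideal.span {(ℓ : R) ^ 2}
  have : Finite (R ⧸ I) := Module.finite_of_fg_torsion _ fun x => by
    obtain ⟨x, rfl⟩ := Ideal.Quotient.mk_surjective x
    refine ⟨⟨(ℓ : ℤ) ^ 2, mem_nonZeroDivisors_of_ne_zero
      (pow_ne_zero _ (Nat.cast_ne_zero.2 (Fact.out : ℓ.Prime).ne_zero))⟩, ?_⟩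
    rw [Submonoid.mk_smul, ← map_zsmul, Ideal.Quotient.eq_zero_iff_mem, zsmul_eq_mul]
    push_cast
    exact Ideal.mul_mem_right _ _ (Ideal.mem_span_singleton_self _)
  refine ⟨Nat.card (R ⧸ I)ˣ, Nat.card_pos, fun c hc => ?_⟩
  classical
  have hc1 : c ∈ R := Algebra.subset_adjoin hc
  have hc2 : (α.erase c).prod ∈ R := Subalgebra.multiset_prod_mem _ fun x hx =>
    Algebra.subset_adjoin (Multiset.mem_of_mem_erase hx)
  have e1 : (⟨c, hc1⟩ : R) * ⟨_, hc2⟩ = Q := Subtype.ext ((Multiset.prod_erase hc).trans hp)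
  obtain ⟨a, b, hab⟩ := (Nat.isCoprime_iff_coprime.2 (hQ.pow_right 2)).intCast (R := R)
  have hu : IsUnit (Ideal.Quotient.mk I ⟨c, hc1⟩) := by
    refine IsUnit.of_mul_eq_one (Ideal.Quotient.mk I (⟨_, hc2⟩ * a)) ?_
    rw [← map_mul, ← mul_assoc, e1, ← map_one (Ideal.Quotient.mk I), Ideal.Quotient.eq,
      Ideal.mem_span_singleton']
    exact ⟨-b, by push_cast at hab; linear_combination -hab⟩
  obtain ⟨u, hu⟩ := hu
  have h1 := congrArg Units.val (pow_card_eq_one' (x := u))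
  rw [Units.val_pow_eq_pow_val, hu, Units.val_one, ← map_pow, ← map_one (Ideal.Quotient.mk I),
    Ideal.Quotient.eq, Ideal.mem_span_singleton'] at h1
  obtain ⟨r, hr⟩ := h1
  refine ⟨r, (Algebra.IsIntegral.isIntegral (R := ℤ) r).map R.val, ?_⟩
  have h2 := congrArg R.val hr
  simp only [map_mul, map_pow, map_natCast, map_sub, map_one, Subalgebra.coe_val] at h2
  linear_combination -h2

theorem zetac_pow {L y : ℂ} (hL : IsIntegral ℤ L) (h : ∃ r, IsIntegral ℤ r ∧ y = 1 + L * r) (i : ℕ) :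
    ∃ r, IsIntegral ℤ r ∧ y ^ i = 1 + L * r := by
  obtain ⟨r, h1, rfl⟩ := h
  induction i with
  | zero => exact ⟨0, isIntegral_zero, by simp⟩
  | succ i ih =>
    obtain ⟨s, h2, h3⟩ := ih
    exact ⟨s + r + L * (s * r), (h2.add h1).add (hL.mul (h2.mul h1)), by rw [pow_succ, h3]; ring⟩

/-- In the finite ring `ℤ[α] / ℓ ^ 2` the `α` are units (their product is `q ^ g`), so
`α ^ n ≡ 1` for all multiples `n` of some `n₀`. Then `∏ (1 + α ^ n + … + α ^ (n (ℓ - 1))) =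
ℓ ^ (2 g) (1 + ℓ r)` with `r` integral; a rational algebraic integer is an integer. -/
theorem exists_ratio {ℓ : ℕ} [Fact ℓ.Prime] (α : Multiset ℂ) (hα : ∀ c ∈ α, IsIntegral ℤ c)
    {Q : ℕ} (hQ : Nat.Coprime Q ℓ) (hp : α.prod = Q) :
    ∃ n₀ : ℕ, 0 < n₀ ∧ ∀ n : ℕ, 0 < n → n₀ ∣ n → ∀ a b : ℕ, 0 < a →
      (a : ℂ) = (α.map fun c => 1 - c ^ n).prod → (b : ℂ) = (α.map fun c => 1 - c ^ (n * ℓ)).prod →
        ∃ u : ℕ, ¬ ℓ ∣ u ∧ b = a * (ℓ ^ Multiset.card α * u) := by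
  obtain ⟨n₀, h0, h1⟩ := zetac_unit α hα hQ hp
  have lp := (Fact.out : ℓ.Prime)
  have li : IsIntegral ℤ (ℓ : ℂ) := isIntegral_natCast ℓ
  refine ⟨n₀, h0, ?_⟩
  rintro _ - ⟨k, rfl⟩ a b a0 ha hb
  have key : ∀ γ : Multiset ℂ, (∀ c ∈ γ, c ∈ α) → ∃ t, IsIntegral ℤ t ∧
      (γ.map fun c => 1 - c ^ (n₀ * k * ℓ)).prod =
        (γ.map fun c => 1 - c ^ (n₀ * k)).prod * ((ℓ : ℂ) ^ Multiset.card γ * (1 + ℓ * t)) := by
    intro γ
    induction γ using Multiset.induction_on with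
    | empty => exact fun _ => ⟨0, isIntegral_zero, by simp⟩
    | cons c γ ih =>
      intro hγ
      obtain ⟨t, t1, t2⟩ := ih fun x hx => hγ x (Multiset.mem_cons_of_mem hx)
      choose r r1 r2 using zetac_pow (li.pow 2)
        (zetac_pow (li.pow 2) (h1 c (hγ c (Multiset.mem_cons_self _ _))) k)
      have s1 : IsIntegral ℤ (∑ i ∈ Finset.range ℓ, r i) := IsIntegral.sum _ fun i _ => r1 i
      have s2 := mul_neg_geom_sum ((c ^ n₀) ^ k) ℓ
      rw [Finset.sum_congr rfl fun i _ => r2 i, Finset.sum_add_distrib, ← Finset.mul_sum,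
        Finset.sum_const, Finset.card_range, nsmul_one, ← pow_mul, ← pow_mul] at s2
      refine ⟨t + ∑ i ∈ Finset.range ℓ, r i + ℓ * (t * ∑ i ∈ Finset.range ℓ, r i),
        (t1.add s1).add (li.mul (t1.mul s1)), ?_⟩
      simp only [Multiset.map_cons, Multiset.prod_cons, Multiset.card_cons, t2, ← s2]
      ring
  obtain ⟨t, t1, t2⟩ := key α fun _ h => h
  rw [← ha, ← hb] at t2
  have l0 : (ℓ : ℂ) ≠ 0 := Nat.cast_ne_zero.2 lp.ne_zero
  have a1 : (a : ℂ) ≠ 0 := Nat.cast_ne_zero.2 a0.ne'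
  have t3 : t = algebraMap ℚ ℂ (((b : ℚ) / (a * ℓ ^ Multiset.card α) - 1) / ℓ) := by
    simp only [eq_ratCast]
    push_cast
    rw [t2]
    field_simp
    ring
  rw [t3, isIntegral_algebraMap_iff (algebraMap ℚ ℂ).injective,
    IsIntegrallyClosed.isIntegral_iff] at t1
  obtain ⟨z, hz⟩ := t1
  rw [← hz] at t3
  have t4 : (b : ℤ) = a * (ℓ ^ Multiset.card α * (1 + ℓ * z)) := by
    rw [t3, eq_intCast, map_intCast] at t2
    exact_mod_cast t2
  have t5 : 0 ≤ 1 + ℓ * z := by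
    have : (0 : ℤ) < a * ℓ ^ Multiset.card α := by have := lp.pos; positivity
    rw [← mul_assoc] at t4
    exact nonneg_of_mul_nonneg_right (t4 ▸ Nat.cast_nonneg b) this |> fun h => h
  obtain ⟨u, hu⟩ := Int.eq_ofNat_of_zero_le t5
  refine ⟨u, fun hd => lp.not_dvd_one ?_, by rw [hu] at t4; exact_mod_cast t4⟩
  have h2 : (ℓ : ℤ) ∣ 1 + ℓ * z := hu ▸ Int.natCast_dvd_natCast.2 hd
  exact_mod_cast (dvd_add_left (dvd_mul_right (ℓ : ℤ) z)).1 h2

theorem zetac_group {K : Type*} [AddCommGroup K] [Finite K] {ℓ k u : ℕ} [Fact ℓ.Prime]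
    (hu : ¬ℓ ∣ u) (hK : Nat.card K = ℓ ^ k * u) : Nat.card {x : K // ℓ • x = 0} ∣ ℓ ^ k ∧
      ((∀ x : K, ℓ • ℓ • x = 0 → ℓ • x = 0) → ℓ ^ k ∣ Nat.card {x : K // ℓ • x = 0}) := by
  have lp := (Fact.out : ℓ.Prime)
  let T : AddSubgroup K := (nsmulAddMonoidHom ℓ : K →+ K).ker
  change Nat.card T ∣ _ ∧ (_ → _ ∣ Nat.card T)
  refine ⟨Nat.Coprime.dvd_of_dvd_mul_right (Nat.coprime_of_dvd fun p hp h1 h2 => ?_)
    (hK ▸ T.card_addSubgroup_dvd_card), fun h => ?_⟩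
  · have := Fact.mk hp
    obtain ⟨x, hx⟩ := exists_prime_addOrderOf_dvd_card' p h1
    have h3 : p ∣ ℓ := hx ▸ addOrderOf_dvd_of_nsmul_eq_zero (Subtype.ext x.2)
    exact hu ((Nat.prime_dvd_prime_iff_eq hp lp).1 h3 ▸ h2)
  · have h1 : ¬ℓ ∣ Nat.card (K ⧸ T) := fun h1 => by
      obtain ⟨x, hx⟩ := exists_prime_addOrderOf_dvd_card' ℓ h1
      obtain ⟨x, rfl⟩ := QuotientAddGroup.mk_surjective x
      have h2 := addOrderOf_nsmul_eq_zero (x : K ⧸ T)
      rw [hx, ← QuotientAddGroup.mk_nsmul, QuotientAddGroup.eq_zero_iff] at h2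
      rw [(QuotientAddGroup.eq_zero_iff x).2 (h x h2), addOrderOf_zero] at hx
      exact lp.one_lt.ne hx
    refine Nat.Coprime.dvd_of_dvd_mul_left (((lp.coprime_iff_not_dvd).2 h1).pow_left k) ?_
    rw [← T.card_eq_card_quotient_mul_card_addSubgroup, hK]
    exact dvd_mul_right _ _

theorem zetac_app {A : Type*} [AddCommGroup A] (f g : AddMonoid.End A) (x : A) :
    (f * g) x = f (g x) := rfl

/-- the action on classes -/
noncomputable def zΦ (h : S.Frob φ q) : AddMonoid.End S.Pic :=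
  QuotientAddGroup.map S.Pr S.Pr (Finsupp.mapDomain.addMonoidHom φ) h.pr

/-- the degree of a class -/
noncomputable def zdeg (S : RRS X) : S.Pic →+ ℤ := QuotientAddGroup.lift S.Pr Finsupp.degree S.deg_pr

theorem zΦ_pow (h : S.Frob φ q) (m : ℕ) (D : X →₀ ℤ) :
    (zΦ h ^ m) (D : S.Pic) = (D.mapDomain (φ ^ m : Equiv.Perm X) : X →₀ ℤ) := by
  induction m with
  | zero => simp
  | succ m ih => rw [pow_succ', zetac_app, ih, zetab_map_succ]; rfl

theorem zetac_mem (h : S.Frob φ q) (m : ℕ) (c : S.Pic) :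
    c ∈ S.fix0 (φ ^ m) ↔ zdeg S c = 0 ∧ (zΦ h ^ m) c = c := by
  constructor
  · rintro ⟨D, rfl, h1, h2⟩
    exact ⟨h1, by rw [zΦ_pow, eq_comm, QuotientAddGroup.eq, neg_add_eq_sub]; exact h2⟩
  · obtain ⟨D, rfl⟩ := QuotientAddGroup.mk_surjective c
    rintro ⟨h1, h2⟩
    rw [zΦ_pow, eq_comm, QuotientAddGroup.eq, neg_add_eq_sub] at h2
    exact ⟨D, rfl, h1, h2⟩

theorem zetac_mul (h : S.Frob φ q) {m : ℕ} {c : S.Pic} (hc : (zΦ h ^ m) c = c) (i : ℕ) :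
    (zΦ h ^ (m * i)) c = c := by
  induction i with
  | zero => rfl
  | succ i ih => rw [Nat.mul_succ, pow_add, zetac_app, hc, ih]

theorem zetac_deg (h : S.Frob φ q) (m : ℕ) (c : S.Pic) : zdeg S ((zΦ h ^ m) c) = zdeg S c := by
  obtain ⟨D, rfl⟩ := QuotientAddGroup.mk_surjective c
  rw [zΦ_pow]
  exact Finsupp.degree_mapDomain _ _

theorem zetac_fix (h : S.Frob φ q) {F : Set S.Pic} (hF : F.Finite) {L : ℕ} (hL : 0 < L)
    (hT : ∀ c ∈ F, L • c = 0) {n₀ : ℕ} (h0 : 0 < n₀) :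
    ∃ n, 0 < n ∧ n₀ ∣ n ∧ ∀ c ∈ F, c ∈ S.fix0 (φ ^ n) := by
  have ex : ∀ c : S.Pic, ∃ m, 0 < m ∧ (zΦ h ^ m) c = c := fun c => by
    obtain ⟨D, rfl⟩ := QuotientAddGroup.mk_surjective c
    choose m m0 hm using h.per
    refine ⟨∏ P ∈ D.support, m P, Finset.prod_pos fun P _ => m0 P, ?_⟩
    rw [zΦ_pow, Finsupp.mapDomain_congr (f := (φ ^ _ : Equiv.Perm X)) (g := id) fun P hP =>
      zetaa_dvd.2 ((zetaa_dvd.1 (hm P)).trans (Finset.dvd_prod_of_mem m hP)), Finsupp.mapDomain_id]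
  choose m m0 hm using ex
  refine ⟨n₀ * ∏ c ∈ hF.toFinset, m c, Nat.mul_pos h0 (Finset.prod_pos fun c _ => m0 c),
    dvd_mul_right _ _, fun c hc => (zetac_mem h _ c).2 ⟨?_, ?_⟩⟩
  · have := congrArg (zdeg S) (hT c hc)
    rw [map_nsmul, map_zero, smul_eq_zero] at this
    exact this.resolve_left hL.ne'
  · obtain ⟨i, hi⟩ := (Finset.dvd_prod_of_mem m (hF.mem_toFinset.2 hc)).mul_left n₀
    rw [hi]
    exact zetac_mul h (hm c) i

theorem zetac_ker (h : S.Frob φ q) {n ℓ : ℕ} (hn : 0 < n) (hl : 0 < ℓ) :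
    ∃ K : AddSubgroup S.Pic, Finite K ∧
      Nat.card (S.fix0 (φ ^ (n * ℓ))) = Nat.card (S.fix0 (φ ^ n)) * Nat.card K ∧
      ∀ c ∈ S.fix0 (φ ^ n), c ∈ K ↔ ℓ • c = 0 := by
  let N : AddMonoid.End S.Pic := ∑ i ∈ Finset.range ℓ, zΦ h ^ (n * i)
  have hN : ∀ c, N c = ∑ i ∈ Finset.range ℓ, (zΦ h ^ (n * i)) c := fun c =>
    AddMonoidHom.finsetSum_apply _ _ _
  have hm : ∀ c : S.fix0 (φ ^ (n * ℓ)), N c ∈ S.fix0 (φ ^ n) := fun c => by
    obtain ⟨h1, h2⟩ := (zetac_mem h _ _).1 c.2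
    refine (zetac_mem h _ _).2 ⟨?_, ?_⟩
    · simp only [hN, map_sum, zetac_deg, h1, Finset.sum_const_zero]
    · have e := Finset.sum_range_succ (fun i => (zΦ h ^ (n * i)) c) ℓ
      rw [Finset.sum_range_succ', h2, mul_zero, pow_zero, AddMonoid.End.one_apply,
        add_left_inj] at e
      rw [hN, map_sum]
      refine Eq.trans ?_ e
      simp only [Nat.mul_succ, add_comm _ n, pow_add, zetac_app]
  let f : S.fix0 (φ ^ (n * ℓ)) →+ S.fix0 (φ ^ n) :=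
    (AddMonoidHom.comp N (S.fix0 (φ ^ (n * ℓ))).subtype).codRestrict _ hm
  have hf : Function.Surjective f := fun c => by
    obtain ⟨D, h1, h2, h3⟩ := (h.pow hn).norm_surj hl c.2
    refine ⟨⟨D, D, rfl, h1, by rwa [pow_mul]⟩, Subtype.ext ((hN _).trans ?_)⟩
    rw [← h3, QuotientAddGroup.mk_sum]
    exact Finset.sum_congr rfl fun i _ => (zΦ_pow h _ D).trans (by rw [pow_mul])
  have := (h.pow (Nat.mul_pos hn hl)).finite_fix0
  refine ⟨f.ker.map (AddSubgroup.subtype _), Finite.of_injective _ (AddSubgroup.inclusion_injective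
    (AddSubgroup.map_subtype_le _)), ?_, fun c hc => ?_⟩
  · rw [AddSubgroup.card_map_of_injective (AddSubgroup.subtype_injective _),
      f.ker.card_eq_card_quotient_mul_card_addSubgroup,
      Nat.card_congr (QuotientAddGroup.quotientKerEquivOfSurjective f hf).toEquiv]
  · obtain ⟨h1, h2⟩ := (zetac_mem h _ _).1 hc
    have e : N c = ℓ • c := by
      simp only [hN, zetac_mul h h2, Finset.sum_const, Finset.card_range]
    constructor
    · rintro ⟨d, hd, rfl⟩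
      exact e.symm.trans (congrArg Subtype.val hd)
    · exact fun h3 => ⟨⟨c, (zetac_mem h _ _).2 ⟨h1, zetac_mul h h2 ℓ⟩⟩, Subtype.ext (e.trans h3), rfl⟩

/-- For `ψ = φ ^ n`, `n₀ ∣ n`, the norm `N : fix0 (ψ ^ ℓ) → fix0 ψ` is onto, so
`card (ker N) = ℓ ^ (2 g) u`. The `ℓ`-torsion of `fix0 ψ` lies in `ker N`; every class is fixed by a
power of `φ` and torsion classes have degree zero; so the `ℓ`-torsion `A[ℓ]` of `Pic` is finite of
order at most `ℓ ^ (2 g)`. Choose `n` such that `ψ` fixes `A[ℓ ^ 2]`; then `ker N` has no element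
of order `ℓ ^ 2`. -/
theorem RRS.Frob.card_torsion (h : S.Frob φ q) {ℓ : ℕ} [Fact ℓ.Prime] (hq : Nat.Coprime q ℓ) :
    Nat.card {c : S.Pic // ℓ • c = 0} = ℓ ^ (2 * S.g) := by
  have lp := (Fact.out : ℓ.Prime)
  obtain ⟨α, h1, h2, h3, h4⟩ := h.card_fix0_pow
  obtain ⟨n₀, h0, h5⟩ := exists_ratio (ℓ := ℓ) α h3 (hq.pow_left S.g) (by rw [h2, Nat.cast_pow])
  have key : ∀ n, 0 < n → n₀ ∣ n → ∃ K : AddSubgroup S.Pic, Finite K ∧
      (∃ u, ¬ℓ ∣ u ∧ Nat.card K = ℓ ^ (2 * S.g) * u) ∧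
      ∀ c ∈ S.fix0 (φ ^ n), c ∈ K ↔ ℓ • c = 0 := fun n hn hd => by
    obtain ⟨K, k1, k2, k3⟩ := zetac_ker h hn lp.pos
    have := (h.pow hn).finite_fix0
    obtain ⟨u, u1, u2⟩ := h5 n hn hd _ _ Nat.card_pos (h4 n hn) (h4 _ (Nat.mul_pos hn lp.pos))
    exact ⟨K, k1, ⟨u, u1, h1 ▸ Nat.eq_of_mul_eq_mul_left Nat.card_pos (k2.symm.trans u2)⟩, k3⟩
  have f1 : {c : S.Pic | ℓ • c = 0}.Finite := by
    by_contra hinf
    obtain ⟨F, F1, F2⟩ := Set.Infinite.exists_subset_card_eq hinf (ℓ ^ (2 * S.g) + 1)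
    obtain ⟨n, hn, hd, hF⟩ := zetac_fix h F.finite_toSet lp.pos F1 h0
    obtain ⟨K, k1, ⟨u, u1, u2⟩, k3⟩ := key n hn hd
    have e1 := Nat.le_of_dvd (pow_pos lp.pos _) (zetac_group u1 u2).1
    have e2 := Nat.card_le_card_of_injective (β := {x : K // ℓ • x = 0})
      (fun c : F => ⟨⟨c, (k3 c (hF c c.2)).2 (F1 c.2)⟩, Subtype.ext (F1 c.2)⟩)
      fun c d e => Subtype.ext (congrArg (fun x => x.1.1) e)
    rw [Nat.card_eq_fintype_card, Fintype.card_coe, F2] at e2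
    omega
  have f2 : {c : S.Pic | (ℓ * ℓ) • c = 0}.Finite := by
    refine (f1.preimage' (f := fun c : S.Pic => ℓ • c) fun b _ => ?_).subset fun c hc =>
      (mul_nsmul' c ℓ ℓ).symm.trans hc
    rcases ((fun c : S.Pic => ℓ • c) ⁻¹' {b}).eq_empty_or_nonempty with e | ⟨x, hx⟩
    · rw [e]; exact Set.finite_empty
    · refine (f1.image (x + ·)).subset fun y hy => ⟨y - x, ?_, add_sub_cancel _ _⟩
      change ℓ • (y - x) = 0
      rw [nsmul_sub, show ℓ • y = b from hy, show ℓ • x = b from hx, sub_self]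
  obtain ⟨n, hn, hd, hF⟩ := zetac_fix h f2 (Nat.mul_pos lp.pos lp.pos) (fun _ h => h) h0
  obtain ⟨K, k1, ⟨u, u1, u2⟩, k3⟩ := key n hn hd
  obtain ⟨g1, g2⟩ := zetac_group u1 u2
  rw [← Nat.dvd_antisymm g1 (g2 fun x hx => Subtype.ext ((k3 x (hF x (by
    change (ℓ * ℓ) • (x : S.Pic) = 0
    rw [mul_smul]; exact congrArg Subtype.val hx))).1 x.2))]
  refine (Nat.card_eq_of_bijective (fun x => ⟨x.1.1, congrArg Subtype.val x.2⟩)
    ⟨fun x y e => Subtype.ext (Subtype.ext (congrArg (fun z => z.1) e)), fun c => ?_⟩).symm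
  refine ⟨⟨⟨c, (k3 c (hF c ?_)).2 c.2⟩, Subtype.ext c.2⟩, rfl⟩
  change (ℓ * ℓ) • (c : S.Pic) = 0
  rw [mul_smul, c.2, smul_zero]

end Vale.Agent.P019
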