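import Vale.Agent.P019.CurveC
import Vale.Agent.P019.CurveE
import Vale.Agent.P019.ZetaC
import Vale.Agent.P019.SL

open scoped IntermediateField
open Polynomial

namespace Vale.Agent.P019

section per
variable {F : Type*} [Field F]

theorem tgeo_common {X : Type*} (φ : X → X) (S : Finset X)
    (h : ∀ x ∈ S, x ∈ Function.periodicPts φ) :
    ∃ n : ℕ, 0 < n ∧ ∀ x ∈ S, Function.IsPeriodicPt φ n x := by
  choose! m hm hm' using h
  exact ⟨∏ x ∈ S, m x, Finset.prod_pos hm, fun x hx =>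
    (hm' x hx).trans_dvd (Finset.dvd_prod_of_mem m hx)⟩

/-- periodic elements -/
def tgeo_per (φ : F →+* F) : Subfield F where
  carrier := Function.periodicPts φ
  mul_mem' := fun {a b} ⟨m, hm, ha⟩ ⟨n, hn, hb⟩ => ⟨m * n, Nat.mul_pos hm hn, by
    have h1 : (φ ^ (m * n)) a = a := by rw [RingHom.coe_pow]; exact ha.mul_const n
    have h2 : (φ ^ (m * n)) b = b := by rw [RingHom.coe_pow]; exact hb.const_mul m
    show φ^[m * n] (a * b) = a * b
    rw [← RingHom.coe_pow, map_mul, h1, h2]⟩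
  one_mem' := ⟨1, one_pos, map_one φ⟩
  add_mem' := fun {a b} ⟨m, hm, ha⟩ ⟨n, hn, hb⟩ => ⟨m * n, Nat.mul_pos hm hn, by
    have h1 : (φ ^ (m * n)) a = a := by rw [RingHom.coe_pow]; exact ha.mul_const n
    have h2 : (φ ^ (m * n)) b = b := by rw [RingHom.coe_pow]; exact hb.const_mul m
    show φ^[m * n] (a + b) = a + b
    rw [← RingHom.coe_pow, map_add, h1, h2]⟩
  zero_mem' := ⟨1, one_pos, map_zero φ⟩
  neg_mem' := fun {a} ⟨m, hm, ha⟩ => ⟨m, hm, by
    have h1 : (φ ^ m) a = a := by rw [RingHom.coe_pow]; exact ha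
    show φ^[m] (-a) = -a
    rw [← RingHom.coe_pow, map_neg, h1]⟩
  inv_mem' := fun a ⟨m, hm, ha⟩ => ⟨m, hm, by
    have h1 : (φ ^ m) a = a := by rw [RingHom.coe_pow]; exact ha
    show φ^[m] a⁻¹ = a⁻¹
    rw [← RingHom.coe_pow, map_inv₀, h1]⟩

theorem tgeo_aeval_mem {R : Type*} [CommRing R] [Algebra R F] (S : Subfield F)
    (h : ∀ c : R, algebraMap R F c ∈ S) {x : F} (hx : x ∈ S) (f : R[X]) : aeval x f ∈ S := by
  rw [aeval_eq_sum_range]
  refine S.sum_mem fun i _ => ?_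
  rw [Algebra.smul_def]
  exact S.mul_mem (h _) (S.pow_mem hx _)

theorem tgeo_iter_const {κ : Type*} [Field κ] [Algebra κ F] (σ : F → F) {Q : ℕ}
    (h : ∀ c : κ, σ (algebraMap κ F c) = algebraMap κ F (c ^ Q)) (m : ℕ) (c : κ) :
    σ^[m] (algebraMap κ F c) = algebraMap κ F (c ^ Q ^ m) := by
  induction m with
  | zero => simp
  | succ m ih => rw [Function.iterate_succ_apply', ih, h, ← pow_mul, ← pow_succ]

/-- extension of a periodic endomorphism along a simple extension -/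
theorem tgeo_extend {E : Type*} [Field E] [Algebra F E] (pb : PowerBasis F E) (σ : F →+* F)
    (hσ : ∀ a, a ∈ Function.periodicPts σ) :
    ∃ (n : ℕ) (φ : E ≃+* E), 0 < n ∧ (∀ a, φ (algebraMap F E a) = algebraMap F E (σ^[n] a)) ∧
      ∀ g : E, ∃ m : ℕ, 0 < m ∧ (φ ^ m) g = g := by
  classical
  set f := minpoly F pb.gen with hf
  obtain ⟨n, hn, hS⟩ := tgeo_common σ (f.support.image f.coeff) fun x _ => hσ x
  have hfix : f.map (σ ^ n) = f := by
    ext i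
    rw [coeff_map, RingHom.coe_pow]
    by_cases hi : i ∈ f.support
    · exact hS _ (Finset.mem_image_of_mem _ hi)
    · rw [notMem_support_iff.1 hi, ← RingHom.coe_pow, map_zero]
  have hroot : f.eval₂ ((algebraMap F E).comp (σ ^ n)) pb.gen = 0 := by
    rw [← eval₂_map, hfix]; exact minpoly.aeval F pb.gen
  let e : AdjoinRoot f ≃ₐ[F] E := AdjoinRoot.equiv' f pb
    (by rw [AdjoinRoot.aeval_eq, AdjoinRoot.mk_self]) (minpoly.aeval _ _)
  have he : e (AdjoinRoot.root f) = pb.gen := AdjoinRoot.lift_root (minpoly.aeval _ _)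
  have he' : e.symm pb.gen = AdjoinRoot.root f := e.symm_apply_eq.2 he.symm
  let φ₀ : E →+* E := (AdjoinRoot.lift _ pb.gen hroot).comp e.symm.toRingEquiv.toRingHom
  have h1 : ∀ a, φ₀ (algebraMap F E a) = algebraMap F E (σ^[n] a) := fun a => by
    show AdjoinRoot.lift _ pb.gen hroot (e.symm (algebraMap F E a)) = _
    rw [AlgEquiv.commutes, AdjoinRoot.algebraMap_eq, AdjoinRoot.lift_of, RingHom.comp_apply,
      RingHom.coe_pow]
  have h2 : φ₀ pb.gen = pb.gen := by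
    show AdjoinRoot.lift _ pb.gen hroot (e.symm pb.gen) = _
    rw [he', AdjoinRoot.lift_root]
  have h3 : ∀ g, g ∈ tgeo_per φ₀ := fun g => by
    obtain ⟨r, rfl⟩ := pb.exists_eq_aeval' g
    refine tgeo_aeval_mem (tgeo_per φ₀) (fun a => ?_) ⟨1, one_pos, h2⟩ r
    obtain ⟨m, hm, ha⟩ := hσ a
    refine ⟨m, hm, ?_⟩
    have h4 : ∀ j : ℕ, φ₀^[j] (algebraMap F E a) = algebraMap F E (σ^[n * j] a) := fun j => by
      induction j with
      | zero => rfl
      | succ j ih =>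
        rw [Function.iterate_succ_apply', ih, h1, ← Function.iterate_add_apply, mul_add, mul_one,
          add_comm]
    show φ₀^[m] _ = _
    rw [h4, ha.const_mul n]
  have hb : Function.Bijective φ₀ := ⟨φ₀.injective, fun g => by
    obtain ⟨m, hm, hg⟩ := h3 g
    obtain ⟨m, rfl⟩ := Nat.exists_eq_succ_of_ne_zero hm.ne'
    exact ⟨φ₀^[m] g, (Function.iterate_succ_apply' φ₀ m g).symm.trans hg⟩⟩
  refine ⟨n, RingEquiv.ofBijective φ₀ hb, hn, h1, fun g => ?_⟩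
  obtain ⟨m, hm, hg⟩ := h3 g
  refine ⟨m, hm, ?_⟩
  rw [RingAut.coe_pow]
  exact hg

end per

variable {κ G : Type*} [Field κ] [Field G] [Algebra κ G]

/-- coefficientwise Frobenius of `κ(t)` -/
theorem tgeo_sigma {p : ℕ} [Fact p.Prime] [CharP κ p]
    (h : ∀ a : κ, ∃ n : ℕ, 0 < n ∧ a ^ p ^ n = a) {t : G} (ht : Transcendental κ t) :
    ∃ σ : κ⟮t⟯ →+* κ⟮t⟯, (∀ c : κ, σ (algebraMap κ κ⟮t⟯ c) = algebraMap κ κ⟮t⟯ (c ^ p)) ∧
      σ (IntermediateField.AdjoinSimple.gen κ t) = IntermediateField.AdjoinSimple.gen κ t ∧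
      ∀ a, a ∈ Function.periodicPts σ := by
  let e := RatFunc.algEquivOfTranscendental t ht
  let t' := IntermediateField.AdjoinSimple.gen κ t
  have ht' : Transcendental κ t' := fun h' => ht (h'.algebraMap (A := G))
  let g : κ[X] →+* κ⟮t⟯ := (aeval t').toRingHom.comp (mapRingHom (frobenius κ p))
  have hg : Function.Injective g :=
    (transcendental_iff_injective.1 ht').comp (map_injective _ (frobenius κ p).injective)
  let σ : κ⟮t⟯ →+* κ⟮t⟯ := (IsFractionRing.lift (K := RatFunc κ) hg).comp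
    e.symm.toRingEquiv.toRingHom
  have key : ∀ r : κ[X], σ (aeval t' r) = aeval t' (r.map (frobenius κ p)) := fun r => by
    show IsFractionRing.lift (K := RatFunc κ) hg (e.symm (aeval t' r)) = _
    rw [RatFunc.algEquivOfTranscendental_symm_aeval, IsFractionRing.lift_algebraMap]
    rfl
  have h1 : ∀ c : κ, σ (algebraMap κ κ⟮t⟯ c) = algebraMap κ κ⟮t⟯ (c ^ p) := fun c => by
    have := key (C c)
    rwa [aeval_C, map_C, aeval_C] at this
  have h2 : σ t' = t' := by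
    have := key X
    rwa [aeval_X, map_X, aeval_X] at this
  refine ⟨σ, h1, h2, fun a => ?_⟩
  have h3 : ∀ r : κ[X], aeval t' r ∈ tgeo_per σ := fun r =>
    tgeo_aeval_mem (tgeo_per σ) (fun c => by
      obtain ⟨n, hn, hc⟩ := h c
      exact ⟨n, hn, (tgeo_iter_const σ h1 n c).trans (by rw [hc])⟩) ⟨1, one_pos, h2⟩ r
  obtain ⟨u, rfl⟩ := e.surjective a
  obtain ⟨r, s, -, rfl⟩ := IsFractionRing.div_surjective (A := κ[X]) u
  rw [map_div₀, RatFunc.algEquivOfTranscendental_algebraMap,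
    RatFunc.algEquivOfTranscendental_algebraMap]
  exact (tgeo_per σ).div_mem (h3 r) (h3 s)

/-- the permutation of the points belongs to the automorphism -/
def tgeo_Rel (φ : G ≃+* G) (π : Equiv.Perm (Pt κ G)) : Prop :=
  ∀ (P : Pt κ G) (g : G), φ g ∈ (π P).1 ↔ g ∈ P.1

theorem tgeo_Rel.pow {φ : G ≃+* G} {π : Equiv.Perm (Pt κ G)} (h : tgeo_Rel φ π) (m : ℕ) :
    tgeo_Rel (φ ^ m) (π ^ m) := by
  induction m with
  | zero => exact fun P g => Iff.rfl
  | succ m ih =>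
    intro P g
    rw [pow_succ', pow_succ']
    exact (h _ _).trans (ih P g)

theorem tgeo_Rel.comap {φ : G ≃+* G} {π : Equiv.Perm (Pt κ G)} (h : tgeo_Rel φ π) (P : Pt κ G) :
    (π P).1.comap (φ : G →+* G) = P.1 :=
  ValuationSubring.ext _ _ fun g => h P g

theorem tgeo_Rel.ord_eq {φ : G ≃+* G} {π : Equiv.Perm (Pt κ G)} (h : tgeo_Rel φ π) (P : Pt κ G)
    (g : G) : ord (π P).1 (φ g) = ord P.1 g := by
  rw [← ord_comap, h.comap]

theorem tgeo_exists_perm (φ : G ≃+* G) (s : κ → κ) (hs : Function.Surjective s)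
    (h : ∀ c, φ (algebraMap κ G c) = algebraMap κ G (s c)) : ∃ π, tgeo_Rel (κ := κ) φ π := by
  refine ⟨⟨fun P => ⟨P.1.comap (φ.symm : G →+* G), fun h0 => P.2.1 ?_, fun c => ?_⟩,
    fun P => ⟨P.1.comap (φ : G →+* G), fun h0 => P.2.1 ?_, fun c => ?_⟩, fun P => ?_, fun P => ?_⟩,
    fun P g => ?_⟩
  · refine ValuationSubring.ext _ _ fun g => ⟨fun _ => trivial, fun _ => ?_⟩
    have : φ g ∈ P.1.comap (φ.symm : G →+* G) := by rw [h0]; trivial
    simpa using this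
  · obtain ⟨c, rfl⟩ := hs c
    show φ.symm _ ∈ P.1
    rw [← h, φ.symm_apply_apply]
    exact P.2.2 c
  · refine ValuationSubring.ext _ _ fun g => ⟨fun _ => trivial, fun _ => ?_⟩
    have : φ.symm g ∈ P.1.comap (φ : G →+* G) := by rw [h0]; trivial
    simpa using this
  · show φ _ ∈ P.1
    rw [h]
    exact P.2.2 _
  · refine Subtype.ext (ValuationSubring.ext _ _ fun g => ?_)
    show φ.symm (φ g) ∈ P.1 ↔ _
    rw [φ.symm_apply_apply]
  · refine Subtype.ext (ValuationSubring.ext _ _ fun g => ?_)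
    show φ (φ.symm g) ∈ P.1 ↔ _
    rw [φ.apply_symm_apply]
  · show φ.symm (φ g) ∈ P.1 ↔ _
    rw [φ.symm_apply_apply]

variable [IsAlgClosed κ] [IsCurve κ G]

theorem tgeo_Rel.dv_eq {φ : G ≃+* G} {π : Equiv.Perm (Pt κ G)} (h : tgeo_Rel φ π) (g : G) :
    dv κ (φ g) = (dv κ g).mapDomain π := by
  ext P
  obtain ⟨P, rfl⟩ := π.surjective P
  rw [Finsupp.mapDomain_apply π.injective, dv_apply, dv_apply, h.ord_eq]

theorem tgeo_mem_LL {D : Pt κ G →₀ ℤ} {g : G} (hg : g ≠ 0) : g ∈ LL D ↔ 0 ≤ D + dv κ g := by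
  rw [mem_LL, or_iff_right hg, Finsupp.le_def]
  refine forall_congr' fun P => ?_
  rw [Finsupp.add_apply, dv_apply, Finsupp.zero_apply, neg_le_iff_add_nonneg']

theorem tgeo_Rel.LL_iff {φ : G ≃+* G} {π : Equiv.Perm (Pt κ G)} (h : tgeo_Rel φ π)
    (D : Pt κ G →₀ ℤ) (g : G) : φ g ∈ LL (D.mapDomain π) ↔ g ∈ LL D := by
  rw [mem_LL, mem_LL, map_eq_zero_iff φ φ.injective,
    π.surjective.forall]
  refine or_congr Iff.rfl (forall_congr' fun P => ?_)
  rw [Finsupp.mapDomain_apply π.injective, h.ord_eq]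

theorem tgeo_Rel.ell_eq {φ : G ≃+* G} {π : Equiv.Perm (Pt κ G)} (h : tgeo_Rel φ π) (s : κ → κ)
    (hs : Function.Bijective s) (hφ : ∀ c, φ (algebraMap κ G c) = algebraMap κ G (s c))
    (D : Pt κ G →₀ ℤ) : ell (D.mapDomain π) = ell D := by
  let j : LL D ≃+ LL (D.mapDomain π) :=
    { toFun := fun g => ⟨φ g, (h.LL_iff D g).2 g.2⟩
      invFun := fun g => ⟨φ.symm g, (h.LL_iff D _).1 (by simp)⟩
      left_inv := fun g => Subtype.ext (φ.symm_apply_apply g)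
      right_inv := fun g => Subtype.ext (φ.apply_symm_apply g)
      map_add' := fun a b => Subtype.ext (map_add φ _ _) }
  have := rank_eq_of_equiv_equiv s j hs fun c g => Subtype.ext (by
    show φ (c • (g : G)) = s c • φ g
    rw [Algebra.smul_def, Algebra.smul_def, map_mul, hφ])
  unfold ell Module.finrank
  rw [this]

theorem tgeo_Rel.fin {φ : G ≃+* G} {π : Equiv.Perm (Pt κ G)} (h : tgeo_Rel φ π) {Q : ℕ}
    (hQ : 1 < Q) (hφ : ∀ c, φ (algebraMap κ G c) = algebraMap κ G (c ^ Q)) {t : G}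
    (ht : Transcendental κ t) (hφt : φ t = t) : {P | π P = P}.Finite := by
  have hS : {c : κ | c ^ Q = c}.Finite := by
    have h0 : (X ^ Q - X : κ[X]) ≠ 0 := FiniteField.X_pow_card_sub_X_ne_zero κ hQ
    refine (finite_setOfPred_isRoot h0).subset fun c hc => ?_
    simpa [sub_eq_zero] using hc
  refine (IsCurve.pfc.finite_At_mem ht hS).subset fun P hP => ?_
  by_cases htP : t ∈ P.1
  · obtain ⟨c, hc⟩ := P.exists_At IsCurve.trdeg.le htP
    refine Or.inr ⟨c, At.unique P.2.2 ?_ hc, hc⟩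
    have h1 : P.1.valuation (t - algebraMap κ G c) < 1 := hc
    rw [← h.comap P, comap_val_lt_one, hP] at h1
    have h2 : (φ : G →+* G) (t - algebraMap κ G c) = t - algebraMap κ G (c ^ Q) := by
      rw [map_sub]
      exact congrArg₂ _ hφt (hφ c)
    rwa [h2] at h1
  · exact Or.inl htP

theorem tgeo_Rel.per {φ : G ≃+* G} {π : Equiv.Perm (Pt κ G)} (h : tgeo_Rel φ π)
    (hφ : ∀ g : G, ∃ m : ℕ, 0 < m ∧ (φ ^ m) g = g) (P : Pt κ G) :
    ∃ m : ℕ, 0 < m ∧ (π ^ m) P = P := by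
  classical
  obtain ⟨n, f, hf, hn, hL⟩ := exists_single_pole P
  obtain ⟨m, hm, hfm⟩ := hφ f
  refine ⟨m, hm, by_contra fun hne => hf ?_⟩
  have hf0 : f ≠ 0 := fun h0 => hf (h0 ▸ isAlgebraic_zero)
  have h1 : f ∈ LL (Finsupp.single P (n : ℤ)) := hL ▸ Submodule.subset_span (by simp)
  have h2 := (mem_LL.1 h1).resolve_left hf0 ((π ^ m) P)
  have h3 := (h.pow m).ord_eq P f
  rw [hfm, hn] at h3
  rw [h3, Finsupp.single_eq_of_ne hne] at h2
  have h4 : (n : ℤ) = 0 := by omega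
  rw [h4, Finsupp.single_zero, LL_zero, Submodule.mem_span_singleton] at h1
  obtain ⟨c, rfl⟩ := h1
  rw [← Algebra.algebraMap_eq_smul_one]
  exact isAlgebraic_algebraMap c

theorem tgeo_dv_eq_iff {f g : G} (hf : f ≠ 0) (hg : g ≠ 0) :
    dv κ f = dv κ g ↔ ∃ c : κ, c ≠ 0 ∧ f = algebraMap κ G c * g := by
  have e : dv κ (f * g⁻¹) = dv κ f - dv κ g := by
    rw [dv_mul hf (inv_ne_zero hg), dv_inv, sub_eq_add_neg]
  rw [← sub_eq_zero, ← e, dv_eq_zero_iff (mul_ne_zero hf (inv_ne_zero hg))]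
  constructor
  · rintro ⟨c, hc⟩
    refine ⟨c, ?_, by rw [hc, inv_mul_cancel_right₀ hg]⟩
    rintro rfl
    rw [map_zero] at hc
    exact mul_ne_zero hf (inv_ne_zero hg) hc.symm
  · rintro ⟨c, -, rfl⟩
    exact ⟨c, by rw [mul_inv_cancel_right₀ hg]⟩

theorem tgeo_span_iff {D : Pt κ G →₀ ℤ} {f g : LL D} (hf : f ≠ 0) (hg : g ≠ 0) :
    f ∈ Submodule.span κ {g} ↔ dv κ (f : G) = dv κ (g : G) := by
  rw [tgeo_dv_eq_iff (fun h => hf (Subtype.ext h)) (fun h => hg (Subtype.ext h)),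
    Submodule.mem_span_singleton]
  constructor
  · rintro ⟨c, rfl⟩
    refine ⟨c, ?_, Algebra.smul_def c (g : G)⟩
    rintro rfl
    exact hf (zero_smul _ _)
  · rintro ⟨c, -, hc⟩
    exact ⟨c, Subtype.ext (by rw [hc]; exact Algebra.smul_def c (g : G))⟩

theorem tgeo_Rel.cnt {φ : G ≃+* G} {π : Equiv.Perm (Pt κ G)} (h : tgeo_Rel φ π) {p n : ℕ}
    [Fact p.Prime] [CharP κ p] (hn : 0 < n)
    (hφ : ∀ c, φ (algebraMap κ G c) = algebraMap κ G (c ^ p ^ n)) (D : Pt κ G →₀ ℤ) {f₀ : G}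
    (hf₀ : f₀ ≠ 0) (hD : dv κ f₀ = D.mapDomain π - D) :
    Nat.card {E : Pt κ G →₀ ℤ // 0 ≤ E ∧ (∃ f : G, f ≠ 0 ∧ dv κ f = E - D) ∧ E.mapDomain π = E} *
      (p ^ n - 1) = (p ^ n) ^ ell D - 1 := by
  have hdv : ∀ g : G, g ≠ 0 → D + dv κ (f₀ * φ g) =
      (D + dv κ g).mapDomain π := fun g hg => by
    rw [dv_mul hf₀ ((map_ne_zero φ).2 hg), hD, h.dv_eq, Finsupp.mapDomain_add]; abel
  let Ψ : LL D →+ LL D :=
    { toFun := fun g => ⟨f₀ * φ g, by
        rcases eq_or_ne (g : G) 0 with h0 | h0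
        · rw [h0, map_zero, mul_zero]; exact zero_mem _
        rw [tgeo_mem_LL (mul_ne_zero hf₀ ((map_ne_zero φ).2 h0)), hdv _ h0]
        intro P
        obtain ⟨P, rfl⟩ := π.surjective P
        rw [Finsupp.mapDomain_apply π.injective]
        exact (tgeo_mem_LL h0).1 g.2 P⟩
      map_zero' := Subtype.ext (by simp)
      map_add' := fun a b => Subtype.ext (by simp [mul_add]) }
  have hΨ : ∀ g : LL D, (Ψ g : G) = f₀ * φ g := fun _ => rfl
  have hinj : Function.Injective Ψ := fun a b hab =>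
    Subtype.ext (φ.injective (mul_left_cancel₀ hf₀ (congrArg Subtype.val hab)))
  have hΨ0 : ∀ g : LL D, g ≠ 0 → Ψ g ≠ 0 := fun g hg => (map_ne_zero_iff Ψ hinj).2 hg
  have hc := card_fixed_lines (κ := κ) hn Ψ (fun c g => Subtype.ext (by
    show f₀ * φ (c • (g : G)) = c ^ p ^ n • (f₀ * φ g)
    rw [Algebra.smul_def, Algebra.smul_def, map_mul, hφ]; ring)) hinj
  refine Eq.trans ?_ hc
  congr 1
  have hex : ∀ E : {E : Pt κ G →₀ ℤ // 0 ≤ E ∧ (∃ f : G, f ≠ 0 ∧ dv κ f = E - D) ∧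
      E.mapDomain π = E}, ∃ g : LL D, g ≠ 0 ∧ D + dv κ (g : G) = E := by
    rintro ⟨E, hE, ⟨f, hf, hfE⟩, -⟩
    have : D + dv κ f = E := by rw [hfE]; abel
    exact ⟨⟨f, (tgeo_mem_LL hf).2 (this ▸ hE)⟩, fun h0 => hf (congrArg Subtype.val h0), this⟩
  choose g hg hgE using hex
  have hfix : ∀ w : LL D, w ≠ 0 → (Ψ w ∈ Submodule.span κ {w} ↔
      (D + dv κ (w : G)).mapDomain π = D + dv κ (w : G)) :=
    fun w hw => by
      rw [tgeo_span_iff (hΨ0 w hw) hw, ← hdv _ fun h0 => hw (Subtype.ext h0), hΨ, add_right_inj]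
  refine Nat.card_congr (Equiv.ofBijective (fun E => ⟨Submodule.span κ {g E}, g E, hg E, rfl,
    (hfix _ (hg E)).2 (by rw [hgE]; exact E.2.2.2)⟩) ⟨fun E E' hE => ?_, ?_⟩)
  · have h1 : Submodule.span κ {g E} = Submodule.span κ {g E'} := congrArg Subtype.val hE
    have h2 : g E ∈ Submodule.span κ {g E'} := h1 ▸ Submodule.mem_span_singleton_self _
    rw [tgeo_span_iff (hg E) (hg E')] at h2
    exact Subtype.ext (by rw [← hgE E, ← hgE E', h2])
  · rintro ⟨N, w, hw, rfl, hN⟩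
    have hw' : (w : G) ≠ 0 := fun h0 => hw (Subtype.ext h0)
    let E : {E : Pt κ G →₀ ℤ // 0 ≤ E ∧ (∃ f : G, f ≠ 0 ∧ dv κ f = E - D) ∧
      E.mapDomain π = E} := ⟨D + dv κ (w : G), (tgeo_mem_LL hw').1 w.2,
        ⟨w, hw', by abel⟩, (hfix w hw).1 hN⟩
    refine ⟨E, Subtype.ext ?_⟩
    have h1 : dv κ (g E : G) = dv κ (w : G) :=
      add_left_cancel (hgE E)
    refine le_antisymm ?_ ?_
    · exact (Submodule.span_singleton_le_iff_mem _ _).2 ((tgeo_span_iff (hg E) hw).2 h1)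
    · exact (Submodule.span_singleton_le_iff_mem _ _).2 ((tgeo_span_iff hw (hg E)).2 h1.symm)

variable (κ G) in
/-- principal divisors -/
def tgeo_Pr : AddSubgroup (Pt κ G →₀ ℤ) where
  carrier := {D | ∃ f : G, f ≠ 0 ∧ dv κ f = D}
  add_mem' := by
    rintro _ _ ⟨f, hf, rfl⟩ ⟨g, hg, rfl⟩
    exact ⟨f * g, mul_ne_zero hf hg, dv_mul hf hg⟩
  zero_mem' := ⟨1, one_ne_zero, (dv_eq_zero_iff one_ne_zero).2 ⟨1, map_one _⟩⟩
  neg_mem' := by
    rintro _ ⟨f, hf, rfl⟩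
    exact ⟨f⁻¹, inv_ne_zero hf, dv_inv f⟩

theorem tgeo_dv_pow (f : G) (n : ℕ) : dv κ (f ^ n) = n • dv κ f := by
  ext P
  rw [Finsupp.smul_apply, dv_apply, dv_apply, P.ord_pow, nsmul_eq_mul]

end Vale.Agent.P019
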