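import Vale.Agent.P019.CurveC
import Vale.Agent.P019.CurveE
import Vale.Agent.P019.ZetaC
import Vale.Agent.P019.SL
import Vale.Agent.P019.TGeoA

open scoped IntermediateField

namespace Vale.Agent.P019

variable {ℓ : ℕ} [Fact ℓ.Prime] {κ G : Type*} [Field κ] [Field G] [Algebra κ G] [IsAlgClosed κ]

/-- `G = κ(t)(z)` with `t` separating. The minimal polynomial of `z` has coefficients in `F_q(t)`
for a suitable `q = p ^ n`. The coefficientwise `q`-Frobenius of `κ(t)` fixes it, so it extends to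
`G` fixing `z`. Every element lies in some `F_{q^m}(t, z)`. -/
theorem exists_frob [IsCurve κ G] {p : ℕ} [Fact p.Prime] [CharP κ p]
    (h : ∀ a : κ, ∃ n : ℕ, 0 < n ∧ a ^ p ^ n = a) :
    ∃ (n : ℕ) (φ : G ≃+* G) (t : G), 0 < n ∧ Transcendental κ t ∧ φ t = t ∧
      (∀ c : κ, φ (algebraMap κ G c) = algebraMap κ G (c ^ p ^ n)) ∧
      ∀ g : G, ∃ m : ℕ, 0 < m ∧ (φ ^ m) g = g := by
  obtain ⟨t₀, ht₀, -⟩ := IsCurve.ex (κ := κ) (G := G)
  obtain ⟨_, t, -, ht, hN⟩ := exists_Nrm_root ht₀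
  have := sep_of_Nrm ht hN
  have := IsCurve.finite ht
  obtain ⟨σ, h1, h2, h3⟩ := tgeo_sigma h ht
  obtain ⟨n, φ, hn, h4, h5⟩ := tgeo_extend (Field.powerBasisOfFiniteOfSeparable κ⟮t⟯ G) σ h3
  refine ⟨n, φ, t, hn, ht, ?_, fun c => ?_, h5⟩
  · have := h4 (IntermediateField.AdjoinSimple.gen κ t)
    rwa [Function.iterate_fixed h2] at this
  · have := h4 (algebraMap κ κ⟮t⟯ c)
    rwa [tgeo_iter_const σ h1] at this

/-- `Pr` = principal divisors, `l = ell`, `W` from `riemann_roch`. The permutation of the points is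
`P ↦ P.comap φ⁻¹` (so `dv (φ f) = mapDomain (dv f)`, `ord_comap`). A point fixed by `φ ^ m` has
`t = ∞` or `t = a` with `a ^ q ^ m = a`; the finite fibre of `t` is permuted by a power of `φ`.
Replace `φ` by a power to get a fixed point. `cnt`: if `φ^m D - D = dv f₀`, then
`g ↦ f₀ φ^m g` is a semilinear injection of `LL D`, and effective divisors equivalent to `D` are the
lines in `LL D` (`card_fixed_lines`). -/
theorem exists_RRS [IsCurve κ G] (h : FT κ) :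
    ∃ (S : RRS (Pt κ G)) (φ : Equiv.Perm (Pt κ G)) (n : ℕ), S.g = genus κ G ∧
      (∀ D, D ∈ S.Pr ↔ ∃ f : G, f ≠ 0 ∧ dv κ f = D) ∧ S.Frob φ (ringChar κ ^ n) := by
  obtain ⟨p, hp, hc, h⟩ := h
  have : Fact p.Prime := ⟨hp⟩
  have : ExpChar κ p := ExpChar.prime hp
  rw [ringChar.eq κ p]
  obtain ⟨n, φ, t, hn, ht, hφt, hφ, hper⟩ := exists_frob (G := G) h
  have hbij : ∀ n : ℕ, Function.Bijective fun c : κ => c ^ p ^ n := fun n =>
    (iterateFrobeniusEquiv κ p n).bijective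
  obtain ⟨π, hπ⟩ := tgeo_exists_perm φ _ (hbij n).2 hφ
  have hpow : ∀ (m : ℕ) (c : κ), (φ ^ m) (algebraMap κ G c) = algebraMap κ G (c ^ p ^ (n * m)) :=
    fun m c => by rw [RingAut.coe_pow, tgeo_iter_const φ hφ, pow_mul p]
  have hpt : ∀ m : ℕ, (φ ^ m) t = t := fun m => by
    rw [RingAut.coe_pow, Function.iterate_fixed hφt]
  obtain ⟨W, hW⟩ := riemann_roch (κ := κ) (G := G)
  obtain ⟨P₀⟩ : Nonempty (Pt κ G) := have := infinite_Pt (κ := κ) (G := G); inferInstance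
  obtain ⟨m₀, hm₀, hP₀⟩ := hπ.per hper P₀
  refine ⟨⟨tgeo_Pr κ G, ell, genus κ G, W, ?_, ?_, ell_zero, fun D => ?_, hW⟩, π ^ m₀, n * m₀, rfl,
    fun D => Iff.rfl, ?_, ?_, fun D => ?_, fun m hm => ?_, fun P => ?_, ⟨P₀, hP₀⟩,
    fun m hm D hD => ?_⟩
  · rintro _ ⟨f, -, rfl⟩
    exact degree_dv f
  · rintro D _ ⟨f, hf, rfl⟩
    exact ell_add_dv D hf
  · rw [ell_pos_iff]
    constructor
    · rintro ⟨f, hf, h0⟩
      exact ⟨_, h0, f, hf, by abel⟩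
    · rintro ⟨E, hE, f, hf, h0⟩
      exact ⟨f, hf, by rw [h0]; simpa using hE⟩
  · exact Nat.one_lt_pow (Nat.mul_pos hn hm₀).ne' hp.one_lt
  · rintro _ ⟨f, hf, rfl⟩
    exact ⟨(φ ^ m₀) f, (map_ne_zero _).2 hf, (hπ.pow m₀).dv_eq f⟩
  · exact (hπ.pow m₀).ell_eq _ (hbij _) (hpow m₀) D
  · rw [← pow_mul]
    exact (hπ.pow (m₀ * m)).fin
      (Nat.one_lt_pow (Nat.mul_pos hn (Nat.mul_pos hm₀ hm)).ne' hp.one_lt) (hpow _) ht (hpt _)
  · obtain ⟨m, hm, hP⟩ := hπ.per hper P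
    refine ⟨m, hm, ?_⟩
    rw [← pow_mul, mul_comm, pow_mul, Equiv.Perm.coe_pow, Function.iterate_fixed hP]
  · obtain ⟨f₀, hf₀, hD⟩ := hD
    rw [← pow_mul] at hD
    have := (hπ.pow (m₀ * m)).cnt (Nat.mul_pos hn (Nat.mul_pos hm₀ hm)) (hpow _) D hf₀ hD
    rw [← pow_mul π, ← pow_mul p, mul_assoc n, pow_mul (p ^ (n * m₀)), ← pow_mul p, mul_assoc n]
    exact this

/-- `[f] ↦ [dv f / ℓ]` is a bijection from `Vnr` onto the `ℓ`-torsion of `Pic` -/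
theorem card_Vnr [IsCurve κ G] (h : FT κ) (hl : (ℓ : κ) ≠ 0) :
    Nat.card (Vnr κ G ℓ) = ℓ ^ (2 * genus κ G) := by
  obtain ⟨S, φ, n, hg, hPr, hF⟩ := exists_RRS (G := G) h
  obtain ⟨p, hp, hc, -⟩ := h
  have hcop : Nat.Coprime (ringChar κ ^ n) ℓ := by
    rw [ringChar.eq κ p]
    exact ((Nat.Prime.coprime_iff_not_dvd hp).2 fun h =>
      hl ((CharP.cast_eq_zero_iff κ p ℓ).2 h)).pow_left n
  rw [← hg, ← hF.card_torsion hcop]
  have hl0 : ℓ ≠ 0 := (Fact.out : ℓ.Prime).ne_zero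
  have hex : ∀ z : Vnr κ G ℓ, ∃ (f : G) (D : Pt κ G →₀ ℤ), f ≠ 0 ∧ cl ℓ f = z ∧
      dv κ f = ℓ • D := by
    rintro ⟨z, hz⟩
    obtain ⟨f, hf, rfl⟩ := cl_surj z
    refine ⟨f, (dv κ f).mapRange (· / ℓ) (by simp), hf, rfl, ?_⟩
    ext P
    have := (P.cl_mem_U_iff f).1 ((Submodule.mem_iInf _).1 hz P)
    rw [Finsupp.smul_apply, Finsupp.mapRange_apply, dv_apply, nsmul_eq_mul,
      Int.mul_ediv_cancel' this]
  choose f D hf hfz hfD using hex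
  refine Nat.card_congr (Equiv.ofBijective (fun z => ⟨(D z : S.Pic), ?_⟩) ⟨fun z z' hz => ?_, ?_⟩)
  · rw [← QuotientAddGroup.mk_nsmul, QuotientAddGroup.eq_zero_iff, hPr]
    exact ⟨f z, hf z, hfD z⟩
  · have h1 : (D z : S.Pic) = D z' := congrArg Subtype.val hz
    rw [QuotientAddGroup.eq_iff_sub_mem, hPr] at h1
    obtain ⟨g, hg0, hg1⟩ := h1
    have h2 : dv κ (f z) = dv κ (f z' * g ^ ℓ) := by
      rw [dv_mul (hf z') (pow_ne_zero _ hg0), tgeo_dv_pow, hg1, hfD, hfD, smul_sub]; abel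
    obtain ⟨c, hc0, hc⟩ := (tgeo_dv_eq_iff (hf z) (mul_ne_zero (hf z') (pow_ne_zero _ hg0))).1 h2
    refine Subtype.ext ?_
    rw [← hfz, ← hfz, hc, cl_const_mul hc0]
    exact (cl_eq_iff (mul_ne_zero (hf z') (pow_ne_zero _ hg0)) (hf z')).2 ⟨g, hg0, rfl⟩
  · rintro ⟨c, hc⟩
    obtain ⟨E, rfl⟩ := QuotientAddGroup.mk_surjective c
    have hc' := hc
    rw [← QuotientAddGroup.mk_nsmul, QuotientAddGroup.eq_zero_iff, hPr] at hc'
    obtain ⟨g, hg0, hg1⟩ := hc'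
    let z : Vnr κ G ℓ := ⟨cl ℓ g, (Submodule.mem_iInf _).2 fun P => (P.cl_mem_U_iff g).2
      ⟨E P, by rw [← dv_apply, hg1, Finsupp.smul_apply, nsmul_eq_mul]⟩⟩
    refine ⟨z, Subtype.ext ?_⟩
    obtain ⟨u, hu0, hu⟩ := (cl_eq_iff (hf z) hg0).1 (hfz z)
    show (D z : S.Pic) = E
    rw [QuotientAddGroup.eq_iff_sub_mem, hPr]
    refine ⟨u, hu0, nsmul_right_injective hl0 ?_⟩
    have h1 := hfD z
    rw [hu, dv_mul hg0 (pow_ne_zero _ hu0), tgeo_dv_pow, hg1] at h1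
    show ℓ • dv κ u = ℓ • (D z - E)
    rw [smul_sub, ← h1]; abel

theorem finrank_Vnr_of_model (h : FT κ) (hl : (ℓ : κ) ≠ 0) (A : IntermediateField κ G)
    [IsCurve κ A] (hA : pc κ (A : Set G) = ⊤) :
    FiniteDimensional (ZMod ℓ) (Vnr κ G ℓ) ∧
      Module.finrank (ZMod ℓ) (Vnr κ G ℓ) = 2 * genus κ A := by
  have hlA : (ℓ : A) ≠ 0 := by
    rw [← map_natCast (algebraMap κ A)]; exact (map_ne_zero _).2 hl
  have hb : Function.Bijective (Vmap ℓ (algebraMap A G)) := Vmap_bijective_of_pi _ hlA fun y => by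
    obtain ⟨n, hn⟩ := mem_pc.1 (hA ▸ IntermediateField.mem_top : y ∈ pc κ (A : Set G))
    rw [IntermediateField.adjoin_self] at hn
    exact ⟨n, ⟨_, hn⟩, rfl⟩
  obtain ⟨e, he⟩ := exists_Pt_equiv (ℓ := ℓ) A hA hl
  have hmem : ∀ z : V ℓ A, Vmap ℓ (algebraMap A G) z ∈ Vnr κ G ℓ ↔ z ∈ Vnr κ A ℓ := fun z => by
    unfold Vnr
    rw [Submodule.mem_iInf, Submodule.mem_iInf, e.surjective.forall]
    exact forall_congr' fun P => (he P).2 z
  have hcard : Nat.card (Vnr κ G ℓ) = ℓ ^ (2 * genus κ A) := by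
    rw [← card_Vnr h hl]
    exact (Nat.card_congr ((Equiv.ofBijective _ hb).subtypeEquiv fun z => (hmem z).symm)).symm
  have hfin : Finite (Vnr κ G ℓ) :=
    Nat.finite_of_card_ne_zero (hcard ▸ pow_ne_zero _ (Fact.out : ℓ.Prime).ne_zero)
  have hfd : FiniteDimensional (ZMod ℓ) (Vnr κ G ℓ) := Module.Finite.of_finite
  refine ⟨hfd, Nat.pow_right_injective (Fact.out : ℓ.Prime).two_le ?_⟩
  show ℓ ^ _ = ℓ ^ _
  rw [← hcard, Module.natCard_eq_pow_finrank (K := ZMod ℓ), Nat.card_zmod]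

theorem genusLE_of_Vnr (hG : PFC κ G) (h : FT κ) (hl : (ℓ : κ) ≠ 0) :
    GenusLE κ G (Module.finrank (ZMod ℓ) (Vnr κ G ℓ)) := by
  obtain ⟨A, hA, hA', -⟩ := hG.exists_model ∅
  refine ⟨A, hA, hA', ?_⟩
  rw [(finrank_Vnr_of_model h hl A hA').2]
  omega

theorem GenusLE.finrank_Vnr (h : FT κ) (hl : (ℓ : κ) ≠ 0) {B : ℕ} (hB : GenusLE κ G B) :
    Module.finrank (ZMod ℓ) (Vnr κ G ℓ) ≤ 2 * B := by
  obtain ⟨A, hA, hA', hg⟩ := hB
  rw [(finrank_Vnr_of_model h hl A hA').2]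
  omega

end Vale.Agent.P019
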