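import Vale.Agent.P019.ValB
import Vale.Agent.P019.FieldB

open scoped IntermediateField
open Filter

namespace Vale.Agent.P019

theorem ulta_reindex {k K : Type*} [Field k] [Field K] [Algebra k K] {ι ι' : Type*} (e : ι → ι')
    (he : Function.Injective e) {y : ι' → K} {D : ℕ} {g : K} (h : Small k (y ∘ e) D g) :
    Small k y D g := by
  obtain ⟨P, h0, h1, h2⟩ := h
  refine ⟨MvPolynomial.rename (Option.map e) P, fun h3 => h0 ?_,
    (MvPolynomial.totalDegree_rename_le _ _).trans h1, ?_⟩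
  · exact MvPolynomial.rename_injective _ (Option.map_injective he) (h3.trans (map_zero _).symm)
  · rw [MvPolynomial.aeval_rename, ← h2]
    congr 2
    funext o
    cases o <;> rfl

theorem Small.reindex {k K : Type*} [Field k] [Field K] [Algebra k K] {ι ι' : Type*} (e : ι ≃ ι')
    {y : ι' → K} {D : ℕ} {g : K} : Small k (y ∘ e) D g ↔ Small k y D g := by
  refine ⟨ulta_reindex e e.injective, fun h => ulta_reindex e.symm e.symm.injective ?_⟩
  rwa [Function.comp_assoc, e.self_comp_symm, Function.comp_id]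

theorem eventually_const {ι α : Type*} (𝒰 : Ultrafilter ι) [Finite α] (f : ι → α) :
    ∃ a, ∀ᶠ i in (𝒰 : Filter ι), f i = a := by
  exact Ultrafilter.eventually_exists_iff.1 (Eventually.of_forall fun i => ⟨f i, rfl⟩)

theorem eventually_const_of_le {ι : Type*} (𝒰 : Ultrafilter ι) (f : ι → ℕ) (B : ℕ)
    (h : ∀ᶠ i in (𝒰 : Filter ι), f i ≤ B) : ∃ a, ∀ᶠ i in (𝒰 : Filter ι), f i = a := by
  obtain ⟨a, -, ha⟩ := (Ultrafilter.eventually_exists_mem_iff (P := fun a i => f i = a)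
    (Set.finite_Iic B)).1 (h.mono fun i hi => ⟨f i, hi, rfl⟩)
  exact ⟨a, ha⟩

theorem exists_ultra_finset (α : Type*) :
    ∃ 𝒰 : Ultrafilter (Finset α), ∀ x : α, ∀ᶠ Φ in (𝒰 : Filter (Finset α)), x ∈ Φ := by
  classical
  refine ⟨Ultrafilter.of atTop, fun x => Ultrafilter.of_le atTop ?_⟩
  filter_upwards [eventually_ge_atTop ({x} : Finset α)] with Φ h
  exact h (Finset.mem_singleton_self x)

variable {ℓ : ℕ} [Fact ℓ.Prime] {ι : Type*} (𝒰 : Ultrafilter ι) {R : ι → Type*} [∀ i, Field (R i)]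
  (κ : Π i, Subfield (R i))

theorem upMk_eq_iff {f g : Π i, R i} :
    upMk 𝒰 R f = upMk 𝒰 R g ↔ ∀ᶠ i in (𝒰 : Filter ι), f i = g i := by
  refine Ideal.Quotient.eq.trans ?_
  show (∀ᶠ i in (𝒰 : Filter ι), (f - g) i = 0) ↔ _
  simp only [Pi.sub_apply, sub_eq_zero]

theorem upMk_eq_zero_iff {f : Π i, R i} : upMk 𝒰 R f = 0 ↔ ∀ᶠ i in (𝒰 : Filter ι), f i = 0 := by
  exact Ideal.Quotient.eq_zero_iff_mem

theorem upMk_surj (x : UP 𝒰 R) : ∃ f, upMk 𝒰 R f = x := by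
  exact Ideal.Quotient.mk_surjective x

theorem ulta_inv (f : Π i, R i) : upMk 𝒰 R f⁻¹ = (upMk 𝒰 R f)⁻¹ := by
  by_cases h : upMk 𝒰 R f = 0
  · rw [h, inv_zero, upMk_eq_zero_iff]
    exact ((upMk_eq_zero_iff 𝒰).1 h).mono fun i hi => by rw [Pi.inv_apply, hi, inv_zero]
  · refine eq_inv_of_mul_eq_one_left ?_
    rw [← map_mul, ← map_one (upMk 𝒰 R), upMk_eq_iff]
    rw [upMk_eq_zero_iff] at h
    exact (Ultrafilter.eventually_not.2 h).mono fun i hi => inv_mul_cancel₀ hi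

theorem ulta_ne_zero {f : Π i, R i} : upMk 𝒰 R f ≠ 0 ↔ ∀ᶠ i in (𝒰 : Filter ι), f i ≠ 0 := by
  rw [Ne, upMk_eq_zero_iff, ← Ultrafilter.eventually_not]

/-- the image of the product of the subfields -/
noncomputable def ultaS : Subfield (UP 𝒰 R) where
  carrier := {x | ∃ f : Π i, R i, (∀ i, f i ∈ κ i) ∧ upMk 𝒰 R f = x}
  mul_mem' := by
    rintro _ _ ⟨f, hf, rfl⟩ ⟨g, hg, rfl⟩
    exact ⟨f * g, fun i => mul_mem (hf i) (hg i), map_mul _ _ _⟩
  one_mem' := ⟨1, fun i => one_mem _, map_one _⟩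
  add_mem' := by
    rintro _ _ ⟨f, hf, rfl⟩ ⟨g, hg, rfl⟩
    exact ⟨f + g, fun i => add_mem (hf i) (hg i), map_add _ _ _⟩
  zero_mem' := ⟨0, fun i => zero_mem _, map_zero _⟩
  neg_mem' := by
    rintro _ ⟨f, hf, rfl⟩
    exact ⟨-f, fun i => neg_mem (hf i), map_neg _ _⟩
  inv_mem' := by
    rintro _ ⟨f, hf, rfl⟩
    exact ⟨f⁻¹, fun i => inv_mem (hf i), ulta_inv 𝒰 f⟩

theorem ulta_upC : upC 𝒰 κ = ultaS 𝒰 κ := Subfield.closure_eq (ultaS 𝒰 κ)

/-- the projection from the product of the subfields -/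
noncomputable def ultaH : (Π i, κ i) →+* upC 𝒰 κ :=
  ((upMk 𝒰 R).comp (Pi.ringHom fun i => (κ i).subtype.comp (Pi.evalRingHom _ i))).codRestrict _
    fun f => Subfield.subset_closure ⟨fun i => f i, fun i => (f i).2, rfl⟩

theorem ultaH_coe (f : Π i, κ i) :
    ((ultaH 𝒰 κ f : upC 𝒰 κ) : UP 𝒰 R) = upMk 𝒰 R fun i => f i := rfl

theorem ultaH_surj : Function.Surjective (ultaH 𝒰 κ) := by
  rintro ⟨x, hx⟩
  rw [ulta_upC] at hx
  obtain ⟨f, hf, rfl⟩ := hx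
  exact ⟨fun i => ⟨f i, hf i⟩, rfl⟩

theorem upMk_mem_upC {f : Π i, R i} : upMk 𝒰 R f ∈ upC 𝒰 κ ↔ ∀ᶠ i in (𝒰 : Filter ι), f i ∈ κ i := by
  classical
  rw [ulta_upC]
  constructor
  · rintro ⟨g, hg, e⟩
    exact ((upMk_eq_iff 𝒰).1 e).mono fun i hi => hi ▸ hg i
  · intro h
    refine ⟨fun i => if f i ∈ κ i then f i else 0, fun i => ?_,
      (upMk_eq_iff 𝒰).2 (h.mono fun i hi => if_pos hi)⟩
    beta_reduce
    split_ifs with h1
    · exact h1
    · exact zero_mem _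

theorem upC_isAlgClosed (h : ∀ i, IsAlgClosed (κ i)) : IsAlgClosed (upC 𝒰 κ) := by
  refine IsAlgClosed.of_exists_root _ fun p hp hi => ?_
  obtain ⟨q, h1, h2, h3⟩ := Polynomial.lifts_and_natDegree_eq_and_monic
    (Polynomial.mem_lifts_of_surjective (ultaH_surj 𝒰 κ) p) hp
  have h4 : ∀ i, ∃ r : κ i, (q.map (Pi.evalRingHom (fun i => κ i) i)).IsRoot r := fun i => by
    refine IsAlgClosed.exists_root _ fun h5 => ?_
    have h6 := Polynomial.natDegree_eq_zero_iff_degree_le_zero.2 h5.le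
    rw [h3.natDegree_map, h2] at h6
    exact hi.natDegree_pos.ne' h6
  choose r hr using h4
  have h5 : q.eval r = 0 := by
    funext i
    have := hr i
    rw [Polynomial.IsRoot, Polynomial.eval_map] at this
    exact (Polynomial.eval₂_at_apply (Pi.evalRingHom (fun i => κ i) i) r).symm.trans this
  exact ⟨ultaH 𝒰 κ r, by rw [← h1, Polynomial.eval_map, Polynomial.eval₂_at_apply, h5, map_zero]⟩

theorem cl_upMk_eq_zero {f : Π i, R i} :
    cl ℓ (upMk 𝒰 R f) = 0 ↔ ∀ᶠ i in (𝒰 : Filter ι), cl ℓ (f i) = 0 := by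
  by_cases h : upMk 𝒰 R f = 0
  · rw [h, cl_zero]
    exact iff_of_true rfl (((upMk_eq_zero_iff 𝒰).1 h).mono fun i hi => by rw [hi, cl_zero])
  have h1 := (ulta_ne_zero 𝒰).1 h
  rw [cl_eq_zero_iff h]
  constructor
  · rintro ⟨y, hy⟩
    obtain ⟨g, rfl⟩ := upMk_surj 𝒰 y
    rw [← map_pow, upMk_eq_iff] at hy
    filter_upwards [h1, hy] with i a1 a2
    exact (cl_eq_zero_iff a1).2 ⟨g i, a2⟩
  · intro h2
    have h3 : ∀ i, ∃ y : R i, f i ≠ 0 → cl ℓ (f i) = 0 → y ^ ℓ = f i := fun i => by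
      by_cases a : f i ≠ 0 ∧ cl ℓ (f i) = 0
      · obtain ⟨y, hy⟩ := (cl_eq_zero_iff a.1).1 a.2
        exact ⟨y, fun _ _ => hy⟩
      · exact ⟨0, fun a1 a2 => absurd ⟨a1, a2⟩ a⟩
    choose g hg using h3
    refine ⟨upMk 𝒰 R g, ?_⟩
    rw [← map_pow, upMk_eq_iff]
    filter_upwards [h1, h2] with i a1 a2
    exact hg i a1 a2

theorem cl_upMk_eq_smul {f g : Π i, R i} (c : ZMod ℓ) (hf : ∀ᶠ i in (𝒰 : Filter ι), f i ≠ 0)
    (hg : ∀ᶠ i in (𝒰 : Filter ι), g i ≠ 0)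
    (h : ∀ᶠ i in (𝒰 : Filter ι), cl ℓ (f i) = c • cl ℓ (g i)) :
    cl ℓ (upMk 𝒰 R f) = c • cl ℓ (upMk 𝒰 R g) := by
  have key : ∀ {F : Type _} [Field F] {a b : F}, a ≠ 0 → b ≠ 0 →
      (cl ℓ (a * (b ^ c.val)⁻¹) = 0 ↔ cl ℓ a = c • cl ℓ b) := fun ha hb => by
    rw [cl_mul ha (inv_ne_zero (pow_ne_zero _ hb)), cl_inv, cl_pow, ZMod.natCast_zmod_val,
      ← sub_eq_add_neg, sub_eq_zero]
  have key' : ∀ {a b : UP 𝒰 R}, a ≠ 0 → b ≠ 0 →
      (cl ℓ (a * (b ^ c.val)⁻¹) = 0 ↔ cl ℓ a = c • cl ℓ b) := fun ha hb => by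
    rw [cl_mul ha (inv_ne_zero (pow_ne_zero _ hb)), cl_inv, cl_pow, ZMod.natCast_zmod_val,
      ← sub_eq_add_neg, sub_eq_zero]
  rw [← key' ((ulta_ne_zero 𝒰).2 hf) ((ulta_ne_zero 𝒰).2 hg), ← map_pow, ← ulta_inv, ← map_mul,
    cl_upMk_eq_zero]
  filter_upwards [hf, hg, h] with i a1 a2 a3
  exact (key a1 a2).2 a3

theorem exists_upHom {K : Type*} [Field K] (f : K → Π i, R i)
    (h1 : ∀ᶠ i in (𝒰 : Filter ι), f 1 i = 1)
    (hadd : ∀ x y, ∀ᶠ i in (𝒰 : Filter ι), f (x + y) i = f x i + f y i)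
    (hmul : ∀ x y, ∀ᶠ i in (𝒰 : Filter ι), f (x * y) i = f x i * f y i) :
    ∃ φ : K →+* UP 𝒰 R, ∀ x, φ x = upMk 𝒰 R (f x) := by
  refine ⟨RingHom.mk' ⟨⟨fun x => upMk 𝒰 R (f x), ?_⟩, fun x y => ?_⟩ fun x y => ?_, fun x => rfl⟩
  · rw [← map_one (upMk 𝒰 R), upMk_eq_iff]; exact h1
  · show upMk 𝒰 R (f (x * y)) = upMk 𝒰 R (f x) * upMk 𝒰 R (f y)
    rw [← map_mul, upMk_eq_iff]; exact hmul x y
  · show upMk 𝒰 R (f (x + y)) = upMk 𝒰 R (f x) + upMk 𝒰 R (f y)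
    rw [← map_add, upMk_eq_iff]; exact hadd x y

theorem exists_resUP {K : Type*} [Field K] (O : ι → ValuationSubring K)
    (h : ∀ x : K, x ≠ 0 → ∀ᶠ i in (𝒰 : Filter ι), (O i).valuation x = 1) :
    ∃ j : K →+* UP 𝒰 (fun i => Res (O i)), ∀ x, j x = upMk 𝒰 _ (fun i => res (O i) x) := by
  have hm : ∀ x : K, ∀ᶠ i in (𝒰 : Filter ι), x ∈ O i := fun x => by
    by_cases hx : x = 0
    · exact Eventually.of_forall fun i => hx ▸ (O i).zero_mem
    · exact (h x hx).mono fun i hi => (val_eq_one_iff.1 hi).2.1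
  refine exists_upHom 𝒰 (fun x i => res (O i) x) (Eventually.of_forall fun i => res_one _)
    (fun x y => ?_) fun x y => ?_
  · filter_upwards [hm x, hm y] with i a1 a2 using res_add _ a1 a2
  · filter_upwards [hm x, hm y] with i a1 a2 using res_mul _ a1 a2

theorem perfect_resUP {K : Type*} [Field K] [PerfectField K] (O : ι → ValuationSubring K)
    (h : ∀ x : K, x ≠ 0 → ∀ᶠ i in (𝒰 : Filter ι), (O i).valuation x = 1) :
    PerfectField (UP 𝒰 (fun i => Res (O i))) := by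
  obtain ⟨j, -⟩ := exists_resUP 𝒰 O h
  obtain ⟨p, hp⟩ := CharP.exists K
  rcases CharP.char_is_prime_or_zero K p with hq | rfl
  · haveI := Fact.mk hq
    haveI : CharP (UP 𝒰 fun i => Res (O i)) p := (j.charP_iff_charP p).1 hp
    haveI : PerfectRing (UP 𝒰 fun i => Res (O i)) p := by
      refine PerfectRing.ofSurjective _ p fun x => ?_
      obtain ⟨f, rfl⟩ := upMk_surj 𝒰 x
      have h1 : ∀ i, ∃ y : Res (O i), y ^ p = f i := fun i => by
        have h2 : (p : Res (O i)) = 0 := by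
          rw [← res_natCast, CharP.cast_eq_zero, res_zero]
        have h3 := CharP.ringChar_of_prime_eq_zero hq h2
        haveI : CharP (Res (O i)) p := ringChar.of_eq h3
        haveI := perfect_res (O i) (h3.trans (ringChar.eq K p).symm)
        exact surjective_frobenius (Res (O i)) p (f i)
      choose g hg using h1
      exact ⟨upMk 𝒰 _ g, by rw [frobenius_def, ← map_pow]; congr 1; exact funext hg⟩
    exact PerfectRing.toPerfectField _ p
  · haveI := CharP.charP_to_charZero K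
    haveI : CharZero (UP 𝒰 fun i => Res (O i)) := (j.charZero_iff j.injective).1 inferInstance
    infer_instance

theorem exists_poly_down {σ : Type*} (P : MvPolynomial σ (upC 𝒰 κ)) :
    ∃ Q : Π i, MvPolynomial σ (κ i), (∀ i, (Q i).support ⊆ P.support) ∧
      ∀ m, ((P.coeff m : upC 𝒰 κ) : UP 𝒰 R) =
        upMk 𝒰 R (fun i => (((Q i).coeff m : κ i) : R i)) := by
  classical
  choose c hc using fun m => ultaH_surj 𝒰 κ (P.coeff m)
  have e : ∀ i m, (∑ m ∈ P.support, MvPolynomial.monomial m (c m i)).coeff m =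
      if m ∈ P.support then c m i else 0 := fun i m => by
    simp only [MvPolynomial.coeff_sum, MvPolynomial.coeff_monomial, Finset.sum_ite_eq']
  refine ⟨fun i => ∑ m ∈ P.support, MvPolynomial.monomial m (c m i), fun i m hm => ?_, fun m => ?_⟩
  · by_contra h
    exact MvPolynomial.mem_support_iff.1 hm (by rw [e, if_neg h])
  · simp only [e]
    split_ifs with h
    · rw [← hc, ultaH_coe]
    · rw [MvPolynomial.notMem_support_iff.1 h]
      exact (map_zero (upMk 𝒰 R)).symm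

theorem exists_poly_up {σ : Type*} (S : Finset (σ →₀ ℕ)) (Q : Π i, MvPolynomial σ (κ i))
    (hQ : ∀ i, (Q i).support ⊆ S) :
    ∃ P : MvPolynomial σ (upC 𝒰 κ), P.support ⊆ S ∧
      ∀ m, ((P.coeff m : upC 𝒰 κ) : UP 𝒰 R) =
        upMk 𝒰 R (fun i => (((Q i).coeff m : κ i) : R i)) := by
  classical
  have e : ∀ m, (∑ m ∈ S, MvPolynomial.monomial m (ultaH 𝒰 κ fun i => (Q i).coeff m)).coeff m =
      if m ∈ S then ultaH 𝒰 κ fun i => (Q i).coeff m else 0 := fun m => by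
    simp only [MvPolynomial.coeff_sum, MvPolynomial.coeff_monomial, Finset.sum_ite_eq']
  refine ⟨∑ m ∈ S, MvPolynomial.monomial m (ultaH 𝒰 κ fun i => (Q i).coeff m), fun m hm => ?_,
    fun m => ?_⟩
  · by_contra h
    exact MvPolynomial.mem_support_iff.1 hm (by rw [e, if_neg h])
  · rw [e]
    split_ifs with h
    · rfl
    · have : ∀ i, (Q i).coeff m = 0 := fun i =>
        MvPolynomial.notMem_support_iff.1 fun h1 => h (hQ i h1)
      simp only [this]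
      exact (map_zero (upMk 𝒰 R)).symm

theorem ulta_aeval {σ k A : Type*} [CommRing k] [CommRing A] [Algebra k A] {S : Finset (σ →₀ ℕ)}
    {P : MvPolynomial σ k} (h : P.support ⊆ S) (x : σ → A) :
    MvPolynomial.aeval x P =
      ∑ m ∈ S, algebraMap k A (P.coeff m) * ∏ s ∈ m.support, x s ^ m s := by
  rw [MvPolynomial.aeval_def, MvPolynomial.eval₂_eq]
  refine Finset.sum_subset h fun m _ hm => ?_
  rw [MvPolynomial.notMem_support_iff.1 hm, map_zero, zero_mul]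

theorem ulta_support {σ : Type*} {S : Finset (σ →₀ ℕ)} {P : MvPolynomial σ (upC 𝒰 κ)}
    {Q : Π i, MvPolynomial σ (κ i)} (hQ : ∀ i, (Q i).support ⊆ S)
    (h : ∀ m, ((P.coeff m : upC 𝒰 κ) : UP 𝒰 R) =
      upMk 𝒰 R (fun i => (((Q i).coeff m : κ i) : R i))) : P.support ⊆ S := fun m hm => by
  by_contra h1
  refine MvPolynomial.mem_support_iff.1 hm (Subtype.ext ?_)
  have : ∀ i, (Q i).coeff m = 0 := fun i =>
    MvPolynomial.notMem_support_iff.1 fun h2 => h1 (hQ i h2)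
  rw [h]
  simp only [this]
  exact map_zero (upMk 𝒰 R)

theorem ulta_coeff_ne {σ : Type*} {P : MvPolynomial σ (upC 𝒰 κ)}
    {Q : Π i, MvPolynomial σ (κ i)}
    (h : ∀ m, ((P.coeff m : upC 𝒰 κ) : UP 𝒰 R) =
      upMk 𝒰 R (fun i => (((Q i).coeff m : κ i) : R i))) (m : σ →₀ ℕ) :
    P.coeff m ≠ 0 ↔ ∀ᶠ i in (𝒰 : Filter ι), (Q i).coeff m ≠ 0 := by
  rw [Ne, ← ZeroMemClass.coe_eq_zero, h, ← Ne, ulta_ne_zero]
  simp only [Ne, ZeroMemClass.coe_eq_zero]

theorem ulta_poly_ne {σ : Type*} {S : Finset (σ →₀ ℕ)} {P : MvPolynomial σ (upC 𝒰 κ)}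
    {Q : Π i, MvPolynomial σ (κ i)} (hQ : ∀ i, (Q i).support ⊆ S)
    (h : ∀ m, ((P.coeff m : upC 𝒰 κ) : UP 𝒰 R) =
      upMk 𝒰 R (fun i => (((Q i).coeff m : κ i) : R i))) :
    P ≠ 0 ↔ ∀ᶠ i in (𝒰 : Filter ι), Q i ≠ 0 := by
  constructor
  · intro h0
    obtain ⟨m, hm⟩ := MvPolynomial.ne_zero_iff.1 h0
    exact ((ulta_coeff_ne 𝒰 κ h m).1 hm).mono fun i hi => MvPolynomial.ne_zero_iff.2 ⟨m, hi⟩
  · intro h0
    obtain ⟨m, -, hm⟩ := (Ultrafilter.eventually_exists_mem_iff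
      (P := fun m i => (Q i).coeff m ≠ 0) S.finite_toSet).1 (h0.mono fun i hi => by
        obtain ⟨m, hm⟩ := MvPolynomial.ne_zero_iff.1 hi
        exact ⟨m, hQ i (MvPolynomial.mem_support_iff.2 hm), hm⟩)
    exact MvPolynomial.ne_zero_iff.2 ⟨m, (ulta_coeff_ne 𝒰 κ h m).2 hm⟩

theorem aeval_up {σ : Type*} (S : Finset (σ →₀ ℕ)) (P : MvPolynomial σ (upC 𝒰 κ))
    (Q : Π i, MvPolynomial σ (κ i)) (hQ : ∀ i, (Q i).support ⊆ S)
    (h : ∀ m, ((P.coeff m : upC 𝒰 κ) : UP 𝒰 R) =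
      upMk 𝒰 R (fun i => (((Q i).coeff m : κ i) : R i))) (x : σ → Π i, R i) :
    MvPolynomial.aeval (fun s => upMk 𝒰 R (x s)) P =
      upMk 𝒰 R (fun i => MvPolynomial.aeval (fun s => x s i) (Q i)) := by
  have e : (fun i => MvPolynomial.aeval (fun s => x s i) (Q i)) =
      ∑ m ∈ S, (fun i => (((Q i).coeff m : κ i) : R i)) * ∏ s ∈ m.support, x s ^ m s := by
    funext i
    rw [ulta_aeval (hQ i), Finset.sum_apply]
    refine Finset.sum_congr rfl fun m _ => ?_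
    rw [Pi.mul_apply, Finset.prod_apply]
    rfl
  rw [e, ulta_aeval (ulta_support 𝒰 κ hQ h), map_sum]
  refine Finset.sum_congr rfl fun m _ => ?_
  rw [map_mul, map_prod, ← h]
  simp only [map_pow]
  rfl

theorem ulta_elim {J : Type*} (y : J → Π i, R i) (g : Π i, R i) :
    (fun o : Option J => o.elim (upMk 𝒰 R g) fun j => upMk 𝒰 R (y j)) =
      fun o : Option J => upMk 𝒰 R (o.elim g y) := by
  funext o; cases o <;> rfl

theorem ulta_elim' {J : Type*} (y : J → Π i, R i) (g : Π i, R i) (i : ι) :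
    (fun o : Option J => o.elim (g i) fun j => y j i) = fun o : Option J => o.elim g y i := by
  funext o; cases o <;> rfl

theorem small_up {J : Type*} [Fintype J] (y : J → Π i, R i) (g : Π i, R i) (D : ℕ) :
    Small (upC 𝒰 κ) (fun j => upMk 𝒰 R (y j)) D (upMk 𝒰 R g) ↔
      ∀ᶠ i in (𝒰 : Filter ι), Small (κ i) (fun j => y j i) D (g i) := by
  classical
  constructor
  · rintro ⟨P, h0, h1, h2⟩
    obtain ⟨Q, hQ, hc⟩ := exists_poly_down 𝒰 κ P
    rw [ulta_elim, aeval_up 𝒰 κ _ P Q hQ hc, upMk_eq_zero_iff] at h2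
    filter_upwards [h2, (ulta_poly_ne 𝒰 κ hQ hc).1 h0] with i a1 a2
    refine ⟨Q i, a2, (Finset.sup_mono (hQ i)).trans h1, ?_⟩
    rw [ulta_elim']; exact a1
  · intro h
    have h1 : ∀ i, ∃ Q : MvPolynomial (Option J) (κ i), Q.totalDegree ≤ D ∧
        (Small (κ i) (fun j => y j i) D (g i) → Q ≠ 0 ∧
          MvPolynomial.aeval (fun o : Option J => o.elim g y i) Q = 0) := fun i => by
      by_cases a : Small (κ i) (fun j => y j i) D (g i)
      · obtain ⟨Q, a1, a2, a3⟩ := a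
        exact ⟨Q, a2, fun _ => ⟨a1, by rw [← ulta_elim']; exact a3⟩⟩
      · exact ⟨0, by simp, fun b => absurd b a⟩
    choose Q hD hQ using h1
    have hS : ∀ i, (Q i).support ⊆ (Finsupp.finite_of_degree_le (σ := Option J) D).toFinset :=
      fun i m hm => (Set.Finite.mem_toFinset _).2 ((MvPolynomial.le_totalDegree hm).trans (hD i))
    obtain ⟨P, hP, hc⟩ := exists_poly_up 𝒰 κ _ Q hS
    refine ⟨P, (ulta_poly_ne 𝒰 κ hS hc).2 (h.mono fun i hi => (hQ i hi).1), ?_, ?_⟩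
    · refine Finset.sup_le fun m hm => ?_
      have := (Set.Finite.mem_toFinset _).1 (hP hm)
      exact this
    · rw [ulta_elim, aeval_up 𝒰 κ _ P Q hS hc, upMk_eq_zero_iff]
      exact h.mono fun i hi => (hQ i hi).2

theorem indep_up {J : Type*} (y : J → Π i, R i)
    (h : ∀ᶠ i in (𝒰 : Filter ι), AlgebraicIndependent (κ i) (fun j => y j i)) :
    AlgebraicIndependent (upC 𝒰 κ) (fun j => upMk 𝒰 R (y j)) := by
  rw [algebraicIndependent_iff]
  intro P hP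
  obtain ⟨Q, hQ, hc⟩ := exists_poly_down 𝒰 κ P
  rw [aeval_up 𝒰 κ _ P Q hQ hc, upMk_eq_zero_iff] at hP
  by_contra h0
  obtain ⟨i, a1, a2, a3⟩ := (h.and (hP.and ((ulta_poly_ne 𝒰 κ hQ hc).1 h0))).exists
  exact a3 (algebraicIndependent_iff.1 a1 _ a2)

end Vale.Agent.P019
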