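import Vale.Agent.P019.UltA

open scoped IntermediateField
open Filter

namespace Vale.Agent.P019

variable {ι : Type*} (𝒰 : Ultrafilter ι) {R : ι → Type*} [∀ i, Field (R i)]
  (κ : Π i, Subfield (R i))

section one
variable {k K : Type*} [Field k] [Field K] [Algebra k K] {J : Type*} {y : J → K} {g : K}

/-- evaluation into the field generated by `y` -/
noncomputable def ultbE (k : Type*) [Field k] [Algebra k K] (y : J → K) :
    MvPolynomial J k →+* IntermediateField.adjoin k (Set.range y) :=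
  (MvPolynomial.aeval (fun i => (⟨y i, IntermediateField.subset_adjoin k _ ⟨i, rfl⟩⟩ :
    IntermediateField.adjoin k (Set.range y))) : _ →ₐ[k] _).toRingHom

theorem ultbE_comp : (algebraMap (IntermediateField.adjoin k (Set.range y)) K).comp (ultbE k y) =
    (MvPolynomial.aeval y : _ →ₐ[k] K).toRingHom :=
  MvPolynomial.ringHom_ext (fun c => by simp [ultbE, ← IsScalarTower.algebraMap_apply])
    fun i => by simp [ultbE]

theorem ultbE_coe (a : MvPolynomial J k) : (ultbE k y a : K) = MvPolynomial.aeval y a :=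
  DFunLike.congr_fun ultbE_comp a

theorem ultbE_inj (hy : AlgebraicIndependent k y) : Function.Injective (ultbE k y) :=
  .of_comp (f := algebraMap _ K) (by
    rw [← RingHom.coe_comp, ultbE_comp]
    exact hy)

theorem ultb_aeval (P : MvPolynomial (Option J) k) :
    Polynomial.aeval g ((MvPolynomial.optionEquivLeft k J P).map (ultbE k y)) =
      MvPolynomial.aeval (fun o : Option J => o.elim g y) P := by
  rw [Polynomial.aeval_def, Polynomial.eval₂_map, ultbE_comp, ← fieldb_key]

theorem ultb_le (hy : AlgebraicIndependent k y) {P : MvPolynomial (Option J) k} (h0 : P ≠ 0)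
    (hP : MvPolynomial.aeval (fun o : Option J => o.elim g y) P = 0) :
    (minpoly (IntermediateField.adjoin k (Set.range y)) g).natDegree ≤ P.degreeOf none := by
  have h1 : (MvPolynomial.optionEquivLeft k J P).map (ultbE k y) ≠ 0 :=
    (Polynomial.map_ne_zero_iff (ultbE_inj hy)).2 ((map_ne_zero_iff _ (AlgEquiv.injective _)).2 h0)
  refine (Polynomial.natDegree_le_of_dvd (minpoly.dvd _ g ((ultb_aeval P).trans hP)) h1).trans
    (Polynomial.natDegree_map_le.trans ?_)
  rw [MvPolynomial.natDegree_optionEquivLeft]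

theorem ultb_min (hy : AlgebraicIndependent k y) {D : ℕ} (h : Small k y D g) :
    ∃ Q : MvPolynomial (Option J) k, Q ≠ 0 ∧ Q.totalDegree ≤ D ∧
      MvPolynomial.aeval (fun o : Option J => o.elim g y) Q = 0 ∧
      Q.degreeOf none = (minpoly (IntermediateField.adjoin k (Set.range y)) g).natDegree := by
  obtain ⟨P, h0, hD, hP⟩ := h
  obtain ⟨f, hf, hu⟩ := WfDvdMonoid.exists_factors P h0
  have h1 : MvPolynomial.aeval (fun o : Option J => o.elim g y) f.prod = 0 :=
    (hu.map (MvPolynomial.aeval (fun o : Option J => o.elim g y) : _ →ₐ[k] K)).eq_zero_iff.2 hP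
  rw [map_multiset_prod, Multiset.prod_eq_zero_iff, Multiset.mem_map] at h1
  obtain ⟨Q, hQ, h2⟩ := h1
  have hi := hf Q hQ
  refine ⟨Q, hi.ne_zero, (MvPolynomial.totalDegree_le_of_dvd_of_isDomain
    ((Multiset.dvd_prod hQ).trans hu.dvd) h0).trans hD, h2, ?_⟩
  letI : Algebra (MvPolynomial J k) (IntermediateField.adjoin k (Set.range y)) :=
    (ultbE k y).toAlgebra
  haveI : FaithfulSMul (MvPolynomial J k) (IntermediateField.adjoin k (Set.range y)) :=
    (faithfulSMul_iff_algebraMap_injective _ _).2 (ultbE_inj hy)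
  haveI : IsFractionRing (MvPolynomial J k) (IntermediateField.adjoin k (Set.range y)) := by
    refine IsFractionRing.of_field _ _ fun z => ?_
    obtain ⟨r, s, e⟩ := (IntermediateField.mem_adjoin_range_iff k y z).1 z.2
    refine ⟨r, s, Subtype.ext ?_⟩
    rw [e, ← ultbE_coe, ← ultbE_coe]
    rfl
  have hi' : Irreducible (MvPolynomial.optionEquivLeft k J Q) :=
    (MulEquiv.irreducible_iff (MvPolynomial.optionEquivLeft k J)).2 hi
  have h3 := (ultb_aeval Q).trans h2
  have h4 : (MvPolynomial.optionEquivLeft k J Q).natDegree ≠ 0 := fun h5 => by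
    rw [Polynomial.eq_C_of_natDegree_eq_zero h5, Polynomial.map_C, Polynomial.aeval_C,
      map_eq_zero, map_eq_zero_iff _ (ultbE_inj hy)] at h3
    refine hi'.ne_zero ?_
    rw [Polynomial.eq_C_of_natDegree_eq_zero h5, h3, map_zero]
  have h5 : Irreducible ((MvPolynomial.optionEquivLeft k J Q).map (ultbE k y)) :=
    ((hi'.isPrimitive h4).irreducible_iff_irreducible_map_fraction_map).1 hi'
  rw [← minpoly.eq_of_irreducible h5 h3, Polynomial.natDegree_mul_C
    (inv_ne_zero (Polynomial.leadingCoeff_ne_zero.2 h5.ne_zero)),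
    Polynomial.natDegree_map_eq_of_injective (ultbE_inj hy), MvPolynomial.natDegree_optionEquivLeft]

theorem ultb_sep {q : Polynomial k} (hq : q.Monic) (h1 : Polynomial.aeval g q = 0)
    (h2 : Polynomial.aeval g q.derivative ≠ 0) :
    IsSeparable k g ∧ (minpoly k g).natDegree ≤ q.natDegree := by
  have hi : IsIntegral k g := ⟨q, hq, h1⟩
  have hd := minpoly.dvd k g h1
  refine ⟨(Polynomial.separable_iff_derivative_ne_zero (minpoly.irreducible hi)).2 fun h3 => h2 ?_,
    Polynomial.natDegree_le_of_dvd hd hq.ne_zero⟩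
  obtain ⟨r, rfl⟩ := hd
  rw [Polynomial.derivative_mul, h3, zero_mul, zero_add, map_mul, minpoly.aeval, zero_mul]

end one

theorem ultb_eval (q : Polynomial (Π i, κ i)) (θ : Π i, R i) :
    Polynomial.aeval (upMk 𝒰 R θ) (q.map (ultaH 𝒰 κ)) =
      upMk 𝒰 R fun i => Polynomial.aeval (θ i) (q.map (Pi.evalRingHom (fun i => κ i) i)) := by
  induction q using Polynomial.induction_on' with
  | add p q hp hq =>
    simp only [Polynomial.map_add, map_add, hp, hq]
    exact (map_add (upMk 𝒰 R) _ _).symm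
  | monomial n a =>
    simp only [Polynomial.map_monomial, Polynomial.aeval_monomial]
    rw [← map_pow]
    exact (map_mul (upMk 𝒰 R) (fun i => (a i : R i)) (θ ^ n)).symm

theorem ultb_upper (θ : Π i, R i) (F : Type*) [Field F] [Algebra F (UP 𝒰 R)]
    (hF : ∀ x : F, algebraMap F (UP 𝒰 R) x ∈ upC 𝒰 κ) (hs : IsSeparable F (upMk 𝒰 R θ)) :
    ∀ᶠ i in (𝒰 : Filter ι), IsSeparable (κ i) (θ i) ∧
      (minpoly (κ i) (θ i)).natDegree ≤ (minpoly F (upMk 𝒰 R θ)).natDegree := by
  let ψ : F →+* upC 𝒰 κ := (algebraMap F (UP 𝒰 R)).codRestrict _ hF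
  have hm := minpoly.monic hs.isIntegral
  obtain ⟨q, h1, h2, h3⟩ := Polynomial.lifts_and_natDegree_eq_and_monic
    (Polynomial.mem_lifts_of_surjective (ultaH_surj 𝒰 κ) ((minpoly F (upMk 𝒰 R θ)).map ψ))
    (hm.map ψ)
  have e : ∀ p : Polynomial F, Polynomial.aeval (upMk 𝒰 R θ) (p.map ψ) =
      Polynomial.aeval (upMk 𝒰 R θ) p := fun p => by
    rw [Polynomial.aeval_def, Polynomial.eval₂_map, Polynomial.aeval_def]; rfl
  have a1 := ultb_eval 𝒰 κ q θ
  have a2 := ultb_eval 𝒰 κ q.derivative θ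
  rw [h1, e, minpoly.aeval] at a1
  rw [← Polynomial.derivative_map, h1, Polynomial.derivative_map, e] at a2
  have a3 := Polynomial.Separable.aeval_derivative_ne_zero hs (minpoly.aeval F (upMk 𝒰 R θ))
  rw [a2, ulta_ne_zero] at a3
  filter_upwards [(upMk_eq_zero_iff 𝒰).1 a1.symm, a3] with i b1 b2
  rw [← Polynomial.derivative_map] at b2
  have := ultb_sep (h3.map _) b1 b2
  rwa [h3.natDegree_map, h2, hm.natDegree_map] at this

/-- Let `P ∈ C[Y, T]` be a relation of minimal `T`-degree `N`, with `∂P/∂T (y, θ) ≠ 0`; take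
components `P i` (`exists_poly_down`); almost everywhere `P i (y, θ) = 0` and the derivative does not
vanish, so `θ i` is separable of degree `≤ N`. If the degree were `< N` almost everywhere, an
irreducible factor `Q i` of `P i` in `κ i [Y, T]` vanishing at `(y, θ i)` has `T`-degree `< N`
(Gauss lemma) and total degree at most that of `P`; `exists_poly_up` gives a nonzero relation of
`T`-degree `< N`. -/
theorem sep_deg_up {J : Type*} [Fintype J] (y : J → Π i, R i)
    (hy : ∀ᶠ i in (𝒰 : Filter ι), AlgebraicIndependent (κ i) (fun j => y j i)) (θ : Π i, R i)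
    (hs : IsSeparable (IntermediateField.adjoin (upC 𝒰 κ) (Set.range fun j => upMk 𝒰 R (y j)))
      (upMk 𝒰 R θ)) :
    ∀ᶠ i in (𝒰 : Filter ι),
      IsSeparable (IntermediateField.adjoin (κ i) (Set.range fun j => y j i)) (θ i) ∧
      (minpoly (IntermediateField.adjoin (κ i) (Set.range fun j => y j i)) (θ i)).natDegree =
        (minpoly (IntermediateField.adjoin (upC 𝒰 κ) (Set.range fun j => upMk 𝒰 R (y j)))
          (upMk 𝒰 R θ)).natDegree := by
  classical
  have hY := indep_up 𝒰 κ y hy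
  have h1 := ultb_upper 𝒰
    (fun i => (IntermediateField.adjoin (κ i) (Set.range fun j => y j i)).toSubfield) θ
    (IntermediateField.adjoin (upC 𝒰 κ) (Set.range fun j => upMk 𝒰 R (y j))) (fun x => by
      refine IntermediateField.adjoin_induction (upC 𝒰 κ) (p := fun x _ => x ∈ upC 𝒰 fun i =>
        (IntermediateField.adjoin (κ i) (Set.range fun j => y j i)).toSubfield) ?_ ?_
        (fun _ _ _ _ => add_mem) (fun _ _ => inv_mem) (fun _ _ _ _ => mul_mem) x.2
      · rintro _ ⟨j, rfl⟩
        exact (upMk_mem_upC 𝒰 _).2 (Eventually.of_forall fun i =>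
          IntermediateField.subset_adjoin _ _ ⟨j, rfl⟩)
      · intro c
        obtain ⟨f, rfl⟩ := ultaH_surj 𝒰 κ c
        exact (upMk_mem_upC 𝒰 _).2 (Eventually.of_forall fun i =>
          IntermediateField.algebraMap_mem _ (f i))) hs
  obtain ⟨D, hD⟩ := small_of_mem_ac (mem_ac.2 hs.isIntegral.isAlgebraic)
  rw [small_up] at hD
  generalize hN : (minpoly (IntermediateField.adjoin (upC 𝒰 κ)
    (Set.range fun j => upMk 𝒰 R (y j))) (upMk 𝒰 R θ)).natDegree = N at h1 ⊢
  have h2 : ∀ᶠ i in (𝒰 : Filter ι), N ≤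
      (minpoly (IntermediateField.adjoin (κ i) (Set.range fun j => y j i)) (θ i)).natDegree := by
    by_contra h2
    have h3 := Ultrafilter.eventually_not.2 h2
    have hN0 : 0 < N := by
      obtain ⟨i, hi⟩ := h3.exists
      omega
    have h4 : ∀ i, ∃ Q : MvPolynomial (Option J) (κ i), Q.totalDegree ≤ D ∧ Q.degreeOf none < N ∧
        (AlgebraicIndependent (κ i) (fun j => y j i) → Small (κ i) (fun j => y j i) D (θ i) →
          ¬ N ≤ (minpoly (IntermediateField.adjoin (κ i) (Set.range fun j => y j i))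
            (θ i)).natDegree → Q ≠ 0 ∧
          MvPolynomial.aeval (fun o : Option J => o.elim θ y i) Q = 0) := fun i => by
      by_cases a : AlgebraicIndependent (κ i) (fun j => y j i) ∧
          Small (κ i) (fun j => y j i) D (θ i) ∧ ¬ N ≤ (minpoly (IntermediateField.adjoin (κ i)
            (Set.range fun j => y j i)) (θ i)).natDegree
      · obtain ⟨Q, a1, a2, a3, a4⟩ := ultb_min a.1 a.2.1
        exact ⟨Q, a2, a4 ▸ not_le.1 a.2.2, fun _ _ _ => ⟨a1, by rw [← ulta_elim']; exact a3⟩⟩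
      · exact ⟨0, by simp, by simpa using hN0, fun b1 b2 b3 => absurd ⟨b1, b2, b3⟩ a⟩
    choose Q hQ1 hQ2 hQ3 using h4
    have hS : ∀ i, (Q i).support ⊆ (Finsupp.finite_of_degree_le (σ := Option J) D).toFinset.filter
        fun m => m none < N := fun i m hm => Finset.mem_filter.2
      ⟨(Set.Finite.mem_toFinset _).2 ((MvPolynomial.le_totalDegree hm).trans (hQ1 i)),
        (MvPolynomial.degreeOf_lt_iff hN0).1 (hQ2 i) m hm⟩
    obtain ⟨P, hP, hc⟩ := exists_poly_up 𝒰 κ _ Q hS
    have h5 : ∀ᶠ i in (𝒰 : Filter ι), Q i ≠ 0 ∧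
        MvPolynomial.aeval (fun o : Option J => o.elim θ y i) (Q i) = 0 := by
      filter_upwards [hy, hD, h3] with i b1 b2 b3 using hQ3 i b1 b2 b3
    have h6 := ultb_le hY (g := upMk 𝒰 R θ) ((ulta_poly_ne 𝒰 κ hS hc).2 (h5.mono fun i hi => hi.1))
      (by
        rw [ulta_elim, aeval_up 𝒰 κ _ P Q hS hc, upMk_eq_zero_iff]
        exact h5.mono fun i hi => hi.2)
    have h7 : P.degreeOf none < N :=
      (MvPolynomial.degreeOf_lt_iff hN0).2 fun m hm => (Finset.mem_filter.1 (hP hm)).2
    omega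
  filter_upwards [h1, h2] with i a1 a2
  exact ⟨a1.1, le_antisymm a1.2 a2⟩

/-- curves of bounded separable degree over `x` -/
theorem finite_emb_up (x : Π i, R i) (B : ℕ)
    (h : ∀ᶠ i in (𝒰 : Filter ι), PFC (κ i) (R i) ∧ Transcendental (κ i) (x i) ∧
      sdeg (κ i) (x i) ≤ B) (ω : UP 𝒰 R) (hω : IsSeparable (upC 𝒰 κ)⟮upMk 𝒰 R x⟯ ω) :
    (minpoly (upC 𝒰 κ)⟮upMk 𝒰 R x⟯ ω).natDegree ≤ B := by
  obtain ⟨θ, rfl⟩ := upMk_surj 𝒰 ω
  have h1 := sep_deg_up 𝒰 κ (fun _ : Unit => x)
    (h.mono fun i hi => algebraicIndependent_unique_type_iff.2 hi.2.1) θ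
    (by rw [Set.range_const]; exact hω)
  obtain ⟨i, ⟨a1, a2, a3⟩, a4, a5⟩ := (h.and h1).exists
  rw [Set.range_const] at a4
  rw [Set.range_const, Set.range_const] at a5
  haveI := isAlgebraic_of_trdeg_one a1.2.le a2
  haveI := a1.finite_emb a2
  rw [← a5]
  exact (natDegree_le_finSepDegree _ _ a4).trans a3

end Vale.Agent.P019
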