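import Vale.Agent.P019.Basic

namespace Vale.Agent.P019

variable {ℓ : ℕ} [Fact ℓ.Prime] {K L : Type*} [Field K] [Field L]

section res
variable (O : ValuationSubring K)

theorem valb_res_of_mem {x : K} (hx : x ∈ O) :
    res O x = IsLocalRing.residue O ⟨x, hx⟩ := by
  unfold res
  rw [dif_pos hx]

theorem res_coe (x : O) : res O (x : K) = IsLocalRing.residue O x := valb_res_of_mem O x.2

theorem res_of_not_mem {x : K} (hx : x ∉ O) : res O x = 0 := by
  unfold res
  rw [dif_neg hx]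

theorem res_zero : res O 0 = 0 := by
  rw [valb_res_of_mem O O.zero_mem]
  exact map_zero (IsLocalRing.residue O)

theorem res_one : res O 1 = 1 := by
  rw [valb_res_of_mem O O.one_mem]
  exact map_one (IsLocalRing.residue O)

theorem res_add {x y : K} (hx : x ∈ O) (hy : y ∈ O) : res O (x + y) = res O x + res O y := by
  rw [valb_res_of_mem O hx, valb_res_of_mem O hy, valb_res_of_mem O (O.add_mem _ _ hx hy),
    ← map_add]
  rfl

theorem res_sub {x y : K} (hx : x ∈ O) (hy : y ∈ O) : res O (x - y) = res O x - res O y := by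
  rw [valb_res_of_mem O hx, valb_res_of_mem O hy, valb_res_of_mem O (sub_mem hx hy),
    ← map_sub]
  rfl

theorem res_neg (x : K) : res O (-x) = - res O x := by
  by_cases hx : x ∈ O
  · rw [valb_res_of_mem O hx, valb_res_of_mem O (O.neg_mem _ hx), ← map_neg]
    rfl
  · have hx' : -x ∉ O := fun h => hx (by simpa using O.neg_mem _ h)
    rw [res_of_not_mem O hx, res_of_not_mem O hx', neg_zero]

theorem res_mul {x y : K} (hx : x ∈ O) (hy : y ∈ O) : res O (x * y) = res O x * res O y := by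
  rw [valb_res_of_mem O hx, valb_res_of_mem O hy, valb_res_of_mem O (O.mul_mem _ _ hx hy),
    ← map_mul]
  rfl

theorem res_pow (x : K) (hx : x ∈ O) (n : ℕ) : res O (x ^ n) = res O x ^ n := by
  rw [valb_res_of_mem O hx, valb_res_of_mem O (pow_mem hx n), ← map_pow]
  rfl

theorem valb_res_eq_zero {x : K} (hx : x ∈ O) : res O x = 0 ↔ O.valuation x < 1 := by
  rw [valb_res_of_mem O hx, IsLocalRing.residue_eq_zero_iff, O.valuation_lt_one_iff]

theorem valb_res_ne_zero (x : K) : res O x ≠ 0 ↔ O.valuation x = 1 := by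
  by_cases hx : x ∈ O
  · rw [Ne, valb_res_eq_zero O hx, not_lt]
    exact ⟨fun h => le_antisymm ((O.valuation_le_one_iff x).2 hx) h, fun h => h.ge⟩
  · rw [res_of_not_mem O hx]
    exact ⟨fun h => absurd rfl h, fun h => absurd ((O.valuation_le_one_iff x).1 h.le) hx⟩

theorem valb_mem {x : K} (hx : O.valuation x = 1) : x ∈ O := (O.valuation_le_one_iff x).1 hx.le

theorem res_inv (x : K) : res O x⁻¹ = (res O x)⁻¹ := by
  by_cases hx : O.valuation x = 1
  · obtain ⟨h0, h1, h2⟩ := val_eq_one_iff.1 hx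
    have h := res_mul O h1 h2
    rw [mul_inv_cancel₀ h0, res_one] at h
    exact eq_inv_of_mul_eq_one_right h.symm
  · have hx' : ¬ O.valuation x⁻¹ = 1 := by
      rw [map_inv₀, inv_eq_one]
      exact hx
    rw [← valb_res_ne_zero, not_not] at hx hx'
    rw [hx, hx', inv_zero]

theorem res_natCast (n : ℕ) : res O (n : K) = n := by
  rw [valb_res_of_mem O (natCast_mem O n), ← map_natCast (IsLocalRing.residue O) n]
  rfl

theorem res_sum {J : Type*} (s : Finset J) (x : J → K) (hx : ∀ j ∈ s, x j ∈ O) :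
    res O (∑ j ∈ s, x j) = ∑ j ∈ s, res O (x j) := by
  classical
  induction s using Finset.induction_on with
  | empty => rw [Finset.sum_empty, Finset.sum_empty, res_zero]
  | insert a s ha ih =>
    have h1 : ∀ j ∈ s, x j ∈ O := fun j hj => hx j (Finset.mem_insert_of_mem hj)
    rw [Finset.sum_insert ha, Finset.sum_insert ha,
      res_add O (hx a (Finset.mem_insert_self _ _)) (sum_mem h1), ih h1]

theorem res_prod {J : Type*} (s : Finset J) (x : J → K) (hx : ∀ j ∈ s, x j ∈ O) :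
    res O (∏ j ∈ s, x j) = ∏ j ∈ s, res O (x j) := by
  classical
  induction s using Finset.induction_on with
  | empty => rw [Finset.prod_empty, Finset.prod_empty, res_one]
  | insert a s ha ih =>
    have h1 : ∀ j ∈ s, x j ∈ O := fun j hj => hx j (Finset.mem_insert_of_mem hj)
    rw [Finset.prod_insert ha, Finset.prod_insert ha,
      res_mul O (hx a (Finset.mem_insert_self _ _)) (prod_mem h1), ih h1]

theorem res_ne_zero_iff (x : K) : res O x ≠ 0 ↔ O.valuation x = 1 := valb_res_ne_zero O x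

theorem res_eq_zero_iff {x : K} (hx : x ∈ O) : res O x = 0 ↔ O.valuation x < 1 := valb_res_eq_zero O hx

theorem res_eq_iff {x y : K} (hx : x ∈ O) (hy : y ∈ O) :
    res O x = res O y ↔ O.valuation (x - y) < 1 := by
  rw [← sub_eq_zero, ← res_sub O hx hy, res_eq_zero_iff O (sub_mem hx hy)]

theorem res_surj (a : Res O) : ∃ x ∈ O, res O x = a := by
  obtain ⟨x, rfl⟩ := IsLocalRing.residue_surjective a
  exact ⟨x, x.2, res_coe O x⟩

theorem res_cast_ne_zero {n : ℕ} (h : O.valuation (n : K) = 1) : (n : Res O) ≠ 0 := by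
  rw [← res_natCast, res_ne_zero_iff]
  exact h

theorem valb_unit_lift {a : Res O} (ha : a ≠ 0) : ∃ x : K, O.valuation x = 1 ∧ res O x = a := by
  obtain ⟨x, -, rfl⟩ := res_surj O a
  exact ⟨x, (res_ne_zero_iff O x).1 ha, rfl⟩

theorem perfect_res [PerfectField K] (h : ringChar (Res O) = ringChar K) : PerfectField (Res O) := by
  rcases CharP.char_is_prime_or_zero K (ringChar K) with hp | hp
  · have : Fact (ringChar K).Prime := ⟨hp⟩
    have : CharP (Res O) (ringChar K) := h ▸ ringChar.charP (Res O)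
    have : PerfectRing (Res O) (ringChar K) := by
      refine PerfectRing.ofSurjective _ _ fun a => ?_
      obtain ⟨x, hx, rfl⟩ := res_surj O a
      obtain ⟨y, rfl⟩ := surjective_frobenius K (ringChar K) x
      rw [frobenius_def] at hx
      have hy : y ∈ O := by
        rw [← O.valuation_le_one_iff, map_pow] at hx
        exact (O.valuation_le_one_iff y).1 ((pow_le_one_iff_of_nonneg zero_le hp.ne_zero).1 hx)
      exact ⟨res O y, by rw [frobenius_def, frobenius_def, res_pow O y hy]⟩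
    exact PerfectRing.toPerfectField (Res O) (ringChar K)
  · have : CharP (Res O) 0 := hp ▸ h ▸ ringChar.charP (Res O)
    have : CharZero (Res O) := CharP.charP_to_charZero (Res O)
    infer_instance

/-- a ring hom into `O` induces a ring hom into the residue field -/
theorem exists_resHom {F : Type*} [CommRing F] (φ : F →+* K) (h : ∀ x, φ x ∈ O) :
    ∃ ψ : F →+* Res O, ∀ x, ψ x = res O (φ x) :=   ⟨(IsLocalRing.residue O).comp (φ.codRestrict O h), fun x => (valb_res_of_mem O (h x)).symm⟩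

/-- residue fields along a restriction -/
theorem exists_resMap {F : Type*} [Field F] (φ : F →+* K) :
    ∃ ψ : Res (O.comap φ) →+* Res O, ∀ x : F, ψ (res (O.comap φ) x) = res O (φ x) := by
  obtain ⟨ψ, hψ⟩ := exists_resHom O (φ.comp (O.comap φ).subtype) fun x => x.2
  have hker : ∀ a ∈ IsLocalRing.maximalIdeal (O.comap φ), ψ a = 0 := by
    intro a ha
    rw [ValuationSubring.valuation_lt_one_iff, comap_val_lt_one] at ha
    rw [hψ]
    exact (res_eq_zero_iff O a.2).2 ha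
  refine ⟨Ideal.Quotient.lift _ ψ hker, fun x => ?_⟩
  by_cases hx : x ∈ O.comap φ
  · rw [valb_res_of_mem _ hx]
    exact hψ ⟨x, hx⟩
  · rw [res_of_not_mem _ hx, res_of_not_mem O hx]
    exact map_zero (Ideal.Quotient.lift _ ψ hker)

variable (k : Type*) [Field k] [Algebra k K]

theorem mem_kap {a : Res O} :
    a ∈ kap k O ↔ ∃ c : k, algebraMap k K c ∈ O ∧ res O (algebraMap k K c) = a := by
  constructor
  · intro ha
    induction ha using Subfield.closure_induction with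
    | mem a ha =>
      obtain ⟨c, rfl⟩ := ha
      by_cases hc : algebraMap k K c ∈ O
      · exact ⟨c, hc, rfl⟩
      · refine ⟨0, by rw [map_zero]; exact O.zero_mem, ?_⟩
        rw [map_zero, res_zero]
        exact (res_of_not_mem O hc).symm
    | one => exact ⟨1, by rw [map_one]; exact O.one_mem, by rw [map_one, res_one]⟩
    | add a b _ _ ha hb =>
      obtain ⟨c, hc, rfl⟩ := ha
      obtain ⟨d, hd, rfl⟩ := hb
      exact ⟨c + d, by rw [map_add]; exact O.add_mem _ _ hc hd, by rw [map_add, res_add O hc hd]⟩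
    | neg a _ ha =>
      obtain ⟨c, hc, rfl⟩ := ha
      exact ⟨-c, by rw [map_neg]; exact O.neg_mem _ hc, by rw [map_neg, res_neg]⟩
    | inv a _ ha =>
      obtain ⟨c, hc, rfl⟩ := ha
      by_cases h0 : res O (algebraMap k K c) = 0
      · exact ⟨c, hc, by rw [h0, inv_zero]⟩
      · refine ⟨c⁻¹, ?_, by rw [map_inv₀, res_inv]⟩
        rw [map_inv₀]
        exact (val_eq_one_iff.1 ((res_ne_zero_iff O _).1 h0)).2.2
    | mul a b _ _ ha hb =>
      obtain ⟨c, hc, rfl⟩ := ha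
      obtain ⟨d, hd, rfl⟩ := hb
      exact ⟨c * d, by rw [map_mul]; exact O.mul_mem _ _ hc hd, by rw [map_mul, res_mul O hc hd]⟩
  · rintro ⟨c, -, rfl⟩
    exact Subfield.subset_closure ⟨c, rfl⟩

theorem res_const_mem (c : k) : res O (algebraMap k K c) ∈ kap k O := Subfield.subset_closure ⟨c, rfl⟩

instance kap_isAlgClosed [IsAlgClosed k] : IsAlgClosed (kap k O) := by
  refine IsAlgClosed.of_exists_root _ fun p hp hirr => ?_
  let A : ValuationSubring k := O.comap (algebraMap k K)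
  obtain ⟨ψ, hψ⟩ := exists_resHom O ((algebraMap k K).comp A.subtype) fun x => x.2
  let χ : A →+* kap k O := ψ.codRestrict (kap k O) fun x => by
    rw [hψ]; exact res_const_mem O k x
  have hχ : Function.Surjective χ := by
    rintro ⟨a, ha⟩
    obtain ⟨c, hc, rfl⟩ := (mem_kap O k).1 ha
    exact ⟨⟨c, hc⟩, Subtype.ext (hψ ⟨c, hc⟩)⟩
  obtain ⟨q, hq, hdeg, hqm⟩ := Polynomial.lifts_and_degree_eq_and_monic
    (Polynomial.mem_lifts_of_surjective hχ p) hp
  have hd : (q.map (algebraMap A k)).degree ≠ 0 := by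
    rw [hqm.degree_map, hdeg]
    exact (Polynomial.degree_pos_of_irreducible hirr).ne'
  obtain ⟨c, hc⟩ := IsAlgClosed.exists_root _ hd
  have hc' : Polynomial.eval₂ (algebraMap A k) c q = 0 := by
    rw [← Polynomial.eval_map]; exact hc
  obtain ⟨y, rfl⟩ := IsIntegrallyClosed.algebraMap_eq_of_integral (R := A) (K := k) ⟨q, hqm, hc'⟩
  rw [Polynomial.eval₂_at_apply, map_eq_zero_iff _ (IsFractionRing.injective A k)] at hc'
  refine ⟨χ y, ?_⟩
  rw [← hq, Polynomial.eval_map, Polynomial.eval₂_at_apply, hc', map_zero]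

theorem kap_cast_ne_zero {n : ℕ} (h : O.valuation (n : K) = 1) : (n : kap k O) ≠ 0 := fun h0 =>
  res_cast_ne_zero O h (by simpa using congrArg Subtype.val h0)

theorem exists_kapEquiv (h : ∀ c : k, algebraMap k K c ∈ O) :
    ∃ φ : k ≃+* kap k O, ∀ c, (φ c : Res O) = res O (algebraMap k K c) := by
  obtain ⟨ψ, hψ⟩ := exists_resHom O (algebraMap k K) h
  let χ : k →+* kap k O := ψ.codRestrict (kap k O) fun x => by
    rw [hψ]; exact res_const_mem O k x
  have hχ : Function.Surjective χ := by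
    rintro ⟨a, ha⟩
    obtain ⟨c, hc, rfl⟩ := (mem_kap O k).1 ha
    exact ⟨c, Subtype.ext (hψ c)⟩
  exact ⟨RingEquiv.ofBijective χ ⟨χ.injective, hχ⟩, fun c => hψ c⟩

theorem kap_le_kap (F : Type*) [Field F] [Algebra k F] [Algebra F K] [IsScalarTower k F K] :
    kap k O ≤ kap F O := by
  intro a ha
  obtain ⟨c, -, rfl⟩ := (mem_kap O k).1 ha
  rw [IsScalarTower.algebraMap_apply k F K]
  exact res_const_mem O F _

/-- evaluation of polynomials with integral coefficients commutes with residues -/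
theorem res_aeval {ι : Type*} (y : ι → K) (hy : ∀ i, y i ∈ O) (P : MvPolynomial ι k)
    (hP : ∀ m, algebraMap k K (P.coeff m) ∈ O) :
    ∃ Q : MvPolynomial ι (kap k O), 
      (∀ m, ((Q.coeff m : kap k O) : Res O) = res O (algebraMap k K (P.coeff m))) ∧
      MvPolynomial.aeval y P ∈ O ∧
      res O (MvPolynomial.aeval y P) = MvPolynomial.aeval (fun i => res O (y i)) Q := by
  classical
  have hm : ∀ m : ι →₀ ℕ, (∏ i ∈ m.support, y i ^ m i) ∈ O :=
    fun m => prod_mem fun i _ => pow_mem (hy i) _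
  have hE : MvPolynomial.aeval y P =
      ∑ m ∈ P.support, algebraMap k K (P.coeff m) * ∏ i ∈ m.support, y i ^ m i := by
    rw [MvPolynomial.aeval_def, MvPolynomial.eval₂_eq]
  refine ⟨∑ m ∈ P.support, MvPolynomial.monomial m
    (⟨res O (algebraMap k K (P.coeff m)), res_const_mem O k _⟩ : kap k O), fun m => ?_, ?_, ?_⟩
  · rw [MvPolynomial.coeff_sum]
    simp only [MvPolynomial.coeff_monomial, Finset.sum_ite_eq']
    split_ifs with h
    · rfl
    · rw [MvPolynomial.notMem_support_iff.1 h, map_zero, res_zero]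
      rfl
  · rw [hE]
    exact sum_mem fun m _ => mul_mem (hP m) (hm m)
  · rw [hE, res_sum O _ _ fun m _ => mul_mem (hP m) (hm m), map_sum]
    refine Finset.sum_congr rfl fun m _ => ?_
    rw [MvPolynomial.aeval_monomial, res_mul O (hP m) (hm m),
      res_prod O _ _ fun i _ => pow_mem (hy i) _]
    congr 1
    exact Finset.prod_congr rfl fun i _ => res_pow O _ (hy i) _

theorem RInd_iff {ι : Type*} (y : ι → K) :
    RInd k O y ↔ (∀ i, y i ∈ O) ∧ ∀ P : MvPolynomial ι k,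
      (∀ m, algebraMap k K (P.coeff m) ∈ O) → (∃ m, O.valuation (algebraMap k K (P.coeff m)) = 1) →
        O.valuation (MvPolynomial.aeval y P) = 1 := by
  classical
  constructor
  · rintro ⟨hy, hind⟩
    refine ⟨hy, fun P hP ⟨m, hm⟩ => ?_⟩
    obtain ⟨Q, hQ, -, hE⟩ := res_aeval O k y hy P hP
    rw [← res_ne_zero_iff, hE]
    intro h0
    have hQ0 : Q = 0 := algebraicIndependent_iff.1 hind Q h0
    have h1 := hQ m
    rw [hQ0, MvPolynomial.coeff_zero] at h1
    exact (res_ne_zero_iff O _).2 hm h1.symm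
  · rintro ⟨hy, h⟩
    refine ⟨hy, algebraicIndependent_iff.2 fun Q hQ => ?_⟩
    by_contra hQ0
    choose c hc hc' using fun a : kap k O => (mem_kap O k).1 a.2
    let P : MvPolynomial ι k := ∑ m ∈ Q.support, MvPolynomial.monomial m (c (Q.coeff m))
    have hco : ∀ m, P.coeff m = if m ∈ Q.support then c (Q.coeff m) else 0 := by
      intro m
      simp only [P, MvPolynomial.coeff_sum, MvPolynomial.coeff_monomial, Finset.sum_ite_eq']
    have hP : ∀ m, algebraMap k K (P.coeff m) ∈ O := by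
      intro m
      rw [hco]
      split_ifs
      · exact hc _
      · rw [map_zero]; exact O.zero_mem
    have hres : ∀ m, res O (algebraMap k K (P.coeff m)) = (Q.coeff m : kap k O) := by
      intro m
      rw [hco]
      split_ifs with hm
      · exact hc' _
      · rw [map_zero, res_zero, MvPolynomial.notMem_support_iff.1 hm]
        rfl
    obtain ⟨m, hm⟩ := MvPolynomial.ne_zero_iff.1 hQ0
    have h1 := h P hP ⟨m, (res_ne_zero_iff O _).1 (by
      rw [hres]
      exact fun h2 => hm (Subtype.ext h2))⟩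
    obtain ⟨Q', hQ', -, hE⟩ := res_aeval O k y hy P hP
    have hQQ : Q' = Q := MvPolynomial.ext _ _ fun m => Subtype.ext (by rw [hQ', hres])
    rw [hQQ, hQ] at hE
    exact (res_ne_zero_iff O _).2 h1 hE

theorem exists_RInd {ι : Type*} (z : ι → Res O) (hz : AlgebraicIndependent (kap k O) z) :
    ∃ y : ι → K, RInd k O y ∧ ∀ i, res O (y i) = z i := by
  choose y hy hy' using fun i => res_surj O (z i)
  refine ⟨y, ⟨hy, ?_⟩, hy'⟩
  rw [funext hy']
  exact hz

theorem FT_kap (h : ∃ p : ℕ, p.Prime ∧ O.valuation (p : K) < 1 ∧ ∀ a : k, algebraMap k K a ∈ O →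
    ∃ n : ℕ, 0 < n ∧ O.valuation (algebraMap k K (a ^ p ^ n - a)) < 1) : FT (kap k O) := by
  obtain ⟨p, hp, hv, h⟩ := h
  have h0 : (p : Res O) = 0 := by
    rw [← res_natCast]
    exact (res_eq_zero_iff O (natCast_mem O p)).2 hv
  have h1 : (p : kap k O) = 0 := Subtype.ext (by simpa using h0)
  refine ⟨p, hp, (CharP.charP_iff_prime_eq_zero hp).2 h1, ?_⟩
  rintro ⟨a, ha⟩
  obtain ⟨c, hc, rfl⟩ := (mem_kap O k).1 ha
  obtain ⟨n, hn, h2⟩ := h c hc
  refine ⟨n, hn, Subtype.ext ?_⟩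
  rw [map_sub, map_pow, ← res_eq_iff O (pow_mem hc _) hc, res_pow O _ hc] at h2
  exact h2

theorem mem_vcomp (u : ValuationSubring (Res O)) (x : K) :
    x ∈ vcomp O u ↔ x ∈ O ∧ res O x ∈ u := by
  unfold vcomp
  rw [ValuationSubring.mem_ofSubring]
  constructor
  · rintro ⟨y, hy, rfl⟩
    refine ⟨y.2, ?_⟩
    have h : res O (O.subtype y) = IsLocalRing.residue O y := res_coe O y
    rw [h]
    exact hy
  · rintro ⟨hx, h⟩
    rw [valb_res_of_mem O hx] at h
    exact ⟨⟨x, hx⟩, h, rfl⟩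

theorem vcomp_le (u : ValuationSubring (Res O)) : vcomp O u ≤ O := fun x hx => ((mem_vcomp O u x).1 hx).1

theorem vcomp_val_eq_one (u : ValuationSubring (Res O)) (x : K) :
    (vcomp O u).valuation x = 1 ↔ O.valuation x = 1 ∧ u.valuation (res O x) = 1 := by
  rw [val_eq_one_iff, val_eq_one_iff (O := u), mem_vcomp, mem_vcomp, res_inv]
  constructor
  · rintro ⟨h0, ⟨h1, h2⟩, h3, h4⟩
    have h5 := val_eq_one_iff.2 ⟨h0, h1, h3⟩
    exact ⟨h5, (res_ne_zero_iff O x).2 h5, h2, h4⟩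
  · rintro ⟨h5, -, h2, h4⟩
    obtain ⟨h0, h1, h3⟩ := val_eq_one_iff.1 h5
    exact ⟨h0, ⟨h1, h2⟩, h3, h4⟩

theorem vcomp_val_lt_one (u : ValuationSubring (Res O)) (x : K) :
    (vcomp O u).valuation x < 1 ↔ x ∈ O ∧ u.valuation (res O x) < 1 := by
  rw [lt_iff_le_and_ne, lt_iff_le_and_ne, ValuationSubring.valuation_le_one_iff,
    ValuationSubring.valuation_le_one_iff, mem_vcomp, Ne, vcomp_val_eq_one]
  constructor
  · rintro ⟨⟨h1, h2⟩, h3⟩
    refine ⟨h1, h2, fun h4 => h3 ⟨(res_ne_zero_iff O x).1 ?_, h4⟩⟩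
    exact (val_eq_one_iff.1 h4).1
  · rintro ⟨h1, h2, h3⟩
    exact ⟨⟨h1, h2⟩, fun h4 => h3 h4.2⟩

theorem exists_vcomp {ν : ValuationSubring K} (h : ν ≤ O) : ∃ u, vcomp O u = ν := by
  let S : Subring (Res O) := (ν.toSubring.comap O.subtype).map (IsLocalRing.residue O)
  have hS : ∀ a, a ∈ S ↔ ∃ x ∈ ν, res O x = a := by
    intro a
    constructor
    · rintro ⟨y, hy, rfl⟩
      exact ⟨y, hy, res_coe O y⟩
    · rintro ⟨x, hx, rfl⟩
      exact ⟨⟨x, h hx⟩, hx, (valb_res_of_mem O (h hx)).symm⟩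
  refine ⟨ValuationSubring.ofSubring S fun a => ?_, ?_⟩
  · obtain ⟨x, -, rfl⟩ := res_surj O a
    rcases ν.mem_or_inv_mem x with hx | hx
    · exact Or.inl ((hS _).2 ⟨x, hx, rfl⟩)
    · exact Or.inr ((hS _).2 ⟨x⁻¹, hx, res_inv O x⟩)
  · ext x
    rw [mem_vcomp, ValuationSubring.mem_ofSubring, hS]
    constructor
    · rintro ⟨hx, y, hy, hxy⟩
      have h1 := (res_eq_iff O hx (h hy)).1 hxy.symm
      have h2 : x - y ∈ ν := by
        rcases ν.mem_or_inv_mem (x - y) with h3 | h3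
        · exact h3
        · rcases eq_or_ne (x - y) 0 with h0 | h0
          · rw [h0]; exact ν.zero_mem
          · exact absurd (val_eq_one_iff.2 ⟨h0, sub_mem hx (h hy), h h3⟩) h1.ne
      have h4 := ν.add_mem _ _ h2 hy
      rwa [sub_add_cancel] at h4
    · intro hx
      exact ⟨h hx, x, hx, rfl⟩

theorem valb_ne_zero {x : K} (hx : O.valuation x = 1) : x ≠ 0 := (val_eq_one_iff.1 hx).1

theorem valb_pu_iff {x : K} (hx : x ∈ O) : O.valuation (x - 1) < 1 ↔ res O x = 1 := by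
  rw [← res_eq_iff O hx O.one_mem, res_one]

theorem valb_pu_unit {x : K} (hx : O.valuation (x - 1) < 1) : O.valuation x = 1 := by
  have h := O.valuation.map_one_add_of_lt hx
  rwa [add_sub_cancel] at h

theorem valb_res_div {x y : K} (hx : O.valuation x = 1) (hy : O.valuation y = 1) :
    res O (x / y) = res O x / res O y := by
  rw [div_eq_mul_inv, res_mul O (valb_mem O hx) (val_eq_one_iff.1 hy).2.2, res_inv,
    div_eq_mul_inv]

theorem valb_val_div {x y : K} (hx : O.valuation x = 1) (hy : O.valuation y = 1) :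
    O.valuation (x / y) = 1 := by
  rw [map_div₀, hx, hy, div_one]

theorem valb_val_mul {x y : K} (hx : O.valuation x = 1) (hy : O.valuation y = 1) :
    O.valuation (x * y) = 1 := by
  rw [map_mul, hx, hy, mul_one]

theorem valb_cl_res_eq {x y : K} (hx : O.valuation x = 1) (hy : O.valuation y = 1)
    (h : cl ℓ x = cl ℓ y) : cl ℓ (res O x) = cl ℓ (res O y) := by
  obtain ⟨z, hz, rfl⟩ := (cl_eq_iff (valb_ne_zero O hx) (valb_ne_zero O hy)).1 h
  rw [map_mul, hy, one_mul, map_pow] at hx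
  have hz1 : O.valuation z = 1 :=
    (pow_eq_one_iff_of_nonneg zero_le (Fact.out : ℓ.Prime).ne_zero).1 hx
  rw [res_mul O (valb_mem O hy) (pow_mem (valb_mem O hz1) _), res_pow O _ (valb_mem O hz1),
    cl_mul ((res_ne_zero_iff O _).2 hy) (pow_ne_zero _ ((res_ne_zero_iff O _).2 hz1)), cl_pow,
    ZMod.natCast_self, zero_smul, add_zero]

theorem cl_mem_U1_iff {x : K} (hx : O.valuation x = 1) :
    cl ℓ x ∈ U1 ℓ O ↔ cl ℓ (res O x) = 0 := by
  rw [mem_U1]
  constructor
  · rintro ⟨y, hy, h⟩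
    have hy1 := valb_pu_unit O hy
    rw [← valb_cl_res_eq O hy1 hx h, (valb_pu_iff O (valb_mem O hy1)).1 hy, cl_one]
  · intro h
    have h0 := (res_ne_zero_iff O x).2 hx
    obtain ⟨a, ha⟩ := (cl_eq_zero_iff h0).1 h
    have ha0 : a ≠ 0 := by
      rintro rfl
      exact h0 (by rw [← ha, zero_pow (Fact.out : ℓ.Prime).ne_zero])
    obtain ⟨z, hz, rfl⟩ := valb_unit_lift O ha0
    have hzl : O.valuation (z ^ ℓ) = 1 := by rw [map_pow, hz, one_pow]
    refine ⟨x / z ^ ℓ, ?_, ?_⟩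
    · rw [valb_pu_iff O (valb_mem O (valb_val_div O hx hzl)), valb_res_div O hx hzl,
        res_pow O _ (valb_mem O hz), ha, div_self h0]
    · rw [cl_div (valb_ne_zero O hx) (valb_ne_zero O hzl), cl_pow, ZMod.natCast_self, zero_smul,
        sub_zero]

/-- hint: build the linear map `U O → V (Res O)`, onto with kernel `U1 O` -/
theorem exists_resFun_down {f : DV ℓ K} (hf : f ∈ DD ℓ O) : ∃ fb, ResFun O f fb := by
  choose t ht ht' using res_surj O
  have key : ∀ x : K, O.valuation x = 1 → f (cl ℓ (t (res O x))) = f (cl ℓ x) := by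
    intro x hx
    refine DD_apply_eq hf ?_
    rw [hx, ← res_eq_iff O (ht _) (valb_mem O hx), ht']
  have hu : ∀ a, a ≠ 0 → O.valuation (t a) = 1 := fun a ha =>
    (res_ne_zero_iff O _).1 (by rw [ht']; exact ha)
  obtain ⟨fb, hfb⟩ := exists_lin (ℓ := ℓ) (fun a : Res O => f (cl ℓ (t a))) fun a b ha hb => by
    have h1 := key (t a * t b) (valb_val_mul O (hu a ha) (hu b hb))
    rw [res_mul O (ht a) (ht b), ht', ht'] at h1
    rw [h1, cl_mul (valb_ne_zero O (hu a ha)) (valb_ne_zero O (hu b hb)), map_add]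
  exact ⟨fb, hf, fun x hx => by rw [hfb _ ((res_ne_zero_iff O x).2 hx), key x hx]⟩

theorem exists_resFun_up (fb : DV ℓ (Res O)) : ∃ f, ResFun O f fb := by
  choose t ht ht' using fun z : U ℓ O => mem_U.1 z.2
  have key : ∀ (z : U ℓ O) (x : K), O.valuation x = 1 → cl ℓ x = z →
      cl ℓ (res O (t z)) = cl ℓ (res O x) := fun z x hx h =>
    valb_cl_res_eq O (ht z) hx (by rw [ht', h])
  let r : U ℓ O →+ ZMod ℓ := AddMonoidHom.mk' (fun z => fb (cl ℓ (res O (t z)))) fun a b => by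
    have h1 := key (a + b) (t a * t b) (valb_val_mul O (ht a) (ht b)) (by
      rw [cl_mul (valb_ne_zero O (ht a)) (valb_ne_zero O (ht b)), ht', ht']
      rfl)
    rw [h1, res_mul O (valb_mem O (ht a)) (valb_mem O (ht b)),
      cl_mul ((res_ne_zero_iff O _).2 (ht a)) ((res_ne_zero_iff O _).2 (ht b)), map_add]
  obtain ⟨f, hf⟩ := LinearMap.exists_extend (r.toZModLinearMap ℓ)
  have hfx : ∀ x : K, O.valuation x = 1 → fb (cl ℓ (res O x)) = f (cl ℓ x) := by
    intro x hx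
    have h1 := LinearMap.congr_fun hf ⟨cl ℓ x, mem_U.2 ⟨x, hx, rfl⟩⟩
    rw [← key ⟨cl ℓ x, mem_U.2 ⟨x, hx, rfl⟩⟩ x hx rfl]
    exact h1.symm
  refine ⟨f, mem_DD.2 fun x hx => ?_, hfx⟩
  have hx1 := valb_pu_unit O hx
  rw [← hfx x hx1, (valb_pu_iff O (valb_mem O hx1)).1 hx, cl_one, map_zero]

variable {O}

theorem ResFun.unique {f : DV ℓ K} {fb fb' : DV ℓ (Res O)} (h : ResFun O f fb)
    (h' : ResFun O f fb') : fb = fb' := V_ext fun a ha => by
  obtain ⟨x, hx, rfl⟩ := valb_unit_lift O ha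
  rw [h.2 x hx, h'.2 x hx]

theorem ResFun.add {f g : DV ℓ K} {fb gb : DV ℓ (Res O)} (h : ResFun O f fb)
    (h' : ResFun O g gb) : ResFun O (f + g) (fb + gb) :=   ⟨add_mem h.1 h'.1, fun x hx => by
    rw [LinearMap.add_apply, LinearMap.add_apply, h.2 x hx, h'.2 x hx]⟩

theorem ResFun.smul {f : DV ℓ K} {fb : DV ℓ (Res O)} (h : ResFun O f fb) (c : ZMod ℓ) :
    ResFun O (c • f) (c • fb) :=   ⟨Submodule.smul_mem _ c h.1, fun x hx => by
    rw [LinearMap.smul_apply, LinearMap.smul_apply, h.2 x hx]⟩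

theorem ResFun.eq_zero_iff {f : DV ℓ K} {fb : DV ℓ (Res O)} (h : ResFun O f fb) :
    fb = 0 ↔ f ∈ II ℓ O := by
  rw [mem_II]
  constructor
  · intro h0 x hx
    rw [← h.2 x hx, h0, LinearMap.zero_apply]
  · intro h0
    refine V_ext fun a ha => ?_
    obtain ⟨x, hx, rfl⟩ := valb_unit_lift O ha
    rw [h.2 x hx, h0 x hx, LinearMap.zero_apply]

theorem ResFun.CP_iff [IsAlgClosed k] {f g : DV ℓ K} {fb gb : DV ℓ (Res O)} (h : ResFun O f fb)
    (h' : ResFun O g gb) : CP f g ↔ CP fb gb := by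
  have hsub : ∀ x : K, x ∈ O → res O (1 - x) = 1 - res O x := fun x hx => by
    rw [res_sub O O.one_mem hx, res_one]
  constructor
  · intro hc a h0 h1
    obtain ⟨x, hx, rfl⟩ := valb_unit_lift O h0
    have hx' : O.valuation (1 - x) = 1 := by
      rw [← res_ne_zero_iff, hsub x (valb_mem O hx)]
      exact sub_ne_zero.2 h1.symm
    rw [← hsub x (valb_mem O hx), h.2 x hx, h'.2 x hx, h.2 _ hx', h'.2 _ hx']
    exact hc x (valb_ne_zero O hx) fun h2 => h1 (by rw [h2, res_one])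
  · intro hc x h0 h1
    rcases lt_trichotomy (O.valuation x) 1 with hx | hx | hx
    · have h2 : O.valuation (1 - x - 1) < 1 := by
        rw [sub_sub_cancel_left, Valuation.map_neg]; exact hx
      rw [mem_DD.1 h.1 _ h2, mem_DD.1 h'.1 _ h2, mul_zero, zero_mul]
    · by_cases h2 : O.valuation (x - 1) < 1
      · rw [mem_DD.1 h.1 _ h2, mem_DD.1 h'.1 _ h2, mul_zero, zero_mul]
      · rw [valb_pu_iff O (valb_mem O hx)] at h2
        have hx' : O.valuation (1 - x) = 1 := by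
          rw [← res_ne_zero_iff, hsub x (valb_mem O hx)]
          exact sub_ne_zero.2 (Ne.symm h2)
        rw [← h.2 x hx, ← h'.2 x hx, ← h.2 _ hx', ← h'.2 _ hx', hsub x (valb_mem O hx)]
        exact hc _ ((res_ne_zero_iff O x).2 hx) h2
    · have h2 : O.valuation (1 - x - -x) < O.valuation (-x) := by
        rw [sub_neg_eq_add, sub_add_cancel, map_one, Valuation.map_neg]; exact hx
      rw [DD_apply_eq h.1 h2, DD_apply_eq h'.1 h2, cl_neg k]

theorem ResFun.II_iff {f : DV ℓ K} {fb : DV ℓ (Res O)} (h : ResFun O f fb)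
    (u : ValuationSubring (Res O)) : f ∈ II ℓ (vcomp O u) ↔ fb ∈ II ℓ u := by
  rw [mem_II, mem_II]
  constructor
  · intro h0 a ha
    obtain ⟨x, hx, rfl⟩ := valb_unit_lift O (val_eq_one_iff.1 ha).1
    rw [h.2 x hx]
    exact h0 x ((vcomp_val_eq_one O u x).2 ⟨hx, ha⟩)
  · intro h0 x hx
    obtain ⟨h1, h2⟩ := (vcomp_val_eq_one O u x).1 hx
    rw [← h.2 x h1]
    exact h0 _ h2

end res

theorem ResIso.symm {Θ : V ℓ K ≃ₗ[ZMod ℓ] V ℓ L} {O : ValuationSubring K}
    {O' : ValuationSubring L} {Θb : V ℓ (Res O) ≃ₗ[ZMod ℓ] V ℓ (Res O')}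
    (h : ResIso Θ O O' Θb) : ResIso Θ.symm O' O Θb.symm := fun y x hy hx hxy => by
  rw [LinearEquiv.symm_apply_eq] at hxy ⊢
  exact (h x y hx hy hxy.symm).symm

theorem ResIso.resFun {Θ : V ℓ K ≃ₗ[ZMod ℓ] V ℓ L} {O : ValuationSubring K}
    {O' : ValuationSubring L} (hP : Partner Θ O O') {Θb : V ℓ (Res O) ≃ₗ[ZMod ℓ] V ℓ (Res O')}
    (h : ResIso Θ O O' Θb) {f : DV ℓ L} {fb : DV ℓ (Res O')} (hf : ResFun O' f fb) :
    ResFun O (f ∘ₗ Θ.toLinearMap) (fb ∘ₗ Θb.toLinearMap) := by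
  refine ⟨mem_DD.2 fun x hx => ?_, fun x hx => ?_⟩
  · have h1 : Θ (cl ℓ x) ∈ U1 ℓ O' := hP.2 ▸ Submodule.mem_map_of_mem (mem_U1.2 ⟨x, hx, rfl⟩)
    exact mem_U1_iff_DD.1 h1 f hf.1
  · have h1 : Θ (cl ℓ x) ∈ U ℓ O' := hP.1 ▸ Submodule.mem_map_of_mem (mem_U.2 ⟨x, hx, rfl⟩)
    obtain ⟨y, hy, hxy⟩ := mem_U.1 h1
    show fb (Θb (cl ℓ (res O x))) = f (Θ (cl ℓ x))
    rw [h x y hx hy hxy.symm, hf.2 y hy, hxy]

theorem valb_exists_resLin {Θ : V ℓ K →ₗ[ZMod ℓ] V ℓ L} {O : ValuationSubring K}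
    {O' : ValuationSubring L} (hU : ∀ x, O.valuation x = 1 → Θ (cl ℓ x) ∈ U ℓ O')
    (hU1 : ∀ x, O.valuation (x - 1) < 1 → Θ (cl ℓ x) ∈ U1 ℓ O') :
    ∃ T : V ℓ (Res O) →ₗ[ZMod ℓ] V ℓ (Res O'), ∀ (x : K) (y : L), O.valuation x = 1 →
      O'.valuation y = 1 → Θ (cl ℓ x) = cl ℓ y → T (cl ℓ (res O x)) = cl ℓ (res O' y) := by
  have hex : ∀ a : Res O, ∃ (x : K) (y : L), a ≠ 0 → O.valuation x = 1 ∧ res O x = a ∧
      O'.valuation y = 1 ∧ Θ (cl ℓ x) = cl ℓ y := by
    intro a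
    by_cases ha : a = 0
    · exact ⟨0, 0, fun h => absurd ha h⟩
    · obtain ⟨x, hx, hxa⟩ := valb_unit_lift O ha
      obtain ⟨y, hy, hxy⟩ := mem_U.1 (hU x hx)
      exact ⟨x, y, fun _ => ⟨hx, hxa, hy, hxy.symm⟩⟩
  choose s t hst using hex
  have key : ∀ (x : K) (y : L), O.valuation x = 1 → O'.valuation y = 1 →
      Θ (cl ℓ x) = cl ℓ y → cl ℓ (res O' (t (res O x))) = cl ℓ (res O' y) := by
    intro x y hx hy hxy
    have h0 := (res_ne_zero_iff O x).2 hx
    obtain ⟨h1, h2, h3, h4⟩ := hst _ h0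
    have h5 : O.valuation (s (res O x) / x - 1) < 1 := by
      rw [valb_pu_iff O (valb_mem O (valb_val_div O h1 hx)), valb_res_div O h1 hx, h2, div_self h0]
    have h6 := hU1 _ h5
    rw [cl_div (valb_ne_zero O h1) (valb_ne_zero O hx), map_sub, h4, hxy,
      ← cl_div (valb_ne_zero O' h3) (valb_ne_zero O' hy),
      cl_mem_U1_iff O' (valb_val_div O' h3 hy), valb_res_div O' h3 hy,
      cl_div ((res_ne_zero_iff O' _).2 h3) ((res_ne_zero_iff O' _).2 hy), sub_eq_zero] at h6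
    exact h6
  obtain ⟨T, hT⟩ := exists_lin (ℓ := ℓ) (fun a : Res O => cl ℓ (res O' (t a))) fun a b ha hb => by
    obtain ⟨a1, a2, a3, a4⟩ := hst a ha
    obtain ⟨b1, b2, b3, b4⟩ := hst b hb
    have h1 := key (s a * s b) (t a * t b) (valb_val_mul O a1 b1) (valb_val_mul O' a3 b3) (by
      rw [cl_mul (valb_ne_zero O a1) (valb_ne_zero O b1), map_add, a4, b4,
        cl_mul (valb_ne_zero O' a3) (valb_ne_zero O' b3)])
    rw [res_mul O (valb_mem O a1) (valb_mem O b1), a2, b2] at h1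
    rw [h1, res_mul O' (valb_mem O' a3) (valb_mem O' b3),
      cl_mul ((res_ne_zero_iff O' _).2 a3) ((res_ne_zero_iff O' _).2 b3)]
  exact ⟨T, fun x y hx hy hxy => by
    rw [hT _ ((res_ne_zero_iff O x).2 hx), key x y hx hy hxy]⟩

theorem exists_resIso (k l : Type*) [Field k] [Algebra k K] [IsAlgClosed k] [Field l]
    [Algebra l L] [IsAlgClosed l] {Θ : V ℓ K ≃ₗ[ZMod ℓ] V ℓ L} (hΘ : Iso Θ)
    {O : ValuationSubring K} {O' : ValuationSubring L} (hP : Partner Θ O O') :
    ∃ Θb, ResIso Θ O O' Θb ∧ Iso Θb := by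
  have a1 : ∀ x, O.valuation x = 1 → Θ.toLinearMap (cl ℓ x) ∈ U ℓ O' := fun x hx =>
    hP.1 ▸ Submodule.mem_map_of_mem (mem_U.2 ⟨x, hx, rfl⟩)
  have a2 : ∀ x, O.valuation (x - 1) < 1 → Θ.toLinearMap (cl ℓ x) ∈ U1 ℓ O' := fun x hx =>
    hP.2 ▸ Submodule.mem_map_of_mem (mem_U1.2 ⟨x, hx, rfl⟩)
  have b1 : ∀ y, O'.valuation y = 1 → Θ.symm.toLinearMap (cl ℓ y) ∈ U ℓ O := by
    intro y hy
    have h1 : cl ℓ y ∈ (U ℓ O).map Θ.toLinearMap := hP.1 ▸ mem_U.2 ⟨y, hy, rfl⟩
    obtain ⟨v, hv, h2⟩ := h1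
    rw [← h2]
    simpa using hv
  have b2 : ∀ y, O'.valuation (y - 1) < 1 → Θ.symm.toLinearMap (cl ℓ y) ∈ U1 ℓ O := by
    intro y hy
    have h1 : cl ℓ y ∈ (U1 ℓ O).map Θ.toLinearMap := hP.2 ▸ mem_U1.2 ⟨y, hy, rfl⟩
    obtain ⟨v, hv, h2⟩ := h1
    rw [← h2]
    simpa using hv
  obtain ⟨T, hT⟩ := valb_exists_resLin a1 a2
  obtain ⟨T', hT'⟩ := valb_exists_resLin b1 b2
  have e1 : T ∘ₗ T' = LinearMap.id := V_ext fun a ha => by
    obtain ⟨y, hy, rfl⟩ := valb_unit_lift O' ha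
    obtain ⟨x, hx, hxy⟩ := mem_U.1 (b1 y hy)
    rw [LinearMap.comp_apply, hT' y x hy hx hxy.symm, LinearMap.id_apply]
    refine hT x y hx hy ?_
    rw [hxy]
    simp
  have e2 : T' ∘ₗ T = LinearMap.id := V_ext fun a ha => by
    obtain ⟨x, hx, rfl⟩ := valb_unit_lift O ha
    obtain ⟨y, hy, hxy⟩ := mem_U.1 (a1 x hx)
    rw [LinearMap.comp_apply, hT x y hx hy hxy.symm, LinearMap.id_apply]
    refine hT' y x hy hx ?_
    rw [hxy]
    simp
  have hR : ResIso Θ O O' (LinearEquiv.ofLinear T T' e1 e2) := fun x y hx hy hxy =>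
    hT x y hx hy hxy
  refine ⟨LinearEquiv.ofLinear T T' e1 e2, hR, fun fb gb => ?_⟩
  obtain ⟨f, hf⟩ := exists_resFun_up O' fb
  obtain ⟨g, hg⟩ := exists_resFun_up O' gb
  rw [← hf.CP_iff l hg, hΘ f g]
  exact (hR.resFun hP hf).CP_iff k (hR.resFun hP hg)

end Vale.Agent.P019
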