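import Vale.Agent.P019.ValB
import Vale.Agent.P019.FieldA

open scoped IntermediateField

namespace Vale.Agent.P019

variable {k F K : Type*} [Field k] [Field F] [Field K]

/-- places from prime ideals -/
theorem valc_place {R : Type*} [CommRing R] (f : R →+* K) (p : Ideal R) [p.IsPrime]
    (hf : ∀ r, f r = 0 → r ∈ p) :
    ∃ O : ValuationSubring K, (∀ r, f r ∈ O) ∧ ∀ r, O.valuation (f r) < 1 ↔ r ∈ p := by
  have hu : ∀ y : p.primeCompl, IsUnit (f y) := fun y =>
    isUnit_iff_ne_zero.2 fun h => y.2 (hf _ h)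
  let g : Localization.AtPrime p →+* K := IsLocalization.lift hu
  have hg : ∀ r, g (algebraMap R _ r) = f r := fun r => IsLocalization.lift_eq hu r
  obtain ⟨O, h, hl⟩ := IsLocalRing.exists_factor_valuationRing g
  refine ⟨O, fun r => hg r ▸ h _, fun r => ?_⟩
  have e : f r = ((g.codRestrict O.toSubring h (algebraMap R _ r) : O) : K) := (hg r).symm
  rw [e, ← O.valuation_lt_one_iff, IsLocalRing.mem_maximalIdeal, mem_nonunits_iff,
    isUnit_map_iff (g.codRestrict O.toSubring h),
    IsLocalization.AtPrime.isUnit_to_map_iff (Localization.AtPrime p) p]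
  exact not_not

theorem valc_comap_eq (φ : F →+* K) {u : ValuationSubring F} {O : ValuationSubring K}
    (h1 : ∀ a : u, φ a ∈ O) (h2 : ∀ a : u, u.valuation a < 1 → O.valuation (φ a) < 1) :
    O.comap φ = u := by
  ext x
  rw [ValuationSubring.mem_comap]
  refine ⟨fun hx => ?_, fun hx => h1 ⟨x, hx⟩⟩
  by_contra hn
  have hi : x⁻¹ ∈ u := (u.mem_or_inv_mem x).resolve_left hn
  have h3 := h2 ⟨x⁻¹, hi⟩ (u.mem_nonunits_iff.1 (u.inv_mem_nonunits_iff.2 (Or.inr hn)))
  have h4 : (φ x)⁻¹ ∈ O.nonunits := by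
    rw [← map_inv₀]
    exact O.mem_nonunits_iff.2 h3
  rcases O.inv_mem_nonunits_iff.1 h4 with h5 | h5
  · rw [map_eq_zero] at h5
    exact hn (h5 ▸ u.zero_mem)
  · exact h5 hx

/-- values of algebraic elements are torsion modulo the values of the base field -/
theorem valc_tors [Algebra F K] (O : ValuationSubring K) {y : K} (hy : IsAlgebraic F y)
    (h0 : y ≠ 0) : ∃ n : ℕ, 0 < n ∧ ∃ c : F, c ≠ 0 ∧
      O.valuation (y ^ n) = O.valuation (algebraMap F K c) := by
  classical
  obtain ⟨p, hp, hpy⟩ := hy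
  rw [Polynomial.aeval_def, Polynomial.eval₂_eq_sum, Polynomial.sum_def] at hpy
  have key : ∀ i j : ℕ, i < j → p.coeff i ≠ 0 → p.coeff j ≠ 0 →
      O.valuation (algebraMap F K (p.coeff i) * y ^ i) =
        O.valuation (algebraMap F K (p.coeff j) * y ^ j) →
      ∃ n : ℕ, 0 < n ∧ ∃ c : F, c ≠ 0 ∧ O.valuation (y ^ n) = O.valuation (algebraMap F K c) := by
    intro i j hij hi hj e
    obtain ⟨n, rfl⟩ := Nat.exists_eq_add_of_lt hij
    refine ⟨n + 1, Nat.succ_pos n, p.coeff i / p.coeff (i + n + 1), div_ne_zero hi hj, ?_⟩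
    have h1 : O.valuation (algebraMap F K (p.coeff (i + n + 1))) ≠ 0 :=
      (map_ne_zero _).2 ((map_ne_zero _).2 hj)
    have h2 : O.valuation (y ^ i) ≠ 0 := (map_ne_zero _).2 (pow_ne_zero _ h0)
    rw [map_div₀, map_div₀, eq_div_iff h1]
    rw [add_assoc i n 1, pow_add, map_mul, map_mul, map_mul, ← add_assoc] at e
    apply mul_right_cancel₀ h2
    rw [e]
    ac_rfl
  obtain ⟨j, hj, hmax⟩ := Finset.exists_max_image p.support
    (fun i => O.valuation (algebraMap F K (p.coeff i) * y ^ i)) (Polynomial.support_nonempty.2 hp)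
  have hj0 := Polynomial.mem_support_iff.1 hj
  by_contra hn
  have h3 := O.valuation.map_sum_eq_of_lt
    (f := fun i => algebraMap F K (p.coeff i) * y ^ i) hj fun i hi => by
      obtain ⟨hi1, hi2⟩ := Finset.mem_sdiff.1 hi
      have hi0 := Polynomial.mem_support_iff.1 hi1
      refine lt_of_le_of_ne (hmax i hi1) fun e => hn ?_
      rcases lt_or_gt_of_ne (Finset.notMem_singleton.1 hi2) with h | h
      · exact key i j h hi0 hj0 e
      · exact key j i h hj0 hi0 e.symm
  rw [hpy, map_zero] at h3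
  exact mul_ne_zero ((map_ne_zero _).2 hj0) (pow_ne_zero _ h0) ((map_eq_zero _).1 h3.symm)

theorem valc_pow_mem {O : ValuationSubring K} {x : K} {n : ℕ} (hn : 0 < n) :
    x ^ n ∈ O ↔ x ∈ O := by
  rw [← O.valuation_le_one_iff, ← O.valuation_le_one_iff, map_pow]
  exact pow_le_one_iff_of_nonneg zero_le hn.ne'

/-- Chevalley (`LocalSubring.exists_le_valuationSubring`) -/
theorem exists_ext (φ : F →+* K) (u : ValuationSubring F) :
    ∃ O : ValuationSubring K, O.comap φ = u := by
  obtain ⟨O, h1, h2⟩ := valc_place (φ.comp u.subtype) (IsLocalRing.maximalIdeal u) fun r hr => by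
    have h0 : r = 0 := Subtype.ext ((map_eq_zero φ).1 hr)
    rw [h0]
    exact zero_mem _
  exact ⟨O, valc_comap_eq φ (fun a => h1 a) fun a ha => (h2 a).2 ((u.valuation_lt_one_iff a).2 ha)⟩

/-- Incomparability. For `x ∈ O₂ \ O₁` put `y = x⁻¹`: it is a nonunit of `O₁` and a unit of `O₂`
(nonunits of `O₂` are nonunits of `O₁`). Take an algebraic relation for `y`, divide by a coefficient
of largest value, let `j` be minimal with `c j` a unit. Modulo the maximal ideal of `O₂`, after
dividing by `y ^ j`, `c j + y (…)` is a nonunit of `O₂`, so of `O₁`, so `c j` is a nonunit. -/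
theorem eq_of_le_of_comap_eq [Algebra F K] [Algebra.IsAlgebraic F K] {O₁ O₂ : ValuationSubring K}
    (h : O₁ ≤ O₂) (hc : O₁.comap (algebraMap F K) = O₂.comap (algebraMap F K)) : O₁ = O₂ := by
  refine le_antisymm h fun x hx => ?_
  rcases eq_or_ne x 0 with rfl | h0
  · exact O₁.zero_mem
  obtain ⟨n, hn, c, hc0, e⟩ := valc_tors O₁ (Algebra.IsAlgebraic.isAlgebraic (R := F) x) h0
  have h1 : algebraMap F K c / x ^ n ∈ O₁ := (basic_val_le (pow_ne_zero n h0)).1 e.ge
  have h2 : algebraMap F K c ∈ O₂ := by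
    have h3 := mul_mem (h h1) (pow_mem hx n)
    rwa [div_mul_cancel₀ _ (pow_ne_zero n h0)] at h3
  have h4 : c ∈ O₁.comap (algebraMap F K) := hc ▸ h2
  rw [← valc_pow_mem hn, ← O₁.valuation_le_one_iff, e, O₁.valuation_le_one_iff]
  exact h4

theorem eq_top_of_comap_eq_top [Algebra F K] [Algebra.IsAlgebraic F K] {O : ValuationSubring K}
    (h : O.comap (algebraMap F K) = ⊤) : O = ⊤ :=
  eq_of_le_of_comap_eq (F := F) le_top (h.trans (eq_top_iff.2 fun _ _ => trivial).symm)

theorem mem_of_isAlgebraic [Algebra F K] {O : ValuationSubring K}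
    (h : ∀ c : F, algebraMap F K c ∈ O) {x : K} (hx : IsAlgebraic F x) : x ∈ O := by
  rcases eq_or_ne x 0 with rfl | h0
  · exact O.zero_mem
  obtain ⟨n, hn, c, -, e⟩ := valc_tors O hx h0
  rw [← valc_pow_mem hn, ← O.valuation_le_one_iff, e, O.valuation_le_one_iff]
  exact h c

theorem mem_of_mem_ac [Algebra k K] {O : ValuationSubring K} {S : Set K}
    (h : ∀ x ∈ IntermediateField.adjoin k S, x ∈ O) {x : K} (hx : x ∈ ac k S) : x ∈ O :=
  mem_of_isAlgebraic (F := IntermediateField.adjoin k S) (fun c => h c c.2) (mem_ac.1 hx)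

theorem eq_of_comap_eq_of_pi (φ : F →+* K) (hφ : ∀ y : K, ∃ n : ℕ, y ^ ringExpChar K ^ n ∈ φ.range)
    {O₁ O₂ : ValuationSubring K} (hc : O₁.comap φ = O₂.comap φ) : O₁ = O₂ := by
  ext y
  obtain ⟨n, z, hz⟩ := hφ y
  rw [← valc_pow_mem (fielda_pos (K := K) n), ← valc_pow_mem (O := O₂) (fielda_pos (K := K) n),
    ← hz, ← ValuationSubring.mem_comap, hc, ValuationSubring.mem_comap]

/-- lifting a coarsening: take `{x | ∃ a, P.valuation a = 1 ∧ x * φ a ∈ O}` -/
theorem exists_lift_coarsening (φ : F →+* K) (O : ValuationSubring K) {P : ValuationSubring F}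
    (h : O.comap φ ≤ P) : ∃ O', O ≤ O' ∧ O'.comap φ = P := by
  have hu : ∀ a b : F, P.valuation a = 1 → P.valuation b = 1 → ∀ x y : K, x * φ a ∈ O →
      y * φ b ∈ O → a / b ∈ O.comap φ → (x + y) * φ a ∈ O := by
    intro a b _ hb x y hx hy hab
    have hb0 : φ b ≠ 0 := (map_ne_zero φ).2 (val_eq_one_iff.1 hb).1
    have e : (x + y) * φ a = x * φ a + y * φ b * φ (a / b) := by
      rw [map_div₀]
      field_simp
    rw [e]
    exact add_mem hx (mul_mem hy hab)
  let S : Subring K :=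
    { carrier := {x | ∃ a, P.valuation a = 1 ∧ x * φ a ∈ O}
      mul_mem' := by
        rintro x y ⟨a, ha, hx⟩ ⟨b, hb, hy⟩
        refine ⟨a * b, by rw [map_mul, ha, hb, mul_one], ?_⟩
        rw [map_mul, mul_mul_mul_comm]
        exact mul_mem hx hy
      one_mem' := ⟨1, map_one _, by rw [map_one, mul_one]; exact O.one_mem⟩
      add_mem' := by
        rintro x y ⟨a, ha, hx⟩ ⟨b, hb, hy⟩
        rcases (O.comap φ).mem_or_inv_mem (a / b) with h1 | h1
        · exact ⟨a, ha, hu a b ha hb x y hx hy h1⟩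
        · rw [inv_div] at h1
          exact ⟨b, hb, add_comm y x ▸ hu b a hb ha y x hy hx h1⟩
      zero_mem' := ⟨1, map_one _, by rw [zero_mul]; exact O.zero_mem⟩
      neg_mem' := by
        rintro x ⟨a, ha, hx⟩
        exact ⟨a, ha, by rw [neg_mul]; exact neg_mem hx⟩ }
  have hle : O.toSubring ≤ S := fun x hx => ⟨1, map_one _, by rw [map_one, mul_one]; exact hx⟩
  refine ⟨O.ofLE S hle, hle, ?_⟩
  ext z
  constructor
  · rintro ⟨a, ha, hz⟩
    obtain ⟨h0, -, h2⟩ := val_eq_one_iff.1 ha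
    rw [← map_mul] at hz
    have h3 := mul_mem (h hz) h2
    rwa [mul_inv_cancel_right₀ h0] at h3
  · intro hz
    rcases (O.comap φ).mem_or_inv_mem z with h1 | h1
    · exact hle h1
    · rcases eq_or_ne z 0 with rfl | h0
      · exact zero_mem _
      refine ⟨z⁻¹, val_eq_one_iff.2 ⟨inv_ne_zero h0, h h1, by rwa [inv_inv]⟩, ?_⟩
      rw [← map_mul, mul_inv_cancel₀ h0, map_one]
      exact O.one_mem

/-- Gauss extension. In the subring of `K` generated by `u` and the `y i` (a polynomial ring over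
`u`), the maximal ideal of `u` generates a prime ideal `p`; localize at `p` and take a valuation
ring dominating it; conclude with `RInd_iff`. -/
theorem exists_gauss [Algebra F K] (u : ValuationSubring F) {ι : Type*} {y : ι → K}
    (hy : AlgebraicIndependent F y) :
    ∃ O : ValuationSubring K, O.comap (algebraMap F K) = u ∧ RInd F O y := by
  classical
  let f : MvPolynomial ι u →+* K :=
    (MvPolynomial.aeval y : MvPolynomial ι F →ₐ[F] K).toRingHom.comp (MvPolynomial.map u.subtype)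
  have hf : ∀ Q, f Q = MvPolynomial.aeval y (MvPolynomial.map u.subtype Q) := fun _ => rfl
  let p : Ideal (MvPolynomial ι u) := RingHom.ker (MvPolynomial.map (IsLocalRing.residue u))
  have : p.IsPrime := RingHom.ker_isPrime _
  have hp : ∀ Q, Q ∈ p ↔ ∀ m, u.valuation (Q.coeff m : u) < 1 := by
    intro Q
    rw [RingHom.mem_ker, MvPolynomial.ext_iff]
    refine forall_congr' fun m => ?_
    rw [MvPolynomial.coeff_map, MvPolynomial.coeff_zero, IsLocalRing.residue_eq_zero_iff,
      u.valuation_lt_one_iff]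
  obtain ⟨O, h1, h2⟩ := valc_place f p fun Q hQ => by
    have h3 := algebraicIndependent_iff.1 hy _ ((hf Q).symm.trans hQ)
    have h4 : Q = 0 := MvPolynomial.map_injective _ u.subtype_injective (by rw [h3, map_zero])
    rw [h4]
    exact zero_mem _
  have hC : ∀ a : u, f (MvPolynomial.C a) = algebraMap F K a := fun a => by
    rw [hf, MvPolynomial.map_C, MvPolynomial.aeval_C]
    rfl
  have hO : O.comap (algebraMap F K) = u := by
    refine valc_comap_eq _ (fun a => hC a ▸ h1 _) fun a ha => ?_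
    rw [← hC, h2, hp]
    intro m
    rw [MvPolynomial.coeff_C]
    split_ifs
    · exact ha
    · simp
  refine ⟨O, hO, (RInd_iff O F y).2 ⟨fun i => ?_, fun P hP ⟨m, hm⟩ => ?_⟩⟩
  · have h3 := h1 (MvPolynomial.X i)
    rwa [hf, MvPolynomial.map_X, MvPolynomial.aeval_X] at h3
  · have hP' : ∀ m, P.coeff m ∈ u := fun m => hO ▸ hP m
    let Q : MvPolynomial ι u := ∑ m ∈ P.support, MvPolynomial.monomial m ⟨P.coeff m, hP' m⟩
    have hQ : MvPolynomial.map u.subtype Q = P := by
      rw [map_sum]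
      conv_rhs => rw [P.as_sum]
      exact Finset.sum_congr rfl fun m _ => MvPolynomial.map_monomial _ _ _
    have h3 := h1 Q
    have h4 := h2 Q
    rw [hf, hQ] at h3 h4
    refine le_antisymm ((O.valuation_le_one_iff _).2 h3) (not_lt.1 fun h5 => ?_)
    have h6 := (hp Q).1 (h4.1 h5) m
    have h7 : ((Q.coeff m : u) : F) = P.coeff m := by
      rw [← hQ, MvPolynomial.coeff_map]
      rfl
    rw [h7, ← hO, comap_val_lt_one, hm] at h6
    exact lt_irrefl _ h6

/-- a valuation trivial on `F` with a zero at `π` -/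
theorem exists_zero [Algebra F K] {π : K} (hπ : Transcendental F π) :
    ∃ O : ValuationSubring K, (∀ c : F, algebraMap F K c ∈ O) ∧ O.valuation π < 1 := by
  have : (RingHom.ker (Polynomial.evalRingHom (0 : F))).IsPrime := RingHom.ker_isPrime _
  obtain ⟨O, h1, h2⟩ := valc_place (Polynomial.aeval π : Polynomial F →ₐ[F] K).toRingHom
    (RingHom.ker (Polynomial.evalRingHom (0 : F))) fun Q hQ => by
      rw [_root_.transcendental_iff.1 hπ Q hQ]
      exact zero_mem _
  refine ⟨O, fun c => ?_, ?_⟩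
  · simpa using h1 (Polynomial.C c)
  · simpa using (h2 Polynomial.X).2 (by simp)

/-- Gauss extension `O₁` for the whole family, then `vcomp O₁ u₂` where `u₂` is trivial on the
field generated by the residues of the constants and of `y`, and has a zero at the residue of `π`.
-/
theorem exists_GV [Algebra k K] (u : ValuationSubring k) {e : ℕ} {π : K} {y : Fin e → K}
    (h : AlgebraicIndependent k (Fin.cons π y : Fin (e + 1) → K)) :
    ∃ O : ValuationSubring K, O.comap (algebraMap k K) = u ∧ RInd k O y ∧ Inf k O π := by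
  obtain ⟨O₁, hu, hR⟩ := exists_gauss u h
  have hy1 : RInd k O₁ y :=
    ⟨fun i => hR.1 i.succ, hR.2.comp Fin.succ (Fin.succ_injective e)⟩
  have hπ1 : π ∈ O₁ := hR.1 0
  have hcons : AlgebraicIndependent (kap k O₁)
      (Fin.cons (res O₁ π) (fun i => res O₁ (y i)) : Fin (e + 1) → Res O₁) := by
    have e1 : (Fin.cons (res O₁ π) (fun i => res O₁ (y i)) : Fin (e + 1) → Res O₁) =
        fun i => res O₁ ((Fin.cons π y : Fin (e + 1) → K) i) := by
      funext i
      refine Fin.cases rfl (fun _ => rfl) i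
    rw [e1]
    exact hR.2
  have htr : Transcendental
      (IntermediateField.adjoin (kap k O₁) (Set.range fun i => res O₁ (y i))) (res O₁ π) :=
    fun h1 => (indep_cons_iff.1 hcons).2 (mem_ac.2 h1)
  obtain ⟨u₂, h1, h2⟩ := exists_zero htr
  have hunit : ∀ a ∈ IntermediateField.adjoin (kap k O₁) (Set.range fun i => res O₁ (y i)),
      a ≠ 0 → u₂.valuation a = 1 := fun a ha h0 =>
    val_const_eq_one h1 (c := ⟨a, ha⟩) fun h3 => h0 (congrArg Subtype.val h3)
  have hk : ∀ c : k, res O₁ (algebraMap k K c) ∈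
      IntermediateField.adjoin (kap k O₁) (Set.range fun i => res O₁ (y i)) := fun c =>
    IntermediateField.algebraMap_mem _ (⟨_, res_const_mem O₁ k c⟩ : kap k O₁)
  have hπ0 : res O₁ π ≠ 0 := fun h0 => htr (h0 ▸ isAlgebraic_zero)
  have hπu := (res_ne_zero_iff O₁ π).1 hπ0
  refine ⟨vcomp O₁ u₂, ?_, (RInd_iff _ k y).2 ⟨fun i => ?_, fun P hP ⟨m, hm⟩ => ?_⟩,
    (val_eq_one_iff.1 hπu).1, (vcomp_val_lt_one O₁ u₂ π).2 ⟨hπ1, h2⟩, fun c hc n => ?_⟩
  · rw [← hu]
    ext c
    rw [ValuationSubring.mem_comap, ValuationSubring.mem_comap, mem_vcomp]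
    exact ⟨fun h3 => h3.1, fun h3 => ⟨h3, h1 ⟨_, hk c⟩⟩⟩
  · exact (mem_vcomp O₁ u₂ _).2
      ⟨hy1.1 i, h1 ⟨_, IntermediateField.subset_adjoin _ _ ⟨i, rfl⟩⟩⟩
  · have hP1 : ∀ m, algebraMap k K (P.coeff m) ∈ O₁ := fun m => vcomp_le O₁ u₂ (hP m)
    have h3 := ((RInd_iff O₁ k y).1 hy1).2 P hP1 ⟨m, ((vcomp_val_eq_one O₁ u₂ _).1 hm).1⟩
    refine (vcomp_val_eq_one O₁ u₂ _).2 ⟨h3, hunit _ ?_ ((res_ne_zero_iff O₁ _).2 h3)⟩
    obtain ⟨Q, -, -, hQ⟩ := res_aeval O₁ k y hy1.1 P hP1
    rw [hQ]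
    exact (IntermediateField.mem_adjoin_range_iff _ _ _).2 ⟨Q, 1, by simp⟩
  · obtain ⟨hc1, hc2⟩ := (vcomp_val_lt_one O₁ u₂ _).1 hc
    have h0 : res O₁ (algebraMap k K c) = 0 := by
      by_contra h0
      exact hc2.ne (hunit _ (hk c) h0)
    have h3 : O₁.valuation (algebraMap k K c / π ^ n) < 1 := by
      rw [map_div₀, map_pow, hπu, one_pow, div_one]
      exact (res_eq_zero_iff O₁ hc1).1 h0
    have h4 := (O₁.valuation_le_one_iff _).1 h3.le
    have h5 := (vcomp_val_lt_one O₁ u₂ _).2 ⟨h4, by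
      rw [(res_eq_zero_iff O₁ h4).2 h3, map_zero]; exact zero_lt_one⟩
    rw [map_div₀, map_pow] at h5
    exact (div_lt_one₀ (zero_lt_iff.2 (pow_ne_zero n
      ((map_ne_zero _).2 (val_eq_one_iff.1 hπu).1)))).1 h5

theorem RInd.indep [Algebra k K] {O : ValuationSubring K} {ι : Type*} {y : ι → K}
    (h : RInd k O y) : AlgebraicIndependent k y := by
  refine algebraicIndependent_iff.2 fun P hP => ?_
  by_contra h0
  obtain ⟨m, hm, hmax⟩ := Finset.exists_max_image P.support
    (fun m => O.valuation (algebraMap k K (P.coeff m))) (MvPolynomial.support_nonempty.2 h0)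
  have hm0 : P.coeff m ≠ 0 := MvPolynomial.mem_support_iff.1 hm
  have h1 := ((RInd_iff O k y).1 h).2 (MvPolynomial.C (P.coeff m)⁻¹ * P) (fun j => by
    rw [MvPolynomial.coeff_C_mul, ← div_eq_inv_mul, map_div₀,
      ← basic_val_le ((map_ne_zero _).2 hm0)]
    by_cases hj : j ∈ P.support
    · exact hmax j hj
    · rw [MvPolynomial.notMem_support_iff.1 hj, map_zero, map_zero]
      exact zero_le) ⟨m, by
    rw [MvPolynomial.coeff_C_mul, inv_mul_cancel₀ hm0, map_one, map_one]⟩
  rw [map_mul, hP, mul_zero, map_zero] at h1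
  exact zero_ne_one h1

theorem RInd.comp [Algebra k K] {O : ValuationSubring K} {ι ι' : Type*} {y : ι → K}
    (h : RInd k O y) (f : ι' → ι) (hf : Function.Injective f) : RInd k O (y ∘ f) :=
  ⟨fun i => h.1 (f i), h.2.comp f hf⟩

theorem RInd.of_kap_le [Algebra k K] [Algebra F K] {O : ValuationSubring K} {ι : Type*}
    {y : ι → K} (h : RInd k O y) (hle : kap F O ≤ kap k O) : RInd F O y :=
  ⟨h.1, AlgebraicIndependent.of_ringHom_of_comp_eq (Subfield.inclusion hle) (RingHom.id _) h.2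
    (Subfield.inclusion hle).injective rfl⟩

theorem RInd.adjoin_mem [Algebra k K] {O : ValuationSubring K} {ι : Type*} {y : ι → K}
    (h : RInd k O y) (hk : ∀ c : k, algebraMap k K c ∈ O) {x : K} (hx : x ∈ ac k (Set.range y)) :
    x ∈ O := by
  refine mem_of_mem_ac (fun z hz => ?_) hx
  obtain ⟨P, Q, rfl⟩ := (IntermediateField.mem_adjoin_range_iff _ _ _).1 hz
  rcases eq_or_ne Q 0 with rfl | hQ
  · rw [map_zero, div_zero]
    exact O.zero_mem
  obtain ⟨m, hm⟩ := MvPolynomial.ne_zero_iff.1 hQ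
  have h1 := ((RInd_iff O k y).1 h).2 Q (fun _ => hk _) ⟨m, val_const_eq_one hk hm⟩
  obtain ⟨-, -, h2, -⟩ := res_aeval O k y h.1 P fun _ => hk _
  rw [div_eq_mul_inv]
  exact mul_mem h2 (val_eq_one_iff.1 h1).2.2

theorem RInd_of_trivial [Algebra k K] {O : ValuationSubring K} {ι : Type*} {y : ι → K}
    (hy : AlgebraicIndependent k y) (h : ∀ x ∈ IntermediateField.adjoin k (Set.range y), x ∈ O) :
    RInd k O y := by
  refine (RInd_iff O k y).2 ⟨fun i => h _ (IntermediateField.subset_adjoin _ _ ⟨i, rfl⟩),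
    fun P _ ⟨m, hm⟩ => ?_⟩
  have h1 : MvPolynomial.aeval y P ∈ IntermediateField.adjoin k (Set.range y) :=
    (IntermediateField.mem_adjoin_range_iff _ _ _).2 ⟨P, 1, by simp⟩
  refine val_eq_one_iff.2 ⟨fun h0 => ?_, h _ h1, h _ (inv_mem h1)⟩
  rw [algebraicIndependent_iff.1 hy P h0] at hm
  simp at hm

/-- restriction along a `k`-embedding -/
theorem RInd.comap [Algebra k K] [Algebra k F] (φ : F →ₐ[k] K) {O : ValuationSubring K} {ι : Type*}
    {y : ι → F} (h : RInd k O (φ ∘ y)) : RInd k (O.comap φ.toRingHom) y := by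
  obtain ⟨h1, h2⟩ := (RInd_iff O k _).1 h
  refine (RInd_iff _ k y).2 ⟨h1, fun P hP ⟨m, hm⟩ => ?_⟩
  rw [comap_val_eq_one] at hm ⊢
  have e : φ.toRingHom (MvPolynomial.aeval y P) = MvPolynomial.aeval (φ ∘ y) P :=
    AlgHom.congr_fun (MvPolynomial.comp_aeval y φ) P
  rw [e]
  exact h2 P (fun j => φ.commutes (P.coeff j) ▸ hP j) ⟨m, φ.commutes (P.coeff m) ▸ hm⟩

theorem Inf.comap [Algebra k K] [Algebra k F] (φ : F →ₐ[k] K) {O : ValuationSubring K} {π : F}
    (h : Inf k O (φ π)) : Inf k (O.comap φ.toRingHom) π := by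
  refine ⟨fun h0 => h.1 (by rw [h0, map_zero]), (comap_val_lt_one _ O π).2 h.2.1,
    fun c hc n => ?_⟩
  have e : φ.toRingHom (algebraMap k F c) = algebraMap k K c := φ.commutes c
  rw [comap_val_lt_one, e] at hc
  rw [← map_pow, comap_val_lt, e, map_pow, map_pow]
  exact h.2.2 c hc n

theorem VInd.map [Algebra k K] [Algebra k F] (φ : F →ₐ[k] K) {O : ValuationSubring K} {J : Type*}
    [Fintype J] {x : J → F} : VInd k (O.comap φ.toRingHom) x ↔ VInd k O (φ ∘ x) := by
  refine and_congr (forall_congr' fun j => (map_ne_zero φ).symm)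
    (forall_congr' fun m => forall_congr' fun c => ?_)
  have e : φ.toRingHom (algebraMap k F c) = algebraMap k K c := φ.commutes c
  have e2 : φ.toRingHom (∏ j, x j ^ m j) = ∏ j, (φ ∘ x) j ^ m j := by
    rw [map_prod]
    exact Finset.prod_congr rfl fun j _ => map_zpow₀ _ _ _
  rw [comap_val_eq, e, e2]

theorem Inf.vind [Algebra k K] {O : ValuationSubring K} {π : K} (h : Inf k O π) :
    VInd k O (fun _ : Unit => π) := by
  have key : ∀ (n : ℕ) (c : k), O.valuation π ^ n = O.valuation (algebraMap k K c) → n = 0 := by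
    intro n c e
    by_contra hn
    have h1 := h.2.2 c (e ▸ pow_lt_one₀ zero_le h.2.1 hn) n
    exact h1.ne e.symm
  refine ⟨fun _ => h.1, fun m c e => ?_⟩
  rw [Finset.univ_unique, Finset.prod_singleton, map_zpow₀] at e
  funext j
  have ej : j = default := rfl
  rw [ej, Pi.zero_apply]
  obtain ⟨n, hn | hn⟩ := Int.eq_nat_or_neg (m default)
  · rw [hn, zpow_natCast] at e
    rw [hn, key n c e, Nat.cast_zero]
  · rw [hn, zpow_neg, zpow_natCast, inv_eq_iff_eq_inv, ← map_inv₀, ← map_inv₀] at e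
    rw [hn, key n c⁻¹ e, Nat.cast_zero, neg_zero]

theorem Hor_iff [Algebra k K] {O : ValuationSubring K} (hk : ∀ c : k, algebraMap k K c ∈ O) {t : K}
    (ht : Transcendental k t) : Hor k O t ↔ RInd k O (fun _ : Unit => t) := by
  constructor
  · intro h
    refine RInd_of_trivial (algebraicIndependent_unique_type_iff.2 ht) fun x hx => h x ?_
    rw [Set.range_const] at hx
    exact adjoin_le_ac _ hx
  · intro h x hx
    exact h.adjoin_mem hk (by rwa [Set.range_const])

theorem Hor.res_transcendental [Algebra k K] {O : ValuationSubring K} {t : K}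
    (h : Hor k O t) (ht : Transcendental k t) : Transcendental (kap k O) (res O t) :=
  algebraicIndependent_unique_type_iff.1
    ((Hor_iff (fun c => h _ (IntermediateField.algebraMap_mem _ c)) ht).1 h).2

theorem Hor_of_res [Algebra k K] {O : ValuationSubring K} (hk : ∀ c : k, algebraMap k K c ∈ O)
    {t : K} (h : Transcendental (kap k O) (res O t)) : Hor k O t := by
  have ht : t ∈ O := by
    by_contra hn
    exact h (res_of_not_mem O hn ▸ isAlgebraic_zero)
  have h1 : RInd k O (fun _ : Unit => t) :=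
    ⟨fun _ => ht, algebraicIndependent_unique_type_iff.2 h⟩
  intro x hx
  exact h1.adjoin_mem hk (by rwa [Set.range_const])

theorem At_iff_res [Algebra k K] {O : ValuationSubring K} (hk : ∀ c : k, algebraMap k K c ∈ O)
    {f : K} {c : k} : At k O f c ↔ f ∈ O ∧ res O f = res O (algebraMap k K c) := by
  constructor
  · intro h
    have h1 : f ∈ O := by
      have h2 := add_mem ((O.valuation_le_one_iff _).1 (le_of_lt h)) (hk c)
      rwa [sub_add_cancel] at h2
    exact ⟨h1, (res_eq_iff O h1 (hk c)).2 h⟩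
  · rintro ⟨h1, h2⟩
    exact (res_eq_iff O h1 (hk c)).1 h2

theorem At.unique [Algebra k K] {O : ValuationSubring K} (hk : ∀ c : k, algebraMap k K c ∈ O)
    {f : K} {c c' : k} (h : At k O f c) (h' : At k O f c') : c = c' := by
  have h1 := ((At_iff_res hk).1 h).2.symm.trans ((At_iff_res hk).1 h').2
  rw [res_eq_iff O (hk c) (hk c'), ← map_sub] at h1
  by_contra hn
  exact h1.ne (val_const_eq_one hk (sub_ne_zero.2 hn))

theorem At.mem [Algebra k K] {O : ValuationSubring K} (hk : ∀ c : k, algebraMap k K c ∈ O)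
    {f : K} {c : k} (h : At k O f c) : f ∈ O := ((At_iff_res hk).1 h).1

theorem At.aeval [Algebra k K] {O : ValuationSubring K} (hk : ∀ c : k, algebraMap k K c ∈ O)
    {ι : Type*} {f : ι → K} {c : ι → k} (h : ∀ i, At k O (f i) (c i)) (P : MvPolynomial ι k) :
    At k O (MvPolynomial.aeval f P) (MvPolynomial.eval c P) := by
  rw [At_iff_res hk]
  induction P using MvPolynomial.induction_on with
  | C a =>
    rw [MvPolynomial.aeval_C, MvPolynomial.eval_C]
    exact ⟨hk a, rfl⟩
  | add P Q hP hQ =>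
    rw [map_add, map_add, map_add, res_add O hP.1 hQ.1, res_add O (hk _) (hk _), hP.2, hQ.2]
    exact ⟨add_mem hP.1 hQ.1, rfl⟩
  | mul_X P i hP =>
    obtain ⟨h1, h2⟩ := (At_iff_res hk).1 (h i)
    rw [map_mul, map_mul, map_mul, MvPolynomial.aeval_X, MvPolynomial.eval_X, res_mul O hP.1 h1,
      res_mul O (hk _) (hk _), hP.2, h2]
    exact ⟨mul_mem hP.1 h1, rfl⟩

end Vale.Agent.P019
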