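import Vale.Agent.P019.ZetaDefs

namespace Vale.Agent.P019

variable {X : Type*}

section orb

variable {φ : Equiv.Perm X} {E : X →₀ ℤ} {P : X}

theorem zetaa_deg_nonneg (h : 0 ≤ E) : 0 ≤ E.degree := Finset.sum_nonneg fun i _ => h i

theorem zetaa_deg_mono {D : X →₀ ℤ} (h : D ≤ E) : D.degree ≤ E.degree := by
  have := zetaa_deg_nonneg (sub_nonneg.2 h)
  rwa [map_sub, sub_nonneg] at this

theorem zetaa_map_sub (f : X → X) (D E : X →₀ ℤ) :
    (D - E).mapDomain f = D.mapDomain f - E.mapDomain f :=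
  map_sub (Finsupp.mapDomain.addMonoidHom f) D E

theorem zetaa_orb_deg (m : ℕ) (P : X) : (orb φ m P).degree = m := by
  simp [orb, map_sum]

theorem zetaa_orb_nonneg (m : ℕ) (P : X) : 0 ≤ orb φ m P :=
  Finset.sum_nonneg fun _ _ => Finsupp.single_nonneg.2 zero_le_one

theorem zetaa_orb_fix {m : ℕ} (h : (φ ^ m) P = P) : (orb φ m P).mapDomain φ = orb φ m P := by
  have e1 := Finset.sum_range_succ (fun i => Finsupp.single ((φ ^ i) P) (1 : ℤ)) m
  rw [Finset.sum_range_succ', h, pow_zero, Equiv.Perm.one_apply, add_left_inj] at e1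
  rw [orb, Finsupp.mapDomain_finsetSum]
  refine Eq.trans ?_ e1
  simp only [Finsupp.mapDomain_single, pow_succ', Equiv.Perm.mul_apply]

theorem zetaa_val (h : E.mapDomain φ = E) (i : ℕ) (P : X) : E ((φ ^ i) P) = E P := by
  induction i with
  | zero => rfl
  | succ i ih =>
    rw [pow_succ', Equiv.Perm.mul_apply, ← ih]
    conv_lhs => rw [← h]
    exact Finsupp.mapDomain_apply φ.injective E _

theorem zetaa_per (h : E.mapDomain φ = E) (hP : E P ≠ 0) : 0 < Function.minimalPeriod φ P := by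
  obtain ⟨a, b, hab, e⟩ := E.support.finite_toSet.exists_lt_map_eq_of_forall_mem
    (f := fun i : ℕ => (φ ^ i) P) fun i => by simpa [zetaa_val h] using hP
  obtain ⟨c, rfl⟩ := Nat.exists_eq_add_of_lt hab
  refine Function.IsPeriodicPt.minimalPeriod_pos c.succ_pos ?_
  rw [add_assoc, pow_add, Equiv.Perm.mul_apply] at e
  exact ((φ ^ a).injective e).symm

theorem zetaa_dvd {m : ℕ} : (φ ^ m) P = P ↔ Function.minimalPeriod φ P ∣ m :=
  Function.isPeriodicPt_iff_minimalPeriod_dvd

theorem zetaa_orb_mul {o : ℕ} (h : (φ ^ o) P = P) (j : ℕ) : orb φ (j * o) P = j • orb φ o P := by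
  induction j with
  | zero => simp [orb]
  | succ j ih =>
    have e : (φ ^ (j * o)) P = P := zetaa_dvd.2 ((zetaa_dvd.1 h).mul_left j)
    rw [Nat.succ_mul, succ_nsmul, ← ih, orb, Finset.sum_range_add]
    simp only [orb, add_comm (j * o), pow_add, Equiv.Perm.mul_apply, e]

theorem zetaa_orb_one {i : ℕ} (hi : i < Function.minimalPeriod φ P) :
    orb φ (Function.minimalPeriod φ P) P ((φ ^ i) P) = 1 := by
  classical
  rw [orb, Finsupp.finsetSum_apply, Finset.sum_eq_single_of_mem i (Finset.mem_range.2 hi),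
    Finsupp.single_eq_same]
  intro j hj ne
  exact Finsupp.single_eq_of_ne' fun e =>
    ne (Function.iterate_injOn_Iio_minimalPeriod (Finset.mem_range.1 hj) hi e)

theorem zetaa_orb_le (h0 : 0 ≤ E) (h : E.mapDomain φ = E) (ho : 0 < Function.minimalPeriod φ P)
    (j : ℕ) : orb φ (j * Function.minimalPeriod φ P) P ≤ E ↔ (j : ℤ) ≤ E P := by
  rw [zetaa_orb_mul (zetaa_dvd.2 dvd_rfl)]
  constructor
  · intro h1
    have h2 := zetaa_orb_one ho
    rw [pow_zero, Equiv.Perm.one_apply] at h2
    simpa [h2] using h1 P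
  · intro h1 Q
    by_cases hQ : ∃ i < Function.minimalPeriod φ P, (φ ^ i) P = Q
    · obtain ⟨i, hi, rfl⟩ := hQ
      simpa [zetaa_orb_one hi, zetaa_val h] using h1
    · have : orb φ (Function.minimalPeriod φ P) P Q = 0 := by
        rw [orb, Finsupp.finsetSum_apply]
        exact Finset.sum_eq_zero fun i hi => Finsupp.single_eq_of_ne' fun e =>
          hQ ⟨i, Finset.mem_range.1 hi, e⟩
      simpa [this] using h0 Q

theorem zetaa_supp {n : ℕ} (hE : E ∈ effFix φ n) (hP : E P ≠ 0) : (φ ^ n.factorial) P = P := by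
  have ho := zetaa_per hE.2.2 hP
  have h1 := zetaa_deg_mono ((zetaa_orb_le hE.1 hE.2.2 ho 1).2 (by
    have : 0 ≤ E P := hE.1 P
    omega))
  rw [zetaa_orb_deg, hE.2.1, one_mul, Nat.cast_le] at h1
  exact zetaa_dvd.2 (Nat.dvd_factorial ho h1)

open Classical in
theorem zetaa_count {n : ℕ} (hE : E ∈ effFix φ n) (P : X) :
    (((Finset.Icc 1 n).filter fun m => (φ ^ m) P = P ∧ orb φ m P ≤ E).card : ℤ) = E P := by
  have h0 : 0 ≤ E P := hE.1 P
  rcases Nat.eq_zero_or_pos (Function.minimalPeriod φ P) with ho | ho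
  · have : E P = 0 := by
      by_contra h
      exact (zetaa_per hE.2.2 h).ne' ho
    rw [this, Nat.cast_eq_zero, Finset.card_eq_zero, Finset.filter_eq_empty_iff]
    intro m hm h
    have := zetaa_dvd.1 h.1
    rw [ho, zero_dvd_iff] at this
    simp [this] at hm
  · rw [← Int.toNat_of_nonneg h0, Nat.cast_inj, ← Nat.add_sub_cancel (n := (E P).toNat) (m := 1),
      ← Nat.card_Icc, ← Finset.card_image_of_injective (Finset.Icc _ _) (mul_left_injective₀ ho.ne')]
    congr 1
    ext m
    simp only [Finset.mem_filter, Finset.mem_Icc, Finset.mem_image]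
    constructor
    · rintro ⟨h1, h2, h3⟩
      obtain ⟨j, rfl⟩ := exists_eq_mul_left_of_dvd (zetaa_dvd.1 h2)
      have := (zetaa_orb_le hE.1 hE.2.2 ho j).1 h3
      exact ⟨j, ⟨Nat.pos_of_mul_pos_right h1.1, by omega⟩, rfl⟩
    · rintro ⟨j, ⟨h1, h2⟩, rfl⟩
      have h3 := (zetaa_orb_le hE.1 hE.2.2 ho j).2 (by omega)
      have h4 := zetaa_deg_mono h3
      rw [zetaa_orb_deg, hE.2.1, Nat.cast_le] at h4
      exact ⟨⟨Nat.mul_pos h1 ho, h4⟩, zetaa_dvd.2 (dvd_mul_left _ _), h3⟩

end orb

/-- the support of a fixed effective divisor of degree `n` consists of points fixed by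
`φ ^ n!` -/
theorem finite_effFix {φ : Equiv.Perm X} (hfin : ∀ m : ℕ, 0 < m → {P | (φ ^ m) P = P}.Finite)
    (n : ℕ) : (effFix φ n).Finite := by
  classical
  refine (Set.finite_Icc 0 (Finsupp.indicator (hfin _ n.factorial_pos).toFinset
    fun _ _ => (n : ℤ))).subset fun E hE => ⟨hE.1, fun P => ?_⟩
  by_cases hP : E P = 0
  · rw [hP, Finsupp.indicator_apply]
    split_ifs <;> simp
  · rw [Finsupp.indicator_of_mem ((hfin _ n.factorial_pos).mem_toFinset.2 (zetaa_supp hE hP)),
      ← hE.2.1]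
    exact Finset.single_le_sum (f := E) (fun i _ => hE.1 i) (Finsupp.mem_support_iff.2 hP)

/-- Newton relation. Both sides sum `χ D` over triples `(D, P, j)`, `D ∈ effFix φ n`,
`1 ≤ j ≤ D P`: with `o` the minimal period of `P`, `m = j o`, `orb φ m P = j • orb φ o P` and
`D' = D - orb φ m P`. -/
theorem newton_rel {φ : Equiv.Perm X} (hfin : ∀ m : ℕ, 0 < m → {P | (φ ^ m) P = P}.Finite)
    (χ : (X →₀ ℤ) → ℂ)
    (hχ : ∀ D E : X →₀ ℤ, D.mapDomain φ = D → E.mapDomain φ = E → χ (D + E) = χ D * χ E) (n : ℕ) :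
    (n : ℂ) * ∑ᶠ E ∈ effFix φ n, χ E = ∑ m ∈ Finset.Icc 1 n,
      (∑ᶠ P ∈ {P | (φ ^ m) P = P}, χ (orb φ m P)) * ∑ᶠ E ∈ effFix φ (n - m), χ E := by
  classical
  let A : ℕ → Finset (X →₀ ℤ) := fun k => (finite_effFix hfin k).toFinset
  have hA : ∀ k E, E ∈ A k ↔ E ∈ effFix φ k := fun k E => Set.Finite.mem_toFinset _
  let S : Finset X := (hfin _ n.factorial_pos).toFinset
  have hS : ∀ P, P ∈ S ↔ (φ ^ n.factorial) P = P := fun P => Set.Finite.mem_toFinset _
  have e1 : ∀ k, ∑ᶠ E ∈ effFix φ k, χ E = ∑ E ∈ A k, χ E := fun k =>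
    finsum_mem_eq_finite_toFinset_sum _ _
  have e2 : ∀ m ∈ Finset.Icc 1 n, (∑ᶠ P ∈ {P | (φ ^ m) P = P}, χ (orb φ m P)) *
      ∑ᶠ E ∈ effFix φ (n - m), χ E =
      ∑ P ∈ S, ∑ E ∈ A n, if (φ ^ m) P = P ∧ orb φ m P ≤ E then χ E else 0 := fun m hm => by
    obtain ⟨m1, m2⟩ := Finset.mem_Icc.1 hm
    rw [show {P | (φ ^ m) P = P} = (S.filter fun P => (φ ^ m) P = P : Finset X) by
      ext P
      simp only [Set.mem_setOf_eq, Finset.coe_filter, hS, iff_and_self]
      exact fun h => zetaa_dvd.2 ((zetaa_dvd.1 h).trans (Nat.dvd_factorial m1 m2)),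
      finsum_mem_coe_finset, Finset.sum_filter, Finset.sum_mul, e1]
    refine Finset.sum_congr rfl fun P _ => ?_
    split_ifs with h
    · simp only [h, true_and]
      rw [← Finset.sum_filter, Finset.mul_sum]
      refine Finset.sum_nbij' (fun D => orb φ m P + D) (fun E => E - orb φ m P) (fun D hD => ?_)
        (fun E hE => ?_) (fun D _ => add_sub_cancel_left _ _) (fun E _ => add_sub_cancel _ _)
        fun D hD => (hχ _ _ (zetaa_orb_fix h) ((hA _ _).1 hD).2.2).symm
      · obtain ⟨h1, h2, h3⟩ := (hA _ _).1 hD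
        refine Finset.mem_filter.2 ⟨(hA _ _).2 ⟨add_nonneg (zetaa_orb_nonneg m P) h1, ?_, ?_⟩,
          le_add_of_nonneg_right h1⟩
        · rw [map_add, zetaa_orb_deg, h2]; omega
        · rw [Finsupp.mapDomain_add, zetaa_orb_fix h, h3]
      · obtain ⟨h0, h4⟩ := Finset.mem_filter.1 hE
        obtain ⟨-, h2, h3⟩ := (hA _ _).1 h0
        refine (hA _ _).2 ⟨sub_nonneg.2 h4, ?_, ?_⟩
        · rw [map_sub, zetaa_orb_deg, h2]; omega
        · rw [zetaa_map_sub, zetaa_orb_fix h, h3]
    · simp [h]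
  rw [Finset.sum_congr rfl e2, e1, Finset.mul_sum, Finset.sum_comm]
  simp only [Finset.sum_comm (s := Finset.Icc 1 n)]
  rw [Finset.sum_comm]
  refine Finset.sum_congr rfl fun E hE => ?_
  have hE' := (hA _ _).1 hE
  have e3 : ∑ P ∈ S, E P = n := by
    rw [← hE'.2.1, Finsupp.degree_apply]
    exact (Finset.sum_subset (fun P hP => (hS P).2 (zetaa_supp hE' (Finsupp.mem_support_iff.1 hP)))
      fun P _ hP => Finsupp.notMem_support_iff.1 hP).symm
  rw [← Int.cast_natCast, ← e3, Int.cast_sum, Finset.sum_mul]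
  refine Finset.sum_congr rfl fun P _ => ?_
  rw [← Finset.sum_filter, Finset.sum_const, nsmul_eq_mul, ← zetaa_count hE' P, Int.cast_natCast]

section series

open PowerSeries

/-- a series without constant term -/
noncomputable def zetaaS (N : ℕ → ℂ) : ℂ⟦X⟧ := mk fun m => if m = 0 then 0 else N m

theorem zetaa_coeff_θ (f : ℂ⟦X⟧) (n : ℕ) :
    coeff n (PowerSeries.X * derivative ℂ f) = n * coeff n f := by
  rcases n with _ | n
  · simp
  · rw [coeff_succ_X_mul, coeff_derivative, mul_comm]; push_cast; rfl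

theorem zetaa_coeff_mul (N : ℕ → ℂ) (f : ℂ⟦X⟧) (n : ℕ) :
    coeff n (zetaaS N * f) = ∑ m ∈ Finset.Icc 1 n, N m * coeff (n - m) f := by
  rw [coeff_mul, Finset.Nat.sum_antidiagonal_eq_sum_range_succ
    (fun i j => coeff i (zetaaS N) * coeff j f)]
  symm
  refine Finset.sum_subset_zero_on_sdiff (fun m hm => ?_) (fun m hm => ?_) fun m hm => ?_
  · simp only [Finset.mem_Icc, Finset.mem_range] at hm ⊢; omega
  · have : m = 0 := by
      simp only [Finset.mem_sdiff, Finset.mem_Icc, Finset.mem_range] at hm; omega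
    simp [zetaaS, this]
  · have : m ≠ 0 := by simp only [Finset.mem_Icc] at hm; omega
    simp [zetaaS, this]

theorem zetaa_geom (c : ℂ) : zetaaS (c ^ ·) * (1 - C c * PowerSeries.X) = C c * PowerSeries.X := by
  ext n
  rw [mul_sub, mul_one, ← mul_assoc, map_sub]
  rcases n with _ | n
  · simp [zetaaS]
  · rw [coeff_succ_mul_X, coeff_succ_mul_X, coeff_mul_C]
    rcases n with _ | n
    · simp [zetaaS]
    · simp [zetaaS, coeff_C, pow_succ]

theorem zetaa_θ_prod (α : Multiset ℂ) :
    PowerSeries.X * derivative ℂ (α.map fun c => 1 - C c * PowerSeries.X).prod =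
      -zetaaS (psum α) * (α.map fun c => 1 - C c * PowerSeries.X).prod := by
  induction α using Multiset.induction_on with
  | empty =>
    have : zetaaS (psum 0) = 0 := by ext n; simp [zetaaS, psum]
    simp [this]
  | cons c α ih =>
    have e : zetaaS (psum (c ::ₘ α)) = zetaaS (c ^ ·) + zetaaS (psum α) := by
      ext n; by_cases h : n = 0 <;> simp [zetaaS, psum, h]
    have d : derivative ℂ (1 - C c * PowerSeries.X : ℂ⟦X⟧) = -C c := by
      rw [map_sub, Derivation.map_one_eq_zero, Derivation.leibniz, derivative_C, derivative_X]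
      simp
    rw [Multiset.map_cons, Multiset.prod_cons, Derivation.leibniz, d, e, smul_eq_mul, smul_eq_mul]
    linear_combination (1 - C c * PowerSeries.X) * ih +
      (α.map fun c => 1 - C c * PowerSeries.X).prod * zetaa_geom c

theorem zetaa_const (α : Multiset ℂ) :
    coeff 0 (α.map fun c => (1 - C c * PowerSeries.X : ℂ⟦X⟧)).prod = 1 := by
  rw [coeff_zero_eq_constantCoeff, map_multiset_prod, Multiset.map_map]
  simp

end series

/-- Uniqueness for `T F' = F A`: if `a 0 = 1`, `n a n = ∑ N m a (n - m)` and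
`(∑ a n T^n) ∏ (1 - γ T) = ∏ (1 - β T)` then `N m = psum γ m - psum β m`
(logarithmic derivatives of power series over `ℂ`). -/
theorem psum_of_newton (a N : ℕ → ℂ) (h0 : a 0 = 1)
    (h : ∀ n : ℕ, (n : ℂ) * a n = ∑ m ∈ Finset.Icc 1 n, N m * a (n - m)) (β γ : Multiset ℂ)
    (hF : PowerSeries.mk a * (γ.map fun c => 1 - PowerSeries.C c * PowerSeries.X).prod =
      (β.map fun c => 1 - PowerSeries.C c * PowerSeries.X).prod) :
    ∀ m : ℕ, 0 < m → N m = psum γ m - psum β m := by
  intro m hm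
  have h1 : PowerSeries.X * PowerSeries.derivative ℂ (PowerSeries.mk a) =
      zetaaS N * PowerSeries.mk a := by
    ext n
    simp only [zetaa_coeff_θ, zetaa_coeff_mul, PowerSeries.coeff_mk, h]
  have h2 := zetaa_θ_prod β
  have h3 := zetaa_θ_prod γ
  have h4 : (β.map fun c => 1 - PowerSeries.C c * PowerSeries.X).prod ≠ 0 := fun e => by
    simpa [e] using zetaa_const β
  have h5 : (zetaaS N - (zetaaS (psum γ) - zetaaS (psum β))) *
      (β.map fun c => 1 - PowerSeries.C c * PowerSeries.X).prod = 0 := by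
    rw [← hF, Derivation.leibniz, smul_eq_mul, smul_eq_mul] at h2
    rw [← hF]
    linear_combination h2 - PowerSeries.mk a * h3 -
      (γ.map fun c => 1 - PowerSeries.C c * PowerSeries.X).prod * h1
  have h6 := congrArg (PowerSeries.coeff m) (sub_eq_zero.1 ((mul_eq_zero.1 h5).resolve_right h4))
  simpa [zetaaS, hm.ne'] using h6

theorem zetaa_coe (α : Multiset ℂ) :
    (((α.map fun c => 1 - Polynomial.C c * Polynomial.X).prod : Polynomial ℂ) : PowerSeries ℂ) =
      (α.map fun c => 1 - PowerSeries.C c * PowerSeries.X).prod := by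
  rw [← Polynomial.coeToPowerSeries.ringHom_apply, map_multiset_prod, Multiset.map_map]
  congr 2
  funext c
  simp

/-- power sums determine the product (same differential equation) -/
theorem prod_eq_of_psum (α β : Multiset ℂ) (h : ∀ m : ℕ, 0 < m → psum α m = psum β m) :
    (α.map fun c => 1 - c).prod = (β.map fun c => 1 - c).prod := by
  have e : zetaaS (psum β) = zetaaS (psum α) := by
    ext n
    rcases Nat.eq_zero_or_pos n with rfl | hn
    · simp [zetaaS]
    · simp [zetaaS, h n hn]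
  have h1 := zetaa_θ_prod α
  have h2 := zetaa_θ_prod β
  have h3 : (α.map fun c => 1 - PowerSeries.C c * PowerSeries.X).prod =
      (β.map fun c => 1 - PowerSeries.C c * PowerSeries.X).prod := by
    ext n
    induction n using Nat.strong_induction_on with
    | _ n ih =>
      rcases Nat.eq_zero_or_pos n with rfl | hn
      · rw [zetaa_const, zetaa_const]
      · refine mul_left_cancel₀ (Nat.cast_ne_zero.2 hn.ne' : (n : ℂ) ≠ 0) ?_
        rw [← zetaa_coeff_θ, ← zetaa_coeff_θ, h1, h2, e, neg_mul, neg_mul, map_neg, map_neg,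
          zetaa_coeff_mul, zetaa_coeff_mul]
        congr 1
        refine Finset.sum_congr rfl fun m hm => ?_
        rw [ih _ (by simp only [Finset.mem_Icc] at hm; omega)]
  rw [← zetaa_coe, ← zetaa_coe, Polynomial.coe_inj] at h3
  have h4 := congrArg (Polynomial.eval 1) h3
  simpa [Polynomial.eval_multiset_prod, Multiset.map_map] using h4

open Polynomial in
theorem zetaa_reflect (α : Multiset ℂ) :
    reflect (Multiset.card α) (α.map fun c => Polynomial.X - C c).prod =
      (α.map fun c => 1 - C c * Polynomial.X).prod := by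
  induction α using Multiset.induction_on with
  | empty => simp
  | cons c α ih =>
    rw [Multiset.map_cons, Multiset.prod_cons, Multiset.map_cons, Multiset.prod_cons,
      Multiset.card_cons, add_comm, reflect_mul _ _ (natDegree_X_sub_C c).le
        (natDegree_multiset_prod_X_sub_C_eq_card α).le, ih, reflect_sub, reflect_one_X, reflect_C,
      pow_one]

/-- a complex polynomial with constant term one -/
theorem exists_recip (p : Polynomial ℂ) (h0 : p.coeff 0 = 1) :
    ∃ α : Multiset ℂ, Multiset.card α = p.natDegree ∧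
      p = (α.map fun c => 1 - Polynomial.C c * Polynomial.X).prod ∧
      (α.map fun c => -c).prod = p.leadingCoeff ∧
      ((∀ n, ∃ z : ℤ, p.coeff n = z) → ∀ c ∈ α, IsIntegral ℤ c) := by
  set q := p.reflect p.natDegree with hq
  have h1 : q.coeff p.natDegree = 1 := by
    rw [Polynomial.coeff_reflect, Polynomial.revAt_le le_rfl, Nat.sub_self, h0]
  have h2 : q.natDegree ≤ p.natDegree := Polynomial.natDegree_reflect_le.trans (max_self _).le
  have h3 : q.Monic := Polynomial.monic_of_natDegree_le_of_coeff_eq_one _ h2 h1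
  have h4 : q.natDegree = p.natDegree :=
    Polynomial.natDegree_eq_of_le_of_coeff_ne_zero h2 (h1 ▸ one_ne_zero)
  have h5 : q.roots.card = q.natDegree := IsAlgClosed.card_roots_eq_natDegree
  have h6 := Polynomial.prod_multiset_X_sub_C_of_monic_of_roots_card_eq h3 h5
  refine ⟨q.roots, h5.trans h4, ?_, ?_, fun hz c hc => ?_⟩
  · rw [← zetaa_reflect, h6, h5, h4, hq, Polynomial.reflect_reflect]
  · have h7 := congrArg (Polynomial.eval 0) h6
    rw [← Polynomial.coeff_zero_eq_eval_zero q, hq, Polynomial.coeff_reflect,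
      Polynomial.revAt_zero] at h7
    simpa [Polynomial.eval_multiset_prod, Multiset.map_map] using h7
  · obtain ⟨r, e1, -, e2⟩ := Polynomial.lifts_and_natDegree_eq_and_monic (f := algebraMap ℤ ℂ)
      ((Polynomial.lifts_iff_coeff_lifts q).2 fun n => by
        rw [hq, Polynomial.coeff_reflect]
        exact (hz _).imp fun z hz => hz.symm) h3
    refine ⟨r, e2, ?_⟩
    rw [Polynomial.eval₂_eq_eval_map, e1]
    exact (Polynomial.mem_roots h3.ne_zero).1 hc

end Vale.Agent.P019
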