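import Vale.Agent.P019.ZetaA

namespace Vale.Agent.P019

variable {X : Type*} {S : RRS X} {φ : Equiv.Perm X} {q : ℕ}

theorem zetab_map_succ (φ : Equiv.Perm X) (m : ℕ) (D : X →₀ ℤ) :
    D.mapDomain (φ ^ (m + 1) : Equiv.Perm X) = (D.mapDomain (φ ^ m : Equiv.Perm X)).mapDomain φ := by
  rw [← Finsupp.mapDomain_comp, pow_succ']; rfl

theorem RRS.Frob.pow (h : S.Frob φ q) {m : ℕ} (hm : 0 < m) : S.Frob (φ ^ m) (q ^ m) where
  two_le := h.two_le.trans (Nat.le_self_pow hm.ne' q)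
  pr D hD := by
    clear hm
    induction m with
    | zero => simpa using hD
    | succ m ih => rw [zetab_map_succ]; exact h.pr _ ih
  l_eq D := by
    clear hm
    induction m with
    | zero => simp
    | succ m ih => rw [zetab_map_succ, h.l_eq, ih]
  fin k hk := by simpa only [← pow_mul] using h.fin _ (Nat.mul_pos hm hk)
  per P := by
    obtain ⟨k, hk, e⟩ := h.per P
    exact ⟨k, hk, by rw [← pow_mul]; exact zetaa_dvd.2 ((zetaa_dvd.1 e).mul_left m)⟩
  pt := h.pt.imp fun P hP => zetaa_dvd.2 ((zetaa_dvd.1 ((pow_one φ).symm ▸ hP)).trans (one_dvd m))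
  cnt k hk D hD := by
    simpa only [← pow_mul, mul_assoc] using h.cnt _ (Nat.mul_pos hm hk) D (by rwa [pow_mul])

theorem zetab_l_congr {D E : X →₀ ℤ} (h : (D : S.Pic) = E) : S.l D = S.l E := by
  rw [← S.l_pr D _ (QuotientAddGroup.eq.1 h), add_neg_cancel_left]

theorem zetab_l_neg {D : X →₀ ℤ} (h : D.degree < 0) : S.l D = 0 := by
  by_contra h0
  obtain ⟨E, h1, h2⟩ := (S.l_pos D).1 (Nat.pos_of_ne_zero h0)
  have h3 := S.deg_pr _ h2
  have := zetaa_deg_nonneg h1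
  rw [map_sub] at h3
  omega

theorem zetab_eq_zero {E : X →₀ ℤ} (h1 : 0 ≤ E) (h2 : E.degree = 0) : E = 0 := by
  ext P
  by_contra h
  exact h ((Finset.sum_eq_zero_iff_of_nonneg fun i _ => h1 i).1 h2 P (Finsupp.mem_support_iff.2 h))

open Classical in
theorem zetab_l_zero {D : X →₀ ℤ} (h : D.degree = 0) : S.l D = if D ∈ S.Pr then 1 else 0 := by
  split_ifs with hD
  · rw [← zero_add D, S.l_pr 0 D hD, S.l_zero]
  · by_contra h0
    obtain ⟨E, h1, h2⟩ := (S.l_pos D).1 (Nat.pos_of_ne_zero h0)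
    have h3 := S.deg_pr _ h2
    rw [map_sub, h, sub_zero] at h3
    rw [zetab_eq_zero h1 h3, zero_sub, neg_mem_iff] at h2
    exact hD h2

theorem zetab_lW : S.l S.W = S.g := by
  have := S.rr 0
  rw [S.l_zero, map_zero, sub_zero] at this
  omega

theorem zetab_degW : S.W.degree = 2 * S.g - 2 := by
  have := S.rr S.W
  rw [sub_self, S.l_zero, zetab_lW] at this
  omega

theorem zetab_l_big {D : X →₀ ℤ} (h : 2 * (S.g : ℤ) - 1 ≤ D.degree) :
    (S.l D : ℤ) = D.degree + 1 - S.g := by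
  rw [S.rr, zetab_l_neg (by rw [map_sub, zetab_degW]; omega), Nat.cast_zero, add_zero]

theorem zetab_W_fix (h : S.Frob φ q) : S.W.mapDomain φ - S.W ∈ S.Pr := by
  have h1 := S.rr (S.W.mapDomain φ)
  rw [h.l_eq, zetab_lW, Finsupp.degree_mapDomain, zetab_degW,
    zetab_l_zero (by rw [map_sub, Finsupp.degree_mapDomain, sub_self])] at h1
  rw [← neg_mem_iff, neg_sub]
  by_contra h2
  rw [if_neg h2] at h1
  omega

/-- the degree zero class attached to a divisor -/
noncomputable def zcl (S : RRS X) (P₀ : X) (D : X →₀ ℤ) : S.Pic :=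
  ((D - Finsupp.single P₀ D.degree : X →₀ ℤ) : S.Pic)

/-- the dimension of the class of degree `n` attached to a class of degree zero -/
noncomputable def zl (S : RRS X) (P₀ : X) (c : S.Pic) (n : ℤ) : ℕ :=
  S.l (c.out + Finsupp.single P₀ n)

variable {P₀ : X}

theorem zl_mk (D : X →₀ ℤ) (n : ℤ) : zl S P₀ D n = S.l (D + Finsupp.single P₀ n) :=
  zetab_l_congr (by rw [QuotientAddGroup.mk_add, QuotientAddGroup.out_eq', QuotientAddGroup.mk_add])

theorem zcl_add (D E : X →₀ ℤ) : zcl S P₀ (D + E) = zcl S P₀ D + zcl S P₀ E := by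
  rw [zcl, zcl, zcl, ← QuotientAddGroup.mk_add, map_add, Finsupp.single_add, add_sub_add_comm]

theorem zcl_mem (hP : φ P₀ = P₀) {D : X →₀ ℤ} (hD : D.mapDomain φ - D ∈ S.Pr) :
    zcl S P₀ D ∈ S.fix0 φ :=
  ⟨_, rfl, by rw [map_sub, Finsupp.degree_single, sub_self], by
    rwa [zetaa_map_sub, Finsupp.mapDomain_single, hP, sub_sub_sub_cancel_right]⟩

theorem zcl_mem' (hP : φ P₀ = P₀) {D : X →₀ ℤ} (hD : D.mapDomain φ = D) : zcl S P₀ D ∈ S.fix0 φ :=
  zcl_mem hP (by rw [hD, sub_self]; exact S.Pr.zero_mem)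

theorem zetab_cnt (h : S.Frob φ q) (hP : φ P₀ = P₀) {c : S.Pic} (hc : c ∈ S.fix0 φ) (n : ℕ) :
    {E | E ∈ effFix φ n ∧ zcl S P₀ E = c}.ncard * (q - 1) = q ^ zl S P₀ c n - 1 := by
  obtain ⟨D, rfl, h1, h2⟩ := hc
  have h3 := h.cnt 1 one_pos (D + Finsupp.single P₀ (n : ℤ)) (by
    rwa [pow_one, Finsupp.mapDomain_add, Finsupp.mapDomain_single, hP, add_sub_add_right_eq_sub])
  rw [pow_one, pow_one, one_mul, ← zl_mk] at h3
  rw [← h3]
  congr 1
  refine Nat.card_congr (Equiv.subtypeEquivRight fun E => ?_)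
  have e : ∀ k : ℤ, ((E - Finsupp.single P₀ k : X →₀ ℤ) : S.Pic) = D ↔
      E - (D + Finsupp.single P₀ k) ∈ S.Pr := fun k => by
    rw [eq_comm, QuotientAddGroup.eq]
    congr! 1
    abel
  constructor
  · rintro ⟨⟨h4, h5, h6⟩, h7⟩
    rw [zcl, h5, e] at h7
    exact ⟨h4, h7, h6⟩
  · rintro ⟨h4, h5, h6⟩
    have h7 : E.degree = n := by
      have := S.deg_pr _ h5
      rw [map_sub, map_add, h1, Finsupp.degree_single] at this
      omega
    exact ⟨⟨h4, h7, h6⟩, by rw [zcl, h7, e]; exact h5⟩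

theorem zl_rr {c : S.Pic} (hc : c ∈ S.fix0 φ) (n : ℤ) : (0 ≤ n → n + 1 - S.g ≤ zl S P₀ c n) ∧
    (n < 0 → zl S P₀ c n = 0) ∧ (2 * (S.g : ℤ) - 1 ≤ n → (zl S P₀ c n : ℤ) = n + 1 - S.g) := by
  obtain ⟨D, rfl, h1, -⟩ := hc
  have e : (D + Finsupp.single P₀ n).degree = n := by
    rw [map_add, h1, Finsupp.degree_single, zero_add]
  rw [zl_mk]
  refine ⟨fun _ => ?_, fun h => zetab_l_neg (by rwa [e]), fun h => ?_⟩
  · rw [S.rr, e]; omega
  · rw [zetab_l_big (by rwa [e]), e]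

open Classical in
theorem zl_can {c : S.Pic} (hc : c ∈ S.fix0 φ) :
    zl S P₀ c (2 * S.g - 2) + 1 = S.g + if c = zcl S P₀ S.W then 1 else 0 := by
  obtain ⟨D, rfl, h1, -⟩ := hc
  have e : (D + Finsupp.single P₀ (2 * (S.g : ℤ) - 2)).degree = 2 * S.g - 2 := by
    rw [map_add, h1, Finsupp.degree_single, zero_add]
  have h2 := S.rr (D + Finsupp.single P₀ (2 * (S.g : ℤ) - 2))
  have h3 : (D : S.Pic) = zcl S P₀ S.W ↔
      S.W - (D + Finsupp.single P₀ (2 * (S.g : ℤ) - 2)) ∈ S.Pr := by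
    rw [zcl, QuotientAddGroup.eq, zetab_degW]
    congr! 1
    abel
  rw [e, zetab_l_zero (D := S.W - _) (by rw [map_sub, e, zetab_degW, sub_self])] at h2
  rw [zl_mk]
  simp only [h3]
  split_ifs at h2 ⊢ <;> omega

/-- every fixed class of degree `g` contains a fixed effective divisor (`cnt`) -/
theorem RRS.Frob.finite_fix0 (h : S.Frob φ q) : Finite (S.fix0 φ) := by
  obtain ⟨P₀, hP⟩ := h.pt
  refine (((finite_effFix h.fin S.g).image (zcl S P₀)).subset fun c hc => ?_).to_subtype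
  have h1 := zetab_cnt h hP hc S.g
  have h2 := (zl_rr (P₀ := P₀) hc S.g).1 (Nat.cast_nonneg _)
  have h3 := Nat.one_lt_pow (n := zl S P₀ c S.g) (by omega) h.two_le
  obtain ⟨E, hE⟩ := Set.nonempty_of_ncard_ne_zero (left_ne_zero_of_mul (h1.trans_ne (by omega)))
  exact ⟨E, hE⟩

/-- the coefficients of the series, indexed by the integers -/
noncomputable def za (S : RRS X) (φ : Equiv.Perm X) (q : ℕ) (P₀ : X) [Fintype (S.fix0 φ)]
    (F : S.Pic → ℂ) (n : ℤ) : ℂ :=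
  (∑ c : S.fix0 φ, F c * ((q : ℂ) ^ zl S P₀ c n - 1)) / (q - 1)

theorem zetab_q (h : S.Frob φ q) : (q : ℂ) - 1 ≠ 0 := by
  have := h.two_le
  rw [sub_ne_zero, Ne, Nat.cast_eq_one]
  omega

section

variable [Fintype (S.fix0 φ)] (F : S.Pic → ℂ)

theorem za_neg {n : ℤ} (hn : n < 0) : za S φ q P₀ F n = 0 := by
  rw [za, Finset.sum_eq_zero fun c _ => by rw [(zl_rr c.2 n).2.1 hn, pow_zero, sub_self, mul_zero],
    zero_div]

theorem za_big (k : ℕ) {n : ℤ} (hn : 2 * (S.g : ℤ) - 1 ≤ n) (hk : n + 1 - S.g = k) :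
    za S φ q P₀ F n = (∑ c : S.fix0 φ, F c) * ((q : ℂ) ^ k - 1) / (q - 1) := by
  rw [za, Finset.sum_mul]
  congr 1
  refine Finset.sum_congr rfl fun c _ => ?_
  rw [show zl S P₀ c n = k by have := (zl_rr (P₀ := P₀) c.2 n).2.2 hn; omega]

theorem za_eq (h : S.Frob φ q) (hP : φ P₀ = P₀) (n : ℕ) :
    ∑ᶠ E ∈ effFix φ n, F (zcl S P₀ E) = za S φ q P₀ F n := by
  classical
  have hf := finite_effFix h.fin n
  let T : Finset S.Pic := Finset.univ.map (Function.Embedding.subtype (· ∈ S.fix0 φ))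
  rw [finsum_mem_eq_finite_toFinset_sum _ hf, za, eq_div_iff (zetab_q h),
    ← Finset.sum_fiberwise_of_maps_to (t := T) (g := zcl S P₀) fun E hE => Finset.mem_map.2
      ⟨⟨_, zcl_mem' hP (hf.mem_toFinset.1 hE).2.2⟩, Finset.mem_univ _, rfl⟩, Finset.sum_map,
    Finset.sum_mul]
  refine Finset.sum_congr rfl fun c _ => ?_
  have h1 := congrArg (Nat.cast : ℕ → ℂ) (zetab_cnt h hP c.2 n)
  have h2 := h.two_le
  rw [Nat.cast_mul, Nat.cast_sub (by omega), Nat.cast_sub (Nat.one_le_pow _ _ (by omega)),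
    Nat.cast_pow, Nat.cast_one] at h1
  rw [Finset.sum_congr rfl fun E hE => congrArg F (Finset.mem_filter.1 hE).2, Finset.sum_const,
    nsmul_eq_mul, ← h1, mul_comm _ (F _), mul_assoc]
  congr 3
  rw [← Set.ncard_coe_finset]
  congr 1
  ext E
  simp only [Finset.coe_filter, Set.Finite.mem_toFinset]
  rfl

theorem za_zero (h : S.Frob φ q) (hP : φ P₀ = P₀) : za S φ q P₀ F (0 : ℕ) = F 0 := by
  have : effFix φ 0 = {0} := Set.ext fun E =>
    ⟨fun hE => zetab_eq_zero hE.1 hE.2.1, by rintro rfl; exact ⟨le_rfl, map_zero _, by simp⟩⟩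
  rw [← za_eq F h hP, this, finsum_mem_singleton]
  simp [zcl]

end

theorem zetab_mk_mul (u : ℤ → ℂ) (hu : u (-1) = 0) (c : ℂ) :
    PowerSeries.mk (fun n : ℕ => u n) * (1 - PowerSeries.C c * PowerSeries.X) =
      PowerSeries.mk fun n : ℕ => u n - c * u (n - 1) := by
  ext n
  rw [mul_sub, mul_one, ← mul_assoc, map_sub]
  rcases n with _ | n
  · simp [hu]
  · rw [PowerSeries.coeff_succ_mul_X, PowerSeries.coeff_mul_C]
    simp [mul_comm]

theorem zetab_trunc (u : ℕ → ℂ) (N : ℕ) (h : ∀ n, N ≤ n → u n = 0) :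
    ((PowerSeries.trunc N (PowerSeries.mk u) : Polynomial ℂ) : PowerSeries ℂ) =
      PowerSeries.mk u := by
  ext n
  rw [Polynomial.coeff_coe, PowerSeries.coeff_trunc, PowerSeries.coeff_mk]
  split_ifs with hn
  · rfl
  · exact (h n (not_lt.1 hn)).symm

/-- Let `P₀` be a fixed point, `h = card fix0`, `a n = card (effFix φ n)`. Sorting by classes,
`(q - 1) a n = ∑ (q ^ l c - 1)` over the `h` fixed classes of degree `n`. From `rr`:
`deg W = 2 g - 2`, `l W = g`, `l D = deg D + 1 - g` for `deg D ≥ 2 g - 1` and for `deg D = 2 g - 2`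
unless `D ~ W`; the class of `W` is fixed. So `L = (1 - T)(1 - q T) Z` is an integer polynomial of
degree `2 g`, constant term `1`, top coefficient `q ^ g`, and `L(1) = h`. -/
theorem RRS.Frob.zeta (h : S.Frob φ q) :
    ∃ α : Multiset ℂ, Multiset.card α = 2 * S.g ∧ α.prod = (q : ℂ) ^ S.g ∧
      (∀ c ∈ α, IsIntegral ℤ c) ∧
      (∀ m : ℕ, 0 < m → ({P | (φ ^ m) P = P}.ncard : ℂ) = 1 + (q : ℂ) ^ m - psum α m) ∧
      (Nat.card (S.fix0 φ) : ℂ) = (α.map fun c => 1 - c).prod := by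
  classical
  obtain ⟨P₀, hP⟩ := h.pt
  have := h.finite_fix0
  have := Fintype.ofFinite (S.fix0 φ)
  have q1 := zetab_q h
  let a : ℤ → ℂ := za S φ q P₀ fun _ => 1
  let b : ℤ → ℂ := fun n => a n - q * a (n - 1)
  have ea : ∀ n : ℕ, ∑ᶠ E ∈ effFix φ n, (1 : ℂ) = a n := za_eq (fun _ => 1) h hP
  have an : ∀ n < 0, a n = 0 := fun n hn => za_neg _ hn
  have ai : ∀ n, ∃ z : ℤ, a n = z := fun n => by
    rcases lt_or_ge n 0 with hn | hn
    · exact ⟨0, by simp [an n hn]⟩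
    · lift n to ℕ using hn
      exact ⟨(finite_effFix h.fin n).toFinset.card, by
        simp [← ea, finsum_mem_eq_finite_toFinset_sum _ (finite_effFix h.fin n)]⟩
  have hc : ∑ _c : S.fix0 φ, (1 : ℂ) = Nat.card (S.fix0 φ) := by simp
  have b1 : ∀ n : ℤ, 2 * (S.g : ℤ) ≤ n → b n = Nat.card (S.fix0 φ) := fun n hn => by
    obtain ⟨k, hk⟩ : ∃ k : ℕ, n - S.g = k := ⟨(n - S.g).toNat, by omega⟩
    simp only [a, b]
    rw [za_big _ (k + 1) (by omega) (by omega), za_big _ k (by omega) (by omega), hc]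
    field_simp
    ring
  have b2 : b (2 * S.g - 1) = Nat.card (S.fix0 φ) - (q : ℂ) ^ S.g := by
    have e : ∑ c : S.fix0 φ, (q : ℂ) * (1 * ((q : ℂ) ^ zl S P₀ c (2 * S.g - 1 - 1) - 1)) =
        ∑ c : S.fix0 φ, (((q : ℂ) ^ S.g - q) * 1 +
          if c = ⟨_, zcl_mem hP (zetab_W_fix h)⟩ then (q : ℂ) ^ S.g * (q - 1) else 0) := by
      refine Finset.sum_congr rfl fun c _ => ?_
      rw [one_mul, mul_sub, ← pow_succ', show 2 * (S.g : ℤ) - 1 - 1 = 2 * S.g - 2 by ring,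
        zl_can c.2]
      simp only [Subtype.ext_iff]
      split_ifs <;> ring
    rw [Finset.sum_add_distrib, Finset.sum_ite_eq', if_pos (Finset.mem_univ _), ← Finset.mul_sum,
      ← Finset.mul_sum _ _ (_ - _), hc] at e
    simp only [a, b]
    rw [za_big _ S.g le_rfl (by omega), hc, za, ← mul_div_assoc, e]
    field_simp
    ring
  have e1 : PowerSeries.mk (fun n : ℕ => a n) *
      (({(q : ℂ), 1} : Multiset ℂ).map fun c => 1 - PowerSeries.C c * PowerSeries.X).prod =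
      PowerSeries.mk fun n : ℕ => b n - 1 * b (n - 1) := by
    rw [Multiset.insert_eq_cons, Multiset.map_cons, Multiset.prod_cons, Multiset.map_singleton,
      Multiset.prod_singleton, ← mul_assoc, zetab_mk_mul a (an _ (by norm_num)),
      zetab_mk_mul b (by simp [b, an])]
  let p := PowerSeries.trunc (2 * S.g + 1) (PowerSeries.mk fun n : ℕ => b n - 1 * b (n - 1))
  have p1 : p.coeff (2 * S.g) = (q : ℂ) ^ S.g := by
    rw [PowerSeries.coeff_trunc, if_pos (Nat.lt_succ_self _), PowerSeries.coeff_mk]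
    push_cast
    rw [b1 _ le_rfl, b2]
    ring
  have p2 : p.natDegree = 2 * S.g := Polynomial.natDegree_eq_of_le_of_coeff_ne_zero
    (Nat.lt_succ_iff.1 (PowerSeries.natDegree_trunc_lt _ _))
    (p1 ▸ pow_ne_zero _ (Nat.cast_ne_zero.2 (by have := h.two_le; omega)))
  have a0 : a (0 : ℕ) = 1 := za_zero _ h hP
  obtain ⟨α, h1, h2, h3, h4⟩ := exists_recip p (by
    rw [PowerSeries.coeff_trunc, if_pos (Nat.succ_pos _), PowerSeries.coeff_mk]
    simpa [b, an] using a0)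
  refine ⟨α, h1.trans p2, ?_, h4 fun n => ?_, fun m hm => ?_, ?_⟩
  · rw [Polynomial.leadingCoeff, p2, p1, Multiset.prod_map_neg, h1, p2, pow_mul] at h3
    simpa using h3
  · rw [PowerSeries.coeff_trunc, PowerSeries.coeff_mk]
    split_ifs
    · choose z hz using ai
      exact ⟨z n - q * z (n - 1) - (z (n - 1) - q * z (n - 1 - 1)), by simp [b, hz]⟩
    · exact ⟨0, by simp⟩
  · have := psum_of_newton (fun n => a n) (fun m => ∑ᶠ P ∈ {P | (φ ^ m) P = P}, (1 : ℂ)) a0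
      (fun n => by simpa only [ea] using newton_rel h.fin (fun _ => 1) (by simp) n) α {(q : ℂ), 1}
      (by
        rw [e1, ← zetaa_coe, ← h2, zetab_trunc _ _ fun n hn => ?_]
        rw [b1 _ (by omega), b1 _ (by omega), one_mul, sub_self]) m hm
    rw [finsum_mem_eq_finite_toFinset_sum _ (h.fin m hm)] at this
    rw [Set.ncard_eq_toFinset_card _ (h.fin m hm)]
    simpa [psum, add_comm] using this
  · have h5 := congrArg (Polynomial.eval 1) h2
    have h6 := Finset.sum_range_sub (fun n : ℕ => b (n - 1)) (2 * S.g + 1)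
    rw [← Polynomial.eval₂_id, PowerSeries.eval₂_trunc_eq_sum_range] at h5
    simp only [Nat.cast_add, Nat.cast_one, add_sub_cancel_right, Nat.cast_mul, Nat.cast_ofNat,
      b1 _ le_rfl, Nat.cast_zero, zero_sub] at h6
    simpa [h6, Polynomial.eval_multiset_prod, Multiset.map_map, show b (-1) = 0 by simp [b, an]]
      using h5

/-- For a nontrivial character the coefficients `a n` vanish for `n ≥ 2 g - 1`
(`AddChar.sum_eq_zero_of_ne_one`). Extend `χ` to divisors by `D ↦ χ [D - deg D • P₀]`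
(and `0` if that class is not in `fix0`). -/
theorem RRS.Frob.lfun (h : S.Frob φ q) {P₀ : X} (hP : φ P₀ = P₀) (χ : AddChar (S.fix0 φ) ℂ)
    (hχ : χ ≠ 1) : ∃ β : Multiset ℂ, ∀ m : ℕ, 0 < m →
      (∀ P, (φ ^ m) P = P → ∀ c : S.fix0 φ,
        (c : S.Pic) = ((orb φ m P - Finsupp.single P₀ (m : ℤ) : X →₀ ℤ) : S.Pic) → χ c = 1) →
      ({P | (φ ^ m) P = P}.ncard : ℂ) = - psum β m := by
  classical
  have := h.finite_fix0
  have := Fintype.ofFinite (S.fix0 φ)
  let F : S.Pic → ℂ := fun c => if h : c ∈ S.fix0 φ then χ ⟨c, h⟩ else 0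
  have hF : ∀ c : S.fix0 φ, F c = χ c := fun c => dif_pos c.2
  have a0 : za S φ q P₀ F (0 : ℕ) = 1 := by
    rw [za_zero _ h hP]; exact (hF 0).trans χ.map_zero_eq_one
  obtain ⟨β, -, h2, -⟩ := exists_recip (PowerSeries.trunc (2 * S.g + 1)
    (PowerSeries.mk fun n : ℕ => za S φ q P₀ F n)) (by
      rw [PowerSeries.coeff_trunc, if_pos (Nat.succ_pos _), PowerSeries.coeff_mk, a0])
  refine ⟨β, fun m hm H => ?_⟩
  have := psum_of_newton (fun n => za S φ q P₀ F n)
    (fun m => ∑ᶠ P ∈ {P | (φ ^ m) P = P}, F (zcl S P₀ (orb φ m P))) a0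
    (fun n => by
      simpa only [za_eq F h hP] using newton_rel h.fin (fun D => F (zcl S P₀ D)) (fun D E hD hE => by
        rw [zcl_add]
        exact (hF (⟨_, zcl_mem' hP hD⟩ + ⟨_, zcl_mem' hP hE⟩)).trans ((χ.map_add_eq_mul _ _).trans
          (by rw [← hF, ← hF]))) n) β 0
    (by
      rw [Multiset.map_zero, Multiset.prod_zero, mul_one, ← zetaa_coe, ← h2,
        zetab_trunc _ _ fun n hn => ?_]
      rw [za_big _ (n + 1 - S.g) (by omega) (by omega)]
      simp only [hF, AddChar.sum_eq_zero_of_ne_one hχ, zero_mul, zero_div]) m hm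
  rw [finsum_mem_eq_finite_toFinset_sum _ (h.fin m hm), Finset.sum_congr rfl fun P hP' =>
    (hF ⟨_, zcl_mem' hP (zetaa_orb_fix ((h.fin m hm).mem_toFinset.1 hP'))⟩).trans
      (H P ((h.fin m hm).mem_toFinset.1 hP') _ (by simp only [zcl, zetaa_orb_deg]))] at this
  rw [Set.ncard_eq_toFinset_card _ (h.fin m hm)]
  simpa [psum] using this

end Vale.Agent.P019
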