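import Mathlib

namespace Vale.Agent.P019

noncomputable section

/-- abstract Riemann-Roch system on a set of points `X` -/
structure RRS (X : Type*) where
  Pr : AddSubgroup (X →₀ ℤ)
  l : (X →₀ ℤ) → ℕ
  g : ℕ
  W : X →₀ ℤ
  deg_pr : ∀ D ∈ Pr, D.degree = 0
  l_pr : ∀ D, ∀ E ∈ Pr, l (D + E) = l D
  l_zero : l 0 = 1
  l_pos : ∀ D, 0 < l D ↔ ∃ E, 0 ≤ E ∧ E - D ∈ Pr
  rr : ∀ D, (l D : ℤ) = D.degree + 1 - g + l (W - D)

variable {X : Type*}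

/-- divisor classes -/
abbrev RRS.Pic (S : RRS X) : Type _ := (X →₀ ℤ) ⧸ S.Pr

/-- a Frobenius -/
structure RRS.Frob (S : RRS X) (φ : Equiv.Perm X) (q : ℕ) : Prop where
  two_le : 2 ≤ q
  pr : ∀ D ∈ S.Pr, D.mapDomain φ ∈ S.Pr
  l_eq : ∀ D, S.l (D.mapDomain φ) = S.l D
  fin : ∀ m : ℕ, 0 < m → {P | (φ ^ m) P = P}.Finite
  per : ∀ P, ∃ m : ℕ, 0 < m ∧ (φ ^ m) P = P
  pt : ∃ P, φ P = P
  cnt : ∀ m : ℕ, 0 < m → ∀ D : X →₀ ℤ, D.mapDomain (φ ^ m : Equiv.Perm X) - D ∈ S.Pr →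
    Nat.card {E : X →₀ ℤ // 0 ≤ E ∧ E - D ∈ S.Pr ∧ E.mapDomain (φ ^ m : Equiv.Perm X) = E} *
      (q ^ m - 1) = q ^ (m * S.l D) - 1

/-- degree zero classes fixed by `φ` -/
def RRS.fix0 (S : RRS X) (φ : Equiv.Perm X) : AddSubgroup S.Pic where
  carrier := {c | ∃ D : X →₀ ℤ, (D : S.Pic) = c ∧ D.degree = 0 ∧ D.mapDomain φ - D ∈ S.Pr}
  add_mem' := by
    rintro _ _ ⟨D, rfl, h1, h2⟩ ⟨E, rfl, h3, h4⟩
    refine ⟨D + E, rfl, by rw [map_add, h1, h3, add_zero], ?_⟩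
    rw [Finsupp.mapDomain_add, add_sub_add_comm]
    exact S.Pr.add_mem h2 h4
  zero_mem' := ⟨0, rfl, map_zero _, by simp⟩
  neg_mem' := by
    rintro _ ⟨D, rfl, h1, h2⟩
    refine ⟨-D, rfl, by rw [map_neg, h1, neg_zero], ?_⟩
    have : (-D).mapDomain φ = - D.mapDomain φ := map_neg (Finsupp.mapDomain.addMonoidHom φ) D
    rw [this, neg_sub_neg, ← neg_sub]
    exact S.Pr.neg_mem h2

/-- the divisor `P + φ P + … + φ^(m-1) P` -/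
def orb (φ : Equiv.Perm X) (m : ℕ) (P : X) : X →₀ ℤ :=
  ∑ i ∈ Finset.range m, Finsupp.single ((φ ^ i) P) 1

/-- effective divisors of degree `n` fixed by `φ` -/
def effFix (φ : Equiv.Perm X) (n : ℕ) : Set (X →₀ ℤ) :=
  {E | 0 ≤ E ∧ E.degree = n ∧ E.mapDomain φ = E}

/-- power sum -/
def psum (α : Multiset ℂ) (m : ℕ) : ℂ := (α.map (· ^ m)).sum

end

end Vale.Agent.P019
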